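import Mathlib

/-!
P065 upper bound project: definitions for the additive-combinatorial part.
-/

namespace Vale.Agent.P065.U

open Finset

/-- `k S - k S` for the values `Y` on the index set `S`. -/
def SumSet (Y : ℤ → ℝ) (S : Finset ℤ) (k : ℕ) : Set ℝ :=
  {z | ∃ f g : Fin k → ℤ, (∀ j, f j ∈ S) ∧ (∀ j, g j ∈ S) ∧ z = ∑ j, Y (f j) - ∑ j, Y (g j)}

/-- `Z` is covered by at most `M` closed balls of radius `r`. -/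
def Cn (Z : Set ℝ) (r M : ℝ) : Prop :=
  ∃ F : Finset ℝ, (F.card : ℝ) ≤ M ∧ ∀ z ∈ Z, ∃ f ∈ F, |z - f| ≤ r

/-- `t * S` is contained in `F + (k S - k S) + [-r, r]` with `|F| ≤ L`. -/
def CovT (Y : ℤ → ℝ) (S : Finset ℤ) (k : ℕ) (L r t : ℝ) : Prop :=
  ∃ F : Finset ℝ, (F.card : ℝ) ≤ L ∧ ∀ y ∈ S, ∃ f ∈ F, ∃ z ∈ SumSet Y S k, |t * Y y - f - z| ≤ r

/-- `t` is a signed sum of at most eight terms `ν i` or `ν i * ν j`. -/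
def Poly (nu : ℕ → ℝ) (Nn : Finset ℕ) (t : ℝ) : Prop :=
  ∃ (s : Fin 8 → ℤ) (a b : Fin 8 → ℝ), (∀ j, |s j| ≤ 1) ∧ (∀ j, ∃ i ∈ Nn, a j = nu i) ∧
    (∀ j, b j = 1 ∨ ∃ i ∈ Nn, b j = nu i) ∧ t = ∑ j, (s j : ℝ) * a j * b j

/-- The set `den * S + num * S`. -/
def Lin (Y : ℤ → ℝ) (S : Finset ℤ) (den num : ℝ) : Set ℝ :=
  {z | ∃ y ∈ S, ∃ y' ∈ S, z = den * Y y + num * Y y'}

end Vale.Agent.P065.U
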