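import Mathlib

/-!
P065/U task BSG: Balog-Szemeredi-Gowers, bipartite graph form, in the integers.

Proof (Tao-Vu 6.19, 6.20, 2.29). Put κ = K^3, so |G| ≥ |A||B|/κ, and |A|,|B| ≥ C/K^2.
Let A1 = vertices of A of G-degree ≥ |B|/(2κ); they carry ≥ |A||B|/(2κ) edges. For b ∈ B let
N b = {a ∈ A1 | (a,b) ∈ G}. Call (a,a') bad if codeg(a,a') < θ|B|, θ = 1/(128 κ^3).
Σ_b |N b|^2 ≥ |B||A|^2/(4κ^2) (Cauchy-Schwarz) and Σ_b #bad pairs in (N b)^2 ≤ θ|B||A|^2, so some b
has |N b|^2 - 16κ·#bad ≥ |A|^2/(8κ^2). Put A2 = N b: |A2| ≥ |A|/(3κ), #bad ≤ |A2|^2/(16κ).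
A' = {a ∈ A2 | at most |A2|/(8κ) bad partners in A2}, |A'| ≥ |A2|/2.
B' = {b' ∈ B | at least |A2|/(4κ) neighbours in A2}; A2 sends ≥ |A2||B|/(2κ) edges so |B'| ≥ |B|/(4κ).
For a ∈ A', b' ∈ B' there are ≥ (|A2|/(8κ))·θ|B| pairs (a',b'') with (a,b''),(a',b''),(a',b') ∈ G,
and a+b' = (a+b'') - (a'+b'') + (a'+b'). For each z ∈ A'+B' fix (a,b'); (a',b'') ↦ the triple of
sums is injective and the triple determines z, so |A'+B'|·|A2|θ|B|/(8κ) ≤ (K C)^3.
-/

namespace Vale.Agent.P065.U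

open Finset Pointwise

private theorem bsg_split {α : Type*} (s : Finset α) (f : α → ℝ) {t : ℝ} (ht : 0 ≤ t)
    [DecidablePred fun x => t ≤ f x] :
    ∑ x ∈ s, f x ≤ ∑ x ∈ s.filter fun x => t ≤ f x, f x + s.card * t := by
  rw [← sum_filter_add_sum_filter_not s fun x => t ≤ f x]
  gcongr
  refine (sum_le_card_nsmul _ _ t fun x hx => (not_le.1 (mem_filter.1 hx).2).le).trans ?_
  rw [nsmul_eq_mul]
  gcongr
  exact filter_subset _ _

private theorem bsg_swap {α β : Type*} (s : Finset α) (t : Finset β) (r : α → β → Prop)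
    [∀ x y, Decidable (r x y)] : ∑ x ∈ s, ((t.filter fun y => r x y).card : ℝ) =
      ∑ y ∈ t, ((s.filter fun x => r x y).card : ℝ) := by
  simp only [card_filter]
  push_cast
  exact sum_comm

private theorem bsg_prod {α β : Type*} (s : Finset α) (t : Finset β) (r : α → β → Prop)
    [∀ x y, Decidable (r x y)] : (((s ×ˢ t).filter fun p => r p.1 p.2).card : ℝ) =
      ∑ x ∈ s, ((t.filter fun y => r x y).card : ℝ) := by
  simp only [card_filter]
  push_cast
  exact sum_product _ _ _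

/-- the dense core with few bad pairs -/
private theorem bsg_core {α β : Type*} (A : Finset α) (B : Finset β) (r : α → β → Prop)
    [∀ x y, Decidable (r x y)] {κ : ℝ} (hκ : 0 < κ) (hB : B.Nonempty)
    (he : A.card * B.card / κ ≤ ∑ x ∈ A, ((B.filter fun y => r x y).card : ℝ))
    (bad : α → α → Prop) [∀ x y, Decidable (bad x y)]
    (hb : ∀ x x', bad x x' →
      ((B.filter fun y => r x y ∧ r x' y).card : ℝ) ≤ B.card / (128 * κ ^ 3)) :
    ∃ A2 ⊆ A, (∀ x ∈ A2, B.card / (2 * κ) ≤ ((B.filter fun y => r x y).card : ℝ)) ∧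
      A.card / (3 * κ) ≤ (A2.card : ℝ) ∧
      ∑ x ∈ A2, ((A2.filter fun x' => bad x x').card : ℝ) ≤ A2.card ^ 2 / (16 * κ) := by
  classical
  have hb0 : (0 : ℝ) < B.card := Nat.cast_pos.2 hB.card_pos
  set A1 := A.filter fun x => B.card / (2 * κ) ≤ ((B.filter fun y => r x y).card : ℝ) with hA1
  have h1 : A.card * B.card / (2 * κ) ≤ ∑ y ∈ B, ((A1.filter fun x => r x y).card : ℝ) := by
    have h := he.trans (bsg_split A _ (t := B.card / (2 * κ)) (by positivity))
    rw [← bsg_swap]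
    have e : (A.card : ℝ) * B.card / κ = A.card * B.card / (2 * κ) + A.card * (B.card / (2 * κ)) := by
      field_simp
      ring
    linarith
  have h2 : (A.card : ℝ) ^ 2 * B.card / (4 * κ ^ 2) ≤
      ∑ y ∈ B, ((A1.filter fun x => r x y).card : ℝ) ^ 2 := by
    have h := (pow_le_pow_left₀ (by positivity) h1 2).trans sq_sum_le_card_mul_sum_sq
    refine le_of_mul_le_mul_left (le_of_eq_of_le ?_ h) hb0
    field_simp
    ring
  have h3 : ∑ y ∈ B, ((((A ×ˢ A).filter fun p => bad p.1 p.2).filter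
      fun p => r p.1 y ∧ r p.2 y).card : ℝ) ≤ A.card ^ 2 * (B.card / (128 * κ ^ 3)) := by
    rw [← bsg_swap _ B fun (p : α × α) y => r p.1 y ∧ r p.2 y]
    refine (sum_le_card_nsmul _ _ _ fun p hp => hb _ _ (mem_filter.1 hp).2).trans ?_
    rw [nsmul_eq_mul]
    gcongr
    rw [sq, ← Nat.cast_mul, ← card_product]
    exact Nat.cast_le.2 (card_filter_le _ _)
  obtain ⟨y, -, hy⟩ := exists_le_of_sum_le hB (f := fun y => (A.card : ℝ) ^ 2 / (8 * κ ^ 2) +
      16 * κ * ((((A ×ˢ A).filter fun p => bad p.1 p.2).filter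
        fun p => r p.1 y ∧ r p.2 y).card : ℝ))
      (g := fun y => ((A1.filter fun x => r x y).card : ℝ) ^ 2) (by
    rw [sum_add_distrib, ← mul_sum, sum_const, nsmul_eq_mul]
    refine le_trans (le_of_le_of_eq (add_le_add le_rfl
      (mul_le_mul_of_nonneg_left h3 (by positivity))) ?_) h2
    field_simp
    ring)
  have hs : (A1.filter fun x => r x y) ⊆ A := (filter_subset _ _).trans (filter_subset _ _)
  refine ⟨_, hs, fun x hx => (mem_filter.1 (mem_filter.1 hx).1).2, ?_, ?_⟩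
  · refine (sq_le_sq₀ (by positivity) (by positivity)).1 ?_
    refine le_trans ?_ (le_trans (le_add_of_nonneg_right (by positivity)) hy)
    rw [div_pow]
    gcongr
    nlinarith [sq_nonneg κ]
  · rw [← bsg_prod, le_div_iff₀' (by positivity)]
    refine le_trans ?_ (le_trans (le_add_of_nonneg_left (by positivity)) hy)
    gcongr
    intro p hp
    simp only [mem_filter, mem_product] at hp ⊢
    exact ⟨⟨⟨hs (mem_filter.2 hp.1.1), hs (mem_filter.2 hp.1.2)⟩, hp.2⟩, hp.1.1.2, hp.1.2.2⟩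

/-- many paths of length three -/
private theorem bsg_paths {α β : Type*} (A : Finset α) (B : Finset β) (r : α → β → Prop)
    [∀ x y, Decidable (r x y)] {κ : ℝ} (hκ : 0 < κ) (hA : A.Nonempty) (hB : B.Nonempty)
    (he : A.card * B.card / κ ≤ ∑ x ∈ A, ((B.filter fun y => r x y).card : ℝ)) :
    ∃ A' ⊆ A, ∃ B' ⊆ B, A.card / (6 * κ) ≤ (A'.card : ℝ) ∧ B.card / (4 * κ) ≤ (B'.card : ℝ) ∧
      ∀ x ∈ A', ∀ y ∈ B', A.card * B.card / (3072 * κ ^ 5) ≤
        (((A ×ˢ B).filter fun p => r x p.2 ∧ r p.1 p.2 ∧ r p.1 y).card : ℝ) := by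
  classical
  obtain ⟨A2, h1, h2, h3, h4⟩ := bsg_core A B r hκ hB he
    (fun x x' => ((B.filter fun y => r x y ∧ r x' y).card : ℝ) ≤ B.card / (128 * κ ^ 3))
    fun _ _ h => h
  have ha : (0 : ℝ) < A.card := Nat.cast_pos.2 hA.card_pos
  have hn : (0 : ℝ) < A2.card := lt_of_lt_of_le (by positivity) h3
  set f : α → ℝ := fun x => ((A2.filter fun x' =>
    ((B.filter fun y => r x y ∧ r x' y).card : ℝ) ≤ B.card / (128 * κ ^ 3)).card : ℝ) with hf
  refine ⟨A2.filter fun x => f x ≤ A2.card / (8 * κ), (filter_subset _ _).trans h1,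
    B.filter fun y => A2.card / (4 * κ) ≤ ((A2.filter fun x => r x y).card : ℝ),
    filter_subset _ _, ?_, ?_, fun x hx y hy => ?_⟩
  · have h5 : ((A2.filter fun x => ¬f x ≤ A2.card / (8 * κ)).card : ℝ) * (A2.card / (8 * κ)) ≤
        A2.card ^ 2 / (16 * κ) := by
      rw [← nsmul_eq_mul]
      refine (card_nsmul_le_sum _ f _ fun x hx => (not_le.1 (mem_filter.1 hx).2).le).trans
        (le_trans (sum_le_sum_of_subset_of_nonneg (filter_subset _ _) fun _ _ _ => ?_) h4)
      positivity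
    have h6 : ((A2.filter fun x => ¬f x ≤ A2.card / (8 * κ)).card : ℝ) ≤ A2.card / 2 := by
      refine le_of_mul_le_mul_right (h5.trans_eq ?_) (by positivity : 0 < A2.card / (8 * κ))
      field_simp
      ring
    have h7 := congrArg (Nat.cast : ℕ → ℝ)
      (card_filter_add_card_filter_not (s := A2) fun x => f x ≤ A2.card / (8 * κ))
    push_cast at h7
    have e : (A.card : ℝ) / (6 * κ) = A.card / (3 * κ) / 2 := by
      field_simp
      ring
    linarith
  · have h5 : A2.card * (B.card / (2 * κ)) ≤ ∑ y ∈ B, ((A2.filter fun x => r x y).card : ℝ) := by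
      rw [← bsg_swap, ← nsmul_eq_mul]
      exact card_nsmul_le_sum _ _ _ h2
    have h6 := h5.trans (bsg_split B _ (t := A2.card / (4 * κ)) (by positivity))
    have h7 := sum_le_card_nsmul
      (B.filter fun y => A2.card / (4 * κ) ≤ ((A2.filter fun x => r x y).card : ℝ))
      (fun y => ((A2.filter fun x => r x y).card : ℝ)) (A2.card : ℝ)
      fun y _ => Nat.cast_le.2 (card_filter_le _ _)
    rw [nsmul_eq_mul] at h7
    refine le_of_mul_le_mul_right ?_ hn
    have e : (A2.card : ℝ) * (B.card / (2 * κ)) =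
        B.card / (4 * κ) * A2.card + B.card * (A2.card / (4 * κ)) := by
      field_simp
      ring
    linarith
  · set S := A2.filter fun x' => r x' y ∧
      ¬((B.filter fun y => r x y ∧ r x' y).card : ℝ) ≤ B.card / (128 * κ ^ 3) with hS
    have h5 : ((A2.filter fun x => r x y).card : ℝ) ≤ S.card + f x := by
      rw [hf, ← Nat.cast_add, Nat.cast_le]
      refine (card_le_card fun x' hx' => ?_).trans (card_union_le _ _)
      simp only [hS, mem_filter, mem_union] at hx' ⊢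
      tauto
    have h6 : A2.card / (8 * κ) ≤ (S.card : ℝ) := by
      have e : (A2.card : ℝ) / (4 * κ) = A2.card / (8 * κ) + A2.card / (8 * κ) := by
        field_simp
        ring
      linarith [(mem_filter.1 hx).2, (mem_filter.1 hy).2]
    rw [bsg_prod A B fun x' y' => r x y' ∧ r x' y' ∧ r x' y]
    calc (A.card : ℝ) * B.card / (3072 * κ ^ 5)
        = A.card / (3 * κ) / (8 * κ) * (B.card / (128 * κ ^ 3)) := by
          field_simp
          ring
      _ ≤ S.card * (B.card / (128 * κ ^ 3)) := by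
          gcongr
          exact le_trans (by gcongr) h6
      _ ≤ ∑ x' ∈ S, ((B.filter fun y' => r x y' ∧ r x' y' ∧ r x' y).card : ℝ) := by
          rw [← nsmul_eq_mul]
          refine card_nsmul_le_sum _ _ _ fun x' hx' => ?_
          simpa only [(mem_filter.1 hx').2.1, and_true] using (not_le.1 (mem_filter.1 hx').2.2).le
      _ ≤ _ := sum_le_sum_of_subset_of_nonneg ((filter_subset _ _).trans h1)
          fun _ _ _ => Nat.cast_nonneg _

theorem bsg : ∃ c : ℕ, ∀ (A B : Finset ℤ) (G : Finset (ℤ × ℤ)) (K C : ℝ), 2 ≤ K → 0 < C →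
    G ⊆ A ×ˢ B → (A.card : ℝ) ≤ K * C → (B.card : ℝ) ≤ K * C → C ^ 2 / K ≤ G.card →
    ((G.image fun g => g.1 + g.2).card : ℝ) ≤ K * C →
    ∃ A' ⊆ A, ∃ B' ⊆ B, C / K ^ c ≤ A'.card ∧ C / K ^ c ≤ B'.card ∧
      ((A' + B').card : ℝ) ≤ K ^ c * C := by
  refine ⟨31, fun A B G K C hK hC hG hA hB he hS => ?_⟩
  have hK0 : 0 < K := by linarith
  have h1 : (G.card : ℝ) ≤ A.card * B.card := by
    rw [← Nat.cast_mul, ← card_product]
    exact Nat.cast_le.2 (card_le_card hG)
  have h2 : C ^ 2 / K ≤ A.card * B.card := he.trans h1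
  have ha : C / K ^ 2 ≤ A.card := by
    refine le_of_mul_le_mul_right (le_of_eq_of_le ?_ (h2.trans
      (mul_le_mul_of_nonneg_left hB (Nat.cast_nonneg _)))) (by positivity)
    field_simp
  have hb : C / K ^ 2 ≤ B.card := by
    refine le_of_mul_le_mul_left (le_of_eq_of_le ?_ (h2.trans
      (mul_le_mul_of_nonneg_right hA (Nat.cast_nonneg _)))) (by positivity)
    field_simp
  have hp : ∀ n : ℕ, (2 : ℝ) ^ n ≤ K ^ n := fun n => by gcongr
  obtain ⟨A', h3, B', h4, h5, h6, h7⟩ := bsg_paths A B (fun x y => (x, y) ∈ G) (κ := K ^ 3)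
    (by positivity) (card_pos.1 (Nat.cast_pos.1 (lt_of_lt_of_le (by positivity) ha)))
    (card_pos.1 (Nat.cast_pos.1 (lt_of_lt_of_le (by positivity) hb))) (by
      rw [← bsg_prod A B fun x y => (x, y) ∈ G, filter_mem_eq_inter, inter_eq_right.2 hG]
      refine le_trans ?_ he
      calc (A.card : ℝ) * B.card / K ^ 3 ≤ K * C * (K * C) / K ^ 3 := by gcongr
        _ = _ := by field_simp)
  have h8 : ∀ t : ℝ, 0 < t → t ≤ 8 → C / K ^ 31 ≤ C / K ^ 2 / (t * K ^ 3) := fun t h0 ht => by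
    rw [div_div]
    gcongr
    calc K ^ 2 * (t * K ^ 3) = t * K ^ 5 := by ring
      _ ≤ K ^ 26 * K ^ 5 := by
          gcongr
          exact ht.trans (le_trans (by norm_num) (hp 26))
      _ = _ := by ring
  refine ⟨A', h3, B', h4, (h8 6 (by norm_num) (by norm_num)).trans (le_trans (by gcongr) h5),
    (h8 4 (by norm_num) (by norm_num)).trans (le_trans (by gcongr) h6), ?_⟩
  set S := G.image fun g => g.1 + g.2 with hS'
  have h9 : ∀ z ∈ A' + B', C ^ 2 / K / (3072 * (K ^ 3) ^ 5) ≤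
      (((S ×ˢ S ×ˢ S).filter fun t => t.1 - t.2.1 + t.2.2 = z).card : ℝ) := fun z hz => by
    obtain ⟨x, hx, y, hy, rfl⟩ := mem_add.1 hz
    refine le_trans (by gcongr) ((h7 x hx y hy).trans (Nat.cast_le.2 ?_))
    refine card_le_card_of_injOn (fun p => (x + p.2, p.1 + p.2, p.1 + y)) (fun p hp => ?_)
      fun p _ q _ e => ?_
    · have h := (mem_filter.1 (mem_coe.1 hp)).2
      refine mem_coe.2 (mem_filter.2 ⟨mem_product.2 ⟨mem_image.2 ⟨_, h.1, rfl⟩,
        mem_product.2 ⟨mem_image.2 ⟨_, h.2.1, rfl⟩, mem_image.2 ⟨_, h.2.2, rfl⟩⟩⟩, ?_⟩)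
      ring
    · simp only [Prod.mk.injEq] at e
      exact Prod.ext (by omega) (by omega)
  have h10 := card_nsmul_le_sum _ _ _ h9
  rw [nsmul_eq_mul, ← Nat.cast_sum, sum_card_fiberwise_eq_card_filter] at h10
  have h11 : (((S ×ˢ S ×ˢ S).filter fun t => t.1 - t.2.1 + t.2.2 ∈ A' + B').card : ℝ) ≤
      K * C * (K * C * (K * C)) := by
    refine (Nat.cast_le.2 (card_filter_le _ _)).trans ?_
    rw [card_product, card_product]
    push_cast
    gcongr
  refine le_of_mul_le_mul_right ((h10.trans h11).trans ?_) (by positivity)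
  calc K * C * (K * C * (K * C)) = 3072 * (K ^ 3 * C ^ 3 / 3072) := by ring
    _ ≤ K ^ 12 * (K ^ 3 * C ^ 3 / 3072) := by
        gcongr
        exact le_trans (by norm_num) (hp 12)
    _ = _ := by field_simp

end Vale.Agent.P065.U
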