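import Vale.Agent.P065.U.Win

/-!
P065/U task Ball: few rich points are close to a given point.

`two_rel`: if fewer than |R|/10 points have ≥ |R|/400 above and below for r1, then the points with few
below, or those with few above, form a set Z with |Z| ≥ 0.45|R| and ≤ |Z||R|/400 r1-related pairs.
Points of Z with < |R|/400 r2-below form a set Lo with |Lo|(|Lo|-1)/2 ≤ |Lo||R|/400 + |Z||R|/400, so
|Lo| ≤ 0.08|R| (|R| ≥ 1000); same for above.

`arc_le`: let q1, ..., ql be the left ends in chain order. Each edge but the last lies between q1 and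
ql and is crossed by ≥ n/(d L) fine edges of later windows, all on distinct chains (`sep_unique` at
β = al j (u+1)). For such a chain h, ql is not in Epi (`epi_out`, `chain_le`), and q1 is in Epi
(`epi_in` from β to the slope of the crossing edge) unless pos h β has abscissa in [q1.1, ql.1]
(≤ xc chains). So (l - 1) n/(d L) ≤ dd q1 ql ≤ 2 r.

`ball`: pigeonhole the pair of windows (u,u') (≤ 16^(2j) ≤ L^8): R. Relations r_v q q' :=
fv α q < fv α q' ∧ fv β q < fv β q' for v = u, u'; two distinct points are r_v-related unless their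
slope lies in window v, so `two_rel` applies. It gives v and ≥ |R|/10 points q, each with ≥ d/L edges
of gfi in window v. The chain c of such an edge either has pos c α or pos c β in the x-range of R
(≤ 2·2r chains), or has ≥ |R|/400 points of R in Epi (those r_v-above q, `epi_in`) and ≥ |R|/400 outside
(`epi_out`); since Σ_c in·out ≤ Σ dd q q' ≤ 2r|R|², there are ≤ 320000 r of these. With `arc_le`:
(|R|/10)(d/L) ≤ 320004 r·(1 + 2 r d L/n) ≤ 10^6 r² d L/n. Also r²/n ≥ d ≥ 1.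
-/

namespace Vale.Agent.P065.U

open Finset Classical

theorem ball_lo {ι : Type*} (R Z : Finset ι) (s t : ι → ι → Prop) (hZ : Z ⊆ R)
    (h : ∀ q ∈ R, ∀ q' ∈ R, q ≠ q' → s q q' ∨ s q' q ∨ t q q' ∨ t q' q)
    (hs : ∀ q ∈ Z, 400 * (R.filter fun q' => s q q').card < R.card)
    (ht : ∀ q ∈ Z, 400 * (R.filter fun q' => t q q').card < R.card) :
    100 * Z.card ≤ R.card + 100 := by
  have h1 : ∀ q ∈ Z, Z.card ≤ 1 + ((Z.filter fun q' => s q q').card +
      (Z.filter fun q' => s q' q).card + (Z.filter fun q' => t q q').card +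
      (Z.filter fun q' => t q' q).card) := by
    intro q hq
    have a1 : Z.erase q ⊆ (Z.filter fun q' => s q q') ∪ (Z.filter fun q' => s q' q) ∪
        (Z.filter fun q' => t q q') ∪ (Z.filter fun q' => t q' q) := by
      intro q' hq'
      obtain ⟨b1, b2⟩ := mem_erase.1 hq'
      have := h q (hZ hq) q' (hZ b2) b1.symm
      simp only [mem_union, mem_filter, b2, true_and]
      tauto
    have a2 := card_le_card a1
    rw [card_erase_of_mem hq] at a2
    have a3 := card_union_le ((Z.filter fun q' => s q q') ∪ (Z.filter fun q' => s q' q) ∪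
      (Z.filter fun q' => t q q')) (Z.filter fun q' => t q' q)
    have a4 := card_union_le ((Z.filter fun q' => s q q') ∪ (Z.filter fun q' => s q' q))
      (Z.filter fun q' => t q q')
    have a5 := card_union_le (Z.filter fun q' => s q q') (Z.filter fun q' => s q' q)
    omega
  have h2 : ∀ w : ι → ι → Prop, ∑ q ∈ Z, (Z.filter fun q' => w q' q).card =
      ∑ q ∈ Z, (Z.filter fun q' => w q q').card := fun w => by
    simp only [card_filter]
    exact sum_comm
  have h3 : ∀ w : ι → ι → Prop, (∀ q ∈ Z, 400 * (R.filter fun q' => w q q').card < R.card) →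
      400 * ∑ q ∈ Z, (Z.filter fun q' => w q q').card ≤ Z.card * R.card := fun w hw => by
    rw [mul_sum, ← smul_eq_mul]
    refine sum_le_card_nsmul _ _ _ fun q hq => le_trans ?_ (hw q hq).le
    exact Nat.mul_le_mul_left _ (card_le_card (filter_subset_filter _ hZ))
  have h4 := sum_le_sum h1
  simp only [sum_add_distrib, sum_const, smul_eq_mul, mul_one] at h4
  rw [h2 s, h2 t] at h4
  have h5 := h3 s hs
  have h6 := h3 t ht
  rcases Nat.eq_zero_or_pos Z.card with h0 | h0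
  · omega
  · refine Nat.le_of_mul_le_mul_left ?_ h0
    nlinarith

theorem two_rel {ι : Type*} (R : Finset ι) (r1 r2 : ι → ι → Prop)
    (h : ∀ q ∈ R, ∀ q' ∈ R, q ≠ q' → r1 q q' ∨ r1 q' q ∨ r2 q q' ∨ r2 q' q) (hR : 1000 ≤ R.card) :
    R.card ≤ 10 * (R.filter fun q => R.card ≤ 400 * (R.filter fun q' => r1 q q').card ∧
      R.card ≤ 400 * (R.filter fun q' => r1 q' q).card).card ∨
    R.card ≤ 10 * (R.filter fun q => R.card ≤ 400 * (R.filter fun q' => r2 q q').card ∧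
      R.card ≤ 400 * (R.filter fun q' => r2 q' q).card).card := by
  by_contra hn
  rw [not_or, not_le, not_le] at hn
  obtain ⟨n1, n2⟩ := hn
  set G1 := R.filter fun q => R.card ≤ 400 * (R.filter fun q' => r1 q q').card ∧
      R.card ≤ 400 * (R.filter fun q' => r1 q' q).card with hG1
  set G2 := R.filter fun q => R.card ≤ 400 * (R.filter fun q' => r2 q q').card ∧
      R.card ≤ 400 * (R.filter fun q' => r2 q' q).card with hG2
  set Lo : (ι → ι → Prop) → (ι → ι → Prop) → Finset ι := fun s t => R.filter fun q =>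
    400 * (R.filter fun q' => s q q').card < R.card ∧
      400 * (R.filter fun q' => t q q').card < R.card with hLo
  have key : ∀ s t : ι → ι → Prop,
      (∀ q ∈ R, ∀ q' ∈ R, q ≠ q' → s q q' ∨ s q' q ∨ t q q' ∨ t q' q) →
      100 * (Lo s t).card ≤ R.card + 100 := fun s t hst =>
    ball_lo R _ s t (filter_subset _ _) hst (fun q hq => (mem_filter.1 hq).2.1)
      fun q hq => (mem_filter.1 hq).2.2
  have k1 := key r1 r2 h
  have k2 := key r1 (fun a b => r2 b a) fun q hq q' hq' hne => by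
    have := h q hq q' hq' hne; tauto
  have k3 := key (fun a b => r1 b a) r2 fun q hq q' hq' hne => by
    have := h q hq q' hq' hne; tauto
  have k4 := key (fun a b => r1 b a) (fun a b => r2 b a) fun q hq q' hq' hne => by
    have := h q hq q' hq' hne; tauto
  have hsub : R ⊆ G1 ∪ G2 ∪ Lo r1 r2 ∪ Lo r1 (fun a b => r2 b a) ∪ Lo (fun a b => r1 b a) r2 ∪
      Lo (fun a b => r1 b a) (fun a b => r2 b a) := by
    intro q hq
    simp only [hG1, hG2, hLo, mem_union, mem_filter, hq, true_and]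
    omega
  have h1 := card_le_card hsub
  have h2 := card_union_le (G1 ∪ G2 ∪ Lo r1 r2 ∪ Lo r1 (fun a b => r2 b a) ∪
    Lo (fun a b => r1 b a) r2) (Lo (fun a b => r1 b a) (fun a b => r2 b a))
  have h3 := card_union_le (G1 ∪ G2 ∪ Lo r1 r2 ∪ Lo r1 (fun a b => r2 b a))
    (Lo (fun a b => r1 b a) r2)
  have h4 := card_union_le (G1 ∪ G2 ∪ Lo r1 r2) (Lo r1 (fun a b => r2 b a))
  have h5 := card_union_le (G1 ∪ G2) (Lo r1 r2)
  have h6 := card_union_le G1 G2
  omega

theorem ball_mid {a b θ : ℝ} {p q : Pt} (ha : fv a p < fv a q) (hb : fv b p < fv b q) (h1 : a ≤ θ)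
    (h2 : θ ≤ b) : fv θ p < fv θ q := by
  unfold fv at *
  rcases le_total p.1 q.1 with h | h
  · nlinarith [mul_nonneg (sub_nonneg.2 h2) (sub_nonneg.2 h)]
  · nlinarith [mul_nonneg (sub_nonneg.2 h1) (sub_nonneg.2 h)]

theorem ball_xr {P : Finset Pt} (T : Tok P) (a : ℕ) (θ : ℝ) (z z' : Pt) :
    ((T.lab a).filter fun h => min z.1 z'.1 ≤ (T.pos a h θ).1 ∧
      (T.pos a h θ).1 ≤ max z.1 z'.1).card ≤ xc P z z' :=
  card_le_card_of_injOn (fun h => T.pos a h θ)
    (fun _ hh => mem_coe.2 (mem_filter.2 ⟨T.pos_mem _ _ (mem_filter.1 hh).1 _, (mem_filter.1 hh).2⟩))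
    fun _ hh _ hh' e => T.pos_inj _ _ (mem_filter.1 hh).1 _ (mem_filter.1 hh').1 _ e

theorem ball_sep {P : Finset Pt} (T : Tok P) (hP : Gen P) {a : ℕ} {c : Pt} {ea e ez f : Ed} {β : ℝ}
    (ha : ea ∈ T.chain a c) (he : e ∈ T.chain a c) (hz : ez ∈ T.chain a c) (hf : f ∈ edges P a)
    (h1 : sl ea ≤ sl e) (h2 : sl e < sl ez) (h3 : sl ez < β) (h4 : β ≤ sl f) (hx : XC e f) :
    ¬ (T.Epi a (T.ch a f) ea.1 ↔ T.Epi a (T.ch a f) ez.1) ∨
      (min ea.1.1 ez.1.1 ≤ (T.pos a (T.ch a f) β).1 ∧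
        (T.pos a (T.ch a f) β).1 ≤ max ea.1.1 ez.1.1) := by
  have px : ∀ {g : Ed}, g ∈ T.chain a c → g.1.1 < g.2.1 := fun hg =>
    (mem_prs.1 (edges_sub _ _ (T.mem_chain.1 hg).1)).2.2
  have fx : f.1.1 < f.2.1 := (mem_prs.1 (edges_sub _ _ hf)).2.2
  obtain ⟨x1, x2, x3, x4, x5⟩ := hx
  have o1 : ¬ T.Epi a (T.ch a f) ez.1 := by
    refine T.epi_out hf (lt_of_le_of_lt ?_ x5)
    have := T.chain_le hP he hz h2 (fun p => -fv (sl f) p) fun g hg _ g2 =>
      neg_le_neg ((fv_gt_iff (px hg) _).2 (by linarith)).le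
    exact neg_le_neg_iff.1 this
  have l1 : ∀ φ : Pt → ℝ, (∀ g ∈ T.chain a c, sl g < β → φ g.1 ≤ φ g.2) → φ ea.1 ≤ φ e.1 := by
    intro φ hφ
    rcases h1.eq_or_lt with h | h
    · rw [sl_inj hP (T.mem_chain.1 ha).1 (T.mem_chain.1 he).1 h]
    · exact (hφ ea ha (by linarith)).trans
        (T.chain_le hP ha he h φ fun g hg _ g2 => hφ g hg (by linarith))
  have hc := T.ch_mem a f hf
  have y1 : f.1.1 < e.2.1 := by
    rw [fv_sl (px he)] at x2
    unfold fv at x2 x5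
    by_contra hh
    nlinarith [mul_nonneg (sub_nonneg.2 x1.le) (sub_nonneg.2 (not_lt.1 hh))]
  have x4' : fv (sl f) f.2 < fv (sl f) e.1 := fv_sl fx ▸ x4
  have y2 : e.1.1 < f.2.1 := by
    unfold fv at x3 x4'
    by_contra hh
    nlinarith [mul_nonneg (sub_nonneg.2 x1.le) (sub_nonneg.2 (not_lt.1 hh))]
  have y3 : e.2.1 ≤ ez.1.1 := T.chain_le hP he hz h2 Prod.fst fun g hg _ _ => (px hg).le
  have y4 : (T.pos a (T.ch a f) β).1 ≤ f.1.1 := by
    have := T.pos_x_mono hP hc h4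
    rwa [T.pos_at a f hf] at this
  by_cases hh : ea.1.1 ≤ (T.pos a (T.ch a f) β).1
  · exact Or.inr ⟨(min_le_left _ _).trans hh, le_trans (by linarith) (le_max_right _ _)⟩
  · refine Or.inl fun hi => o1 (hi.1 ?_)
    obtain ⟨θ', t1, -, t3⟩ := T.pos_succ hP hf (lt_add_one (sl f))
    refine T.epi_in hP hc (h4.trans t1.le) (not_le.1 hh).le ?_ fun θ u1 _ => ?_
    · rw [t3]
      exact (l1 Prod.fst fun g hg _ => (px hg).le).trans y2.le
    · have v1 : fv θ e.1 ≤ fv θ ea.1 := neg_le_neg_iff.1 (l1 (fun p => -fv θ p) fun g hg g1 =>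
        neg_le_neg ((fv_gt_iff (px hg) _).2 (by linarith)).le)
      refine le_trans ?_ v1
      rcases le_total θ (sl f) with w | w
      · exact (T.pos_min_left hP hf θ).trans (ball_mid x2 x4 (by linarith) w).le
      · refine (T.pos_min_right hP hf θ).trans ?_
        unfold fv at x4' ⊢
        nlinarith [mul_nonneg (sub_nonneg.2 w) (sub_nonneg.2 y2.le)]

theorem Cfg.arc_le (X : Cfg) (L r : ℝ) (hL : 0 < L) (j u : ℕ) (c : Pt) (R : Finset Pt)
    (hR : ∀ q ∈ R, ∀ q' ∈ R, (X.T.dd X.k q q' : ℝ) ≤ 2 * r) (hr : 0 ≤ r) :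
    (((X.win (X.gfi j L) j u).filter fun e => X.T.ch X.k e = c ∧ e.1 ∈ R).card : ℝ) ≤
      1 + 2 * r * X.d * L / X.n := by
  set A := (X.win (X.gfi j L) j u).filter fun e => X.T.ch X.k e = c ∧ e.1 ∈ R with hA
  have hd := X.d_pos
  have hn : 0 < X.n := by rw [X.n_eq]; positivity
  rcases A.eq_empty_or_nonempty with h0 | h0
  · rw [h0, card_empty, Nat.cast_zero]
    positivity
  have hm : ∀ e ∈ A, e ∈ X.T.chain X.k c ∧ e.1 ∈ R ∧ X.wi j (sl e) = u ∧ X.n / (X.d * L) ≤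
      ((X.F.filter fun f => XC e f ∧ X.wi j (sl e) < X.wi j (sl f)).card : ℝ) := by
    intro e he
    obtain ⟨h1, h2, h3⟩ := mem_filter.1 he
    obtain ⟨h4, h5⟩ := mem_filter.1 h1
    obtain ⟨h6, h7⟩ := mem_filter.1 h4
    exact ⟨X.T.mem_chain.2 ⟨h6, h2⟩, h3, h5, h7⟩
  have hβ : ∀ e ∈ A, sl e < X.al j (u + 1) := fun e he => by
    rw [← (hm e he).2.2.1]
    exact (X.wi_spec j (X.F_sub (X.T.mem_chain.1 (hm e he).1).1)).2
  have hβ' : ∀ e ∈ A, ∀ f ∈ X.F, X.wi j (sl e) < X.wi j (sl f) → X.al j (u + 1) ≤ sl f := by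
    intro e he f hf h
    rw [(hm e he).2.2.1] at h
    exact (X.al_mono j h).trans (X.wi_spec j (X.F_sub hf)).1.le
  obtain ⟨ea, ha, ha'⟩ := exists_min_image A sl h0
  obtain ⟨ez, hz, hz'⟩ := exists_max_image A sl h0
  set S := (A.erase ez).sigma fun e => X.F.filter fun f => XC e f ∧ X.wi j (sl e) < X.wi j (sl f)
    with hS
  have h1 : ((A.erase ez).card : ℝ) * (X.n / (X.d * L)) ≤ S.card := by
    rw [hS, card_sigma, ← nsmul_eq_mul]
    push_cast
    exact card_nsmul_le_sum _ _ _ fun e he => (hm e (mem_of_mem_erase he)).2.2.2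
  have h2 : S.card ≤ (((X.T.lab X.k).filter fun h => ¬ (X.T.Epi X.k h ea.1 ↔ X.T.Epi X.k h ez.1)) ∪
      (X.T.lab X.k).filter fun h => min ea.1.1 ez.1.1 ≤ (X.T.pos X.k h (X.al j (u + 1))).1 ∧
        (X.T.pos X.k h (X.al j (u + 1))).1 ≤ max ea.1.1 ez.1.1).card := by
    refine card_le_card_of_injOn (fun p => X.T.ch X.k p.2) (fun p hp => ?_) fun p hp p' hp' hpp => ?_
    · obtain ⟨b1, b2⟩ := mem_sigma.1 (mem_coe.1 hp)
      obtain ⟨b3, b4⟩ := mem_erase.1 b1
      obtain ⟨b5, b6, b7⟩ := mem_filter.1 b2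
      have b8 : sl p.1 < sl ez := lt_of_le_of_ne (hz' _ b4) fun h => b3 (sl_inj X.gen
        (X.T.mem_chain.1 (hm _ b4).1).1 (X.T.mem_chain.1 (hm _ hz).1).1 h)
      rcases ball_sep X.T X.gen (hm _ ha).1 (hm _ b4).1 (hm _ hz).1 b5 (ha' _ b4) b8 (hβ _ hz)
        (hβ' _ b4 _ b5 b7) b6 with h | h
      · exact mem_coe.2 (mem_union_left _ (mem_filter.2 ⟨X.T.ch_mem _ _ b5, h⟩))
      · exact mem_coe.2 (mem_union_right _ (mem_filter.2 ⟨X.T.ch_mem _ _ b5, h⟩))
    · obtain ⟨b1, b2⟩ := mem_sigma.1 (mem_coe.1 hp)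
      obtain ⟨b5, b6, b7⟩ := mem_filter.1 b2
      obtain ⟨c1, c2⟩ := mem_sigma.1 (mem_coe.1 hp')
      obtain ⟨c5, c6, c7⟩ := mem_filter.1 c2
      have b4 := mem_of_mem_erase b1
      have c4 := mem_of_mem_erase c1
      obtain ⟨d1, d2⟩ := X.T.sep_unique X.gen (hm _ b4).1 (hm _ c4).1 (X.T.mem_chain.2 ⟨b5, hpp⟩)
        (X.T.mem_chain.2 ⟨c5, rfl⟩) (hβ _ b4) (hβ _ c4) (hβ' _ b4 _ b5 b7) (hβ' _ c4 _ c5 c7)
        b6.wx c6.wx
      exact Sigma.ext d1 (heq_of_eq d2)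
  have h3 : S.card ≤ X.T.dd X.k ea.1 ez.1 :=
    h2.trans ((card_union_le _ _).trans (Nat.add_le_add_left (ball_xr X.T _ _ _ _) _))
  have h4 := (h1.trans (Nat.cast_le.2 h3)).trans (hR _ (hm _ ha).2.1 _ (hm _ hz).2.1)
  rw [card_erase_of_mem hz, Nat.cast_sub h0.card_pos, Nat.cast_one, ← mul_div_assoc,
    div_le_iff₀ (by positivity)] at h4
  rw [← sub_le_iff_le_add', le_div_iff₀ hn]
  linarith

theorem ball_four {a b a' b' : ℝ} (h1 : a ≤ b) (h2 : b ≤ a') (h3 : a' ≤ b') {q q' : Pt}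
    (g : fv b q ≠ fv b q') :
    (fv a q < fv a q' ∧ fv b q < fv b q') ∨ (fv a q' < fv a q ∧ fv b q' < fv b q) ∨
      (fv a' q < fv a' q' ∧ fv b' q < fv b' q') ∨ (fv a' q' < fv a' q ∧ fv b' q' < fv b' q) := by
  unfold fv at *
  have k1 := sub_nonneg.2 h1
  have k2 := sub_nonneg.2 h2
  have k3 := sub_nonneg.2 (h2.trans h3)
  rcases le_total q.1 q'.1 with h | h <;> rcases lt_or_gt_of_ne g with g | g <;>
    have k := sub_nonneg.2 h
  · exact Or.inl ⟨by nlinarith [mul_nonneg k1 k], g⟩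
  · exact Or.inr (Or.inr (Or.inr ⟨by nlinarith [mul_nonneg k2 k], by nlinarith [mul_nonneg k3 k]⟩))
  · exact Or.inr (Or.inr (Or.inl ⟨by nlinarith [mul_nonneg k2 k], by nlinarith [mul_nonneg k3 k]⟩))
  · exact Or.inr (Or.inl ⟨by nlinarith [mul_nonneg k1 k], g⟩)

theorem ball_cut {P : Finset Pt} (T : Tok P) (a : ℕ) {R : Finset Pt} {r : ℝ} (h0 : R.Nonempty)
    (hR : ∀ q ∈ R, ∀ q' ∈ R, (T.dd a q q' : ℝ) ≤ 2 * r) :
    (((T.lab a).filter fun c => R.card ≤ 400 * (R.filter fun q => T.Epi a c q).card ∧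
      R.card ≤ 400 * (R.filter fun q => ¬ T.Epi a c q).card).card : ℝ) ≤ 320000 * r := by
  set B := (T.lab a).filter fun c => R.card ≤ 400 * (R.filter fun q => T.Epi a c q).card ∧
      R.card ≤ 400 * (R.filter fun q => ¬ T.Epi a c q).card with hB
  have h1 : B.card * (R.card * R.card) ≤ 160000 * ∑ c ∈ T.lab a,
      (R.filter fun q => T.Epi a c q).card * (R.filter fun q => ¬ T.Epi a c q).card := by
    rw [mul_sum, ← smul_eq_mul]
    refine (card_nsmul_le_sum _ _ _ fun c hc => ?_).trans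
      (sum_le_sum_of_subset (filter_subset _ _))
    exact (Nat.mul_le_mul (mem_filter.1 hc).2.1 (mem_filter.1 hc).2.2).trans_eq (by ring)
  have h2 : ∑ c ∈ T.lab a, (R.filter fun q => T.Epi a c q).card *
      (R.filter fun q => ¬ T.Epi a c q).card ≤ ∑ q ∈ R, ∑ q' ∈ R, T.dd a q q' := by
    simp only [card_filter, sum_mul_sum]
    rw [sum_comm]
    refine sum_le_sum fun q _ => ?_
    rw [sum_comm]
    refine sum_le_sum fun q' _ => le_trans ?_ (Nat.le_add_right _ _)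
    rw [card_filter]
    refine sum_le_sum fun c _ => ?_
    by_cases e1 : T.Epi a c q <;> by_cases e2 : T.Epi a c q' <;> simp [e1, e2]
  have h3 : ((∑ q ∈ R, ∑ q' ∈ R, T.dd a q q' : ℕ) : ℝ) ≤ R.card * (R.card * (2 * r)) := by
    push_cast
    rw [← nsmul_eq_mul, ← nsmul_eq_mul]
    exact sum_le_card_nsmul _ _ _ fun q hq => sum_le_card_nsmul _ _ _ fun q' hq' => hR q hq q' hq'
  have h4 : (B.card : ℝ) * (R.card * R.card) ≤
      160000 * ((∑ q ∈ R, ∑ q' ∈ R, T.dd a q q' : ℕ) : ℝ) := by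
    exact_mod_cast h1.trans (Nat.mul_le_mul_left _ h2)
  have hp : (0 : ℝ) < R.card := by exact_mod_cast h0.card_pos
  refine le_of_mul_le_mul_right ?_ (mul_pos hp hp)
  linarith

theorem Cfg.ball_core (X : Cfg) {L r : ℝ} {j v : ℕ} (hL : 2 ≤ L) (hr : X.n / X.d ≤ r)
    {R G : Finset Pt} (hP : R ⊆ X.P) (hR : ∀ q ∈ R, ∀ q' ∈ R, (X.T.dd X.k q q' : ℝ) ≤ 2 * r)
    (hG : G ⊆ R) (hc : R.card ≤ 10 * G.card)
    (hdeg : ∀ q ∈ G, X.d / L ≤ (((X.win (X.gfi j L) j v).filter fun e => e.1 = q).card : ℝ))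
    (hrel : ∀ q ∈ G, R.card ≤ 400 * (@Finset.filter _ (fun q' => fv (X.al j v) q < fv (X.al j v) q' ∧
        fv (X.al j (v + 1)) q < fv (X.al j (v + 1)) q') (fun _ => propDecidable _) R).card ∧
      R.card ≤ 400 * (@Finset.filter _ (fun q' => fv (X.al j v) q' < fv (X.al j v) q ∧
        fv (X.al j (v + 1)) q' < fv (X.al j (v + 1)) q) (fun _ => propDecidable _) R).card) :
    (R.card : ℝ) ≤ 2 ^ 24 * (L ^ 2 * (r ^ 2 / X.n)) := by
  have hd := X.d_pos
  have hn : 0 < X.n := by rw [X.n_eq]; positivity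
  have hr0 : 0 < r := lt_of_lt_of_le (by positivity) hr
  rcases R.eq_empty_or_nonempty with h0 | h0
  · rw [h0, card_empty, Nat.cast_zero]
    positivity
  obtain ⟨xl, hl, hl'⟩ := exists_min_image R Prod.fst h0
  obtain ⟨xr, hx, hx'⟩ := exists_max_image R Prod.fst h0
  set E := (X.win (X.gfi j L) j v).filter fun e => e.1 ∈ G with hE
  have h1 : (G.card : ℝ) * (X.d / L) ≤ E.card := by
    rw [hE, ← sum_card_fiberwise_eq_card_filter, ← nsmul_eq_mul]
    push_cast
    exact card_nsmul_le_sum _ _ _ hdeg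
  set C := ((X.T.lab X.k).filter fun h => min xl.1 xr.1 ≤ (X.T.pos X.k h (X.al j v)).1 ∧
      (X.T.pos X.k h (X.al j v)).1 ≤ max xl.1 xr.1) ∪
    ((X.T.lab X.k).filter fun h => min xl.1 xr.1 ≤ (X.T.pos X.k h (X.al j (v + 1))).1 ∧
      (X.T.pos X.k h (X.al j (v + 1))).1 ≤ max xl.1 xr.1) ∪
    (X.T.lab X.k).filter fun c => R.card ≤ 400 * (R.filter fun q => X.T.Epi X.k c q).card ∧
      R.card ≤ 400 * (R.filter fun q => ¬ X.T.Epi X.k c q).card with hC
  have h2 : ∀ e ∈ E, X.T.ch X.k e ∈ C := by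
    intro e he
    obtain ⟨a1, a2⟩ := mem_filter.1 he
    obtain ⟨a3, a4⟩ := mem_filter.1 a1
    have a5 : e ∈ edges X.P X.k := (mem_filter.1 a3).1
    have a6 := X.wi_spec j (X.F_sub a5)
    rw [a4] at a6
    have hc := X.T.ch_mem _ _ a5
    have b1 := X.T.pos_x_mono X.gen hc a6.1.le
    have b2 := X.T.pos_x_mono X.gen hc a6.2.le
    rw [X.T.pos_at _ _ a5] at b1 b2
    have b3 := hl' _ (hG a2)
    have b4 := hx' _ (hG a2)
    by_cases c1 : xl.1 ≤ (X.T.pos X.k (X.T.ch X.k e) (X.al j v)).1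
    · exact mem_union_left _ (mem_union_left _ (mem_filter.2 ⟨hc, (min_le_left _ _).trans c1,
        (b1.trans b4).trans (le_max_right _ _)⟩))
    by_cases c2 : (X.T.pos X.k (X.T.ch X.k e) (X.al j (v + 1))).1 ≤ xr.1
    · exact mem_union_left _ (mem_union_right _ (mem_filter.2 ⟨hc,
        (min_le_left _ _).trans (b3.trans b2), c2.trans (le_max_right _ _)⟩))
    refine mem_union_right _ (mem_filter.2 ⟨hc,
      (hrel _ a2).1.trans (Nat.mul_le_mul_left _ (card_le_card fun q hq => ?_)),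
      (hrel _ a2).2.trans (Nat.mul_le_mul_left _ (card_le_card fun q hq => ?_))⟩)
    · obtain ⟨d1, d2, d3⟩ := (@mem_filter _ _ (fun _ => propDecidable _) _ _).1 hq
      refine mem_filter.2 ⟨d1, X.T.epi_in X.gen hc (a6.1.trans a6.2).le
        ((not_le.1 c1).le.trans (hl' q d1)) ((hx' q d1).trans (not_le.1 c2).le) fun θ t1 t2 => ?_⟩
      exact (X.T.pos_min_left X.gen a5 θ).trans (ball_mid d2 d3 t1 t2).le
    · obtain ⟨d1, d2, d3⟩ := (@mem_filter _ _ (fun _ => propDecidable _) _ _).1 hq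
      exact mem_filter.2 ⟨d1, X.T.epi_out a5 (ball_mid d2 d3 a6.1.le a6.2.le)⟩
  have h3 : (E.card : ℝ) ≤ C.card * (1 + 2 * r * X.d * L / X.n) := by
    rw [card_eq_sum_card_fiberwise (fun e he => mem_coe.2 (h2 e (mem_coe.1 he))), ← nsmul_eq_mul]
    push_cast
    refine sum_le_card_nsmul _ _ _ fun c _ => le_trans (Nat.cast_le.2 (card_le_card fun e he => ?_))
      (X.arc_le L r (by linarith) j v c R hR hr0.le)
    obtain ⟨a1, a2⟩ := mem_filter.1 he
    exact mem_filter.2 ⟨(mem_filter.1 a1).1, a2, hG (mem_filter.1 a1).2⟩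
  have h4 : (xc X.P xl xr : ℝ) ≤ 2 * r :=
    le_trans (Nat.cast_le.2 (Nat.le_add_left _ _)) (hR xl hl xr hx)
  have h5 : (C.card : ℝ) ≤ 320004 * r := by
    have a1 := ball_cut X.T X.k h0 hR
    have a2 := (card_union_le _ _).trans (Nat.add_le_add_right ((card_union_le _ _).trans
      (Nat.add_le_add (ball_xr X.T X.k (X.al j v) xl xr) (ball_xr X.T X.k (X.al j (v + 1)) xl xr)))
      ((X.T.lab X.k).filter fun c => R.card ≤ 400 * (R.filter fun q => X.T.Epi X.k c q).card ∧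
        R.card ≤ 400 * (R.filter fun q => ¬ X.T.Epi X.k c q).card).card)
    have a3 : (C.card : ℝ) ≤ _ := Nat.cast_le.2 a2
    push_cast at a3
    linarith
  have h6 : 1 ≤ r * X.d * L / X.n := by
    rw [div_le_iff₀ hd] at hr
    rw [le_div_iff₀ hn]
    nlinarith [mul_pos hr0 hd]
  have h7 : (R.card : ℝ) ≤ 10 * G.card := by exact_mod_cast hc
  have h8 : (G.card : ℝ) * (X.d / L) ≤ 320004 * r * (3 * (r * X.d * L / X.n)) := by
    refine h1.trans (h3.trans (mul_le_mul h5 ?_ (by positivity) (by positivity)))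
    have : 2 * r * X.d * L / X.n = 2 * (r * X.d * L / X.n) := by ring
    linarith
  have hL0 : 0 < L := by linarith
  have h9 : (G.card : ℝ) ≤ 960012 * (L ^ 2 * (r ^ 2 / X.n)) := by
    refine le_of_mul_le_mul_right (h8.trans_eq ?_) (div_pos hd hL0)
    field_simp
    norm_num
  have : 0 ≤ L ^ 2 * (r ^ 2 / X.n) := by positivity
  linarith

theorem Cfg.ball : ∃ c : ℕ, ∀ (X : Cfg) (L r : ℝ) (j : ℕ) (z : Pt), 2 ≤ L → (2 : ℝ) ^ j ≤ L →
    X.n / X.d ≤ r →
    ((X.P.filter fun q => X.Rich j L q ∧ (X.T.dd X.k z q : ℝ) ≤ r).card : ℝ) ≤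
      L ^ c * r ^ 2 / X.n := by
  refine ⟨34, fun X L r j z hL hj hr => ?_⟩
  have hd := X.d_pos
  have hd1 := X.one_le_d
  have hn : 0 < X.n := by rw [X.n_eq]; positivity
  have hr2 : X.d ^ 2 ≤ r := by
    refine le_trans (le_of_eq ?_) hr
    rw [X.n_eq]
    field_simp
  have hr1 : 1 ≤ r ^ 2 / X.n := by
    rw [le_div_iff₀ hn, X.n_eq]
    nlinarith [pow_le_pow_left₀ (by positivity) hr2 2, pow_le_pow_right₀ hd1 (by norm_num : 3 ≤ 4)]
  set S := X.P.filter fun q => X.Rich j L q ∧ (X.T.dd X.k z q : ℝ) ≤ r with hS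
  set W : ℕ × ℕ → Finset Pt := fun p => S.filter fun q => p.1 < p.2 ∧
    X.d / L ≤ (((X.win (X.gfi j L) j p.1).filter fun e => e.1 = q).card : ℝ) ∧
    X.d / L ≤ (((X.win (X.gfi j L) j p.2).filter fun e => e.1 = q).card : ℝ) with hW
  have hsub : S ⊆ (range (16 ^ j) ×ˢ range (16 ^ j)).biUnion W := by
    intro q hq
    obtain ⟨-, u, u', h1, h2, h3⟩ := (mem_filter.1 hq).2.1
    have h4 : u' < 16 ^ j := by
      by_contra hh
      rw [X.win_empty _ (not_lt.1 hh), filter_empty, card_empty, Nat.cast_zero] at h3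
      exact absurd h3 (not_le.2 (by positivity))
    exact mem_biUnion.2 ⟨(u, u'), mem_product.2 ⟨mem_range.2 (h1.trans h4), mem_range.2 h4⟩,
      mem_filter.2 ⟨hq, h1, h2, h3⟩⟩
  have hWle : ∀ p, ((W p).card : ℝ) ≤ L ^ 26 * r ^ 2 / X.n := by
    intro p
    have hWP : W p ⊆ X.P := (filter_subset _ _).trans (filter_subset _ _)
    have h24 : (2 : ℝ) ^ 24 ≤ L ^ 24 := pow_le_pow_left₀ (by norm_num) hL 24
    have hL2 : 1 ≤ L ^ 2 := one_le_pow₀ (by linarith)
    have hfin : ((W p).card : ℝ) ≤ 2 ^ 24 * (L ^ 2 * (r ^ 2 / X.n)) →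
        ((W p).card : ℝ) ≤ L ^ 26 * r ^ 2 / X.n := fun h =>
      h.trans ((mul_le_mul_of_nonneg_right h24 (by positivity)).trans_eq (by ring))
    apply hfin
    by_cases hs : (W p).card < 1000
    · have : ((W p).card : ℝ) ≤ 1000 := by exact_mod_cast hs.le
      nlinarith [one_le_mul_of_one_le_of_one_le hL2 hr1]
    have hdd : ∀ q ∈ W p, ∀ q' ∈ W p, (X.T.dd X.k q q' : ℝ) ≤ 2 * r := by
      intro q hq q' hq'
      have h1 := X.T.dd_tri X.k q z q'
      rw [X.T.dd_comm X.k q z] at h1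
      have h2 : (X.T.dd X.k q q' : ℝ) ≤ X.T.dd X.k z q + X.T.dd X.k z q' := by exact_mod_cast h1
      linarith [(mem_filter.1 (mem_filter.1 hq).1).2.2, (mem_filter.1 (mem_filter.1 hq').1).2.2]
    obtain ⟨q0, hq0⟩ := card_pos.1 (by omega : 0 < (W p).card)
    have hlt : p.1 + 1 ≤ p.2 := (mem_filter.1 hq0).2.1
    have m1 := X.al_mono j (Nat.le_succ p.1)
    have m2 := X.al_mono j hlt
    have m3 := X.al_mono j (Nat.le_succ p.2)
    rcases two_rel (W p)
      (fun q q' => fv (X.al j p.1) q < fv (X.al j p.1) q' ∧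
        fv (X.al j (p.1 + 1)) q < fv (X.al j (p.1 + 1)) q')
      (fun q q' => fv (X.al j p.2) q < fv (X.al j p.2) q' ∧
        fv (X.al j (p.2 + 1)) q < fv (X.al j (p.2 + 1)) q') (fun q hq q' hq' hne => by
        have g := fun h => hne (X.al_gen j (p.1 + 1) q (hWP hq) q' (hWP hq') h)
        have := ball_four m1 m2 m3 g
        tauto) (not_lt.1 hs) with h | h
    · exact X.ball_core hL hr hWP hdd (filter_subset _ _) h
        (fun q hq => (mem_filter.1 (mem_filter.1 hq).1).2.2.1) fun q hq => (mem_filter.1 hq).2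
    · exact X.ball_core hL hr hWP hdd (filter_subset _ _) h
        (fun q hq => (mem_filter.1 (mem_filter.1 hq).1).2.2.2) fun q hq => (mem_filter.1 hq).2
  have h1 : (S.card : ℝ) ≤ ∑ p ∈ range (16 ^ j) ×ˢ range (16 ^ j), ((W p).card : ℝ) := by
    exact_mod_cast (card_le_card hsub).trans card_biUnion_le
  have h2 := sum_le_card_nsmul _ _ _ fun p (_ : p ∈ range (16 ^ j) ×ˢ range (16 ^ j)) => hWle p
  rw [card_product, card_range, nsmul_eq_mul] at h2
  have h3 : ((16 ^ j * 16 ^ j : ℕ) : ℝ) ≤ L ^ 8 := by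
    have : ((16 ^ j * 16 ^ j : ℕ) : ℝ) = ((2 : ℝ) ^ j) ^ 8 := by
      push_cast
      rw [← mul_pow, ← pow_mul, mul_comm j 8, pow_mul]
      norm_num
    rw [this]
    exact pow_le_pow_left₀ (by positivity) hj 8
  refine (h1.trans h2).trans ((mul_le_mul_of_nonneg_right h3 (by positivity)).trans_eq (by ring))

end Vale.Agent.P065.U
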