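import Vale.Agent.P065.U.TokApi

/-!
P065/U task Budget: crossings are charged to common tangents (Dey).

`tangent`. g = chain of e, h = chain of e', φ_c θ = fv θ (pos c θ) is continuous (a minimum of finitely
many affine functions by `pos_min`). dθ = φ_g θ - φ_h θ is > 0 at sl e and < 0 at sl e'. Let τ be the
first zero after sl e. By `pos_left`, u = pos g τ and v = pos h τ are the positions slightly before
τ, where d > 0, so u ≠ v; and fv τ u = fv τ v.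
`budget`. (e,e') ↦ (lev e, lev e', u, v) is injective: u ≠ v fix τ (`xinj`), `pos_inj` fixes the
chains, `sep_unique` the edges. u, v are endpoints of edges with slope in [α,β] (`pos_end`, `pos_start`).
`budget_loc`. If u, v both have φ in [lo,hi], count as before. Otherwise φ u > hi or φ v < lo (φ is
monotone along the chains in the window). For a pair of chains (g,h) at most one crossing has
φ u > hi: for two, with τ1 < τ2, the edge e2 ∈ G comes before u1, so sl e2 < τ1 ≤ sl e2' and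
`sep_unique` at τ1 identifies them. Symmetrically for φ v < lo with the larger τ.
-/

namespace Vale.Agent.P065.U

open Finset Classical

theorem budget_cont {P : Finset Pt} (hP : Gen P) (T : Tok P) {a : ℕ} {c : Pt} (hc : c ∈ T.lab a) :
    Continuous fun θ => fv θ (T.pos a c θ) := by
  refine (LipschitzWith.of_le_add_mul' (∑ p ∈ P, |p.1|) fun x y => ?_).continuous
  have h1 := T.pos_min hP hc x y
  have h2 : |(T.pos a c y).1| ≤ ∑ p ∈ P, |p.1| :=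
    single_le_sum (f := fun p : Pt => |p.1|) (fun _ _ => abs_nonneg _) (T.pos_mem a c hc y)
  have h3 := mul_le_mul_of_nonneg_right h2 (abs_nonneg (x - y))
  have h4 := neg_abs_le ((T.pos a c y).1 * (x - y))
  rw [abs_mul] at h4
  rw [Real.dist_eq]
  simp only [fv] at h1 ⊢
  linarith

theorem tangent {P : Finset Pt} (hP : Gen P) (T : Tok P) {a a' : ℕ} {e e' : Ed}
    (he : e ∈ edges P a) (he' : e' ∈ edges P a') (h : WX e e') :
    ∃ τ, sl e < τ ∧ τ < sl e' ∧ T.pos a (T.ch a e) τ ≠ T.pos a' (T.ch a' e') τ ∧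
      fv τ (T.pos a (T.ch a e) τ) = fv τ (T.pos a' (T.ch a' e') τ) := by
  have hc := T.ch_mem a e he
  have hc' := T.ch_mem a' e' he'
  have hd := (budget_cont hP T hc).sub (budget_cont hP T hc')
  have h1 : 0 < fv (sl e) (T.pos a (T.ch a e) (sl e)) - fv (sl e) (T.pos a' (T.ch a' e') (sl e)) := by
    rw [T.pos_at a e he]
    linarith [T.pos_min_left hP he' (sl e), h.2.1]
  have h2 : fv (sl e') (T.pos a (T.ch a e) (sl e')) -
      fv (sl e') (T.pos a' (T.ch a' e') (sl e')) < 0 := by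
    rw [T.pos_at a' e' he']
    linarith [T.pos_min_right hP he (sl e'), h.2.2.2.2]
  obtain ⟨τ, ⟨h3, h4⟩, h5⟩ := (isCompact_Icc.inter_right (isClosed_eq hd continuous_zero)).exists_isLeast
    (intermediate_value_Icc' h.1.le hd.continuousOn ⟨h2.le, h1.le⟩)
  have h6 : sl e < τ := h3.1.lt_of_ne fun t => h1.ne' (t ▸ h4)
  refine ⟨τ, h6, h3.2.lt_of_ne fun t => h2.ne (t ▸ h4), fun t => ?_, sub_eq_zero.1 h4⟩
  obtain ⟨x, hx, hx'⟩ := T.pos_left hP hc τ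
  obtain ⟨y, hy, hy'⟩ := T.pos_left hP hc' τ
  have h7 : max (sl e) (max x y) < τ := max_lt h6 (max_lt hx hy)
  refine (h5 ⟨⟨le_max_left _ _, h7.le.trans h3.2⟩, sub_eq_zero.2 ?_⟩).not_gt h7
  beta_reduce
  rw [hx' _ (le_max_of_le_right (le_max_left _ _)) h7.le,
    hy' _ (le_max_of_le_right (le_max_right _ _)) h7.le, t]

theorem budget_self {P : Finset Pt} {e : Ed} (he : e ∈ prs P) : e ∈ edges P (lev P e) :=
  mem_filter.2 ⟨he, rfl⟩

/-- `τ` is the slope of a common tangent of the chains of `e` and `e'`. -/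
def BudgetTan {P : Finset Pt} (T : Tok P) (a a' : ℕ) (x : Ed × Ed) (τ : ℝ) : Prop :=
  sl x.1 < τ ∧ τ < sl x.2 ∧ T.pos a (T.ch a x.1) τ ≠ T.pos a' (T.ch a' x.2) τ ∧
    fv τ (T.pos a (T.ch a x.1) τ) = fv τ (T.pos a' (T.ch a' x.2) τ)

theorem budget_ex {P : Finset Pt} (hP : Gen P) (T : Tok P) : ∃ τ : ℕ → ℕ → Ed × Ed → ℝ,
    ∀ a a' x, x.1 ∈ edges P a → x.2 ∈ edges P a' → WX x.1 x.2 → BudgetTan T a a' x (τ a a' x) := by
  choose! τ h using fun a a' (x : Ed × Ed) (h1 : x.1 ∈ edges P a) (h2 : x.2 ∈ edges P a')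
    (h3 : WX x.1 x.2) => tangent hP T h1 h2 h3
  exact ⟨τ, h⟩

theorem budget_inj {P : Finset Pt} (hP : Gen P) (T : Tok P) {a a' : ℕ} {x y : Ed × Ed} {τ σ : ℝ}
    (x1 : x.1 ∈ edges P a) (x2 : x.2 ∈ edges P a') (y1 : y.1 ∈ edges P a) (y2 : y.2 ∈ edges P a')
    (wx : WX x.1 x.2) (wy : WX y.1 y.2) (hx : BudgetTan T a a' x τ) (hy : BudgetTan T a a' y σ)
    (hu : T.pos a (T.ch a x.1) τ = T.pos a (T.ch a y.1) σ)
    (hv : T.pos a' (T.ch a' x.2) τ = T.pos a' (T.ch a' y.2) σ) : x = y := by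
  have h1 := hy.2.2.2
  have h2 := hx.2.2.2
  rw [← hu, ← hv] at h1
  have h3 : τ = σ := by
    refine mul_right_cancel₀ (sub_ne_zero.2 fun t => hx.2.2.1 (hP.xinj _
      (T.pos_mem _ _ (T.ch_mem _ _ x1) _) _ (T.pos_mem _ _ (T.ch_mem _ _ x2) _) t)) ?_
    simp only [fv] at h1 h2
    linarith
  subst h3
  have h4 := T.pos_inj _ _ (T.ch_mem _ _ x1) _ (T.ch_mem _ _ y1) _ hu
  have h5 := T.pos_inj _ _ (T.ch_mem _ _ x2) _ (T.ch_mem _ _ y2) _ hv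
  exact Prod.ext_iff.2 (T.sep_unique hP (T.mem_chain.2 ⟨x1, h4⟩) (T.mem_chain.2 ⟨y1, rfl⟩)
    (T.mem_chain.2 ⟨x2, h5⟩) (T.mem_chain.2 ⟨y2, rfl⟩) hx.1 hy.1 hx.2.1.le hy.2.1.le wx wy)

theorem budget_ends {P : Finset Pt} (hP : Gen P) (T : Tok P) {a a' : ℕ} {x : Ed × Ed} {τ α β : ℝ}
    (x1 : x.1 ∈ edges P a) (x2 : x.2 ∈ edges P a') (hx : BudgetTan T a a' x τ) (h1 : α ≤ sl x.1)
    (h2 : sl x.2 ≤ β) : T.pos a (T.ch a x.1) τ ∈ ends (slIn (edges P a) α β) ∧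
      T.pos a' (T.ch a' x.2) τ ∈ ends (slIn (edges P a') α β) := by
  obtain ⟨f, f1, f2, f3, f4⟩ := T.pos_end hP (T.mem_chain.2 ⟨x1, rfl⟩) hx.1
  obtain ⟨g, g1, g2, g3, g4⟩ := T.pos_start hP (T.mem_chain.2 ⟨x2, rfl⟩) hx.2.1.le
  exact ⟨mem_ends.2 ⟨f, mem_filter.2 ⟨(T.mem_chain.1 f1).1, h1.trans f2,
      (f3.trans hx.2.1).le.trans h2⟩, Or.inr f4.symm⟩,
    mem_ends.2 ⟨g, mem_filter.2 ⟨(T.mem_chain.1 g1).1, (h1.trans hx.1.le).trans g2, g3.trans h2⟩,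
      Or.inl g4.symm⟩⟩

theorem budget_core {P : Finset Pt} (hP : Gen P) (T : Tok P) {I I' : Finset ℕ} {G H : Finset Ed}
    (hG : G ⊆ edgesIn P I) (hH : H ⊆ edgesIn P I') (A B : Finset Pt)
    (h : ∀ x : Ed × Ed, x.1 ∈ G → x.2 ∈ H → ∀ τ, BudgetTan T (lev P x.1) (lev P x.2) x τ →
      T.pos (lev P x.1) (T.ch (lev P x.1) x.1) τ ∈ A ∧
        T.pos (lev P x.2) (T.ch (lev P x.2) x.2) τ ∈ B) :
    wcr G H ≤ I.card * I'.card * A.card * B.card := by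
  obtain ⟨τ, hτ⟩ := budget_ex hP T
  have key : ∀ x ∈ (G ×ˢ H).filter fun x => WX x.1 x.2, x.1 ∈ G ∧ x.2 ∈ H ∧ WX x.1 x.2 ∧
      x.1 ∈ edges P (lev P x.1) ∧ x.2 ∈ edges P (lev P x.2) := fun x hx => by
    obtain ⟨h1, h2⟩ := mem_filter.1 hx
    obtain ⟨h3, h4⟩ := mem_product.1 h1
    exact ⟨h3, h4, h2, budget_self (edgesIn_sub _ _ (hG h3)), budget_self (edgesIn_sub _ _ (hH h4))⟩
  rw [← card_product, ← card_product, ← card_product]
  refine card_le_card_of_injOn (fun x => (((lev P x.1, lev P x.2),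
    T.pos (lev P x.1) (T.ch (lev P x.1) x.1) (τ (lev P x.1) (lev P x.2) x)),
    T.pos (lev P x.2) (T.ch (lev P x.2) x.2) (τ (lev P x.1) (lev P x.2) x))) (fun x hx => ?_)
    fun x hx y hy e => ?_
  · obtain ⟨h1, h2, h3, h4, h5⟩ := key x hx
    obtain ⟨h6, h7⟩ := h x h1 h2 _ (hτ _ _ x h4 h5 h3)
    exact mem_coe.2 (mem_product.2 ⟨mem_product.2 ⟨mem_product.2
      ⟨(mem_filter.1 (hG h1)).2, (mem_filter.1 (hH h2)).2⟩, h6⟩, h7⟩)
  · obtain ⟨-, -, h3, h4, h5⟩ := key x hx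
    obtain ⟨-, -, h3', h4', h5'⟩ := key y hy
    simp only [Prod.mk.injEq] at e
    obtain ⟨⟨⟨e1, e2⟩, e3⟩, e4⟩ := e
    rw [← e1] at h4' e3 e4
    rw [← e2] at h5' e3 e4
    exact budget_inj hP T h4 h5 h4' h5' h3 h3' (hτ _ _ x h4 h5 h3) (hτ _ _ y h4' h5' h3') e3 e4

theorem budget_sub {P : Finset Pt} {I : Finset ℕ} {a : ℕ} (ha : a ∈ I) (α β : ℝ) :
    ends (slIn (edges P a) α β) ⊆ ends (slIn (edgesIn P I) α β) := fun p hp => by
  obtain ⟨e, he, h⟩ := mem_ends.1 hp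
  obtain ⟨h1, h2⟩ := mem_filter.1 he
  obtain ⟨h3, h4⟩ := mem_filter.1 h1
  exact mem_ends.2 ⟨e, mem_filter.2 ⟨mem_filter.2 ⟨h3, h4 ▸ ha⟩, h2⟩, h⟩

theorem budget {P : Finset Pt} (hP : Gen P) (T : Tok P) (I I' : Finset ℕ) (α β : ℝ) :
    wcr (slIn (edgesIn P I) α β) (slIn (edgesIn P I') α β) ≤ I.card * I'.card *
      (ends (slIn (edgesIn P I) α β)).card * (ends (slIn (edgesIn P I') α β)).card := by
  refine budget_core hP T (filter_subset _ _) (filter_subset _ _) _ _ fun x h1 h2 τ h => ?_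
  obtain ⟨h3, h4⟩ := mem_filter.1 h1
  obtain ⟨h5, h6⟩ := mem_filter.1 h2
  obtain ⟨h7, h8⟩ := budget_ends hP T (budget_self (edgesIn_sub _ _ h3))
    (budget_self (edgesIn_sub _ _ h5)) h h4.1 h6.2
  exact ⟨budget_sub (mem_filter.1 h3).2 α β h7, budget_sub (mem_filter.1 h5).2 α β h8⟩

theorem budget_all {P : Finset Pt} (hP : Gen P) (T : Tok P) (I I' : Finset ℕ) :
    wcr (edgesIn P I) (edgesIn P I') ≤ I.card * I'.card * P.card ^ 2 := by
  rw [sq, ← mul_assoc]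
  exact budget_core hP T Subset.rfl Subset.rfl P P fun x h1 h2 τ _ =>
    ⟨T.pos_mem _ _ (T.ch_mem _ _ (budget_self (edgesIn_sub _ _ h1))) _,
      T.pos_mem _ _ (T.ch_mem _ _ (budget_self (edgesIn_sub _ _ h2))) _⟩

theorem budget_loc {P : Finset Pt} (hP : Gen P) (T : Tok P) (a : ℕ) (α β lo hi : ℝ) (φ : Pt → ℝ)
    (hφ : ∀ e ∈ slIn (edges P a) α β, φ e.1 ≤ φ e.2) (G : Finset Ed)
    (hG : G ⊆ slIn (edges P a) α β) (hlo : ∀ e ∈ G, lo ≤ φ e.1) (hhi : ∀ e ∈ G, φ e.2 ≤ hi) :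
    cr G G ≤ ((ends (slIn (edges P a) α β)).filter fun p => lo ≤ φ p ∧ φ p ≤ hi).card ^ 2 +
      2 * (G.image (T.ch a)).card ^ 2 := by
  obtain ⟨τ, hτ⟩ := budget_ex hP T
  have hE : ∀ e ∈ G, e ∈ edges P a ∧ α ≤ sl e ∧ sl e ≤ β := fun e he => mem_filter.1 (hG he)
  have mono : ∀ e ∈ G, ∀ θ θ', α ≤ θ → θ ≤ θ' → θ' ≤ β →
      φ (T.pos a (T.ch a e) θ) ≤ φ (T.pos a (T.ch a e) θ') := fun e he θ θ' h1 h2 h3 =>
    T.pos_le hP (T.ch_mem _ _ (hE e he).1) h2 φ fun f hf h4 h5 =>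
      hφ f (mem_filter.2 ⟨(T.mem_chain.1 hf).1, h1.trans h4, h5.le.trans h3⟩)
  have up : ∀ e ∈ G, ∀ θ, α ≤ θ → θ ≤ sl e → φ (T.pos a (T.ch a e) θ) ≤ hi := fun e he θ h1 h2 => by
    have h3 := mono e he θ _ h1 h2 (hE e he).2.2
    rw [T.pos_at _ _ (hE e he).1] at h3
    exact h3.trans ((hφ e (hG he)).trans (hhi e he))
  have dn : ∀ e ∈ G, ∀ θ, sl e ≤ θ → θ ≤ β → lo ≤ φ (T.pos a (T.ch a e) θ) := fun e he θ h1 h2 => by
    have h3 := mono e he _ θ (hE e he).2.1 h1 h2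
    rw [T.pos_at _ _ (hE e he).1] at h3
    exact (hlo e he).trans h3
  set S := (G ×ˢ G).filter fun x => XC x.1 x.2 with hS
  have key : ∀ x ∈ S, x.1 ∈ G ∧ x.2 ∈ G ∧ WX x.1 x.2 ∧ BudgetTan T a a x (τ a a x) ∧
      α ≤ τ a a x ∧ τ a a x ≤ β := fun x hx => by
    obtain ⟨h1, h2⟩ := mem_filter.1 hx
    obtain ⟨h3, h4⟩ := mem_product.1 h1
    have h5 := hτ a a x (hE _ h3).1 (hE _ h4).1 h2.wx
    exact ⟨h3, h4, h2.wx, h5, (hE _ h3).2.1.trans h5.1.le, h5.2.1.le.trans (hE _ h4).2.2⟩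
  have chn : ∀ Q : Ed × Ed → Prop, (∀ x ∈ S, ∀ y ∈ S, Q x → Q y → T.ch a x.1 = T.ch a y.1 →
      T.ch a x.2 = T.ch a y.2 → ∃ θ, sl x.1 < θ ∧ sl y.1 < θ ∧ θ ≤ sl x.2 ∧ θ ≤ sl y.2) →
      (S.filter Q).card ≤ (G.image (T.ch a)).card ^ 2 := fun Q hQ => by
    rw [sq, ← card_product]
    refine card_le_card_of_injOn (fun x => (T.ch a x.1, T.ch a x.2)) (fun x hx => ?_)
      fun x hx y hy e => ?_
    · obtain ⟨h1, h2, -⟩ := key x (mem_filter.1 hx).1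
      exact mem_coe.2 (mem_product.2 ⟨mem_image_of_mem _ h1, mem_image_of_mem _ h2⟩)
    · obtain ⟨x0, xq⟩ := mem_filter.1 hx
      obtain ⟨y0, yq⟩ := mem_filter.1 hy
      obtain ⟨e1, e2⟩ := Prod.mk.inj e
      obtain ⟨θ, t1, t2, t3, t4⟩ := hQ x x0 y y0 xq yq e1 e2
      obtain ⟨x1, x2, x3, -⟩ := key x x0
      obtain ⟨y1, y2, y3, -⟩ := key y y0
      exact Prod.ext_iff.2 (T.sep_unique hP (T.mem_chain.2 ⟨(hE _ x1).1, e1⟩)
        (T.mem_chain.2 ⟨(hE _ y1).1, rfl⟩) (T.mem_chain.2 ⟨(hE _ x2).1, e2⟩)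
        (T.mem_chain.2 ⟨(hE _ y2).1, rfl⟩) t1 t2 t3 t4 x3 y3)
  have hB := chn (fun x => hi < φ (T.pos a (T.ch a x.1) (τ a a x))) fun x hx y hy qx qy e1 _ => by
    obtain ⟨x1, -, -, x4, x5, -⟩ := key x hx
    obtain ⟨y1, -, -, y4, y5, -⟩ := key y hy
    exact ⟨min (τ a a x) (τ a a y),
      lt_min x4.1 (not_le.1 fun t => (up _ x1 _ y5 t).not_gt (e1 ▸ qy)),
      lt_min (not_le.1 fun t => (up _ y1 _ x5 t).not_gt (e1 ▸ qx)) y4.1,
      min_le_of_left_le x4.2.1.le, min_le_of_right_le y4.2.1.le⟩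
  have hC := chn (fun x => φ (T.pos a (T.ch a x.2) (τ a a x)) < lo) fun x hx y hy qx qy _ e2 => by
    obtain ⟨-, x2, -, x4, -, x6⟩ := key x hx
    obtain ⟨-, y2, -, y4, -, y6⟩ := key y hy
    exact ⟨max (τ a a x) (τ a a y), lt_max_of_lt_left x4.1, lt_max_of_lt_right y4.1,
      max_le x4.2.1.le (not_lt.1 fun t => (dn _ x2 _ t.le y6).not_gt (e2 ▸ qy)),
      max_le (not_lt.1 fun t => (dn _ y2 _ t.le x6).not_gt (e2 ▸ qx)) y4.2.1.le⟩
  have hA : (S.filter fun x => φ (T.pos a (T.ch a x.1) (τ a a x)) ≤ hi ∧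
      lo ≤ φ (T.pos a (T.ch a x.2) (τ a a x))).card ≤
      ((ends (slIn (edges P a) α β)).filter fun p => lo ≤ φ p ∧ φ p ≤ hi).card ^ 2 := by
    rw [sq, ← card_product]
    refine card_le_card_of_injOn (fun x => (T.pos a (T.ch a x.1) (τ a a x),
      T.pos a (T.ch a x.2) (τ a a x))) (fun x hx => ?_) fun x hx y hy e => ?_
    · obtain ⟨x0, q1, q2⟩ := mem_filter.1 hx
      obtain ⟨x1, x2, -, x4, x5, x6⟩ := key x x0
      obtain ⟨h1, h2⟩ := budget_ends hP T (hE _ x1).1 (hE _ x2).1 x4 (hE _ x1).2.1 (hE _ x2).2.2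
      exact mem_coe.2 (mem_product.2 ⟨mem_filter.2 ⟨h1, dn _ x1 _ x4.1.le x6, q1⟩,
        mem_filter.2 ⟨h2, q2, up _ x2 _ x5 x4.2.1.le⟩⟩)
    · obtain ⟨x1, x2, x3, x4, -⟩ := key x (mem_filter.1 hx).1
      obtain ⟨y1, y2, y3, y4, -⟩ := key y (mem_filter.1 hy).1
      exact budget_inj hP T (hE _ x1).1 (hE _ x2).1 (hE _ y1).1 (hE _ y2).1 x3 y3 x4 y4
        (Prod.mk.inj e).1 (Prod.mk.inj e).2
  rw [two_mul]
  refine le_trans (card_le_card fun x hx => ?_) ((card_union_le _ _).trans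
    (add_le_add hA ((card_union_le _ _).trans (add_le_add hB hC))))
  simp only [mem_union, mem_filter (s := S)]
  rcases lt_or_ge hi (φ (T.pos a (T.ch a x.1) (τ a a x))) with h1 | h1
  · exact Or.inr (Or.inl ⟨hx, h1⟩)
  rcases lt_or_ge (φ (T.pos a (T.ch a x.2) (τ a a x))) lo with h2 | h2
  · exact Or.inr (Or.inr ⟨hx, h2⟩)
  · exact Or.inl ⟨hx, h1, h2⟩

/-- Total cost of the pairs with level in `I`. -/
theorem hit_sum {P : Finset Pt} (hP : Gen P) (T : Tok P) (a : ℕ) (I : Finset ℕ) :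
    ∑ e ∈ edgesIn P I, hit P a e ≤ 10 * I.card * P.card ^ 2 := by
  have h1 := budget_all hP T I {a}
  have h2 := budget_all hP T {a} I
  rw [← edges_eq, wcr, card_filter, card_singleton] at h1 h2
  rw [sum_product] at h1
  rw [sum_product_right] at h2
  have h3 : ∑ e ∈ edgesIn P I, xc P e.1 e.2 ≤ I.card * (2 * P.card ^ 2) := by
    rw [← sum_fiberwise_of_maps_to (s := edgesIn P I) (g := lev P) (t := I)
      fun e he => (mem_filter.1 he).2]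
    exact sum_le_card_nsmul _ _ _ fun b _ => (sum_le_sum_of_subset
      (monotone_filter_left _ (edgesIn_sub P I))).trans
        (by first | exact Tok.xc_sum hP b | exact Tok.xc_sum T hP b)
  simp only [hit, sum_add_distrib, ← mul_sum, card_filter]
  linarith

end Vale.Agent.P065.U
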