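import Mathlib

/-!
P065 upper bound project: the abstract projection structure (Proposition S in notes/P065U.md).
Points `q ∈ L` carry affine functions `v q` of the position `x i`; `om` cuts the real line into
windows; the class of `(q, i)` is the window of `v q i`.
-/

namespace Vale.Agent.P065.U

open Finset Classical

structure SD where
  L : Finset (ℝ × ℝ)
  m : ℕ
  x : ℕ → ℝ
  A : ℝ × ℝ → ℝ
  B : ℝ × ℝ → ℝ
  om : ℝ → ℤ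
  G : Finset ((ℝ × ℝ) × ℕ)
  N : ℝ
  C : ℝ

namespace SD
variable (D : SD)

def v (q : ℝ × ℝ) (i : ℕ) : ℝ := D.A q * D.x i + D.B q

def cls (q : ℝ × ℝ) (i : ℕ) : ℤ := D.om (D.v q i)

/-- The classes used at index `i`. -/
noncomputable def W (i : ℕ) : Finset ℤ := (D.G.filter fun g => g.2 = i).image fun g => D.cls g.1 i

/-- Rank of the class of `q` among the classes used at `i`. -/
noncomputable def kap (q : ℝ × ℝ) (i : ℕ) : ℕ := ((D.W i).filter fun w => w < D.cls q i).card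

/-- Points with the same classes as `q` at `i` and at `i'`. -/
noncomputable def cell (q : ℝ × ℝ) (i i' : ℕ) : ℕ :=
  (D.L.filter fun q' => (q', i) ∈ D.G ∧ (q', i') ∈ D.G ∧ D.cls q' i = D.cls q i ∧
    D.cls q' i' = D.cls q i').card

/-- Classes used at `i` that lie between the classes of `q` at `i` and at `i'`. -/
noncomputable def btw (q : ℝ × ℝ) (i i' : ℕ) : ℕ :=
  ((D.W i).filter fun w => min (D.cls q i) (D.cls q i') ≤ w ∧ w ≤ max (D.cls q i) (D.cls q i')).card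

/-- Triples `(q, i, i')` with both pairs in `G` and `|i - i'| ≤ t`. -/
noncomputable def tri (t : ℝ) : Finset ((ℝ × ℝ) × ℕ × ℕ) :=
  (D.L ×ˢ range D.m ×ˢ range D.m).filter fun z =>
    (z.1, z.2.1) ∈ D.G ∧ (z.1, z.2.2) ∈ D.G ∧ |(z.2.1 : ℝ) - z.2.2| ≤ t

def Good (Γ t : ℝ) (q : ℝ × ℝ) (i i' : ℕ) : Prop :=
  (D.cell q i i' : ℝ) ≤ Γ * D.N * D.m / (D.C ^ 2 * t) ∧ (D.btw q i i' : ℝ) ≤ Γ * D.C * t / D.m

noncomputable def badT (Γ t : ℝ) : ℕ := ((D.tri t).filter fun z => ¬ D.Good Γ t z.1 z.2.1 z.2.2).card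

structure Hyp (K : ℝ) (c : ℕ) : Prop where
  two_le : 2 ≤ K
  N_pos : 0 < D.N
  C_pos : 0 < D.C
  m_pos : 0 < D.m
  x_mono : ∀ i j, i ≤ j → j < D.m → D.x i ≤ D.x j
  om_mono : Monotone D.om
  G_sub : D.G ⊆ D.L ×ˢ range D.m
  L_le : (D.L.card : ℝ) ≤ K * D.N
  G_ge : D.N * D.m / K ≤ D.G.card
  W_le : ∀ i, ((D.W i).card : ℝ) ≤ K * D.C
  cls_le : ∀ i w, ((D.L.filter fun q => (q, i) ∈ D.G ∧ D.cls q i = w).card : ℝ) ≤ K * D.N / D.C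
  use_le : ∀ w, (((range D.m).filter fun i => w ∈ D.W i).card : ℝ) ≤ K * D.m / D.C
  logC : D.C ≤ (2 : ℝ) ^ K
  ind : ∀ lam t : ℝ, K ≤ lam → lam ^ c ≤ D.C → lam ^ c * D.m / D.C ≤ t → t ≤ D.m →
    (D.badT (lam ^ c) t : ℝ) ≤ D.N * D.m * t / lam

/-- Distance from `v q i` up to the points at least `u` classes higher. -/
noncomputable def up (q : ℝ × ℝ) (i u : ℕ) : ℝ :=
  sInf {z | ∃ q', (q', i) ∈ D.G ∧ D.kap q i + u ≤ D.kap q' i ∧ z = D.v q' i - D.v q i}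

/-- Distance from `v q i` down to the points at least `u` classes lower. -/
noncomputable def dn (q : ℝ × ℝ) (i u : ℕ) : ℝ :=
  sInf {z | ∃ q', (q', i) ∈ D.G ∧ D.kap q' i + u ≤ D.kap q i ∧ z = D.v q i - D.v q' i}

noncomputable def rho (s : Bool) (q : ℝ × ℝ) (i u : ℕ) : ℝ := if s then D.up q i u else D.dn q i u

/-- The class of `q` at `i` is at least `U` ranks away from both ends. -/
def Int (U : ℕ) (q : ℝ × ℝ) (i : ℕ) : Prop := U ≤ D.kap q i ∧ D.kap q i + U < (D.W i).card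

/-- The six comparisons between the scales at three indices `i < j < l`. -/
def Mv (τ U : ℕ) (q : ℝ × ℝ) (i j l : ℕ) : Prop :=
  D.x i < D.x j ∧ D.x j < D.x l ∧ ∀ (e : ℕ) (s : Bool), 2 ^ (e + τ) ≤ U →
    (D.x j - D.x i) * D.rho s q l (2 ^ e) ≤ (D.x l - D.x j) * D.rho (!s) q i (2 ^ (e + τ)) ∧
    (D.x l - D.x j) * D.rho s q i (2 ^ e) ≤ (D.x j - D.x i) * D.rho (!s) q l (2 ^ (e + τ)) ∧
    (D.x l - D.x j) * D.rho s q i (2 ^ e) ≤ (D.x l - D.x i) * D.rho s q j (2 ^ (e + τ)) ∧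
    (D.x l - D.x i) * D.rho s q j (2 ^ e) ≤ (D.x l - D.x j) * D.rho s q i (2 ^ (e + τ)) ∧
    (D.x j - D.x i) * D.rho s q l (2 ^ e) ≤ (D.x l - D.x i) * D.rho s q j (2 ^ (e + τ)) ∧
    (D.x l - D.x i) * D.rho s q j (2 ^ e) ≤ (D.x j - D.x i) * D.rho s q l (2 ^ (e + τ))

/-- Quadruples `(q, i, j, l)`, `i < j < l`, all three pairs in `G`, that fail `Int` or `Mv`. -/
noncomputable def badM (τ U : ℕ) : ℕ :=
  ((D.L ×ˢ range D.m ×ˢ range D.m ×ˢ range D.m).filter fun z =>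
    (z.1, z.2.1) ∈ D.G ∧ (z.1, z.2.2.1) ∈ D.G ∧ (z.1, z.2.2.2) ∈ D.G ∧
    z.2.1 < z.2.2.1 ∧ z.2.2.1 < z.2.2.2 ∧
    ¬ (D.Int U z.1 z.2.1 ∧ D.Int U z.1 z.2.2.1 ∧ D.Int U z.1 z.2.2.2 ∧
      D.Mv τ U z.1 z.2.1 z.2.2.1 z.2.2.2)).card

def Cross (τ U : ℕ) (q : ℝ × ℝ) (i i' : ℕ) : Prop :=
  ∀ (e : ℕ) (s : Bool), 2 ^ (e + τ) ≤ U → D.rho s q i (2 ^ e) ≤ D.rho s q i' (2 ^ (e + τ))

def Self (τ U : ℕ) (q : ℝ × ℝ) (i : ℕ) : Prop :=
  ∀ (e : ℕ) (s s' : Bool), 2 ^ (e + 5 * τ) ≤ U →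
    2 * D.rho s q i (2 ^ e) ≤ D.rho s' q i (2 ^ (e + 5 * τ))

/-- A large part `Gs` of `G` on which one sequence `δ` measures the width of `2^e` classes. -/
structure Reg (Gs : Finset ((ℝ × ℝ) × ℕ)) (δ : ℕ → ℝ) (τ E0 : ℕ) : Prop where
  sub : Gs ⊆ D.G
  int : ∀ g ∈ Gs, D.Int (2 ^ E0) g.1 g.2
  pos : ∀ e ≤ E0, 0 < δ e
  mono : ∀ e e', e ≤ e' → e' ≤ E0 → δ e ≤ δ e'
  grow : ∀ e, e + τ ≤ E0 → 2 * δ e ≤ δ (e + τ)
  p1 : ∀ q q' i e, (q, i) ∈ Gs → (q', i) ∈ D.G → e ≤ E0 → D.kap q' i < D.kap q i + 2 ^ e →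
    D.kap q i < D.kap q' i + 2 ^ e → |D.v q' i - D.v q i| ≤ δ e
  p2 : ∀ q q' i e, (q, i) ∈ Gs → (q', i) ∈ D.G → e ≤ E0 → |D.v q' i - D.v q i| < δ e →
    D.kap q' i < D.kap q i + 2 ^ (e + τ) ∧ D.kap q i < D.kap q' i + 2 ^ (e + τ)

/-- Barycentric coordinate of `x i` with respect to `x a`, `x b`. -/
noncomputable def lam (a b i : ℕ) : ℝ := (D.x i - D.x a) / (D.x b - D.x a)

/-- Two reference indices `a`, `b`, many indices between them (closer to `a`), and for each of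
them many points present at all three indices with small cells. -/
structure Frame (G2 : Finset ((ℝ × ℝ) × ℕ)) (a b : ℕ) (La : Finset ℕ)
    (AA : ℕ → Finset (ℝ × ℝ)) (K : ℝ) : Prop where
  ne : D.x a ≠ D.x b
  a_lt : a < D.m
  b_lt : b < D.m
  sub : La ⊆ range D.m
  big : D.m / K ≤ La.card
  lam_mem : ∀ i ∈ La, 0 ≤ D.lam a b i ∧ D.lam a b i ≤ 1 / 2
  AA_big : ∀ i ∈ La, D.N / K ≤ (AA i).card
  mem : ∀ i ∈ La, ∀ q ∈ AA i, (q, a) ∈ G2 ∧ (q, b) ∈ G2 ∧ (q, i) ∈ G2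
  cells : ∀ i ∈ La, ∀ q ∈ AA i, (D.cell q a b : ℝ) ≤ K * D.N / D.C ^ 2 ∧
    (D.cell q a i : ℝ) ≤ K * D.N / D.C ^ 2 ∧ (D.cell q b i : ℝ) ≤ K * D.N / D.C ^ 2

end SD

end Vale.Agent.P065.U
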