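import Vale.Agent.P065.U.Win
import Vale.Agent.P065.U.SDefs

/-!
P065/U task Build: the projection structure attached to a piece.

`ovr_below`: f crosses a piece edge e at a point y; fv θ0 y ≤ fv θ0 e0.1 (the chain from e0.1 has slopes
< θ0 = al j1 (wi + 1)) and fv θ0 f.1 < fv θ0 y since sl f > θ0.

`build`: h = fv θ0 e0.1. For f ∈ ovr let z f be the point of the segment f with fv θ0 = h. Enumerate ovr
as f 0, ..., f (m-1) with (z (f i)).1 nondecreasing; x i = (z (f i)).1. For q put hq = h - fv θ0 q,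
A q = 1/hq, B q = -q.1/hq, om v = if 0 < v then -(wi j (θ0 + 1/v)) else -16^j (monotone by `wi_mono`,
`wi_lt`). If q is a link of f through window u then Lt j u q (z f) (convexity), so the slope from q to z f
lies in window u and exceeds al j u > sl f > θ0; hence hq > 0, v = ((z f).1 - q.1)/hq > 0,
θ0 + 1/v is that slope and cls = -u (`wi_eq`); also wi j (sl (q, f.1)) = u.
-/

namespace Vale.Agent.P065.U

open Finset Classical

theorem build_enum (S : Finset Ed) (φ : Ed → ℝ) (e0 : Ed) :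
    ∃ f : ℕ → Ed, (∀ i < S.card, f i ∈ S) ∧ (∀ i < S.card, ∀ i' < S.card, f i = f i' → i = i') ∧
      ∀ i i', i ≤ i' → i' < S.card → φ (f i) ≤ φ (f i') := by
  let g : Fin S.card → ℝ := fun i => φ (S.equivFin.symm i)
  refine ⟨fun i => if h : i < S.card then (S.equivFin.symm (Tuple.sort g ⟨i, h⟩) : Ed) else e0,
    fun i hi => ?_, fun i hi i' hi' h => ?_, fun i i' h hi' => ?_⟩
  · simp only [dif_pos hi]
    exact Subtype.prop _
  · simp only [dif_pos hi, dif_pos hi'] at h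
    exact congrArg Fin.val ((Tuple.sort g).injective (S.equivFin.symm.injective (Subtype.ext h)))
  · simp only [dif_pos hi', dif_pos (h.trans_lt hi')]
    exact Tuple.monotone_sort g (a := ⟨i, h.trans_lt hi'⟩) (b := ⟨i', hi'⟩) h

theorem build_pt {θ0 h : ℝ} {f : Ed} (h1 : fv θ0 f.1 < h) (h2 : h < fv θ0 f.2) :
    ∃ z : Pt, fv θ0 z = h ∧ ∃ t, 0 < t ∧ t < 1 ∧ ∀ θ, fv θ z = (1 - t) * fv θ f.1 + t * fv θ f.2 := by
  have hd : 0 < fv θ0 f.2 - fv θ0 f.1 := by linarith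
  obtain ⟨t, ht⟩ : ∃ t, t = (h - fv θ0 f.1) / (fv θ0 f.2 - fv θ0 f.1) := ⟨_, rfl⟩
  have e : ∀ θ, fv θ ((1 - t) * f.1.1 + t * f.2.1, (1 - t) * f.1.2 + t * f.2.2)
      = (1 - t) * fv θ f.1 + t * fv θ f.2 := fun θ => by simp only [fv]; ring
  refine ⟨_, ?_, t, ?_, ?_, e⟩
  · rw [e, ht]; field_simp; ring
  · rw [ht]; exact div_pos (by linarith) hd
  · rw [ht, div_lt_one hd]; linarith

theorem Cfg.build_steep (X : Cfg) (j m0 : ℕ) {G : Finset Ed} (hG : G ⊆ X.F) {e0 f : Ed}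
    (hf : f ∈ X.ovr j m0 G e0) : X.al j (X.wi j (sl e0) + 1) < sl f := by
  obtain ⟨hfG, -, h2, -⟩ := mem_filter.1 hf
  exact (X.al_mono j h2).trans_lt (X.wi_spec j (X.F_sub (hG hfG))).1

theorem Cfg.ovr_below (X : Cfg) (j m0 : ℕ) {G : Finset Ed} (hG : G ⊆ X.F) {e0 f : Ed}
    (h0 : e0 ∈ X.F) (hf : f ∈ X.ovr j m0 G e0) :
    fv (X.al j (X.wi j (sl e0) + 1)) f.1 < fv (X.al j (X.wi j (sl e0) + 1)) e0.1 := by
  have hs := X.build_steep j m0 hG hf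
  obtain ⟨-, ⟨e, he, hx⟩, -, -⟩ := mem_filter.1 hf
  obtain ⟨hc, h1, h2, -⟩ := mem_filter.1 he
  obtain ⟨heF, hch⟩ := X.T.mem_chain.1 hc
  have h3 := (X.wi_spec j (X.F_sub heF)).2
  rw [h2] at h3
  have h4 := X.T.pos_le X.gen (X.T.ch_mem X.k e0 h0) h1
    (fun p => -fv (X.al j (X.wi j (sl e0) + 1)) p) fun g hg _ h6 =>
      neg_le_neg ((fv_gt_iff (Tok.x_lt_TA (X.T.mem_chain.1 hg).1) _).2 (h6.trans h3)).le
  rw [X.T.pos_at X.k e0 h0, ← hch, X.T.pos_at X.k e heF] at h4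
  exact (Tok.interp_TA h3 hs.le hx.2.1.le hx.2.2.2.1).trans_le (neg_le_neg_iff.1 h4)

/-- The window of a link is the window of the slope from `q` to `f.1`. -/
theorem Cfg.links_spec (X : Cfg) (j : ℕ) (Z A : ℕ → Finset Pt) (r : ℝ)
    (hA : ∀ u, ∀ p ∈ A u, u < 16 ^ j) {f : Ed} {q : Pt} (hq : q ∈ X.links j Z A r f) :
    q ∈ X.P ∧ sl f < X.al j (X.wi j (sl (q, f.1))) ∧ f.1 ∈ A (X.wi j (sl (q, f.1))) ∧
      q ∈ Z (X.wi j (sl (q, f.1))) ∧ X.Lt j (X.wi j (sl (q, f.1))) q f.1 ∧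
      (hit X.P X.k (q, f.1) : ℝ) ≤ r := by
  obtain ⟨h1, u, h2, h3, h4, h5, -, h7⟩ := mem_filter.1 hq
  rw [X.wi_eq (hA u _ h3) h5.spec.2.1 h5.spec.2.2]
  exact ⟨h1, h2, h3, h4, h5, h7⟩

theorem Cfg.build (X : Cfg) (j j1 m0 : ℕ) (Z A : ℕ → Finset Pt) (r : ℝ) {G : Finset Ed}
    (hG : G ⊆ X.F) {e0 : Ed} (h0 : e0 ∈ X.F) (hA : ∀ u, ∀ p ∈ A u, u < 16 ^ j) :
    ∃ (D : SD) (f : ℕ → Ed), D.m = (X.ovr j1 m0 G e0).card ∧ D.N = X.n / 4 ^ j ∧ D.C = 2 ^ j ∧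
      (∀ i < D.m, f i ∈ X.ovr j1 m0 G e0) ∧ (∀ i < D.m, ∀ i' < D.m, f i = f i' → i = i') ∧
      (∀ i i', i ≤ i' → i' < D.m → D.x i ≤ D.x i') ∧ Monotone D.om ∧
      D.L = (X.ovr j1 m0 G e0).biUnion (X.links j Z A r) ∧
      D.G = (D.L ×ˢ range D.m).filter (fun g => g.1 ∈ X.links j Z A r (f g.2)) ∧
      ∀ q i, (q, i) ∈ D.G → D.cls q i = -(X.wi j (sl (q, (f i).1)) : ℤ) := by
  obtain ⟨θ0, hθ⟩ : ∃ θ0, θ0 = X.al j1 (X.wi j1 (sl e0) + 1) := ⟨_, rfl⟩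
  have hz : ∀ f ∈ X.ovr j1 m0 G e0, ∃ z : Pt, fv θ0 z = fv θ0 e0.1 ∧
      ∃ t, 0 < t ∧ t < 1 ∧ ∀ θ, fv θ z = (1 - t) * fv θ f.1 + t * fv θ f.2 := fun f hf =>
    build_pt (hθ ▸ X.ovr_below j1 m0 hG h0 hf) (hθ ▸ (mem_filter.1 hf).2.2.2)
  choose! z hz1 hz2 using hz
  obtain ⟨f, f1, f2, f3⟩ := build_enum (X.ovr j1 m0 G e0) (fun f => (z f).1) e0
  refine ⟨⟨(X.ovr j1 m0 G e0).biUnion (X.links j Z A r), (X.ovr j1 m0 G e0).card,
    fun i => (z (f i)).1, fun q => 1 / (fv θ0 e0.1 - fv θ0 q),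
    fun q => -q.1 / (fv θ0 e0.1 - fv θ0 q),
    fun v => if 0 < v then -(X.wi j (θ0 + 1 / v) : ℤ) else -((16 ^ j : ℕ) : ℤ),
    ((X.ovr j1 m0 G e0).biUnion (X.links j Z A r) ×ˢ range (X.ovr j1 m0 G e0).card).filter
      (fun g => g.1 ∈ X.links j Z A r (f g.2)), X.n / 4 ^ j, 2 ^ j⟩,
    f, rfl, rfl, rfl, f1, f2, f3, ?_, rfl, rfl, ?_⟩
  · intro v v' h
    dsimp only
    split_ifs with h1 h2 h2
    · exact neg_le_neg (Int.ofNat_le.2 (X.wi_mono j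
        (add_le_add_right (one_div_le_one_div_of_le h1 h) θ0)))
    · exact absurd (h1.trans_le h) h2
    · exact neg_le_neg (Int.ofNat_le.2 (X.wi_lt j _).le)
    · exact le_rfl
  · intro q i hg
    obtain ⟨hm, hq⟩ := mem_filter.1 hg
    have hi := f1 i (mem_range.1 (mem_product.1 hm).2)
    obtain ⟨-, u, h2, h3, -, h5, h6, -⟩ := mem_filter.1 hq
    dsimp only at h2 h3 h5 h6
    obtain ⟨t, t0, t1, ht⟩ := hz2 _ hi
    have hL : X.Lt j u q (z (f i)) := by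
      constructor
      · rw [ht]; nlinarith [h5.1, h6.1]
      · rw [ht]; nlinarith [h5.2, h6.2]
    obtain ⟨s1, s2, s3⟩ := hL.spec
    have s4 : θ0 < sl (q, z (f i)) :=
      ((hθ ▸ X.build_steep j1 m0 hG hi : θ0 < sl (f i)).trans h2).trans s2
    have s5 := fv_sub (e := (q, z (f i))) s1 θ0
    dsimp only at s5
    rw [hz1 _ hi] at s5
    have s6 : 0 < sl (q, z (f i)) - θ0 := sub_pos.2 s4
    have s7 : 0 < (z (f i)).1 - q.1 := sub_pos.2 s1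
    have hv : 1 / (fv θ0 e0.1 - fv θ0 q) * (z (f i)).1 + -q.1 / (fv θ0 e0.1 - fv θ0 q)
        = 1 / (sl (q, z (f i)) - θ0) := by
      rw [s5]; field_simp; ring
    refine (congrArg (fun v => if 0 < v then -(X.wi j (θ0 + 1 / v) : ℤ) else -((16 ^ j : ℕ) : ℤ))
      hv).trans ?_
    rw [if_pos (one_div_pos.2 s6), one_div_one_div, add_sub_cancel,
      X.wi_eq (hA u _ h3) s2 s3, X.wi_eq (hA u _ h3) h5.spec.2.1 h5.spec.2.2]

end Vale.Agent.P065.U
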