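import Vale.Agent.P065.U.Add

/-!
P065/U task Close: closure of `CovT` under sums and products, and the diameter argument.

Proof. (1) SumSet is monotone in k (pad with y0 - y0), closed under negation, S_k + S_l ⊆ S_(k+l).
CovT k L r t, CovT k' L' r' t' give CovT (k+k') (L L') (r+r') (t+t'); CovT for -t; CovT k 1 0 0;
and for |t| ≤ 1, CovT (2 k k') (L' L^(2k')) (r' + 2 k' r) (t t') (write t' Y y = f' + Σ± Y y_j + err,
multiply by t, expand each t Y y_j). So each term of a `Poly` has CovT 32 (K^9) (270 ε), and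
Z = Lin Y S den num ⊆ F + S_512 + [-r, r] with |F| ≤ K^144, r = 4320 ε ≤ 4320 s, s = |den|.
(2) Z has diameter ≤ 4 s. For f ∈ F the elements z of S_512 that are used lie in an interval J of
length ≤ 10^4 s. Take a 3ε-separated finite subset ZJ of S_512 ∩ J of maximal size (S_512 is finite)
and a maximal (10^4 s + 3ε)-separated subset S' of Y '' S. The sums z + y' (z ∈ ZJ, y' ∈ S') are
3ε-separated and lie in S_600 + Y y0, so |ZJ||S'| ≤ K C. Every y ∈ S is within 2·10^4 s of S', so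
|S| ≤ |S'|·(2·10^4+1)·u. Hence |ZJ| ≤ 3·10^4 K^2 u, and Z is covered by |F||ZJ| balls of radius
r + 3ε, each covered by 5000 balls of radius ε. Constants are absorbed in powers of K ≥ 2.
-/

namespace Vale.Agent.P065.U

open Finset

section part1
variable {Y : ℤ → ℝ} {S : Finset ℤ}

theorem close_add {k l : ℕ} {z w : ℝ} (hz : z ∈ SumSet Y S k) (hw : w ∈ SumSet Y S l) :
    z + w ∈ SumSet Y S (k + l) := by
  obtain ⟨f, g, hf, hg, rfl⟩ := hz
  obtain ⟨f', g', hf', hg', rfl⟩ := hw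
  refine ⟨Fin.append f f', Fin.append g g', fun j => ?_, fun j => ?_, ?_⟩
  · refine Fin.addCases (fun i => ?_) (fun i => ?_) j
    · rw [Fin.append_left]; exact hf i
    · rw [Fin.append_right]; exact hf' i
  · refine Fin.addCases (fun i => ?_) (fun i => ?_) j
    · rw [Fin.append_left]; exact hg i
    · rw [Fin.append_right]; exact hg' i
  · simp only [Fin.sum_univ_add, Fin.append_left, Fin.append_right]
    ring

theorem close_neg {k : ℕ} {z : ℝ} (hz : z ∈ SumSet Y S k) : -z ∈ SumSet Y S k := by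
  obtain ⟨f, g, hf, hg, rfl⟩ := hz
  exact ⟨g, f, hg, hf, by ring⟩

theorem close_zero (hS : S.Nonempty) (k : ℕ) : (0 : ℝ) ∈ SumSet Y S k := by
  obtain ⟨y, hy⟩ := hS
  exact ⟨fun _ => y, fun _ => y, fun _ => hy, fun _ => hy, by ring⟩

theorem close_mono (hS : S.Nonempty) {k l : ℕ} (h : k ≤ l) {z : ℝ} (hz : z ∈ SumSet Y S k) :
    z ∈ SumSet Y S l := by
  obtain ⟨m, rfl⟩ := Nat.exists_eq_add_of_le h
  simpa using close_add hz (close_zero hS m)

theorem close_one {a b : ℤ} (ha : a ∈ S) (hb : b ∈ S) : Y a - Y b ∈ SumSet Y S 1 :=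
  ⟨fun _ => a, fun _ => b, fun _ => ha, fun _ => hb, by simp⟩

theorem close_succ {k : ℕ} {z : ℝ} (hz : z ∈ SumSet Y S (k + 1)) :
    ∃ w ∈ SumSet Y S k, ∃ a ∈ S, ∃ b ∈ S, z = w + (Y a - Y b) := by
  obtain ⟨f, g, hf, hg, rfl⟩ := hz
  refine ⟨_, ⟨fun j => f j.succ, fun j => g j.succ, fun j => hf _, fun j => hg _, rfl⟩,
    f 0, hf 0, g 0, hg 0, ?_⟩
  simp only [Fin.sum_univ_succ]
  ring

/-- `T` is contained in `F + (k S - k S) + [-r, r]` with `|F| ≤ L`. -/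
def CloseCov (Y : ℤ → ℝ) (S : Finset ℤ) (T : Set ℝ) (k : ℕ) (L r : ℝ) : Prop :=
  ∃ F : Finset ℝ, (F.card : ℝ) ≤ L ∧ ∀ x ∈ T, ∃ f ∈ F, ∃ z ∈ SumSet Y S k, |x - f - z| ≤ r

/-- the set `t * S` -/
def closeT (Y : ℤ → ℝ) (S : Finset ℤ) (t : ℝ) : Set ℝ := {x | ∃ y ∈ S, x = t * Y y}

theorem CloseCov.mono (hS : S.Nonempty) {T : Set ℝ} {k k' : ℕ} {L L' r r' : ℝ}
    (h : CloseCov Y S T k L r) (hk : k ≤ k') (hL : L ≤ L') (hr : r ≤ r') :
    CloseCov Y S T k' L' r' := by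
  obtain ⟨F, h1, h2⟩ := h
  refine ⟨F, h1.trans hL, fun x hx => ?_⟩
  obtain ⟨f, hf, z, hz, h3⟩ := h2 x hx
  exact ⟨f, hf, z, close_mono hS hk hz, h3.trans hr⟩

theorem CloseCov.add {T T' U : Set ℝ} {k k' : ℕ} {L L' r r' : ℝ}
    (h : CloseCov Y S T k L r) (h' : CloseCov Y S T' k' L' r')
    (hU : ∀ u ∈ U, ∃ x ∈ T, ∃ x' ∈ T', u = x + x') :
    CloseCov Y S U (k + k') (L * L') (r + r') := by
  classical
  obtain ⟨F, h1, h2⟩ := h
  obtain ⟨F', h1', h2'⟩ := h'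
  refine ⟨Finset.image₂ (· + ·) F F', ?_, fun u hu => ?_⟩
  · have : ((Finset.image₂ (· + ·) F F').card : ℝ) ≤ F.card * F'.card := by
      exact_mod_cast Finset.card_image₂_le _ F F'
    exact this.trans (mul_le_mul h1 h1' (Nat.cast_nonneg _) ((Nat.cast_nonneg _).trans h1))
  · obtain ⟨x, hx, x', hx', rfl⟩ := hU u hu
    obtain ⟨f, hf, z, hz, h3⟩ := h2 x hx
    obtain ⟨f', hf', z', hz', h3'⟩ := h2' x' hx'
    refine ⟨f + f', Finset.mem_image₂_of_mem hf hf', z + z', close_add hz hz', ?_⟩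
    have e : x + x' - (f + f') - (z + z') = (x - f - z) + (x' - f' - z') := by ring
    rw [e]
    exact (abs_add_le _ _).trans (add_le_add h3 h3')

theorem CloseCov.neg {T U : Set ℝ} {k : ℕ} {L r : ℝ} (h : CloseCov Y S T k L r)
    (hU : ∀ u ∈ U, -u ∈ T) : CloseCov Y S U k L r := by
  classical
  obtain ⟨F, h1, h2⟩ := h
  refine ⟨F.image fun f => -f, le_trans (by exact_mod_cast Finset.card_image_le) h1, fun u hu => ?_⟩
  obtain ⟨f, hf, z, hz, h3⟩ := h2 _ (hU u hu)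
  refine ⟨-f, Finset.mem_image_of_mem _ hf, -z, close_neg hz, ?_⟩
  have e : u - -f - -z = -(-u - f - z) := by ring
  rwa [e, abs_neg]

theorem close_cov_zero (hS : S.Nonempty) {U : Set ℝ} (hU : ∀ u ∈ U, u = 0) (k : ℕ) :
    CloseCov Y S U k 1 0 :=
  ⟨{0}, by simp, fun u hu => ⟨0, by simp, 0, close_zero hS k, by simp [hU u hu]⟩⟩

theorem close_scal (hS : S.Nonempty) {t : ℝ} {k : ℕ} {L r : ℝ}
    (h : CloseCov Y S (closeT Y S t) k L r) (m : ℕ) :
    CloseCov Y S {x | ∃ z ∈ SumSet Y S m, x = t * z} (m * (k + k)) ((L * L) ^ m) (m * (r + r)) := by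
  induction m with
  | zero =>
    have := close_cov_zero (Y := Y) hS (U := {x | ∃ z ∈ SumSet Y S 0, x = t * z}) (by
      rintro _ ⟨_, ⟨f, g, -, -, rfl⟩, rfl⟩
      simp) 0
    simpa using this
  | succ m ih =>
    have h1 : CloseCov Y S {x | -x ∈ closeT Y S t} k L r := h.neg fun u hu => hu
    have h2 := h.add h1 (U := {x | ∃ a ∈ S, ∃ b ∈ S, x = t * (Y a - Y b)}) (by
      rintro _ ⟨a, ha, b, hb, rfl⟩
      exact ⟨_, ⟨a, ha, rfl⟩, -(t * Y b), ⟨b, hb, by ring⟩, by ring⟩)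
    have h3 := ih.add h2 (U := {x | ∃ z ∈ SumSet Y S (m + 1), x = t * z}) (by
      rintro _ ⟨z, hz, rfl⟩
      obtain ⟨w, hw, a, ha, b, hb, rfl⟩ := close_succ hz
      exact ⟨_, ⟨w, hw, rfl⟩, _, ⟨a, ha, b, hb, rfl⟩, by ring⟩)
    rw [Nat.succ_mul, pow_succ, Nat.cast_succ, add_mul (m : ℝ), one_mul]
    exact h3

theorem close_prod (hS : S.Nonempty) {t t' : ℝ} (ht : |t| ≤ 1) {L r : ℝ}
    (h : CloseCov Y S (closeT Y S t) 4 L r) (h' : CloseCov Y S (closeT Y S t') 4 L r) :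
    CloseCov Y S (closeT Y S (t * t')) 32 (L ^ 9) (9 * r) := by
  classical
  obtain ⟨F, h1, h2⟩ := close_scal hS h 4
  obtain ⟨F', h1', h2'⟩ := h'
  refine ⟨Finset.image₂ (fun a b => a + t * b) F F', ?_, ?_⟩
  · have : ((Finset.image₂ (fun a b => a + t * b) F F').card : ℝ) ≤ F.card * F'.card := by
      exact_mod_cast Finset.card_image₂_le _ F F'
    refine this.trans ((mul_le_mul h1 h1' (Nat.cast_nonneg _)
      ((Nat.cast_nonneg _).trans h1)).trans (le_of_eq ?_))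
    ring
  · rintro _ ⟨y, hy, rfl⟩
    obtain ⟨f', hf', z', hz', h3'⟩ := h2' _ ⟨y, hy, rfl⟩
    obtain ⟨f, hf, z, hz, h3⟩ := h2 _ ⟨z', hz', rfl⟩
    refine ⟨f + t * f', Finset.mem_image₂_of_mem hf hf', z, hz, ?_⟩
    have e : t * t' * Y y - (f + t * f') - z = (t * z' - f - z) + t * (t' * Y y - f' - z') := by
      ring
    rw [e]
    refine (abs_add_le _ _).trans ?_
    rw [abs_mul]
    have := mul_le_mul ht h3' (abs_nonneg _) zero_le_one
    push_cast at h3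
    linarith

theorem close_sum (hS : S.Nonempty) {ι : Type} (s : Finset ι) (τ : ι → ℝ) {k : ℕ} {L r : ℝ}
    (h : ∀ j ∈ s, CloseCov Y S (closeT Y S (τ j)) k L r) :
    CloseCov Y S (closeT Y S (∑ j ∈ s, τ j)) (s.card * k) (L ^ s.card) (s.card * r) := by
  classical
  induction s using Finset.induction_on with
  | empty =>
    have := close_cov_zero (Y := Y) hS (U := closeT Y S 0) (by
      rintro _ ⟨y, -, rfl⟩
      simp) 0
    simpa using this
  | insert a s ha ih =>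
    have h3 := (ih fun j hj => h j (Finset.mem_insert_of_mem hj)).add
      (h a (Finset.mem_insert_self _ _)) (U := closeT Y S (∑ j ∈ insert a s, τ j)) (by
        rintro _ ⟨y, hy, rfl⟩
        exact ⟨_, ⟨y, hy, rfl⟩, _, ⟨y, hy, rfl⟩, by rw [Finset.sum_insert ha]; ring⟩)
    rw [Finset.card_insert_of_notMem ha, Nat.succ_mul, pow_succ, Nat.cast_succ, add_mul, one_mul]
    exact h3

theorem close_poly (hS : S.Nonempty) {Nn : Finset ℕ} {nu : ℕ → ℝ} {K r t : ℝ} (hK : 1 ≤ K)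
    (hr : 0 ≤ r) (h : ∀ i ∈ Nn, 0 ≤ nu i ∧ nu i ≤ 1 ∧ CovT Y S 4 K r (nu i))
    (ht : Poly nu Nn t) : CloseCov Y S (closeT Y S t) 256 (K ^ 72) (72 * r) := by
  obtain ⟨s, a, b, hs, ha, hb, rfl⟩ := ht
  have c1 : ∀ i ∈ Nn, CloseCov Y S (closeT Y S (nu i)) 4 K r := fun i hi => by
    obtain ⟨F, h1, h2⟩ := (h i hi).2.2
    refine ⟨F, h1, ?_⟩
    rintro _ ⟨y, hy, rfl⟩
    exact h2 y hy
  have c2 : ∀ j, CloseCov Y S (closeT Y S (a j * b j)) 32 (K ^ 9) (9 * r) := fun j => by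
    obtain ⟨i, hi, e⟩ := ha j
    rcases hb j with e' | ⟨i', hi', e'⟩
    · rw [e, e', mul_one]
      exact (c1 i hi).mono hS (by norm_num) (le_self_pow₀ hK (by norm_num)) (by linarith)
    · rw [e, e']
      exact close_prod hS (abs_le.2 ⟨by linarith [(h i hi).1], (h i hi).2.1⟩) (c1 i hi) (c1 i' hi')
  have c3 : ∀ j ∈ (univ : Finset (Fin 8)),
      CloseCov Y S (closeT Y S ((s j : ℝ) * a j * b j)) 32 (K ^ 9) (9 * r) := fun j _ => by
    have := abs_le.1 (hs j)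
    obtain e | e | e : s j = -1 ∨ s j = 0 ∨ s j = 1 := by omega
    · refine (c2 j).neg ?_
      rintro _ ⟨y, hy, rfl⟩
      exact ⟨y, hy, by rw [e]; push_cast; ring⟩
    · refine (close_cov_zero hS ?_ 32).mono hS le_rfl (one_le_pow₀ hK) (by linarith)
      rintro _ ⟨y, hy, rfl⟩
      rw [e]; simp
    · rw [e, Int.cast_one, one_mul]
      exact c2 j
  refine (close_sum hS univ _ c3).mono hS (by simp) (le_of_eq ?_) (le_of_eq ?_)
  · rw [← pow_mul]; simp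
  · simp only [Finset.card_univ, Fintype.card_fin]
    push_cast
    ring

end part1

theorem close_sep (W : Finset ℝ) {δ : ℝ} (hδ : 0 ≤ δ) : ∃ P ⊆ W,
    (∀ a ∈ P, ∀ b ∈ P, |a - b| ≤ δ → a = b) ∧ ∀ w ∈ W, ∃ p ∈ P, |w - p| ≤ δ := by
  classical
  induction W using Finset.induction_on with
  | empty => exact ⟨∅, subset_rfl, by simp, by simp⟩
  | insert a W ha ih =>
    obtain ⟨P, h1, h2, h3⟩ := ih
    by_cases h : ∃ p ∈ P, |a - p| ≤ δ
    · refine ⟨P, h1.trans (Finset.subset_insert _ _), h2, fun w hw => ?_⟩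
      rcases Finset.mem_insert.1 hw with rfl | hw
      · exact h
      · exact h3 w hw
    · refine ⟨insert a P, Finset.insert_subset_insert _ h1, fun x hx y hy hxy => ?_, fun w hw => ?_⟩
      · rcases Finset.mem_insert.1 hx with rfl | hx' <;> rcases Finset.mem_insert.1 hy with rfl | hy'
        · rfl
        · exact absurd ⟨y, hy', hxy⟩ h
        · exact absurd ⟨x, hx', by rwa [abs_sub_comm]⟩ h
        · exact h2 x hx' y hy' hxy
      · rcases Finset.mem_insert.1 hw with rfl | hw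
        · exact ⟨w, Finset.mem_insert_self _ _, by simpa using hδ⟩
        · obtain ⟨p, hp, h4⟩ := h3 w hw
          exact ⟨p, Finset.mem_insert_of_mem hp, h4⟩

theorem close_grid {x c δ : ℝ} (hδ : 0 < δ) (n : ℕ) (h : |x - c| ≤ n * δ) :
    ∃ j ∈ Finset.Icc (-(n : ℤ)) n, |x - (c + j * δ)| ≤ δ := by
  obtain ⟨h1, h2⟩ := abs_le.1 h
  have a1 := Int.floor_le ((x - c) / δ)
  have a2 := Int.lt_floor_add_one ((x - c) / δ)
  refine ⟨⌊(x - c) / δ⌋, Finset.mem_Icc.2 ⟨Int.le_floor.2 ?_, ?_⟩, ?_⟩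
  · rw [le_div_iff₀ hδ]
    push_cast
    linarith
  · have : (x - c) / δ ≤ n := by rwa [div_le_iff₀ hδ]
    exact_mod_cast a1.trans this
  · rw [le_div_iff₀ hδ] at a1
    rw [div_lt_iff₀ hδ] at a2
    exact abs_le.2 ⟨by linarith, by linarith⟩

theorem close_count {Y : ℤ → ℝ} {S : Finset ℤ} {ε K C u s : ℝ} (hK : 0 < K) (hC : 0 < C)
    (hε : 0 < ε) (hs : ε ≤ s) (hS : C / K ≤ S.card) (hc : Cn (SumSet Y S 600) ε (K * C))
    (hu : ∀ x : ℝ, ((S.filter fun y => |Y y - x| ≤ s).card : ℝ) ≤ u) {P : Finset ℝ}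
    (h1 : ∀ p ∈ P, p ∈ SumSet Y S 512) (h2 : ∀ a ∈ P, ∀ b ∈ P, |a - b| ≤ 3 * ε → a = b)
    (h3 : ∀ a ∈ P, ∀ b ∈ P, |a - b| ≤ 10000 * s) : (P.card : ℝ) ≤ 20007 * K ^ 2 * u := by
  classical
  have hS0 : S.Nonempty := by
    rw [← Finset.card_pos]
    exact_mod_cast (div_pos hC hK).trans_le hS
  obtain ⟨y0, hy0⟩ := hS0
  obtain ⟨S', s1, s2, s3⟩ := close_sep (S.image Y) (δ := 10003 * s) (by linarith)
  obtain ⟨G, g1, g2⟩ := hc
  have ex : ∀ q : ℝ × ℝ, ∃ g, q ∈ P ×ˢ S' → g ∈ G ∧ |q.1 + (q.2 - Y y0) - g| ≤ ε := fun q => by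
    by_cases hq : q ∈ P ×ˢ S'
    · obtain ⟨a1, a2⟩ := Finset.mem_product.1 hq
      obtain ⟨y, hy, e⟩ := Finset.mem_image.1 (s1 a2)
      obtain ⟨g, hg⟩ := g2 _ (close_mono ⟨y0, hy0⟩ (by norm_num)
        (close_add (h1 _ a1) (close_one hy hy0)))
      exact ⟨g, fun _ => e ▸ hg⟩
    · exact ⟨0, fun h => absurd h hq⟩
  choose g hg using ex
  have c1 : (P ×ˢ S').card ≤ G.card := by
    refine Finset.card_le_card_of_injOn g (fun q hq => (hg q hq).1) fun q hq q' hq' e => ?_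
    have a1 := abs_le.1 (hg q hq).2
    have a2 := abs_le.1 (hg q' hq').2
    rw [e] at a1
    obtain ⟨b1, b2⟩ := Finset.mem_product.1 hq
    obtain ⟨b3, b4⟩ := Finset.mem_product.1 hq'
    have a3 := abs_le.1 (h3 _ b1 _ b3)
    have a4 : q.2 = q'.2 := s2 _ b2 _ b4 (abs_le.2 ⟨by linarith, by linarith⟩)
    exact Prod.ext (h2 _ b1 _ b3 (abs_le.2 ⟨by linarith, by linarith⟩)) a4
  have c2 : (P.card : ℝ) * S'.card ≤ K * C := by
    rw [Finset.card_product] at c1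
    exact le_trans (by exact_mod_cast c1) g1
  have c3 : S ⊆ (S' ×ˢ Finset.Icc (-(10003 : ℕ) : ℤ) (10003 : ℕ)).biUnion fun q =>
      S.filter fun y => |Y y - (q.1 + q.2 * s)| ≤ s := fun y hy => by
    obtain ⟨p, hp, a1⟩ := s3 _ (Finset.mem_image_of_mem Y hy)
    obtain ⟨j, hj, a2⟩ := close_grid (by linarith : 0 < s) 10003 (by exact_mod_cast a1)
    exact Finset.mem_biUnion.2 ⟨(p, j), Finset.mem_product.2 ⟨hp, hj⟩, Finset.mem_filter.2 ⟨hy, a2⟩⟩
  have c4 : (S.card : ℝ) ≤ S'.card * 20007 * u := by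
    have a1 := (Finset.card_le_card c3).trans Finset.card_biUnion_le
    have a2 : (S.card : ℝ) ≤ ∑ q ∈ S' ×ˢ Finset.Icc (-(10003 : ℕ) : ℤ) (10003 : ℕ),
        ((S.filter fun y => |Y y - (q.1 + q.2 * s)| ≤ s).card : ℝ) := by exact_mod_cast a1
    refine a2.trans ((Finset.sum_le_card_nsmul _ _ u fun q _ => hu _).trans (le_of_eq ?_))
    have a3 : (Finset.Icc (-(10003 : ℕ) : ℤ) (10003 : ℕ)).card = 20007 := by
      rw [Int.card_Icc]; rfl
    rw [Finset.card_product, a3, nsmul_eq_mul]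
    norm_num
  have c5 : (0 : ℝ) < S'.card := by
    obtain ⟨p, hp, -⟩ := s3 _ (Finset.mem_image_of_mem Y hy0)
    exact_mod_cast Finset.card_pos.2 ⟨p, hp⟩
  rw [div_le_iff₀ hK] at hS
  refine le_of_mul_le_mul_right (c2.trans ?_) c5
  have := mul_le_mul_of_nonneg_left (hS.trans (mul_le_mul_of_nonneg_right c4 hK.le)) hK.le
  linarith

theorem close_main : ∃ c : ℕ, ∀ (S : Finset ℤ) (Y : ℤ → ℝ) (Nn : Finset ℕ) (nu : ℕ → ℝ)
    (ε K C u den num : ℝ), 2 ≤ K → 0 < C → 0 < ε →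
    (∀ y ∈ S, ∀ y' ∈ S, |Y y - Y y'| ≤ 1) → C / K ≤ S.card →
    (∀ i ∈ Nn, 0 ≤ nu i ∧ nu i ≤ 1 ∧ CovT Y S 4 K (30 * ε) (nu i)) →
    Cn (SumSet Y S 600) ε (K * C) →
    Poly nu Nn den → Poly nu Nn num → ε ≤ |den| → |num| ≤ 3 * |den| →
    (∀ x : ℝ, ((S.filter fun y => |Y y - x| ≤ |den|).card : ℝ) ≤ u) →
    Cn (Lin Y S den num) ε (K ^ c * u) := by
  classical
  refine ⟨175, fun S Y Nn nu ε K C u den num hK hC hε hY hS hnu hc hden hnum h1 h2 hu => ?_⟩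
  have hK0 : 0 < K := by linarith
  have hS0 : S.Nonempty := by
    rw [← Finset.card_pos]
    exact_mod_cast (div_pos hC hK0).trans_le hS
  have hu0 : 0 ≤ u := (Nat.cast_nonneg _).trans (hu 0)
  obtain ⟨F, f1, f2⟩ := (close_poly hS0 (by linarith) (by linarith) hnu hden).add
    (close_poly hS0 (by linarith) (by linarith) hnu hnum) (U := Lin Y S den num) (by
      rintro _ ⟨y, hy, y', hy', rfl⟩
      exact ⟨_, ⟨y, hy, rfl⟩, _, ⟨y', hy', rfl⟩, rfl⟩)
  obtain ⟨Z, hZ⟩ : ∃ Z : Finset ℝ, ∀ x, x ∈ Z ↔ x ∈ Lin Y S den num := by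
    refine ⟨Finset.image₂ (fun y y' => den * Y y + num * Y y') S S, fun x => ?_⟩
    simp only [Finset.mem_image₂, Lin, Set.mem_setOf_eq, eq_comm]
  have diam : ∀ x ∈ Z, ∀ x' ∈ Z, |x - x'| ≤ 4 * |den| := fun x hx x' hx' => by
    obtain ⟨a, ha, b, hb, rfl⟩ := (hZ x).1 hx
    obtain ⟨a', ha', b', hb', rfl⟩ := (hZ x').1 hx'
    have e : den * Y a + num * Y b - (den * Y a' + num * Y b') =
        den * (Y a - Y a') + num * (Y b - Y b') := by ring
    rw [e]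
    refine (abs_add_le _ _).trans ?_
    rw [abs_mul, abs_mul]
    have a1 := mul_le_mul_of_nonneg_left (hY a ha a' ha') (abs_nonneg den)
    have a2 := mul_le_mul_of_nonneg_left (hY b hb b' hb') (abs_nonneg num)
    linarith
  choose! φ hφ z hz1 hz2 using f2
  have ex : ∀ f : ℝ, ∃ P : Finset ℝ, (P.card : ℝ) ≤ 20007 * K ^ 2 * u ∧
      ∀ x ∈ Z, φ x = f → ∃ p ∈ P, |z x - p| ≤ 3 * ε := fun f => by
    obtain ⟨P, p1, p2, p3⟩ := close_sep ((Z.filter fun x => φ x = f).image z) (δ := 3 * ε)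
      (by linarith)
    have p4 : ∀ p ∈ P, ∃ x ∈ Z, φ x = f ∧ z x = p := fun p hp => by
      obtain ⟨x, hx, e⟩ := Finset.mem_image.1 (p1 hp)
      exact ⟨x, (Finset.mem_filter.1 hx).1, (Finset.mem_filter.1 hx).2, e⟩
    refine ⟨P, close_count hK0 hC hε h1 hS hc hu (fun p hp => ?_) p2 fun a ha b hb => ?_,
      fun x hx e => p3 _ (Finset.mem_image_of_mem z (Finset.mem_filter.2 ⟨hx, e⟩))⟩
    · obtain ⟨x, hx, -, rfl⟩ := p4 p hp
      exact hz1 x ((hZ x).1 hx)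
    · obtain ⟨x, hx, e, rfl⟩ := p4 a ha
      obtain ⟨x', hx', e', rfl⟩ := p4 b hb
      have a1 := abs_le.1 (hz2 x ((hZ x).1 hx))
      have a2 := abs_le.1 (hz2 x' ((hZ x').1 hx'))
      have a3 := abs_le.1 (diam x hx x' hx')
      rw [e] at a1
      rw [e'] at a2
      exact abs_le.2 ⟨by linarith, by linarith⟩
  choose P hP1 hP2 using ex
  refine ⟨F.biUnion fun f => Finset.image₂ (fun (p : ℝ) (j : ℤ) => f + p + j * ε) (P f)
    (Finset.Icc (-(4323 : ℕ) : ℤ) (4323 : ℕ)), ?_, fun x hx => ?_⟩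
  · have a1 : ∀ f ∈ F, ((Finset.image₂ (fun (p : ℝ) (j : ℤ) => f + p + j * ε) (P f)
        (Finset.Icc (-(4323 : ℕ) : ℤ) (4323 : ℕ))).card : ℝ) ≤ 20007 * K ^ 2 * u * 8647 := by
      intro f _
      have b1 := Finset.card_image₂_le (fun (p : ℝ) (j : ℤ) => f + p + j * ε) (P f)
        (Finset.Icc (-(4323 : ℕ) : ℤ) (4323 : ℕ))
      rw [Int.card_Icc] at b1
      norm_num at b1
      have b2 := hP1 f
      have b3 : ((Finset.image₂ (fun (p : ℝ) (j : ℤ) => f + p + j * ε) (P f)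
        (Finset.Icc (-4323 : ℤ) 4323)).card : ℝ) ≤ (P f).card * 8647 := by exact_mod_cast b1
      norm_num
      linarith
    refine le_trans (by exact_mod_cast Finset.card_biUnion_le)
      ((Finset.sum_le_card_nsmul _ _ _ a1).trans ?_)
    rw [nsmul_eq_mul]
    have a2 : (20007 * 8647 : ℝ) ≤ K ^ 29 :=
      le_trans (by norm_num) (pow_le_pow_left₀ (by norm_num) hK 29)
    calc (F.card : ℝ) * (20007 * K ^ 2 * u * 8647)
        = F.card * (20007 * 8647) * (K ^ 2 * u) := by ring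
      _ ≤ K ^ 72 * K ^ 72 * K ^ 29 * (K ^ 2 * u) := by gcongr
      _ = K ^ 175 * u := by ring
  · obtain ⟨p, hp, a1⟩ := hP2 (φ x) x ((hZ x).2 hx) rfl
    have a2 := abs_le.1 (hz2 x hx)
    have a3 := abs_le.1 a1
    obtain ⟨j, hj, a4⟩ := close_grid (x := x) (c := φ x + p) hε 4323
      (abs_le.2 ⟨by push_cast; linarith, by push_cast; linarith⟩)
    exact ⟨_, Finset.mem_biUnion.2 ⟨φ x, hφ x hx, Finset.mem_image₂_of_mem hp hj⟩, a4⟩

end Vale.Agent.P065.U
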