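import Vale.Agent.P065.U.CmpA

/-!
P065/U task Cmp: most edges start at a point comparable with many points of Z on both sides.

y = sz j/K^c. Edges with e.1 ∈ Z, e.2 ∉ Z number ≤ miss + Σ|act| (`ldeg_le`, `act_sum`). Ignore windows
with |act| > B = Γ sz j (as in `small`). Treat `few below` (the other side is symmetric). In window u let
Bad = {p ∈ Z u ∩ act | fewer than y points of Z u are Lt p}. Along a chain the set below grows
(`Lt.trans`, `lt_of_edge`, `chain_le`), so each chain has at most one edge from Bad to Z \ Bad: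
≤ |act| edges (`chains_le`). (For `few above`, e.1 ∈ Bad and e.2 ∈ Z give e.2 ∈ Bad.) It remains to
bound the edges inside Bad. φ1 = fv α, φ2 = -fv β increase along window edges and are injective on P.
Cut act into Λ columns by φ1-rank and Λ rows by φ2-rank, ≤ B/Λ + 1 points each. A box is heavy if
it has ≥ y points of Bad. Points in light boxes: ≤ Λ² y per window, use `small`. If p ∈ Bad then no
heavy box is strictly left and strictly lower. So for a chain, the start of its first and the end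
of its last remaining edge (e.1 in a heavy box, e.2 ∈ Bad) share a column or a row, and then all its
remaining edges lie in that column or row. (For `few above` ask that e.2 be in a heavy box.) Group the
chains accordingly: 2Λ groups with m_i chains, Σ m_i ≤ B. `crossing` and `budget_loc`:
|G_i| < 16 b or |G_i|³ ≤ 512 b² (b² + 2 m_i²), b = B/Λ + 1. Summing (Hoelder or AM-GM),
Σ|G_i| ≤ c B^(4/3) Λ^(-1/3) + 32 (B + Λ), and 16^j B^(4/3) = Γ^(4/3) n d.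
-/

namespace Vale.Agent.P065.U

open Finset Classical

namespace Cfg
variable (X : Cfg)

theorem cmp_sum (j : ℕ) (Q : ℕ → Ed → Prop) [∀ u, DecidablePred (Q u)]
    [DecidablePred fun e => Q (X.wi j (sl e)) e] :
    ((X.F.filter fun e => Q (X.wi j (sl e)) e).card : ℝ) =
      ∑ u ∈ range (16 ^ j), (((X.win X.F j u).filter (Q u)).card : ℝ) := by
  rw [← X.sum_win _ j, Nat.cast_sum]
  refine sum_congr rfl fun u _ => congrArg (fun s : Finset Ed => (s.card : ℝ)) ?_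
  ext e
  simp only [Cfg.win, mem_filter]
  constructor
  · rintro ⟨⟨h1, h2⟩, rfl⟩
    exact ⟨⟨h1, rfl⟩, h2⟩
  · rintro ⟨⟨h1, rfl⟩, h2⟩
    exact ⟨⟨h1, h2⟩, rfl⟩

theorem cmp_lt {j u : ℕ} {e : Ed} (he : e ∈ X.win X.F j u) : X.Lt j u e.1 e.2 := by
  obtain ⟨h, rfl⟩ := mem_filter.1 he
  exact X.lt_of_edge j (X.F_sub h)

theorem cmp_side {j u : ℕ} (hu : u < 16 ^ j) {y t : ℝ} (hy : 0 ≤ y) (ht : 1 ≤ t) {b Λ : ℕ}
    (hb : 0 < b) (hbt : (b : ℝ) ≤ t ^ 3) (hΛ : (X.act j u).card ≤ Λ * b) {S : Finset Pt}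
    (hS : S ⊆ X.act j u) (h : (∀ p ∈ S, ((S.filter fun q => X.Lt j u q p).card : ℝ) < y) ∨
      ∀ p ∈ S, ((S.filter fun q => X.Lt j u p q).card : ℝ) < y) :
    ∃ Y : Finset Pt, (Y.card : ℝ) ≤ Λ ^ 2 * y ∧
      (((X.win X.F j u).filter fun e => e.1 ∈ S ∧ e.2 ∈ S ∧ e.1 ∉ Y ∧ e.2 ∉ Y).card : ℝ) ≤
        32 * Λ * t ^ 4 + 16 * t * (X.act j u).card := by
  have hW : X.win X.F j u = slIn (edges X.P X.k) (X.al j u) (X.al j (u + 1)) :=
    X.win_eq X.F_sub hu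
  have hA : X.act j u = ends (slIn (edges X.P X.k) (X.al j u) (X.al j (u + 1))) := by
    rw [act, hW]
  have hAP : X.act j u ⊆ X.P := ends_sub ((filter_subset _ _).trans X.F_sub)
  set col := cmpCol (X.act j u) (fv (X.al j u)) b
  set row := cmpCol (X.act j u) (fun p => -fv (X.al j (u + 1)) p) b
  have hlt : ∀ p q, col p < col q → row p < row q → X.Lt j u p q := fun p q h1 h2 =>
    ⟨lt_of_not_ge fun h3 => absurd (cmpCol_mono _ _ b h3) (not_le.2 h1),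
      lt_of_not_ge fun h3 => absurd (cmpCol_mono (X.act j u) (fun p => -fv (X.al j (u + 1)) p) b
        (neg_le_neg h3)) (not_le.2 h2)⟩
  refine ⟨cmpLight S col row y,
    cmpLight_card hy fun p hp => ⟨cmpCol_lt _ hΛ (hS hp), cmpCol_lt _ hΛ (hS hp)⟩, ?_⟩
  have key := cmp_grp (a := X.k) (α := X.al j u) (β := X.al j (u + 1)) X.gen X.T col row
    (fun f hf => cmpCol_mono _ _ b (X.cmp_lt (hW ▸ hf)).1.le)
    (fun f hf => cmpCol_mono _ _ b (neg_le_neg (X.cmp_lt (hW ▸ hf)).2.le)) ht (Λ := Λ)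
    (fun p hp => cmpCol_lt _ hΛ (hA ▸ hp)) (fun p hp => cmpCol_lt _ hΛ (hA ▸ hp))
    (fun i => by
      rw [← hA]
      exact (Nat.cast_le.2 (cmpCol_card
        (fun p hp q hq h => X.al_gen j u p (hAP hp) q (hAP hq) h) hb i)).trans hbt)
    (fun i => by
      rw [← hA]
      exact (Nat.cast_le.2 (cmpCol_card
        (fun p hp q hq h => X.al_gen j (u + 1) p (hAP hp) q (hAP hq) (neg_injective h)) hb i)).trans
        hbt)
    (R := (X.win X.F j u).filter fun e => e.1 ∈ S ∧ e.2 ∈ S ∧ e.1 ∉ cmpLight S col row y ∧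
      e.2 ∉ cmpLight S col row y) (hW ▸ filter_subset _ _)
    fun e he e' he' h1 => by
      by_contra h2
      obtain ⟨-, a1, -, a2, -⟩ := mem_filter.1 he
      obtain ⟨-, -, a3, -, a4⟩ := mem_filter.1 he'
      rcases h with h | h
      · refine a2 (mem_filter.2 ⟨a1, lt_of_le_of_lt
          (Nat.cast_le.2 (card_le_card fun q hq => ?_)) (h _ a3)⟩)
        obtain ⟨q1, q2, q3⟩ := mem_filter.1 hq
        exact mem_filter.2 ⟨q1, hlt _ _ (by omega) (by omega)⟩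
      · refine a4 (mem_filter.2 ⟨a3, lt_of_le_of_lt
          (Nat.cast_le.2 (card_le_card fun q hq => ?_)) (h _ a1)⟩)
        obtain ⟨q1, q2, q3⟩ := mem_filter.1 hq
        exact mem_filter.2 ⟨q1, hlt _ _ (by omega) (by omega)⟩
  rwa [← hA] at key

theorem cmp_out (j u : ℕ) (Z : Finset Pt) : ((X.win X.F j u).filter fun e => e.2 ∉ Z).card ≤
    ((X.win X.F j u).filter fun e => e.1 ∉ Z).card + (X.act j u).card := by
  rw [card_eq_sum_card_fiberwise (f := Prod.snd) (t := (X.act j u).filter fun q => q ∉ Z)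
      (s := (X.win X.F j u).filter fun e => e.2 ∉ Z) fun e he => mem_coe.2 (mem_filter.2
        ⟨mem_ends.2 ⟨e, (mem_filter.1 (mem_coe.1 he)).1, Or.inr rfl⟩,
          (mem_filter.1 (mem_coe.1 he)).2⟩),
    card_eq_sum_card_fiberwise (f := Prod.fst) (t := (X.act j u).filter fun q => q ∉ Z)
      (s := (X.win X.F j u).filter fun e => e.1 ∉ Z) fun e he => mem_coe.2 (mem_filter.2
        ⟨mem_ends.2 ⟨e, (mem_filter.1 (mem_coe.1 he)).1, Or.inl rfl⟩,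
          (mem_filter.1 (mem_coe.1 he)).2⟩)]
  refine le_trans ?_ (Nat.add_le_add_left (card_filter_le (X.act j u) fun q => q ∉ Z) _)
  rw [card_eq_sum_ones ((X.act j u).filter fun q => q ∉ Z), ← sum_add_distrib]
  refine sum_le_sum fun q hq => ?_
  refine (card_le_card fun e he => ?_).trans ((X.ldeg_le j u q).trans
    (Nat.add_le_add_right (card_le_card fun e he => ?_) 1))
  · exact mem_filter.2 ⟨(mem_filter.1 (mem_filter.1 he).1).1, (mem_filter.1 he).2⟩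
  · obtain ⟨h1, rfl⟩ := mem_filter.1 he
    exact mem_filter.2 ⟨mem_filter.2 ⟨h1, (mem_filter.1 hq).2⟩, rfl⟩

theorem cmp_exit {j u : ℕ} (hu : u < 16 ^ j) (Z : Finset Pt) (y : ℝ) :
    ((X.win X.F j u).filter fun e => ((Z.filter fun z => X.Lt j u z e.1).card : ℝ) < y ∧
      y ≤ ((Z.filter fun z => X.Lt j u z e.2).card : ℝ)).card ≤ (X.act j u).card := by
  have hW : X.win X.F j u = slIn (edges X.P X.k) (X.al j u) (X.al j (u + 1)) :=
    X.win_eq X.F_sub hu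
  have key : ∀ e ∈ X.win X.F j u, ∀ e' ∈ X.win X.F j u, X.T.ch X.k e = X.T.ch X.k e' →
      sl e < sl e' → ((Z.filter fun z => X.Lt j u z e.2).card : ℝ) ≤
        (Z.filter fun z => X.Lt j u z e'.1).card := by
    intro e he e' he' hc h
    have h1 := cmp_mono X.gen X.T (hW ▸ he) (hW ▸ he') hc h (fv (X.al j u))
      fun f hf => (X.cmp_lt (hW ▸ hf)).1.le
    have h2 := cmp_mono X.gen X.T (hW ▸ he) (hW ▸ he') hc h (fun p => -fv (X.al j (u + 1)) p)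
      fun f hf => neg_le_neg (X.cmp_lt (hW ▸ hf)).2.le
    refine Nat.cast_le.2 (card_le_card fun z hz => ?_)
    obtain ⟨z1, z2, z3⟩ := mem_filter.1 hz
    exact mem_filter.2 ⟨z1, z2.trans_le h1, (neg_le_neg_iff.1 h2).trans_lt z3⟩
  have h3 := X.T.chains_le X.gen X.k (X.al j u) (X.al j (u + 1))
  rw [← hW] at h3
  refine le_trans (card_le_card_of_injOn (X.T.ch X.k) (fun e he => mem_coe.2
    (mem_image_of_mem _ (mem_filter.1 (mem_coe.1 he)).1)) fun e he e' he' hc => ?_) h3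
  obtain ⟨a1, a2, a3⟩ := mem_filter.1 (mem_coe.1 he)
  obtain ⟨a4, a5, a6⟩ := mem_filter.1 (mem_coe.1 he')
  rcases lt_trichotomy (sl e) (sl e') with h | h | h
  · linarith [key e a1 e' a4 hc h]
  · exact sl_inj X.gen (mem_filter.1 a1).1 (mem_filter.1 a4).1 h
  · linarith [key e' a4 e a1 hc.symm h]

theorem cmp_win {j u : ℕ} (hu : u < 16 ^ j) {y t : ℝ} (hy : 0 ≤ y) (ht : 1 ≤ t) {b Λ : ℕ}
    (hb : 0 < b) (hbt : (b : ℝ) ≤ t ^ 3) (hΛ : (X.act j u).card ≤ Λ * b) (Z : Finset Pt) :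
    ∃ Y : Finset Pt, (Y.card : ℝ) ≤ 2 * Λ ^ 2 * y ∧
      (((X.win X.F j u).filter fun e => e.1 ∈ Z ∧ ¬X.Cmp j u Z y e.1).card : ℝ) ≤
        ((X.win X.F j u).filter fun e => e.1 ∉ Z).card +
        ((X.win X.F j u).filter fun e => e.1 ∈ Y ∨ e.2 ∈ Y).card +
        64 * Λ * t ^ 4 + (2 + 32 * t) * (X.act j u).card := by
  obtain ⟨Y1, h1, k1⟩ := X.cmp_side hu hy ht hb hbt hΛ
    (S := (X.act j u).filter fun p => p ∈ Z ∧ ((Z.filter fun z => X.Lt j u z p).card : ℝ) < y)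
    (filter_subset _ _) (Or.inl fun p hp => lt_of_le_of_lt (Nat.cast_le.2 (card_le_card
      fun q hq => mem_filter.2 ⟨(mem_filter.1 (mem_filter.1 hq).1).2.1, (mem_filter.1 hq).2⟩))
      (mem_filter.1 hp).2.2)
  obtain ⟨Y2, h2, k2⟩ := X.cmp_side hu hy ht hb hbt hΛ
    (S := (X.act j u).filter fun p => p ∈ Z ∧ ((Z.filter fun z => X.Lt j u p z).card : ℝ) < y)
    (filter_subset _ _) (Or.inr fun p hp => lt_of_le_of_lt (Nat.cast_le.2 (card_le_card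
      fun q hq => mem_filter.2 ⟨(mem_filter.1 (mem_filter.1 hq).1).2.1, (mem_filter.1 hq).2⟩))
      (mem_filter.1 hp).2.2)
  have k3 := Nat.cast_le (α := ℝ).2 (X.cmp_out j u Z)
  have k4 := Nat.cast_le (α := ℝ).2 (X.cmp_exit hu Z y)
  have k5 : ((Y1 ∪ Y2).card : ℝ) ≤ Y1.card + Y2.card := by exact_mod_cast card_union_le Y1 Y2
  refine ⟨Y1 ∪ Y2, by linarith, ?_⟩
  have five : ∀ s s1 s2 s3 s4 s5 : Finset Ed,
      (∀ e ∈ s, e ∈ s1 ∨ e ∈ s2 ∨ e ∈ s3 ∨ e ∈ s4 ∨ e ∈ s5) →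
      (s.card : ℝ) ≤ s1.card + s2.card + s3.card + s4.card + s5.card := by
    intro s s1 s2 s3 s4 s5 h
    have a0 : s.card ≤ (s1 ∪ s2 ∪ s3 ∪ s4 ∪ s5).card := card_le_card fun e he => by
      simpa only [mem_union, or_assoc] using h e he
    have a1 := card_union_le (s1 ∪ s2 ∪ s3 ∪ s4) s5
    have a2 := card_union_le (s1 ∪ s2 ∪ s3) s4
    have a3 := card_union_le (s1 ∪ s2) s3
    have a4 := card_union_le s1 s2
    exact_mod_cast (by omega : s.card ≤ s1.card + s2.card + s3.card + s4.card + s5.card)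
  refine (five _ _ _ ((X.win X.F j u).filter fun e => e.1 ∈ Y1 ∪ Y2 ∨ e.2 ∈ Y1 ∪ Y2) _ _
    fun e he => ?_).trans ((add_le_add (add_le_add (add_le_add (add_le_add k3 k4) le_rfl) k1)
      k2).trans_eq (by push_cast; ring))
  obtain ⟨hW, hZ, hC⟩ := mem_filter.1 he
  have m1 : e.1 ∈ X.act j u := mem_ends.2 ⟨e, hW, Or.inl rfl⟩
  have m2 : e.2 ∈ X.act j u := mem_ends.2 ⟨e, hW, Or.inr rfl⟩
  by_cases c1 : e.2 ∈ Z
  swap
  · exact Or.inl (mem_filter.2 ⟨hW, c1⟩)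
  by_cases c2 : e.1 ∈ Y1 ∪ Y2 ∨ e.2 ∈ Y1 ∪ Y2
  · exact Or.inr (Or.inr (Or.inl (mem_filter.2 ⟨hW, c2⟩)))
  simp only [mem_union, not_or] at c2
  rcases not_and_or.1 hC with c3 | c3
  · by_cases c4 : y ≤ ((Z.filter fun z => X.Lt j u z e.2).card : ℝ)
    · exact Or.inr (Or.inl (mem_filter.2 ⟨hW, not_le.1 c3, c4⟩))
    · exact Or.inr (Or.inr (Or.inr (Or.inl (mem_filter.2 ⟨hW, mem_filter.2 ⟨m1, hZ, not_le.1 c3⟩,
        mem_filter.2 ⟨m2, c1, not_le.1 c4⟩, c2.1.1, c2.2.1⟩))))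
  · refine Or.inr (Or.inr (Or.inr (Or.inr (mem_filter.2 ⟨hW, mem_filter.2 ⟨m1, hZ, not_le.1 c3⟩,
      mem_filter.2 ⟨m2, c1, lt_of_le_of_lt (Nat.cast_le.2 (card_le_card fun z hz => ?_))
        (not_le.1 c3)⟩, c2.1.2, c2.2.2⟩))))
    exact mem_filter.2 ⟨(mem_filter.1 hz).1, (X.cmp_lt hW).trans (mem_filter.1 hz).2⟩

theorem cmp_all {j : ℕ} {D Γ y : ℝ} (hd : X.d = 2 ^ j * D) (hΓ : 1 ≤ Γ) (hD : Γ ^ 2 ≤ D)
    (hy : 0 ≤ y) (Z : Finset Pt) (u : ℕ) :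
    ∃ Y : Finset Pt, (Y.card : ℝ) ≤ 18 * Γ ^ 14 * y ∧ (u < 16 ^ j →
      (((X.win X.F j u).filter fun e => e.1 ∈ Z ∧ ¬X.Cmp j u Z y e.1).card : ℝ) ≤
        ((X.win X.F j u).filter fun e => e.1 ∉ Z).card +
        ((X.win X.F j u).filter fun e => e.1 ∈ Y ∨ e.2 ∈ Y).card +
        192 * D ^ 4 / Γ + 59 * D / Γ * (X.act j u).card) := by
  have hΓ0 : 0 < Γ := by linarith
  have hΓD : Γ ≤ D := by nlinarith
  have hD0 : 0 < D := by linarith
  have ht : 1 ≤ D / Γ ^ 2 := (one_le_div (by positivity)).2 hD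
  have ht3 : 1 ≤ (D / Γ ^ 2) ^ 3 := one_le_pow₀ ht
  have hq : 1 ≤ D / Γ := (one_le_div hΓ0).2 hΓD
  have hq2 : D / Γ ^ 2 ≤ D / Γ := div_le_div_of_nonneg_left hD0.le hΓ0 (by nlinarith)
  have ha : (0 : ℝ) ≤ (X.act j u).card := Nat.cast_nonneg _
  have hb : 0 < ⌊(D / Γ ^ 2) ^ 3⌋₊ := Nat.floor_pos.2 ht3
  by_cases hu : u < 16 ^ j
  swap
  · exact ⟨∅, by rw [card_empty, Nat.cast_zero]; positivity, fun h => absurd h hu⟩
  by_cases hΛ : (X.act j u).card ≤ ⌈2 * Γ ^ 7⌉₊ * ⌊(D / Γ ^ 2) ^ 3⌋₊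
  · obtain ⟨Y, h1, h2⟩ := X.cmp_win hu hy ht hb (Nat.floor_le (by positivity)) hΛ Z
    have h7 : 1 ≤ Γ ^ 7 := one_le_pow₀ hΓ
    have h3 : (⌈2 * Γ ^ 7⌉₊ : ℝ) ≤ 3 * Γ ^ 7 := by
      linarith [Nat.ceil_lt_add_one (by positivity : 0 ≤ 2 * Γ ^ 7)]
    refine ⟨Y, h1.trans ((?_ : _ ≤ 2 * (3 * Γ ^ 7) ^ 2 * y).trans_eq (by ring)), fun _ =>
      h2.trans (add_le_add (add_le_add_right ?_ _) (mul_le_mul_of_nonneg_right ?_ ha))⟩
    · gcongr
    · refine (?_ : _ ≤ 64 * (3 * Γ ^ 7) * (D / Γ ^ 2) ^ 4).trans_eq (by field_simp; ring)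
      gcongr
    · rw [mul_div_assoc]
      linarith
  · refine ⟨∅, by rw [card_empty, Nat.cast_zero]; positivity, fun _ => ?_⟩
    have h1 : (⌈2 * Γ ^ 7⌉₊ : ℝ) * ⌊(D / Γ ^ 2) ^ 3⌋₊ ≤ (X.act j u).card := by
      exact_mod_cast (not_le.1 hΛ).le
    have h2 : (D / Γ ^ 2) ^ 3 / 2 ≤ ⌊(D / Γ ^ 2) ^ 3⌋₊ := by
      have := Nat.lt_floor_add_one ((D / Γ ^ 2) ^ 3)
      have : (1 : ℝ) ≤ ⌊(D / Γ ^ 2) ^ 3⌋₊ := by exact_mod_cast hb
      linarith
    have h3 : Γ * D ^ 3 ≤ (X.act j u).card :=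
      le_trans (le_of_eq_of_le (by field_simp) (mul_le_mul (Nat.le_ceil (2 * Γ ^ 7)) h2
        (by positivity) (Nat.cast_nonneg _))) h1
    have h4 : (X.F.card : ℝ) / 16 ^ j ≤ 24 * D ^ 4 := by
      rw [div_le_iff₀ (by positivity)]
      refine X.F_card.trans_eq ?_
      rw [X.n_eq, hd, show (16 : ℝ) = 2 ^ 4 by norm_num, ← pow_mul, mul_comm 4 j, pow_mul]
      ring
    have h5 : 1 ≤ D ^ 4 := one_le_pow₀ (by linarith)
    have h6 : 59 * D ^ 4 ≤ 59 * D / Γ * (X.act j u).card :=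
      le_of_eq_of_le (by field_simp) (mul_le_mul_of_nonneg_left h3 (by positivity))
    have h7 := X.win_card j u
    have h8 := Nat.cast_le (α := ℝ).2 (card_filter_le (X.win X.F j u)
      fun e => e.1 ∈ Z ∧ ¬X.Cmp j u Z y e.1)
    have h9 : 0 ≤ (((X.win X.F j u).filter fun e => e.1 ∉ Z).card : ℝ) +
        ((X.win X.F j u).filter fun e => e.1 ∈ (∅ : Finset Pt) ∨ e.2 ∈ (∅ : Finset Pt)).card +
        192 * D ^ 4 / Γ := by positivity
    linarith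

end Cfg

theorem Cfg.cmp_most : ∃ c : ℕ, ∀ (X : Cfg) (K : ℝ) (j : ℕ) (Z : ℕ → Finset Pt), 2 ≤ K →
    2 ^ j * K ^ c ≤ X.d → (∀ u, Z u ⊆ X.P) →
    ((X.F.filter fun e => e.1 ∈ Z (X.wi j (sl e)) ∧
      ¬ X.Cmp j (X.wi j (sl e)) (Z (X.wi j (sl e))) (X.sz j / K ^ c) e.1).card : ℝ) ≤
      X.n * X.d / K + X.miss j Z := by
  obtain ⟨c, hc⟩ := Cfg.small
  refine ⟨270 + 2 * c, fun X K j Z hK hj _ => ?_⟩
  have hK1 : 1 ≤ K := by linarith
  have hK0 : 0 < K := by linarith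
  have hs : (0 : ℝ) < 2 ^ j := by positivity
  obtain ⟨D, hd⟩ : ∃ D, X.d = 2 ^ j * D := ⟨X.d / 2 ^ j, by field_simp⟩
  have hD : K ^ (270 + 2 * c) ≤ D := le_of_mul_le_mul_left (hd ▸ hj) hs
  have hD1 : 1 ≤ D := (one_le_pow₀ hK1).trans hD
  have hΓ : 2 ^ 17 * K ≤ K ^ 18 := by
    rw [pow_succ K 17]
    gcongr
  have hsz : X.sz j = D ^ 3 := by rw [X.sz_eq, hd, mul_div_cancel_left₀ _ hs.ne']
  have h16 : (16 : ℝ) ^ j = (2 ^ j) ^ 4 := by
    rw [show (16 : ℝ) = 2 ^ 4 by norm_num, ← pow_mul, mul_comm 4 j, pow_mul]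
  have hn : X.n = (2 ^ j * D) ^ 3 := by rw [X.n_eq, hd]
  choose Y hY hW using fun u => X.cmp_all (Γ := K ^ 18) (y := X.sz j / K ^ (270 + 2 * c)) hd
    (one_le_pow₀ hK1) (by
      rw [← pow_mul]
      exact (pow_le_pow_right₀ hK1 (by omega)).trans hD) (by rw [hsz]; positivity) (Z u) u
  have hsm := hc X (K ^ 2) j Y (by nlinarith) (by
      rw [← pow_mul]
      exact (mul_le_mul_of_nonneg_left (pow_le_pow_right₀ hK1 (by omega)) hs.le).trans hj) (by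
    refine (sum_le_card_nsmul _ _ _ fun u _ => hY u).trans ?_
    have h1 : 18 * (K ^ 18) ^ 14 ≤ K ^ 18 * (K ^ 18) ^ 14 := by
      gcongr
      linarith
    rw [card_range, nsmul_eq_mul, Nat.cast_pow, Nat.cast_ofNat, h16, hsz, hn]
    refine (?_ : _ ≤ (2 ^ j) ^ 4 * (K ^ 18 * (K ^ 18) ^ 14 * (D ^ 3 / K ^ (270 + 2 * c)))).trans_eq
      (by field_simp; ring)
    gcongr)
  have e1 := X.cmp_sum j fun u e => e.1 ∈ Z u ∧
    ¬X.Cmp j u (Z u) (X.sz j / K ^ (270 + 2 * c)) e.1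
  have e2 := X.cmp_sum j fun u e => e.1 ∉ Z u
  have e3 := X.cmp_sum j fun u e => e.1 ∈ Y u ∨ e.2 ∈ Y u
  have h1 := sum_le_sum fun u (hu : u ∈ range (16 ^ j)) => hW u (mem_range.1 hu)
  rw [sum_add_distrib, sum_add_distrib, sum_add_distrib, sum_const, ← mul_sum, card_range,
    nsmul_eq_mul, Nat.cast_pow, Nat.cast_ofNat] at h1
  have h2 := mul_le_mul_of_nonneg_left (X.act_sum j (by rw [hd]; nlinarith))
    (by positivity : 0 ≤ 59 * D / K ^ 18)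
  have h3 : (16 : ℝ) ^ j * (192 * D ^ 4 / K ^ 18) + 59 * D / K ^ 18 * (1000 * 2 ^ j * X.n) =
      59192 * (X.n * X.d) / K ^ 18 := by
    rw [h16, hn, hd]
    ring
  have hnd : 0 ≤ X.n * X.d := by
    rw [hn, hd]
    positivity
  have h4 : 59192 * (X.n * X.d) / K ^ 18 ≤ X.n * X.d / K / 2 := by
    refine (div_le_div_of_nonneg_left (by positivity) (by positivity) hΓ).trans ?_
    have : 0 ≤ X.n * X.d / K := by positivity
    rw [mul_div_mul_comm]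
    linarith
  have h5 : X.n * X.d / K ^ 2 ≤ X.n * X.d / K / 2 := by
    rw [div_div]
    exact div_le_div_of_nonneg_left hnd (by positivity) (by nlinarith)
  rw [← e1, ← e2, ← e3] at h1
  rw [Cfg.miss]
  linarith

end Vale.Agent.P065.U
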