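import Vale.Agent.P065.U.Small

/-!
P065/U CmpA: edges that stay in one column or one row along each chain are few.
-/

namespace Vale.Agent.P065.U

open Finset Classical

variable {P : Finset Pt} {a : ℕ} {α β : ℝ}

theorem cmp_mono (hP : Gen P) (T : Tok P) {e e' : Ed} (he : e ∈ slIn (edges P a) α β)
    (he' : e' ∈ slIn (edges P a) α β) (hc : T.ch a e = T.ch a e') (h : sl e < sl e') (φ : Pt → ℝ)
    (hφ : ∀ f ∈ slIn (edges P a) α β, φ f.1 ≤ φ f.2) : φ e.2 ≤ φ e'.1 := by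
  rw [slIn, mem_filter] at he he'
  exact T.chain_le hP (T.mem_chain.2 ⟨he.1, rfl⟩) (T.mem_chain.2 ⟨he'.1, hc.symm⟩) h φ
    fun f hf h1 h2 => hφ f (mem_filter.2 ⟨(T.mem_chain.1 hf).1, he.2.1.trans h1.le,
      h2.le.trans he'.2.2⟩)

theorem cmp_mono' (hP : Gen P) (T : Tok P) {e e' : Ed} (he : e ∈ slIn (edges P a) α β)
    (he' : e' ∈ slIn (edges P a) α β) (hc : T.ch a e = T.ch a e') (h : sl e ≤ sl e') (φ : Pt → ℕ)
    (hφ : ∀ f ∈ slIn (edges P a) α β, φ f.1 ≤ φ f.2) : φ e.1 ≤ φ e'.1 ∧ φ e.2 ≤ φ e'.2 := by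
  rcases h.lt_or_eq with h | h
  · have h1 : φ e.2 ≤ φ e'.1 := by
      exact_mod_cast cmp_mono hP T he he' hc h (fun p => (φ p : ℝ)) fun f hf => by
        exact_mod_cast hφ f hf
    exact ⟨(hφ e he).trans h1, h1.trans (hφ e' he')⟩
  · rw [sl_inj hP (mem_filter.1 he).1 (mem_filter.1 he').1 h]
    exact ⟨le_rfl, le_rfl⟩

theorem cmp_one (hP : Gen P) (T : Tok P) (col : Pt → ℕ)
    (hm : ∀ f ∈ slIn (edges P a) α β, col f.1 ≤ col f.2) {t : ℝ} (ht : 1 ≤ t) (i : ℕ)
    (hb : (((ends (slIn (edges P a) α β)).filter fun p => col p = i).card : ℝ) ≤ t ^ 3)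
    {G : Finset Ed} (hG : G ⊆ slIn (edges P a) α β) (hi : ∀ e ∈ G, col e.1 = i ∧ col e.2 = i) :
    (G.card : ℝ) ≤ 16 * t ^ 4 + 8 * t * (G.image (T.ch a)).card := by
  set Y := (ends (slIn (edges P a) α β)).filter fun p => col p = i
  set m : ℝ := ((G.image (T.ch a)).card : ℝ) with hmm
  have hm0 : 0 ≤ m := Nat.cast_nonneg _
  have ht0 : 0 < t := by linarith
  have h34 : t ^ 3 ≤ t ^ 4 := pow_le_pow_right₀ ht (by norm_num)
  by_cases h16 : 16 * Y.card ≤ G.card
  · have h1 := crossing P hP G (fun e he => edges_sub P a (mem_filter.1 (hG he)).1) Y Y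
      (fun e he => mem_filter.2 ⟨mem_ends.2 ⟨e, hG he, Or.inl rfl⟩, (hi e he).1⟩)
      (fun e he => mem_filter.2 ⟨mem_ends.2 ⟨e, hG he, Or.inr rfl⟩, (hi e he).2⟩) h16 h16
    have h2 := budget_loc hP T a α β i i (fun p => (col p : ℝ))
      (fun f hf => by exact_mod_cast hm f hf) G hG
      (fun e he => by rw [(hi e he).1]) (fun e he => by rw [(hi e he).2])
    have h3 : ((ends (slIn (edges P a) α β)).filter fun p =>
        (i : ℝ) ≤ (col p : ℝ) ∧ (col p : ℝ) ≤ i).card ≤ Y.card :=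
      card_le_card fun p hp => by
        rw [mem_filter] at hp
        exact mem_filter.2 ⟨hp.1, by exact_mod_cast le_antisymm hp.2.2 hp.2.1⟩
    have h4 : G.card ^ 3 ≤ 512 * Y.card * Y.card *
        (Y.card ^ 2 + 2 * (G.image (T.ch a)).card ^ 2) :=
      h1.trans (Nat.mul_le_mul_left _ (h2.trans
        (Nat.add_le_add_right (Nat.pow_le_pow_left h3 2) _)))
    have h5 : (G.card : ℝ) ^ 3 ≤ 512 * Y.card * Y.card * ((Y.card : ℝ) ^ 2 + 2 * m ^ 2) := by
      rw [hmm]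
      exact_mod_cast h4
    have h6 : (G.card : ℝ) ^ 3 ≤ (8 * (t ^ 4 + t * m)) ^ 3 := by
      refine h5.trans ((?_ : _ ≤ 512 * t ^ 3 * t ^ 3 * ((t ^ 3) ^ 2 + 2 * m ^ 2)).trans ?_)
      · gcongr
      · have : 0 ≤ 512 * (3 * t ^ 9 * m + t ^ 6 * m ^ 2 + t ^ 3 * m ^ 3) := by positivity
        nlinarith
    have h7 := le_of_pow_le_pow_left₀ (by norm_num) (by positivity) h6
    have : 0 ≤ t ^ 4 := by positivity
    linarith
  · have h1 : (G.card : ℝ) ≤ 16 * Y.card := by exact_mod_cast (not_le.1 h16).le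
    have : 0 ≤ 8 * t * m := by positivity
    linarith

theorem cmp_cols (hP : Gen P) (T : Tok P) (col : Pt → ℕ)
    (hm : ∀ f ∈ slIn (edges P a) α β, col f.1 ≤ col f.2) {t : ℝ} (ht : 1 ≤ t) {Λ : ℕ}
    (hΛ : ∀ p ∈ ends (slIn (edges P a) α β), col p < Λ)
    (hb : ∀ i, (((ends (slIn (edges P a) α β)).filter fun p => col p = i).card : ℝ) ≤ t ^ 3)
    {R : Finset Ed} (hR : R ⊆ slIn (edges P a) α β)
    (h : ∀ e ∈ R, ∀ e' ∈ R, T.ch a e = T.ch a e' → col e'.2 ≤ col e.1) :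
    (R.card : ℝ) ≤ 16 * Λ * t ^ 4 + 8 * t * (ends (slIn (edges P a) α β)).card := by
  have h1 : R.card = ∑ i ∈ range Λ, (R.filter fun e => col e.1 = i).card :=
    card_eq_sum_card_fiberwise fun e he =>
      mem_coe.2 (mem_range.2 (hΛ _ (mem_ends.2 ⟨e, hR he, Or.inl rfl⟩)))
  have h2 : ∑ i ∈ range Λ, ((R.filter fun e => col e.1 = i).image (T.ch a)).card ≤
      (ends (slIn (edges P a) α β)).card := by
    rw [← card_biUnion]
    · refine (card_le_card fun c hc => ?_).trans (T.chains_le hP a α β)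
      obtain ⟨i, -, hc⟩ := mem_biUnion.1 hc
      obtain ⟨e, he, rfl⟩ := mem_image.1 hc
      exact mem_image_of_mem _ (hR (mem_filter.1 he).1)
    · intro i _ i' _ hne
      refine disjoint_left.2 fun c hc hc' => hne ?_
      obtain ⟨e, he, rfl⟩ := mem_image.1 hc
      obtain ⟨e', he', hc'⟩ := mem_image.1 hc'
      rw [mem_filter] at he he'
      have a1 := h e he.1 e' he'.1 hc'.symm
      have a2 := h e' he'.1 e he.1 hc'
      have a3 := hm e (hR he.1)
      have a4 := hm e' (hR he'.1)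
      omega
  have h3 : (R.card : ℝ) ≤ ∑ i ∈ range Λ, (16 * t ^ 4 +
      8 * t * ((R.filter fun e => col e.1 = i).image (T.ch a)).card) := by
    rw [h1, Nat.cast_sum]
    refine sum_le_sum fun i _ => cmp_one hP T col hm ht i (hb i) ((filter_subset _ _).trans hR)
      fun e he => ?_
    rw [mem_filter] at he
    have a1 := h e he.1 e he.1 rfl
    have a3 := hm e (hR he.1)
    omega
  rw [sum_add_distrib, sum_const, card_range, nsmul_eq_mul, ← mul_sum, ← Nat.cast_sum] at h3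
  have h4 := mul_le_mul_of_nonneg_left (Nat.cast_le (α := ℝ).2 h2) (by linarith : 0 ≤ 8 * t)
  linarith

theorem cmp_grp (hP : Gen P) (T : Tok P) (col row : Pt → ℕ)
    (hm : ∀ f ∈ slIn (edges P a) α β, col f.1 ≤ col f.2)
    (hm' : ∀ f ∈ slIn (edges P a) α β, row f.1 ≤ row f.2) {t : ℝ} (ht : 1 ≤ t) {Λ : ℕ}
    (hΛ : ∀ p ∈ ends (slIn (edges P a) α β), col p < Λ)
    (hΛ' : ∀ p ∈ ends (slIn (edges P a) α β), row p < Λ)
    (hb : ∀ i, (((ends (slIn (edges P a) α β)).filter fun p => col p = i).card : ℝ) ≤ t ^ 3)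
    (hb' : ∀ i, (((ends (slIn (edges P a) α β)).filter fun p => row p = i).card : ℝ) ≤ t ^ 3)
    {R : Finset Ed} (hR : R ⊆ slIn (edges P a) α β)
    (h : ∀ e ∈ R, ∀ e' ∈ R, col e.1 < col e'.2 → row e'.2 ≤ row e.1) :
    (R.card : ℝ) ≤ 32 * Λ * t ^ 4 + 16 * t * (ends (slIn (edges P a) α β)).card := by
  let V : Pt → Prop := fun c =>
    ∀ e ∈ R, ∀ e' ∈ R, T.ch a e = c → T.ch a e' = c → col e'.2 ≤ col e.1
  have h1 := cmp_cols hP T col hm ht hΛ hb (R := R.filter fun e => V (T.ch a e))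
    ((filter_subset _ _).trans hR) fun e he e' he' hc =>
      (mem_filter.1 he).2 e (mem_filter.1 he).1 e' (mem_filter.1 he').1 rfl hc.symm
  have h2 := cmp_cols hP T row hm' ht hΛ' hb' (R := R.filter fun e => ¬V (T.ch a e))
    ((filter_subset _ _).trans hR) fun e he e' he' hc => by
      rw [mem_filter] at he he'
      have hV := he.2
      simp only [V, not_forall, not_le] at hV
      obtain ⟨f, hf, f', hf', c1, c2, hlt⟩ := hV
      have k1 : ∃ g ∈ R, col g.1 ≤ col f.1 ∧ row g.1 ≤ row e.1 := by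
        rcases le_total (sl e) (sl f) with h3 | h3
        · exact ⟨e, he.1, (cmp_mono' hP T (hR he.1) (hR hf) c1.symm h3 col hm).1, le_rfl⟩
        · exact ⟨f, hf, le_rfl, (cmp_mono' hP T (hR hf) (hR he.1) c1 h3 row hm').1⟩
      have k2 : ∃ g ∈ R, col f'.2 ≤ col g.2 ∧ row e'.2 ≤ row g.2 := by
        rcases le_total (sl e') (sl f') with h3 | h3
        · exact ⟨f', hf', le_rfl,
            (cmp_mono' hP T (hR he'.1) (hR hf') (hc.symm.trans c2.symm) h3 row hm').2⟩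
        · exact ⟨e', he'.1, (cmp_mono' hP T (hR hf') (hR he'.1) (c2.trans hc) h3 col hm).2,
            le_rfl⟩
      obtain ⟨g, hg, g1, g2⟩ := k1
      obtain ⟨g', hg', g3, g4⟩ := k2
      have := h g hg g' hg' (by omega)
      omega
  have h3 : (R.card : ℝ) = (R.filter fun e => V (T.ch a e)).card +
      (R.filter fun e => ¬V (T.ch a e)).card := by
    exact_mod_cast (card_filter_add_card_filter_not _).symm
  linarith

/-- The column of a point. -/
noncomputable def cmpCol (A : Finset Pt) (φ : Pt → ℝ) (b : ℕ) (p : Pt) : ℕ :=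
  (A.filter fun q => φ q < φ p).card / b

theorem cmpCol_mono (A : Finset Pt) (φ : Pt → ℝ) (b : ℕ) {p q : Pt} (h : φ p ≤ φ q) :
    cmpCol A φ b p ≤ cmpCol A φ b q :=
  Nat.div_le_div_right (card_le_card fun _ hz =>
    mem_filter.2 ⟨(mem_filter.1 hz).1, (mem_filter.1 hz).2.trans_le h⟩)

theorem cmpCol_lt {A : Finset Pt} (φ : Pt → ℝ) {b Λ : ℕ} (h : A.card ≤ Λ * b) {p : Pt}
    (hp : p ∈ A) : cmpCol A φ b p < Λ :=
  Nat.div_lt_of_lt_mul (((card_lt_card (filter_ssubset.2 ⟨p, hp, lt_irrefl (φ p)⟩)).trans_le h).trans_eq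
    (mul_comm _ _))

theorem cmpCol_card {A : Finset Pt} {φ : Pt → ℝ} (hφ : ∀ p ∈ A, ∀ q ∈ A, φ p = φ q → p = q)
    {b : ℕ} (hb : 0 < b) (i : ℕ) : (A.filter fun p => cmpCol A φ b p = i).card ≤ b := by
  have key : ∀ p ∈ A, ∀ q, φ p < φ q →
      (A.filter fun z => φ z < φ p).card < (A.filter fun z => φ z < φ q).card := by
    intro p hp q h
    refine card_lt_card ⟨fun z hz =>
      mem_filter.2 ⟨(mem_filter.1 hz).1, (mem_filter.1 hz).2.trans h⟩, fun hs => ?_⟩
    exact lt_irrefl _ (mem_filter.1 (hs (mem_filter.2 ⟨hp, h⟩))).2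
  have h := card_le_card_of_injOn (s := A.filter fun p => cmpCol A φ b p = i)
    (t := Ico (i * b) (i * b + b)) (fun p => (A.filter fun z => φ z < φ p).card)
    (fun p hp => by
      obtain ⟨-, rfl⟩ := mem_filter.1 (mem_coe.1 hp)
      exact mem_coe.2 (mem_Ico.2 ⟨Nat.div_mul_le_self _ _, Nat.lt_div_mul_add hb⟩))
    fun p hp q hq he => by
      have hp' := (mem_filter.1 (mem_coe.1 hp)).1
      have hq' := (mem_filter.1 (mem_coe.1 hq)).1
      rcases lt_trichotomy (φ p) (φ q) with h | h | h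
      · exact absurd he (key p hp' q h).ne
      · exact hφ p hp' q hq' h
      · exact absurd he (key q hq' p h).ne'
  rwa [Nat.card_Ico, Nat.add_sub_cancel_left] at h

/-- Points in boxes with few points. -/
noncomputable def cmpLight (S : Finset Pt) (col row : Pt → ℕ) (y : ℝ) : Finset Pt :=
  S.filter fun p => ((S.filter fun q => col q = col p ∧ row q = row p).card : ℝ) < y

theorem cmpLight_card {S : Finset Pt} {col row : Pt → ℕ} {y : ℝ} (hy : 0 ≤ y) {Λ : ℕ}
    (h : ∀ p ∈ S, col p < Λ ∧ row p < Λ) : ((cmpLight S col row y).card : ℝ) ≤ Λ ^ 2 * y := by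
  have h1 : (cmpLight S col row y).card = ∑ z ∈ range Λ ×ˢ range Λ,
      ((cmpLight S col row y).filter fun p => (col p, row p) = z).card :=
    card_eq_sum_card_fiberwise fun p hp => by
      have := h p (mem_filter.1 (mem_coe.1 hp)).1
      exact mem_coe.2 (mem_product.2 ⟨mem_range.2 this.1, mem_range.2 this.2⟩)
  rw [h1, Nat.cast_sum]
  refine (sum_le_card_nsmul _ _ y fun z _ => ?_).trans_eq (by
    rw [card_product, card_range, nsmul_eq_mul, Nat.cast_mul, sq])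
  rcases ((cmpLight S col row y).filter fun p => (col p, row p) = z).eq_empty_or_nonempty with
    h0 | ⟨p, hp⟩
  · rw [h0, card_empty, Nat.cast_zero]
    exact hy
  · obtain ⟨hp', rfl⟩ := mem_filter.1 hp
    refine le_trans (Nat.cast_le.2 (card_le_card fun q hq => ?_)) (mem_filter.1 hp').2.le
    obtain ⟨hq, he⟩ := mem_filter.1 hq
    exact mem_filter.2 ⟨(mem_filter.1 hq).1, Prod.mk.inj he⟩

end Vale.Agent.P065.U
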