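import Vale.Agent.P065.U.Add
import Vale.Agent.P065.U.BSG

/-!
P065/U task Cov: from many dense graphs with small partial sums X + μ_i Y to one set S with small
iterated sumsets that is almost closed under multiplication by the ratios μ_i / μ_0.

Proof. Units of δ. For i ∈ Λ put a x = ⌊X x/δ⌋, b_i y = ⌊μ i * Y y/δ⌋. Both maps have fibres of size
≤ K on 𝒳, 𝒴. The image of G i under (a, b_i) has ≥ C²/K³ pairs and its sums take ≤ 4KC values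
(a + b_i is within 3 of a centre/δ). `bsg` (with K^3 for K) gives A_i, B_i ⊆ ℤ of size ≥ C/K', 
|A_i + B_i| ≤ K' C. Pull back: 𝒳_i = {x ∈ 𝒳 | a x ∈ A_i}, 𝒴_i = {y ∈ 𝒴 | b_i y ∈ B_i}, sizes ≥ C/K'.
Cauchy-Schwarz on 𝒳 × 𝒴: Σ_{i,i'} |𝒳_i ∩ 𝒳_i'||𝒴_i ∩ 𝒴_i'| ≥ |Λ|²(C/K')^4/(KC)^2, each term ≤ (KC)^2,
so ≥ |Λ|²/K'' ordered pairs have both intersections ≥ C/K''. The relation is symmetric; orient each
pair towards the larger μ: some i0 has ≥ |Λ|/(2K'') partners i with μ i ≤ μ i0; 𝒩 = these, S = 𝒴_i0,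
B0 = B_i0 (shrink A_i, B_i to the images so that B0 = image of S), A0 = A_i0.
Pluennecke-Ruzsa (`Finset.pluennecke_ruzsa_inequality_nsmul_sub_nsmul_add`): |600 B0 - 600 B0| ≤ K^c C,
and SumSet·μ0/δ is within 600 of it; this gives the last conjunct.
For i ∈ 𝒩, three Ruzsa coverings (`Finset.ruzsa_covering_add` or `exists_subset_add_sub`):
B0 ⊆ F1 + B' - B' with B' = b_i0 '' (𝒴_i0 ∩ 𝒴_i) (|B0 + B'| ≤ |2 B0|);
B'' = b_i '' (𝒴_i0 ∩ 𝒴_i) ⊆ F2 + A' - A' with A' = a '' (𝒳_i0 ∩ 𝒳_i) (A' + B'' ⊆ A_i + B_i);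
A0 ⊆ F3 + B0 - B0. So B'' ⊆ F2 + F3 - F3 + 2 B0 - 2 B0. For y ∈ S: μ0 Y y/δ = f1 + μ0 (Y y1 - Y y2)/δ
± 2; multiply by ν = μ i/μ0 ≤ 1 and expand μ i Y y1/δ, μ i Y y2/δ (error ≤ 3 each); total error ≤ 8.
-/

namespace Vale.Agent.P065.U

open Finset

open scoped Pointwise

theorem cov_fib {α β : Type} [DecidableEq β] (S : Finset α) (f : α → β) {K : ℝ}
    (h : ∀ z, ((S.filter fun x => f x = z).card : ℝ) ≤ K) :
    (S.card : ℝ) ≤ K * (S.image f).card := by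
  rw [card_eq_sum_card_image f S, Nat.cast_sum, mul_comm, ← nsmul_eq_mul]
  exact sum_le_card_nsmul _ _ _ fun z _ => h z

theorem cov_floor {δ : ℝ} (hδ : 0 < δ) (u : ℝ) : |u - δ * ⌊u / δ⌋| ≤ δ := by
  have h1 := Int.floor_le (u / δ)
  have h2 := Int.lt_floor_add_one (u / δ)
  rw [le_div_iff₀ hδ] at h1
  rw [div_lt_iff₀ hδ] at h2
  rw [abs_le]
  constructor <;> nlinarith

theorem cov_ffib {δ K : ℝ} (hδ : 0 < δ) {S : Finset ℤ} {X : ℤ → ℝ}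
    (h : ∀ z : ℝ, ((S.filter fun x => |X x - z| ≤ δ).card : ℝ) ≤ K) {T : Finset ℤ} (hT : T ⊆ S)
    (z : ℤ) : ((T.filter fun x => ⌊X x / δ⌋ = z).card : ℝ) ≤ K := by
  refine le_trans (Nat.cast_le.2 (card_le_card fun x hx => ?_)) (h (δ * z))
  rw [mem_filter] at hx ⊢
  exact ⟨hT hx.1, hx.2 ▸ cov_floor hδ _⟩

theorem cov_one : ∃ p : ℕ, ∀ (Xs Ys : Finset ℤ) (X Y : ℤ → ℝ) (G : Finset (ℤ × ℤ)) (δ K C : ℝ),
    2 ≤ K → 0 < C → 0 < δ → (Xs.card : ℝ) ≤ K * C → (Ys.card : ℝ) ≤ K * C → G ⊆ Xs ×ˢ Ys →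
    C ^ 2 / K ≤ G.card → Cn {z | ∃ g ∈ G, z = X g.1 + Y g.2} δ (K * C) →
    (∀ z : ℝ, ((Xs.filter fun x => |X x - z| ≤ δ).card : ℝ) ≤ K) →
    (∀ z : ℝ, ((Ys.filter fun y => |Y y - z| ≤ δ).card : ℝ) ≤ K) →
    ∃ A ⊆ Xs.image fun x => ⌊X x / δ⌋, ∃ B ⊆ Ys.image fun y => ⌊Y y / δ⌋,
      C / K ^ p ≤ A.card ∧ C / K ^ p ≤ B.card ∧ ((A + B).card : ℝ) ≤ K ^ p * C := by
  obtain ⟨c, hc⟩ := bsg
  refine ⟨3 * c, fun Xs Ys X Y G δ K C hK hC hδ hX hY hG hG' hN fX fY => ?_⟩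
  obtain ⟨F, hF, hF'⟩ := hN
  have hK0 : 0 < K := by linarith
  have h4 : 4 * (K * C) ≤ K ^ 3 * C := by
    have : 4 ≤ K ^ 2 := by nlinarith
    nlinarith [mul_pos hK0 hC]
  have h1 : K * C ≤ K ^ 3 * C := by nlinarith [mul_pos hK0 hC]
  rw [pow_mul]
  refine hc _ _ (G.image fun g => (⌊X g.1 / δ⌋, ⌊Y g.2 / δ⌋)) (K ^ 3) C
    (by nlinarith [sq_nonneg K]) hC ?_ ((Nat.cast_le.2 card_image_le).trans (hX.trans h1))
    ((Nat.cast_le.2 card_image_le).trans (hY.trans h1)) ?_ ?_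
  · intro z hz
    obtain ⟨g, hg, rfl⟩ := mem_image.1 hz
    have := mem_product.1 (hG hg)
    exact mem_product.2 ⟨mem_image_of_mem _ this.1, mem_image_of_mem _ this.2⟩
  · have h2 := cov_fib G (fun g => (⌊X g.1 / δ⌋, ⌊Y g.2 / δ⌋)) (K := K * K) fun z => by
      refine le_trans (Nat.cast_le.2 (card_le_card (t := (Xs.filter fun x => ⌊X x / δ⌋ = z.1) ×ˢ
        (Ys.filter fun y => ⌊Y y / δ⌋ = z.2)) fun g hg => ?_)) ?_
      · obtain ⟨g1, g2⟩ := mem_filter.1 hg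
        have := mem_product.1 (hG g1)
        exact mem_product.2 ⟨mem_filter.2 ⟨this.1, congrArg Prod.fst g2⟩,
          mem_filter.2 ⟨this.2, congrArg Prod.snd g2⟩⟩
      · rw [card_product, Nat.cast_mul]
        exact mul_le_mul (cov_ffib hδ fX subset_rfl _) (cov_ffib hδ fY subset_rfl _)
          (Nat.cast_nonneg _) hK0.le
    rw [div_le_iff₀ hK0] at hG'
    rw [div_le_iff₀ (by positivity)]
    nlinarith
  · refine le_trans (Nat.cast_le.2 (card_le_card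
      (t := F.biUnion fun f => Icc (⌊f / δ⌋ - 2) (⌊f / δ⌋ + 1)) fun z hz => ?_)) ?_
    · obtain ⟨g', hg', rfl⟩ := mem_image.1 hz
      obtain ⟨g, hg, rfl⟩ := mem_image.1 hg'
      obtain ⟨f, hf, hf'⟩ := hF' _ ⟨g, hg, rfl⟩
      refine mem_biUnion.2 ⟨f, hf, mem_Icc.2 ?_⟩
      have e : |X g.1 / δ + Y g.2 / δ - f / δ| ≤ 1 := by
        rw [← add_div, ← sub_div, abs_div, abs_of_pos hδ, div_le_one hδ]
        exact hf'
      rw [abs_le] at e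
      have a1 := Int.floor_le (X g.1 / δ)
      have a2 := Int.lt_floor_add_one (X g.1 / δ)
      have a3 := Int.floor_le (Y g.2 / δ)
      have a4 := Int.lt_floor_add_one (Y g.2 / δ)
      have a5 := Int.floor_le (f / δ)
      have a6 := Int.lt_floor_add_one (f / δ)
      have b1 : ((⌊f / δ⌋ - 3 : ℤ) : ℝ) < (⌊X g.1 / δ⌋ + ⌊Y g.2 / δ⌋ : ℤ) := by
        push_cast
        linarith
      have b2 : ((⌊X g.1 / δ⌋ + ⌊Y g.2 / δ⌋ : ℤ) : ℝ) < (⌊f / δ⌋ + 2 : ℤ) := by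
        push_cast
        linarith
      have b3 := Int.cast_lt.1 b1
      have b4 := Int.cast_lt.1 b2
      constructor <;> omega
    · have h5 : (F.biUnion fun f => Icc (⌊f / δ⌋ - 2) (⌊f / δ⌋ + 1)).card ≤ F.card * 4 :=
        card_biUnion_le_card_mul _ _ _ fun f _ => by
          rw [Int.card_Icc]
          omega
      have h6 : ((F.biUnion fun f => Icc (⌊f / δ⌋ - 2) (⌊f / δ⌋ + 1)).card : ℝ) ≤ F.card * 4 := by
        exact_mod_cast h5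
      linarith

theorem cov_cs {α : Type} [DecidableEq α] (Om : Finset α) (La : Finset ℕ) (W : ℕ → Finset α)
    {θ M : ℝ} (hθ : 0 ≤ θ) (hM : 0 < M) (hO : (Om.card : ℝ) ≤ M) (hW : ∀ i ∈ La, W i ⊆ Om)
    (hW' : ∀ i ∈ La, θ * M ≤ (W i).card) :
    (La.card : ℝ) ^ 2 * θ ^ 2 * M ≤ ∑ i ∈ La, ∑ j ∈ La, ((W i ∩ W j).card : ℝ) := by
  have h1 : ∀ T ⊆ Om, (T.card : ℝ) = ∑ w ∈ Om, if w ∈ T then 1 else 0 := fun T hT => by
    rw [sum_boole, filter_mem_eq_inter, inter_eq_right.2 hT]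
  have h2 : ∑ i ∈ La, ∑ j ∈ La, ((W i ∩ W j).card : ℝ) =
      ∑ w ∈ Om, (∑ i ∈ La, if w ∈ W i then (1 : ℝ) else 0) ^ 2 := by
    simp only [sq, sum_mul_sum]
    rw [sum_comm (s := Om)]
    refine sum_congr rfl fun i hi => ?_
    rw [sum_comm (s := Om)]
    refine sum_congr rfl fun j _ => ?_
    rw [h1 _ (inter_subset_left.trans (hW i hi))]
    refine sum_congr rfl fun w _ => ?_
    by_cases a : w ∈ W i <;> by_cases b : w ∈ W j <;> simp [a, b]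
  have h3 : La.card * (θ * M) ≤ ∑ w ∈ Om, ∑ i ∈ La, if w ∈ W i then (1 : ℝ) else 0 := by
    rw [sum_comm, ← nsmul_eq_mul]
    exact card_nsmul_le_sum _ _ _ fun i hi => (hW' i hi).trans_eq (h1 _ (hW i hi))
  have h4 := sq_sum_le_card_mul_sum_sq (s := Om)
    (f := fun w => ∑ i ∈ La, if w ∈ W i then (1 : ℝ) else 0)
  rw [← h2] at h4
  have h5 : (0 : ℝ) ≤ ∑ i ∈ La, ∑ j ∈ La, ((W i ∩ W j).card : ℝ) := by positivity
  have h6 := pow_le_pow_left₀ (by positivity) h3 2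
  refine le_of_mul_le_mul_left ?_ hM
  nlinarith [mul_le_mul_of_nonneg_right hO h5]

theorem cov_pick (La : Finset ℕ) (hL : La.Nonempty) (mu : ℕ → ℝ) (t : ℕ → ℕ → ℝ) {θ M : ℝ}
    (hθ : 0 ≤ θ) (hM : 0 < M) (t0 : ∀ i j, 0 ≤ t i j) (ts : ∀ i j, t i j = t j i)
    (tM : ∀ i ∈ La, ∀ j, t i j ≤ M)
    (h : (La.card : ℝ) ^ 2 * θ * M ≤ ∑ i ∈ La, ∑ j ∈ La, t i j) :
    ∃ i ∈ La, ∃ Nn ⊆ La, La.card * θ / 4 ≤ Nn.card ∧
      ∀ j ∈ Nn, mu j ≤ mu i ∧ θ * M / 4 ≤ t i j := by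
  have h1 : ∑ i ∈ La, ∑ j ∈ La, t i j ≤
      2 * ∑ i ∈ La, ∑ j ∈ La, if mu j ≤ mu i then t i j else 0 := by
    rw [two_mul]
    nth_rw 2 [sum_comm]
    simp only [← sum_add_distrib]
    refine sum_le_sum fun i _ => sum_le_sum fun j _ => ?_
    have := t0 i j
    have := ts i j
    rcases le_total (mu i) (mu j) with a | a <;> split_ifs <;> first | linarith | contradiction
  obtain ⟨i, hi, h2⟩ := exists_le_of_sum_le (f := fun _ => La.card * θ * M / 2)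
    (g := fun i => ∑ j ∈ La, if mu j ≤ mu i then t i j else 0) hL (by
      rw [sum_const, nsmul_eq_mul]
      nlinarith)
  refine ⟨i, hi, La.filter fun j => mu j ≤ mu i ∧ θ * M / 4 ≤ t i j, filter_subset _ _, ?_,
    fun j hj => (mem_filter.1 hj).2⟩
  have h3 : ∑ j ∈ La, (if mu j ≤ mu i then t i j else 0) ≤ ∑ j ∈ La,
      (M * (if mu j ≤ mu i ∧ θ * M / 4 ≤ t i j then 1 else 0) + θ * M / 4) := by
    refine sum_le_sum fun j _ => ?_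
    have := tM i hi j
    have : 0 ≤ θ * M := by positivity
    by_cases a : mu j ≤ mu i <;> by_cases b : θ * M / 4 ≤ t i j <;> simp [a, b] <;> linarith
  rw [sum_add_distrib, ← mul_sum, sum_boole, sum_const, nsmul_eq_mul] at h3
  refine le_of_mul_le_mul_left ?_ hM
  nlinarith

theorem cov_pairs (Xs Ys : Finset ℤ) (La : Finset ℕ) (hL : La.Nonempty) (mu : ℕ → ℝ)
    (U V : ℕ → Finset ℤ) {K C P : ℝ} (hK : 2 ≤ K) (hC : 0 < C) (hP : 0 < P)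
    (hX : (Xs.card : ℝ) ≤ K * C) (hY : (Ys.card : ℝ) ≤ K * C) (hU : ∀ i ∈ La, U i ⊆ Xs)
    (hV : ∀ i ∈ La, V i ⊆ Ys) (hU' : ∀ i ∈ La, C / P ≤ (U i).card)
    (hV' : ∀ i ∈ La, C / P ≤ (V i).card) :
    ∃ i ∈ La, ∃ Nn ⊆ La, (La.card : ℝ) / (P ^ 4 * K ^ 6) ≤ Nn.card ∧ ∀ j ∈ Nn, mu j ≤ mu i ∧
      C / (P ^ 4 * K ^ 6) ≤ (U i ∩ U j).card ∧ C / (P ^ 4 * K ^ 6) ≤ (V i ∩ V j).card := by
  have hK0 : 0 < K := by linarith
  have hM : 0 < (K * C) ^ 2 := by positivity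
  have h1 := cov_cs (Xs ×ˢ Ys) La (fun i => U i ×ˢ V i) (θ := 1 / (P * K) ^ 2) (by positivity) hM
    (by
      rw [card_product, Nat.cast_mul, sq]
      exact mul_le_mul hX hY (Nat.cast_nonneg _) (by positivity))
    (fun i hi => product_subset_product (hU i hi) (hV i hi)) fun i hi => by
      rw [card_product, Nat.cast_mul]
      refine le_trans (le_of_eq ?_)
        (mul_le_mul (hU' i hi) (hV' i hi) (by positivity) (Nat.cast_nonneg _))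
      field_simp
  have bU : ∀ i ∈ La, ∀ j, ((U i ∩ U j).card : ℝ) ≤ K * C := fun i hi j =>
    (Nat.cast_le.2 (card_le_card (inter_subset_left.trans (hU i hi)))).trans hX
  have bV : ∀ i ∈ La, ∀ j, ((V i ∩ V j).card : ℝ) ≤ K * C := fun i hi j =>
    (Nat.cast_le.2 (card_le_card (inter_subset_left.trans (hV i hi)))).trans hY
  simp only [product_inter_product, card_product, Nat.cast_mul] at h1
  obtain ⟨i, hi, Nn, hN, h2, h3⟩ := cov_pick La hL mu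
    (fun i j => ((U i ∩ U j).card : ℝ) * (V i ∩ V j).card) (by positivity) hM
    (fun _ _ => by positivity) (fun i j => by rw [inter_comm (U i), inter_comm (V i)])
    (fun i hi j => by
      rw [sq]
      exact mul_le_mul (bU i hi j) (bV i hi j) (Nat.cast_nonneg _) (by positivity)) h1
  have h4 : 4 ≤ K ^ 2 := by nlinarith
  have h5 : ∀ x : ℝ, 0 ≤ x → x / (P ^ 4 * K ^ 6) ≤ x * (1 / (P * K) ^ 2) ^ 2 / 4 := fun x hx => by
    have e : x * (1 / (P * K) ^ 2) ^ 2 / 4 = x / (P ^ 4 * (K ^ 4 * 4)) := by field_simp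
    rw [e, show K ^ 6 = K ^ 4 * K ^ 2 by ring]
    gcongr
  have h6 : ∀ u v : ℝ, 0 ≤ u → v ≤ K * C → (1 / (P * K) ^ 2) ^ 2 * (K * C) ^ 2 / 4 ≤ u * v →
      C / (P ^ 4 * K ^ 6) ≤ u := fun u v hu hv h => by
    refine (h5 C hC.le).trans (le_of_mul_le_mul_right ?_ (mul_pos hK0 hC))
    have a : (0 : ℝ) ≤ (1 / (P * K) ^ 2) ^ 2 * (K * C) * C := by positivity
    nlinarith [mul_le_mul_of_nonneg_left hv hu]
  exact ⟨i, hi, Nn, hN, (h5 _ (Nat.cast_nonneg _)).trans h2, fun j hj => ⟨(h3 j hj).1,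
    h6 _ _ (Nat.cast_nonneg _) (bV i hi j) (h3 j hj).2,
    h6 _ _ (Nat.cast_nonneg _) (bU i hi j) ((h3 j hj).2.trans_eq (mul_comm _ _))⟩⟩

theorem cov_pr {A B : Finset ℤ} {P C : ℝ} (hP : 0 < P) (hC : 0 < C) (hA : C / P ≤ A.card)
    (hB : C / P ≤ B.card) (h : ((A + B).card : ℝ) ≤ P * C) (m n : ℕ) :
    ((m • B - n • B).card : ℝ) ≤ (P ^ 2) ^ (m + n) * (P * C) := by
  have a0 : (0 : ℝ) < A.card := lt_of_lt_of_le (by positivity) hA
  have b0 : (0 : ℝ) < B.card := lt_of_lt_of_le (by positivity) hB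
  have h1 := (NNRat.cast_le (K := ℝ)).2
    (pluennecke_ruzsa_inequality_nsmul_sub_nsmul_add (card_pos.1 (Nat.cast_pos.1 a0)) B m n)
  push_cast at h1
  have h2 : ((A + B).card : ℝ) / A.card ≤ P ^ 2 := by
    rw [div_le_iff₀ a0]
    rw [div_le_iff₀ hP] at hA
    nlinarith
  have h3 : (A.card : ℝ) ≤ P * C :=
    (Nat.cast_le.2 (card_le_card_add_right (card_pos.1 (Nat.cast_pos.1 b0)))).trans h
  exact h1.trans (by gcongr)

theorem cov_rz {A B : Finset ℤ} {L R C : ℝ} (hL : 0 < L) (hR : 0 < R) (hC : 0 < C)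
    (hB : C / R ≤ B.card) (h : ((A + B).card : ℝ) ≤ L * C) :
    ∃ F : Finset ℤ, (F.card : ℝ) ≤ L * R ∧ ∀ a ∈ A, ∃ f ∈ F, ∃ u ∈ B, ∃ v ∈ B, a = f + u - v := by
  have b0 : (0 : ℝ) < B.card := lt_of_lt_of_le (by positivity) hB
  obtain ⟨F, -, h1, h2⟩ := ruzsa_covering_add (A := A) (K := L * R)
    (card_pos.1 (Nat.cast_pos.1 b0)) (by
      rw [div_le_iff₀ hR] at hB
      nlinarith)
  refine ⟨F, h1, fun a ha => ?_⟩
  obtain ⟨f, hf, w, hw, rfl⟩ := mem_add.1 (h2 ha)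
  obtain ⟨u, hu, v, hv, rfl⟩ := mem_sub.1 hw
  exact ⟨f, hf, u, hu, v, hv, by ring⟩

theorem cov_cn {Y : ℤ → ℝ} {S B : Finset ℤ} {b : ℤ → ℤ} {η : ℝ} (hη : 0 < η)
    (hb : ∀ y ∈ S, b y ∈ B) (he : ∀ y, |Y y - η * b y| ≤ η) (k : ℕ) {M : ℝ}
    (hM : (4 * k + 1) * ((k • B - k • B).card : ℝ) ≤ M) : Cn (SumSet Y S k) η M := by
  classical
  have hs : ∀ f : Fin k → ℤ, (∀ j, f j ∈ S) → ∑ j, b (f j) ∈ k • B ∧
      |∑ j, Y (f j) - η * (∑ j, b (f j) : ℤ)| ≤ k * η := fun f hf => by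
    refine ⟨mem_nsmul.2 ⟨fun j => ⟨b (f j), hb _ (hf j)⟩, by rw [List.sum_ofFn]⟩, ?_⟩
    rw [Int.cast_sum, mul_sum, ← sum_sub_distrib]
    refine (abs_sum_le_sum_abs _ _).trans ((sum_le_card_nsmul _ _ _ fun j _ => he _).trans ?_)
    simp
  refine ⟨((k • B - k • B) + Icc (-(2 * k : ℤ)) (2 * k)).image fun n : ℤ => η * n, ?_, ?_⟩
  · refine (Nat.cast_le.2 (card_image_le.trans card_add_le)).trans (le_trans (le_of_eq ?_) hM)
    rw [Int.card_Icc, show (2 * k + 1 - -(2 * k) : ℤ) = (4 * k + 1 : ℕ) by push_cast; ring,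
      Int.toNat_natCast]
    push_cast
    ring
  · rintro z ⟨f, g, hf, hg, hz⟩
    obtain ⟨f1, f2⟩ := hs f hf
    obtain ⟨g1, g2⟩ := hs g hg
    refine ⟨η * ⌊z / η⌋, mem_image_of_mem _ (mem_add.2 ⟨_, sub_mem_sub f1 g1,
      ⌊z / η⌋ - (∑ j, b (f j) - ∑ j, b (g j)), mem_Icc.2 ?_, by ring⟩), cov_floor hη z⟩
    rw [abs_le] at f2 g2
    have a1 : -(2 * k : ℤ) + (∑ j, b (f j) - ∑ j, b (g j)) ≤ ⌊z / η⌋ := by
      rw [Int.le_floor, le_div_iff₀ hη, Int.cast_add, Int.cast_sub]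
      push_cast at f2 g2 ⊢
      nlinarith
    have a2 : ⌊z / η⌋ ≤ (2 * k : ℤ) + (∑ j, b (f j) - ∑ j, b (g j)) := by
      rw [← Int.cast_le (R := ℝ)]
      refine (Int.floor_le _).trans ?_
      rw [div_le_iff₀ hη, Int.cast_add, Int.cast_sub]
      push_cast at f2 g2 ⊢
      nlinarith
    constructor <;> omega

theorem cov_covT {Y : ℤ → ℝ} {S T F1 F2 F3 A0 A' : Finset ℤ} {b b' : ℤ → ℤ} {η ν L : ℝ}
    (hη : 0 < η) (h0 : 0 ≤ ν) (h1 : ν ≤ 1) (he : ∀ y, |Y y - η * b y| ≤ η)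
    (he' : ∀ y, |ν * Y y - η * b' y| ≤ η) (hA : A' ⊆ A0)
    (c1 : ∀ y ∈ S, ∃ f ∈ F1, ∃ u ∈ T, ∃ v ∈ T, b y = f + b u - b v)
    (c2 : ∀ y ∈ T, ∃ f ∈ F2, ∃ u ∈ A', ∃ v ∈ A', b' y = f + u - v)
    (c3 : ∀ a ∈ A0, ∃ f ∈ F3, ∃ u ∈ S, ∃ v ∈ S, a = f + b u - b v)
    (hL : (F1.card : ℝ) * (F2.card * F3.card ^ 2) ^ 2 ≤ L) : CovT Y S 4 L (30 * η) ν := by
  classical
  have c4 : ∀ y ∈ T, ∃ f ∈ F2 + F3 - F3, ∃ p ∈ S, ∃ q ∈ S, ∃ r ∈ S, ∃ s ∈ S,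
      |ν * Y y - η * f - (Y p + Y q - Y r - Y s)| ≤ 5 * η := fun y hy => by
    obtain ⟨f, hf, u, hu, v, hv, e⟩ := c2 y hy
    obtain ⟨f', hf', p, hp, r, hr, rfl⟩ := c3 u (hA hu)
    obtain ⟨f'', hf'', s, hs, q, hq, rfl⟩ := c3 v (hA hv)
    refine ⟨f + f' - f'', sub_mem_sub (add_mem_add hf hf') hf'', p, hp, q, hq, r, hr, s, hs, ?_⟩
    have a0 := abs_le.1 (he' y)
    have a1 := abs_le.1 (he p)
    have a2 := abs_le.1 (he q)
    have a3 := abs_le.1 (he r)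
    have a4 := abs_le.1 (he s)
    rw [e] at a0
    push_cast at a0 ⊢
    rw [abs_le]
    constructor <;> linarith
  have c5 : ∀ y, |ν * Y y - ν * η * b y| ≤ η := fun y => by
    rw [mul_assoc, ← mul_sub, abs_mul, abs_of_nonneg h0]
    nlinarith [he y, abs_nonneg (Y y - η * b y)]
  refine ⟨(F1 ×ˢ (F2 + F3 - F3) ×ˢ (F2 + F3 - F3)).image
    fun w => η * (ν * w.1 + w.2.1 - w.2.2), ?_, fun y hy => ?_⟩
  · refine (Nat.cast_le.2 card_image_le).trans (le_trans ?_ hL)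
    have a : (F2 + F3 - F3).card ≤ F2.card * F3.card ^ 2 :=
      card_sub_le.trans ((Nat.mul_le_mul_right _ card_add_le).trans_eq (by ring))
    have a' : ((F2 + F3 - F3).card : ℝ) ≤ F2.card * F3.card ^ 2 := by exact_mod_cast a
    rw [card_product, card_product, Nat.cast_mul, Nat.cast_mul, ← sq]
    gcongr
  · obtain ⟨f, hf, u, hu, v, hv, e⟩ := c1 y hy
    obtain ⟨g, hg, p, hp, q, hq, r, hr, s, hs, e1⟩ := c4 u hu
    obtain ⟨g', hg', p', hp', q', hq', r', hr', s', hs', e2⟩ := c4 v hv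
    refine ⟨_, mem_image_of_mem _ (mem_product.2 ⟨hf, mem_product.2 ⟨hg, hg'⟩⟩ :
      (f, g, g') ∈ _), _, ⟨![p, q, r', s'], ![r, s, p', q'], fun j => ?_, fun j => ?_, rfl⟩, ?_⟩
    · fin_cases j <;> assumption
    · fin_cases j <;> assumption
    have a0 := abs_le.1 (c5 y)
    have a1 := abs_le.1 (c5 u)
    have a2 := abs_le.1 (c5 v)
    rw [e] at a0
    rw [abs_le] at e1 e2 ⊢
    simp only [Fin.sum_univ_four, Matrix.cons_val]
    push_cast at a0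
    constructor <;> linarith

theorem cov_main : ∃ c : ℕ, ∀ (Xs Ys : Finset ℤ) (X Y : ℤ → ℝ) (La : Finset ℕ) (mu : ℕ → ℝ)
    (G : ℕ → Finset (ℤ × ℤ)) (δ K C : ℝ), 2 ≤ K → 0 < C → 0 < δ → La.Nonempty →
    (Xs.card : ℝ) ≤ K * C → (Ys.card : ℝ) ≤ K * C → (∀ i ∈ La, 0 < mu i) →
    (∀ i ∈ La, G i ⊆ Xs ×ˢ Ys) → (∀ i ∈ La, C ^ 2 / K ≤ (G i).card) →
    (∀ i ∈ La, Cn {z | ∃ g ∈ G i, z = X g.1 + mu i * Y g.2} δ (K * C)) →
    (∀ z : ℝ, ((Xs.filter fun x => |X x - z| ≤ δ).card : ℝ) ≤ K) →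
    (∀ i ∈ La, ∀ z : ℝ, ((Ys.filter fun y => |mu i * Y y - z| ≤ δ).card : ℝ) ≤ K) →
    ∃ i0 ∈ La, ∃ Nn ⊆ La, ∃ S ⊆ Ys, (La.card : ℝ) / K ^ c ≤ Nn.card ∧ C / K ^ c ≤ S.card ∧
      (∀ i ∈ Nn, mu i ≤ mu i0 ∧ CovT Y S 4 (K ^ c) (30 * (δ / mu i0)) (mu i / mu i0)) ∧
      Cn (SumSet Y S 600) (δ / mu i0) (K ^ c * C) := by
  obtain ⟨p, hp⟩ := cov_one
  refine ⟨1201 * (2 * p) + 21, fun Xs Ys X Y La mu G δ K C hK hC hδ hL hX hY hmu hG hG' hN fX fY => ?_⟩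
  have hK0 : 0 < K := by linarith
  have hK1 : 1 ≤ K := by linarith
  have hP : 0 < K ^ p := by positivity
  choose! A hA B hB hA' hB' hAB using fun i (hi : i ∈ La) => hp Xs Ys X (fun y => mu i * Y y) (G i)
    δ K C hK hC hδ hX hY (hG i hi) (hG' i hi) (hN i hi) fX (fY i hi)
  have him : ∀ (S B : Finset ℤ) (b : ℤ → ℤ), B ⊆ S.image b →
      ∀ u ∈ B, ∃ y ∈ S.filter fun y => b y ∈ B, b y = u := fun S B b h u hu => by
    obtain ⟨y, hy, rfl⟩ := mem_image.1 (h hu)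
    exact ⟨y, mem_filter.2 ⟨hy, hu⟩, rfl⟩
  have hcard : ∀ (S B : Finset ℤ) (b : ℤ → ℤ), B ⊆ S.image b →
      (B.card : ℝ) ≤ (S.filter fun y => b y ∈ B).card := fun S B b h =>
    Nat.cast_le.2 ((card_le_card fun u hu => mem_image.2 (him S B b h u hu)).trans card_image_le)
  obtain ⟨i0, hi0, Nn, hNn, hN1, hN2⟩ := cov_pairs Xs Ys La hL mu
    (fun i => Xs.filter fun x => ⌊X x / δ⌋ ∈ A i) (fun i => Ys.filter fun y => ⌊mu i * Y y / δ⌋ ∈ B i)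
    hK hC hP hX hY (fun _ _ => filter_subset _ _) (fun _ _ => filter_subset _ _)
    (fun i hi => (hA' i hi).trans (hcard _ _ _ (hA i hi)))
    fun i hi => (hB' i hi).trans (hcard _ _ _ (hB i hi))
  have hm0 := hmu i0 hi0
  have hη : 0 < δ / mu i0 := by positivity
  have he : ∀ i y, |mu i / mu i0 * Y y - δ / mu i0 * ⌊mu i * Y y / δ⌋| ≤ δ / mu i0 := fun i y => by
    rw [div_mul_eq_mul_div, div_mul_eq_mul_div, ← sub_div, abs_div, abs_of_pos hm0]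
    exact div_le_div_of_nonneg_right (cov_floor hδ _) hm0.le
  have he0 : ∀ y, |Y y - δ / mu i0 * ⌊mu i0 * Y y / δ⌋| ≤ δ / mu i0 := fun y => by
    simpa [hm0.ne'] using he i0 y
  have hpow : ∀ {a b : ℕ}, a ≤ b → K ^ a ≤ K ^ b := fun h => pow_le_pow_right₀ hK1 h
  have hpr := cov_pr hP hC (hA' i0 hi0) (hB' i0 hi0) (hAB i0 hi0)
  refine ⟨i0, hi0, Nn, hNn, Ys.filter fun y => ⌊mu i0 * Y y / δ⌋ ∈ B i0, filter_subset _ _,
    le_trans ?_ hN1, le_trans ?_ ((hB' i0 hi0).trans (hcard _ _ _ (hB i0 hi0))),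
    fun i hi => ⟨(hN2 i hi).1, ?_⟩, cov_cn hη (fun y hy => (mem_filter.1 hy).2) he0 600 ?_⟩
  · rw [← pow_mul, ← pow_add]
    exact div_le_div_of_nonneg_left (Nat.cast_nonneg _) (by positivity) (hpow (by omega))
  · exact div_le_div_of_nonneg_left hC.le hP (hpow (by omega))
  · obtain ⟨m1, m2, m3⟩ := hN2 i hi
    have hi' := hNn hi
    have hR : 0 < (K ^ p) ^ 4 * K ^ 6 * K := by positivity
    have hq : ∀ (T : Finset ℤ) (b : ℤ → ℤ), C / ((K ^ p) ^ 4 * K ^ 6) ≤ T.card →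
        (∀ z, ((T.filter fun x => b x = z).card : ℝ) ≤ K) →
        C / ((K ^ p) ^ 4 * K ^ 6 * K) ≤ (T.image b).card := fun T b h1 h2 => by
      rw [← div_div, div_le_iff₀' hK0]
      exact h1.trans (cov_fib T b h2)
    have s1 := hq _ (fun x => ⌊X x / δ⌋) m2
      (cov_ffib hδ fX (inter_subset_left.trans (filter_subset _ _)))
    have s2 := hq _ (fun y => ⌊mu i0 * Y y / δ⌋) m3
      (cov_ffib hδ (fY i0 hi0) (inter_subset_left.trans (filter_subset _ _)))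
    obtain ⟨F1, f1, c1⟩ := cov_rz (A := B i0) (L := (K ^ p) ^ 5) (by positivity) hR hC s2 (by
      have a := hpr 2 0
      rw [zero_nsmul, sub_zero, two_nsmul] at a
      refine le_trans (Nat.cast_le.2 (card_le_card (add_subset_add_left ?_))) (a.trans_eq (by ring))
      exact image_subset_iff.2 fun y hy => (mem_filter.1 (mem_inter.1 hy).1).2)
    obtain ⟨F2, f2, c2⟩ := cov_rz (A := B i) hP hR hC s1 (by
      rw [add_comm]
      refine le_trans (Nat.cast_le.2 (card_le_card (add_subset_add_right ?_))) (hAB i hi')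
      exact image_subset_iff.2 fun y hy => (mem_filter.1 (mem_inter.1 hy).2).2)
    obtain ⟨F3, f3, c3⟩ := cov_rz hP hP hC (hB' i0 hi0) (hAB i0 hi0)
    refine cov_covT (A0 := A i0) (F1 := F1) (F3 := F3)
      (T := (Ys.filter fun y => ⌊mu i0 * Y y / δ⌋ ∈ B i0) ∩ Ys.filter fun y => ⌊mu i * Y y / δ⌋ ∈ B i)
      hη (div_pos (hmu i hi') hm0).le
      ((div_le_one hm0).2 m1) he0 (he i)
      (image_subset_iff.2 fun y hy => (mem_filter.1 (mem_inter.1 hy).1).2) (fun y hy => ?_)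
      (fun y hy => c2 _ (mem_filter.1 (mem_inter.1 hy).2).2) (fun a ha => ?_) ?_
    · obtain ⟨f, hf, u, hu, v, hv, e⟩ := c1 _ (mem_filter.1 hy).2
      obtain ⟨u, hu', rfl⟩ := mem_image.1 hu
      obtain ⟨v, hv', rfl⟩ := mem_image.1 hv
      exact ⟨f, hf, u, hu', v, hv', e⟩
    · obtain ⟨f, hf, u, hu, v, hv, e⟩ := c3 a ha
      obtain ⟨u, hu', rfl⟩ := him _ _ _ (hB i0 hi0) u hu
      obtain ⟨v, hv', rfl⟩ := him _ _ _ (hB i0 hi0) v hv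
      exact ⟨f, hf, u, hu', v, hv', e⟩
    · refine le_trans (b := K ^ (27 * p + 21)) ?_ (hpow (by omega))
      refine le_trans (b := (K ^ p) ^ 5 * ((K ^ p) ^ 4 * K ^ 6 * K) *
        (K ^ p * ((K ^ p) ^ 4 * K ^ 6 * K) * (K ^ p * K ^ p) ^ 2) ^ 2) (by gcongr) ?_
      simp only [← pow_mul, ← pow_add, ← pow_succ]
      exact hpow (by omega)
  · have a := hpr 600 600
    have b : (4 * (600 : ℕ) + 1 : ℝ) ≤ K ^ 12 :=
      le_trans (by norm_num) (pow_le_pow_left₀ zero_le_two hK 12)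
    refine (mul_le_mul b a (Nat.cast_nonneg _) (by positivity)).trans ?_
    simp only [← mul_assoc, ← pow_mul, ← pow_add]
    exact mul_le_mul_of_nonneg_right (hpow (by omega)) hC.le

end Vale.Agent.P065.U
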