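import Vale.Agent.P065.U.Add

/-!
P065/U task GKZ: Garaev / Guth-Katz-Zahl dichotomy. Write C = D^20; assume D > K^c.

(E) Energy. Let (den,num) be admissible for `hCov`, s = |den|. Assign each (y,y') ∈ S² to a ball;
Cauchy-Schwarz: ≥ |S|^4/(K U s) quadruples have |den (Y y1 - Y y2) + num (Y y3 - Y y4)| ≤ 2ε.
Those with |Y y3 - Y y4| ≤ σ2 number ≤ |S|·K U σ2·|S|·K U(2ε/s) ≤ |S|² K³ D^19 C/U s (hM2), at most
half if D ≥ 2K^6. So ≥ |S|^4/(2 K U s) far quadruples, and for a far quadruple num/den lies within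
2ε/(s σ2) of -(Y y1 - Y y2)/(Y y3 - Y y4).
R = {(ν1 - ν2)/(ν3 - ν4) : |ν3 - ν4| > σ1/μ0}, η = 2ε μ0²/(σ1² σ2) ≤ 2K/D^25 =: η'. 0 ∈ R, else
hNN at s = σ1 gives D² ≤ K.
Gap case: r = (ν1-ν2)/(ν3-ν4) ∈ R ∩ [-1,2] and ρ ∈ {r/2, (r+1)/2} with |ρ - r'| > η for all r' ∈ R.
Den = 2(ν3-ν4), ρ = nm/Den with nm = ν1-ν2 or ν1-ν2+ν3-ν4; for (i5,i6) ∈ 𝒩² use Num = Den ν5 + nm ν6
(8 terms, |Num/Den| = |ν5 + ρ ν6| ≤ 3). Sum (E) over (i5,i6). For a far quadruple the pairs with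
ν5 + ρ ν6 within ε' = 2ε/(s σ2) of the centre: two of them with |Δν6| > σ1/μ0 would put ρ within η
of R, so i6 has ≤ K U σ1 |𝒩|/C choices and then i5 has ≤ K U(ε' μ0)|𝒩|/C choices; hM3 with
(ε' μ0, s, σ2) gives 1 ≤ 2K^5/D.
Dense case: otherwise by induction on j every a/2^j (a < 2^j) is within 2η of R (η ≤ 1/100).
Take j with 8η' ≤ 2^(-j) < 16η'; the 2^j elements r_a of R are 4η'-separated, |r_a| ≤ 2, each has
≥ |S|^4/(2KC) far quadruples, and a far quadruple serves at most one a (2ε/(s σ2) ≤ η). So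
D^25/(32K) < 2^j ≤ 2 K C.
-/

namespace Vale.Agent.P065.U

open Finset

theorem gkz_cs {α : Type*} (A : Finset α) (F : Finset ℝ) (φ : α → ℝ) (h : ∀ a ∈ A, φ a ∈ F) :
    (A.card : ℝ) ^ 2 ≤ F.card * (((A ×ˢ A).filter fun x => φ x.1 = φ x.2).card : ℝ) := by
  classical
  have h1 : A.card = ∑ f ∈ F, (A.filter fun a => φ a = f).card :=
    Finset.card_eq_sum_card_fiberwise fun a ha => h a ha
  have h2 : ((A ×ˢ A).filter fun x => φ x.1 = φ x.2).card =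
      ∑ f ∈ F, (A.filter fun a => φ a = f).card ^ 2 := by
    rw [Finset.card_eq_sum_card_fiberwise (f := fun x : α × α => φ x.1) (t := F)
      fun x hx => h _ (Finset.mem_product.1 (Finset.mem_filter.1 hx).1).1]
    refine Finset.sum_congr rfl fun f _ => ?_
    rw [sq, ← Finset.card_product]
    congr 1
    ext x
    simp only [Finset.mem_filter, Finset.mem_product]
    constructor
    · rintro ⟨⟨⟨a, b⟩, c⟩, d⟩
      exact ⟨⟨a, d⟩, b, c ▸ d⟩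
    · rintro ⟨⟨a, d⟩, b, c⟩
      exact ⟨⟨⟨a, b⟩, d.trans c.symm⟩, d⟩
  rw [h2, h1]
  push_cast
  exact sq_sum_le_card_mul_sum_sq

theorem gkz_two {α β : Type*} (X : Finset (α × β)) (B : Finset β) (G : β → Finset α)
    (hX : ∀ x ∈ X, x.2 ∈ B ∧ x.1 ∈ G x.2) (M : ℝ) (h : ∀ b ∈ B, ((G b).card : ℝ) ≤ M) :
    (X.card : ℝ) ≤ B.card * M := by
  classical
  rw [Finset.card_eq_sum_card_fiberwise (f := fun x : α × β => x.2) (t := B)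
    fun x hx => (hX x hx).1]
  push_cast
  rw [← nsmul_eq_mul]
  refine Finset.sum_le_card_nsmul _ _ _ fun b hb => le_trans ?_ (h b hb)
  refine Nat.cast_le.2 (Finset.card_le_card_of_injOn (fun x => x.1) (fun x hx => ?_) ?_)
  · rw [Finset.mem_coe, Finset.mem_filter] at hx
    have := (hX x hx.1).2
    rwa [hx.2] at this
  · intro x hx x' hx' e
    rw [Finset.mem_coe, Finset.mem_filter] at hx hx'
    exact Prod.ext e (hx.2.trans hx'.2.symm)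

theorem gkz_dc {ι τ : Type*} (I : Finset ι) (T : Finset τ) (W : ι → τ → Prop)
    [∀ i q, Decidable (W i q)] (m M : ℝ) (h1 : ∀ i ∈ I, m ≤ ((T.filter (W i)).card : ℝ))
    (h2 : ∀ q ∈ T, ((I.filter fun i => W i q).card : ℝ) ≤ M) : I.card * m ≤ T.card * M := by
  have := Finset.card_nsmul_le_card_nsmul (R := ℝ) W h1 h2
  rwa [nsmul_eq_mul, nsmul_eq_mul] at this

/-- far quadruples -/
def gkzW (Y : ℤ → ℝ) (ε σ2 den num : ℝ) (q : (ℤ × ℤ) × (ℤ × ℤ)) : Prop :=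
  |den * (Y q.1.1 - Y q.2.1) + num * (Y q.1.2 - Y q.2.2)| ≤ 2 * ε ∧ σ2 < |Y q.1.2 - Y q.2.2|

theorem gkz_ctr {Y : ℤ → ℝ} {ε σ2 den num : ℝ} {q : (ℤ × ℤ) × (ℤ × ℤ)} (hε : 0 < ε)
    (hσ : 0 < σ2) (hd : den ≠ 0) (h : gkzW Y ε σ2 den num q) :
    |num / den - -(Y q.1.1 - Y q.2.1) / (Y q.1.2 - Y q.2.2)| ≤ 2 * ε / (|den| * σ2) := by
  obtain ⟨h1, h2⟩ := h
  generalize Y q.1.1 - Y q.2.1 = a at *
  generalize Y q.1.2 - Y q.2.2 = b at *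
  have hb : b ≠ 0 := fun e => by
    rw [e, abs_zero] at h2
    linarith
  have hd' : 0 < |den| := abs_pos.2 hd
  have e : num / den - -a / b = (den * a + num * b) / (den * b) := by
    field_simp
    ring
  rw [e, abs_div, abs_mul]
  exact div_le_div₀ (by positivity) h1 (by positivity) (mul_le_mul_of_nonneg_left h2.le hd'.le)

open Classical in
theorem gkz_energy {S : Finset ℤ} {Y : ℤ → ℝ} {U : ℝ → ℝ} {ε σ2 K D den num : ℝ} (hK : 2 ≤ K)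
    (hD : 2 * K ^ 6 ≤ D) (hε : 0 < ε) (hσ : 0 < σ2) (hS : D ^ 20 / K ≤ S.card)
    (hU : ∀ s, 0 < s → 0 < U s ∧ U s ≤ D ^ 20)
    (hNS : ∀ s, 0 < s → ∀ x : ℝ, ((S.filter fun y => |Y y - x| ≤ s).card : ℝ) ≤ K * U s)
    (hM2 : ∀ s1 s2, 0 < s1 → 0 < s2 → s1 * s2 ≤ 100 * ε → U s1 * U s2 ≤ K * D ^ 20)
    (h19 : U σ2 ≤ D ^ 19) (hd : den ≠ 0) (hC : Cn (Lin Y S den num) ε (K * U |den|)) :
    (S.card : ℝ) ^ 4 / (2 * K * U |den|) ≤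
      ((((S ×ˢ S) ×ˢ (S ×ˢ S)).filter (gkzW Y ε σ2 den num)).card : ℝ) := by
  obtain ⟨F, hF, hcov⟩ := hC
  have hs : 0 < |den| := abs_pos.2 hd
  have hK0 : 0 < K := by linarith
  have hD0 : 0 < D := lt_of_lt_of_le (by positivity) hD
  have h1 : ∀ p : ℤ × ℤ, ∃ f, p ∈ S ×ˢ S → f ∈ F ∧ |den * Y p.1 + num * Y p.2 - f| ≤ ε := by
    intro p
    by_cases hp : p ∈ S ×ˢ S
    · obtain ⟨f, hf, h⟩ := hcov _ ⟨p.1, (Finset.mem_product.1 hp).1, p.2,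
        (Finset.mem_product.1 hp).2, rfl⟩
      exact ⟨f, fun _ => ⟨hf, h⟩⟩
    · exact ⟨0, fun h => absurd h hp⟩
  choose φ hφ using h1
  have h2 := gkz_cs (S ×ˢ S) F φ fun p hp => (hφ p hp).1
  set Nr := ((S ×ˢ S) ×ˢ (S ×ˢ S)).filter fun q =>
    |den * (Y q.1.1 - Y q.2.1) + num * (Y q.1.2 - Y q.2.2)| ≤ 2 * ε ∧
      |Y q.1.2 - Y q.2.2| ≤ σ2 with hNr
  set Fr := ((S ×ˢ S) ×ˢ (S ×ˢ S)).filter (gkzW Y ε σ2 den num) with hFr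
  have h3 : (((S ×ˢ S) ×ˢ (S ×ˢ S)).filter fun x => φ x.1 = φ x.2) ⊆ Nr ∪ Fr := by
    intro q hq
    rw [Finset.mem_filter] at hq
    obtain ⟨hq, e⟩ := hq
    have a1 := (hφ _ (Finset.mem_product.1 hq).1).2
    have a2 := (hφ _ (Finset.mem_product.1 hq).2).2
    have a3 : |den * (Y q.1.1 - Y q.2.1) + num * (Y q.1.2 - Y q.2.2)| ≤ 2 * ε := by
      rw [e] at a1
      rw [abs_le] at a1 a2 ⊢
      constructor <;> nlinarith [a1.1, a1.2, a2.1, a2.2]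
    rw [Finset.mem_union, hNr, hFr, Finset.mem_filter, Finset.mem_filter]
    rcases le_or_gt |Y q.1.2 - Y q.2.2| σ2 with h | h
    · exact Or.inl ⟨hq, a3, h⟩
    · exact Or.inr ⟨hq, a3, h⟩
  have h4 : ((((S ×ˢ S) ×ˢ (S ×ˢ S)).filter fun x => φ x.1 = φ x.2).card : ℝ) ≤
      Nr.card + Fr.card := by
    exact_mod_cast (Finset.card_le_card h3).trans (Finset.card_union_le _ _)
  have hu := hU _ hs
  have hu2 := hU _ hσ
  have hu3 := hU (2 * ε / |den|) (by positivity)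
  have h5 : (Nr.card : ℝ) ≤ (S ×ˢ S).card * (K * U σ2 * (K * U (2 * ε / |den|))) := by
    refine gkz_two Nr (S ×ˢ S) (fun b => (S ×ˢ S).filter fun a =>
      |den * (Y a.1 - Y b.1) + num * (Y a.2 - Y b.2)| ≤ 2 * ε ∧ |Y a.2 - Y b.2| ≤ σ2)
      (fun q hq => ?_) _ fun b _ => ?_
    · rw [hNr, Finset.mem_filter, Finset.mem_product] at hq
      exact ⟨hq.1.2, Finset.mem_filter.2 ⟨hq.1.1, hq.2⟩⟩
    · refine le_trans (gkz_two _ (S.filter fun y => |Y y - Y b.2| ≤ σ2)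
        (fun z => S.filter fun y => |Y y - (Y b.1 - num * (Y z - Y b.2) / den)| ≤ 2 * ε / |den|)
        (fun a ha => ?_) _ fun z _ => hNS _ (by positivity) _) ?_
      · rw [Finset.mem_filter, Finset.mem_product] at ha
        refine ⟨Finset.mem_filter.2 ⟨ha.1.2, ha.2.2⟩, Finset.mem_filter.2 ⟨ha.1.1, ?_⟩⟩
        have e : Y a.1 - (Y b.1 - num * (Y a.2 - Y b.2) / den) =
            (den * (Y a.1 - Y b.1) + num * (Y a.2 - Y b.2)) / den := by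
          field_simp
          ring
        rw [e, abs_div]
        exact div_le_div_of_nonneg_right ha.2.1 hs.le
      · exact mul_le_mul_of_nonneg_right (hNS _ hσ _) (mul_pos hK0 hu3.1).le
  have h6 := hM2 |den| (2 * ε / |den|) hs (by positivity) (by
    rw [mul_div_cancel₀ _ hs.ne']
    linarith)
  rw [Finset.card_product] at h2 h5
  push_cast at h2 h5
  have hn : 0 < (S.card : ℝ) := lt_of_lt_of_le (by positivity) hS
  generalize (S.card : ℝ) = n at *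
  generalize (Nr.card : ℝ) = a at *
  have hb : 0 ≤ (Fr.card : ℝ) := Nat.cast_nonneg _
  generalize (Fr.card : ℝ) = b at *
  have hc : 0 ≤ ((((S ×ˢ S) ×ˢ (S ×ˢ S)).filter fun x => φ x.1 = φ x.2).card : ℝ) :=
    Nat.cast_nonneg _
  generalize ((((S ×ˢ S) ×ˢ (S ×ˢ S)).filter fun x => φ x.1 = φ x.2).card : ℝ) = c at *
  have h7 : (n * n) ^ 2 ≤ K * U |den| * (a + b) :=
    h2.trans (mul_le_mul hF h4 hc (mul_pos hK0 hu.1).le)
  have h8 : 2 * K ^ 4 * D ^ 39 ≤ n * n := by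
    have e1 : D ^ 20 ≤ n * K := (div_le_iff₀ hK0).1 hS
    have e2 : D ^ 20 * D ^ 20 ≤ (n * K) * (n * K) := mul_self_le_mul_self (by positivity) e1
    have e3 : 2 * K ^ 6 * D ^ 39 ≤ D * D ^ 39 := mul_le_mul_of_nonneg_right hD (by positivity)
    refine le_of_mul_le_mul_right ?_ (pow_pos hK0 2)
    nlinarith
  have h9 : K * U |den| * a ≤ n * n * (K ^ 4 * D ^ 39) := by
    calc K * U |den| * a ≤ K * U |den| * (n * n * (K * U σ2 * (K * U (2 * ε / |den|)))) :=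
          mul_le_mul_of_nonneg_left h5 (mul_pos hK0 hu.1).le
      _ = n * n * K ^ 3 * (U σ2 * (U |den| * U (2 * ε / |den|))) := by ring
      _ ≤ n * n * K ^ 3 * (D ^ 19 * (K * D ^ 20)) :=
          mul_le_mul_of_nonneg_left (mul_le_mul h19 h6 (mul_pos hu.1 hu3.1).le (by positivity))
            (by positivity)
      _ = n * n * (K ^ 4 * D ^ 39) := by ring
  have h10 : n * n * (2 * K ^ 4 * D ^ 39) ≤ n * n * (n * n) :=
    mul_le_mul_of_nonneg_left h8 (by positivity)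
  rw [div_le_iff₀ (by have := hu.1; positivity)]
  nlinarith

theorem gkz_poly {nu : ℕ → ℝ} {Nn : Finset ℕ} {i i' : ℕ} (hi : i ∈ Nn) (hi' : i' ∈ Nn) :
    Poly nu Nn (nu i - nu i') ∧ Poly nu Nn (2 * (nu i - nu i')) := by
  constructor
  · refine ⟨![1, -1, 0, 0, 0, 0, 0, 0], ![nu i, nu i', nu i, nu i, nu i, nu i, nu i, nu i],
      fun _ => 1, fun j => ?_, fun j => ?_, fun _ => Or.inl rfl, ?_⟩
    · fin_cases j <;> simp
    · fin_cases j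
      exacts [⟨i, hi, rfl⟩, ⟨i', hi', rfl⟩, ⟨i, hi, rfl⟩, ⟨i, hi, rfl⟩, ⟨i, hi, rfl⟩,
        ⟨i, hi, rfl⟩, ⟨i, hi, rfl⟩, ⟨i, hi, rfl⟩]
    · simp [Fin.sum_univ_eight]
      ring
  · refine ⟨![1, -1, 1, -1, 0, 0, 0, 0], ![nu i, nu i', nu i, nu i', nu i, nu i, nu i, nu i],
      fun _ => 1, fun j => ?_, fun j => ?_, fun _ => Or.inl rfl, ?_⟩
    · fin_cases j <;> simp
    · fin_cases j
      exacts [⟨i, hi, rfl⟩, ⟨i', hi', rfl⟩, ⟨i, hi, rfl⟩, ⟨i', hi', rfl⟩, ⟨i, hi, rfl⟩,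
        ⟨i, hi, rfl⟩, ⟨i, hi, rfl⟩, ⟨i, hi, rfl⟩]
    · simp [Fin.sum_univ_eight]
      ring

theorem gkz_poly8 {nu : ℕ → ℝ} {Nn : Finset ℕ} {i1 i2 i3 i4 i5 i6 : ℕ} (h1 : i1 ∈ Nn)
    (h2 : i2 ∈ Nn) (h3 : i3 ∈ Nn) (h4 : i4 ∈ Nn) (h5 : i5 ∈ Nn) (h6 : i6 ∈ Nn) (t : ℤ)
    (ht : |t| ≤ 1) :
    Poly nu Nn (2 * (nu i3 - nu i4) * nu i5 + (nu i1 - nu i2 + t * (nu i3 - nu i4)) * nu i6) := by
  refine ⟨![1, -1, 1, -1, 1, -1, t, -t],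
    ![nu i3, nu i4, nu i3, nu i4, nu i1, nu i2, nu i3, nu i4],
    ![nu i5, nu i5, nu i5, nu i5, nu i6, nu i6, nu i6, nu i6], fun j => ?_, fun j => ?_,
    fun j => Or.inr ?_, ?_⟩
  · fin_cases j <;> simp [ht]
  · fin_cases j
    exacts [⟨_, h3, rfl⟩, ⟨_, h4, rfl⟩, ⟨_, h3, rfl⟩, ⟨_, h4, rfl⟩, ⟨_, h1, rfl⟩,
      ⟨_, h2, rfl⟩, ⟨_, h3, rfl⟩, ⟨_, h4, rfl⟩]
  · fin_cases j
    exacts [⟨_, h5, rfl⟩, ⟨_, h5, rfl⟩, ⟨_, h5, rfl⟩, ⟨_, h5, rfl⟩, ⟨_, h6, rfl⟩,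
      ⟨_, h6, rfl⟩, ⟨_, h6, rfl⟩, ⟨_, h6, rfl⟩]
  · simp [Fin.sum_univ_eight]
    ring

/-- ratios of differences with a large denominator -/
def gkzR (nu : ℕ → ℝ) (Nn : Finset ℕ) (τ r : ℝ) : Prop :=
  ∃ i1 ∈ Nn, ∃ i2 ∈ Nn, ∃ i3 ∈ Nn, ∃ i4 ∈ Nn, τ < |nu i3 - nu i4| ∧
    r = (nu i1 - nu i2) / (nu i3 - nu i4)

theorem gkz_dense {R : ℝ → Prop} {η : ℝ} (hη : 2 * η ≤ 1) (hη0 : 0 ≤ η) (h0 : R 0)
    (h : ∀ r, R r → -1 ≤ r → r ≤ 2 → ∀ t : ℤ, t = 0 ∨ t = 1 → ∃ r', R r' ∧ |(r + t) / 2 - r'| ≤ η)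
    (j : ℕ) : ∀ a : ℕ, a < 2 ^ j → ∃ r, R r ∧ |(a : ℝ) / 2 ^ j - r| ≤ 2 * η := by
  induction j with
  | zero =>
    intro a ha
    refine ⟨0, h0, ?_⟩
    have : a = 0 := by simpa using ha
    simp [this, hη0]
  | succ j ih =>
    intro a ha
    have key : ∀ (a' : ℕ) (t : ℤ), a' < 2 ^ j → t = 0 ∨ t = 1 →
        ∃ r, R r ∧ |((a' : ℝ) / 2 ^ j + t) / 2 - r| ≤ 2 * η := fun a' t ha' ht => by
      obtain ⟨r, hr, e⟩ := ih a' ha'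
      have e1 : (0 : ℝ) ≤ (a' : ℝ) / 2 ^ j := by positivity
      have e2 : (a' : ℝ) / 2 ^ j ≤ 1 := by
        rw [div_le_one (by positivity)]
        exact_mod_cast ha'.le
      rw [abs_le] at e
      obtain ⟨r', hr', e'⟩ := h r hr (by linarith [e.2]) (by linarith [e.1]) t ht
      refine ⟨r', hr', ?_⟩
      rw [abs_le] at e' ⊢
      constructor <;> linarith [e.1, e.2, e'.1, e'.2]
    rcases lt_or_ge a (2 ^ j) with h1 | h1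
    · obtain ⟨r, hr, e⟩ := key a 0 h1 (Or.inl rfl)
      refine ⟨r, hr, ?_⟩
      have : (a : ℝ) / 2 ^ (j + 1) = ((a : ℝ) / 2 ^ j + ((0 : ℤ) : ℝ)) / 2 := by
        push_cast
        field_simp
        ring
      rwa [this]
    · obtain ⟨a', rfl⟩ := Nat.exists_eq_add_of_le h1
      obtain ⟨r, hr, e⟩ := key a' 1 (by rw [pow_succ] at ha; omega) (Or.inr rfl)
      refine ⟨r, hr, ?_⟩
      have : ((2 ^ j + a' : ℕ) : ℝ) / 2 ^ (j + 1) = ((a' : ℝ) / 2 ^ j + ((1 : ℤ) : ℝ)) / 2 := by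
        push_cast
        field_simp
        ring
      rwa [this]

open Classical in
theorem gkz_pairs {Nn : Finset ℕ} {nu : ℕ → ℝ} {τ ρ η e x M M' : ℝ} (hτ : 0 < τ)
    (hM : 0 ≤ M) (hM' : 0 ≤ M') (he : 2 * e / τ ≤ η)
    (hgap : ∀ r', gkzR nu Nn τ r' → η < |ρ - r'|)
    (h1 : ∀ z, ((Nn.filter fun i => |nu i - z| ≤ τ).card : ℝ) ≤ M)
    (h2 : ∀ z, ((Nn.filter fun i => |nu i - z| ≤ e).card : ℝ) ≤ M') (X : Finset (ℕ × ℕ))
    (hX : ∀ p ∈ X, p.1 ∈ Nn ∧ p.2 ∈ Nn ∧ |nu p.1 + ρ * nu p.2 - x| ≤ e) :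
    (X.card : ℝ) ≤ M * M' := by
  rcases X.eq_empty_or_nonempty with h | ⟨p0, hp0⟩
  · rw [h, Finset.card_empty, Nat.cast_zero]
    positivity
  refine le_trans (gkz_two X (Nn.filter fun i => |nu i - nu p0.2| ≤ τ)
    (fun b => Nn.filter fun i => |nu i - (x - ρ * nu b)| ≤ e) (fun p hp => ?_) M'
    fun b _ => h2 _) (mul_le_mul_of_nonneg_right (h1 _) hM')
  obtain ⟨a1, a2, a3⟩ := hX p hp
  obtain ⟨b1, b2, b3⟩ := hX p0 hp0
  refine ⟨Finset.mem_filter.2 ⟨a2, ?_⟩, Finset.mem_filter.2 ⟨a1, ?_⟩⟩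
  · by_contra hc
    rw [not_le] at hc
    have h3 := hgap _ ⟨_, b1, _, a1, _, a2, _, b2, hc, rfl⟩
    have h4 : nu p.2 - nu p0.2 ≠ 0 := fun e => by
      rw [e, abs_zero] at hc
      linarith
    have e1 : ρ - (nu p0.1 - nu p.1) / (nu p.2 - nu p0.2) =
        ((nu p.1 + ρ * nu p.2 - x) - (nu p0.1 + ρ * nu p0.2 - x)) / (nu p.2 - nu p0.2) := by
      field_simp
      ring
    have e2 : |(nu p.1 + ρ * nu p.2 - x) - (nu p0.1 + ρ * nu p0.2 - x)| ≤ 2 * e := by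
      rw [abs_le] at a3 b3 ⊢
      constructor <;> linarith [a3.1, a3.2, b3.1, b3.2]
    rw [e1, abs_div] at h3
    have e3 := div_le_div₀ ((abs_nonneg _).trans e2) e2 hτ hc.le
    linarith
  · have e1 : nu p.1 - (x - ρ * nu p.2) = nu p.1 + ρ * nu p.2 - x := by ring
    rwa [e1]

theorem gkz_num {K D n m u u1 u2 u3 : ℝ} (hK0 : 0 < K) (hD0 : 0 < D) (hn : 0 < n) (hm : 0 < m)
    (hu : 0 < u) (hu3 : 0 < u3) (h18 : u1 ≤ D ^ 18) (h19 : D ^ 19 / K ≤ u2) (k5 : 2 * K ^ 5 < D)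
    (h4 : u3 * u * u2 ≤ K * D ^ 40)
    (h3 : m * m * (n ^ 4 / (2 * K * u)) ≤ n ^ 4 * (K * u1 * m / D ^ 20 * (K * u3 * m / D ^ 20))) :
    False := by
  have e1 : m * m * (n ^ 4 / (2 * K * u)) = (m * m * n ^ 4 / (2 * K * u * D ^ 40)) * D ^ 40 := by
    field_simp
  have e2 : n ^ 4 * (K * u1 * m / D ^ 20 * (K * u3 * m / D ^ 20)) =
      (m * m * n ^ 4 / (2 * K * u * D ^ 40)) * (2 * K ^ 3 * u1 * (u3 * u)) := by
    field_simp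
  rw [e1, e2] at h3
  have h5 := le_of_mul_le_mul_left h3 (by positivity)
  have h6 : u3 * u * D ^ 19 ≤ K ^ 2 * D ^ 40 := by
    have e3 : D ^ 19 ≤ u2 * K := (div_le_iff₀ hK0).1 h19
    have e4 := mul_le_mul_of_nonneg_left e3 (mul_pos hu3 hu).le
    have e5 := mul_le_mul_of_nonneg_right h4 hK0.le
    linarith [show u3 * u * (u2 * K) = u3 * u * u2 * K by ring,
      show K * D ^ 40 * K = K ^ 2 * D ^ 40 by ring]
  have h7 : u3 * u ≤ K ^ 2 * D ^ 21 :=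
    le_of_mul_le_mul_right (by linarith [show K ^ 2 * D ^ 21 * D ^ 19 = K ^ 2 * D ^ 40 by ring])
      (pow_pos hD0 19)
  have h8 : 2 * K ^ 3 * u1 * (u3 * u) ≤ 2 * K ^ 3 * D ^ 18 * (K ^ 2 * D ^ 21) :=
    mul_le_mul (mul_le_mul_of_nonneg_left h18 (by positivity)) h7
      (mul_pos hu3 hu).le (by positivity)
  have h9 : D ≤ 2 * K ^ 5 := le_of_mul_le_mul_right (by
    linarith [show D * D ^ 39 = D ^ 40 by ring,
      show 2 * K ^ 5 * D ^ 39 = 2 * K ^ 3 * D ^ 18 * (K ^ 2 * D ^ 21) by ring]) (pow_pos hD0 39)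
  linarith

theorem gkz_abs3 {a b r t : ℝ} (a0 : 0 ≤ a) (a1 : a ≤ 1) (b0 : 0 ≤ b) (b1 : b ≤ 1) (r0 : -1 ≤ r)
    (r1 : r ≤ 2) (t0 : 0 ≤ t) (t1 : t ≤ 1) : |a + (r + t) / 2 * b| ≤ 3 := by
  rw [abs_le]
  constructor <;> nlinarith

theorem gkz_eta {ε μ0 σ1 σ2 s : ℝ} (hε : 0 < ε) (hσ1 : 0 < σ1) (h12 : σ1 ≤ σ2) (hμ0 : 0 < μ0)
    (hμ : μ0 ≤ 1) (hs1 : 2 * (σ1 / μ0) < s) :
    2 * (2 * ε / (s * σ2)) / (σ1 / μ0) ≤ 2 * ε * μ0 / σ1 ^ 3 := by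
  have hτ : 0 < σ1 / μ0 := by positivity
  have hs0 : 0 < s := by linarith
  have hσ0 : 0 < σ2 := by linarith
  rw [div_le_div_iff₀ hτ (by positivity), show 2 * (2 * ε / (s * σ2)) * σ1 ^ 3 =
    4 * ε * σ1 ^ 3 / (s * σ2) by ring, div_le_iff₀ (by positivity),
    show 2 * ε * μ0 * (σ1 / μ0) * (s * σ2) = 2 * ε * (σ1 * s * σ2) by field_simp]
  have e3 : σ1 ≤ σ1 / μ0 := by
    rw [le_div_iff₀ hμ0]
    nlinarith
  have e5 : σ1 * (2 * σ1) * σ1 ≤ σ1 * s * σ2 :=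
    mul_le_mul (mul_le_mul_of_nonneg_left (by linarith) hσ1.le) h12 hσ1.le (by positivity)
  nlinarith

open Classical in
theorem gkz_caseD {S : Finset ℤ} {Y : ℤ → ℝ} {Nn : Finset ℕ} {nu : ℕ → ℝ} {U : ℝ → ℝ}
    {ε μ0 σ1 σ2 K D η : ℝ} (hK : 2 ≤ K) (hD : 1 ≤ D) (hε : 0 < ε) (hσ1 : 0 < σ1) (h12 : σ1 ≤ σ2)
    (hσ2 : σ2 ≤ 1) (h1μ : σ1 ≤ μ0) (hμ : μ0 ≤ 1) (hn : 0 < (S.card : ℝ))
    (hU : ∀ s, 0 < s → 0 < U s ∧ U s ≤ D ^ 20) (hη2 : 2 * ε * μ0 / σ1 ^ 3 ≤ η)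
    (hE : ∀ den num, Poly nu Nn den → Poly nu Nn num → σ1 / μ0 ≤ |den| → |num| ≤ 3 * |den| →
      (S.card : ℝ) ^ 4 / (2 * K * U |den|) ≤
        ((((S ×ˢ S) ×ˢ (S ×ˢ S)).filter (gkzW Y ε σ2 den num)).card : ℝ))
    (hη : η = 2 * K / D ^ 25) (hη1 : 2 * η ≤ 1) (k8 : 64 * K ^ 2 ≤ D ^ 5)
    (h0 : gkzR nu Nn (σ1 / μ0) 0)
    (hgap : ∀ r, gkzR nu Nn (σ1 / μ0) r → -1 ≤ r → r ≤ 2 → ∀ t : ℤ, t = 0 ∨ t = 1 →
      ∃ r', gkzR nu Nn (σ1 / μ0) r' ∧ |(r + t) / 2 - r'| ≤ η) : False := by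
  have hK0 : 0 < K := by linarith
  have hD0 : 0 < D := by linarith
  have hμ0 : 0 < μ0 := by linarith
  have hσ0 : 0 < σ2 := by linarith
  have hτ : 0 < σ1 / μ0 := by positivity
  have hT : ((((S ×ˢ S) ×ˢ (S ×ˢ S)).card : ℕ) : ℝ) = (S.card : ℝ) ^ 4 := by
    simp only [Finset.card_product]
    push_cast
    ring
  have hη0 : 0 < η := by rw [hη]; positivity
  obtain ⟨j, hj1, hj2⟩ := exists_nat_pow_near (x := 2 * K * D ^ 20) (y := 2)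
    (by nlinarith [one_le_pow₀ (n := 20) hD]) (by norm_num)
  have h1 : ∀ a : ℕ, ∃ den num : ℝ, a < 2 ^ (j + 1) → Poly nu Nn den ∧ Poly nu Nn num ∧
      σ1 / μ0 < |den| ∧ |(a : ℝ) / 2 ^ (j + 1) - num / den| ≤ 2 * η := fun a => by
    by_cases ha : a < 2 ^ (j + 1)
    · obtain ⟨r, ⟨i1, a1, i2, a2, i3, a3, i4, a4, a5, rfl⟩, e⟩ :=
        gkz_dense hη1 hη0.le h0 hgap (j + 1) a ha
      exact ⟨_, _, fun _ => ⟨(gkz_poly a3 a4).1, (gkz_poly a1 a2).1, a5, e⟩⟩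
    · exact ⟨0, 0, fun h => absurd h ha⟩
  choose den num hdn using h1
  have h2 : (2 : ℝ) ^ (j + 1) * (8 * η) ≤ 1 := by
    have e1 : (2 : ℝ) ^ (j + 1) ≤ 4 * K * D ^ 20 := by
      rw [pow_succ]
      linarith
    refine (mul_le_mul_of_nonneg_right e1 (by positivity)).trans ?_
    rw [hη, show 4 * K * D ^ 20 * (8 * (2 * K / D ^ 25)) = 64 * K ^ 2 / D ^ 5 by
      field_simp; ring, div_le_one (by positivity)]
    linarith
  have h3 := gkz_dc (range (2 ^ (j + 1))) ((S ×ˢ S) ×ˢ (S ×ˢ S))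
    (fun a => gkzW Y ε σ2 (den a) (num a)) ((S.card : ℝ) ^ 4 / (2 * K * D ^ 20)) 1
    (fun a ha => ?_) fun q _ => ?_
  · rw [hT, Finset.card_range, mul_one, ← mul_div_assoc, div_le_iff₀ (by positivity),
      mul_comm] at h3
    have h4 := le_of_mul_le_mul_left h3 (by positivity)
    push_cast at h4
    linarith
  · obtain ⟨a1, a2, a3, a4⟩ := hdn a (Finset.mem_range.1 ha)
    have hd0 : 0 < |den a| := hτ.trans a3
    have e1 : (0 : ℝ) ≤ (a : ℝ) / 2 ^ (j + 1) := by positivity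
    have e2 : (a : ℝ) / 2 ^ (j + 1) ≤ 1 := by
      rw [div_le_one (by positivity)]
      exact_mod_cast (Finset.mem_range.1 ha).le
    have e3 : |num a / den a| ≤ 3 := by
      rw [abs_le] at a4 ⊢
      constructor <;> linarith [a4.1, a4.2]
    rw [abs_div, div_le_iff₀ hd0] at e3
    refine le_trans ?_ (hE _ _ a1 a2 a3.le e3)
    have hu := hU _ hd0
    exact div_le_div_of_nonneg_left (by positivity) (by have := hu.1; positivity)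
      (mul_le_mul_of_nonneg_left hu.2 (by positivity))
  · have e0 : ∀ a, a < 2 ^ (j + 1) → gkzW Y ε σ2 (den a) (num a) q →
        |(a : ℝ) / 2 ^ (j + 1) - -(Y q.1.1 - Y q.2.1) / (Y q.1.2 - Y q.2.2)| ≤ 3 * η := by
      intro a ha hw
      obtain ⟨-, -, a3, a4⟩ := hdn a ha
      have e1 := gkz_ctr hε hσ0 (abs_pos.1 (hτ.trans a3)) hw
      have e2 : 2 * ε / (|den a| * σ2) ≤ 2 * ε * μ0 / σ1 ^ 3 := by
        rw [div_le_div_iff₀ (mul_pos (hτ.trans a3) hσ0) (by positivity)]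
        have e3 : σ1 ≤ |den a| * μ0 := (div_le_iff₀ hμ0).1 a3.le
        have e4 : σ1 ^ 2 ≤ σ2 := by nlinarith
        have e5 : σ1 * σ1 ^ 2 ≤ |den a| * μ0 * σ2 :=
          mul_le_mul e3 e4 (by positivity) (hσ1.le.trans e3)
        nlinarith
      rw [abs_le] at a4 e1 ⊢
      constructor <;> linarith [a4.1, a4.2, e1.1, e1.2]
    have e6 : ((range (2 ^ (j + 1))).filter fun a => gkzW Y ε σ2 (den a) (num a) q).card ≤ 1 := by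
      rw [Finset.card_le_one]
      have key : ∀ a b : ℕ, a < 2 ^ (j + 1) → b < 2 ^ (j + 1) →
          gkzW Y ε σ2 (den a) (num a) q → gkzW Y ε σ2 (den b) (num b) q → a ≤ b := by
        intro a b ha hb wa wb
        by_contra hab
        have e1 := abs_le.1 (e0 a ha wa)
        have e2 := abs_le.1 (e0 b hb wb)
        have e3 : (b : ℝ) + 1 ≤ a := by exact_mod_cast Nat.succ_le_of_lt (not_le.1 hab)
        have e4 : ((a : ℝ) - b) / 2 ^ (j + 1) ≤ 6 * η := by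
          rw [sub_div]
          linarith [e1.2, e2.1]
        rw [div_le_iff₀ (by positivity)] at e4
        have e5 : (0 : ℝ) < 2 ^ (j + 1) * η := by positivity
        nlinarith
      intro a ha b hb
      rw [Finset.mem_filter, Finset.mem_range] at ha hb
      exact le_antisymm (key a b ha.1 hb.1 ha.2 hb.2) (key b a hb.1 ha.1 hb.2 ha.2)
    exact_mod_cast e6

open Classical in
theorem gkz_caseG {S : Finset ℤ} {Y : ℤ → ℝ} {Nn : Finset ℕ} {nu : ℕ → ℝ} {U : ℝ → ℝ}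
    {ε μ0 σ1 σ2 K D η : ℝ} (hK : 2 ≤ K) (hD : 1 ≤ D) (hε : 0 < ε) (hσ1 : 0 < σ1) (h12 : σ1 ≤ σ2)
    (hσ2 : σ2 ≤ 1) (h1μ : σ1 ≤ μ0) (hμ : μ0 ≤ 1) (hn : 0 < (S.card : ℝ))
    (hU : ∀ s, 0 < s → 0 < U s ∧ U s ≤ D ^ 20) (hη2 : 2 * ε * μ0 / σ1 ^ 3 ≤ η)
    (hE : ∀ den num, Poly nu Nn den → Poly nu Nn num → σ1 / μ0 ≤ |den| → |num| ≤ 3 * |den| →
      (S.card : ℝ) ^ 4 / (2 * K * U |den|) ≤
        ((((S ×ˢ S) ×ˢ (S ×ˢ S)).filter (gkzW Y ε σ2 den num)).card : ℝ))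
    (hN0 : 0 < (Nn.card : ℝ)) (hnu : ∀ i ∈ Nn, 0 ≤ nu i ∧ nu i ≤ 1)
    (hNN' : ∀ s, 0 < s → ∀ x : ℝ,
      ((Nn.filter fun i => |nu i - x| ≤ s / μ0).card : ℝ) ≤ K * U s * Nn.card / D ^ 20)
    (hM3 : ∀ s1 s2 s3, 0 < s1 → 0 < s2 → 0 < s3 → s1 * s2 * s3 ≤ 100 * ε →
      U s1 * U s2 * U s3 ≤ K * D ^ 40)
    (h18 : U σ1 ≤ D ^ 18) (h19 : D ^ 19 / K ≤ U σ2) (k5 : 2 * K ^ 5 < D)
    (hgap : ¬ ∀ r, gkzR nu Nn (σ1 / μ0) r → -1 ≤ r → r ≤ 2 → ∀ t : ℤ, t = 0 ∨ t = 1 →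
      ∃ r', gkzR nu Nn (σ1 / μ0) r' ∧ |(r + t) / 2 - r'| ≤ η) : False := by
  have hK0 : 0 < K := by linarith
  have hD0 : 0 < D := by linarith
  have hμ0 : 0 < μ0 := by linarith
  have hσ0 : 0 < σ2 := by linarith
  have hτ : 0 < σ1 / μ0 := by positivity
  have hT : ((((S ×ˢ S) ×ˢ (S ×ˢ S)).card : ℕ) : ℝ) = (S.card : ℝ) ^ 4 := by
    simp only [Finset.card_product]
    push_cast
    ring
  simp only [not_forall, not_exists, not_and, not_le] at hgap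
  obtain ⟨r, ⟨i1, a1, i2, a2, i3, a3, i4, a4, a5, hr⟩, r1, r2, t, ht, hg⟩ := hgap
  have ht1 : |t| ≤ 1 := by rcases ht with rfl | rfl <;> simp
  have ht2 : (0 : ℝ) ≤ t ∧ (t : ℝ) ≤ 1 := by rcases ht with rfl | rfl <;> simp
  have hd0 : nu i3 - nu i4 ≠ 0 := abs_pos.1 (hτ.trans a5)
  have hs : |2 * (nu i3 - nu i4)| = 2 * |nu i3 - nu i4| := by rw [abs_mul, abs_two]
  have hs1 : 2 * (σ1 / μ0) < |2 * (nu i3 - nu i4)| := by linarith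
  have hs0 : 0 < |2 * (nu i3 - nu i4)| := by linarith
  have hq : ∀ p : ℕ × ℕ, (2 * (nu i3 - nu i4) * nu p.1 +
      (nu i1 - nu i2 + t * (nu i3 - nu i4)) * nu p.2) / (2 * (nu i3 - nu i4)) =
      nu p.1 + (r + t) / 2 * nu p.2 := fun p => by
    rw [hr]
    field_simp
  set s := |2 * (nu i3 - nu i4)| with hsd
  have hu := hU s hs0
  have hu1 := hU σ1 hσ1
  have hu2 := hU σ2 hσ0
  have hu3 := hU (2 * ε / (s * σ2) * μ0) (by positivity)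
  have h3 := gkz_dc (Nn ×ˢ Nn) ((S ×ˢ S) ×ˢ (S ×ˢ S))
    (fun p => gkzW Y ε σ2 (2 * (nu i3 - nu i4)) (2 * (nu i3 - nu i4) * nu p.1 +
      (nu i1 - nu i2 + t * (nu i3 - nu i4)) * nu p.2)) ((S.card : ℝ) ^ 4 / (2 * K * U s))
    ((K * U σ1 * Nn.card / D ^ 20) * (K * U (2 * ε / (s * σ2) * μ0) * Nn.card / D ^ 20))
    (fun p hp => ?_) fun q _ => ?_
  · have h4 := hM3 (2 * ε / (s * σ2) * μ0) s σ2 (by positivity) hs0 hσ0 (by
      rw [show 2 * ε / (s * σ2) * μ0 * s * σ2 = 2 * ε * μ0 by field_simp]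
      nlinarith)
    rw [hT, Finset.card_product] at h3
    push_cast at h3
    exact gkz_num hK0 hD0 hn hN0 hu.1 hu3.1 h18 h19 k5 h4 h3
  · rw [Finset.mem_product] at hp
    refine hE _ _ (gkz_poly a3 a4).2 (gkz_poly8 a1 a2 a3 a4 hp.1 hp.2 t ht1) (by linarith) ?_
    rw [← div_le_iff₀ hs0, hsd, ← abs_div, hq]
    exact gkz_abs3 (hnu _ hp.1).1 (hnu _ hp.1).2 (hnu _ hp.2).1 (hnu _ hp.2).2 r1 r2 ht2.1 ht2.2
  · refine gkz_pairs (ρ := (r + t) / 2) (η := η) (e := 2 * ε / (s * σ2))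
      (x := -(Y q.1.1 - Y q.2.1) / (Y q.1.2 - Y q.2.2)) hτ (by have := hu1.1; positivity)
      (by have := hu3.1; positivity) ?_ hg (hNN' σ1 hσ1) (fun z => ?_) _ fun p hp => ?_
    · exact (gkz_eta hε hσ1 h12 hμ0 hμ hs1).trans hη2
    · have := hNN' (2 * ε / (s * σ2) * μ0) (by positivity) z
      rwa [mul_div_cancel_right₀ _ hμ0.ne'] at this
    · rw [Finset.mem_filter, Finset.mem_product] at hp
      refine ⟨hp.1.1, hp.1.2, ?_⟩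
      rw [← hq]
      exact gkz_ctr hε hσ0 (abs_pos.1 hs0) hp.2

theorem gkz : ∃ c : ℕ, ∀ (S : Finset ℤ) (Y : ℤ → ℝ) (Nn : Finset ℕ) (nu : ℕ → ℝ) (U : ℝ → ℝ)
    (ε μ0 σ1 σ2 K D : ℝ), 2 ≤ K → 1 ≤ D → 0 < ε → 0 < σ1 → σ1 ≤ σ2 → σ2 ≤ 1 → σ1 ≤ μ0 → μ0 ≤ 1 →
    Nn.Nonempty → (∀ i ∈ Nn, 0 ≤ nu i ∧ nu i ≤ 1) → D ^ 20 / K ≤ S.card →
    (∀ s, 0 < s → 0 < U s ∧ U s ≤ D ^ 20) →
    (∀ s, 0 < s → ∀ x : ℝ, ((S.filter fun y => |Y y - x| ≤ s).card : ℝ) ≤ K * U s) →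
    (∀ s, 0 < s → ∀ x : ℝ,
      ((Nn.filter fun i => |nu i - x| ≤ s / μ0).card : ℝ) * D ^ 20 ≤ K * U s * Nn.card) →
    (∀ den num, Poly nu Nn den → Poly nu Nn num → σ1 / μ0 ≤ |den| → |num| ≤ 3 * |den| →
      Cn (Lin Y S den num) ε (K * U |den|)) →
    (∀ s1 s2, 0 < s1 → 0 < s2 → s1 * s2 ≤ 100 * ε → U s1 * U s2 ≤ K * D ^ 20) →
    (∀ s1 s2 s3, 0 < s1 → 0 < s2 → 0 < s3 → s1 * s2 * s3 ≤ 100 * ε →
      U s1 * U s2 * U s3 ≤ K * D ^ 40) →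
    U σ1 ≤ D ^ 18 → D ^ 19 / K ≤ U σ2 → U σ2 ≤ D ^ 19 → ε * μ0 * D ^ 25 ≤ K * σ1 ^ 3 →
    D ≤ K ^ c := by
  classical
  refine ⟨8, ?_⟩
  intro S Y Nn nu U ε μ0 σ1 σ2 K D hK hD hε hσ1 h12 hσ2 h1μ hμ hN hnu hS hU hNS hNN hCov hM2 hM3
    h18 h19 h19' hεK
  by_contra hcon
  rw [not_le] at hcon
  have hK0 : 0 < K := by linarith
  have hD0 : 0 < D := by linarith
  have hμ0 : 0 < μ0 := by linarith
  have hσ0 : 0 < σ2 := by linarith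
  have hτ : 0 < σ1 / μ0 := by positivity
  have hn : 0 < (S.card : ℝ) := lt_of_lt_of_le (by positivity) hS
  have hN0 : 0 < (Nn.card : ℝ) := by exact_mod_cast hN.card_pos
  have k6 : (64 : ℝ) ≤ K ^ 6 := by
    calc (64 : ℝ) = 2 ^ 6 := by norm_num
      _ ≤ K ^ 6 := pow_le_pow_left₀ (by norm_num) hK 6
  have k2 : 2 * K ≤ K ^ 2 := by nlinarith
  have k5 : 2 * K ^ 5 ≤ K ^ 6 := by
    have := mul_le_mul_of_nonneg_right hK (pow_pos hK0 5).le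
    linarith [show K * K ^ 5 = K ^ 6 by ring]
  have k8 : 64 * K ^ 2 < D := by
    have := mul_le_mul_of_nonneg_right k6 (pow_pos hK0 2).le
    linarith [show K ^ 6 * K ^ 2 = K ^ 8 by ring]
  have k7 : 2 * K ^ 6 < D := by
    have := mul_le_mul_of_nonneg_right (show 2 ≤ K ^ 2 by linarith) (pow_pos hK0 6).le
    linarith [show K ^ 2 * K ^ 6 = K ^ 8 by ring]
  have d5 : D ≤ D ^ 5 := le_self_pow₀ hD (by norm_num)
  have d25 : D ≤ D ^ 25 := le_self_pow₀ hD (by norm_num)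
  set η := 2 * K / D ^ 25 with hη
  have hη0 : 0 < η := by positivity
  have hη1 : 2 * η ≤ 1 := by
    rw [hη, ← mul_div_assoc, div_le_one (by positivity)]
    linarith
  have hη2 : 2 * ε * μ0 / σ1 ^ 3 ≤ η := by
    rw [hη, div_le_div_iff₀ (by positivity) (by positivity)]
    linarith
  have hE : ∀ den num, Poly nu Nn den → Poly nu Nn num → σ1 / μ0 ≤ |den| → |num| ≤ 3 * |den| →
      (S.card : ℝ) ^ 4 / (2 * K * U |den|) ≤
        ((((S ×ˢ S) ×ˢ (S ×ˢ S)).filter (gkzW Y ε σ2 den num)).card : ℝ) :=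
    fun den num a b c d => gkz_energy hK k7.le hε hσ0 hS hU hNS hM2 h19'
      (abs_pos.1 (hτ.trans_le c)) (hCov den num a b c d)
  have hNN' : ∀ s, 0 < s → ∀ x : ℝ,
      ((Nn.filter fun i => |nu i - x| ≤ s / μ0).card : ℝ) ≤ K * U s * Nn.card / D ^ 20 :=
    fun s hs x => (le_div_iff₀ (by positivity)).2 (hNN s hs x)
  have h0 : gkzR nu Nn (σ1 / μ0) 0 := by
    by_contra hc
    obtain ⟨i0, hi0⟩ := hN
    have h1 : (Nn.filter fun i => |nu i - nu i0| ≤ σ1 / μ0) = Nn :=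
      Finset.filter_true_of_mem fun i hi => not_lt.1 fun h =>
        hc ⟨i0, hi0, i0, hi0, i, hi, i0, hi0, h, by rw [sub_self, zero_div]⟩
    have h2 := hNN σ1 hσ1 (nu i0)
    rw [h1, mul_comm] at h2
    have h3 := (le_of_mul_le_mul_right h2 hN0).trans (mul_le_mul_of_nonneg_left h18 hK0.le)
    have h4 : D ^ 2 ≤ K := le_of_mul_le_mul_right (by linarith [show D ^ 2 * D ^ 18 = D ^ 20 by ring])
      (pow_pos hD0 18)
    nlinarith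
  by_cases hgap : ∀ r, gkzR nu Nn (σ1 / μ0) r → -1 ≤ r → r ≤ 2 → ∀ t : ℤ, t = 0 ∨ t = 1 →
      ∃ r', gkzR nu Nn (σ1 / μ0) r' ∧ |(r + t) / 2 - r'| ≤ η
  · exact gkz_caseD hK hD hε hσ1 h12 hσ2 h1μ hμ hn hU hη2 hE hη hη1 (by linarith) h0 hgap
  · exact gkz_caseG hK hD hε hσ1 h12 hσ2 h1μ hμ hn hU hη2 hE hN0 hnu hNN' hM3 h18 h19
      (by linarith [pow_pos hK0 6]) hgap

end Vale.Agent.P065.U
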