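import Vale.Agent.P065.U.SAB

/-!
P065/U task SL1: the positions `lam a b i` do not concentrate.

Proof. σ e = δ e/δ e0, t_e = K^c' 2^e m/C. Call i ∈ La e-crowded if more than t_e indices of La have
lam within 2 σ e of lam i; this needs t_e < m. There are ≤ 2K values of e (2^e0 ≤ C ≤ 2^K). Suppose
the e-crowded set Z has more than |La|/(4K) elements. lam is monotone or antitone in i. Greedily cover
Z by lam-intervals of length 4σ e starting at points of Z more than 4σ e apart; their 2σ e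
neighbourhoods are disjoint and hold > t_e indices each, so there are ≤ m/t_e intervals. Intersect with
index blocks of length ⌊t_e⌋+1: ≤ 3m/t_e pieces (both partitions are into intervals of indices; or
label a piece by the pair and bound the number of pairs by monotonicity). `piece` gives i, i' with
|lam i - lam i'| ≤ 4σ e and a set Q of ≥ N/K' points with cells ≤ K' N m/(C² t_e). For q, q' ∈ Q in
one class at i put Zq = Δ v b - Δ v a; Δ v i = Δ v b - (1 - lam i) Zq, |Δ v b| ≤ δ e0 (same block, p1),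
|Δ v i| ≤ δ 0, so |Zq| ≤ 4 δ e0 and |Δ v i'| ≤ δ 0 + 16 δ e ≤ 17 δ e. `Reg.count`: ≤ 35·2^(e+τ) classes at
i' per class at i. So N/K' ≤ K C·35·2^e K·K' N m/(C² t_e), false for large c'.
La1 = indices that are not crowded for any e.
-/

namespace Vale.Agent.P065.U

open Finset Classical

theorem sl1_pieces {m : ℕ} {μ : ℕ → ℝ} (hμ : ∀ i j, i ≤ j → j < m → μ i ≤ μ j) {La Z : Finset ℕ}
    (hL : La ⊆ range m) (hZ : Z ⊆ La) {w t : ℝ} (hw : 0 < w) (ht : 0 < t)
    (h : ∀ i ∈ Z, t < (La.filter fun i' => |μ i - μ i'| ≤ w).card) :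
    ∃ pc : ℕ → ℕ, ((Z.image pc).card : ℝ) ≤ 4 * m / t ∧
      ∀ i ∈ Z, ∀ i' ∈ Z, pc i = pc i' → |(i : ℝ) - i'| ≤ t ∧ |μ i - μ i'| ≤ w := by
  obtain ⟨g, hg⟩ : ∃ g : ℕ → ℤ, g = fun i => ⌊μ i / w⌋ := ⟨_, rfl⟩
  obtain ⟨T, hT⟩ : ∃ T : ℕ, T = ⌊t⌋₊ + 1 := ⟨_, rfl⟩
  have T0 : 0 < T := by omega
  have T1 : t < T := by rw [hT]; push_cast; exact Nat.lt_floor_add_one t
  have T2 : (T : ℝ) ≤ t + 1 := by rw [hT]; push_cast; linarith [Nat.floor_le ht.le]
  have g1 : ∀ i j, μ i ≤ μ j + w → g i ≤ g j + 1 := fun i j hij => by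
    rw [hg, ← Int.floor_add_one]
    refine Int.floor_mono ?_
    rw [div_add_one hw.ne']
    exact div_le_div_of_nonneg_right hij hw.le
  have hLm : La.card ≤ m := by simpa using card_le_card hL
  have hV : (Z.image g).card * T ≤ La.card * 3 := by
    refine card_mul_le_card_mul (fun J i => g i - 1 ≤ J ∧ J ≤ g i + 1) (fun J hJ => ?_)
      fun i _ => ?_
    · obtain ⟨i, hi, rfl⟩ := mem_image.1 hJ
      rw [hT]
      refine ((Nat.floor_lt ht.le).2 (h i hi)).trans_le (card_le_card fun j hj => ?_)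
      obtain ⟨j1, j2⟩ := mem_filter.1 hj
      have a := g1 i j (by linarith [(abs_le.1 j2).2])
      have b := g1 j i (by linarith [(abs_le.1 j2).1])
      exact (mem_bipartiteAbove _).2 ⟨j1, by omega, a⟩
    · refine (card_le_card (t := Icc (g i - 1) (g i + 1))
        fun J hJ => mem_Icc.2 ((mem_bipartiteBelow _).1 hJ).2).trans ?_
      rw [Int.card_Icc]
      omega
  obtain ⟨rk, hrk⟩ : ∃ rk : ℕ → ℕ, rk = fun i => ((Z.image g).filter fun J => J < g i).card :=
    ⟨_, rfl⟩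
  have r1 : ∀ i j, g i ≤ g j → rk i ≤ rk j := fun i j hij => by
    rw [hrk]
    exact card_le_card (monotone_filter_right _ fun J _ hJ => lt_of_lt_of_le hJ hij)
  have r2 : ∀ i ∈ Z, ∀ j, g i < g j → rk i < rk j := fun i hi j hij => by
    rw [hrk]
    refine card_lt_card ⟨monotone_filter_right _ fun J _ hJ => lt_trans hJ hij, fun hs => ?_⟩
    exact lt_irrefl _ (mem_filter.1 (hs (mem_filter.2 ⟨mem_image_of_mem g hi, hij⟩))).2
  have r3 : ∀ i ∈ Z, rk i < (Z.image g).card := fun i hi => by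
    rw [hrk]
    exact card_lt_card ⟨filter_subset _ _, fun hs =>
      lt_irrefl _ (mem_filter.1 (hs (mem_image_of_mem g hi))).2⟩
  refine ⟨fun i => rk i + i / T, ?_, ?_⟩
  · have a : (Z.image fun i => rk i + i / T).card ≤ (Z.image g).card + m / T := by
      refine (card_le_card (t := range _) fun p hp => ?_).trans (card_range _).le
      obtain ⟨i, hi, rfl⟩ := mem_image.1 hp
      have := r3 i hi
      have := Nat.div_le_div_right (c := T) (mem_range.1 (hL (hZ hi))).le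
      exact mem_range.2 (by omega)
    have b : (Z.image fun i => rk i + i / T).card * T ≤ 4 * m := by
      have := Nat.div_mul_le_self m T
      have := Nat.mul_le_mul_right T a
      rw [add_mul] at this
      omega
    rw [le_div_iff₀ ht]
    refine (mul_le_mul_of_nonneg_left T1.le (Nat.cast_nonneg _)).trans ?_
    exact_mod_cast b
  · have key : ∀ i ∈ Z, ∀ j ∈ Z, i ≤ j → rk i + i / T = rk j + j / T →
        |(i : ℝ) - j| ≤ t ∧ |μ i - μ j| ≤ w := by
      intro i hi j hj hij he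
      have a : g i ≤ g j := by
        rw [hg]
        exact Int.floor_mono (div_le_div_of_nonneg_right (hμ i j hij (mem_range.1 (hL (hZ hj)))) hw.le)
      have b := r1 i j a
      have c := Nat.div_le_div_right (c := T) hij
      have d : g i = g j := a.eq_of_not_lt fun hlt => by have := r2 i hi j hlt; omega
      constructor
      · have e1 := Nat.div_add_mod i T
        have e2 := Nat.div_add_mod j T
        have e3 := Nat.mod_lt j T0
        have e4 : i / T = j / T := by omega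
        rw [e4] at e1
        have e5 : j + 1 ≤ i + T := by omega
        have e6 : (j : ℝ) + 1 ≤ i + T := by exact_mod_cast e5
        have e7 : (i : ℝ) ≤ j := by exact_mod_cast hij
        rw [abs_sub_comm, abs_of_nonneg (by linarith)]
        linarith
      · rw [hg] at d
        have := Int.abs_sub_lt_one_of_floor_eq_floor d
        rw [← sub_div, abs_div, abs_of_pos hw, div_lt_one hw] at this
        exact this.le
    intro i hi j hj he
    rcases le_total i j with hij | hij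
    · exact key i hi j hj hij he
    · rw [abs_sub_comm, abs_sub_comm (μ i)]
      exact key j hj i hi hij he.symm

theorem sl1_pairs {D : SD} {K : ℝ} {G2 : Finset ((ℝ × ℝ) × ℕ)} {δ : ℕ → ℝ} {τ e0 a b β : ℕ}
    {La : Finset ℕ} {AA : ℕ → Finset (ℝ × ℝ)} (hR : D.Reg G2 δ τ e0) (hF : D.Frame G2 a b La AA K)
    (hβ : ∀ i ∈ La, ∀ q ∈ AA i, D.kap q b / 2 ^ e0 = β) {e : ℕ} (he : e ≤ e0) {i i' : ℕ}
    (hi : i ∈ La) (hi' : i' ∈ La) (hl : |D.lam a b i - D.lam a b i'| ≤ 2 * (δ e / δ e0))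
    {Q : Finset (ℝ × ℝ)} (hQ : Q ⊆ AA i ∩ AA i') :
    (Q.image fun q => (D.cls q i, D.cls q i')).card ≤ 19 * 2 ^ (e + τ) * (D.W i).card := by
  have m1 : ∀ q ∈ Q, (q, a) ∈ G2 ∧ (q, b) ∈ G2 ∧ (q, i) ∈ G2 := fun q hq =>
    hF.mem i hi q (mem_inter.1 (hQ hq)).1
  have near : ∀ q ∈ Q, ∀ q' ∈ Q, D.cls q' i = D.cls q i → |D.v q' i' - D.v q i'| ≤ (9 : ℕ) * δ e := by
    intro q hq q' hq' hc
    have k1 := (SD.kap_eq_iff (hR.sub (m1 q' hq').2.2) (hR.sub (m1 q hq).2.2)).2 hc
    have a1 := hR.p1 q q' i 0 (m1 q hq).2.2 (hR.sub (m1 q' hq').2.2) (Nat.zero_le _)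
      (by omega) (by omega)
    have b1 := hβ i hi q (mem_inter.1 (hQ hq)).1
    have b2 := hβ i hi q' (mem_inter.1 (hQ hq')).1
    have c1 := Nat.div_add_mod (D.kap q b) (2 ^ e0)
    have c2 := Nat.div_add_mod (D.kap q' b) (2 ^ e0)
    have c3 := Nat.mod_lt (D.kap q b) (Nat.two_pow_pos e0)
    have c4 := Nat.mod_lt (D.kap q' b) (Nat.two_pow_pos e0)
    rw [b1] at c1
    rw [b2] at c2
    have a2 := hR.p1 q q' b e0 (m1 q hq).2.1 (hR.sub (m1 q' hq').2.1) le_rfl (by omega) (by omega)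
    have d0 := hR.pos e0 le_rfl
    have d1 := hR.mono 0 e (Nat.zero_le _) he
    have d2 := hR.mono e e0 he le_rfl
    obtain ⟨l0, l1⟩ := hF.lam_mem i hi
    obtain ⟨Y, hY⟩ : ∃ Y, Y = (D.v q' b - D.v q b) - (D.v q' a - D.v q a) := ⟨_, rfl⟩
    have e1 : (1 - D.lam a b i) * Y = (D.v q' b - D.v q b) - (D.v q' i - D.v q i) := by
      rw [hY, SD.v_eq a b i hF.ne q, SD.v_eq a b i hF.ne q']
      ring
    have e2 : D.v q' i' - D.v q i' = (D.v q' i - D.v q i) - (D.lam a b i - D.lam a b i') * Y := by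
      rw [hY, SD.v_eq a b i hF.ne q, SD.v_eq a b i hF.ne q', SD.v_eq a b i' hF.ne q,
        SD.v_eq a b i' hF.ne q']
      ring
    have f1 : |Y| ≤ 4 * δ e0 := by
      have := (congrArg abs e1).trans_le (abs_sub _ _)
      rw [abs_mul, abs_of_nonneg (by linarith)] at this
      nlinarith [abs_nonneg Y]
    have f2 := mul_le_mul hl f1 (abs_nonneg _) ((abs_nonneg _).trans hl)
    have f3 : 2 * (δ e / δ e0) * (4 * δ e0) = 8 * δ e := by field_simp; ring
    rw [e2]
    refine (abs_sub _ _).trans ?_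
    rw [abs_mul]
    push_cast
    linarith
  refine (card_le_mul_card_image (f := Prod.fst) _ (19 * 2 ^ (e + τ)) fun w hw => ?_).trans
    (Nat.mul_le_mul_left _ (card_le_card fun w hw => ?_))
  · obtain ⟨p, hp, rfl⟩ := mem_image.1 hw
    obtain ⟨q, hq, rfl⟩ := mem_image.1 hp
    refine le_trans ?_ (hR.count (Q.filter fun q' => D.cls q' i = D.cls q i) i' e 9 (D.v q i') he
      (fun q' hq' => (hF.mem i' hi' q' (mem_inter.1 (hQ (mem_filter.1 hq').1)).2).2.2)
      fun q' hq' => near q hq q' (mem_filter.1 hq').1 (mem_filter.1 hq').2)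
    refine card_le_card_of_injOn Prod.snd (fun p hp => ?_) fun p hp p' hp' h => ?_
    · obtain ⟨p1, p2⟩ := mem_filter.1 hp
      obtain ⟨q', hq', rfl⟩ := mem_image.1 p1
      exact mem_image_of_mem _ (mem_filter.2 ⟨hq', p2⟩)
    · exact Prod.ext ((mem_filter.1 hp).2.trans (mem_filter.1 hp').2.symm) h
  · obtain ⟨p, hp, rfl⟩ := mem_image.1 hw
    obtain ⟨q, hq, rfl⟩ := mem_image.1 hp
    exact mem_image.2 ⟨(q, i), mem_filter.2 ⟨hR.sub (m1 q hq).2.2, rfl⟩, rfl⟩

theorem SD.lam_spread (c : ℕ) : ∃ c' : ℕ, ∀ (D : SD) (K : ℝ) (G2 : Finset ((ℝ × ℝ) × ℕ))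
    (δ : ℕ → ℝ) (τ e0 a b β : ℕ) (La : Finset ℕ) (AA : ℕ → Finset (ℝ × ℝ)),
    D.Hyp K c → K ^ c' ≤ D.C → D.Reg G2 δ τ e0 → (2 : ℝ) ^ τ ≤ K → (2 : ℝ) ^ e0 ≤ D.C →
    D.Frame G2 a b La AA K → (∀ i ∈ La, ∀ q ∈ AA i, D.kap q b / 2 ^ e0 = β) →
    ∃ La1 ⊆ La, La.card ≤ 2 * La1.card ∧ ∀ e ≤ e0, ∀ i ∈ La1,
      ((La.filter fun i' => |D.lam a b i - D.lam a b i'| ≤ 2 * (δ e / δ e0)).card : ℝ) ≤
        K ^ c' * 2 ^ e * D.m / D.C := by
  obtain ⟨c1, hP⟩ := SD.piece c
  refine ⟨8 * c1 + 7, fun D K G2 δ τ e0 a b β La AA hH hC hR hτ he0 hF hβ => ?_⟩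
  have K2 := hH.two_le
  have K1 : (1 : ℝ) ≤ K := by linarith
  have K0 : (0 : ℝ) < K := by linarith
  have hN := hH.N_pos
  have C0 := hH.C_pos
  have m0 : (0 : ℝ) < D.m := by exact_mod_cast hH.m_pos
  have K4 : 4 * K ^ 2 ≤ K ^ 4 := by nlinarith [mul_le_mul K2 K2 zero_le_two K0.le, sq_nonneg K]
  have K5 : K ≤ K ^ 4 := le_self_pow₀ K1 (by norm_num)
  have K6 : (K ^ 4) ^ c1 ≤ K ^ (8 * c1 + 7) := by
    rw [← pow_mul]
    exact pow_le_pow_right₀ K1 (by omega)
  have K7 : (32 : ℝ) ≤ K ^ 5 := le_trans (by norm_num) (pow_le_pow_left₀ zero_le_two K2 5)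
  have hLm : (La.card : ℝ) ≤ D.m := by exact_mod_cast (card_le_card hF.sub).trans (card_range _).le
  obtain ⟨t, ht⟩ : ∃ t : ℕ → ℝ, t = fun e => K ^ (8 * c1 + 7) * 2 ^ e * D.m / D.C := ⟨_, rfl⟩
  obtain ⟨n, hn⟩ : ∃ n : ℕ → ℕ → ℕ, n = fun e i =>
    (La.filter fun i' => |D.lam a b i - D.lam a b i'| ≤ 2 * (δ e / δ e0)).card := ⟨_, rfl⟩
  have key : ∀ e ≤ e0, ((La.filter fun i => t e < n e i).card : ℝ) ≤ La.card / (4 * K) := by
    intro e he
    by_contra hc
    rw [not_le] at hc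
    obtain ⟨i0, hi0⟩ : (La.filter fun i => t e < n e i).Nonempty :=
      card_pos.1 (Nat.cast_pos.1 (lt_of_le_of_lt (by positivity) hc))
    have t0 : 0 < t e := by rw [ht]; positivity
    have t1 : t e ≤ D.m := by
      refine (mem_filter.1 hi0).2.le.trans (le_trans ?_ hLm)
      rw [hn]
      exact_mod_cast card_filter_le _ _
    have x0 : 0 < |D.x b - D.x a| := abs_pos.2 (sub_ne_zero.2 hF.ne.symm)
    have ab : ∀ i j, |(D.x i - D.x a) / |D.x b - D.x a| - (D.x j - D.x a) / (|D.x b - D.x a|)| =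
        |D.lam a b i - D.lam a b j| := fun i j => by
      rw [SD.lam, SD.lam, ← sub_div, ← sub_div, abs_div, abs_div, abs_abs]
    obtain ⟨pc, p1, p2⟩ := sl1_pieces (μ := fun i => (D.x i - D.x a) / |D.x b - D.x a|)
      (fun i j hij hj => div_le_div_of_nonneg_right (by linarith [hH.x_mono i j hij hj]) x0.le)
      hF.sub (filter_subset (fun i => t e < n e i) La) (w := 2 * (δ e / δ e0))
      (mul_pos two_pos (div_pos (hR.pos e he) (hR.pos e0 le_rfl))) t0 fun i hi => by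
        simpa only [ab, hn] using (mem_filter.1 hi).2
    obtain ⟨i, hi, i', hi', q1, q2⟩ := hP D (K ^ 4) (t e) _ AA pc (hH.mono K5) (K6.trans hC)
      ((filter_subset _ _).trans hF.sub) (by
        refine le_trans ?_ hc.le
        have := hF.big
        rw [div_le_iff₀ K0] at this
        rw [div_le_div_iff₀ (by positivity) (by positivity)]
        nlinarith [mul_le_mul_of_nonneg_left K4 (Nat.cast_nonneg (α := ℝ) La.card)])
      (fun i hi q hq => hR.sub (hF.mem i (mem_filter.1 hi).1 q hq).2.2)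
      (fun i hi => (div_le_div_of_nonneg_left hN.le K0 K5).trans (hF.AA_big i (mem_filter.1 hi).1))
      (by
        rw [ht]
        refine div_le_div_of_nonneg_right (mul_le_mul_of_nonneg_right (K6.trans
          (le_mul_of_one_le_right (by positivity) (one_le_pow₀ one_le_two))) m0.le) C0.le)
      t1 (p1.trans (div_le_div_of_nonneg_right
        (mul_le_mul_of_nonneg_right (by nlinarith) m0.le) t0.le))
      fun i hi j hj h => (p2 i hi j hj h).1
    have j1 := (mem_filter.1 hi).1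
    have j2 := (mem_filter.1 hi').1
    have s1 := sl1_pairs hR hF hβ he j1 j2 (by rw [← ab]; exact (p2 i hi i' hi' q1).2)
      (filter_subset (fun q => (D.cell q i i' : ℝ) ≤ (K ^ 4) ^ c1 * D.N * D.m / (D.C ^ 2 * t e)) _)
    have s2 := SD.card_le_cells hH ((AA i ∩ AA i').filter fun q =>
      (D.cell q i i' : ℝ) ≤ (K ^ 4) ^ c1 * D.N * D.m / (D.C ^ 2 * t e)) i i' _ (by positivity)
      (fun q hq => ⟨hR.sub (hF.mem i j1 q (mem_inter.1 (mem_filter.1 hq).1).1).2.2,
        hR.sub (hF.mem i' j2 q (mem_inter.1 (mem_filter.1 hq).1).2).2.2⟩)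
      fun q hq => (mem_filter.1 hq).2
    have s3 := (Nat.cast_le (α := ℝ)).2 s1
    push_cast at s3
    have s4 : (19 : ℝ) * 2 ^ (e + τ) * (D.W i).card ≤ 19 * (2 ^ e * K) * (K * D.C) := by
      rw [pow_add]
      gcongr
      exact hH.W_le i
    have s5 := q2.trans (s2.trans (mul_le_mul_of_nonneg_left (s3.trans s4) (by positivity)))
    have e1 : (K ^ 4) ^ c1 * D.N * D.m / (D.C ^ 2 * t e) * (19 * (2 ^ e * K) * (K * D.C)) =
        D.N / (K ^ 4) ^ c1 * (19 / K ^ 5) := by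
      have e2 : K ^ (8 * c1 + 7) = ((K ^ 4) ^ c1) ^ 2 * K ^ 7 := by ring
      simp only [ht, e2]
      field_simp
    rw [e1] at s5
    have s6 : 19 / K ^ 5 < 1 := (div_lt_one (by positivity)).2 (by linarith)
    have s7 : 0 < D.N / (K ^ 4) ^ c1 := by positivity
    nlinarith
  refine ⟨La.filter fun i => ∀ e ≤ e0, (n e i : ℝ) ≤ t e, filter_subset _ _, ?_,
    fun e he i hi => by simpa only [hn, ht] using (mem_filter.1 hi).2 e he⟩
  have e1 : (e0 : ℝ) ≤ K := by
    have := he0.trans hH.logC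
    rwa [← Real.rpow_natCast, Real.rpow_le_rpow_left_iff one_lt_two] at this
  have s1 : (La.filter fun i => ¬ ∀ e ≤ e0, (n e i : ℝ) ≤ t e) ⊆
      (range (e0 + 1)).biUnion fun e => La.filter fun i => t e < n e i := by
    intro i hi
    obtain ⟨i1, i2⟩ := mem_filter.1 hi
    push Not at i2
    obtain ⟨e, he, h⟩ := i2
    exact mem_biUnion.2 ⟨e, mem_range.2 (by omega), mem_filter.2 ⟨i1, h⟩⟩
  have s2 := (Nat.cast_le (α := ℝ)).2 ((card_le_card s1).trans card_biUnion_le)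
  rw [Nat.cast_sum] at s2
  have s3 := s2.trans (sum_le_card_nsmul _ _ _ fun e he =>
    key e (Nat.lt_succ_iff.1 (mem_range.1 he)))
  rw [card_range, nsmul_eq_mul] at s3
  have s4 : ((e0 + 1 : ℕ) : ℝ) * (La.card / (4 * K)) ≤ La.card / 2 := by
    rw [← mul_div_assoc, div_le_div_iff₀ (by positivity) two_pos]
    push_cast
    nlinarith [Nat.cast_nonneg (α := ℝ) La.card]
  have s5 := congrArg (Nat.cast : ℕ → ℝ) (card_filter_add_card_filter_not (s := La)
    fun i => ∀ e ≤ e0, (n e i : ℝ) ≤ t e)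
  push_cast at s5
  have s6 : (La.card : ℝ) ≤ 2 * (La.filter fun i => ∀ e ≤ e0, (n e i : ℝ) ≤ t e).card := by linarith
  exact_mod_cast s6

end Vale.Agent.P065.U
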