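import Mathlib

/-!
P065/U task SU: the scale function `U`, pure real analysis of a sequence.

Proof. C = D^20. U s = 2^(e s), e s = least e ≤ e0 with s ≤ σ e, or e0 if none. If e s ≥ 1 then
σ (e s - 1) < s. e1 = largest with 2^e1 ≤ D^18, e2 = largest with 2^e2 ≤ D^19 (both ≤ e0 since
C ≤ K 2^e0 and D is large), σ1 = σ e1, σ2 = σ e2; U (σ e) ≤ 2^e, and U (σ e) ≥ 2^(e - τ) by `grow`.
Triple bound: if U s1 U s2 U s3 > K^c C² then every U s_j > K^c ≥ 2; use `sub` twice (first with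
2^e12 about U s1 U s2/(8 K C), then 2^e'' about 2^e12 U s3/(4 K C), capped at eI + 15 τ ≤ e0) to get
σ (eI + 15τ) ≤ 256 s1 s2 s3 ≤ 25600 σ eI, while `grow` gives σ (eI + 15τ) ≥ 32768 σ eI. The double
bound is the triple bound with s3 = 1, U 1 ≥ 2^(e0 - τ) ≥ C/K².
Smallness: iterate `sub` with e' = e1 eight times: exponents f_j with 2^(f_j) ≥ D^(20-2j)/(4K)^j,
τ ≤ f_9, σ f_9 ≤ 16^8 σ1^9, and δn ≤ σ 0 ≤ σ f_9. If σ1 D^5 ≤ 1 then δn D^25 ≤ 16^8 σ1^3; otherwise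
δn D^25 ≤ K D^(-15) ≤ K σ1^3.
-/

namespace Vale.Agent.P065.U

theorem su_idx (σ : ℕ → ℝ) (e0 : ℕ) : ∃ E : ℝ → ℕ, ∀ s, E s ≤ e0 ∧ (s ≤ σ (E s) ∨ E s = e0) ∧
    ∀ e < E s, σ e < s := by
  have h : ∀ s : ℝ, ∃ n, n ≤ e0 ∧ (s ≤ σ n ∨ n = e0) ∧ ∀ e < n, σ e < s := by
    intro s
    by_cases h : ∃ e, e ≤ e0 ∧ s ≤ σ e
    · classical
      refine ⟨Nat.find h, (Nat.find_spec h).1, Or.inl (Nat.find_spec h).2, fun e he => ?_⟩
      have h1 := Nat.find_min h he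
      exact lt_of_not_ge fun h2 => h1 ⟨he.le.trans (Nat.find_spec h).1, h2⟩
    · exact ⟨e0, le_rfl, Or.inr rfl, fun e he => lt_of_not_ge fun h2 => h ⟨e, he.le, h2⟩⟩
  choose E hE using h
  exact ⟨E, hE⟩

theorem su_le {a b : ℕ} (h : (2 : ℝ) ^ a ≤ 2 ^ b) : a ≤ b :=
  (pow_le_pow_iff_right₀ one_lt_two).1 h

theorem su_lt {a b : ℕ} (h : (2 : ℝ) ^ a < 2 ^ (b + 1)) : a ≤ b :=
  Nat.lt_succ_iff.1 ((pow_lt_pow_iff_right₀ one_lt_two).1 h)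

theorem su_grow {σ : ℕ → ℝ} {e0 τ : ℕ} (h : ∀ e, e + τ ≤ e0 → 2 * σ e ≤ σ (e + τ)) (e j : ℕ)
    (hj : e + j * τ ≤ e0) : 2 ^ j * σ e ≤ σ (e + j * τ) := by
  induction j with
  | zero => simp
  | succ j ih =>
    have e1 : e + (j + 1) * τ = e + j * τ + τ := by ring
    rw [e1] at hj ⊢
    have h1 := ih (by omega)
    have h2 := h _ hj
    rw [pow_succ]
    linarith

/-- The best exponent for the submultiplicativity. -/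
theorem su_mid {σ : ℕ → ℝ} {e0 τ : ℕ} {K C : ℝ} (hK : 2 ≤ K) (hC : 0 < C) (hτ : (2 : ℝ) ^ τ ≤ K)
    (hs : ∀ e e' e'' : ℕ, e ≤ e0 → e' ≤ e0 → e'' ≤ e0 → τ ≤ e'' →
      K * 2 ^ e'' * C ≤ 2 ^ e * 2 ^ e' → σ e'' ≤ 16 * σ e * σ e')
    {a b : ℕ} (ha : a ≤ e0) (hb : b ≤ e0) (hb' : (2 : ℝ) ^ b ≤ C) (h : K * K * C ≤ 2 ^ a * 2 ^ b) :
    ∃ f ≤ e0, (2 : ℝ) ^ a * 2 ^ b ≤ 2 * K * C * 2 ^ f ∧ σ f ≤ 16 * σ a * σ b := by
  have hKC : 0 < K * C := by positivity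
  have h1 : K ≤ 2 ^ a * 2 ^ b / (K * C) := by
    rw [le_div_iff₀ hKC]; linarith
  obtain ⟨f, h2, h3⟩ := exists_nat_pow_near (x := 2 ^ a * 2 ^ b / (K * C)) (y := (2 : ℝ))
    (by linarith) one_lt_two
  have h4 : f ≤ e0 := by
    refine le_trans (su_le (h2.trans ?_)) ha
    rw [div_le_iff₀ hKC]
    refine mul_le_mul_of_nonneg_left ?_ (by positivity)
    nlinarith
  have h5 : τ ≤ f := su_lt ((hτ.trans h1).trans_lt h3)
  rw [le_div_iff₀ hKC] at h2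
  rw [div_lt_iff₀ hKC, pow_succ] at h3
  exact ⟨f, h4, by linarith, hs a b f ha hb h4 h5 (by linarith)⟩

theorem su_small {σ : ℕ → ℝ} {e0 τ e1 : ℕ} {K D : ℝ} (hK : 2 ≤ K) (hD : K ^ 32 ≤ D)
    (hτ : (2 : ℝ) ^ τ ≤ K) (hp : ∀ e ≤ e0, 0 < σ e)
    (hs : ∀ e e' e'' : ℕ, e ≤ e0 → e' ≤ e0 → e'' ≤ e0 → τ ≤ e'' →
      K * 2 ^ e'' * D ^ 20 ≤ 2 ^ e * 2 ^ e' → σ e'' ≤ 16 * σ e * σ e')
    (h1 : e1 ≤ e0) (h2 : (2 : ℝ) ^ e1 ≤ D ^ 18) (h3 : D ^ 18 < 2 ^ (e1 + 1)) (j : ℕ) (hj : j ≤ 8) :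
    ∃ f ≤ e0, D ^ 18 ≤ 2 * (4 * K * D ^ 2) ^ j * 2 ^ f ∧ σ f ≤ 16 ^ j * σ e1 ^ (j + 1) := by
  have hK1 : (1 : ℝ) ≤ K := by linarith
  have hD1 : (1 : ℝ) ≤ D := (one_le_pow₀ hK1).trans hD
  have hD0 : (0 : ℝ) < D := by linarith
  rw [pow_succ (2 : ℝ)] at h3
  induction j with
  | zero => exact ⟨e1, h1, by rw [pow_zero]; linarith, by simp⟩
  | succ j ih =>
    obtain ⟨f, hf, h4, h5⟩ := ih (by omega)
    have hM : (1 : ℝ) ≤ 4 * K * D ^ 2 := by nlinarith [one_le_pow₀ (n := 2) hD1]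
    have hM0 : (0 : ℝ) < (4 * K * D ^ 2) ^ j := by positivity
    have h6 : D ^ 18 * D ^ 18 ≤ 4 * (4 * K * D ^ 2) ^ j * (2 ^ f * 2 ^ e1) := by
      have := mul_le_mul h4 h3.le (by positivity) (by positivity)
      linarith
    have h7 : (4 * K * D ^ 2) ^ j ≤ K ^ 21 * D ^ 14 := by
      refine (pow_le_pow_right₀ hM (by omega : j ≤ 7)).trans ?_
      have h8 : 4 * K * D ^ 2 ≤ K ^ 3 * D ^ 2 := by
        refine mul_le_mul_of_nonneg_right ?_ (by positivity)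
        have h11 : (4 : ℝ) ≤ K ^ 2 := by nlinarith
        nlinarith
      refine (pow_le_pow_left₀ (by positivity) h8 7).trans (le_of_eq (by ring))
    have h9 : K * K * D ^ 20 ≤ 2 ^ f * 2 ^ e1 := by
      have h10 : 4 * K ^ 23 ≤ D ^ 2 := by
        have h11 : (4 : ℝ) ≤ K ^ 2 := by nlinarith
        have h12 : K ^ 25 ≤ K ^ 32 := pow_le_pow_right₀ hK1 (by norm_num)
        have h13 : 4 * K ^ 23 ≤ K ^ 2 * K ^ 23 := mul_le_mul_of_nonneg_right h11 (by positivity)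
        have h14 : D ≤ D ^ 2 := by nlinarith
        have h15 : K ^ 2 * K ^ 23 = K ^ 25 := by ring
        linarith
      refine le_of_mul_le_mul_left ?_ (by positivity : (0 : ℝ) < 4 * (4 * K * D ^ 2) ^ j)
      refine le_trans ?_ h6
      calc 4 * (4 * K * D ^ 2) ^ j * (K * K * D ^ 20)
          ≤ 4 * (K ^ 21 * D ^ 14) * (K * K * D ^ 20) := by gcongr
        _ = 4 * K ^ 23 * D ^ 34 := by ring
        _ ≤ D ^ 2 * D ^ 34 := by gcongr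
        _ = D ^ 18 * D ^ 18 := by ring
    obtain ⟨f', hf', h10, h11⟩ := su_mid hK (by positivity) hτ hs hf h1
      (h2.trans (pow_le_pow_right₀ hD1 (by norm_num))) h9
    refine ⟨f', hf', ?_, ?_⟩
    · refine le_of_mul_le_mul_left ?_ (by positivity : (0 : ℝ) < D ^ 18)
      refine h6.trans ((mul_le_mul_of_nonneg_left h10 (by positivity)).trans (le_of_eq (by ring)))
    · have h12 := hp e1 h1
      calc σ f' ≤ 16 * σ f * σ e1 := h11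
        _ ≤ 16 * (16 ^ j * σ e1 ^ (j + 1)) * σ e1 := by gcongr
        _ = 16 ^ (j + 1) * σ e1 ^ (j + 1 + 1) := by ring

theorem scale_fun : ∃ c : ℕ, ∀ (σ : ℕ → ℝ) (e0 τ eI : ℕ) (K D δn : ℝ), 2 ≤ K → K ^ c ≤ D →
    1 ≤ τ → (2 : ℝ) ^ τ ≤ K → (2 : ℝ) ^ eI ≤ K → D ^ 20 ≤ K * 2 ^ e0 → (2 : ℝ) ^ e0 ≤ D ^ 20 →
    (∀ e ≤ e0, 0 < σ e) → (∀ e e', e ≤ e' → e' ≤ e0 → σ e ≤ σ e') → σ e0 = 1 →
    (∀ e, e + τ ≤ e0 → 2 * σ e ≤ σ (e + τ)) →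
    (∀ e e' e'' : ℕ, e ≤ e0 → e' ≤ e0 → e'' ≤ e0 → τ ≤ e'' →
      K * 2 ^ e'' * D ^ 20 ≤ 2 ^ e * 2 ^ e' → σ e'' ≤ 16 * σ e * σ e') →
    0 < δn → δn ≤ σ 0 → δn ≤ K / D ^ 40 →
    ∃ (U : ℝ → ℝ) (e1 : ℕ) (σ2 : ℝ), e1 ≤ e0 ∧ (2 : ℝ) ^ e1 ≤ D ^ 18 ∧ σ e1 ≤ σ2 ∧ σ2 ≤ 1 ∧
      (∀ s, 0 < s → ∃ e ≤ e0, U s = 2 ^ e ∧ (s ≤ σ e ∨ e = e0)) ∧
      (∀ s1 s2, 0 < s1 → 0 < s2 → s1 * s2 ≤ 100 * σ eI → U s1 * U s2 ≤ K ^ c * D ^ 20) ∧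
      (∀ s1 s2 s3, 0 < s1 → 0 < s2 → 0 < s3 → s1 * s2 * s3 ≤ 100 * σ eI →
        U s1 * U s2 * U s3 ≤ K ^ c * D ^ 40) ∧
      U (σ e1) ≤ D ^ 18 ∧ D ^ 19 / K ^ c ≤ U σ2 ∧ U σ2 ≤ D ^ 19 ∧
      δn * D ^ 25 ≤ K ^ c * σ e1 ^ 3 := by
  refine ⟨32, fun σ e0 τ eI K D δn hK hD hτ1 hτ hI hC h0 hp hm hone hg hs hδ hδ0 hδ1 => ?_⟩
  have hK1 : (1 : ℝ) ≤ K := by linarith
  have hK0 : (0 : ℝ) < K := by linarith
  have hKD : K ≤ D := (le_self_pow₀ hK1 (by norm_num)).trans hD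
  have hD1 : (1 : ℝ) ≤ D := hK1.trans hKD
  have hD0 : (0 : ℝ) < D := by linarith
  have h19 : D ^ 19 ≤ 2 ^ e0 := by
    refine le_of_mul_le_mul_left ?_ hD0
    calc D * D ^ 19 = D ^ 20 := by ring
      _ ≤ K * 2 ^ e0 := hC
      _ ≤ D * 2 ^ e0 := by gcongr
  have h18 : D ^ 18 ≤ D ^ 19 := pow_le_pow_right₀ hD1 (by norm_num)
  obtain ⟨E, hE⟩ := su_idx σ e0
  obtain ⟨e1, a1, b1⟩ := exists_nat_pow_near (one_le_pow₀ (n := 18) hD1) (one_lt_two (α := ℝ))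
  obtain ⟨e2, a2, b2⟩ := exists_nat_pow_near (one_le_pow₀ (n := 19) hD1) (one_lt_two (α := ℝ))
  have c1 : e1 ≤ e0 := su_le (a1.trans (h18.trans h19))
  have c2 : e2 ≤ e0 := su_le (a2.trans h19)
  have c12 : e1 ≤ e2 := su_lt ((a1.trans h18).trans_lt b2)
  have hup : ∀ e, (2 : ℝ) ^ E (σ e) ≤ 2 ^ e := fun e =>
    pow_le_pow_right₀ one_le_two (le_of_not_gt fun h => lt_irrefl _ ((hE _).2.2 e h))
  have hU : ∀ s, (2 : ℝ) ^ E s ≤ D ^ 20 := fun s =>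
    (pow_le_pow_right₀ one_le_two (hE s).1).trans h0
  have hU0 : ∀ s, (0 : ℝ) < 2 ^ E s := fun s => by positivity
  have hpred : ∀ s, (1 : ℝ) < 2 ^ E s → ∃ a ≤ e0, (2 : ℝ) ^ E s = 2 * 2 ^ a ∧ σ a < s := by
    intro s h
    obtain ⟨h1, -, h2⟩ := hE s
    rcases hn : E s with _ | a
    · rw [hn, pow_zero] at h
      exact absurd h (lt_irrefl _)
    · exact ⟨a, by omega, by ring, h2 a (by omega)⟩
  have ht : (2 : ℝ) ^ (eI + 15 * τ) ≤ K ^ 16 := by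
    calc (2 : ℝ) ^ (eI + 15 * τ) = 2 ^ eI * (2 ^ τ) ^ 15 := by ring
      _ ≤ K * K ^ 15 := by gcongr
      _ = K ^ 16 := by ring
  have ht0 : eI + 15 * τ ≤ e0 := by
    refine su_le (ht.trans (le_trans ?_ h19))
    exact (pow_le_pow_left₀ hK0.le hKD 16).trans (pow_le_pow_right₀ hD1 (by norm_num))
  have htg := su_grow hg eI 15 ht0
  have hI0 : 0 < σ eI := hp eI (by omega)
  have hK32 : (1 : ℝ) ≤ K ^ 32 := one_le_pow₀ hK1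
  have hC0 : (0 : ℝ) < D ^ 20 := by positivity
  have h4 : (4 : ℝ) ≤ K ^ 2 := by nlinarith
  have h16 : (16 : ℝ) ≤ K ^ 4 := by nlinarith
  refine ⟨fun s => 2 ^ E s, e1, σ e2, c1, a1, hm _ _ c12 c2, (hm _ _ c2 le_rfl).trans hone.le,
    fun s _ => ⟨E s, (hE s).1, rfl, (hE s).2.1⟩, fun s1 s2 p1 p2 h => ?_,
    fun s1 s2 s3 p1 p2 p3 h => ?_, (hup e1).trans a1, ?_, (hup e2).trans a2, ?_⟩
  · refine le_of_not_gt fun hc => ?_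
    have k : ∀ x y : ℝ, 0 < x → y ≤ D ^ 20 → K ^ 32 * D ^ 20 < x * y → 1 < x := by
      intro x y hx hy hxy
      have h1 : x * y ≤ x * D ^ 20 := mul_le_mul_of_nonneg_left hy hx.le
      exact hK32.trans_lt (lt_of_mul_lt_mul_right (hxy.trans_le h1) hC0.le)
    obtain ⟨a, ha, ea, sa⟩ := hpred s1 (k _ _ (hU0 _) (hU s2) hc)
    obtain ⟨b, hb, eb, sb⟩ := hpred s2 (k _ _ (hU0 _) (hU s1) (by rw [mul_comm (2 ^ E s2)]; exact hc))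
    have h1 : K * 2 ^ (eI + 15 * τ) * D ^ 20 ≤ 2 ^ a * 2 ^ b := by
      have h2 : 4 * (K * 2 ^ (eI + 15 * τ) * D ^ 20) ≤ K ^ 32 * D ^ 20 := by
        calc 4 * (K * 2 ^ (eI + 15 * τ) * D ^ 20) ≤ K ^ 2 * (K * K ^ 16 * D ^ 20) := by gcongr
          _ = K ^ 19 * D ^ 20 := by ring
          _ ≤ K ^ 32 * D ^ 20 :=
            mul_le_mul_of_nonneg_right (pow_le_pow_right₀ hK1 (by norm_num)) hC0.le
      simp only [ea, eb] at hc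
      linarith
    have h2 := hs a b _ ha hb ht0 (by omega) h1
    have h3 : σ a * σ b ≤ s1 * s2 := mul_le_mul sa.le sb.le (hp b hb).le p1.le
    norm_num at htg
    linarith
  · refine le_of_not_gt fun hc => ?_
    have k2 : ∀ x y : ℝ, 0 < x → y ≤ D ^ 20 → K ^ 32 * D ^ 40 < x * y → K ^ 32 * D ^ 20 < x := by
      intro x y hx hy hxy
      have h1 : x * y ≤ x * D ^ 20 := mul_le_mul_of_nonneg_left hy hx.le
      refine lt_of_mul_lt_mul_right (lt_of_eq_of_lt ?_ (hxy.trans_le h1)) hC0.le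
      ring
    have k : ∀ x y : ℝ, 0 < x → y ≤ D ^ 20 → K ^ 32 * D ^ 20 < x * y → 1 < x := by
      intro x y hx hy hxy
      have h1 : x * y ≤ x * D ^ 20 := mul_le_mul_of_nonneg_left hy hx.le
      exact hK32.trans_lt (lt_of_mul_lt_mul_right (hxy.trans_le h1) hC0.le)
    have q12 := k2 _ _ (mul_pos (hU0 s1) (hU0 s2)) (hU s3) hc
    have q31 := k2 _ _ (mul_pos (hU0 s3) (hU0 s1)) (hU s2) (lt_of_lt_of_eq hc (by ring))
    obtain ⟨a, ha, ea, sa⟩ := hpred s1 (k _ _ (hU0 _) (hU s2) q12)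
    obtain ⟨b, hb, eb, sb⟩ := hpred s2 (k _ _ (hU0 _) (hU s1) (lt_of_lt_of_eq q12 (by ring)))
    obtain ⟨c, hc', ec, sc⟩ := hpred s3 (k _ _ (hU0 _) (hU s1) q31)
    have h1 : K * K * D ^ 20 ≤ 2 ^ a * 2 ^ b := by
      have h2 : 4 * (K * K * D ^ 20) ≤ K ^ 32 * D ^ 20 := by
        calc 4 * (K * K * D ^ 20) ≤ K ^ 2 * (K * K * D ^ 20) := by gcongr
          _ = K ^ 4 * D ^ 20 := by ring
          _ ≤ K ^ 32 * D ^ 20 :=
            mul_le_mul_of_nonneg_right (pow_le_pow_right₀ hK1 (by norm_num)) hC0.le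
      simp only [ea, eb] at q12
      linarith
    obtain ⟨f, hf, h2, h3⟩ := su_mid hK hC0 hτ hs ha hb
      ((pow_le_pow_right₀ one_le_two hb).trans h0) h1
    have h5 : K * 2 ^ (eI + 15 * τ) * D ^ 20 ≤ 2 ^ f * 2 ^ c := by
      refine le_of_mul_le_mul_left ?_ (by positivity : (0 : ℝ) < 16 * K * D ^ 20)
      calc 16 * K * D ^ 20 * (K * 2 ^ (eI + 15 * τ) * D ^ 20)
          ≤ K ^ 4 * K * D ^ 20 * (K * K ^ 16 * D ^ 20) := by gcongr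
        _ = K ^ 22 * D ^ 40 := by ring
        _ ≤ K ^ 32 * D ^ 40 :=
            mul_le_mul_of_nonneg_right (pow_le_pow_right₀ hK1 (by norm_num)) (by positivity)
        _ ≤ 2 ^ E s1 * 2 ^ E s2 * 2 ^ E s3 := hc.le
        _ = 8 * (2 ^ a * 2 ^ b) * 2 ^ c := by rw [ea, eb, ec]; ring
        _ ≤ 8 * (2 * K * D ^ 20 * 2 ^ f) * 2 ^ c := by gcongr
        _ = 16 * K * D ^ 20 * (2 ^ f * 2 ^ c) := by ring
    have h6 := hs f c _ hf hc' ht0 (by omega) h5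
    have h7 : σ a * σ b * σ c ≤ s1 * s2 * s3 :=
      mul_le_mul (mul_le_mul sa.le sb.le (hp b hb).le p1.le) sc.le (hp c hc').le (by positivity)
    have h8 : 16 * σ f * σ c ≤ 16 * (16 * σ a * σ b) * σ c := by
      have := hp c hc'
      gcongr
    norm_num at htg
    linarith
  · have h1 : e2 ≤ E (σ e2) + τ := by
      refine le_of_not_gt fun h => ?_
      have h2 := hg (E (σ e2)) (by omega)
      have h3 := hm _ _ h.le c2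
      have h5 := hp _ (hE (σ e2)).1
      rcases (hE (σ e2)).2.1 with h6 | h6
      · linarith
      · omega
    rw [div_le_iff₀ (by positivity)]
    calc D ^ 19 ≤ 2 ^ (e2 + 1) := b2.le
      _ ≤ 2 ^ (E (σ e2) + τ + 1) := pow_le_pow_right₀ one_le_two (by omega)
      _ = 2 ^ E (σ e2) * (2 ^ τ * 2) := by ring
      _ ≤ 2 ^ E (σ e2) * (K * K) := by gcongr
      _ = 2 ^ E (σ e2) * K ^ 2 := by ring
      _ ≤ 2 ^ E (σ e2) * K ^ 32 :=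
        mul_le_mul_of_nonneg_left (pow_le_pow_right₀ hK1 (by norm_num)) (hU0 _).le
  · have p1 := hp e1 c1
    by_cases hc : σ e1 * D ^ 5 ≤ 1
    · obtain ⟨f, hf, -, h1⟩ := su_small hK hD hτ hp hs c1 a1 b1 8 le_rfl
      have h2 : δn ≤ 16 ^ 8 * σ e1 ^ 9 := hδ0.trans ((hm 0 f (Nat.zero_le _) hf).trans h1)
      have h3 : σ e1 ≤ 1 := (hm _ _ c1 le_rfl).trans hone.le
      calc δn * D ^ 25 ≤ 16 ^ 8 * σ e1 ^ 9 * D ^ 25 := by gcongr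
        _ = 2 ^ 32 * σ e1 ^ 3 * ((σ e1 * D ^ 5) ^ 5 * σ e1) := by ring
        _ ≤ K ^ 32 * σ e1 ^ 3 * (1 ^ 5 * 1) := by gcongr
        _ = K ^ 32 * σ e1 ^ 3 := by ring
    · have h1 : 1 ≤ (σ e1 * D ^ 5) ^ 3 := one_le_pow₀ (le_of_not_ge hc)
      rw [le_div_iff₀ (by positivity)] at hδ1
      refine le_of_mul_le_mul_right ?_ (by positivity : (0 : ℝ) < D ^ 15)
      calc δn * D ^ 25 * D ^ 15 = δn * D ^ 40 := by ring
        _ ≤ K ^ 32 * 1 := by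
          rw [mul_one]; exact hδ1.trans (le_self_pow₀ hK1 (by norm_num))
        _ ≤ K ^ 32 * (σ e1 * D ^ 5) ^ 3 := by gcongr
        _ = K ^ 32 * σ e1 ^ 3 * D ^ 15 := by ring

end Vale.Agent.P065.U
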