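import Vale.Agent.P065.U.SFinB
import Vale.Agent.P065.U.SL1
import Vale.Agent.P065.U.SU

/-!
P065/U: `SD.finish`, the additive end of Proposition S (plan in the header of SMain.lean).
-/

namespace Vale.Agent.P065.U

open Finset Classical

namespace SD
variable {D : SD}

theorem fin_NN {G2 : Finset ((ℝ × ℝ) × ℕ)} {K K' P s x u B : ℝ} {a b : ℕ} {La La2 : Finset ℕ}
    {AA : ℕ → Finset (ℝ × ℝ)} (hK : 0 < K) (hC : 0 < D.C) (hF : D.Frame G2 a b La AA K)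
    (h1 : La2 ⊆ La) (h2 : D.m / (4 * K) ≤ (La2.card : ℝ)) (hP : 0 ≤ P) (hu : 0 ≤ u)
    (hK' : 4 * K * P ≤ K') (hs : s ≤ B)
    (h3 : ∀ i ∈ La2, ((La.filter fun i' => |D.lam a b i - D.lam a b i'| ≤ 2 * B).card : ℝ) ≤
      P * u * D.m / D.C) :
    ((La2.filter fun i => |D.lam a b i / (1 - D.lam a b i) - x| ≤ s).card : ℝ) * D.C ≤
      K' * u * La2.card := by
  have h0 : 0 ≤ K' := le_trans (by positivity) hK'
  rcases (La2.filter fun i => |D.lam a b i / (1 - D.lam a b i) - x| ≤ s).eq_empty_or_nonempty with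
    he | ⟨i, hi⟩
  · rw [he, card_empty, Nat.cast_zero, zero_mul]; positivity
  have b1 : ((La2.filter fun i => |D.lam a b i / (1 - D.lam a b i) - x| ≤ s).card : ℝ) ≤
      P * u * D.m / D.C := by
    refine le_trans (Nat.cast_le.2 (card_le_card fun i' hi' => ?_)) (h3 i (mem_filter.1 hi).1)
    obtain ⟨m1, m2⟩ := mem_filter.1 hi
    obtain ⟨m3, m4⟩ := mem_filter.1 hi'
    have l1 := hF.lam_mem i (h1 m1)
    have l2 := hF.lam_mem i' (h1 m3)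
    refine mem_filter.2 ⟨h1 m3, (fin_mu_sub l1.1 l1.2 l2.1 l2.2).trans ?_⟩
    rw [abs_le] at m2 m4 ⊢
    constructor <;> linarith [m2.1, m2.2, m4.1, m4.2]
  rw [le_div_iff₀ hC] at b1
  rw [div_le_iff₀ (by positivity)] at h2
  calc _ ≤ P * u * D.m := b1
    _ ≤ P * u * (La2.card * (4 * K)) := mul_le_mul_of_nonneg_left h2 (by positivity)
    _ = 4 * K * P * u * La2.card := by ring
    _ ≤ K' * u * La2.card := by gcongr

theorem fin_G {G2 : Finset ((ℝ × ℝ) × ℕ)} {K : ℝ} {c a b i : ℕ} {La : Finset ℕ}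
    {AA : ℕ → Finset (ℝ × ℝ)} (h : D.Hyp K c) (hG : G2 ⊆ D.G) (hF : D.Frame G2 a b La AA K)
    (hi : i ∈ La) :
    D.C ^ 2 / K ^ 2 ≤ (((AA i).image fun q => (D.cls q a, D.cls q b)).card : ℝ) := by
  have hK0 : 0 < K := by linarith [h.two_le]
  have hN := h.N_pos
  have hC := h.C_pos
  have h1 := card_le_cells h (AA i) a b (K * D.N / D.C ^ 2) (by positivity)
    (fun q hq => ⟨hG (hF.mem i hi q hq).1, hG (hF.mem i hi q hq).2.1⟩)
    (fun q hq => (hF.cells i hi q hq).1)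
  have h2 := (hF.AA_big i hi).trans h1
  have e : D.N / K = K * D.N / D.C ^ 2 * (D.C ^ 2 / K ^ 2) := by field_simp
  rw [e] at h2
  exact le_of_mul_le_mul_left h2 (by positivity)

end SD

theorem fin_pow {K : ℝ} (hK : 2 ≤ K) (a p : ℕ) (h : a + 2 ≤ p) : 4 * K ^ a ≤ K ^ p := by
  have h1 : K ^ (a + 2) ≤ K ^ p := pow_le_pow_right₀ (by linarith) h
  have h2 : 4 ≤ K ^ 2 := by nlinarith
  have h3 : 0 < K ^ a := by positivity
  rw [pow_add] at h1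
  nlinarith

theorem SD.finish (c : ℕ) : ∃ c' : ℕ, ∀ (D : SD) (K δ' : ℝ) (G2 : Finset ((ℝ × ℝ) × ℕ))
    (δ : ℕ → ℝ) (τ e0 eI a b β : ℕ) (La : Finset ℕ) (AA : ℕ → Finset (ℝ × ℝ)),
    D.Hyp K c → D.Reg G2 δ τ e0 → 1 ≤ τ → (2 : ℝ) ^ τ ≤ K → (2 : ℝ) ^ e0 ≤ D.C →
    D.C ≤ K * 2 ^ e0 → D.Frame G2 a b La AA K →
    (∀ i ∈ La, ∀ q ∈ AA i, D.kap q b / 2 ^ e0 = β) →
    0 < δ' → δ' ≤ δ 0 → δ' ≤ K * δ e0 / D.C ^ 2 →
    (∀ q q' i, (q, i) ∈ G2 → (q', i) ∈ G2 → D.cls q i = D.cls q' i → |D.v q i - D.v q' i| ≤ δ') →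
    (∀ e e' e'' : ℕ, e ≤ e0 → e' ≤ e0 → e'' ≤ e0 → τ ≤ e'' →
      K * 2 ^ e'' * D.C ≤ 2 ^ e * 2 ^ e' → δ e'' * δ e0 ≤ 16 * δ e * δ e') →
    eI ≤ e0 → (2 : ℝ) ^ eI ≤ K → (∀ i ∈ La, δ' < D.lam a b i / (1 - D.lam a b i) * δ eI) →
    D.C < K ^ c' := by
  obtain ⟨cU, hU⟩ := scale_fun
  obtain ⟨cL, hL⟩ := SD.lam_spread c
  obtain ⟨cA, hA⟩ := fin_add
  obtain ⟨p, hp⟩ : ∃ p : ℕ, p = cU + cL + 4 := ⟨_, rfl⟩
  obtain ⟨n, hn⟩ : ∃ n : ℕ, n = p * cA + p + 1 := ⟨_, rfl⟩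
  refine ⟨n * 20, fun D K δ' G2 δ τ e0 eI a b β La AA h hR hτ1 hτ he0 hCK hF hβ hδ0 hδ1 hδ2 hcl
    hsub heI heK hμ => ?_⟩
  by_contra hcon
  rw [not_lt] at hcon
  have hK := h.two_le
  have hK0 : 0 < K := by linarith
  have hK1 : 1 ≤ K := by linarith
  have hC := h.C_pos
  have hΔ := hR.pos e0 le_rfl
  obtain ⟨d, hd0, hd⟩ : ∃ d : ℝ, 0 ≤ d ∧ d ^ 20 = D.C :=
    ⟨D.C ^ ((20 : ℕ) : ℝ)⁻¹, by positivity, Real.rpow_inv_natCast_pow hC.le (by norm_num)⟩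
  have hnd : K ^ n ≤ d := by
    rw [pow_mul, ← hd] at hcon
    exact le_of_pow_le_pow_left₀ (by norm_num) hd0 hcon
  have hpw : ∀ j, j ≤ n → K ^ j ≤ d := fun j hj => (pow_le_pow_right₀ hK1 hj).trans hnd
  have hd1 : 1 ≤ d := by simpa using hpw 0 (by omega)
  have hpn : p ≤ n := by omega
  obtain ⟨U, e1, σ2, u1, u2, u3, u4, u5, u6, u7, u8, u9, u10, u11⟩ :=
    hU (fun e => δ e / δ e0) e0 τ eI K d (δ' / δ e0) hK (hpw cU (by omega)) hτ1 hτ heK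
      (hd ▸ hCK) (hd ▸ he0) (fun e he => div_pos (hR.pos e he) hΔ)
      (fun e e' q1 q2 => div_le_div_of_nonneg_right (hR.mono e e' q1 q2) hΔ.le) (div_self hΔ.ne')
      (fun e he => by
        rw [← mul_div_assoc]; exact div_le_div_of_nonneg_right (hR.grow e he) hΔ.le)
      (fun e e' e'' q1 q2 q3 q4 q5 => by
        have := hsub e e' e'' q1 q2 q3 q4 (hd ▸ q5)
        have e : 16 * (δ e / δ e0) * (δ e' / δ e0) = 16 * δ e * δ e' / δ e0 / δ e0 := by ring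
        rw [e]
        exact div_le_div_of_nonneg_right ((le_div_iff₀ hΔ).2 this) hΔ.le)
      (div_pos hδ0 hΔ) (div_le_div_of_nonneg_right hδ1 hΔ.le)
      (by
        have e : K / d ^ 40 = K * δ e0 / D.C ^ 2 / δ e0 := by
          rw [← hd]; field_simp
        rw [e]
        exact div_le_div_of_nonneg_right hδ2 hΔ.le)
  obtain ⟨La1, l1, l2, l3⟩ := hL D K G2 δ τ e0 a b β La AA h
    ((pow_le_pow_right₀ hK1 (by omega)).trans hcon) hR hτ he0 hF hβ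
  have hm : (0 : ℝ) < D.m := by exact_mod_cast h.m_pos
  have l4 := SD.fin_La2 (s := δ e1 / δ e0) (B := K ^ cL * 2 ^ e1 * D.m / D.C) hK0 hF l1 l2
    (by
      have t1 : 4 * K ^ (cL + 1) ≤ d := (fin_pow hK (cL + 1) p (by omega)).trans (hpw p hpn)
      have t2 : d ≤ d ^ 2 := le_self_pow₀ hd1 (by norm_num)
      have t3 : 4 * K ^ (cL + 1) * 2 ^ e1 ≤ d ^ 2 * d ^ 18 :=
        mul_le_mul (t1.trans t2) u2 (by positivity) (by positivity)
      rw [div_le_div_iff₀ hC (by positivity), ← hd]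
      calc _ = D.m * (4 * K ^ (cL + 1) * 2 ^ e1) := by ring
        _ ≤ D.m * (d ^ 2 * d ^ 18) := mul_le_mul_of_nonneg_left t3 hm.le
        _ = _ := by ring)
    (l3 e1 u1)
  obtain ⟨La2, hLa2⟩ : ∃ La2, La2 = La1.filter
    fun i => δ e1 / δ e0 ≤ D.lam a b i / (1 - D.lam a b i) := ⟨_, rfl⟩
  rw [← hLa2] at l4
  have l5 : ∀ i ∈ La2, i ∈ La1 ∧ δ e1 / δ e0 ≤ D.lam a b i / (1 - D.lam a b i) := fun i hi => by
    rw [hLa2] at hi; exact mem_filter.1 hi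
  have l6 : La2 ⊆ La := fun i hi => l1 (l5 i hi).1
  have hP : ∀ q ∈ La2.biUnion AA, (q, a) ∈ G2 ∧ (q, b) ∈ G2 ∧ D.kap q b / 2 ^ e0 = β := by
    intro q hq
    obtain ⟨i, hi, hq⟩ := mem_biUnion.1 hq
    exact ⟨(hF.mem i (l6 hi) q hq).1, (hF.mem i (l6 hi) q hq).2.1, hβ i (l6 hi) q hq⟩
  obtain ⟨ra, hra⟩ := SD.fin_rep (D := D) (La2.biUnion AA) a
  obtain ⟨rb, hrb⟩ := SD.fin_rep (D := D) (La2.biUnion AA) b
  obtain ⟨Xs, hXs⟩ : ∃ Xs, Xs = (La2.biUnion AA).image fun q => D.cls q a := ⟨_, rfl⟩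
  obtain ⟨Ys, hYs⟩ : ∃ Ys, Ys = (La2.biUnion AA).image fun q => D.cls q b := ⟨_, rfl⟩
  have x1 := SD.fin_img_le h hR.sub _ a fun q hq => (hP q hq).1
  have y1 := SD.fin_img_le h hR.sub _ b fun q hq => (hP q hq).2.1
  have x2 : ∀ i ∈ La2, ∀ q ∈ AA i, D.cls q a ∈ Xs ∧ D.cls q b ∈ Ys := fun i hi q hq => by
    rw [hXs, hYs]
    exact ⟨mem_image_of_mem _ (mem_biUnion.2 ⟨i, hi, hq⟩),
      mem_image_of_mem _ (mem_biUnion.2 ⟨i, hi, hq⟩)⟩
  rw [← hXs] at hra x1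
  rw [← hYs] at hrb y1
  have x3 : ∀ w ∈ Xs, (ra w, a) ∈ G2 ∧ D.cls (ra w) a = w := fun w hw =>
    ⟨(hP _ (hra w hw).1).1, (hra w hw).2⟩
  have y3 : ∀ w ∈ Ys, (rb w, b) ∈ G2 ∧ D.cls (rb w) b = w := fun w hw =>
    ⟨(hP _ (hrb w hw).1).2.1, (hrb w hw).2⟩
  obtain ⟨y4, y5⟩ := SD.fin_blk hR Ys b β rb y3 fun w hw => (hP _ (hrb w hw).1).2.2
  have k1 : 4 * K ≤ K ^ p := by simpa using fin_pow hK 1 p (by omega)
  have k2 : 4 * K ^ 2 ≤ K ^ p := fin_pow hK 2 p (by omega)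
  have k3 : 4 * K * K ^ cL ≤ K ^ p := by
    rw [mul_assoc, ← pow_succ']; exact fin_pow hK (cL + 1) p (by omega)
  have k4 : K ^ cU ≤ K ^ p := pow_le_pow_right₀ hK1 (by omega)
  have k5 : K ≤ K ^ p := by linarith
  have k6 : 0 < K ^ 2 := by positivity
  have hsc : ∀ y z s : ℝ, |y / δ e0 - z| ≤ s → |y - z * δ e0| ≤ s * δ e0 := fun y z s q => by
    have e : y / δ e0 - z = (y - z * δ e0) / δ e0 := by field_simp
    rwa [e, abs_div, abs_of_pos hΔ, div_le_iff₀ hΔ] at q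
  have hσ1 : 0 < δ e1 / δ e0 := div_pos (hR.pos e1 u1) hΔ
  have key := hA Xs Ys (fun w => D.v (ra w) a / δ e0) (fun w => D.v (rb w) b / δ e0) La2
    (fun i => D.lam a b i / (1 - D.lam a b i))
    (fun i => (AA i).image fun q => (D.cls q a, D.cls q b)) U (δ' / δ e0) (δ e1 / δ e0) σ2
    (δ eI / δ e0) (K ^ p) d (hK.trans k5) hd1 (div_pos hδ0 hΔ)
    (div_le_div_of_nonneg_right (hδ1.trans (hR.mono 0 e1 (by omega) u1)) hΔ.le) u3 u4 ?_ ?_ ?_ ?_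
    ?_ ?_ ?_ ?_ ?_ ?_ ?_ ?_ ?_ ?_ ?_ u8 ?_ u10 ?_
  · rw [← pow_mul] at key
    have t1 : K ^ (p * cA) < K ^ n := pow_lt_pow_right₀ (by linarith) (by omega)
    linarith
  · rw [← card_pos]
    exact_mod_cast (div_pos hm (by positivity)).trans_le l4
  · rw [hd]; exact x1.trans (mul_le_mul_of_nonneg_right k5 hC.le)
  · rw [hd]; exact y1.trans (mul_le_mul_of_nonneg_right k5 hC.le)
  · intro i hi
    have t := hF.lam_mem i (l6 hi)
    refine ⟨(l5 i hi).2, (fin_mu t.1 t.2).2, ?_⟩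
    rw [← mul_div_assoc]
    exact div_le_div_of_nonneg_right (hμ i (l6 hi)).le hΔ.le
  · intro i hi g hg
    obtain ⟨q, hq, rfl⟩ := mem_image.1 hg
    exact mem_product.2 (x2 i hi q hq)
  · intro i hi
    rw [hd]
    exact (div_le_div_of_nonneg_left (by positivity) k6 (by linarith)).trans
      (SD.fin_G h hR.sub hF (l6 hi))
  · intro i hi
    have t := hF.lam_mem i (l6 hi)
    refine (SD.fin_cov h hR.sub hF.ne hΔ (AA i) ra rb t.1 t.2 (hF.mem i (l6 hi))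
      (fun q hq => x3 _ (x2 i hi q hq).1) (fun q hq => y3 _ (x2 i hi q hq).2) hcl).mono_M ?_
    rw [hd, ← mul_assoc]
    exact mul_le_mul_of_nonneg_right k1 hC.le
  · intro z
    refine (SD.fin_fib hR _ a 0 ra (z * δ e0) (by omega) (fun w hw => x3 w (mem_filter.1 hw).1)
      fun w hw => ?_).trans ?_
    · have t := hsc _ _ _ (mem_filter.1 hw).2
      rw [div_mul_cancel₀ _ hΔ.ne'] at t
      exact t.trans hδ1
    · rw [pow_zero]; linarith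
  · intro i hi z
    have t0 : 0 < D.lam a b i / (1 - D.lam a b i) := hσ1.trans_le (l5 i hi).2
    have t1 := hμ i (l6 hi)
    generalize D.lam a b i / (1 - D.lam a b i) = μ at t0 t1
    refine (SD.fin_fib hR _ b eI rb (z * δ e0 / μ) heI (fun w hw => y3 w (mem_filter.1 hw).1)
      fun w hw => ?_).trans ?_
    · have t := (mem_filter.1 hw).2
      rw [← mul_div_assoc] at t
      have t2 := hsc _ _ _ t
      rw [div_mul_cancel₀ _ hΔ.ne'] at t2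
      have e : D.v (rb w) b - z * δ e0 / μ = (μ * D.v (rb w) b - z * δ e0) / μ := by field_simp
      rw [e, abs_div, abs_of_pos t0, div_le_iff₀ t0]
      linarith
    · have t2 : (2 : ℝ) ^ eI * 2 ^ τ ≤ K * K := mul_le_mul heK hτ (by positivity) hK0.le
      linarith [sq K]
  · intro y hy y' hy'
    rw [← sub_div, abs_div, abs_of_pos hΔ, div_le_one hΔ]
    exact y5 y hy y' hy'
  · intro s hs
    obtain ⟨e, q1, q2, -⟩ := u5 s hs
    rw [q2, hd]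
    exact ⟨by positivity, (pow_le_pow_right₀ (by norm_num) q1).trans he0⟩
  · intro s hs x
    obtain ⟨e, q1, q2, q3 | q3⟩ := u5 s hs
    · refine (SD.fin_fib hR _ b e rb (x * δ e0) q1 (fun w hw => y3 w (mem_filter.1 hw).1)
        fun w hw => (hsc _ _ _ (mem_filter.1 hw).2).trans ((le_div_iff₀ hΔ).1 q3)).trans ?_
      rw [q2, mul_comm ((2 : ℝ) ^ e), ← mul_assoc]
      exact mul_le_mul_of_nonneg_right (by linarith) (by positivity)
    · refine le_trans (Nat.cast_le.2 (card_filter_le _ _)) (y4.trans ?_)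
      rw [q2, q3]
      exact le_mul_of_one_le_left (by positivity) (hK1.trans k5)
  · intro s hs x
    obtain ⟨e, q1, q2, q3 | q3⟩ := u5 s hs
    · rw [hd, q2]
      exact SD.fin_NN hK0 hC hF l6 l4 (by positivity) (by positivity) k3 q3
        fun i hi => l3 e q1 i (l5 i hi).1
    · rw [hd, q2, q3, mul_comm]
      exact mul_le_mul (hCK.trans (mul_le_mul_of_nonneg_right k5 (by positivity)))
        (Nat.cast_le.2 (card_filter_le _ _)) (Nat.cast_nonneg _) (by positivity)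
  · exact fun s1 s2 p1 p2 p3 => (u6 s1 s2 p1 p2 p3).trans
      (mul_le_mul_of_nonneg_right k4 (by positivity))
  · exact fun s1 s2 s3 p1 p2 p3 p4 => (u7 s1 s2 s3 p1 p2 p3 p4).trans
      (mul_le_mul_of_nonneg_right k4 (by positivity))
  · exact (div_le_div_of_nonneg_left (by positivity) (by positivity) k4).trans u9
  · exact u11.trans (mul_le_mul_of_nonneg_right k4 (by positivity))

end Vale.Agent.P065.U
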