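import Vale.Agent.P065.U.SSparseA

/-!
P065/U task SSparse: most classes are much narrower than `δ e0`.

Proof. u0 = 2^e0, h = K^c' δ e0/C². Call w big if two pairs (q,i), (q',i') ∈ Gs of class w have
|v q i - v q' i'| > h. G2 = pairs whose class is not big. Suppose Gb = Gs \ G2 has more than half.
lam = 16 K³, Γ = lam^c, t = m u0/(4 Γ C) (Γ m/C ≤ t ≤ m). Cut the indices into blocks of length
⌊t⌋+1 (≤ 2m/t blocks); Cauchy-Schwarz: ≥ (Nm/2K)²/(K N·2m/t) = N m t/(8K³) triples (q,i,i') in `tri t`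
with both pairs in Gb; ≥ N m t/(16K³) are `Good Γ t`, so btw ≤ u0/4. Pigeonhole over i and the block
kap q i / u0 (≤ 2KC/u0 values; or finer): ≥ N t u0/(32K⁴C) pairs (q,i') for one (i, block). For these
|v q i' - v q i| ≤ δ e0: by `int` and `kap_surj` there are points of G at ranks kap ± (u0 - 1); their
classes are not between (btw ≤ u0/4 < u0), so v q i' lies between their values, and p1 applies. All
v q i lie within δ e0 of one of them. So all values lie in an interval of length 4 δ e0. One class w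
accounts for ≤ (K m/C)(K N/C) pairs, so ≥ u0²/(128 K⁶ Γ) ≥ C²/(128 K⁸ Γ) big classes meet that
interval; `om` is monotone, so all but the two extreme ones have their two far points inside it, in
disjoint ranges: (number - 2) h ≤ 4 δ e0, a contradiction for large c'.
-/

namespace Vale.Agent.P065.U

open Finset Classical

/-- Many pairs of a large subset `Gb` have their values in one interval of length `4 δ e0`. -/
theorem SD.sp_many {D : SD} {K : ℝ} {c : ℕ} (h : D.Hyp K c) {Gs : Finset ((ℝ × ℝ) × ℕ)}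
    {δ : ℕ → ℝ} {τ e0 : ℕ} (hR : D.Reg Gs δ τ e0) (Gb : Finset ((ℝ × ℝ) × ℕ)) (hG : Gb ⊆ Gs)
    (hb : D.N * D.m / (2 * K) ≤ Gb.card) (Γ : ℝ) (hΓ : Γ = (16 * K ^ 3) ^ c) (h1 : 1 ≤ Γ)
    (h2 : 4 * Γ ^ 2 ≤ 2 ^ e0) (h3 : (2 : ℝ) ^ e0 ≤ D.C) :
    ∃ z : ℝ, ∃ P ⊆ Gb, D.N * D.m * (2 ^ e0) ^ 2 / (128 * K ^ 4 * Γ * D.C ^ 2) ≤ P.card ∧
      ∀ g ∈ P, |D.v g.1 g.2 - z| ≤ 2 * δ e0 := by
  have hK := h.two_le
  have hN := h.N_pos
  have hC := h.C_pos
  have hm : (0 : ℝ) < D.m := by exact_mod_cast h.m_pos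
  obtain ⟨u, hu⟩ : ∃ u : ℝ, u = 2 ^ e0 := ⟨_, rfl⟩
  have hu' : ((2 ^ e0 : ℕ) : ℝ) = u := by rw [hu]; push_cast; rfl
  rw [← hu] at h2 h3 ⊢
  have hΓ2 : Γ ≤ Γ ^ 2 := by nlinarith
  have hu4 : 4 ≤ u := by nlinarith
  obtain ⟨t, ht⟩ : ∃ t : ℝ, t = D.m * u / (4 * Γ * D.C) := ⟨_, rfl⟩
  have t0 : 0 < t := by rw [ht]; positivity
  have tm : t ≤ D.m := by
    rw [ht, div_le_iff₀ (by positivity)]
    refine mul_le_mul_of_nonneg_left ?_ hm.le
    nlinarith
  have tl : Γ * D.m / D.C ≤ t := by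
    rw [ht, div_le_div_iff₀ hC (by positivity)]
    have := mul_le_mul_of_nonneg_left h2 (mul_pos hm hC).le
    nlinarith
  have hbad := h.ind (16 * K ^ 3) t (by nlinarith [sq_nonneg K, mul_pos (show 0 < K by linarith) (show 0 < K by linarith)])
    (by rw [← hΓ]; nlinarith) (by rw [← hΓ]; exact tl) tm
  rw [← hΓ] at hbad
  have htri := SD.sp_tri h Gb (hG.trans hR.sub) t t0 tm
  obtain ⟨T, hT⟩ : ∃ T, T = (D.tri t).filter fun z => (z.1, z.2.1) ∈ Gb ∧ (z.1, z.2.2) ∈ Gb :=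
    ⟨_, rfl⟩
  rw [← hT] at htri
  have T1 : D.N * D.m * t / (8 * K ^ 3) ≤ T.card := by
    have a1 : (D.N * D.m / (2 * K)) ^ 2 ≤ (Gb.card : ℝ) ^ 2 :=
      pow_le_pow_left₀ (by positivity) hb 2
    have a2 : K * D.N * (2 * D.m / t) * (D.N * D.m * t / (8 * K ^ 3)) =
        (D.N * D.m / (2 * K)) ^ 2 := by
      field_simp
      ring
    exact le_of_mul_le_mul_left (a2 ▸ le_trans a1 htri) (by positivity)
  obtain ⟨TG, hTG⟩ : ∃ TG, TG = T.filter fun z => D.Good Γ t z.1 z.2.1 z.2.2 := ⟨_, rfl⟩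
  have T2 : D.N * D.m * t / (16 * K ^ 3) ≤ TG.card := by
    have a1 : T.card ≤ TG.card + D.badT Γ t := by
      rw [← card_filter_add_card_filter_not (s := T) (fun z => D.Good Γ t z.1 z.2.1 z.2.2), ← hTG]
      refine Nat.add_le_add_left ?_ _
      unfold SD.badT
      rw [hT]
      exact card_le_card (filter_subset_filter _ (filter_subset _ _))
    have a2 : (T.card : ℝ) ≤ TG.card + D.badT Γ t := by exact_mod_cast a1
    have a3 : D.N * D.m * t / (8 * K ^ 3) =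
        D.N * D.m * t / (16 * K ^ 3) + D.N * D.m * t / (16 * K ^ 3) := by ring
    linarith
  have mem : ∀ z ∈ TG, (z.1, z.2.1) ∈ Gb ∧ (z.1, z.2.2) ∈ Gb ∧ D.btw z.1 z.2.1 z.2.2 + 1 < 2 ^ e0 := by
    intro z hz
    rw [hTG, hT] at hz
    obtain ⟨a1, a2⟩ := mem_filter.mp hz
    obtain ⟨-, a3, a4⟩ := mem_filter.mp a1
    refine ⟨a3, a4, ?_⟩
    have a5 : Γ * D.C * t / D.m = u / 4 := by
      rw [ht]
      field_simp
    have a6 := a2.2
    rw [a5] at a6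
    have a7 : ((D.btw z.1 z.2.1 z.2.2 + 1 : ℕ) : ℝ) < ((2 ^ e0 : ℕ) : ℝ) := by
      rw [hu']
      push_cast
      linarith
    exact_mod_cast a7
  obtain ⟨y, -, hy⟩ := exists_le_card_fiber_of_nsmul_le_card_of_maps_to (s := TG)
    (t := range D.m ×ˢ range (⌊K * D.C / u⌋₊ + 1))
    (f := fun z => (z.2.1, D.kap z.1 z.2.1 / 2 ^ e0))
    (b := D.N * D.m * u ^ 2 / (128 * K ^ 4 * Γ * D.C ^ 2))
    (fun z hz => by
      have a1 := hR.sub (hG (mem z hz).1)
      refine mem_product.mpr ⟨(mem_product.mp (h.G_sub a1)).2,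
        mem_range.mpr (Nat.lt_succ_of_le (Nat.le_floor ?_))⟩
      refine le_trans Nat.cast_div_le ?_
      rw [hu']
      refine div_le_div_of_nonneg_right (le_trans ?_ (h.W_le z.2.1)) (by linarith)
      exact_mod_cast (SD.kap_lt a1).le)
    ⟨(0, 0), mem_product.mpr ⟨mem_range.mpr h.m_pos, mem_range.mpr (Nat.succ_pos _)⟩⟩
    (by
      rw [nsmul_eq_mul, card_product, card_range, card_range]
      push_cast
      have a1 : (⌊K * D.C / u⌋₊ : ℝ) ≤ K * D.C / u := Nat.floor_le (by positivity)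
      have a2 : 1 ≤ K * D.C / u := by
        rw [one_le_div (by linarith)]
        nlinarith
      refine le_trans ?_ T2
      have a3 : D.N * D.m * t / (16 * K ^ 3) =
          D.m * (K * D.C / u + K * D.C / u) * (D.N * D.m * u ^ 2 / (128 * K ^ 4 * Γ * D.C ^ 2)) := by
        rw [ht]
        field_simp
        ring
      rw [a3]
      refine mul_le_mul_of_nonneg_right (mul_le_mul_of_nonneg_left (by linarith) hm.le) ?_
      positivity)
  obtain ⟨F, hF⟩ : ∃ F, F = TG.filter fun z => (z.2.1, D.kap z.1 z.2.1 / 2 ^ e0) = y := ⟨_, rfl⟩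
  rw [← hF] at hy
  have memF : ∀ z ∈ F, z ∈ TG ∧ z.2.1 = y.1 ∧ D.kap z.1 z.2.1 / 2 ^ e0 = y.2 := by
    intro z hz
    rw [hF] at hz
    obtain ⟨a1, a2⟩ := mem_filter.mp hz
    exact ⟨a1, by rw [← a2], by rw [← a2]⟩
  have Fpos : 0 < F.card := by
    have : (0 : ℝ) < F.card := lt_of_lt_of_le (by positivity) hy
    exact_mod_cast this
  obtain ⟨z0, hz0⟩ := card_pos.mp Fpos
  refine ⟨D.v z0.1 z0.2.1, F.image fun z => (z.1, z.2.2), ?_, ?_, ?_⟩
  · intro g hg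
    obtain ⟨z, hz, rfl⟩ := mem_image.mp hg
    exact (mem z (memF z hz).1).2.1
  · rw [card_image_of_injOn]
    · exact hy
    · intro z hz z' hz' e
      have a1 := (memF z hz).2.1
      have a2 := (memF z' hz').2.1
      obtain ⟨e1, e2⟩ := Prod.mk.inj e
      exact Prod.ext e1 (Prod.ext (a1.trans a2.symm) e2)
  · intro g hg
    obtain ⟨z, hz, rfl⟩ := mem_image.mp hg
    obtain ⟨a1, a2, a3⟩ := memF z hz
    obtain ⟨b1, b2, b3⟩ := memF z0 hz0
    obtain ⟨c1, -, c3⟩ := mem z a1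
    have d1 := SD.sp_near h.om_mono hR (hG c1) c3
    have e1 : z.2.1 = z0.2.1 := a2.trans b2.symm
    have e2 := a3.trans b3.symm
    rw [e1] at e2 c1 d1
    have d2 := hR.p1 z0.1 z.1 z0.2.1 e0 (hG (mem z0 b1).1) (hR.sub (hG c1)) le_rfl
      (sp_div_close (by positivity) e2) (sp_div_close (by positivity) e2.symm)
    simp only
    rw [abs_le] at d1 d2 ⊢
    constructor <;> linarith [d1.1, d1.2, d2.1, d2.2]

theorem SD.sparse (c : ℕ) : ∃ c' : ℕ, ∀ (D : SD) (K : ℝ) (Gs : Finset ((ℝ × ℝ) × ℕ)) (δ : ℕ → ℝ)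
    (τ e0 : ℕ), D.Hyp K c → K ^ c' ≤ D.C → D.Reg Gs δ τ e0 → D.N * D.m / K ≤ Gs.card →
    D.C ≤ K * 2 ^ e0 → (2 : ℝ) ^ e0 ≤ D.C →
    ∃ G2 ⊆ Gs, Gs.card ≤ 2 * G2.card ∧ ∀ q q' i, (q, i) ∈ G2 → (q', i) ∈ G2 →
      D.cls q i = D.cls q' i → |D.v q i - D.v q' i| ≤ K ^ c' * δ e0 / D.C ^ 2 := by
  refine ⟨14 * c + 18, fun D K Gs δ τ e0 h hc hR hGs hu1 hu2 => ?_⟩
  have hK := h.two_le
  have hN := h.N_pos
  have hC := h.C_pos
  have hm : (0 : ℝ) < D.m := by exact_mod_cast h.m_pos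
  have hδ := hR.pos e0 le_rfl
  obtain ⟨X, hX⟩ : ∃ X : ℝ, X = K ^ (14 * c + 18) := ⟨_, rfl⟩
  rw [← hX] at hc ⊢
  obtain ⟨Γ, hΓ⟩ : ∃ Γ : ℝ, Γ = (16 * K ^ 3) ^ c := ⟨_, rfl⟩
  have k1 : (1 : ℝ) ≤ K := by linarith
  have k4 : (16 : ℝ) ≤ K ^ 4 := by
    have := pow_le_pow_left₀ (by norm_num) hK 4
    norm_num at this
    linarith
  have g1 : 1 ≤ Γ := by
    rw [hΓ]
    refine one_le_pow₀ ?_
    have := one_le_pow₀ (n := 3) k1
    linarith
  have g2 : Γ ≤ K ^ (7 * c) := by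
    rw [hΓ, pow_mul]
    refine pow_le_pow_left₀ (by positivity) ?_ c
    have : K ^ 7 = K ^ 4 * K ^ 3 := by ring
    rw [this]
    exact mul_le_mul_of_nonneg_right k4 (by positivity)
  have g3 : Γ ^ 2 * K ^ 18 ≤ X := by
    have : X = (K ^ (7 * c)) ^ 2 * K ^ 18 := by rw [hX]; ring
    rw [this]
    exact mul_le_mul_of_nonneg_right (pow_le_pow_left₀ (by linarith) g2 2) (by positivity)
  have k10 : (1024 : ℝ) ≤ K ^ 10 := by
    have := pow_le_pow_left₀ (by norm_num) hK 10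
    norm_num at this
    linarith
  have k18 : 1024 * K ^ 8 ≤ K ^ 18 := by
    have : K ^ 18 = K ^ 10 * K ^ 8 := by ring
    rw [this]
    exact mul_le_mul_of_nonneg_right k10 (by positivity)
  have k8 : K ≤ K ^ 8 := le_self_pow₀ k1 (by norm_num)
  have g4 : Γ ^ 2 * (1024 * K ^ 8) ≤ X :=
    le_trans (mul_le_mul_of_nonneg_left k18 (by positivity)) g3
  have g5 : 4 * Γ ^ 2 ≤ 2 ^ e0 := by
    refine le_of_mul_le_mul_left ?_ (show 0 < K by linarith)
    have : Γ ^ 2 * K ≤ Γ ^ 2 * K ^ 8 := mul_le_mul_of_nonneg_left k8 (by positivity)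
    have : 0 ≤ Γ ^ 2 * K ^ 8 := by positivity
    nlinarith
  have g6 : 1024 * (K ^ 8 * Γ) ≤ X := by
    have a1 : Γ ≤ Γ ^ 2 := by nlinarith
    have a2 := mul_le_mul_of_nonneg_right a1 (show 0 ≤ 1024 * K ^ 8 by positivity)
    nlinarith
  have g7 : 1 ≤ K ^ 8 * Γ := one_le_mul_of_one_le_of_one_le (by linarith) g1
  obtain ⟨H, hH⟩ : ∃ H : ℝ, H = X * δ e0 / D.C ^ 2 := ⟨_, rfl⟩
  rw [← hH]
  have H0 : 0 < H := by
    rw [hH]
    have : 0 < X := by linarith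
    positivity
  obtain ⟨big, hbig⟩ : ∃ big : ℤ → Prop, ∀ w, big w ↔ ∃ g ∈ Gs, ∃ g' ∈ Gs,
      D.cls g.1 g.2 = w ∧ D.cls g'.1 g'.2 = w ∧ D.v g.1 g.2 + H < D.v g'.1 g'.2 :=
    ⟨_, fun _ => Iff.rfl⟩
  refine ⟨Gs.filter fun g => ¬ big (D.cls g.1 g.2), filter_subset _ _, ?_, ?_⟩
  · by_contra hcon
    have s1 := card_filter_add_card_filter_not (s := Gs) (fun g => big (D.cls g.1 g.2))
    have s2 : (Gs.card : ℝ) ≤ 2 * (Gs.filter fun g => big (D.cls g.1 g.2)).card := by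
      exact_mod_cast (by omega : Gs.card ≤ 2 * (Gs.filter fun g => big (D.cls g.1 g.2)).card)
    obtain ⟨z, P, P1, P2, P3⟩ := SD.sp_many h hR (Gs.filter fun g => big (D.cls g.1 g.2))
      (filter_subset _ _) (by
        have : D.N * D.m / (2 * K) = D.N * D.m / K / 2 := by field_simp
        linarith) Γ hΓ g1 g5 hu2
    have c1 := SD.sp_cls h P (P1.trans ((filter_subset _ _).trans hR.sub))
    have c2 := sp_pack2 D.om h.om_mono H (z - 2 * δ e0) (z + 2 * δ e0) H0.le (by linarith)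
      (P.image fun g => D.cls g.1 g.2) (fun w hw => by
        obtain ⟨g, hg, rfl⟩ := mem_image.mp hw
        have := abs_le.mp (P3 g hg)
        exact ⟨D.v g.1 g.2, rfl, by linarith [this.1], by linarith [this.2]⟩) (fun w hw => by
        obtain ⟨g, hg, rfl⟩ := mem_image.mp hw
        obtain ⟨a, -, b, -, a1, a2, a3⟩ := (hbig _).mp (mem_filter.mp (P1 hg)).2
        exact ⟨_, _, a1, a2, a3.le⟩)
    obtain ⟨n, hn⟩ : ∃ n : ℝ, n = (P.image fun g => D.cls g.1 g.2).card := ⟨_, rfl⟩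
    rw [← hn] at c1 c2
    have c3 : D.C ^ 2 / (128 * (K ^ 8 * Γ)) ≤ n := by
      have a1 : (D.C / K) ^ 2 ≤ (2 ^ e0) ^ 2 :=
        pow_le_pow_left₀ (by positivity) (by rw [div_le_iff₀ (by linarith)]; linarith) 2
      have a2 : D.N * D.m * (D.C / K) ^ 2 / (128 * K ^ 4 * Γ * D.C ^ 2) ≤ P.card :=
        le_trans (by gcongr) P2
      have a3 : D.N * D.m * (D.C / K) ^ 2 / (128 * K ^ 4 * Γ * D.C ^ 2) =
          D.C ^ 2 / (128 * (K ^ 8 * Γ)) * (K * D.m / D.C * (K * D.N / D.C)) := by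
        field_simp
      exact le_of_mul_le_mul_right (a3 ▸ le_trans a2 c1) (by positivity)
    have c4 : (D.C ^ 2 / (128 * (K ^ 8 * Γ)) - 2) * H ≤ 4 * δ e0 := by
      have := mul_le_mul_of_nonneg_right (show D.C ^ 2 / (128 * (K ^ 8 * Γ)) - 2 ≤ n - 2 by
        linarith) H0.le
      linarith
    have c5 : D.C ^ 2 / (128 * (K ^ 8 * Γ)) * H = X / (128 * (K ^ 8 * Γ)) * δ e0 := by
      rw [hH]
      field_simp
    have c6 : 8 ≤ X / (128 * (K ^ 8 * Γ)) := by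
      rw [le_div_iff₀ (by positivity)]
      linarith
    have c7 : H ≤ δ e0 := by
      rw [hH, div_le_iff₀ (by positivity), mul_comm]
      refine mul_le_mul_of_nonneg_left ?_ hδ.le
      nlinarith
    have c8 := mul_le_mul_of_nonneg_right c6 hδ.le
    nlinarith
  · intro q q' i a1 a2 a3
    obtain ⟨b1, b2⟩ := mem_filter.mp a1
    obtain ⟨b3, -⟩ := mem_filter.mp a2
    rw [hbig] at b2
    rw [abs_le]
    constructor
    · by_contra hcon
      exact b2 ⟨(q, i), b1, (q', i), b3, rfl, a3.symm, by simp only; linarith [not_le.mp hcon]⟩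
    · by_contra hcon
      exact b2 ⟨(q', i), b3, (q, i), b1, a3.symm, rfl, by simp only; linarith [not_le.mp hcon]⟩

end Vale.Agent.P065.U
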