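import Vale.Agent.P065.U.SSubB
import Vale.Agent.P065.U.SL1

/-!
P065/U task SSub: submultiplicativity of the scales, and the lower bound on the ratios.

`lam_cover2`. u0 = 2^e0, u' = 2^e', e' + τ ≤ e0. For i ∈ Fm the pairs (q,q') ∈ (AA i)² in one block
kap · i / u' number ≥ |AA i|² u'/(2KC). Those whose ranks at a differ by less than u0 2^τ number
≤ |AA i|·u'·2u0 2^τ·K N/C² (cells a i), at most half. For the others |Δ v a| ≥ δ e0 (p2),
|Δ v i| ≤ δ e' ≤ δ e0/2 (p1, grow), Δ v i = Δ v a + lam i·Zq with Zq = Δ v b - Δ v a, so |Zq| ≥ δ e0,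
and a pair (q,q') can serve two indices only if their lam differ by ≤ 2 δ e'/δ e0. Hence
|Fm| N² u'/(4K³C) ≤ (K N)².

`submult`. If e' + τ > e0 replace e' by e' - τ (costs a factor 2^τ ≤ K; mono). A maximal separated
family (`lam_cover2`) cuts La into ≤ 4K^5 C/u' lam-intervals of length 2σ e'; intersect with index
blocks, t = m u'/C. `piece` gives i, i' and Q, |Q| ≥ N/K', cells ≤ K' N/(C u'). Group Q by (class at i,
block kap · b / u): ≤ 2K²C²/u groups, so one group has ≥ N u/(2K²K'C²) points. In it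
|Zq| ≤ 2(δ e + δ 0) ≤ 4δ e, so |Δ v i'| ≤ δ 0 + 8 σ e' δ e. If this is < δ e'' then by p2 the group
meets ≤ 2·2^(e''+τ) classes at i', so N u/(2K²K'C²) ≤ 2·2^e'' K·K' N/(C u'), contradicting the
hypothesis. So δ e'' ≤ δ 0 + 8σ e' δ e, and δ e'' ≥ δ τ ≥ 2 δ 0.

`mu_lower`. If μ δ e ≤ δ', group AA i by (class at a, block kap · b / 2^e), ≤ 2K²C²/2^e groups; in a
group |Δ v i| ≤ δ' + lam δ e ≤ 2δ' ≤ 2 δ 0, so ≤ 5·2^τ classes at i, each cell ≤ K N/C². So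
N/K ≤ 10 K⁴ N/2^e.
-/

namespace Vale.Agent.P065.U

open Finset Classical

theorem ssc_pieces {m : ℕ} {μ : ℕ → ℝ} (hμ : ∀ i j, i ≤ j → j < m → μ i ≤ μ j) {Z : Finset ℕ}
    (hZ : Z ⊆ range m) {w t : ℝ} (hw : 0 < w) (ht : 0 < t) :
    ∃ pc : ℕ → ℕ, ((Z.image pc).card : ℝ) ≤ (Z.image fun i => ⌊μ i / w⌋).card + m / t ∧
      ∀ i ∈ Z, ∀ i' ∈ Z, pc i = pc i' → |(i : ℝ) - i'| ≤ t ∧ |μ i - μ i'| ≤ w := by
  obtain ⟨g, hg⟩ : ∃ g : ℕ → ℤ, g = fun i => ⌊μ i / w⌋ := ⟨_, rfl⟩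
  obtain ⟨T, hT⟩ : ∃ T : ℕ, T = ⌊t⌋₊ + 1 := ⟨_, rfl⟩
  have T0 : 0 < T := by omega
  have T1 : t < T := by rw [hT]; push_cast; exact Nat.lt_floor_add_one t
  have T2 : (T : ℝ) ≤ t + 1 := by rw [hT]; push_cast; linarith [Nat.floor_le ht.le]
  rw [← hg]
  obtain ⟨rk, hrk⟩ : ∃ rk : ℕ → ℕ, rk = fun i => ((Z.image g).filter fun J => J < g i).card :=
    ⟨_, rfl⟩
  have r1 : ∀ i j, g i ≤ g j → rk i ≤ rk j := fun i j hij => by
    rw [hrk]
    exact card_le_card (monotone_filter_right _ fun J _ hJ => lt_of_lt_of_le hJ hij)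
  have r2 : ∀ i ∈ Z, ∀ j, g i < g j → rk i < rk j := fun i hi j hij => by
    rw [hrk]
    refine card_lt_card ⟨monotone_filter_right _ fun J _ hJ => lt_trans hJ hij, fun hs => ?_⟩
    exact lt_irrefl _ (mem_filter.1 (hs (mem_filter.2 ⟨mem_image_of_mem g hi, hij⟩))).2
  have r3 : ∀ i ∈ Z, rk i < (Z.image g).card := fun i hi => by
    rw [hrk]
    exact card_lt_card ⟨filter_subset _ _, fun hs =>
      lt_irrefl _ (mem_filter.1 (hs (mem_image_of_mem g hi))).2⟩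
  refine ⟨fun i => rk i + i / T, ?_, ?_⟩
  · have a : (Z.image fun i => rk i + i / T).card ≤ (Z.image g).card + m / T := by
      refine (card_le_card (t := range _) fun p hp => ?_).trans (card_range _).le
      obtain ⟨i, hi, rfl⟩ := mem_image.1 hp
      have := r3 i hi
      have := Nat.div_le_div_right (c := T) (mem_range.1 (hZ hi)).le
      exact mem_range.2 (by omega)
    have b : ((m / T : ℕ) : ℝ) ≤ m / t :=
      Nat.cast_div_le.trans (div_le_div_of_nonneg_left (Nat.cast_nonneg _) ht T1.le)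
    have a' := (Nat.cast_le (α := ℝ)).2 a
    rw [Nat.cast_add] at a'
    linarith
  · have key : ∀ i ∈ Z, ∀ j ∈ Z, i ≤ j → rk i + i / T = rk j + j / T →
        |(i : ℝ) - j| ≤ t ∧ |μ i - μ j| ≤ w := by
      intro i hi j hj hij he
      have a : g i ≤ g j := by
        rw [hg]
        exact Int.floor_mono (div_le_div_of_nonneg_right (hμ i j hij (mem_range.1 (hZ hj))) hw.le)
      have b := r1 i j a
      have c := Nat.div_le_div_right (c := T) hij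
      have d : g i = g j := a.eq_of_not_lt fun hlt => by have := r2 i hi j hlt; omega
      constructor
      · have e1 := Nat.div_add_mod i T
        have e2 := Nat.div_add_mod j T
        have e3 := Nat.mod_lt j T0
        have e4 : i / T = j / T := by omega
        rw [e4] at e1
        have e5 : j + 1 ≤ i + T := by omega
        have e6 : (j : ℝ) + 1 ≤ i + T := by exact_mod_cast e5
        have e7 : (i : ℝ) ≤ j := by exact_mod_cast hij
        rw [abs_sub_comm, abs_of_nonneg (by linarith)]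
        linarith
      · rw [hg] at d
        have := Int.abs_sub_lt_one_of_floor_eq_floor d
        rw [← sub_div, abs_div, abs_of_pos hw, div_lt_one hw] at this
        exact this.le
    intro i hi j hj he
    rcases le_total i j with hij | hij
    · exact key i hi j hj hij he
    · rw [abs_sub_comm, abs_sub_comm (μ i)]
      exact key j hj i hi hij he.symm

theorem ssc_vals {μ : ℕ → ℝ} {Z : Finset ℕ} {w M : ℝ} (hw : 0 < w)
    (h : ∀ Fm ⊆ Z, (∀ i ∈ Fm, ∀ i' ∈ Fm, i ≠ i' → w < |μ i - μ i'|) → (Fm.card : ℝ) ≤ M) :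
    ((Z.image fun i => ⌊μ i / w⌋).card : ℝ) ≤ 2 * M := by
  obtain ⟨g, hg⟩ : ∃ g : ℕ → ℤ, g = fun i => ⌊μ i / w⌋ := ⟨_, rfl⟩
  rw [← hg]
  have hs : ∀ J : ℤ, ∃ i : ℕ, J ∈ Z.image g → i ∈ Z ∧ g i = J := fun J => by
    by_cases hJ : J ∈ Z.image g
    · obtain ⟨i, hi, e⟩ := mem_image.1 hJ
      exact ⟨i, fun _ => ⟨hi, e⟩⟩
    · exact ⟨0, fun h' => absurd h' hJ⟩
  choose s hs using hs
  have sep : ∀ i j, g i + 2 ≤ g j → w < μ j - μ i := fun i j hij => by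
    have a1 : μ i / w < g i + 1 := by rw [hg]; exact Int.lt_floor_add_one _
    have a2 : (g j : ℝ) ≤ μ j / w := by rw [hg]; exact Int.floor_le _
    have a3 : (g i : ℝ) + 2 ≤ g j := by exact_mod_cast hij
    have a4 : 1 < (μ j - μ i) / w := by rw [sub_div]; linarith
    rwa [one_lt_div hw] at a4
  have key : ∀ V ⊆ Z.image g, (∀ J ∈ V, ∀ J' ∈ V, J % 2 = J' % 2) → (V.card : ℝ) ≤ M := by
    intro V hV hp
    have inj : Set.InjOn s V := fun J hJ J' hJ' e => by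
      rw [← (hs J (hV hJ)).2, ← (hs J' (hV hJ')).2, e]
    rw [← card_image_of_injOn inj]
    refine h _ (fun i hi => ?_) fun i hi i' hi' hne => ?_
    · obtain ⟨J, hJ, rfl⟩ := mem_image.1 hi
      exact (hs J (hV hJ)).1
    · obtain ⟨J, hJ, rfl⟩ := mem_image.1 hi
      obtain ⟨J', hJ', rfl⟩ := mem_image.1 hi'
      have e1 := (hs J (hV hJ)).2
      have e2 := (hs J' (hV hJ')).2
      have e3 := hp J hJ J' hJ'
      have e4 : J ≠ J' := fun e => hne (by rw [e])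
      rcases lt_or_gt_of_ne e4 with l | l
      · rw [abs_sub_comm]
        exact (sep _ _ (by omega)).trans_le (le_abs_self _)
      · exact (sep _ _ (by omega)).trans_le (le_abs_self _)
  have a := key _ (filter_subset (fun J => J % 2 = 0) _) fun J hJ J' hJ' => by
    rw [(mem_filter.1 hJ).2, (mem_filter.1 hJ').2]
  have b := key _ (filter_subset (fun J => ¬ J % 2 = 0) _) fun J hJ J' hJ' => by
    have := (mem_filter.1 hJ).2
    have := (mem_filter.1 hJ').2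
    omega
  have c := congrArg (Nat.cast : ℕ → ℝ) (card_filter_add_card_filter_not (s := Z.image g)
    fun J => J % 2 = 0)
  push_cast at c
  linarith

theorem ssc_grp {α β γ : Type} [DecidableEq β] [DecidableEq γ] (Q : Finset α) (S : Finset β)
    (f : α → β) (P : α → γ) (n : ℕ) (hS : ∀ q ∈ Q, f q ∈ S)
    (hn : ∀ q ∈ Q, ((Q.filter fun q' => f q' = f q).image P).card ≤ n) :
    (Q.image P).card ≤ S.card * n := by
  refine (card_le_card (t := S.biUnion fun s => (Q.filter fun q' => f q' = s).image P)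
    fun p hp => ?_).trans (card_biUnion_le_card_mul _ _ _ fun s _ => ?_)
  · obtain ⟨q, hq, rfl⟩ := mem_image.1 hp
    exact mem_biUnion.2 ⟨f q, hS q hq, mem_image_of_mem _ (mem_filter.2 ⟨hq, rfl⟩)⟩
  · rcases (Q.filter fun q' => f q' = s).eq_empty_or_nonempty with he | ⟨q, hq⟩
    · rw [he]; simp
    · rw [← (mem_filter.1 hq).2]
      exact hn q (mem_filter.1 hq).1

theorem ssc_pairs {D : SD} {K : ℝ} {G2 : Finset ((ℝ × ℝ) × ℕ)} {δ : ℕ → ℝ} {τ e0 a b B : ℕ}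
    {La : Finset ℕ} {AA : ℕ → Finset (ℝ × ℝ)} (hR : D.Reg G2 δ τ e0) (hF : D.Frame G2 a b La AA K)
    {e e'' : ℕ} (he : e ≤ e0) (he'' : e'' ≤ e0) (hτ : τ ≤ e'') {i i' : ℕ} {w : ℝ}
    (hi : i ∈ La) (hi' : i' ∈ La) (hl : |D.lam a b i - D.lam a b i'| ≤ w)
    (hw : 8 * w * δ e ≤ δ e'') (hB : ∀ q ∈ AA i, D.kap q b / 2 ^ e < B)
    {Q : Finset (ℝ × ℝ)} (hQ : Q ⊆ AA i ∩ AA i') :
    (Q.image fun q => (D.cls q i, D.cls q i')).card ≤ (D.W i).card * B * (3 * 2 ^ (e'' + τ)) := by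
  have m1 : ∀ q ∈ Q, (q, a) ∈ G2 ∧ (q, b) ∈ G2 ∧ (q, i) ∈ G2 := fun q hq =>
    hF.mem i hi q (mem_inter.1 (hQ hq)).1
  have near : ∀ q ∈ Q, ∀ q' ∈ Q, D.cls q' i = D.cls q i →
      D.kap q' b / 2 ^ e = D.kap q b / 2 ^ e → |D.v q' i' - D.v q i'| ≤ (1 : ℕ) * δ e'' := by
    intro q hq q' hq' hc hb
    have k1 := (SD.kap_eq_iff (hR.sub (m1 q' hq').2.2) (hR.sub (m1 q hq).2.2)).2 hc
    have a1 := hR.p1 q q' i 0 (m1 q hq).2.2 (hR.sub (m1 q' hq').2.2) (Nat.zero_le _)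
      (by omega) (by omega)
    have c1 := Nat.div_add_mod (D.kap q b) (2 ^ e)
    have c2 := Nat.div_add_mod (D.kap q' b) (2 ^ e)
    have c3 := Nat.mod_lt (D.kap q b) (Nat.two_pow_pos e)
    have c4 := Nat.mod_lt (D.kap q' b) (Nat.two_pow_pos e)
    rw [hb] at c2
    have a2 := hR.p1 q q' b e (m1 q hq).2.1 (hR.sub (m1 q' hq').2.1) he (by omega) (by omega)
    have d1 := hR.mono 0 e (Nat.zero_le _) he
    have d2 := hR.grow 0 (by omega)
    have d3 := hR.mono (0 + τ) e'' (by omega) he''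
    obtain ⟨l0, l1⟩ := hF.lam_mem i hi
    obtain ⟨Y, hY⟩ : ∃ Y, Y = (D.v q' b - D.v q b) - (D.v q' a - D.v q a) := ⟨_, rfl⟩
    have e1 : (1 - D.lam a b i) * Y = (D.v q' b - D.v q b) - (D.v q' i - D.v q i) := by
      rw [hY, SD.v_eq a b i hF.ne q, SD.v_eq a b i hF.ne q']
      ring
    have e2 : D.v q' i' - D.v q i' = (D.v q' i - D.v q i) - (D.lam a b i - D.lam a b i') * Y := by
      rw [hY, SD.v_eq a b i hF.ne q, SD.v_eq a b i hF.ne q', SD.v_eq a b i' hF.ne q,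
        SD.v_eq a b i' hF.ne q']
      ring
    have f1 : |Y| ≤ 4 * δ e := by
      have := (congrArg abs e1).trans_le (abs_sub _ _)
      rw [abs_mul, abs_of_nonneg (by linarith)] at this
      nlinarith [abs_nonneg Y]
    have f2 := mul_le_mul hl f1 (abs_nonneg _) ((abs_nonneg _).trans hl)
    rw [e2]
    refine (abs_sub _ _).trans ?_
    rw [abs_mul]
    push_cast
    linarith
  have hc : (D.W i).card * B = (D.W i ×ˢ range B).card := by rw [card_product, card_range]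
  rw [hc]
  refine ssc_grp Q _ (fun q => (D.cls q i, D.kap q b / 2 ^ e)) _ _ (fun q hq => ?_) fun q hq => ?_
  · exact mem_product.2 ⟨SD.cls_mem_SRho (hR.sub (m1 q hq).2.2),
      mem_range.2 (hB q (mem_inter.1 (hQ hq)).1)⟩
  · refine le_trans ?_ (hR.count (Q.filter fun q' => (D.cls q' i, D.kap q' b / 2 ^ e) =
      (D.cls q i, D.kap q b / 2 ^ e)) i' e'' 1 (D.v q i') he''
      (fun q' hq' => (hF.mem i' hi' q' (mem_inter.1 (hQ (mem_filter.1 hq').1)).2).2.2)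
      fun q' hq' => near q hq q' (mem_filter.1 hq').1 (congrArg Prod.fst (mem_filter.1 hq').2)
        (congrArg Prod.snd (mem_filter.1 hq').2))
    refine card_le_card_of_injOn Prod.snd (fun p hp => ?_) fun p hp p' hp' h => ?_
    · obtain ⟨q', hq', rfl⟩ := mem_image.1 hp
      exact mem_image_of_mem _ hq'
    · obtain ⟨q1, hq1, rfl⟩ := mem_image.1 hp
      obtain ⟨q2, hq2, rfl⟩ := mem_image.1 hp'
      exact Prod.ext ((congrArg Prod.fst (mem_filter.1 hq1).2).trans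
        (congrArg Prod.fst (mem_filter.1 hq2).2).symm) h

theorem SD.submult2 (c : ℕ) : ∃ c' : ℕ, ∀ (D : SD) (K : ℝ) (G2 : Finset ((ℝ × ℝ) × ℕ))
    (δ : ℕ → ℝ) (τ e0 a b : ℕ) (La : Finset ℕ) (AA : ℕ → Finset (ℝ × ℝ)),
    D.Hyp K c → D.Reg G2 δ τ e0 → (2 : ℝ) ^ τ ≤ K → D.Frame G2 a b La AA K →
    K ^ c' * 2 ^ e0 ≤ D.C → ∀ e e' e'' : ℕ, e ≤ e0 → e' ≤ e0 → e'' ≤ e0 → τ ≤ e'' →
      K ^ c' * 2 ^ e'' * D.C ≤ 2 ^ e * 2 ^ e' → δ e'' * δ e0 ≤ 16 * δ e * δ e' := by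
  obtain ⟨c1, hP⟩ := SD.piece c
  refine ⟨18 * c1 + 7, fun D K G2 δ τ e0 a b La AA hH hR hτ hF hC e e' e'' he he' he'' hτe hb => ?_⟩
  have K2 := hH.two_le
  have K1 : (1 : ℝ) ≤ K := by linarith
  have K0 : (0 : ℝ) < K := by linarith
  have hN := hH.N_pos
  have C0 := hH.C_pos
  have m0 : (0 : ℝ) < D.m := by exact_mod_cast hH.m_pos
  obtain ⟨e1, g1, g2, g3⟩ : ∃ e1 : ℕ, e1 + τ ≤ e0 ∧ e1 ≤ e' ∧ e' ≤ e1 + τ :=
    ⟨min e' (e0 - τ), by omega, by omega, by omega⟩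
  have he1 : e1 ≤ e0 := by omega
  have d0 := hR.pos e0 le_rfl
  have d1 := hR.pos e1 he1
  have d2 := hR.pos e he
  have d3 := hR.mono e1 e' g2 he'
  by_contra hcon
  rw [not_le] at hcon
  obtain ⟨w, hw⟩ : ∃ w : ℝ, w = 2 * (δ e1 / δ e0) := ⟨_, rfl⟩
  have w0 : 0 < w := by rw [hw]; positivity
  have w1 : 8 * w * δ e ≤ δ e'' := by
    have a1 : 8 * w * δ e = 16 * δ e * δ e1 / δ e0 := by rw [hw]; ring
    rw [a1, div_le_iff₀ d0]
    nlinarith
  obtain ⟨K', hK'⟩ : ∃ K' : ℝ, K' = (K ^ 9) ^ c1 := ⟨_, rfl⟩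
  have K'1 : 1 ≤ K' := by rw [hK']; exact one_le_pow₀ (one_le_pow₀ K1)
  have Ke : K ^ (18 * c1 + 7) = K' ^ 2 * K ^ 7 := by rw [hK']; ring
  rw [Ke] at hC hb
  have K3 : (8 : ℝ) ≤ K ^ 3 := le_trans (by norm_num) (pow_le_pow_left₀ zero_le_two K2 3)
  have K4 : (16 : ℝ) ≤ K ^ 4 := le_trans (by norm_num) (pow_le_pow_left₀ zero_le_two K2 4)
  have K9 : K ≤ K ^ 9 := le_self_pow₀ K1 (by norm_num)
  have K7 : K ≤ K ^ 7 := le_self_pow₀ K1 (by norm_num)
  have K'2 : K' ≤ K' ^ 2 := le_self_pow₀ K'1 (by norm_num)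
  have u0 : (1 : ℝ) ≤ 2 ^ e0 := one_le_pow₀ one_le_two
  have KK : K' * K ≤ K' ^ 2 * K ^ 7 := mul_le_mul K'2 K7 K0.le (by positivity)
  have KK1 : 1 ≤ K' * K := one_le_mul_of_one_le_of_one_le K'1 K1
  have uC : (2 : ℝ) ^ e0 ≤ D.C :=
    le_trans (le_mul_of_one_le_left (by positivity) (KK1.trans KK)) hC
  have K'C : K' ≤ D.C := by
    refine le_trans ?_ hC
    refine le_trans ?_ (le_mul_of_one_le_right (by positivity) u0)
    exact le_trans (le_mul_of_one_le_right (by positivity) K1) KK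
  have ue : (2 : ℝ) ^ e ≤ D.C := (pow_le_pow_right₀ one_le_two he).trans uC
  have ue1 : (2 : ℝ) ^ e1 ≤ D.C := (pow_le_pow_right₀ one_le_two he1).trans uC
  have hb1 : K' ^ 2 * K ^ 7 * 2 ^ e'' * D.C ≤ 2 ^ e * (2 ^ e1 * K) := by
    refine hb.trans (mul_le_mul_of_nonneg_left ?_ (by positivity))
    refine (pow_le_pow_right₀ one_le_two g3).trans ?_
    rw [pow_add]
    exact mul_le_mul_of_nonneg_left hτ (by positivity)
  have K'u : K' ≤ 2 ^ e1 := by
    have a1 : K' * K * D.C ≤ K' ^ 2 * K ^ 7 * 2 ^ e'' * D.C :=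
      mul_le_mul_of_nonneg_right (KK.trans (le_mul_of_one_le_right (by positivity)
        (one_le_pow₀ one_le_two))) C0.le
    have a2 : (2 : ℝ) ^ e * (2 ^ e1 * K) ≤ D.C * (2 ^ e1 * K) :=
      mul_le_mul_of_nonneg_right ue (by positivity)
    have a3 : K' * (K * D.C) ≤ 2 ^ e1 * (K * D.C) := by linarith
    exact le_of_mul_le_mul_right a3 (by positivity)
  obtain ⟨t, ht⟩ : ∃ t : ℝ, t = 2 ^ e1 * D.m / D.C := ⟨_, rfl⟩
  have t0 : 0 < t := by rw [ht]; positivity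
  have t1 : t ≤ D.m := by
    rw [ht, div_le_iff₀ C0, mul_comm]
    exact mul_le_mul_of_nonneg_left ue1 m0.le
  have t2 : D.m / t = D.C / 2 ^ e1 := by rw [ht]; field_simp
  have x0 : 0 < |D.x b - D.x a| := abs_pos.2 (sub_ne_zero.2 hF.ne.symm)
  have ab : ∀ i j, |(D.x i - D.x a) / |D.x b - D.x a| - (D.x j - D.x a) / (|D.x b - D.x a|)| =
      |D.lam a b i - D.lam a b j| := fun i j => by
    rw [SD.lam, SD.lam, ← sub_div, ← sub_div, abs_div, abs_div, abs_abs]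
  obtain ⟨pc, p1, p2⟩ := ssc_pieces (μ := fun i => (D.x i - D.x a) / |D.x b - D.x a|)
    (fun i j hij hj => div_le_div_of_nonneg_right (by linarith [hH.x_mono i j hij hj]) x0.le)
    hF.sub w0 t0
  have h0 : 8 * K ^ 4 * 2 ^ e0 ≤ D.C := by
    refine le_trans (mul_le_mul_of_nonneg_right ?_ (by positivity)) hC
    have a1 : 8 * K ^ 4 ≤ K ^ 3 * K ^ 4 := mul_le_mul_of_nonneg_right K3 (by positivity)
    have a2 : K ^ 7 ≤ K' ^ 2 * K ^ 7 := le_mul_of_one_le_left (by positivity) (K'1.trans K'2)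
    calc 8 * K ^ 4 ≤ K ^ 3 * K ^ 4 := a1
      _ = K ^ 7 := by ring
      _ ≤ _ := a2
  have p3 := ssc_vals (μ := fun i => (D.x i - D.x a) / |D.x b - D.x a|) (Z := La)
    (M := 4 * K ^ 5 * D.C / 2 ^ e1) w0 fun Fm hs hsep =>
      D.lam_cover2 K c G2 δ τ e0 e1 a b La Fm AA hH hR hτ hF h0 g1 hs fun i hi i' hi' hne => by
        rw [← hw, ← ab]
        exact hsep i hi i' hi' hne
  have p4 : ((La.image pc).card : ℝ) ≤ K ^ 9 * D.m / t := by
    refine p1.trans ?_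
    rw [mul_div_assoc, t2]
    rw [mul_div_assoc] at p3
    have a0 : 0 ≤ D.C / 2 ^ e1 := by positivity
    have a1 : (1 : ℝ) ≤ K ^ 5 := one_le_pow₀ K1
    have a2 : 8 * K ^ 5 + 1 ≤ K ^ 9 := by
      have : K ^ 9 = K ^ 4 * K ^ 5 := by ring
      nlinarith
    have a3 := mul_le_mul_of_nonneg_right a2 a0
    linarith
  obtain ⟨i, hi, i', hi', q1, q2⟩ := hP D (K ^ 9) t La AA pc (hH.mono K9) (hK' ▸ K'C) hF.sub
    ((div_le_div_of_nonneg_left m0.le K0 K9).trans hF.big)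
    (fun i hi q hq => hR.sub (hF.mem i hi q hq).2.2)
    (fun i hi => (div_le_div_of_nonneg_left hN.le K0 K9).trans (hF.AA_big i hi))
    (by
      rw [ht, ← hK']
      exact div_le_div_of_nonneg_right (mul_le_mul_of_nonneg_right K'u m0.le) C0.le)
    t1 p4 fun i hi j hj h => (p2 i hi j hj h).1
  rw [← hK'] at q2
  obtain ⟨B, B1, B2⟩ := blk_SRho (d := 2 ^ e) (n0 := K * D.C) (Nat.two_pow_pos e) (by
    push_cast
    exact ue.trans (le_mul_of_one_le_left C0.le K1))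
  have s1 := ssc_pairs (B := B) hR hF he he'' hτe hi hi' (by rw [← ab]; exact (p2 i hi i' hi' q1).2)
    w1 (fun q hq => B2 _ (lt_of_lt_of_le
      (Nat.cast_lt.2 (SD.kap_lt (hR.sub (hF.mem i hi q hq).2.1))) (hH.W_le b)))
    (filter_subset (fun q => (D.cell q i i' : ℝ) ≤ K' * D.N * D.m / (D.C ^ 2 * t)) _)
  have s2 := SD.card_le_cells hH ((AA i ∩ AA i').filter fun q =>
    (D.cell q i i' : ℝ) ≤ K' * D.N * D.m / (D.C ^ 2 * t)) i i' _ (by positivity)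
    (fun q hq => ⟨hR.sub (hF.mem i hi q (mem_inter.1 (mem_filter.1 hq).1).1).2.2,
      hR.sub (hF.mem i' hi' q (mem_inter.1 (mem_filter.1 hq).1).2).2.2⟩)
    fun q hq => (mem_filter.1 hq).2
  have s3 := (Nat.cast_le (α := ℝ)).2 s1
  push_cast at s3 B1
  have s4 : ((D.W i).card : ℝ) * B * (3 * 2 ^ (e'' + τ)) ≤
      K * D.C * (2 * (K * D.C) / 2 ^ e) * (3 * (2 ^ e'' * K)) := by
    rw [pow_add]
    gcongr
    exact hH.W_le i
  have s5 := q2.trans (s2.trans (mul_le_mul_of_nonneg_left (s3.trans s4) (by positivity)))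
  have e2 : K' * D.N * D.m / (D.C ^ 2 * t) *
      (K * D.C * (2 * (K * D.C) / 2 ^ e) * (3 * (2 ^ e'' * K))) =
      D.N / K' * (6 / K ^ 3 * (K' ^ 2 * K ^ 7 * 2 ^ e'' * D.C / (2 ^ e * (2 ^ e1 * K)))) := by
    rw [ht]
    field_simp
    ring
  rw [e2] at s5
  have s6 : K' ^ 2 * K ^ 7 * 2 ^ e'' * D.C / (2 ^ e * (2 ^ e1 * K)) ≤ 1 :=
    (div_le_one (by positivity)).2 hb1
  have s7 : 6 / K ^ 3 < 1 := (div_lt_one (by positivity)).2 (by linarith)
  have s8 : 6 / K ^ 3 * (K' ^ 2 * K ^ 7 * 2 ^ e'' * D.C / (2 ^ e * (2 ^ e1 * K))) < 1 :=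
    lt_of_le_of_lt (mul_le_of_le_one_right (by positivity) s6) s7
  have s9 : 0 < D.N / K' := by positivity
  exact absurd s5 (not_le.2 (mul_lt_of_lt_one_right s9 s8))

end Vale.Agent.P065.U
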