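import Vale.Agent.P065.U.SSubA
import Vale.Agent.P065.U.SSubC

/-!
P065/U task SSub: submultiplicativity of the scales, and the lower bound on the ratios.

`lam_cover`. u0 = 2^e0, u' = 2^e', e' + τ ≤ e0. For i ∈ Fm the pairs (q,q') ∈ (AA i)² in one block
kap · i / u' number ≥ |AA i|² u'/(2KC). Those whose ranks at a differ by less than u0 2^τ number
≤ |AA i|·u'·2u0 2^τ·K N/C² (cells a i), at most half. For the others |Δ v a| ≥ δ e0 (p2),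
|Δ v i| ≤ δ e' ≤ δ e0/2 (p1, grow), Δ v i = Δ v a + lam i·Zq with Zq = Δ v b - Δ v a, so |Zq| ≥ δ e0,
and a pair (q,q') can serve two indices only if their lam differ by ≤ 2 δ e'/δ e0. Hence
|Fm| N² u'/(4K³C) ≤ (K N)².

`submult`. If e' + τ > e0 replace e' by e' - τ (costs a factor 2^τ ≤ K; mono). A maximal separated
family (`lam_cover`) cuts La into ≤ 4K^5 C/u' lam-intervals of length 2σ e'; intersect with index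
blocks, t = m u'/C. `piece` gives i, i' and Q, |Q| ≥ N/K', cells ≤ K' N/(C u'). Group Q by (class at i,
block kap · b / u): ≤ 2K²C²/u groups, so one group has ≥ N u/(2K²K'C²) points. In it
|Zq| ≤ 2(δ e + δ 0) ≤ 4δ e, so |Δ v i'| ≤ δ 0 + 8 σ e' δ e. If this is < δ e'' then by p2 the group
meets ≤ 2·2^(e''+τ) classes at i', so N u/(2K²K'C²) ≤ 2·2^e'' K·K' N/(C u'), contradicting the
hypothesis. So δ e'' ≤ δ 0 + 8σ e' δ e, and δ e'' ≥ δ τ ≥ 2 δ 0.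

`mu_lower`. If μ δ e ≤ δ', group AA i by (class at a, block kap · b / 2^e), ≤ 2K²C²/2^e groups; in a
group |Δ v i| ≤ δ' + lam δ e ≤ 2δ' ≤ 2 δ 0, so ≤ 5·2^τ classes at i, each cell ≤ K N/C². So
N/K ≤ 10 K⁴ N/2^e.
-/

namespace Vale.Agent.P065.U

open Finset Classical

theorem SD.lam_cover (D : SD) (K : ℝ) (c : ℕ) (G2 : Finset ((ℝ × ℝ) × ℕ)) (δ : ℕ → ℝ)
    (τ e0 e' a b : ℕ) (La Fm : Finset ℕ) (AA : ℕ → Finset (ℝ × ℝ)) (h : D.Hyp K c)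
    (hR : D.Reg G2 δ τ e0) (hτ : (2 : ℝ) ^ τ ≤ K) (hF : D.Frame G2 a b La AA K)
    (h0 : 8 * K ^ 4 * 2 ^ e0 ≤ D.C) (he : e' + τ ≤ e0) (hs : Fm ⊆ La)
    (hsep : ∀ i ∈ Fm, ∀ i' ∈ Fm, i ≠ i' → 2 * (δ e' / δ e0) < |D.lam a b i - D.lam a b i'|) :
    (Fm.card : ℝ) ≤ 4 * K ^ 5 * D.C / 2 ^ e' := by
  exact D.lam_cover2 K c G2 δ τ e0 e' a b La Fm AA h hR hτ hF h0 he hs hsep

theorem SD.submult (c : ℕ) : ∃ c' : ℕ, ∀ (D : SD) (K : ℝ) (G2 : Finset ((ℝ × ℝ) × ℕ))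
    (δ : ℕ → ℝ) (τ e0 a b : ℕ) (La : Finset ℕ) (AA : ℕ → Finset (ℝ × ℝ)),
    D.Hyp K c → D.Reg G2 δ τ e0 → (2 : ℝ) ^ τ ≤ K → D.Frame G2 a b La AA K →
    K ^ c' * 2 ^ e0 ≤ D.C → ∀ e e' e'' : ℕ, e ≤ e0 → e' ≤ e0 → e'' ≤ e0 → τ ≤ e'' →
      K ^ c' * 2 ^ e'' * D.C ≤ 2 ^ e * 2 ^ e' → δ e'' * δ e0 ≤ 16 * δ e * δ e' := by
  exact SD.submult2 c

theorem SD.mu_lower (D : SD) (K δ' : ℝ) (c : ℕ) (G2 : Finset ((ℝ × ℝ) × ℕ)) (δ : ℕ → ℝ)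
    (τ e0 e a b : ℕ) (La : Finset ℕ) (AA : ℕ → Finset (ℝ × ℝ)) (h : D.Hyp K c)
    (hR : D.Reg G2 δ τ e0) (hτ : (2 : ℝ) ^ τ ≤ K) (hF : D.Frame G2 a b La AA K)
    (hδ : δ' ≤ δ 0) (hcl : ∀ q q' i, (q, i) ∈ G2 → (q', i) ∈ G2 → D.cls q i = D.cls q' i →
      |D.v q i - D.v q' i| ≤ δ') (he : e ≤ e0) (hC : (2 : ℝ) ^ e0 ≤ D.C) (hK : 16 * K ^ 5 ≤ 2 ^ e) :
    ∀ i ∈ La, δ' < D.lam a b i / (1 - D.lam a b i) * δ e := by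
  exact D.mu_lower2 K δ' c G2 δ τ e0 e a b La AA h hR hτ hF hδ hcl he hC hK

end Vale.Agent.P065.U
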