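import Vale.Agent.P065.U.SRef
import Vale.Agent.P065.U.SSparse
import Vale.Agent.P065.U.SL1
import Vale.Agent.P065.U.SSub
import Vale.Agent.P065.U.SU
import Vale.Agent.P065.U.Cov
import Vale.Agent.P065.U.Close
import Vale.Agent.P065.U.GKZ
import Vale.Agent.P065.U.SFin

/-!
P065/U task SMain: Proposition S.

`finish` (the additive end, proved in SFin.lean). Δ = δ e0, δn = δ'/Δ, σ e = δ e/Δ, D = C^(1/20), μ i = lam/(1 - lam) ∈ [0,1].
`scale_fun` gives U, e1, σ2 (eI is given). `lam_spread` gives La1; La2 = {i ∈ La1 | σ e1 ≤ μ i}: the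
others have lam ≤ σ e1, so they are within 2σ e1 of one of them and number ≤ K' 2^e1 m/C ≤ K' m/D²;
|La2| ≥ m/(4K). Xs = classes at a, Ys = classes at b of the points of ⋃ AA i (i ∈ La2);
X w = v q_w a/Δ, Y w = v q_w b/Δ for chosen representatives in ⋃ AA i. G i = image of AA i under
(cls · a, cls · b), |G i| ≥ C²/K² (`card_le_cells`). X w + μ Y w' is within 2δn of
v q i/((1-lam)Δ) (`v_eq`, `hcl`), which is within 2δn of the value of a representative of the class at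
i: ≤ 5KC balls of radius δn. Fibres: `Reg.count` at e = 0 for X (δ' ≤ δ 0), at e = eI for μ Y
(δ' < μ δ eI). `cov_main` gives i0, Nn, S; μ0 = μ i0, ν = μ/μ0, ε = δn/μ0 < σ eI. |Y y - Y y'| ≤ 1
(p1, same block) and |Ys| ≤ 2^e0. NB: radius s ≤ σ e meets ≤ 3·2^(e+τ) classes, or e = e0. NN:
|ν i - x| ≤ s/μ0 forces |lam i - lam i'| ≤ |μ i - μ i'| ≤ 2 s, use `lam_spread`, or e = e0 and
2^e0 ≥ C/K. `close_main` (ε ≤ σ e1/μ0 ≤ |den| since δn ≤ σ 0 ≤ σ e1) gives the covering hypothesis of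
`gkz`, which bounds D by a power of K.

`propS`. `exists_reg` gives τ, E0, Gs, δ with K2 = K^c1. Let cF, cS be the exponents of `frame` and
`submult`, K4 = (2 K2)^cF. Take e0 ≤ E0 maximal with K4^cS·2^e0 ≤ C (also 2^e0 ≤ 2^E0), so
C ≤ K5 2^e0 for a power K5. `sparse` (at K5) gives G2, |G2| ≥ N m/(2 K2); δ' = min (δ 0) (K5^c δ e0/C²)
(same class at the same index: p1 with e = 0). `frame` (at 2 K2) gives a, b, La, AA with K4;
`submult` and `mu_lower` (eI with 16 K4^5 ≤ 2^eI ≤ 32 K4^5) apply to it. Pigeonhole a block β of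
kap · b / 2^e0 (≤ 2 K K5 values): AA' i = AA i ∩ block, La' = indices with |AA' i| ≥ N/(4 K K4 K5)...,
a `Frame` with a larger power K6. Then `finish` at K6.
-/

namespace Vale.Agent.P065.U

open Finset Classical

/-- Pigeonhole: some fibre has at least the average size. -/
theorem main_pigeon {α : Type} (S : Finset α) (f : α → ℕ) (B : ℕ) (hB : 0 < B)
    (hf : ∀ x ∈ S, f x < B) : ∃ β < B, (S.card : ℝ) / B ≤ (S.filter fun x => f x = β).card := by
  have h := exists_le_card_fiber_of_nsmul_le_card_of_maps_to (s := S) (t := range B) (f := f)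
    (b := (S.card : ℝ) / B) (fun x hx => mem_range.2 (hf x hx)) ⟨0, mem_range.2 hB⟩
    (by
      rw [card_range, nsmul_eq_mul, mul_div_cancel₀ _ (by exact_mod_cast hB.ne')])
  obtain ⟨β, h1, h2⟩ := h
  exact ⟨β, mem_range.1 h1, h2⟩

/-- Restriction of a frame to one block of ranks at `b`. -/
theorem SD.main_block {D : SD} {G2 : Finset ((ℝ × ℝ) × ℕ)} {K K4 K5 K6 : ℝ} {c a b e0 : ℕ}
    {La : Finset ℕ} {AA : ℕ → Finset (ℝ × ℝ)} (h : D.Hyp K c) (hG : G2 ⊆ D.G)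
    (hF : D.Frame G2 a b La AA K4) (h4 : 1 ≤ K4) (h5 : 1 ≤ K5) (hC : D.C ≤ K5 * 2 ^ e0)
    (h6 : K4 * (2 * (K * K5)) ≤ K6) :
    ∃ β La' AA', La' ⊆ La ∧ D.Frame G2 a b La' AA' K6 ∧
      ∀ i ∈ La', ∀ q ∈ AA' i, D.kap q b / 2 ^ e0 = β := by
  have hK := h.two_le
  have hK0 : 0 < K := by linarith
  have h1 : 1 ≤ K * K5 := by nlinarith
  obtain ⟨B, hB0, hB1, hB2⟩ : ∃ B : ℕ, 0 < B ∧ K * K5 ≤ B ∧ (B : ℝ) ≤ 2 * (K * K5) := by
    refine ⟨⌈K * K5⌉₊, Nat.ceil_pos.2 (by linarith), Nat.le_ceil _, ?_⟩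
    have := Nat.ceil_lt_add_one (a := K * K5) (by linarith)
    linarith
  have hBr : (0 : ℝ) < B := by exact_mod_cast hB0
  have hk : ∀ i ∈ La, ∀ q ∈ AA i, D.kap q b / 2 ^ e0 < B := by
    intro i hi q hq
    have t1 : (D.kap q b : ℝ) < (D.W b).card := by
      exact_mod_cast SD.kap_lt (hG (hF.mem i hi q hq).2.1)
    have t2 : K * D.C ≤ K * (K5 * 2 ^ e0) := mul_le_mul_of_nonneg_left hC hK0.le
    have t3 : K * K5 * 2 ^ e0 ≤ B * 2 ^ e0 := mul_le_mul_of_nonneg_right hB1 (by positivity)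
    have t4 : (D.kap q b : ℝ) < B * 2 ^ e0 := by linarith [h.W_le b]
    rw [Nat.div_lt_iff_lt_mul (by positivity)]
    exact_mod_cast t4
  choose! f hf1 hf2 using fun i (hi : i ∈ La) =>
    main_pigeon (AA i) (fun q => D.kap q b / 2 ^ e0) B hB0 (hk i hi)
  obtain ⟨β, -, hβ⟩ := main_pigeon La f B hB0 hf1
  have h7 : K4 * B ≤ K6 := (mul_le_mul_of_nonneg_left hB2 (by linarith)).trans h6
  have h8 : K4 ≤ K6 := le_trans (le_mul_of_one_le_right (by linarith) (by linarith)) h6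
  have h9 : ∀ x y : ℝ, 0 ≤ x → x / K4 ≤ y → x / K6 ≤ y / B := fun x y p1 p2 => by
    refine (div_le_div_of_nonneg_left p1 (by positivity) h7).trans ?_
    rw [← div_div]
    exact div_le_div_of_nonneg_right p2 hBr.le
  have hF6 := hF.mono (by linarith) h8 h.N_pos
  refine ⟨β, La.filter fun i => f i = β, fun i => (AA i).filter fun q => D.kap q b / 2 ^ e0 = β,
    filter_subset _ _, ⟨hF.ne, hF.a_lt, hF.b_lt, (filter_subset _ _).trans hF.sub,
      (h9 _ _ (Nat.cast_nonneg _) hF.big).trans hβ, fun i hi => hF.lam_mem i (mem_filter.1 hi).1,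
      fun i hi => ?_, fun i hi q hq => hF.mem i (mem_filter.1 hi).1 q (mem_filter.1 hq).1,
      fun i hi q hq => hF6.cells i (mem_filter.1 hi).1 q (mem_filter.1 hq).1⟩,
    fun i _ q hq => (mem_filter.1 hq).2⟩
  obtain ⟨p1, p2⟩ := mem_filter.1 hi
  rw [← p2]
  exact (h9 _ _ h.N_pos.le (hF.AA_big i p1)).trans (hf2 i p1)

theorem main_e0 (E0 : ℕ) (A B C : ℝ) (hA : 0 < A) (hB : 0 < B) (h0 : A ≤ C) (h1 : C ≤ B * 2 ^ E0) :
    ∃ e0 ≤ E0, A * 2 ^ e0 ≤ C ∧ C ≤ (2 * A + B) * 2 ^ e0 := by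
  have hP0 : A * 2 ^ 0 ≤ C := by simpa using h0
  refine ⟨Nat.findGreatest (fun e => A * 2 ^ e ≤ C) E0, Nat.findGreatest_le _,
    Nat.findGreatest_spec (P := fun e => A * 2 ^ e ≤ C) (Nat.zero_le _) hP0, ?_⟩
  generalize he : Nat.findGreatest (fun e => A * 2 ^ e ≤ C) E0 = e
  have hp : (0 : ℝ) < 2 ^ e := by positivity
  have t1 : 0 < A * 2 ^ e := by positivity
  have t2 : 0 < B * 2 ^ e := by positivity
  by_cases hE : e = E0
  · subst hE
    linarith
  · have t3 : e ≤ E0 := he ▸ Nat.findGreatest_le _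
    have t4 := Nat.findGreatest_is_greatest (P := fun e => A * 2 ^ e ≤ C) (k := e + 1) (n := E0)
      (by omega) (by omega)
    rw [not_le, pow_succ] at t4
    linarith

theorem main_eI (e0 : ℕ) (A : ℝ) (hA : 1 ≤ A) (h : A ≤ 2 ^ e0) :
    ∃ e ≤ e0, A ≤ 2 ^ e ∧ (2 : ℝ) ^ e ≤ 2 * A := by
  have hex : ∃ e : ℕ, A ≤ 2 ^ e := ⟨e0, h⟩
  refine ⟨Nat.find hex, Nat.find_min' hex h, Nat.find_spec hex, ?_⟩
  rcases he : Nat.find hex with _ | e
  · rw [pow_zero]; linarith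
  · have := Nat.find_min hex (m := e) (by omega)
    rw [not_le] at this
    rw [pow_succ]
    linarith

theorem SD.propS (c : ℕ) : ∃ c' : ℕ, ∀ (D : SD) (K : ℝ), D.Hyp K c → D.C < K ^ c' := by
  obtain ⟨c1, hreg⟩ := SD.exists_reg c
  obtain ⟨cF, hfr⟩ := SD.frame c
  obtain ⟨cS, hsub⟩ := SD.submult c
  obtain ⟨cP, hsp⟩ := SD.sparse c
  obtain ⟨cE, hfin⟩ := SD.finish c
  obtain ⟨p4, hp4⟩ : ∃ p4 : ℕ, p4 = (c1 + 1) * cF + c1 + 1 := ⟨_, rfl⟩
  obtain ⟨p5, hp5⟩ : ∃ p5 : ℕ, p5 = p4 * cS + c1 + 2 := ⟨_, rfl⟩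
  obtain ⟨p6, hp6⟩ : ∃ p6 : ℕ, p6 = p5 * cP + p4 * 5 + p5 + 6 := ⟨_, rfl⟩
  refine ⟨p6 * cE + p6, fun D K h => ?_⟩
  by_contra hcon
  rw [not_lt] at hcon
  have hK := h.two_le
  have hK0 : 0 < K := by linarith
  have hK1 : 1 ≤ K := by linarith
  have hC := h.C_pos
  have hle : ∀ {i j : ℕ}, i ≤ j → K ^ i ≤ K ^ j := fun hij => pow_le_pow_right₀ hK1 hij
  have hpw : ∀ j, j ≤ p6 → K ^ j ≤ D.C := fun j hj => (hle (by omega)).trans hcon
  have hH : ∀ j, 1 ≤ j → D.Hyp (K ^ j) c := fun j hj => h.mono (le_self_pow₀ hK1 (by omega))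
  have h16 : ∀ i j : ℕ, i + 4 ≤ j → 16 * K ^ i ≤ K ^ j := fun i j hij => by
    have t1 := fin_pow hK i (i + 2) le_rfl
    have t2 := fin_pow hK (i + 2) j (by omega)
    linarith
  obtain ⟨τ, E0, Gs, δ, r1, r2, r3, r4, r5, r6⟩ := hreg D K h (hpw c1 (by omega))
  obtain ⟨e0, s1, s2, s3⟩ := main_e0 E0 (K ^ (p4 * cS)) (K ^ c1) D.C (by positivity)
    (by positivity) (hpw _ (by omega)) r3
  have s4 : D.C ≤ K ^ p5 * 2 ^ e0 := by
    refine s3.trans (mul_le_mul_of_nonneg_right ?_ (by positivity))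
    have t1 := fin_pow hK (p4 * cS + c1) p5 (by omega)
    have t2 : K ^ (p4 * cS) ≤ K ^ (p4 * cS + c1) := hle (by omega)
    have t3 : K ^ c1 ≤ K ^ (p4 * cS + c1) := hle (by omega)
    have t4 : 0 < K ^ c1 := by positivity
    linarith
  have s5 : (2 : ℝ) ^ e0 ≤ D.C := (pow_le_pow_right₀ (by norm_num) s1).trans r4
  have hNm : 0 ≤ D.N * D.m := by have := h.N_pos; positivity
  have hRs := r6.mono_E s1
  obtain ⟨G2, g1, g2, g3⟩ := hsp D (K ^ p5) Gs δ τ e0 (hH p5 (by omega))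
    (by rw [← pow_mul]; exact hpw _ (by omega)) hRs
    ((div_le_div_of_nonneg_left hNm (by positivity) (hle (by omega))).trans r5) s4 s5
  have hR := hRs.subset g1
  obtain ⟨a, b, La, AA, hF0⟩ := hfr D (K ^ (c1 + 1)) G2 (hH _ (by omega))
    (by rw [← pow_mul]; exact hpw _ (by omega)) hR.sub
    (by
      have t1 : (Gs.card : ℝ) ≤ 2 * G2.card := by exact_mod_cast g2
      have t2 : K ^ c1 * 2 ≤ K ^ (c1 + 1) := by
        rw [pow_succ]; exact mul_le_mul_of_nonneg_left hK (by positivity)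
      refine (div_le_div_of_nonneg_left hNm (by positivity) t2).trans ?_
      rw [← div_div]
      linarith)
  rw [← pow_mul] at hF0 g3
  have hF := hF0.mono (K' := K ^ p4) (by positivity) (hle (by omega)) h.N_pos
  have hτ4 : (2 : ℝ) ^ τ ≤ K ^ p4 := r2.trans (hle (by omega))
  have hs := hsub D (K ^ p4) G2 δ τ e0 a b La AA (hH _ (by omega)) hR hτ4 hF
    (by rw [← pow_mul]; exact s2)
  rw [← pow_mul] at hs
  have hΔ := hR.pos e0 le_rfl
  have hcl : ∀ q q' i, (q, i) ∈ G2 → (q', i) ∈ G2 → D.cls q i = D.cls q' i →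
      |D.v q i - D.v q' i| ≤ min (δ 0) (K ^ (p5 * cP) * δ e0 / D.C ^ 2) := by
    intro q q' i q1 q2 q3
    have t := (SD.kap_eq_iff (hR.sub q1) (hR.sub q2)).2 q3
    exact le_min (hR.p1 q' q i 0 q2 (hR.sub q1) (by omega) (by omega) (by omega)) (g3 q q' i q1 q2 q3)
  obtain ⟨eI, i1, i2, i3⟩ := main_eI e0 (16 * K ^ (p4 * 5))
    (by linarith [one_le_pow₀ (n := p4 * 5) hK1])
    (by
      have t1 := (h16 (p5 + p4 * 5) p6 (by omega)).trans ((hpw p6 le_rfl).trans s4)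
      rw [pow_add, mul_left_comm] at t1
      exact le_of_mul_le_mul_left t1 (by positivity))
  have hμ := SD.mu_lower D (K ^ p4) _ c G2 δ τ e0 eI a b La AA (hH _ (by omega)) hR hτ4 hF
    (min_le_left _ _) hcl i1 s5 (by rw [← pow_mul]; exact i2)
  obtain ⟨β, La', AA', b1, b2, b3⟩ := SD.main_block (K6 := K ^ p6) h hR.sub hF
    (one_le_pow₀ hK1) (one_le_pow₀ hK1) s4
    (by
      have t1 := fin_pow hK (p4 + (p5 + 1)) p6 (by omega)
      have e : K ^ p4 * (2 * (K * K ^ p5)) = 2 * K ^ (p4 + (p5 + 1)) := by ring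
      have t2 : 0 < K ^ (p4 + (p5 + 1)) := by positivity
      linarith)
  have key := hfin D (K ^ p6) _ G2 δ τ e0 eI a b β La' AA' (hH _ (by omega)) hR r1
    (r2.trans (hle (by omega))) s5 (s4.trans (mul_le_mul_of_nonneg_right (hle (by omega))
      (by positivity))) b2 b3 (lt_min (hR.pos 0 (by omega)) (by positivity)) (min_le_left _ _)
    ((min_le_right _ _).trans (div_le_div_of_nonneg_right
      (mul_le_mul_of_nonneg_right (hle (by omega)) hΔ.le) (by positivity))) hcl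
    (fun e e' e'' q1 q2 q3 q4 q5 => hs e e' e'' q1 q2 q3 q4 (le_trans
      (mul_le_mul_of_nonneg_right (mul_le_mul_of_nonneg_right (hle (by omega)) (by positivity))
        hC.le) q5)) i1
    (by
      have t1 := h16 (p4 * 5) (p4 * 5 + 4) le_rfl
      have t2 := fin_pow hK (p4 * 5 + 4) p6 (by omega)
      have t3 : 0 < K ^ (p4 * 5 + 4) := by positivity
      linarith)
    fun i hi => hμ i (b1 hi)
  rw [← pow_mul] at key
  linarith [hle (Nat.le_add_right (p6 * cE) p6)]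

end Vale.Agent.P065.U
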