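import Vale.Agent.P065.U.Geo
import Vale.Agent.P065.U.SMain

/-!
P065/U task Core: the power saving for one level.

`core`: c1, c2 from `setup`, c3 from `geo`, c4 = exponent of `propS` for c3. If d ≥ K^c, take j largest
with 4^j K^c1 ≤ d; then 2^j ≥ K^(c2 + c2 c3 c4), contradicting `propS` (use `Big.mono` to K^c2, c2 ≥ 1
or replace it by max).
`edges_le`: with c from `core` (c ≥ 1) put K = d^(1/c), so K^c = d and `Big K` must fail. For n large
2 ≤ K and n ≤ 2^K, so |F| < n d/K = n^(4/3 - 1/(3c)). For bounded n use |F| ≤ n².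
-/

namespace Vale.Agent.P065.U

open Finset Classical

theorem Cfg.core : ∃ c : ℕ, ∀ (X : Cfg) (K : ℝ), X.Big K → X.d < K ^ c := by
  obtain ⟨c1, c2, hs⟩ := Cfg.setup
  obtain ⟨c3, hg⟩ := Cfg.geo
  obtain ⟨c4, hp⟩ := SD.propS c3
  refine ⟨c1 + (c2 + c2 * c3 * c4 + 1) * 2, fun X K hK => not_le.1 fun hd => ?_⟩
  have h2 := hK.1
  have h1 : 1 ≤ K := by linarith
  have h0 : 0 < K ^ c1 := by positivity
  rw [pow_add, ← le_div_iff₀' h0] at hd
  obtain ⟨j, j1, j2⟩ := exists_nat_pow_near ((one_le_pow₀ h1).trans hd) (by norm_num : (1 : ℝ) < 4)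
  have h3 : K ^ (c2 + c2 * c3 * c4) ≤ 2 ^ j := by
    have t1 := hd.trans j2.le
    rw [show (4 : ℝ) = 2 ^ 2 by norm_num, ← pow_mul, mul_comm 2, pow_mul, pow_mul,
      pow_le_pow_iff_left₀ (by positivity) (by positivity) two_ne_zero, pow_succ, pow_succ] at t1
    have t2 : 0 ≤ K ^ (c2 + c2 * c3 * c4) := by positivity
    nlinarith
  rw [le_div_iff₀ h0] at j1
  rw [div_lt_iff₀ h0, pow_succ'] at j2
  obtain ⟨K1, r, j', m0, Z, A, G, Pi, h⟩ := hs X K j hK j1 j2.le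
    ((pow_le_pow_right₀ h1 (Nat.le_add_right _ _)).trans h3)
  have h4 : c2 ≠ 0 := by
    rintro rfl
    linarith [h.two_le, h.le_K, pow_zero K]
  obtain ⟨D, d1, d2⟩ := hg X _ j K1 r j' m0 Z A G Pi (hK.mono (le_self_pow₀ h1 h4))
    ((le_mul_of_one_le_right (by positivity) (one_le_pow₀ h1)).trans j1) h
  have h5 := hp D _ d2
  rw [d1, ← pow_mul, ← pow_mul, ← mul_assoc] at h5
  exact h5.not_ge ((pow_le_pow_right₀ h1 (Nat.le_add_left _ _)).trans h3)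

theorem edges_le : ∃ ε C : ℝ, 0 < ε ∧ ε ≤ 1 / 3 ∧ 0 < C ∧ ∀ (P : Finset Pt) (a : ℕ), Gen P →
    ((edges P a).card : ℝ) ≤ C * (P.card : ℝ) ^ (4 / 3 - ε) := by
  obtain ⟨c, hc⟩ := Cfg.core
  obtain ⟨B, hB⟩ := Filter.eventually_atTop.1 ((Filter.eventually_ge_atTop (2 : ℝ)).and
    (isLittleO_pow_exp_pos_mul_atTop ((c + 1) * 3) (Real.log_pos one_lt_two)).eventuallyLE)
  have c0 : (0 : ℝ) < ((c + 1 : ℕ) : ℝ) := by positivity
  have c1 : (((c + 1 : ℕ) : ℝ))⁻¹ ≤ 1 := inv_le_one_of_one_le₀ (by simp)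
  refine ⟨((c + 1 : ℕ) : ℝ)⁻¹ / 3, 1 + (B ^ ((c + 1) * 3)) ^ 2, by positivity, by linarith,
    by positivity, fun P a hP => ?_⟩
  rcases (edges P a).eq_empty_or_nonempty with hE | hE
  · rw [hE, card_empty, Nat.cast_zero]
    positivity
  obtain ⟨X, rfl, rfl⟩ := exists_cfg hP a hE
  have d0 := X.d_pos
  obtain ⟨K, K0, hK, he⟩ : ∃ K : ℝ, 0 < K ∧ K ^ (c + 1) = X.d ∧
      (X.P.card : ℝ) ^ (4 / 3 - ((c + 1 : ℕ) : ℝ)⁻¹ / 3) = X.n * X.d / K := by
    refine ⟨X.d ^ ((c + 1 : ℕ) : ℝ)⁻¹, by positivity,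
      Real.rpow_inv_natCast_pow d0.le c.succ_ne_zero, ?_⟩
    rw [X.n_eq, ← X.d_cube, ← pow_succ, ← Real.rpow_natCast, ← Real.rpow_natCast,
      ← Real.rpow_mul d0.le, ← Real.rpow_sub d0]
    congr 1
    push_cast
    ring
  have hn : X.n = K ^ ((c + 1) * 3) := by rw [pow_mul, hK, X.n_eq]
  have h1 : 1 ≤ (X.P.card : ℝ) ^ (4 / 3 - ((c + 1 : ℕ) : ℝ)⁻¹ / 3) :=
    Real.one_le_rpow (X.d_cube ▸ one_le_pow₀ X.one_le_d) (by linarith)
  have h2 := sq_nonneg (B ^ ((c + 1) * 3))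
  rcases le_or_gt B K with h | h
  · obtain ⟨h3, h4⟩ := hB K h
    have h5 : (X.F.card : ℝ) < X.n * X.d / K := not_le.1 fun t => (hc X K ⟨h3, t, by
      rw [hn, Real.rpow_def_of_pos two_pos]
      exact (le_abs_self _).trans (h4.trans_eq (Real.norm_of_nonneg (Real.exp_pos _).le))⟩).not_ge
        (hK ▸ pow_le_pow_right₀ (by linarith) c.le_succ)
    rw [← he] at h5
    exact h5.le.trans (le_mul_of_one_le_left (by linarith) (by linarith))
  · have h3 : ((edges X.P X.k).card : ℝ) ≤ X.n ^ 2 := by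
      unfold Cfg.n
      exact_mod_cast (card_le_card (edges_sub _ _)).trans (prs_card _)
    have h4 : X.n ^ 2 ≤ (B ^ ((c + 1) * 3)) ^ 2 := by
      rw [hn]
      gcongr
    nlinarith

end Vale.Agent.P065.U
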