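import Vale.Agent.P065.U.Planar

/-!
P065/U task Crossing: the crossing lemma with two vertex roles.

Proof. Removing one edge per crossing and `planar_le` give |G'| ≤ 4(|S1|+|S2|) + cr G' G' for every
G' ⊆ G with left ends in S1 and right ends in S2. Sum this over (S1, S2) ∈ powerset Y1 × powerset Y2
with weights p1^|S1| (1-p1)^(|Y1|-|S1|) p2^|S2| (1-p2)^(|Y2|-|S2|), G' = edges with e.1 ∈ S1 and
e.2 ∈ S2. The weight of {S ⊇ T} is p^|T| (`Finset.prod_add` or `Finset.sum_powerset`...). A crossing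
pair has distinct left ends and distinct right ends. So
p1 p2 |G| ≤ 4 p1 |Y1| + 4 p2 |Y2| + p1² p2² cr. Take p1 = 16|Y2|/|G|, p2 = 16|Y1|/|G|.
-/

namespace Vale.Agent.P065.U

open Finset Classical

lemma crs_base (P : Finset Pt) (hP : Gen P) (G : Finset Ed) (hG : G ⊆ prs P)
    (Y1 Y2 : Finset Pt) (h1 : ∀ e ∈ G, e.1 ∈ Y1) (h2 : ∀ e ∈ G, e.2 ∈ Y2) :
    G.card ≤ 4 * (Y1.card + Y2.card) + cr G G := by
  set C := (G ×ˢ G).filter fun x : Ed × Ed => XC x.1 x.2 with hC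
  have hb : (C.image Prod.fst).card ≤ cr G G := card_image_le
  have hp := planar_le P hP (G \ C.image Prod.fst) (sdiff_subset.trans hG) Y1 Y2
    (fun e he => h1 e (mem_sdiff.1 he).1) (fun e he => h2 e (mem_sdiff.1 he).1) (by
      intro e he e' he' hx
      refine (mem_sdiff.1 he).2 (mem_image.2 ⟨(e, e'), ?_, rfl⟩)
      exact mem_filter.2 ⟨mem_product.2 ⟨(mem_sdiff.1 he).1, (mem_sdiff.1 he').1⟩, hx⟩)
  have := le_card_sdiff (C.image Prod.fst) G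
  omega

/-- Weight of the subset `S` of `Y` when each point is kept with probability `p`. -/
noncomputable def crsW (p : ℝ) (Y S : Finset Pt) : ℝ := p ^ S.card * (1 - p) ^ (Y \ S).card

lemma crsW_nonneg {p : ℝ} (h0 : 0 ≤ p) (h1 : p ≤ 1) (Y S : Finset Pt) : 0 ≤ crsW p Y S :=
  mul_nonneg (pow_nonneg h0 _) (pow_nonneg (by linarith) _)

lemma crsW_sum (p : ℝ) (Y T : Finset Pt) (hT : T ⊆ Y) :
    ∑ S ∈ Y.powerset, crsW p Y S * (if T ⊆ S then 1 else 0) = p ^ T.card := by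
  have h := Finset.prod_add (fun _ : Pt => p) (fun i => if i ∈ T then 0 else 1 - p) Y
  have hl : ∏ i ∈ Y, (p + if i ∈ T then 0 else 1 - p) = p ^ T.card := by
    have : ∀ i ∈ Y, (p + if i ∈ T then 0 else 1 - p) = if i ∈ T then p else 1 := by
      intro i _
      split_ifs <;> ring
    rw [prod_congr rfl this, prod_ite, prod_const_one, mul_one, prod_const]
    congr 1
    congr 1
    ext i
    simp only [mem_filter]
    exact ⟨fun h => h.2, fun h => ⟨hT h, h⟩⟩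
  rw [← hl, h]
  refine sum_congr rfl fun S hS => ?_
  rw [prod_const, crsW, mul_assoc]
  congr 1
  split_ifs with hTS
  · rw [mul_one, ← prod_const]
    refine prod_congr rfl fun i hi => ?_
    rw [if_neg fun hiT => (mem_sdiff.1 hi).2 (hTS hiT)]
  · obtain ⟨i, hiT, hiS⟩ := not_subset.1 hTS
    rw [mul_zero]
    symm
    refine prod_eq_zero (mem_sdiff.2 ⟨hT hiT, hiS⟩) ?_
    exact if_pos hiT

/-- Expectation over a pair of independent random subsets. -/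
noncomputable def crsE (p1 p2 : ℝ) (Y1 Y2 : Finset Pt) (f : Finset Pt → Finset Pt → ℝ) : ℝ :=
  ∑ S1 ∈ Y1.powerset, ∑ S2 ∈ Y2.powerset, crsW p1 Y1 S1 * crsW p2 Y2 S2 * f S1 S2

lemma crsE_ind (p1 p2 : ℝ) (Y1 Y2 T1 T2 : Finset Pt) (hT1 : T1 ⊆ Y1) (hT2 : T2 ⊆ Y2) :
    crsE p1 p2 Y1 Y2 (fun S1 S2 => if T1 ⊆ S1 ∧ T2 ⊆ S2 then 1 else 0) =
      p1 ^ T1.card * p2 ^ T2.card := by
  rw [← crsW_sum p1 Y1 T1 hT1, ← crsW_sum p2 Y2 T2 hT2, sum_mul_sum, crsE]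
  refine sum_congr rfl fun S1 _ => sum_congr rfl fun S2 _ => ?_
  by_cases a : T1 ⊆ S1 <;> by_cases b : T2 ⊆ S2 <;> simp [a, b]

lemma crsE_sum {ι : Type*} (p1 p2 : ℝ) (Y1 Y2 : Finset Pt) (I : Finset ι)
    (f : ι → Finset Pt → Finset Pt → ℝ) :
    crsE p1 p2 Y1 Y2 (fun S1 S2 => ∑ i ∈ I, f i S1 S2) = ∑ i ∈ I, crsE p1 p2 Y1 Y2 (f i) := by
  simp only [crsE, mul_sum]
  rw [sum_comm (s := I)]
  refine sum_congr rfl fun S1 _ => ?_
  rw [sum_comm]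

lemma crsE_cnt {ι : Type*} (p1 p2 : ℝ) (Y1 Y2 : Finset Pt) (I : Finset ι)
    (T1 T2 : ι → Finset Pt) (a b : ℕ) (h1 : ∀ i ∈ I, T1 i ⊆ Y1 ∧ (T1 i).card = a)
    (h2 : ∀ i ∈ I, T2 i ⊆ Y2 ∧ (T2 i).card = b) :
    crsE p1 p2 Y1 Y2 (fun S1 S2 => ((I.filter fun i => T1 i ⊆ S1 ∧ T2 i ⊆ S2).card : ℝ)) =
      I.card * (p1 ^ a * p2 ^ b) := by
  have : (fun S1 S2 : Finset Pt => ((I.filter fun i => T1 i ⊆ S1 ∧ T2 i ⊆ S2).card : ℝ)) =
      fun S1 S2 => ∑ i ∈ I, (if T1 i ⊆ S1 ∧ T2 i ⊆ S2 then (1 : ℝ) else 0) := by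
    funext S1 S2
    rw [card_filter]
    push_cast
    rfl
  rw [this, crsE_sum p1 p2 Y1 Y2 I fun i S1 S2 => if T1 i ⊆ S1 ∧ T2 i ⊆ S2 then (1 : ℝ) else 0,
    ← nsmul_eq_mul, ← sum_const]
  refine sum_congr rfl fun i hi => ?_
  rw [crsE_ind p1 p2 Y1 Y2 _ _ (h1 i hi).1 (h2 i hi).1, (h1 i hi).2, (h2 i hi).2]

lemma crsE_le {p1 p2 : ℝ} (a0 : 0 ≤ p1) (a1 : p1 ≤ 1) (b0 : 0 ≤ p2) (b1 : p2 ≤ 1)
    (Y1 Y2 : Finset Pt) (f g1 g2 g3 : Finset Pt → Finset Pt → ℝ)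
    (h : ∀ S1 ⊆ Y1, ∀ S2 ⊆ Y2, f S1 S2 ≤ 4 * g1 S1 S2 + 4 * g2 S1 S2 + g3 S1 S2) :
    crsE p1 p2 Y1 Y2 f ≤
      4 * crsE p1 p2 Y1 Y2 g1 + 4 * crsE p1 p2 Y1 Y2 g2 + crsE p1 p2 Y1 Y2 g3 := by
  simp only [crsE, mul_sum, ← sum_add_distrib]
  refine sum_le_sum fun S1 hS1 => sum_le_sum fun S2 hS2 => ?_
  have hw := mul_nonneg (crsW_nonneg a0 a1 Y1 S1) (crsW_nonneg b0 b1 Y2 S2)
  have := mul_le_mul_of_nonneg_left (h S1 (mem_powerset.1 hS1) S2 (mem_powerset.1 hS2)) hw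
  linarith

lemma crs_fv (e : Ed) (h : e.1.1 < e.2.1) : fv (sl e) e.1 = fv (sl e) e.2 := by
  have : e.2.1 - e.1.1 ≠ 0 := (sub_pos.2 h).ne'
  simp only [fv, sl]
  field_simp
  ring

lemma crs_prob (P : Finset Pt) (hP : Gen P) (G : Finset Ed) (hG : G ⊆ prs P)
    (Y1 Y2 : Finset Pt) (h1 : ∀ e ∈ G, e.1 ∈ Y1) (h2 : ∀ e ∈ G, e.2 ∈ Y2)
    {p1 p2 : ℝ} (a0 : 0 ≤ p1) (a1 : p1 ≤ 1) (b0 : 0 ≤ p2) (b1 : p2 ≤ 1) :
    G.card * (p1 * p2) ≤
      4 * (Y1.card * p1) + 4 * (Y2.card * p2) + cr G G * (p1 ^ 2 * p2 ^ 2) := by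
  set C := (G ×ˢ G).filter fun x : Ed × Ed => XC x.1 x.2 with hC
  have e0 := crsE_cnt p1 p2 Y1 Y2 G (fun e => {e.1}) (fun e => {e.2}) 1 1
    (fun e he => ⟨singleton_subset_iff.2 (h1 e he), card_singleton _⟩)
    (fun e he => ⟨singleton_subset_iff.2 (h2 e he), card_singleton _⟩)
  have e1 := crsE_cnt p1 p2 Y1 Y2 Y1 (fun y => {y}) (fun _ => ∅) 1 0
    (fun e he => ⟨singleton_subset_iff.2 he, card_singleton _⟩)
    (fun e _ => ⟨empty_subset _, card_empty⟩)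
  have e2 := crsE_cnt p1 p2 Y1 Y2 Y2 (fun _ => ∅) (fun y => {y}) 0 1
    (fun e _ => ⟨empty_subset _, card_empty⟩)
    (fun e he => ⟨singleton_subset_iff.2 he, card_singleton _⟩)
  have e3 := crsE_cnt p1 p2 Y1 Y2 C (fun x => {x.1.1, x.2.1}) (fun x => {x.1.2, x.2.2}) 2 2
    (by
      intro x hx
      obtain ⟨hx1, hx2⟩ := mem_filter.1 hx
      obtain ⟨ha, hb⟩ := mem_product.1 hx1
      refine ⟨insert_subset (h1 _ ha) (singleton_subset_iff.2 (h1 _ hb)), card_pair ?_⟩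
      intro h
      have := hx2.2.1
      rw [h] at this
      exact lt_irrefl _ this)
    (by
      intro x hx
      obtain ⟨hx1, hx2⟩ := mem_filter.1 hx
      obtain ⟨ha, hb⟩ := mem_product.1 hx1
      refine ⟨insert_subset (h2 _ ha) (singleton_subset_iff.2 (h2 _ hb)), card_pair ?_⟩
      intro h
      have := hx2.2.2.1
      rw [crs_fv x.1 (mem_filter.1 (hG ha)).2, h] at this
      exact lt_irrefl _ this)
  have key := crsE_le a0 a1 b0 b1 Y1 Y2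
    (fun S1 S2 => ((G.filter fun e => ({e.1} : Finset Pt) ⊆ S1 ∧ ({e.2} : Finset Pt) ⊆ S2).card : ℝ))
    (fun S1 S2 => ((Y1.filter fun y => ({y} : Finset Pt) ⊆ S1 ∧ (∅ : Finset Pt) ⊆ S2).card : ℝ))
    (fun S1 S2 => ((Y2.filter fun y => (∅ : Finset Pt) ⊆ S1 ∧ ({y} : Finset Pt) ⊆ S2).card : ℝ))
    (fun S1 S2 => ((C.filter fun x => ({x.1.1, x.2.1} : Finset Pt) ⊆ S1 ∧
      ({x.1.2, x.2.2} : Finset Pt) ⊆ S2).card : ℝ)) (by
      intro S1 hS1 S2 hS2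
      set G' := G.filter fun e => ({e.1} : Finset Pt) ⊆ S1 ∧ ({e.2} : Finset Pt) ⊆ S2 with hG'
      have hb := crs_base P hP G' ((filter_subset _ _).trans hG) S1 S2
        (fun e he => singleton_subset_iff.1 (mem_filter.1 he).2.1)
        (fun e he => singleton_subset_iff.1 (mem_filter.1 he).2.2)
      have k1 : (Y1.filter fun y => ({y} : Finset Pt) ⊆ S1 ∧ (∅ : Finset Pt) ⊆ S2) = S1 := by
        ext y
        simp only [mem_filter, singleton_subset_iff, empty_subset, and_true]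
        exact ⟨fun h => h.2, fun h => ⟨hS1 h, h⟩⟩
      have k2 : (Y2.filter fun y => (∅ : Finset Pt) ⊆ S1 ∧ ({y} : Finset Pt) ⊆ S2) = S2 := by
        ext y
        simp only [mem_filter, singleton_subset_iff, empty_subset, true_and]
        exact ⟨fun h => h.2, fun h => ⟨hS2 h, h⟩⟩
      have k3 : cr G' G' ≤ (C.filter fun x => ({x.1.1, x.2.1} : Finset Pt) ⊆ S1 ∧
          ({x.1.2, x.2.2} : Finset Pt) ⊆ S2).card := by
        refine card_le_card fun x hx => ?_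
        obtain ⟨hx1, hx2⟩ := mem_filter.1 hx
        obtain ⟨ha, hb⟩ := mem_product.1 hx1
        obtain ⟨ha1, ha2, ha3⟩ := mem_filter.1 ha
        obtain ⟨hb1, hb2, hb3⟩ := mem_filter.1 hb
        refine mem_filter.2 ⟨mem_filter.2 ⟨mem_product.2 ⟨ha1, hb1⟩, hx2⟩, ?_, ?_⟩
        · exact insert_subset (singleton_subset_iff.1 ha2) hb2
        · exact insert_subset (singleton_subset_iff.1 ha3) hb3
      simp only [k1, k2]
      have : G'.card ≤ 4 * S1.card + 4 * S2.card + (C.filter fun x =>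
          ({x.1.1, x.2.1} : Finset Pt) ⊆ S1 ∧ ({x.1.2, x.2.2} : Finset Pt) ⊆ S2).card := by omega
      exact_mod_cast this)
  rw [e0, e1, e2, e3] at key
  simp only [pow_one, pow_zero, mul_one, one_mul] at key
  exact key

theorem crossing (P : Finset Pt) (hP : Gen P) (G : Finset Ed) (hG : G ⊆ prs P)
    (Y1 Y2 : Finset Pt) (h1 : ∀ e ∈ G, e.1 ∈ Y1) (h2 : ∀ e ∈ G, e.2 ∈ Y2)
    (hY1 : 16 * Y1.card ≤ G.card) (hY2 : 16 * Y2.card ≤ G.card) :
    G.card ^ 3 ≤ 512 * Y1.card * Y2.card * cr G G := by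
  rcases G.eq_empty_or_nonempty with rfl | ⟨e, he⟩
  · simp
  have hm : (0 : ℝ) < G.card := by exact_mod_cast card_pos.2 ⟨e, he⟩
  have ha : (0 : ℝ) < Y1.card := by exact_mod_cast card_pos.2 ⟨_, h1 e he⟩
  have hb : (0 : ℝ) < Y2.card := by exact_mod_cast card_pos.2 ⟨_, h2 e he⟩
  have hY1' : (16 : ℝ) * Y1.card ≤ G.card := by exact_mod_cast hY1
  have hY2' : (16 : ℝ) * Y2.card ≤ G.card := by exact_mod_cast hY2
  have key := crs_prob P hP G hG Y1 Y2 h1 h2 (p1 := 16 * Y2.card / G.card)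
    (p2 := 16 * Y1.card / G.card) (by positivity) ((div_le_one hm).2 hY2') (by positivity)
    ((div_le_one hm).2 hY1')
  have goal : (G.card : ℝ) ^ 3 ≤ 512 * Y1.card * Y2.card * cr G G := by
    generalize (G.card : ℝ) = m at *
    generalize (Y1.card : ℝ) = a at *
    generalize (Y2.card : ℝ) = b at *
    generalize (cr G G : ℝ) = c at *
    have k1 : m * (16 * b / m * (16 * a / m)) = (128 * a * b / m ^ 4) * (2 * m ^ 3) := by
      field_simp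
      ring
    have k2 : 4 * (a * (16 * b / m)) + 4 * (b * (16 * a / m)) +
        c * ((16 * b / m) ^ 2 * (16 * a / m) ^ 2) =
        (128 * a * b / m ^ 4) * (m ^ 3 + 512 * a * b * c) := by
      field_simp
      ring
    rw [k1, k2] at key
    have := le_of_mul_le_mul_left key (by positivity)
    linarith
  exact_mod_cast goal


end Vale.Agent.P065.U
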