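import Mathlib

/-!
P065 upper bound project: geometric definitions. See notes/P065U.md.
Points are swept by the functionals `fv θ = y - θ x`, θ increasing.
-/

namespace Vale.Agent.P065.U

open Finset Classical

abbrev Pt := ℝ × ℝ
abbrev Ed := Pt × Pt

/-- Height of `p` in direction `θ`. -/
def fv (θ : ℝ) (p : Pt) : ℝ := p.2 - θ * p.1

/-- Slope of the pair `e`. -/
noncomputable def sl (e : Ed) : ℝ := (e.2.2 - e.1.2) / (e.2.1 - e.1.1)

/-- Number of points of `P` strictly below the line of slope `θ` through `z`. -/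
noncomputable def rk (P : Finset Pt) (θ : ℝ) (z : Pt) : ℕ :=
  (P.filter fun y => fv θ y < fv θ z).card

/-- General position: distinct abscissae and no three points on a line. -/
structure Gen (P : Finset Pt) : Prop where
  xinj : ∀ p ∈ P, ∀ q ∈ P, p.1 = q.1 → p = q
  ncol : ∀ p ∈ P, ∀ q ∈ P, ∀ r ∈ P, ∀ θ : ℝ, p ≠ q → p ≠ r → q ≠ r →
    fv θ p = fv θ q → fv θ p ≠ fv θ r

/-- `θ` is not the slope of a pair of points of `P`. -/
def GenSl (P : Finset Pt) (θ : ℝ) : Prop := ∀ p ∈ P, ∀ q ∈ P, fv θ p = fv θ q → p = q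

/-- Pairs of points, left point first. -/
noncomputable def prs (P : Finset Pt) : Finset Ed := (P ×ˢ P).filter fun e => e.1.1 < e.2.1

/-- Level of a pair: number of points strictly below its line. -/
noncomputable def lev (P : Finset Pt) (e : Ed) : ℕ := rk P (sl e) e.1

/-- Edges of level `a`. -/
noncomputable def edges (P : Finset Pt) (a : ℕ) : Finset Ed := (prs P).filter fun e => lev P e = a

/-- Edges with level in `I`. -/
noncomputable def edgesIn (P : Finset Pt) (I : Finset ℕ) : Finset Ed :=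
  (prs P).filter fun e => lev P e ∈ I

/-- `e'` is steeper than `e` and crosses it properly. -/
def XC (e e' : Ed) : Prop :=
  sl e < sl e' ∧ fv (sl e) e'.1 < fv (sl e) e.1 ∧ fv (sl e) e.1 < fv (sl e) e'.2 ∧
    fv (sl e') e'.1 < fv (sl e') e.1 ∧ fv (sl e') e.2 < fv (sl e') e'.1

/-- Weak crossing: the meeting point may be the left end of `e` or the right end of `e'`. -/
def WX (e e' : Ed) : Prop :=
  sl e < sl e' ∧ fv (sl e) e'.1 < fv (sl e) e.1 ∧ fv (sl e) e.1 ≤ fv (sl e) e'.2 ∧
    fv (sl e') e'.1 ≤ fv (sl e') e.1 ∧ fv (sl e') e.2 < fv (sl e') e'.1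

/-- Number of properly crossing pairs, shallower edge in `G`, steeper edge in `H`. -/
noncomputable def cr (G H : Finset Ed) : ℕ := ((G ×ˢ H).filter fun x => XC x.1 x.2).card

/-- Number of weakly crossing pairs, shallower edge in `G`, steeper edge in `H`. -/
noncomputable def wcr (G H : Finset Ed) : ℕ := ((G ×ˢ H).filter fun x => WX x.1 x.2).card

/-- Endpoints of a set of edges. -/
noncomputable def ends (G : Finset Ed) : Finset Pt := G.image Prod.fst ∪ G.image Prod.snd

/-- Edges of `G` with slope in the closed interval `[α, β]`. -/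
noncomputable def slIn (G : Finset Ed) (α β : ℝ) : Finset Ed :=
  G.filter fun e => α ≤ sl e ∧ sl e ≤ β

/-- Number of points of `P` with abscissa weakly between those of `z` and `z'`. -/
noncomputable def xc (P : Finset Pt) (z z' : Pt) : ℕ :=
  (P.filter fun y => min z.1 z'.1 ≤ y.1 ∧ y.1 ≤ max z.1 z'.1).card

/-- Tokens (the convex chains of Lovasz and Dey). For each level `a` the tokens `c ∈ lab a` sit at
distinct points `pos a c θ`; at the slope of a level-`a` edge its token moves from the left end to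
the right end (the move happens just after the slope). -/
structure Tok (P : Finset Pt) where
  lab : ℕ → Finset Pt
  pos : ℕ → Pt → ℝ → Pt
  ch : ℕ → Ed → Pt
  lab_sub : ∀ a, lab a ⊆ P
  pos_mem : ∀ a, ∀ c ∈ lab a, ∀ θ, pos a c θ ∈ P
  pos_inj : ∀ a, ∀ c ∈ lab a, ∀ c' ∈ lab a, ∀ θ, pos a c θ = pos a c' θ → c = c'
  ch_mem : ∀ a, ∀ e ∈ edges P a, ch a e ∈ lab a
  pos_at : ∀ a, ∀ e ∈ edges P a, pos a (ch a e) (sl e) = e.1
  pos_after : ∀ a, ∀ e ∈ edges P a, ∀ θ, sl e < θ →
    (∀ e' ∈ edges P a, ch a e' = ch a e → ¬ (sl e < sl e' ∧ sl e' < θ)) → pos a (ch a e) θ = e.2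
  pos_const : ∀ a, ∀ c ∈ lab a, ∀ θ θ', θ ≤ θ' →
    (∀ e ∈ edges P a, ch a e = c → ¬ (θ ≤ sl e ∧ sl e < θ')) → pos a c θ = pos a c θ'

namespace Tok
variable {P : Finset Pt} (T : Tok P)

/-- Edges of the chain `c` of level `a`. -/
noncomputable def chain (a : ℕ) (c : Pt) : Finset Ed := (edges P a).filter fun e => T.ch a e = c

/-- `z` lies in the convex region above the chain. -/
def Epi (a : ℕ) (c z : Pt) : Prop := ∀ θ, fv θ (T.pos a c θ) ≤ fv θ z

/-- Number of level-`a` chains separating `z` from `z'`, plus the points between them in `x`. -/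
noncomputable def dd (a : ℕ) (z z' : Pt) : ℕ :=
  ((T.lab a).filter fun c => ¬ (T.Epi a c z ↔ T.Epi a c z')).card + xc P z z'

end Tok

/-- Cost of a segment with respect to level `a`. -/
noncomputable def hit (P : Finset Pt) (a : ℕ) (e : Ed) : ℕ :=
  ((edges P a).filter fun f => WX e f).card + ((edges P a).filter fun f => WX f e).card +
    4 * xc P e.1 e.2

/-- A configuration: points, a level `k`, tokens, breakpoints and `d = n^(1/3)`. -/
structure Cfg where
  P : Finset Pt
  k : ℕ
  gen : Gen P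
  T : Tok P
  b : ℕ → ℝ
  b_mono : StrictMono b
  b_gen : ∀ i, GenSl P (b i)
  b_cnt : ∀ i ≤ (edges P k).card, ((edges P k).filter fun e => sl e < b i).card = i
  b_out : ∀ e ∈ prs P, b 0 < sl e ∧ sl e < b (edges P k).card
  d : ℝ
  d_pos : 0 < d
  d_cube : d ^ 3 = P.card

namespace Cfg
variable (X : Cfg)

/-- Number of points, as a real. -/
def n : ℝ := X.P.card

/-- The fine edges. -/
noncomputable def F : Finset Ed := edges X.P X.k

/-- Standing hypothesis: many fine edges, and `K` bounds the number of scales. -/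
def Big (K : ℝ) : Prop := 2 ≤ K ∧ X.n * X.d / K ≤ X.F.card ∧ X.n ≤ (2 : ℝ) ^ K

/-- Left end of window `u` at scale `2^j`; the windows are `u < 16^j`. -/
noncomputable def al (j u : ℕ) : ℝ := X.b (u * X.F.card / 16 ^ j)

/-- Index of the window at scale `2^j` that contains `θ`. -/
noncomputable def wi (j : ℕ) (θ : ℝ) : ℕ :=
  ((range (16 ^ j - 1)).filter fun u => X.al j (u + 1) < θ).card

/-- Edges of `G` in window `u` at scale `2^j`. -/
noncomputable def win (G : Finset Ed) (j u : ℕ) : Finset Ed := G.filter fun e => X.wi j (sl e) = u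

/-- Natural size `n / 8^j` of the active set of a window. -/
noncomputable def sz (j : ℕ) : ℝ := X.n / 8 ^ j

/-- Active points of a window. -/
noncomputable def act (j u : ℕ) : Finset Pt := ends (X.win X.F j u)

/-- Points whose rank comes within `J` of `k` from both sides during the closed window. -/
noncomputable def Uw (j u : ℕ) (J : ℝ) : Finset Pt := X.P.filter fun p =>
  (∃ θ, X.al j u ≤ θ ∧ θ ≤ X.al j (u + 1) ∧ (rk X.P θ p : ℝ) ≤ X.k + J) ∧
  (∃ θ, X.al j u ≤ θ ∧ θ ≤ X.al j (u + 1) ∧ (X.k : ℝ) - J ≤ rk X.P θ p)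

/-- The rank of `p` stays within `J` of `k` during the closed window. -/
def Stay (j u : ℕ) (J : ℝ) (p : Pt) : Prop :=
  ∀ θ, X.al j u ≤ θ → θ ≤ X.al j (u + 1) → |(rk X.P θ p : ℝ) - X.k| ≤ J

/-- Number of fine edges of the window with left end `p`. -/
noncomputable def rdeg (j u : ℕ) (p : Pt) : ℕ := ((X.win X.F j u).filter fun e => e.1 = p).card

/-- Number of fine edges of the window with right end `p`. -/
noncomputable def ldeg (j u : ℕ) (p : Pt) : ℕ := ((X.win X.F j u).filter fun e => e.2 = p).card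

/-- Number of windows at scale `2^j` in which `p` is active. -/
noncomputable def nact (j : ℕ) (p : Pt) : ℕ :=
  ((range (16 ^ j)).filter fun u => p ∈ X.act j u).card

/-- Upper regularity of the pair (point, window). -/
structure Reg (K : ℝ) (j u : ℕ) (p : Pt) : Prop where
  nice : ((X.Uw j u (K * X.sz j)).card : ℝ) ≤ K ^ 2 * X.sz j
  stay : X.Stay j u (K * X.sz j) p
  rdeg_le : (X.rdeg j u p : ℝ) ≤ K * X.d / 2 ^ j
  nact_le : (X.nact j p : ℝ) ≤ K * 2 ^ j

/-- Upper regularity in the window and all its ancestors, and a lower bound on the degree. -/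
structure Tame (K : ℝ) (j u : ℕ) (p : Pt) : Prop where
  mem : p ∈ X.P
  lt : u < 16 ^ j
  reg : ∀ j' ≤ j, X.Reg K j' (u / 16 ^ (j - j')) p
  low : X.d / (K * 2 ^ j) ≤ X.rdeg j u p

/-- `q` is left of `p` and the direction from `q` to `p` lies in the window. -/
def Lt (j u : ℕ) (q p : Pt) : Prop :=
  fv (X.al j u) q < fv (X.al j u) p ∧ fv (X.al j (u + 1)) p < fv (X.al j (u + 1)) q

/-- `p` has at least `y` points of `Z` before it and at least `y` after it in the window order. -/
def Cmp (j u : ℕ) (Z : Finset Pt) (y : ℝ) (p : Pt) : Prop :=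
  y ≤ ((Z.filter fun z => X.Lt j u z p).card : ℝ) ∧ y ≤ ((Z.filter fun z => X.Lt j u p z).card : ℝ)

/-- Points of `P` that stay within `J` during the window. -/
noncomputable def stayers (j u : ℕ) (J : ℝ) : Finset Pt := X.P.filter fun p => X.Stay j u J p

/-- Levels within `J` of `k`. -/
noncomputable def lv (J : ℝ) : Finset ℕ :=
  (range X.P.card).filter fun a => |(a : ℝ) - X.k| ≤ J

/-- Coarse edges: level within `J` of `k`. -/
noncomputable def co (J : ℝ) : Finset Ed := edgesIn X.P (X.lv J)

/-- Good coarse edges: crossed by at least `t` steeper coarse edges. -/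
noncomputable def gco (J t : ℝ) : Finset Ed :=
  (X.co J).filter fun e => t ≤ (((X.co J).filter fun e' => XC e e').card : ℝ)

/-- The edge `e` is weakly crossed by few coarse edges. -/
def TrimC (J t : ℝ) (e : Ed) : Prop :=
  (((X.co J).filter fun e' => WX e e').card : ℝ) + (2 * J + 1) * xc X.P e.1 e.2 < t

/-- `p` has at least `y` good coarse edges of the window on each side. -/
def Useful (J t y : ℝ) (j u : ℕ) (p : Pt) : Prop :=
  y ≤ (((X.win (X.gco J t) j u).filter fun e => e.1 = p).card : ℝ) ∧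
  y ≤ (((X.win (X.gco J t) j u).filter fun e => e.2 = p).card : ℝ)

/-- Fine edges crossed by at least `n/(d L)` fine edges of later windows at scale `2^j`. -/
noncomputable def gfi (j : ℕ) (L : ℝ) : Finset Ed := X.F.filter fun e =>
  X.n / (X.d * L) ≤ ((X.F.filter fun f => XC e f ∧ X.wi j (sl e) < X.wi j (sl f)).card : ℝ)

/-- `q` has many well-crossed right edges in each of two windows at scale `2^j`. -/
def Rich (j : ℕ) (L : ℝ) (q : Pt) : Prop :=
  q ∈ X.P ∧ ∃ u u', u < u' ∧
    X.d / L ≤ (((X.win (X.gfi j L) j u).filter fun e => e.1 = q).card : ℝ) ∧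
    X.d / L ≤ (((X.win (X.gfi j L) j u').filter fun e => e.1 = q).card : ℝ)

/-- Number of fine edges whose left end fails to lie in the set attached to its window. -/
noncomputable def miss (j : ℕ) (Z : ℕ → Finset Pt) : ℕ :=
  (X.F.filter fun e => e.1 ∉ Z (X.wi j (sl e))).card

/-- The sliding piece of at most `m0` chain edges starting with `e0`, inside its window. -/
noncomputable def piece (j m0 : ℕ) (e0 : Ed) : Finset Ed :=
  (X.T.chain X.k (X.T.ch X.k e0)).filter fun e =>
    sl e0 ≤ sl e ∧ X.wi j (sl e) = X.wi j (sl e0) ∧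
      ((X.T.chain X.k (X.T.ch X.k e0)).filter fun e' => sl e0 ≤ sl e' ∧ sl e' < sl e).card < m0

/-- Edges of `G` in a later window that cross the piece and end above the line of slope
`al j (u+1)` through the start of the piece. -/
noncomputable def ovr (j m0 : ℕ) (G : Finset Ed) (e0 : Ed) : Finset Ed := G.filter fun f =>
  (∃ e ∈ X.piece j m0 e0, XC e f) ∧ X.wi j (sl e0) < X.wi j (sl f) ∧
    fv (X.al j (X.wi j (sl e0) + 1)) e0.1 < fv (X.al j (X.wi j (sl e0) + 1)) f.2

/-- Links of the fine edge `f`: points before both ends of `f` in a later window. -/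
noncomputable def links (j : ℕ) (Z A : ℕ → Finset Pt) (r : ℝ) (f : Ed) : Finset Pt :=
  X.P.filter fun q => ∃ u, sl f < X.al j u ∧ f.1 ∈ A u ∧ q ∈ Z u ∧ X.Lt j u q f.1 ∧
    X.Lt j u q f.2 ∧ (hit X.P X.k (q, f.1) : ℝ) ≤ r

end Cfg

end Vale.Agent.P065.U
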