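import Vale.Agent.P065.U.TokEx

/-!
P065/U task TokApi: consequences of the token axioms. `switch` is the induction principle (induct on
the number of chain edges with slope in [θ, θ'); use the edge of least slope, `pos_const`, `pos_at`,
`pos_after`, `sl_inj`); the rest follows from it.
-/

namespace Vale.Agent.P065.U

open Finset Classical

namespace Tok
variable {P : Finset Pt} (T : Tok P)

theorem mem_chain {a : ℕ} {c : Pt} {e : Ed} :
    e ∈ T.chain a c ↔ e ∈ edges P a ∧ T.ch a e = c := mem_filter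

theorem lab_card (a : ℕ) : (T.lab a).card ≤ P.card := card_le_card (T.lab_sub a)

theorem x_lt_TA {a : ℕ} {e : Ed} (he : e ∈ edges P a) : e.1.1 < e.2.1 :=
  (mem_prs.1 (edges_sub P a he)).2.2

theorem gap_TA (E : Finset Ed) {x θ : ℝ} (h : x < θ) :
    ∃ θ', x < θ' ∧ θ' ≤ θ ∧ ∀ e ∈ E, ¬ (x < sl e ∧ sl e < θ') := by
  rcases (E.filter fun e => x < sl e ∧ sl e < θ).eq_empty_or_nonempty with h0 | h0
  · exact ⟨θ, h, le_rfl, fun e he h1 => filter_eq_empty_iff.1 h0 he h1⟩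
  · obtain ⟨g, hg, hmin⟩ := exists_min_image _ sl h0
    have h1 := (mem_filter.1 hg).2
    exact ⟨sl g, h1.1, h1.2.le, fun e he h2 =>
      absurd (hmin e (mem_filter.2 ⟨he, h2.1, h2.2.trans h1.2⟩)) (not_le.2 h2.2)⟩

theorem interp_TA {α β τ : ℝ} {p q : Pt} (h1 : α < τ) (h2 : τ ≤ β) (ha : fv α p ≤ fv α q)
    (hb : fv β p < fv β q) : fv τ p < fv τ q := by
  unfold fv at *
  rcases le_or_gt p.1 q.1 with h | h
  · nlinarith [mul_nonneg (sub_nonneg.2 h2) (sub_nonneg.2 h)]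
  · nlinarith [mul_pos (sub_pos.2 h1) (sub_pos.2 h)]

theorem interp_le_TA {α β τ : ℝ} {p q : Pt} (h1 : α ≤ τ) (h2 : τ ≤ β) (ha : fv α p ≤ fv α q)
    (hb : fv β p ≤ fv β q) : fv τ p ≤ fv τ q := by
  unfold fv at *
  rcases le_total p.1 q.1 with h | h
  · nlinarith [mul_nonneg (sub_nonneg.2 h2) (sub_nonneg.2 h)]
  · nlinarith [mul_nonneg (sub_nonneg.2 h1) (sub_nonneg.2 h)]

theorem wx_x_TA {e f : Ed} (he : e.1.1 < e.2.1) (hf : f.1.1 < f.2.1) (w : WX e f) :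
    f.1.1 < e.2.1 ∧ e.1.1 ≤ f.2.1 := by
  obtain ⟨w1, w2, w3, w4, w5⟩ := w
  have h1 := fv_sl he
  have h2 := fv_sl hf
  rw [h1] at w2
  rw [h2] at w4
  unfold fv at w2 w3 w4 w5
  constructor
  · by_contra h
    nlinarith [mul_nonneg (sub_pos.2 w1).le (sub_nonneg.2 (not_lt.1 h))]
  · by_contra h
    nlinarith [mul_pos (sub_pos.2 w1) (sub_pos.2 (not_le.1 h))]

theorem alt_TA (A B : Finset Ed) (hi : ∀ e ∈ A, ∀ e' ∈ A, sl e = sl e' → e = e')
    (h : ∀ e ∈ A, ∀ e' ∈ A, sl e < sl e' → ∃ g ∈ B, sl e < sl g ∧ sl g ≤ sl e') :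
    A.card ≤ B.card + 1 := by
  have key : ∀ e ∈ A, ∀ e' ∈ A, sl e < sl e' →
      (B.filter fun g => sl g ≤ sl e).card < (B.filter fun g => sl g ≤ sl e').card := by
    intro e he e' he' hl
    obtain ⟨g, hg, h1, h2⟩ := h e he e' he' hl
    refine card_lt_card ⟨fun z hz => mem_filter.2 ⟨(mem_filter.1 hz).1,
      (mem_filter.1 hz).2.trans hl.le⟩, fun hs => ?_⟩
    exact absurd (mem_filter.1 (hs (mem_filter.2 ⟨hg, h2⟩))).2 (not_le.2 h1)
  rw [← card_range (B.card + 1)]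
  refine card_le_card_of_injOn (fun e => (B.filter fun g => sl g ≤ sl e).card)
    (fun e _ => mem_coe.2 (mem_range.2 (Nat.lt_succ_of_le (card_filter_le _ _)))) ?_
  intro e he e' he' hc
  rcases lt_trichotomy (sl e) (sl e') with h1 | h1 | h1
  · exact absurd hc (key e he e' he' h1).ne
  · exact hi e he e' he' h1
  · exact absurd hc (key e' he' e he h1).ne'

theorem lab_of_chain_TA {a : ℕ} {c : Pt} {e : Ed} (he : e ∈ T.chain a c) : c ∈ T.lab a := by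
  obtain ⟨h1, h2⟩ := T.mem_chain.1 he
  rw [← h2]
  exact T.ch_mem a e h1

/-- Just after the slope of an edge its token is at the right end. -/
theorem pos_succ (hP : Gen P) {a : ℕ} {e : Ed} (he : e ∈ edges P a) {θ : ℝ} (h : sl e < θ) :
    ∃ θ', sl e < θ' ∧ θ' ≤ θ ∧ T.pos a (T.ch a e) θ' = e.2 := by
  have _ := hP
  obtain ⟨θ', h1, h2, h3⟩ := gap_TA (edges P a) h
  exact ⟨θ', h1, h2, T.pos_after a e he θ' h1 fun e' he' _ => h3 e' he'⟩

/-- Positions are left-continuous in the slope. -/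
theorem pos_left (hP : Gen P) {a : ℕ} {c : Pt} (hc : c ∈ T.lab a) (θ : ℝ) :
    ∃ θ0 < θ, ∀ θ', θ0 ≤ θ' → θ' ≤ θ → T.pos a c θ' = T.pos a c θ := by
  have _ := hP
  have key : ∃ θ0 < θ, ∀ e ∈ edges P a, ¬ (θ0 ≤ sl e ∧ sl e < θ) := by
    rcases ((edges P a).filter fun e => sl e < θ).eq_empty_or_nonempty with h0 | h0
    · exact ⟨θ - 1, by linarith, fun e he h1 => filter_eq_empty_iff.1 h0 he h1.2⟩
    · obtain ⟨g, hg, hmax⟩ := exists_max_image _ sl h0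
      have h1 := (mem_filter.1 hg).2
      refine ⟨(sl g + θ) / 2, by linarith, fun e he h2 => ?_⟩
      have h3 := hmax e (mem_filter.2 ⟨he, h2.2⟩)
      linarith [h2.1]
  obtain ⟨θ0, h0, h1⟩ := key
  exact ⟨θ0, h0, fun θ' h2 h3 =>
    T.pos_const a c hc θ' θ h3 fun e he _ h4 => h1 e he ⟨h2.trans h4.1, h4.2⟩⟩

theorem switch (hP : Gen P) {a : ℕ} {c : Pt} (hc : c ∈ T.lab a) {θ θ' : ℝ} (h : θ ≤ θ')
    (Q : Pt → Prop) (h1 : Q (T.pos a c θ)) (h2 : ¬ Q (T.pos a c θ')) :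
    ∃ e ∈ T.chain a c, θ ≤ sl e ∧ sl e < θ' ∧ Q e.1 ∧ ¬ Q e.2 := by
  induction hn : ((T.chain a c).filter fun e => θ ≤ sl e ∧ sl e < θ').card
    using Nat.strong_induction_on generalizing θ with
  | _ n ih =>
    rcases ((T.chain a c).filter fun e => θ ≤ sl e ∧ sl e < θ').eq_empty_or_nonempty with h0 | h0
    · rw [T.pos_const a c hc θ θ' h fun e he hce h3 =>
        filter_eq_empty_iff.1 h0 (T.mem_chain.2 ⟨he, hce⟩) h3] at h1
      exact absurd h1 h2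
    · obtain ⟨g, hg, hmin⟩ := exists_min_image _ sl h0
      obtain ⟨hgc, hg1, hg2⟩ := mem_filter.1 hg
      obtain ⟨hge, hch⟩ := T.mem_chain.1 hgc
      have h3 : T.pos a c θ = g.1 := by
        rw [T.pos_const a c hc θ (sl g) hg1 fun e he hce h3 =>
          absurd (hmin e (mem_filter.2 ⟨T.mem_chain.2 ⟨he, hce⟩, h3.1, h3.2.trans hg2⟩))
            (not_le.2 h3.2), ← hch]
        exact T.pos_at a g hge
      by_cases hq : Q g.2
      · obtain ⟨θ1, k1, k2, k3⟩ := T.pos_succ hP hge hg2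
        rw [hch] at k3
        obtain ⟨e, he, k4, k5⟩ := ih _ (by
          rw [← hn]
          refine card_lt_card ⟨fun z hz => ?_, fun hs => ?_⟩
          · obtain ⟨z1, z2, z3⟩ := mem_filter.1 hz
            exact mem_filter.2 ⟨z1, by linarith, z3⟩
          · exact absurd (mem_filter.1 (hs hg)).2.1 (not_le.2 k1)) k2 (k3 ▸ hq) rfl
        exact ⟨e, he, by linarith, k5⟩
      · exact ⟨g, hgc, hg1, hg2, h3 ▸ h1, hq⟩

/-- A function monotone along the chain edges with slope in `[θ, θ')` is monotone on positions. -/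
theorem pos_le (hP : Gen P) {a : ℕ} {c : Pt} (hc : c ∈ T.lab a) {θ θ' : ℝ} (h : θ ≤ θ')
    (φ : Pt → ℝ) (hφ : ∀ e ∈ T.chain a c, θ ≤ sl e → sl e < θ' → φ e.1 ≤ φ e.2) :
    φ (T.pos a c θ) ≤ φ (T.pos a c θ') := by
  by_contra hc'
  obtain ⟨e, he, h1, h2, h3, h4⟩ :=
    T.switch hP hc h (fun p => φ (T.pos a c θ) ≤ φ p) le_rfl hc'
  exact h4 (h3.trans (hφ e he h1 h2))

theorem pos_x_mono (hP : Gen P) {a : ℕ} {c : Pt} (hc : c ∈ T.lab a) {θ θ' : ℝ} (h : θ ≤ θ') :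
    (T.pos a c θ).1 ≤ (T.pos a c θ').1 := by
  exact T.pos_le hP hc h Prod.fst fun e he _ _ => (x_lt_TA (T.mem_chain.1 he).1).le

/-- The position at slope `θ` minimises `fv θ` along the chain. -/
theorem pos_min (hP : Gen P) {a : ℕ} {c : Pt} (hc : c ∈ T.lab a) (θ θ' : ℝ) :
    fv θ (T.pos a c θ) ≤ fv θ (T.pos a c θ') := by
  rcases le_total θ θ' with h | h
  · exact T.pos_le hP hc h (fv θ) fun e he h1 _ =>
      not_lt.1 fun h2 => not_lt.2 h1 ((fv_gt_iff (x_lt_TA (T.mem_chain.1 he).1) θ).1 h2)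
  · have h1 := T.pos_le hP hc h (fun p => - fv θ p) fun e he _ h2 =>
      neg_le_neg ((fv_gt_iff (x_lt_TA (T.mem_chain.1 he).1) θ).2 h2).le
    linarith

theorem pos_min_left (hP : Gen P) {a : ℕ} {e : Ed} (he : e ∈ edges P a) (θ : ℝ) :
    fv θ (T.pos a (T.ch a e) θ) ≤ fv θ e.1 := by
  rw [← T.pos_at a e he]
  exact T.pos_min hP (T.ch_mem a e he) θ _

theorem pos_min_right (hP : Gen P) {a : ℕ} {e : Ed} (he : e ∈ edges P a) (θ : ℝ) :
    fv θ (T.pos a (T.ch a e) θ) ≤ fv θ e.2 := by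
  obtain ⟨θ', _, _, h⟩ := T.pos_succ hP he (lt_add_one (sl e))
  rw [← h]
  exact T.pos_min hP (T.ch_mem a e he) θ _

/-- Order of two edges of one chain, for any function monotone along the edges between them. -/
theorem chain_le (hP : Gen P) {a : ℕ} {c : Pt} {e e' : Ed} (he : e ∈ T.chain a c)
    (he' : e' ∈ T.chain a c) (h : sl e < sl e') (φ : Pt → ℝ)
    (hφ : ∀ f ∈ T.chain a c, sl e < sl f → sl f < sl e' → φ f.1 ≤ φ f.2) : φ e.2 ≤ φ e'.1 := by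
  obtain ⟨h1, h2⟩ := T.mem_chain.1 he
  obtain ⟨h3, h4⟩ := T.mem_chain.1 he'
  obtain ⟨θ', k1, k2, k3⟩ := T.pos_succ hP h1 h
  have k4 := T.pos_at a e' h3
  rw [h2] at k3
  rw [h4] at k4
  rw [← k3, ← k4]
  exact T.pos_le hP (T.lab_of_chain_TA he) k2 φ fun g hg g1 g2 => hφ g hg (by linarith) g2

/-- If a chain has an edge with slope in `[α, θ)` then its position at `θ` is the right end of a
chain edge with slope in `[α, θ)`. -/
theorem pos_end (hP : Gen P) {a : ℕ} {c : Pt} {e : Ed} (he : e ∈ T.chain a c) {θ : ℝ}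
    (h : sl e < θ) : ∃ f ∈ T.chain a c, sl e ≤ sl f ∧ sl f < θ ∧ T.pos a c θ = f.2 := by
  have _ := hP
  obtain ⟨g, hg, hmax⟩ := exists_max_image ((T.chain a c).filter fun e => sl e < θ) sl
    ⟨e, mem_filter.2 ⟨he, h⟩⟩
  obtain ⟨g1, g2⟩ := mem_filter.1 hg
  obtain ⟨g3, g4⟩ := T.mem_chain.1 g1
  refine ⟨g, g1, hmax e (mem_filter.2 ⟨he, h⟩), g2, ?_⟩
  rw [← g4]
  exact T.pos_after a g g3 θ g2 fun e' he' hc h1 =>
    absurd (hmax e' (mem_filter.2 ⟨T.mem_chain.2 ⟨he', hc.trans g4⟩, h1.2⟩)) (not_le.2 h1.1)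

/-- If a chain has an edge with slope at least `θ` then its position at `θ` is the left end of the
first such edge. -/
theorem pos_start (hP : Gen P) {a : ℕ} {c : Pt} {e : Ed} (he : e ∈ T.chain a c) {θ : ℝ}
    (h : θ ≤ sl e) : ∃ f ∈ T.chain a c, θ ≤ sl f ∧ sl f ≤ sl e ∧ T.pos a c θ = f.1 := by
  have _ := hP
  obtain ⟨g, hg, hmin⟩ := exists_min_image ((T.chain a c).filter fun e => θ ≤ sl e) sl
    ⟨e, mem_filter.2 ⟨he, h⟩⟩
  obtain ⟨g1, g2⟩ := mem_filter.1 hg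
  obtain ⟨g3, g4⟩ := T.mem_chain.1 g1
  refine ⟨g, g1, g2, hmin e (mem_filter.2 ⟨he, h⟩), ?_⟩
  rw [T.pos_const a c (T.lab_of_chain_TA he) θ (sl g) g2 fun e' he' hc h1 =>
    absurd (hmin e' (mem_filter.2 ⟨T.mem_chain.2 ⟨he', hc⟩, h1.1⟩)) (not_le.2 h1.2), ← g4]
  exact T.pos_at a g g3

/-- The chains with an edge of slope in `[α, β]` inject into the endpoints of such edges. -/
theorem chains_le (hP : Gen P) (a : ℕ) (α β : ℝ) :
    ((slIn (edges P a) α β).image (T.ch a)).card ≤ (ends (slIn (edges P a) α β)).card := by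
  refine card_le_card_of_injOn (fun c => T.pos a c α) (fun c hc => ?_) ?_
  · obtain ⟨e, he, rfl⟩ := mem_image.1 (mem_coe.1 hc)
    obtain ⟨h1, h2, h3⟩ := mem_filter.1 he
    obtain ⟨g, g1, g2, g3, g4⟩ := T.pos_start hP (T.mem_chain.2 ⟨h1, rfl⟩) h2
    exact mem_coe.2 (mem_ends.2 ⟨g, mem_filter.2 ⟨(T.mem_chain.1 g1).1, g2, g3.trans h3⟩,
      Or.inl g4.symm⟩)
  · intro c hc c' hc' h
    obtain ⟨e, he, rfl⟩ := mem_image.1 (mem_coe.1 hc)
    obtain ⟨e', he', rfl⟩ := mem_image.1 (mem_coe.1 hc')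
    exact T.pos_inj a _ (T.ch_mem a e (mem_filter.1 he).1) _
      (T.ch_mem a e' (mem_filter.1 he').1) α h

theorem line_aux_TA (hP : Gen P) {a : ℕ} {c : Pt} {f f' : Ed} (hf : f ∈ T.chain a c)
    (hf' : f' ∈ T.chain a c) (σ h : ℝ) (h1 : fv σ f.1 < h) (h2 : h ≤ fv σ f.2)
    (h1' : fv σ f'.1 < h) : ¬ sl f < sl f' := by
  intro hl
  have h3 := (fv_lt_iff (x_lt_TA (T.mem_chain.1 hf).1) σ).1 (lt_of_lt_of_le h1 h2)
  have h4 := T.chain_le hP hf hf' hl (fv σ) fun g hg g1 _ =>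
    ((fv_lt_iff (x_lt_TA (T.mem_chain.1 hg).1) σ).2 (h3.trans g1)).le
  linarith

/-- A chain crosses a line upwards at most once. -/
theorem line_once (hP : Gen P) {a : ℕ} {c : Pt} {f f' : Ed} (hf : f ∈ T.chain a c)
    (hf' : f' ∈ T.chain a c) (σ h : ℝ) (h1 : fv σ f.1 < h) (h2 : h ≤ fv σ f.2)
    (h1' : fv σ f'.1 < h) (h2' : h ≤ fv σ f'.2) : f = f' := by
  exact sl_inj hP (T.mem_chain.1 hf).1 (T.mem_chain.1 hf').1 (le_antisymm
    (not_lt.1 (T.line_aux_TA hP hf' hf σ h h1' h2' h1))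
    (not_lt.1 (T.line_aux_TA hP hf hf' σ h h1 h2 h1')))

theorem chain_x_TA (hP : Gen P) {a : ℕ} {c : Pt} {e e' : Ed} (he : e ∈ T.chain a c)
    (he' : e' ∈ T.chain a c) (h : sl e < sl e') : e.2.1 ≤ e'.1.1 :=
  T.chain_le hP he he' h Prod.fst fun _ hg _ _ => (x_lt_TA (T.mem_chain.1 hg).1).le

theorem sep_aux_TA (hP : Gen P) {a a' : ℕ} {c c' : Pt} {e1 e2 f1 f2 : Ed} {τ : ℝ}
    (he1 : e1 ∈ T.chain a c) (he2 : e2 ∈ T.chain a c) (hf1 : f1 ∈ T.chain a' c')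
    (hf2 : f2 ∈ T.chain a' c') (s1 : sl e1 < τ) (s2 : sl e2 < τ) (t1 : τ ≤ sl f1) (t2 : τ ≤ sl f2)
    (w1 : WX e1 f1) (w2 : WX e2 f2) : ¬ sl e1 < sl e2 := by
  intro hl
  have xe1 := x_lt_TA (T.mem_chain.1 he1).1
  have xe2 := x_lt_TA (T.mem_chain.1 he2).1
  have xf1 := x_lt_TA (T.mem_chain.1 hf1).1
  have xf2 := x_lt_TA (T.mem_chain.1 hf2).1
  have hdec : ∀ σ, τ ≤ σ → fv σ e2.1 ≤ fv σ e1.2 := by
    intro σ hσ
    have h := T.chain_le hP he1 he2 hl (fun p => - fv σ p) fun g hg _ g2 =>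
      neg_le_neg ((fv_gt_iff (x_lt_TA (T.mem_chain.1 hg).1) σ).2 (by linarith)).le
    linarith
  rcases lt_trichotomy (sl f1) (sl f2) with h | h | h
  · have k1 : fv τ e1.2 < fv τ f1.2 :=
      interp_TA s1 t1 (fv_sl xe1 ▸ w1.2.2.1) (fv_sl xf1 ▸ w1.2.2.2.2)
    have k2 : fv τ f2.1 ≤ fv τ e2.1 := interp_le_TA s2.le t2 w2.2.1.le w2.2.2.2.1
    have k3 := T.chain_le hP hf1 hf2 h (fv τ) fun g hg g1 _ =>
      ((fv_lt_iff (x_lt_TA (T.mem_chain.1 hg).1) τ).2 (by linarith)).le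
    linarith [hdec τ le_rfl]
  · have h1 := sl_inj hP (T.mem_chain.1 hf1).1 (T.mem_chain.1 hf2).1 h
    subst h1
    linarith [hdec (sl f1) t1, w1.2.2.2.2, w2.2.2.2.1]
  · linarith [(wx_x_TA xe1 xf1 w1).1, (wx_x_TA xe2 xf2 w2).2, T.chain_x_TA hP he1 he2 hl,
      T.chain_x_TA hP hf2 hf1 h]

/-- Slope-separated arcs cross at most once. (On the common range the height difference is strictly
monotone; the half-open conventions in `WX` fix the edges through the meeting point.) -/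
theorem sep_unique (hP : Gen P) {a a' : ℕ} {c c' : Pt} {e1 e2 f1 f2 : Ed} {τ : ℝ}
    (he1 : e1 ∈ T.chain a c) (he2 : e2 ∈ T.chain a c) (hf1 : f1 ∈ T.chain a' c')
    (hf2 : f2 ∈ T.chain a' c') (s1 : sl e1 < τ) (s2 : sl e2 < τ) (t1 : τ ≤ sl f1) (t2 : τ ≤ sl f2)
    (w1 : WX e1 f1) (w2 : WX e2 f2) : e1 = e2 ∧ f1 = f2 := by
  have h : e1 = e2 := sl_inj hP (T.mem_chain.1 he1).1 (T.mem_chain.1 he2).1 (le_antisymm
    (not_lt.1 (T.sep_aux_TA hP he2 he1 hf2 hf1 s2 s1 t2 t1 w2 w1))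
    (not_lt.1 (T.sep_aux_TA hP he1 he2 hf1 hf2 s1 s2 t1 t2 w1 w2)))
  subst h
  exact ⟨rfl, T.line_once hP hf1 hf2 (sl e1) _ w1.2.1 w1.2.2.1 w2.2.1 w2.2.2.1⟩

theorem epi_out {a : ℕ} {e : Ed} (he : e ∈ edges P a) {z : Pt}
    (h : fv (sl e) z < fv (sl e) e.1) : ¬ T.Epi a (T.ch a e) z := by
  intro h1
  have h2 := h1 (sl e)
  rw [T.pos_at a e he] at h2
  linarith

theorem epi_in (hP : Gen P) {a : ℕ} {c : Pt} (hc : c ∈ T.lab a) {θ1 θ2 : ℝ} (h : θ1 ≤ θ2) {z : Pt}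
    (h1 : (T.pos a c θ1).1 ≤ z.1) (h2 : z.1 ≤ (T.pos a c θ2).1)
    (h3 : ∀ θ, θ1 ≤ θ → θ ≤ θ2 → fv θ (T.pos a c θ) ≤ fv θ z) : T.Epi a c z := by
  intro θ
  rcases le_total θ θ1 with k1 | k1
  · refine (T.pos_min hP hc θ θ1).trans ?_
    have k2 := h3 θ1 le_rfl h
    unfold fv at k2 ⊢
    nlinarith [mul_nonneg (sub_nonneg.2 k1) (sub_nonneg.2 h1)]
  · rcases le_total θ θ2 with k2 | k2
    · exact h3 θ k1 k2
    · refine (T.pos_min hP hc θ θ2).trans ?_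
      have k3 := h3 θ2 h le_rfl
      unfold fv at k3 ⊢
      nlinarith [mul_nonneg (sub_nonneg.2 k2) (sub_nonneg.2 h2)]

include T in
theorem one_TA (hP : Gen P) (a : ℕ) (p : Ed → Prop) [DecidablePred p]
    (h : ∀ e e' : Ed, e.2.1 ≤ e'.1.1 → e'.1.1 < e'.2.1 → p e → ¬ p e') :
    ((edges P a).filter p).card ≤ P.card := by
  refine card_le_card_of_injOn (T.ch a) (fun e he => ?_) ?_
  · exact mem_coe.2 (T.lab_sub a (T.ch_mem a e (mem_filter.1 (mem_coe.1 he)).1))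
  · intro e he e' he' hc
    obtain ⟨h1, h2⟩ := mem_filter.1 (mem_coe.1 he)
    obtain ⟨h3, h4⟩ := mem_filter.1 (mem_coe.1 he')
    have k1 : e ∈ T.chain a (T.ch a e') := T.mem_chain.2 ⟨h1, hc⟩
    have k2 : e' ∈ T.chain a (T.ch a e') := T.mem_chain.2 ⟨h3, rfl⟩
    rcases lt_trichotomy (sl e) (sl e') with k | k | k
    · exact absurd h4 (h e e' (T.chain_x_TA hP k1 k2 k) (x_lt_TA h3) h2)
    · exact sl_inj hP h1 h3 k
    · exact absurd h2 (h e' e (T.chain_x_TA hP k2 k1 k) (x_lt_TA h1) h4)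

/-- Each point lies in the closed `x`-range of at most two edges of a chain. -/
theorem xc_sum (hP : Gen P) (a : ℕ) : ∑ e ∈ edges P a, xc P e.1 e.2 ≤ 2 * P.card ^ 2 := by
  obtain ⟨T⟩ := exists_tok hP
  unfold xc
  simp only [card_filter]
  rw [sum_comm]
  simp only [← card_filter]
  refine (sum_le_card_nsmul _ _ (P.card + P.card) fun y _ => ?_).trans
    (le_of_eq (by rw [smul_eq_mul]; ring))
  have h1 := T.one_TA hP a (fun e => e.1.1 ≤ y.1 ∧ y.1 < e.2.1) fun e e' k1 _ k3 k4 => by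
    linarith [k3.2, k4.1]
  have h2 := T.one_TA hP a (fun e => y.1 = e.2.1) fun e e' k1 k2 k3 k4 => by
    linarith
  refine le_trans (card_le_card fun e he => ?_) ((card_union_le _ _).trans (add_le_add h1 h2))
  obtain ⟨k1, k2, k3⟩ := mem_filter.1 he
  have k4 := (x_lt_TA k1).le
  rw [min_eq_left k4] at k2
  rw [max_eq_right k4] at k3
  rcases k3.lt_or_eq with k5 | k5
  · exact mem_union_left _ (mem_filter.2 ⟨k1, k2, k5⟩)
  · exact mem_union_right _ (mem_filter.2 ⟨k1, k5⟩)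

/-- Lovasz alternation: between two arrivals at `q` there is a departure. -/
theorem alt (hP : Gen P) (a : ℕ) (α β : ℝ) (q : Pt) :
    ((slIn (edges P a) α β).filter fun e => e.2 = q).card ≤
      ((slIn (edges P a) α β).filter fun e => e.1 = q).card + 1 := by
  obtain ⟨T⟩ := exists_tok hP
  refine alt_TA _ _ (fun e he e' he' h => sl_inj hP (mem_filter.1 (mem_filter.1 he).1).1
    (mem_filter.1 (mem_filter.1 he').1).1 h) fun e he e' he' hl => ?_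
  obtain ⟨h1, h2⟩ := mem_filter.1 he
  obtain ⟨h3, h4⟩ := mem_filter.1 he'
  obtain ⟨h5, h6, _⟩ := mem_filter.1 h1
  obtain ⟨h7, _, h8⟩ := mem_filter.1 h3
  obtain ⟨θ1, k1, k2, k3⟩ := T.pos_succ hP h5 hl
  obtain ⟨θ2, m1, _, m3⟩ := gap_TA (edges P a) (lt_add_one (sl e'))
  have m4 := T.pos_after a e' h7 θ2 m1 fun g hg _ => m3 g hg
  have hc := T.ch_mem a e h5
  have hne : ¬ T.pos a (T.ch a e) θ2 = q := by
    intro h
    have n1 := T.pos_inj a _ hc _ (T.ch_mem a e' h7) θ2 (by rw [h, m4, h4])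
    have n2 := T.pos_x_mono hP hc k2
    rw [k3, n1, T.pos_at a e' h7, h2, ← h4] at n2
    exact absurd (x_lt_TA h7) (not_lt.2 n2)
  obtain ⟨g, hg, g1, g2, g3, _⟩ := T.switch hP hc (k2.trans m1.le) (fun p => p = q)
    (k3.trans h2) hne
  have g4 : sl g ≤ sl e' := not_lt.1 fun h => m3 g (T.mem_chain.1 hg).1 ⟨h, g2⟩
  exact ⟨g, mem_filter.2 ⟨mem_filter.2 ⟨(T.mem_chain.1 hg).1, by linarith, by linarith⟩, g3⟩,
    by linarith, g4⟩

end Tok

end Vale.Agent.P065.U
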