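import Vale.Agent.P065.U.TokEx
import Vale.Agent.P065.U.TokApi

/-!
P065/U task Win: existence of configurations and the window calculus.
`exists_cfg`: sort the distinct slopes s_1 < ... < s_E of the level-k edges; choose b 0 below and b E
above all pair slopes, b i ∈ (s_i, s_(i+1)) avoiding the finitely many pair slopes, b (E + i) = b E + i.
-/

namespace Vale.Agent.P065.U

open Finset Classical

theorem win_cut (A S : Finset ℝ) : ∀ M : ℝ, (∀ x ∈ S, x < M) → ∀ i ≤ S.card,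
    ∃ θ, θ ∉ A ∧ θ < M ∧ (S.filter fun x => x < θ).card = i := by
  induction S using Finset.induction_on_max with
  | empty =>
    intro M _ i hi
    obtain ⟨θ, h1, h2⟩ := (Set.Iio_infinite M).exists_notMem_finset A
    exact ⟨θ, h2, h1, by simpa using (Nat.le_zero.1 hi).symm⟩
  | insert a S ha ih =>
    intro M hM i hi
    have hn : a ∉ S := fun h => lt_irrefl _ (ha a h)
    have haM : a < M := hM a (mem_insert_self _ _)
    rw [card_insert_of_notMem hn] at hi
    rcases Nat.lt_or_ge S.card i with h | h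
    · obtain ⟨θ, h1, h2⟩ := (Set.Ioo_infinite haM).exists_notMem_finset A
      refine ⟨θ, h2, h1.2, ?_⟩
      rw [filter_true_of_mem, card_insert_of_notMem hn]
      · omega
      · intro x hx
        rcases mem_insert.1 hx with rfl | hx
        · exact h1.1
        · exact (ha x hx).trans h1.1
    · obtain ⟨θ, h1, h2, h3⟩ := ih a ha i h
      refine ⟨θ, h1, h2.trans haM, ?_⟩
      rw [filter_insert, if_neg (not_lt.2 h2.le), h3]

theorem win_gen {P : Finset Pt} (hP : Gen P) {θ : ℝ} (h : ∀ e ∈ prs P, sl e ≠ θ) : GenSl P θ := by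
  have key : ∀ p ∈ P, ∀ q ∈ P, p.1 < q.1 → fv θ p ≠ fv θ q := by
    intro p hp q hq hx he
    rcases lt_or_gt_of_ne (h (p, q) (mem_prs.2 ⟨hp, hq, hx⟩)) with h1 | h1
    · exact ((fv_gt_iff (e := (p, q)) hx θ).2 h1).ne' he
    · exact ((fv_lt_iff (e := (p, q)) hx θ).2 h1).ne he
  intro p hp q hq he
  rcases lt_trichotomy p.1 q.1 with hx | hx | hx
  · exact absurd he (key p hp q hq hx)
  · exact hP.xinj p hp q hq hx
  · exact absurd he.symm (key q hq p hp hx)

theorem win_ne {P : Finset Pt} {θ : ℝ} (h : GenSl P θ) {e : Ed} (he : e ∈ prs P) : sl e ≠ θ := by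
  rintro rfl
  obtain ⟨h1, h2, h3⟩ := mem_prs.1 he
  rw [h _ h1 _ h2 (fv_sl h3)] at h3
  exact lt_irrefl _ h3

theorem exists_cfg {P : Finset Pt} (hP : Gen P) (k : ℕ) (hE : (edges P k).Nonempty) :
    ∃ X : Cfg, X.P = P ∧ X.k = k := by
  obtain ⟨T⟩ := exists_tok hP
  obtain ⟨M, hM⟩ := ((prs P).image sl).exists_le
  obtain ⟨m, hm⟩ := ((prs P).image sl).bddBelow
  have hE0 : 0 < (edges P k).card := hE.card_pos
  have hinj : Set.InjOn sl (edges P k : Set Ed) := fun e he e' he' h => sl_inj hP he he' h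
  have key : ∀ i : ℕ, ∃ θ : ℝ, i ≤ (edges P k).card → (∀ e ∈ prs P, sl e ≠ θ) ∧
      ((edges P k).filter fun e => sl e < θ).card = i ∧ (i = 0 → ∀ e ∈ prs P, θ < sl e) ∧
      (i = (edges P k).card → ∀ e ∈ prs P, sl e < θ) := by
    intro i
    by_cases h0 : i = 0
    · have h1 : ∀ e ∈ prs P, m - 1 < sl e := fun e he => by
        have := hm (mem_coe.2 (mem_image_of_mem sl he))
        linarith
      refine ⟨m - 1, fun _ => ⟨fun e he => (h1 e he).ne', ?_, fun _ => h1, fun h => by omega⟩⟩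
      rw [h0, card_eq_zero, filter_eq_empty_iff]
      exact fun e he => not_lt.2 (h1 e (edges_sub P k he)).le
    by_cases h2 : i = (edges P k).card
    · have h1 : ∀ e ∈ prs P, sl e < M + 1 := fun e he => by
        have := hM _ (mem_image_of_mem sl he)
        linarith
      refine ⟨M + 1, fun _ => ⟨fun e he => (h1 e he).ne, ?_, fun h => absurd h h0, fun _ => h1⟩⟩
      rw [h2, filter_true_of_mem fun e he => h1 e (edges_sub P k he)]
    by_cases h3 : i ≤ (edges P k).card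
    · obtain ⟨θ, h4, -, h5⟩ := win_cut ((prs P).image sl) ((edges P k).image sl) (M + 1)
        (fun x hx => by
          have := hM x (image_subset_image (edges_sub P k) hx)
          linarith) i (by rwa [card_image_of_injOn hinj])
      refine ⟨θ, fun _ => ⟨fun e he h => h4 (h ▸ mem_image_of_mem sl he), ?_,
        fun h => absurd h h0, fun h => absurd h h2⟩⟩
      rw [← h5, filter_image, card_image_of_injOn (hinj.mono (coe_subset.2 (filter_subset _ _)))]
    · exact ⟨0, fun h => absurd h h3⟩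
  choose c hc using key
  have hlt : ∀ i, i + 1 ≤ (edges P k).card → c i < c (i + 1) := by
    intro i hi
    refine lt_of_not_ge fun h => ?_
    have h1 : ((edges P k).filter fun e => sl e < c (i + 1)).card ≤
        ((edges P k).filter fun e => sl e < c i).card :=
      card_le_card (monotone_filter_right _ fun e _ he => lt_of_lt_of_le he h)
    rw [(hc _ hi).2.1, (hc i (by omega)).2.1] at h1
    omega
  have hb : ∀ i ≤ (edges P k).card,
      c (min i (edges P k).card) + ((i - (edges P k).card : ℕ) : ℝ) = c i := by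
    intro i hi
    rw [min_eq_left hi, Nat.sub_eq_zero_of_le hi, Nat.cast_zero, add_zero]
  have hP0 : (0 : ℝ) < P.card := by
    obtain ⟨e, he⟩ := hE
    exact_mod_cast card_pos.2 ⟨_, (mem_prs.1 (edges_sub P k he)).1⟩
  refine ⟨⟨P, k, hP, T, fun i => c (min i (edges P k).card) + ((i - (edges P k).card : ℕ) : ℝ),
    strictMono_nat_of_lt_succ fun i => ?_, fun i => win_gen hP fun e he => ?_, fun i hi => ?_,
    fun e he => ?_, (P.card : ℝ) ^ (((3 : ℕ) : ℝ)⁻¹), Real.rpow_pos_of_pos hP0 _,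
    Real.rpow_inv_natCast_pow hP0.le (by norm_num)⟩, rfl, rfl⟩
  · rcases Nat.lt_or_ge i (edges P k).card with h | h
    · rw [hb i h.le, hb _ h]
      exact hlt i h
    · rw [min_eq_right h, min_eq_right (by omega), add_lt_add_iff_left, Nat.cast_lt]
      omega
  · rcases Nat.le_total i (edges P k).card with h | h
    · rw [hb i h]
      exact (hc i h).1 e he
    · rw [min_eq_right h]
      have h1 := (hc _ le_rfl).2.2.2 rfl e he
      have h2 : (0 : ℝ) ≤ ((i - (edges P k).card : ℕ) : ℝ) := Nat.cast_nonneg _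
      exact (lt_of_lt_of_le h1 (le_add_of_nonneg_right h2)).ne
  · simp only [hb i hi]
    exact (hc i hi).2.1
  · simp only [hb 0 (Nat.zero_le _), hb _ le_rfl]
    exact ⟨(hc 0 (Nat.zero_le _)).2.2.1 rfl e he, (hc _ le_rfl).2.2.2 rfl e he⟩

namespace Cfg
variable (X : Cfg)

theorem n_eq : X.n = X.d ^ 3 := X.d_cube.symm

theorem one_le_d : 1 ≤ X.d := by
  have h1 : (0 : ℝ) < X.P.card := X.d_cube ▸ pow_pos X.d_pos 3
  have h2 : (1 : ℝ) ≤ X.P.card := by exact_mod_cast Nat.cast_pos.1 h1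
  rw [← X.d_cube] at h2
  exact (one_le_pow_iff_of_nonneg X.d_pos.le (by norm_num)).1 h2

theorem Big.mono {X : Cfg} {K K' : ℝ} (h : X.Big K) (hK : K ≤ K') : X.Big K' := by
  obtain ⟨h1, h2, h3⟩ := h
  have hn : 0 ≤ X.n * X.d := mul_nonneg (Nat.cast_nonneg _) X.d_pos.le
  exact ⟨h1.trans hK, (div_le_div_of_nonneg_left hn (by linarith) hK).trans h2,
    h3.trans (Real.rpow_le_rpow_of_exponent_le one_le_two hK)⟩

/-- The number of scales up to `j` is at most `2 K`. -/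
theorem Big.scales {X : Cfg} {K : ℝ} (h : X.Big K) {j : ℕ} (hj : (2 : ℝ) ^ j ≤ X.d) :
    (j : ℝ) + 1 ≤ 2 * K := by
  obtain ⟨h1, -, h3⟩ := h
  have h4 : X.d ≤ X.n := by
    rw [X.n_eq]
    exact le_self_pow₀ X.one_le_d (by norm_num)
  have h5 : (2 : ℝ) ^ (j : ℝ) ≤ 2 ^ K := by
    rw [Real.rpow_natCast]
    exact hj.trans (h4.trans h3)
  have h6 := (Real.rpow_le_rpow_left_iff one_lt_two).1 h5
  linarith

theorem F_sub : X.F ⊆ prs X.P := edges_sub _ _

theorem co_sub (J : ℝ) : X.co J ⊆ prs X.P := edgesIn_sub _ _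

theorem sz_eq (j : ℕ) : X.sz j = (X.d / 2 ^ j) ^ 3 := by
  rw [sz, X.n_eq, div_pow, ← pow_mul, mul_comm j 3, pow_mul]
  norm_num

theorem al_mono (j : ℕ) : Monotone (X.al j) := by
  intro u v h
  exact X.b_mono.monotone (Nat.div_le_div_right (Nat.mul_le_mul_right _ h))

theorem al_gen (j u : ℕ) : GenSl X.P (X.al j u) := X.b_gen _

theorem win_pow {j j' : ℕ} (h : j' ≤ j) : 16 ^ j = 16 ^ j' * 16 ^ (j - j') := by
  rw [← pow_add, Nat.add_sub_cancel' h]

theorem al_anc {j j' : ℕ} (h : j' ≤ j) (u : ℕ) : X.al j' u = X.al j (u * 16 ^ (j - j')) := by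
  unfold al
  rw [win_pow h, mul_right_comm, Nat.mul_div_mul_right _ _ (by positivity)]

/-- A window lies inside its ancestor. -/
theorem al_anc_le {j j' : ℕ} (h : j' ≤ j) (u : ℕ) :
    X.al j' (u / 16 ^ (j - j')) ≤ X.al j u ∧ X.al j (u + 1) ≤ X.al j' (u / 16 ^ (j - j') + 1) := by
  rw [X.al_anc h, X.al_anc h]
  refine ⟨X.al_mono j (Nat.div_mul_le_self _ _), X.al_mono j ?_⟩
  rw [add_mul, one_mul]
  exact Nat.lt_div_mul_add (by positivity)

theorem wi_lt (j : ℕ) (θ : ℝ) : X.wi j θ < 16 ^ j := by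
  have h1 : X.wi j θ ≤ 16 ^ j - 1 := (card_filter_le _ _).trans (card_range _).le
  have h2 : 0 < 16 ^ j := by positivity
  omega

theorem wi_mono (j : ℕ) : Monotone (X.wi j) := by
  intro θ θ' h
  exact card_le_card (monotone_filter_right _ fun u _ hu => lt_of_lt_of_le hu h)

theorem wi_zero (θ : ℝ) : X.wi 0 θ = 0 := by
  have := X.wi_lt 0 θ
  omega

theorem win_le {j u : ℕ} (hu : u < 16 ^ j) (h0 : u ≠ 0) (θ : ℝ) :
    u ≤ X.wi j θ ↔ X.al j u < θ := by
  constructor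
  · intro h
    refine lt_of_not_ge fun h1 => ?_
    have h2 : X.wi j θ ≤ (range (u - 1)).card := by
      refine card_le_card fun v hv => mem_range.2 (lt_of_not_ge fun h3 => ?_)
      exact absurd ((X.al_mono j (by omega : u ≤ v + 1)).trans_lt (mem_filter.1 hv).2)
        (not_lt.2 h1)
    rw [card_range] at h2
    omega
  · intro h
    rw [← card_range u]
    refine card_le_card fun v hv => ?_
    have h1 := mem_range.1 hv
    exact mem_filter.2 ⟨mem_range.2 (by omega), (X.al_mono j (by omega : v + 1 ≤ u)).trans_lt h⟩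

theorem win_al_zero (j : ℕ) {e : Ed} (he : e ∈ prs X.P) : X.al j 0 < sl e := by
  unfold al
  rw [zero_mul, Nat.zero_div]
  exact (X.b_out e he).1

theorem wi_anc {j j' : ℕ} (h : j' ≤ j) (θ : ℝ) : X.wi j' θ = X.wi j θ / 16 ^ (j - j') := by
  refine eq_of_forall_le_iff fun u => ?_
  have hp : 0 < 16 ^ (j - j') := by positivity
  rw [Nat.le_div_iff_mul_le hp]
  by_cases h0 : u = 0
  · simp [h0]
  rcases Nat.lt_or_ge u (16 ^ j') with h1 | h1
  · rw [X.win_le h1 h0, X.win_le _ (Nat.mul_ne_zero h0 hp.ne'), X.al_anc h]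
    rw [win_pow h]
    exact Nat.mul_lt_mul_of_pos_right h1 hp
  · have h2 := X.wi_lt j' θ
    have h3 := X.wi_lt j θ
    have h4 : 16 ^ j ≤ u * 16 ^ (j - j') := by
      rw [win_pow h]
      exact Nat.mul_le_mul_right _ h1
    omega

theorem wi_eq {j u : ℕ} (hu : u < 16 ^ j) {θ : ℝ} (h1 : X.al j u < θ) (h2 : θ < X.al j (u + 1)) :
    X.wi j θ = u := by
  refine le_antisymm (le_of_not_gt fun h => ?_) ?_
  · exact lt_asymm h2 ((X.win_le (lt_of_le_of_lt h (X.wi_lt j θ)) (Nat.succ_ne_zero u) θ).1 h)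
  · by_cases h0 : u = 0
    · omega
    · exact (X.win_le hu h0 θ).2 h1

theorem wi_spec (j : ℕ) {e : Ed} (he : e ∈ prs X.P) :
    X.al j (X.wi j (sl e)) < sl e ∧ sl e < X.al j (X.wi j (sl e) + 1) := by
  have hw := X.wi_lt j (sl e)
  constructor
  · by_cases h0 : X.wi j (sl e) = 0
    · rw [h0]
      exact X.win_al_zero j he
    · exact (X.win_le hw h0 _).1 le_rfl
  · rcases Nat.lt_or_ge (X.wi j (sl e) + 1) (16 ^ j) with h | h
    · refine lt_of_le_of_ne (le_of_not_gt fun h1 => ?_) (win_ne (X.al_gen _ _) he)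
      have := (X.win_le h (Nat.succ_ne_zero _) _).2 h1
      omega
    · rw [le_antisymm hw h]
      unfold al
      rw [Nat.mul_div_cancel_left _ (by positivity)]
      exact (X.b_out e he).2

theorem wi_lt_iff (j : ℕ) {e : Ed} (he : e ∈ prs X.P) {u : ℕ} (hu : u < 16 ^ j) :
    X.wi j (sl e) < u ↔ sl e < X.al j u := by
  by_cases h0 : u = 0
  · rw [h0]
    exact iff_of_false (Nat.not_lt_zero _) (not_lt.2 (X.win_al_zero j he).le)
  · rw [← not_le, X.win_le hu h0, not_lt]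
    exact ⟨fun h => lt_of_le_of_ne h (win_ne (X.al_gen _ _) he), le_of_lt⟩

theorem win_eq {G : Finset Ed} (hG : G ⊆ prs X.P) {j u : ℕ} (hu : u < 16 ^ j) :
    X.win G j u = slIn G (X.al j u) (X.al j (u + 1)) := by
  refine filter_congr fun e he => ⟨?_, fun h => ?_⟩
  · rintro rfl
    exact ⟨(X.wi_spec j (hG he)).1.le, (X.wi_spec j (hG he)).2.le⟩
  · exact X.wi_eq hu (lt_of_le_of_ne h.1 (win_ne (X.al_gen _ _) (hG he)).symm)
      (lt_of_le_of_ne h.2 (win_ne (X.al_gen _ _) (hG he)))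

theorem win_empty (G : Finset Ed) {j u : ℕ} (hu : 16 ^ j ≤ u) : X.win G j u = ∅ :=
  filter_eq_empty_iff.2 fun e _ => (lt_of_lt_of_le (X.wi_lt j (sl e)) hu).ne

theorem win_card (j u : ℕ) : ((X.win X.F j u).card : ℝ) ≤ X.F.card / 16 ^ j + 1 := by
  rcases Nat.lt_or_ge u (16 ^ j) with hu | hu
  · have hp : 0 < 16 ^ j := by positivity
    have h2 : (u + 1) * X.F.card / 16 ^ j ≤ (edges X.P X.k).card :=
      Nat.div_le_of_le_mul (Nat.mul_le_mul_right _ hu)
    have h1 : u * X.F.card / 16 ^ j ≤ (edges X.P X.k).card :=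
      (Nat.div_le_div_right (Nat.mul_le_mul_right _ (Nat.le_succ u))).trans h2
    have h3 : (X.win X.F j u).card + u * X.F.card / 16 ^ j ≤ (u + 1) * X.F.card / 16 ^ j := by
      rw [← X.b_cnt _ h2]
      nth_rewrite 1 [← X.b_cnt _ h1]
      rw [← card_union_of_disjoint]
      · refine card_le_card fun e he => ?_
        rcases mem_union.1 he with he | he
        · obtain ⟨h4, rfl⟩ := mem_filter.1 he
          exact mem_filter.2 ⟨h4, (X.wi_spec j (X.F_sub h4)).2⟩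
        · obtain ⟨h4, h5⟩ := mem_filter.1 he
          exact mem_filter.2 ⟨h4, lt_of_lt_of_le h5 (X.al_mono j (Nat.le_succ u))⟩
      · refine disjoint_left.2 fun e he he' => ?_
        obtain ⟨h4, rfl⟩ := mem_filter.1 he
        exact lt_asymm (X.wi_spec j (X.F_sub h4)).1 (mem_filter.1 he').2
    have h4 := Nat.lt_div_mul_add (a := u * X.F.card) hp
    have h5 := Nat.div_mul_le_self ((u + 1) * X.F.card) (16 ^ j)
    have h6 := Nat.mul_le_mul_right (16 ^ j) h3
    have h7 : (X.win X.F j u).card * 16 ^ j ≤ X.F.card + 16 ^ j := by nlinarith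
    have h8 : ((X.win X.F j u).card : ℝ) * 16 ^ j ≤ X.F.card + 16 ^ j := by exact_mod_cast h7
    rw [div_add_one (by positivity), le_div_iff₀ (by positivity)]
    exact h8
  · rw [X.win_empty _ hu, card_empty, Nat.cast_zero]
    positivity

theorem sum_win (G : Finset Ed) (j : ℕ) : ∑ u ∈ range (16 ^ j), (X.win G j u).card = G.card := by
  exact (card_eq_sum_card_fiberwise fun e _ => mem_coe.2 (mem_range.2 (X.wi_lt j (sl e)))).symm

theorem lv_card {J : ℝ} (hJ : 0 ≤ J) : ((X.lv J).card : ℝ) ≤ 2 * J + 1 := by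
  have key : ∀ a b : ℕ, (a : ℝ) - b ≤ J → a ≤ b + ⌊J⌋₊ := by
    intro a b h
    rcases Nat.le_total a b with h1 | h1
    · omega
    · have h2 : a - b ≤ ⌊J⌋₊ := Nat.le_floor (by rw [Nat.cast_sub h1]; exact h)
      omega
  have h1 : X.lv J ⊆ Icc (X.k - ⌊J⌋₊) (X.k + ⌊J⌋₊) := by
    intro a ha
    obtain ⟨h2, h3⟩ := abs_le.1 (mem_filter.1 ha).2
    have h4 := key a X.k h3
    have h5 := key X.k a (by linarith)
    exact mem_Icc.2 ⟨by omega, h4⟩
  have h2 : (X.lv J).card ≤ 2 * ⌊J⌋₊ + 1 := by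
    have := card_le_card h1
    rw [Nat.card_Icc] at this
    omega
  have h3 : ((X.lv J).card : ℝ) ≤ 2 * ⌊J⌋₊ + 1 := by exact_mod_cast h2
  have h4 := Nat.floor_le hJ
  linarith

theorem win_Uw (j : ℕ) {J : ℝ} {e : Ed} (he : e ∈ prs X.P) (h : |(lev X.P e : ℝ) - X.k| ≤ J)
    {p : Pt} (hp : e.1 = p ∨ e.2 = p) : p ∈ X.Uw j (X.wi j (sl e)) J := by
  obtain ⟨h1, h2⟩ := X.wi_spec j he
  obtain ⟨h3, h4⟩ := abs_le.1 h
  have h5 : p ∈ X.P ∧ rk X.P (sl e) p = lev X.P e := by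
    rcases hp with rfl | rfl
    · exact ⟨(mem_prs.1 he).1, rfl⟩
    · exact ⟨(mem_prs.1 he).2.1, rk_right he⟩
  exact mem_filter.2 ⟨h5.1, ⟨_, h1.le, h2.le, by rw [h5.2]; linarith⟩,
    ⟨_, h1.le, h2.le, by rw [h5.2]; linarith⟩⟩

theorem ends_co_sub (j u : ℕ) (J J' : ℝ) (h : J ≤ J') :
    ends (X.win (X.co J) j u) ⊆ X.Uw j u J' := by
  intro p hp
  obtain ⟨e, he, h1⟩ := mem_ends.1 hp
  obtain ⟨h2, rfl⟩ := mem_filter.1 he
  exact X.win_Uw j (X.co_sub J h2) ((mem_filter.1 (mem_filter.1 h2).2).2.trans h) h1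

theorem act_sub (j u : ℕ) {J : ℝ} (hJ : 0 ≤ J) : X.act j u ⊆ X.Uw j u J := by
  intro p hp
  obtain ⟨e, he, h1⟩ := mem_ends.1 hp
  obtain ⟨h2, rfl⟩ := mem_filter.1 he
  refine X.win_Uw j (X.F_sub h2) ?_ h1
  rw [(mem_filter.1 h2).2, sub_self, abs_zero]
  exact hJ

theorem Uw_mono (j u : ℕ) {J J' : ℝ} (h : J ≤ J') : X.Uw j u J ⊆ X.Uw j u J' := by
  intro p hp
  obtain ⟨h1, ⟨θ, h2, h3, h4⟩, θ', h5, h6, h7⟩ := mem_filter.1 hp
  exact mem_filter.2 ⟨h1, ⟨θ, h2, h3, by linarith⟩, θ', h5, h6, by linarith⟩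

theorem ldeg_le (j u : ℕ) (q : Pt) : X.ldeg j u q ≤ X.rdeg j u q + 1 := by
  unfold ldeg rdeg
  rcases Nat.lt_or_ge u (16 ^ j) with hu | hu
  · rw [X.win_eq X.F_sub hu]
    first | exact Tok.alt X.gen _ _ _ q | exact Tok.alt X.T X.gen _ _ _ q
  · rw [X.win_empty _ hu]
    simp

theorem Lt.trans {X : Cfg} {j u : ℕ} {p q r : Pt} (h : X.Lt j u p q) (h' : X.Lt j u q r) :
    X.Lt j u p r := by
  exact ⟨h.1.trans h'.1, h'.2.trans h.2⟩

theorem Lt.spec {X : Cfg} {j u : ℕ} {q p : Pt} (h : X.Lt j u q p) :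
    q.1 < p.1 ∧ X.al j u < sl (q, p) ∧ sl (q, p) < X.al j (u + 1) := by
  have h1 : X.al j u ≤ X.al j (u + 1) := X.al_mono j (Nat.le_succ u)
  have h2 : q.1 < p.1 := by
    obtain ⟨h3, h4⟩ := h
    unfold fv at h3 h4
    refine lt_of_not_ge fun h5 => ?_
    nlinarith [mul_nonneg (sub_nonneg.2 h1) (sub_nonneg.2 h5)]
  exact ⟨h2, (fv_lt_iff (e := (q, p)) h2 _).1 h.1, (fv_gt_iff (e := (q, p)) h2 _).1 h.2⟩

theorem lt_of_edge (j : ℕ) {e : Ed} (he : e ∈ prs X.P) : X.Lt j (X.wi j (sl e)) e.1 e.2 := by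
  have h := (mem_prs.1 he).2.2
  exact ⟨(fv_lt_iff h _).2 (X.wi_spec j he).1, (fv_gt_iff h _).2 (X.wi_spec j he).2⟩

/-- A link with a staying end is a coarse edge of the window. -/
theorem link_mem {j u : ℕ} (hu : u < 16 ^ j) {J : ℝ} {q p : Pt} (hq : q ∈ X.P) (hp : p ∈ X.P)
    (h : X.Lt j u q p) (hs : X.Stay j u J q ∨ X.Stay j u J p) :
    (q, p) ∈ X.win (X.co J) j u := by
  obtain ⟨h1, h2, h3⟩ := h.spec
  have he : (q, p) ∈ prs X.P := mem_prs.2 ⟨hq, hp, h1⟩
  refine mem_filter.2 ⟨mem_filter.2 ⟨he, mem_filter.2 ⟨mem_range.2 (lev_lt he), ?_⟩⟩,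
    X.wi_eq hu h2 h3⟩
  rcases hs with hs | hs
  · exact hs _ h2.le h3.le
  · rw [← rk_right he]
    exact hs _ h2.le h3.le

theorem Tame.act {X : Cfg} {K : ℝ} (hK : 0 < K) {j u : ℕ} {p : Pt} (h : X.Tame K j u p) :
    p ∈ X.act j u := by
  have h1 : (0 : ℝ) < X.rdeg j u p := lt_of_lt_of_le (div_pos X.d_pos (by positivity)) h.low
  obtain ⟨e, he⟩ := card_pos.1 (Nat.cast_pos.1 h1)
  exact mem_ends.2 ⟨e, (mem_filter.1 he).1, Or.inl (mem_filter.1 he).2⟩

theorem win_anc (G : Finset Ed) {j j' : ℕ} (h : j' ≤ j) (u : ℕ) :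
    X.win G j u ⊆ X.win G j' (u / 16 ^ (j - j')) := by
  intro e he
  obtain ⟨h1, rfl⟩ := mem_filter.1 he
  exact mem_filter.2 ⟨h1, X.wi_anc h _⟩

/-- A point is tame in at most `K^2 2^j / 2^j'` windows below a given ancestor. -/
theorem tame_count {K : ℝ} (hK : 0 < K) {j j' : ℕ} (h : j' ≤ j) (w : ℕ) (p : Pt) :
    (((range (16 ^ j)).filter fun u => X.Tame K j u p ∧ u / 16 ^ (j - j') = w).card : ℝ) ≤
      K ^ 2 * 2 ^ j / 2 ^ j' := by
  set A := (range (16 ^ j)).filter fun u => X.Tame K j u p ∧ u / 16 ^ (j - j') = w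
  rcases A.eq_empty_or_nonempty with h0 | ⟨u0, h0⟩
  · rw [h0, card_empty, Nat.cast_zero]
    positivity
  have h1 := ((mem_filter.1 h0).2.1.reg j' h).rdeg_le
  rw [(mem_filter.1 h0).2.2] at h1
  have h2 : ∑ u ∈ A, X.rdeg j u p ≤ X.rdeg j' w p := by
    refine le_trans (sum_le_sum fun u hu => ?_) ((sum_card_fiberwise_eq_card_filter
      ((X.win X.F j' w).filter fun e => e.1 = p) A fun e => X.wi j (sl e)).le.trans
      (card_filter_le _ _))
    refine card_le_card fun e he => ?_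
    obtain ⟨h3, h4⟩ := mem_filter.1 he
    refine mem_filter.2 ⟨mem_filter.2 ⟨?_, h4⟩, (mem_filter.1 h3).2⟩
    rw [← (mem_filter.1 hu).2.2]
    exact X.win_anc _ h u h3
  have h3 : (A.card : ℝ) * (X.d / (K * 2 ^ j)) ≤ ∑ u ∈ A, (X.rdeg j u p : ℝ) := by
    rw [← nsmul_eq_mul]
    exact card_nsmul_le_sum _ _ _ fun u hu => (mem_filter.1 hu).2.1.low
  have h4 : ∑ u ∈ A, (X.rdeg j u p : ℝ) ≤ X.rdeg j' w p := by exact_mod_cast h2
  have hd := X.d_pos
  refine le_of_mul_le_mul_right ((h3.trans (h4.trans h1)).trans (le_of_eq ?_)) (by positivity)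
  field_simp

/-- The tame windows of a point have at most `K 2^j'` ancestors at scale `j'`. -/
theorem tame_anc {K : ℝ} (hK : 0 < K) {j j' : ℕ} (h : j' ≤ j) (p : Pt) :
    ((((range (16 ^ j)).filter fun u => X.Tame K j u p).image fun u => u / 16 ^ (j - j')).card : ℝ)
      ≤ K * 2 ^ j' := by
  set A := (range (16 ^ j)).filter fun u => X.Tame K j u p
  rcases A.eq_empty_or_nonempty with h0 | ⟨u0, h0⟩
  · rw [h0, image_empty, card_empty, Nat.cast_zero]
    positivity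
  refine le_trans (Nat.cast_le.2 (card_le_card fun w hw => ?_))
    ((mem_filter.1 h0).2.reg j' h).nact_le
  obtain ⟨u, hu, rfl⟩ := mem_image.1 hw
  obtain ⟨h1, h2⟩ := mem_filter.1 hu
  refine mem_filter.2 ⟨mem_range.2 ?_, ?_⟩
  · rw [Nat.div_lt_iff_lt_mul (by positivity), ← win_pow h]
    exact mem_range.1 h1
  · obtain ⟨e, he, h3⟩ := mem_ends.1 (h2.act hK)
    exact mem_ends.2 ⟨e, X.win_anc _ h u he, h3⟩

/-- A point that is tame somewhere has total right degree at most `K d`. -/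
theorem Tame.deg {X : Cfg} {K : ℝ} {j u : ℕ} {p : Pt} (h : X.Tame K j u p) :
    ((X.F.filter fun e => e.1 = p).card : ℝ) ≤ K * X.d := by
  have h1 := (h.reg 0 (Nat.zero_le _)).rdeg_le
  rw [Nat.sub_zero, Nat.div_eq_of_lt h.lt, pow_zero, div_one] at h1
  unfold rdeg win at h1
  rwa [filter_true_of_mem fun e _ => X.wi_zero (sl e)] at h1

theorem Tame.act_card {X : Cfg} {K : ℝ} (hK : 0 ≤ K) {j u : ℕ} {p : Pt} (h : X.Tame K j u p)
    {j' : ℕ} (hj : j' ≤ j) : ((X.act j' (u / 16 ^ (j - j'))).card : ℝ) ≤ K ^ 2 * X.sz j' := by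
  have h1 : 0 ≤ K * X.sz j' := mul_nonneg hK (div_nonneg (Nat.cast_nonneg _) (by positivity))
  exact (Nat.cast_le.2 (card_le_card (X.act_sub _ _ h1))).trans (h.reg j' hj).nice

end Cfg

end Vale.Agent.P065.U
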