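import Vale.Agent.P065.U.Crossing
import Vale.Agent.P065.U.Budget
import Vale.Agent.P065.U.Win

/-!
P065/U task Dey: Dey's bound for several levels and the excursion counts.

`dey`: `crossing` with Y1 = Y2 = P and `budget_all`: either |G| < 16 n or
|G|³ ≤ 512 n² |I|² n² ≤ (8 L² n d)³.
`co_card`: |lv J| ≤ 2J+1 ≤ 8J ≤ L³ with L = 2 g d/2^j.
`Uw_card`: at α = al j u at most 4J+3 points have rank within 2J+1 of k (`band_gen`). Any other point
of Uw has, by `exc`, an edge of each of ≥ J levels within 2J+1 of k with slope in the closed window.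
`Uw_sum`: sum over u, `co_card` for 2J+1 ≤ 3J ≤ (2Γ)³ sz j.
`nonstay_sum`: an active point has rank k at some slope of the window; if it does not stay within
J = g³ sz j it has edges of ≥ J/2 distinct levels within J of k.
-/

namespace Vale.Agent.P065.U

open Finset Classical

namespace Cfg
variable (X : Cfg)

theorem dey (I : Finset ℕ) (L : ℝ) (hL : 1 ≤ L) (hI : (I.card : ℝ) ≤ L ^ 3) :
    ((edgesIn X.P I).card : ℝ) ≤ 24 * L ^ 2 * X.n * X.d := by
  have hd := X.one_le_d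
  have hn : (0 : ℝ) ≤ X.n := Nat.cast_nonneg _
  have hL2 : 1 ≤ L ^ 2 := one_le_pow₀ hL
  have h0 : 0 ≤ L ^ 2 * X.n * X.d := by positivity
  by_cases h : 16 * X.P.card ≤ (edgesIn X.P I).card
  · have hs := edgesIn_sub X.P I
    have h1 := crossing X.P X.gen _ hs X.P X.P (fun e he => (mem_prs.1 (hs he)).1)
      (fun e he => (mem_prs.1 (hs he)).2.1) h h
    have h2 := h1.trans (Nat.mul_le_mul_left _ ((cr_le_wcr _ _).trans (budget_all X.gen X.T I I)))
    have h3 : ((edgesIn X.P I).card : ℝ) ^ 3 ≤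
        512 * X.n * X.n * ((I.card : ℝ) * I.card * X.n ^ 2) := by
      unfold n
      exact_mod_cast h2
    have h4 : (I.card : ℝ) * I.card ≤ L ^ 3 * L ^ 3 :=
      mul_le_mul hI hI (Nat.cast_nonneg _) (by positivity)
    have h5 : ((edgesIn X.P I).card : ℝ) ^ 3 ≤ (8 * L ^ 2 * X.n * X.d) ^ 3 := by
      calc _ ≤ _ := h3
        _ ≤ 512 * X.n * X.n * (L ^ 3 * L ^ 3 * X.n ^ 2) := by gcongr
        _ = 512 * L ^ 6 * X.n ^ 3 * X.n := by ring
        _ = 512 * L ^ 6 * X.n ^ 3 * X.d ^ 3 := by rw [← X.n_eq]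
        _ = _ := by ring
    have h6 := le_of_pow_le_pow_left₀ (by norm_num) (by positivity) h5
    nlinarith
  · have h1 : ((edgesIn X.P I).card : ℝ) ≤ 16 * X.n := by
      unfold n
      exact_mod_cast (not_le.1 h).le
    have h2 : X.n ≤ L ^ 2 * X.n * X.d := by
      calc X.n = 1 * X.n * 1 := by ring
        _ ≤ _ := by gcongr
    nlinarith

theorem F_card : (X.F.card : ℝ) ≤ 24 * X.n * X.d := by
  have h := X.dey {X.k} 1 le_rfl (by simp)
  rw [← edges_eq, one_pow, mul_one] at h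
  exact h

theorem co_card (j : ℕ) (J g : ℝ) (hJ : 1 ≤ J) (hg : 0 < g) (h : J ≤ g ^ 3 * X.sz j) :
    ((X.co J).card : ℝ) ≤ 96 * g ^ 2 * X.n ^ 2 / 4 ^ j := by
  have hd := X.d_pos
  have h1 : 8 * J ≤ (2 * g * X.d / 2 ^ j) ^ 3 := by
    rw [sz_eq] at h
    calc 8 * J ≤ 8 * (g ^ 3 * (X.d / 2 ^ j) ^ 3) := by gcongr
      _ = _ := by ring
  have h2 : 1 ≤ 2 * g * X.d / 2 ^ j :=
    le_of_pow_le_pow_left₀ (n := 3) (by norm_num) (by positivity) (by rw [one_pow]; linarith)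
  have h3 := X.dey (X.lv J) _ h2 ((X.lv_card (by linarith)).trans (by linarith))
  refine h3.trans (le_of_eq ?_)
  have h4 : (4 : ℝ) ^ j = (2 ^ j) ^ 2 := by
    rw [← pow_mul, mul_comm, pow_mul]
    norm_num
  rw [h4, pow_two X.n]
  nth_rewrite 3 [X.n_eq]
  field_simp
  ring

theorem dey_double (B : Finset Pt) (W : Finset Ed) (y : ℝ)
    (h : ∀ p ∈ B, y ≤ ((W.filter fun e => e.1 = p ∨ e.2 = p).card : ℝ)) :
    (B.card : ℝ) * y ≤ 2 * W.card := by
  have h1 : ∑ p ∈ B, (W.filter fun e => e.1 = p ∨ e.2 = p).card ≤ 2 * W.card := by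
    calc _ ≤ ∑ p ∈ B, ((W.filter fun e => e.1 = p).card + (W.filter fun e => e.2 = p).card) := by
          refine sum_le_sum fun p _ => ?_
          rw [filter_or]
          exact card_union_le _ _
      _ ≤ W.card + W.card := by
          rw [sum_add_distrib, sum_card_fiberwise_eq_card_filter, sum_card_fiberwise_eq_card_filter]
          exact add_le_add (card_filter_le _ _) (card_filter_le _ _)
      _ = _ := (two_mul _).symm
  calc (B.card : ℝ) * y = ∑ _p ∈ B, y := by rw [sum_const, nsmul_eq_mul]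
    _ ≤ ∑ p ∈ B, ((W.filter fun e => e.1 = p ∨ e.2 = p).card : ℝ) := sum_le_sum h
    _ ≤ _ := by exact_mod_cast h1

theorem dey_deg {j u : ℕ} (hu : u < 16 ^ j) {p : Pt} (hp : p ∈ X.P) {θ1 θ2 lo hi J : ℝ}
    (a1 : X.al j u ≤ θ1) (b1 : θ1 ≤ X.al j (u + 1)) (a2 : X.al j u ≤ θ2)
    (b2 : θ2 ≤ X.al j (u + 1)) (h1 : (rk X.P θ1 p : ℝ) ≤ lo) (h2 : hi ≤ rk X.P θ2 p)
    (h3 : X.k - J ≤ lo) (h4 : hi ≤ X.k + J) :
    (⌈hi⌉₊ : ℝ) - ⌈lo⌉₊ ≤ (((X.win (X.co J) j u).filter fun e => e.1 = p ∨ e.2 = p).card : ℝ) := by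
  have key : Ico ⌈lo⌉₊ ⌈hi⌉₊ ⊆
      ((X.win (X.co J) j u).filter fun e => e.1 = p ∨ e.2 = p).image (lev X.P) := by
    intro l hl
    obtain ⟨h5, h6⟩ := mem_Ico.1 hl
    rw [Nat.ceil_le] at h5
    rw [Nat.lt_ceil] at h6
    obtain ⟨e, he, hep, h7, h8⟩ := exc X.gen hp (θ1 := θ1) (θ2 := θ2) (l := l)
      (by exact_mod_cast h1.trans h5) (by exact_mod_cast h6.trans_le h2)
    obtain ⟨he1, he2⟩ := mem_filter.1 he
    refine mem_image.2 ⟨e, mem_filter.2 ⟨?_, hep⟩, he2⟩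
    rw [X.win_eq (X.co_sub J) hu]
    refine mem_filter.2 ⟨mem_filter.2 ⟨he1, mem_filter.2 ⟨mem_range.2 (lev_lt he1), ?_⟩⟩,
      (le_min a1 a2).trans h7, h8.trans (max_le b1 b2)⟩
    rw [he2, abs_le]
    constructor <;> linarith
  have h5 := (card_le_card key).trans card_image_le
  rw [Nat.card_Ico, tsub_le_iff_right] at h5
  rw [sub_le_iff_le_add]
  exact_mod_cast h5

theorem dey_sz {j : ℕ} (hj : (2 : ℝ) ^ j ≤ X.d) : 1 ≤ X.sz j := by
  rw [sz_eq]
  exact one_le_pow₀ ((one_le_div (by positivity)).2 hj)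

theorem dey_pow (j : ℕ) : (4 : ℝ) ^ j = (2 ^ j) ^ 2 ∧ (8 : ℝ) ^ j = (2 ^ j) ^ 3 ∧
    (16 : ℝ) ^ j = (2 ^ j) ^ 4 := by
  refine ⟨?_, ?_, ?_⟩ <;> rw [← pow_mul, mul_comm, pow_mul] <;> norm_num

theorem dey_n_pos : 0 < X.n := by
  rw [n_eq]
  exact pow_pos X.d_pos 3

theorem Uw_card (j u : ℕ) (hu : u < 16 ^ j) (J : ℝ) (hJ : 1 ≤ J) :
    ((X.Uw j u J).card : ℝ) ≤ 4 * J + 3 + 2 * (X.win (X.co (2 * J + 1)) j u).card / J := by
  have hJ0 : 0 < J := by linarith
  have hab : X.al j u ≤ X.al j (u + 1) := X.al_mono j (Nat.le_succ u)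
  have h1 := band_gen (X.al_gen j u) X.k (2 * J + 1) (by linarith)
  have h2 := dey_double ((X.Uw j u J).filter fun p =>
      ¬ |(rk X.P (X.al j u) p : ℝ) - X.k| ≤ 2 * J + 1) (X.win (X.co (2 * J + 1)) j u) J (by
    intro p hp
    obtain ⟨hp1, hp2⟩ := mem_filter.1 hp
    obtain ⟨hP, ⟨θ1, a1, b1, c1⟩, θ2, a2, b2, c2⟩ := mem_filter.1 hp1
    have hk : (0 : ℝ) ≤ X.k := Nat.cast_nonneg _
    rcases lt_abs.1 (not_le.1 hp2) with h3 | h3
    · refine le_trans ?_ (X.dey_deg hu hP (hi := X.k + (2 * J + 1)) a1 b1 le_rfl hab c1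
        (by linarith) (by linarith) le_rfl)
      have h4 := Nat.le_ceil ((X.k : ℝ) + (2 * J + 1))
      have h5 := Nat.ceil_lt_add_one (show (0 : ℝ) ≤ X.k + J by linarith)
      linarith
    · refine le_trans ?_ (X.dey_deg hu hP (lo := X.k - (2 * J + 1)) le_rfl hab a2 b2
        (by linarith) c2 le_rfl (by linarith))
      have h6 : (0 : ℝ) ≤ rk X.P (X.al j u) p := Nat.cast_nonneg _
      have h4 := Nat.le_ceil ((X.k : ℝ) - J)
      have h5 := Nat.ceil_lt_add_one (show (0 : ℝ) ≤ X.k - (2 * J + 1) by linarith)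
      linarith)
  have h3 : (((X.Uw j u J).filter fun p =>
      |(rk X.P (X.al j u) p : ℝ) - X.k| ≤ 2 * J + 1).card : ℝ) ≤
      ((X.P.filter fun p => |(rk X.P (X.al j u) p : ℝ) - X.k| ≤ 2 * J + 1).card : ℝ) :=
    Nat.cast_le.2 (card_le_card (filter_subset_filter _ (filter_subset _ _)))
  rw [← le_div_iff₀ hJ0] at h2
  rw [← card_filter_add_card_filter_not (s := X.Uw j u J)
    fun p => |(rk X.P (X.al j u) p : ℝ) - X.k| ≤ 2 * J + 1, Nat.cast_add]
  linarith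

theorem Uw_sum (j : ℕ) (hj : (2 : ℝ) ^ j ≤ X.d) (Γ : ℝ) (hΓ : 1 ≤ Γ) :
    ∑ u ∈ range (16 ^ j), ((X.Uw j u (Γ * X.sz j)).card : ℝ) ≤ 1000 * Γ * 2 ^ j * X.n := by
  have hs := X.dey_sz hj
  have hn := X.dey_n_pos
  have hJ : 1 ≤ Γ * X.sz j := one_le_mul_of_one_le_of_one_le hΓ hs
  have hΓ3 : Γ ≤ Γ ^ 3 := le_self_pow₀ hΓ (by norm_num)
  have h1 := X.co_card j (2 * (Γ * X.sz j) + 1) (2 * Γ) (by linarith) (by linarith) (by
    have := mul_le_mul_of_nonneg_right hΓ3 (zero_le_one.trans hs)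
    nlinarith)
  refine (sum_le_sum fun u hu => X.Uw_card j u (mem_range.1 hu) _ hJ).trans ?_
  rw [sum_add_distrib, sum_const, card_range, nsmul_eq_mul, ← sum_div, ← mul_sum, ← Nat.cast_sum,
    X.sum_win]
  obtain ⟨e4, e8, e16⟩ := dey_pow j
  have hΓ0 : 0 < Γ := by linarith
  have h2 : ((16 ^ j : ℕ) : ℝ) * (4 * (Γ * X.sz j) + 3) ≤ 7 * (Γ * 2 ^ j * X.n) := by
    calc _ ≤ ((16 ^ j : ℕ) : ℝ) * (7 * (Γ * X.sz j)) := by gcongr; linarith
      _ = _ := by
        rw [Nat.cast_pow, Nat.cast_ofNat, sz, e8, e16]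
        field_simp
  have h3 : 2 * ((X.co (2 * (Γ * X.sz j) + 1)).card : ℝ) / (Γ * X.sz j) ≤
      768 * (Γ * 2 ^ j * X.n) := by
    calc _ ≤ 2 * (96 * (2 * Γ) ^ 2 * X.n ^ 2 / 4 ^ j) / (Γ * X.sz j) := by gcongr
      _ = _ := by
        rw [sz, e8, e4]
        field_simp
        norm_num
  have h4 : 0 ≤ Γ * 2 ^ j * X.n := by positivity
  linarith

theorem act_sum (j : ℕ) (hj : (2 : ℝ) ^ j ≤ X.d) :
    ∑ u ∈ range (16 ^ j), ((X.act j u).card : ℝ) ≤ 1000 * 2 ^ j * X.n := by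
  have h := X.Uw_sum j hj 1 le_rfl
  rw [mul_one (1000 : ℝ)] at h
  refine le_trans (sum_le_sum fun u _ => Nat.cast_le.2 (card_le_card (X.act_sub j u ?_))) h
  have := X.dey_sz hj
  linarith

theorem nonstay_sum (j : ℕ) (hj : (2 : ℝ) ^ j ≤ X.d) (g Γ : ℝ) (hg : 1 ≤ g) (hΓ : g ^ 3 ≤ Γ) :
    ∑ u ∈ range (16 ^ j), (((X.act j u).filter fun p => ¬ X.Stay j u (Γ * X.sz j) p).card : ℝ) ≤
      384 * 2 ^ j * X.n / g := by
  have hs := X.dey_sz hj
  have hn := X.dey_n_pos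
  have hJ : 1 ≤ g ^ 3 * X.sz j := one_le_mul_of_one_le_of_one_le (one_le_pow₀ hg) hs
  have hJ' : g ^ 3 * X.sz j ≤ Γ * X.sz j := mul_le_mul_of_nonneg_right hΓ (zero_le_one.trans hs)
  have hg0 : 0 < g := by linarith
  have h1 := X.co_card j _ g hJ hg0 le_rfl
  set J := g ^ 3 * X.sz j with hJdef
  have h2 : ∀ u ∈ range (16 ^ j),
      (((X.act j u).filter fun p => ¬ X.Stay j u (Γ * X.sz j) p).card : ℝ) ≤
        4 / J * (X.win (X.co J) j u).card := by
    intro u hu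
    have hu' := mem_range.1 hu
    have h3 := dey_double ((X.act j u).filter fun p => ¬ X.Stay j u (Γ * X.sz j) p)
      (X.win (X.co J) j u) (J / 2) (by
      intro p hp
      obtain ⟨hp1, hp2⟩ := mem_filter.1 hp
      obtain ⟨e, he, hep⟩ := mem_ends.1 hp1
      rw [X.win_eq X.F_sub hu'] at he
      obtain ⟨he1, a1, b1⟩ := mem_filter.1 he
      obtain ⟨he2, he3⟩ := mem_filter.1 he1
      have hP : p ∈ X.P := by
        rcases hep with rfl | rfl
        · exact (mem_prs.1 he2).1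
        · exact (mem_prs.1 he2).2.1
      have hr : (rk X.P (sl e) p : ℝ) = X.k := by
        rcases hep with rfl | rfl
        · exact congrArg Nat.cast he3
        · rw [rk_right he2, he3]
      simp only [Stay, not_forall, not_le] at hp2
      obtain ⟨θ, a2, b2, h4⟩ := hp2
      rcases lt_abs.1 h4 with h5 | h5
      · refine le_trans ?_ (X.dey_deg hu' hP (hi := X.k + J) a1 b1 a2 b2 hr.le
          (by linarith) (by linarith) le_rfl)
        have h6 := Nat.le_ceil ((X.k : ℝ) + J)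
        rw [Nat.ceil_natCast]
        linarith
      · refine le_trans ?_ (X.dey_deg hu' hP (lo := X.k - J) a2 b2 a1 b1 (by linarith) hr.ge
          le_rfl (by linarith))
        have h6 : (0 : ℝ) ≤ rk X.P θ p := Nat.cast_nonneg _
        have h7 := Nat.ceil_lt_add_one (show (0 : ℝ) ≤ X.k - J by linarith)
        have h8 : ⌈(X.k : ℝ) - J⌉₊ + 1 ≤ X.k := by
          have h9 : (⌈(X.k : ℝ) - J⌉₊ : ℝ) < X.k := by linarith
          exact_mod_cast h9
        have h9 : (⌈(X.k : ℝ) - J⌉₊ : ℝ) + 1 ≤ X.k := by exact_mod_cast h8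
        rw [Nat.ceil_natCast]
        linarith)
    rw [div_mul_eq_mul_div, le_div_iff₀ (by linarith)]
    linarith
  refine (sum_le_sum h2).trans ?_
  rw [← mul_sum, ← Nat.cast_sum, X.sum_win]
  obtain ⟨e4, e8, -⟩ := dey_pow j
  calc _ ≤ 4 / J * (96 * g ^ 2 * X.n ^ 2 / 4 ^ j) := by gcongr
    _ = _ := by
      rw [hJdef, sz, e8, e4]
      field_simp
      norm_num

/-- Crossings inside one window. -/
theorem cr_win (j u : ℕ) : cr (X.win X.F j u) (X.win X.F j u) ≤ (X.act j u).card ^ 2 := by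
  rcases Nat.lt_or_ge u (16 ^ j) with hu | hu
  · have h := budget X.gen X.T {X.k} {X.k} (X.al j u) (X.al j (u + 1))
    rw [← edges_eq, card_singleton, one_mul, one_mul, ← pow_two] at h
    rw [act, X.win_eq X.F_sub hu]
    exact (cr_le_wcr _ _).trans h
  · rw [X.win_empty _ hu, cr, product_empty, filter_empty, card_empty]
    exact Nat.zero_le _

/-- Weak crossings of fine edges with steeper coarse edges inside one window. -/
theorem wcr_win (j u : ℕ) (J J' : ℝ) (hJ : 0 ≤ J) (h : J ≤ J') :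
    (wcr (X.win X.F j u) (X.win (X.co J) j u) : ℝ) ≤ (2 * J + 1) * (X.Uw j u J').card ^ 2 := by
  rcases Nat.lt_or_ge u (16 ^ j) with hu | hu
  · have h1 := budget X.gen X.T {X.k} (X.lv J) (X.al j u) (X.al j (u + 1))
    rw [← edges_eq, card_singleton, one_mul] at h1
    have h2 := card_le_card (X.act_sub j u (hJ.trans h))
    have h3 := card_le_card (X.ends_co_sub j u J J' h)
    rw [act, X.win_eq X.F_sub hu] at h2
    rw [X.win_eq (X.co_sub J) hu] at h3
    have h4 := h1.trans (Nat.mul_le_mul (Nat.mul_le_mul_left _ h2) h3)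
    rw [X.win_eq X.F_sub hu, X.win_eq (X.co_sub J) hu]
    have h5 := X.lv_card hJ
    calc _ ≤ ((X.lv J).card : ℝ) * (X.Uw j u J').card * (X.Uw j u J').card := by exact_mod_cast h4
      _ ≤ (2 * J + 1) * (X.Uw j u J').card * (X.Uw j u J').card := by gcongr
      _ = _ := by ring
  · rw [X.win_empty _ hu, wcr, empty_product, filter_empty, card_empty, Nat.cast_zero]
    positivity

end Cfg

end Vale.Agent.P065.U
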