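import Vale.Agent.P065.U.Defs

/-!
P065/U task Exc: elementary facts on slopes, ranks and levels.
-/

namespace Vale.Agent.P065.U

open Finset Classical

theorem fv_sl {e : Ed} (h : e.1.1 < e.2.1) : fv (sl e) e.1 = fv (sl e) e.2 := by
  have h0 : e.2.1 - e.1.1 ≠ 0 := (sub_pos.mpr h).ne'
  unfold fv sl
  field_simp
  ring

/-- `fv θ e.2 - fv θ e.1 = (sl e - θ) (x2 - x1)`. -/
theorem fv_sub {e : Ed} (h : e.1.1 < e.2.1) (θ : ℝ) :
    fv θ e.2 - fv θ e.1 = (sl e - θ) * (e.2.1 - e.1.1) := by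
  have h0 : e.2.1 - e.1.1 ≠ 0 := (sub_pos.mpr h).ne'
  unfold fv sl
  field_simp
  ring

theorem fv_lt_iff {e : Ed} (h : e.1.1 < e.2.1) (θ : ℝ) : fv θ e.1 < fv θ e.2 ↔ θ < sl e := by
  rw [← sub_pos, fv_sub h, mul_pos_iff_of_pos_right (sub_pos.mpr h), sub_pos]

theorem fv_gt_iff {e : Ed} (h : e.1.1 < e.2.1) (θ : ℝ) : fv θ e.2 < fv θ e.1 ↔ sl e < θ := by
  rw [← sub_neg, fv_sub h]
  have := sub_pos.mpr h
  constructor
  · intro h1
    by_contra h2
    have := mul_nonneg (sub_nonneg.mpr (not_lt.mp h2)) this.le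
    linarith
  · intro h1
    exact mul_neg_of_neg_of_pos (sub_neg.mpr h1) this

theorem mem_prs {P : Finset Pt} {e : Ed} : e ∈ prs P ↔ e.1 ∈ P ∧ e.2 ∈ P ∧ e.1.1 < e.2.1 := by
  unfold prs
  rw [mem_filter, mem_product, and_assoc]

theorem edges_sub (P : Finset Pt) (a : ℕ) : edges P a ⊆ prs P := filter_subset _ _

theorem edgesIn_sub (P : Finset Pt) (I : Finset ℕ) : edgesIn P I ⊆ prs P := filter_subset _ _

theorem edges_eq (P : Finset Pt) (a : ℕ) : edges P a = edgesIn P {a} := by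
  unfold edges edgesIn
  exact filter_congr fun e _ => mem_singleton.symm

theorem prs_card (P : Finset Pt) : (prs P).card ≤ P.card ^ 2 := by
  unfold prs
  refine le_trans (card_filter_le _ _) ?_
  rw [card_product, sq]

theorem lev_lt {P : Finset Pt} {e : Ed} (h : e ∈ prs P) : lev P e < P.card := by
  unfold lev rk
  refine card_lt_card ⟨filter_subset _ _, fun h1 => ?_⟩
  exact lt_irrefl _ (mem_filter.mp (h1 (mem_prs.mp h).1)).2

theorem rk_right {P : Finset Pt} {e : Ed} (h : e ∈ prs P) : rk P (sl e) e.2 = lev P e := by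
  unfold lev rk
  rw [fv_sl (mem_prs.mp h).2.2]

theorem XC.wx {e e' : Ed} (h : XC e e') : WX e e' := by
  obtain ⟨a, b, c, d, f⟩ := h
  exact ⟨a, b, c.le, d.le, f⟩

theorem cr_le_wcr (G H : Finset Ed) : cr G H ≤ wcr G H := by
  unfold cr wcr
  exact card_le_card fun x hx => mem_filter.mpr ⟨(mem_filter.mp hx).1, (mem_filter.mp hx).2.wx⟩

theorem rk_mono (P : Finset Pt) (θ : ℝ) {z z' : Pt} (h : fv θ z ≤ fv θ z') :
    rk P θ z ≤ rk P θ z' := by
  unfold rk
  exact card_le_card fun x hx =>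
    mem_filter.mpr ⟨(mem_filter.mp hx).1, lt_of_lt_of_le (mem_filter.mp hx).2 h⟩

theorem rk_lt {P : Finset Pt} {θ : ℝ} {z z' : Pt} (hz : z ∈ P) (h : fv θ z < fv θ z') :
    rk P θ z < rk P θ z' := by
  unfold rk
  refine card_lt_card ⟨fun x hx =>
    mem_filter.mpr ⟨(mem_filter.mp hx).1, lt_trans (mem_filter.mp hx).2 h⟩, fun h1 => ?_⟩
  exact lt_irrefl _ (mem_filter.mp (h1 (mem_filter.mpr ⟨hz, h⟩))).2

theorem fv_lt_of_rk_lt {P : Finset Pt} {θ : ℝ} {z z' : Pt} (h : rk P θ z < rk P θ z') :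
    fv θ z < fv θ z' := by
  by_contra h1
  exact absurd (rk_mono P θ (not_lt.mp h1)) (not_le.mpr h)

/-- Two edges of the same level with the same slope coincide. -/
theorem sl_inj {P : Finset Pt} (hP : Gen P) {a : ℕ} {e e' : Ed} (h : e ∈ edges P a)
    (h' : e' ∈ edges P a) (hs : sl e = sl e') : e = e' := by
  obtain ⟨a1, a2⟩ := mem_filter.mp h
  obtain ⟨b1, b2⟩ := mem_filter.mp h'
  obtain ⟨a3, a4, a5⟩ := mem_prs.mp a1
  obtain ⟨b3, b4, b5⟩ := mem_prs.mp b1
  have c1 : rk P (sl e) e.1 = rk P (sl e) e'.1 := by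
    unfold lev at a2 b2
    rw [a2, hs, b2]
  have c2 : fv (sl e) e.1 = fv (sl e) e'.1 := by
    rcases lt_trichotomy (fv (sl e) e.1) (fv (sl e) e'.1) with c | c | c
    · exact absurd c1 (rk_lt a3 c).ne
    · exact c
    · exact absurd c1 (rk_lt b3 c).ne'
  have c3 := fv_sl a5
  have c4 : fv (sl e) e'.1 = fv (sl e) e'.2 := by rw [hs]; exact fv_sl b5
  have n1 : e.1 ≠ e.2 := fun c => by rw [c] at a5; exact lt_irrefl _ a5
  have d1 : e'.1 = e.1 ∨ e'.1 = e.2 := by
    by_contra c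
    rw [not_or] at c
    exact hP.ncol _ a3 _ a4 _ b3 _ n1 (Ne.symm c.1) (Ne.symm c.2) c3 c2
  have d2 : e'.2 = e.1 ∨ e'.2 = e.2 := by
    by_contra c
    rw [not_or] at c
    exact hP.ncol _ a3 _ a4 _ b4 _ n1 (Ne.symm c.1) (Ne.symm c.2) c3 (c2.trans c4)
  rcases d1 with d1 | d1 <;> rcases d2 with d2 | d2
  · rw [d1, d2] at b5; exact absurd b5 (lt_irrefl _)
  · exact Prod.ext d1.symm d2.symm
  · rw [d1, d2] at b5; exact absurd b5 (not_lt.mpr a5.le)
  · rw [d1, d2] at b5; exact absurd b5 (lt_irrefl _)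

/-- At most two points share a rank (three would be collinear); so a band of ranks is small. -/
theorem band_card {P : Finset Pt} (hP : Gen P) (θ : ℝ) (I : Finset ℕ) :
    (P.filter fun p => rk P θ p ∈ I).card ≤ 2 * I.card := by
  refine card_le_mul_card_image_of_maps_to (f := fun p => rk P θ p)
    (fun p hp => (mem_filter.mp hp).2) 2 fun r _ => ?_
  by_contra hc
  obtain ⟨x, hx, y, hy, z, hz, n1, n2, n3⟩ := two_lt_card.mp (not_le.mp hc)
  have key : ∀ u ∈ P, ∀ v ∈ P, rk P θ u = rk P θ v → fv θ u = fv θ v := by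
    intro u hu v hv c1
    rcases lt_trichotomy (fv θ u) (fv θ v) with c | c | c
    · exact absurd c1 (rk_lt hu c).ne
    · exact c
    · exact absurd c1 (rk_lt hv c).ne'
  obtain ⟨x1, x2⟩ := mem_filter.mp hx
  obtain ⟨y1, y2⟩ := mem_filter.mp hy
  obtain ⟨z1, z2⟩ := mem_filter.mp hz
  have x3 := (mem_filter.mp x1).1
  have y3 := (mem_filter.mp y1).1
  have z3 := (mem_filter.mp z1).1
  exact hP.ncol x x3 y y3 z z3 θ n1 n2 n3 (key x x3 y y3 (x2.trans y2.symm))
    (key x x3 z z3 (x2.trans z2.symm))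

/-- At a generic slope ranks are distinct: a band of radius `J` has at most `2J+1` points. -/
theorem band_gen {P : Finset Pt} {θ : ℝ} (h : GenSl P θ) (c J : ℝ) (hJ : 0 ≤ J) :
    ((P.filter fun p => |(rk P θ p : ℝ) - c| ≤ J).card : ℝ) ≤ 2 * J + 1 := by
  obtain ⟨S, hS⟩ : ∃ S, S = P.filter fun p => |(rk P θ p : ℝ) - c| ≤ J := ⟨_, rfl⟩
  rw [← hS]
  have mem : ∀ p ∈ S, p ∈ P ∧ |(rk P θ p : ℝ) - c| ≤ J := fun p hp => by
    rw [hS] at hp
    exact mem_filter.mp hp
  rcases S.eq_empty_or_nonempty with h0 | h0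
  · rw [h0, card_empty, Nat.cast_zero]
    linarith
  obtain ⟨u, hu, hu'⟩ := exists_min_image S (fun p => rk P θ p) h0
  obtain ⟨v, hv, hv'⟩ := exists_max_image S (fun p => rk P θ p) h0
  have a1 : S.card ≤ (Icc (rk P θ u) (rk P θ v)).card := by
    refine card_le_card_of_injOn (fun p => rk P θ p)
      (fun p hp => mem_coe.mpr (mem_Icc.mpr ⟨hu' p hp, hv' p hp⟩)) fun x hx y hy c1 => ?_
    refine h x (mem x hx).1 y (mem y hy).1 ?_
    rcases lt_trichotomy (fv θ x) (fv θ y) with c | c | c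
    · exact absurd c1 (rk_lt (mem x hx).1 c).ne
    · exact c
    · exact absurd c1 (rk_lt (mem y hy).1 c).ne'
  rw [Nat.card_Icc] at a1
  have a2 : S.card + rk P θ u ≤ rk P θ v + 1 := by
    have := hu' v hv
    omega
  have a3 : (S.card : ℝ) + rk P θ u ≤ rk P θ v + 1 := by exact_mod_cast a2
  have a4 := abs_le.mp (mem u hu).2
  have a5 := abs_le.mp (mem v hv).2
  linarith [a4.1, a5.2]

/-- Points strictly between two heights at a slope are counted by the rank difference. -/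
theorem between_card (P : Finset Pt) (θ : ℝ) (z z' : Pt) (h : fv θ z ≤ fv θ z') :
    (P.filter fun y => fv θ z ≤ fv θ y ∧ fv θ y < fv θ z').card + rk P θ z = rk P θ z' := by
  unfold rk
  rw [← card_union_of_disjoint]
  · refine congrArg card ?_
    ext y
    simp only [mem_union, mem_filter]
    constructor
    · rintro (⟨a, -, b⟩ | ⟨a, b⟩)
      · exact ⟨a, b⟩
      · exact ⟨a, lt_of_lt_of_le b h⟩
    · rintro ⟨a, b⟩
      rcases le_or_gt (fv θ z) (fv θ y) with c | c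
      · exact Or.inl ⟨a, c, b⟩
      · exact Or.inr ⟨a, c⟩
  · rw [disjoint_left]
    intro y a b
    exact absurd (mem_filter.mp b).2 (not_lt.mpr (mem_filter.mp a).2.1)

theorem sl_eq_of_fv {e : Ed} (h : e.1.1 < e.2.1) {θ : ℝ} (h1 : fv θ e.1 = fv θ e.2) :
    sl e = θ := by
  have a1 := fv_sub h θ
  rw [h1, sub_self] at a1
  rcases mul_eq_zero.mp a1.symm with c | c
  · linarith
  · linarith

theorem fv_cont (p : Pt) : Continuous fun θ => fv θ p := by
  unfold fv
  fun_prop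

/-- Strict comparisons with `p` persist near `θ`. -/
theorem fv_near (P : Finset Pt) (p : Pt) (θ : ℝ) : ∀ᶠ θ' in nhds θ, ∀ q ∈ P,
    (fv θ q < fv θ p → fv θ' q < fv θ' p) ∧ (fv θ p < fv θ q → fv θ' p < fv θ' q) := by
  rw [Filter.eventually_all_finset]
  intro q _
  refine Filter.Eventually.and ?_ ?_
  · by_cases c : fv θ q < fv θ p
    · exact ((fv_cont q).continuousAt.eventually_lt (fv_cont p).continuousAt c).mono
        fun _ h _ => h
    · exact Filter.Eventually.of_forall fun _ h => absurd h c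
  · by_cases c : fv θ p < fv θ q
    · exact ((fv_cont p).continuousAt.eventually_lt (fv_cont q).continuousAt c).mono
        fun _ h _ => h
    · exact Filter.Eventually.of_forall fun _ h => absurd h c

theorem exc_aux {P : Finset Pt} (hP : Gen P) {p : Pt} (hp : p ∈ P) {θ1 θ2 : ℝ} {l : ℕ}
    (h1 : rk P θ1 p ≤ l) (h2 : l < rk P θ2 p) :
    ∃ θ ∈ Set.uIcc θ1 θ2, rk P θ p = l ∧ ∃ q ∈ P, q ≠ p ∧ fv θ q = fv θ p := by
  by_contra hc
  have hV : IsOpen {θ | l < rk P θ p} := by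
    rw [isOpen_iff_mem_nhds]
    intro θ hθ
    refine (fv_near P p θ).mono fun θ' h => lt_of_lt_of_le hθ ?_
    unfold rk
    exact card_le_card fun q hq =>
      mem_filter.mpr ⟨(mem_filter.mp hq).1, (h q (mem_filter.mp hq).1).1 (mem_filter.mp hq).2⟩
  have hU : ∀ θ ∈ Set.uIcc θ1 θ2, rk P θ p ≤ l → θ ∈ interior {θ | rk P θ p ≤ l} := by
    intro θ hθ a1
    rw [mem_interior_iff_mem_nhds]
    refine (fv_near P p θ).mono fun θ' h => ?_
    obtain ⟨T, hT⟩ : ∃ T, T = P.filter fun q => q ≠ p ∧ fv θ q = fv θ p := ⟨_, rfl⟩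
    have a2 : rk P θ' p ≤ rk P θ p + T.card := by
      unfold rk
      refine le_trans (card_le_card fun q hq => ?_) (card_union_le _ _)
      obtain ⟨b1, b2⟩ := mem_filter.mp hq
      rw [hT, mem_union, mem_filter, mem_filter]
      rcases lt_trichotomy (fv θ q) (fv θ p) with c | c | c
      · exact Or.inl ⟨b1, c⟩
      · exact Or.inr ⟨b1, fun d => by rw [d] at b2; exact lt_irrefl _ b2, c⟩
      · exact absurd ((h q b1).2 c) (not_lt.mpr b2.le)
    have a3 : T.card ≤ 1 := by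
      rw [card_le_one]
      intro x hx y hy
      rw [hT] at hx hy
      obtain ⟨x1, x2, x3⟩ := mem_filter.mp hx
      obtain ⟨y1, y2, y3⟩ := mem_filter.mp hy
      by_contra c
      exact hP.ncol p hp x x1 y y1 θ x2.symm y2.symm c x3.symm y3.symm
    show rk P θ' p ≤ l
    rcases a1.lt_or_eq with c | c
    · omega
    · have a4 : T = ∅ := by
        rw [eq_empty_iff_forall_notMem]
        intro x hx
        rw [hT] at hx
        obtain ⟨x1, x2, x3⟩ := mem_filter.mp hx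
        exact hc ⟨θ, hθ, c, x, x1, x2, x3⟩
      rw [a4, card_empty] at a2
      omega
  obtain ⟨θ, -, a1, a2⟩ := isPreconnected_uIcc (a := θ1) (b := θ2) _ _ isOpen_interior hV
    (fun θ hθ => by
      rcases le_or_gt (rk P θ p) l with c | c
      · exact Or.inl (hU θ hθ c)
      · exact Or.inr c)
    ⟨θ1, Set.left_mem_uIcc, hU θ1 Set.left_mem_uIcc h1⟩ ⟨θ2, Set.right_mem_uIcc, h2⟩
  have a3 : θ ∈ {θ | rk P θ p ≤ l} := interior_subset a1
  have a4 : rk P θ p ≤ l := a3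
  have a5 : l < rk P θ p := a2
  omega

/-- Excursion lemma. If the rank of `p` is at most `l` at one slope and above `l` at another, then
an edge of level `l` at `p` has slope between them. For `θ1 < θ2` take
`τ = sup {θ ∈ [θ1, θ2] | rk ≤ l}`; the rank is lower semicontinuous and just after `τ` it exceeds its
value at `τ` by at most the number of ties, which is at most one by `ncol`. Symmetric for `θ2 < θ1`.
(One may also induct over the finitely many slopes at `p`.) -/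
theorem exc {P : Finset Pt} (hP : Gen P) {p : Pt} (hp : p ∈ P) {θ1 θ2 : ℝ} {l : ℕ}
    (h1 : rk P θ1 p ≤ l) (h2 : l < rk P θ2 p) :
    ∃ e ∈ edges P l, (e.1 = p ∨ e.2 = p) ∧ min θ1 θ2 ≤ sl e ∧ sl e ≤ max θ1 θ2 := by
  obtain ⟨θ, hθ, a1, q, hq, a2, a3⟩ := exc_aux hP hp h1 h2
  have b1 : min θ1 θ2 ≤ θ ∧ θ ≤ max θ1 θ2 := hθ
  have b2 : q.1 ≠ p.1 := fun c => a2 (hP.xinj q hq p hp c)
  rcases lt_or_gt_of_ne b2 with c | c
  · have d1 : sl (q, p) = θ := sl_eq_of_fv (e := (q, p)) c a3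
    refine ⟨(q, p), mem_filter.mpr ⟨mem_prs.mpr ⟨hq, hp, c⟩, ?_⟩, Or.inr rfl, ?_⟩
    · rw [← rk_right (mem_prs.mpr ⟨hq, hp, c⟩), d1]
      exact a1
    · rw [d1]
      exact b1
  · have d1 : sl (p, q) = θ := sl_eq_of_fv (e := (p, q)) c a3.symm
    refine ⟨(p, q), mem_filter.mpr ⟨mem_prs.mpr ⟨hp, hq, c⟩, ?_⟩, Or.inl rfl, ?_⟩
    · unfold lev
      rw [d1]
      exact a1
    · rw [d1]
      exact b1

/-- Each point is the left end of at most `j + 1` edges of level at most `j`: the right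
neighbours of smaller slope lie strictly below the line. -/
theorem low_edges {P : Finset Pt} (hP : Gen P) (j : ℕ) :
    (edgesIn P (range (j + 1))).card ≤ P.card * (j + 1) := by
  have h0 : P.card * (j + 1) = (P ×ˢ range (j + 1)).card := by rw [card_product, card_range]
  rw [h0]
  obtain ⟨g, hg⟩ : ∃ g : Ed → Finset Pt, ∀ e, g e =
      P.filter fun q => e.1.1 < q.1 ∧ sl (e.1, q) < sl e := ⟨_, fun _ => rfl⟩
  have key : ∀ e ∈ prs P, ∀ e' ∈ prs P, e.1 = e'.1 → sl e < sl e' → (g e).card < (g e').card := by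
    intro e he e' he' c1 c2
    obtain ⟨a1, a2, a3⟩ := mem_prs.mp he
    rw [hg, hg, ← c1]
    refine card_lt_card ⟨fun q hq => ?_, fun c => ?_⟩
    · obtain ⟨b1, b2, b3⟩ := mem_filter.mp hq
      exact mem_filter.mpr ⟨b1, b2, b3.trans c2⟩
    · exact lt_irrefl _ (mem_filter.mp (c (mem_filter.mpr ⟨a2, a3, c2⟩))).2.2
  refine card_le_card_of_injOn (fun e => (e.1, (g e).card)) (fun e he => ?_) fun e he e' he' c => ?_
  · obtain ⟨a1, a2⟩ := mem_filter.mp (mem_coe.mp he)
    refine mem_coe.mpr (mem_product.mpr ⟨(mem_prs.mp a1).1, mem_range.mpr ?_⟩)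
    refine lt_of_le_of_lt ?_ (mem_range.mp a2)
    show (g e).card ≤ _
    unfold lev rk
    rw [hg]
    refine card_le_card fun q hq => ?_
    obtain ⟨b1, b2, b3⟩ := mem_filter.mp hq
    exact mem_filter.mpr ⟨b1, (fv_gt_iff (e := (e.1, q)) b2 _).mpr b3⟩
  · have a1 := (mem_filter.mp (mem_coe.mp he)).1
    have b1 := (mem_filter.mp (mem_coe.mp he')).1
    obtain ⟨c1, c2⟩ := Prod.mk.inj c
    rcases lt_trichotomy (sl e) (sl e') with d | d | d
    · exact absurd c2 (key e a1 e' b1 c1 d).ne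
    · obtain ⟨a2, a3, a4⟩ := mem_prs.mp a1
      obtain ⟨b2, b3, b4⟩ := mem_prs.mp b1
      refine Prod.ext c1 ?_
      by_contra d1
      refine hP.ncol _ a2 _ a3 _ b3 (sl e) (fun f => ?_) (fun f => ?_) d1 (fv_sl a4) ?_
      · rw [f] at a4; exact lt_irrefl _ a4
      · rw [← c1, f] at b4; exact lt_irrefl _ b4
      · rw [d, c1]; exact fv_sl b4
    · exact absurd c2 (key e' b1 e a1 c1.symm d).ne'

theorem xc_comm (P : Finset Pt) (z z' : Pt) : xc P z z' = xc P z' z := by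
  unfold xc
  rw [min_comm, max_comm]

theorem xc_tri (P : Finset Pt) (z z' z'' : Pt) : xc P z z'' ≤ xc P z z' + xc P z' z'' := by
  unfold xc
  refine le_trans (card_le_card fun y hy => ?_) (card_union_le _ _)
  obtain ⟨a1, a2, a3⟩ := mem_filter.mp hy
  simp only [mem_union, mem_filter, a1, true_and, min_le_iff, le_max_iff] at a2 a3 ⊢
  rcases le_total y.1 z'.1 with c | c <;> rcases a2 with a2 | a2 <;> rcases a3 with a3 | a3 <;>
    tauto

theorem Tok.dd_comm {P : Finset Pt} (T : Tok P) (a : ℕ) (z z' : Pt) : T.dd a z z' = T.dd a z' z := by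
  unfold Tok.dd
  rw [xc_comm]
  refine congrArg (· + xc P z' z) (congrArg card (filter_congr fun c _ => ?_))
  exact not_congr iff_comm

theorem Tok.dd_tri {P : Finset Pt} (T : Tok P) (a : ℕ) (z z' z'' : Pt) :
    T.dd a z z'' ≤ T.dd a z z' + T.dd a z' z'' := by
  unfold Tok.dd
  have a1 := xc_tri P z z' z''
  have a2 : ((T.lab a).filter fun c => ¬ (T.Epi a c z ↔ T.Epi a c z'')).card ≤
      ((T.lab a).filter fun c => ¬ (T.Epi a c z ↔ T.Epi a c z')).card +
      ((T.lab a).filter fun c => ¬ (T.Epi a c z' ↔ T.Epi a c z'')).card := by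
    refine le_trans (card_le_card fun y hy => ?_) (card_union_le _ _)
    obtain ⟨b1, b2⟩ := mem_filter.mp hy
    rw [mem_union, mem_filter, mem_filter]
    tauto
  omega

theorem ends_sub {P : Finset Pt} {G : Finset Ed} (h : G ⊆ prs P) : ends G ⊆ P := by
  intro p hp
  rcases mem_union.mp hp with c | c
  · obtain ⟨e, he, rfl⟩ := mem_image.mp c
    exact (mem_prs.mp (h he)).1
  · obtain ⟨e, he, rfl⟩ := mem_image.mp c
    exact (mem_prs.mp (h he)).2.1

theorem mem_ends {G : Finset Ed} {p : Pt} : p ∈ ends G ↔ ∃ e ∈ G, e.1 = p ∨ e.2 = p := by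
  unfold ends
  rw [mem_union, mem_image, mem_image]
  constructor
  · rintro (⟨e, a, b⟩ | ⟨e, a, b⟩)
    · exact ⟨e, a, Or.inl b⟩
    · exact ⟨e, a, Or.inr b⟩
  · rintro ⟨e, a, b | b⟩
    · exact Or.inl ⟨e, a, b⟩
    · exact Or.inr ⟨e, a, b⟩

end Vale.Agent.P065.U
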