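import Vale.Agent.P065.U.SRho

/-!
P065/U task Strad: bounding the bad triples of an `SD` from a parent map on classes.

Split the triples (q,i,i') of `tri t` that are not Good. (1) Different parents: v q i is monotone or
antitone in i (affine in the monotone x), so par (cls q i) is too. For i < i' with different parents let
i* be the largest index of I_q = {i | (q,i) ∈ G} with the parent of i; then i ≤ i* < i' ≤ i + t, and the
parent value of the largest index of I_q does not occur; so ≤ a·2·(t+1)t ≤ 8 a t² ordered pairs per q.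
(2) Equal classes: ≤ Xd indices i' per (q,i). (3) Different classes, same parent: btw ≤ b0, so the
cell exceeds 2 B0, and at least half of the points of such a cell are in BadS.
-/

namespace Vale.Agent.P065.U

open Finset Classical

theorem card_prod_left_Strad {α β : Type*} (s : Finset α) (t : Finset β) (p : α × β → Prop)
    [DecidablePred p] :
    ((s ×ˢ t).filter p).card = ∑ a ∈ s, (t.filter fun b => p (a, b)).card := by
  simp only [card_filter, sum_product]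

theorem fib_Strad {α β : Type*} [DecidableEq β] (S T : Finset α) (φ : α → β)
    (h : ∀ z0 ∈ S, ((S.filter fun z => φ z = φ z0).card : ℝ) ≤
      2 * (T.filter fun z => φ z = φ z0).card) : (S.card : ℝ) ≤ 2 * T.card := by
  have h1 : S.card = ∑ y ∈ S.image φ, (S.filter fun z => φ z = y).card :=
    card_eq_sum_card_fiberwise fun z hz => mem_image_of_mem _ hz
  have h2 : ∑ y ∈ S.image φ, (T.filter fun z => φ z = y).card ≤ T.card := by
    rw [sum_card_fiberwise_eq_card_filter]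
    exact card_filter_le _ _
  have h3 : (∑ y ∈ S.image φ, ((T.filter fun z => φ z = y).card : ℝ)) ≤ T.card := by
    exact_mod_cast h2
  rw [h1]
  push_cast
  refine le_trans (sum_le_sum (g := fun y => 2 * ((T.filter fun z => φ z = y).card : ℝ))
    fun y hy => ?_) ?_
  · obtain ⟨z0, hz0, rfl⟩ := mem_image.1 hy
    exact h z0 hz0
  · rw [← mul_sum]
    linarith

theorem pairs_Strad (I : Finset ℕ) (p : ℕ → ℤ) {a t : ℝ} (ht : 1 ≤ t) (ha0 : 0 ≤ a)
    (hp : ∀ i ∈ I, ∀ j ∈ I, ∀ l ∈ I, i ≤ j → j ≤ l → p l = p i → p j = p i)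
    (ha : ((I.image p).card : ℝ) ≤ a + 1) (Y : Finset (ℕ × ℕ))
    (hY : ∀ y ∈ Y, y.1 ∈ I ∧ y.2 ∈ I ∧ |(y.1 : ℝ) - y.2| ≤ t ∧ p y.1 ≠ p y.2) :
    (Y.card : ℝ) ≤ a * (8 * t ^ 2) := by
  set S := I.filter fun s => (∀ j ∈ I, p j = p s → j ≤ s) ∧ ∃ j ∈ I, s < j with hS
  have hSa : (S.card : ℝ) ≤ a := by
    rcases I.eq_empty_or_nonempty with h0 | h0
    · rw [hS, h0]; simpa using ha0
    · have h1 : S.card ≤ ((I.image p).erase (p (I.max' h0))).card := by
        refine card_le_card_of_injOn p (fun s hs => ?_) ?_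
        · obtain ⟨h1, h2, j, h3, h4⟩ := mem_filter.1 (mem_coe.1 hs)
          refine mem_coe.2 (mem_erase.2 ⟨fun h5 => ?_, mem_image_of_mem _ h1⟩)
          have h6 := h2 _ (I.max'_mem h0) h5.symm
          have h7 := I.le_max' j h3
          omega
        · intro s hs s' hs' h
          obtain ⟨h1, h2, _⟩ := mem_filter.1 (mem_coe.1 hs)
          obtain ⟨h3, h4, _⟩ := mem_filter.1 (mem_coe.1 hs')
          exact le_antisymm (h4 _ h1 h) (h2 _ h3 h.symm)
      have h2 := card_erase_add_one (mem_image_of_mem p (I.max'_mem h0))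
      have h3 : S.card + 1 ≤ (I.image p).card := by omega
      have h4 : (S.card : ℝ) + 1 ≤ (I.image p).card := by exact_mod_cast h3
      linarith
  have key : ∀ i ∈ I, ∀ j ∈ I, i < j → (j : ℝ) - i ≤ t → p i ≠ p j →
      ∃ s ∈ S, i ∈ Icc (s - ⌊t⌋₊) s ∧ j ∈ Ioc s (s + ⌊t⌋₊) := by
    intro i hi j hj hij hd hne
    obtain ⟨s, hs, hmax⟩ := exists_max_image (I.filter fun l => p l = p i) id
      ⟨i, mem_filter.2 ⟨hi, rfl⟩⟩
    obtain ⟨h1, h2⟩ := mem_filter.1 hs
    have h3 : i ≤ s := hmax i (mem_filter.2 ⟨hi, rfl⟩)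
    have h4 : s < j := not_le.1 fun h => hne (hp i hi j hj s h1 hij.le h h2).symm
    have h5 : j - i ≤ ⌊t⌋₊ := Nat.le_floor (by rw [Nat.cast_sub hij.le]; exact hd)
    refine ⟨s, mem_filter.2 ⟨h1, fun l hl h => hmax l (mem_filter.2 ⟨hl, h.trans h2⟩), j, hj, h4⟩,
      mem_Icc.2 ⟨by omega, h3⟩, mem_Ioc.2 ⟨h4, by omega⟩⟩
  have hsub : Y ⊆ S.biUnion fun s => (Icc (s - ⌊t⌋₊) s ×ˢ Ioc s (s + ⌊t⌋₊)) ∪
      (Ioc s (s + ⌊t⌋₊) ×ˢ Icc (s - ⌊t⌋₊) s) := by
    intro y hy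
    obtain ⟨h1, h2, h3, h4⟩ := hY y hy
    have h5 := abs_le.1 h3
    rcases lt_trichotomy y.1 y.2 with h | h | h
    · obtain ⟨s, hs, k1, k2⟩ := key _ h1 _ h2 h (by linarith [h5.1]) h4
      exact mem_biUnion.2 ⟨s, hs, mem_union_left _ (mem_product.2 ⟨k1, k2⟩)⟩
    · exact absurd (congrArg p h) h4
    · obtain ⟨s, hs, k1, k2⟩ := key _ h2 _ h1 h h5.2 h4.symm
      exact mem_biUnion.2 ⟨s, hs, mem_union_right _ (mem_product.2 ⟨k2, k1⟩)⟩
  have hc := (card_le_card hsub).trans (card_biUnion_le_card_mul _ _ (2 * ((⌊t⌋₊ + 1) * ⌊t⌋₊))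
    fun s _ => by
      refine (card_union_le _ _).trans ?_
      rw [card_product, card_product, Nat.card_Icc, Nat.card_Ioc]
      have h1 : s + 1 - (s - ⌊t⌋₊) ≤ ⌊t⌋₊ + 1 := by omega
      have h2 : s + ⌊t⌋₊ - s = ⌊t⌋₊ := by omega
      rw [h2]
      nlinarith [Nat.mul_le_mul_right ⌊t⌋₊ h1])
  have hc' := (Nat.cast_le (α := ℝ)).2 hc
  push_cast at hc'
  have h5 : (⌊t⌋₊ : ℝ) ≤ t := Nat.floor_le (by linarith)
  have h6 : (0 : ℝ) ≤ ⌊t⌋₊ := Nat.cast_nonneg _
  refine hc'.trans (mul_le_mul hSa ?_ (by positivity) ha0)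
  nlinarith

theorem SD.badT_le (D : SD) (Γ t a Xd B0 b0 : ℝ) (par : ℤ → ℤ) (hpar : Monotone par)
    (BadS : Finset ((ℝ × ℝ) × ℤ × ℤ)) (hx : ∀ i j, i ≤ j → j < D.m → D.x i ≤ D.x j)
    (hom : Monotone D.om) (hG : D.G ⊆ D.L ×ˢ range D.m) (ht : 1 ≤ t) (ha0 : 0 ≤ a) (hX0 : 0 ≤ Xd)
    (ha : ∀ q, ((((range D.m).filter fun i => (q, i) ∈ D.G).image
      fun i => par (D.cls q i)).card : ℝ) ≤ a + 1)
    (hX : ∀ w, (((range D.m).filter fun i => w ∈ D.W i).card : ℝ) ≤ Xd)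
    (hB : ∀ i i' w w', w ≠ w' → par w = par w' →
      ((D.L.filter fun q => (q, i) ∈ D.G ∧ (q, i') ∈ D.G ∧ D.cls q i = w ∧ D.cls q i' = w' ∧
        (q, w, w') ∉ BadS).card : ℝ) ≤ B0)
    (hb : ∀ q i i', (q, i) ∈ D.G → (q, i') ∈ D.G → par (D.cls q i) = par (D.cls q i') →
      (D.btw q i i' : ℝ) ≤ b0)
    (h1 : 2 * B0 ≤ Γ * D.N * D.m / (D.C ^ 2 * t)) (h2 : b0 ≤ Γ * D.C * t / D.m) :
    (D.badT Γ t : ℝ) ≤ D.L.card * a * (8 * t ^ 2) + D.L.card * D.m * Xd +
      2 * ((D.tri D.m).filter fun z =>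
        (z.1, D.cls z.1 z.2.1, D.cls z.1 z.2.2) ∈ BadS).card := by
  have hm : ∀ {q i}, (q, i) ∈ D.G → i < D.m := fun h => mem_range.1 (mem_product.1 (hG h)).2
  have b1 : (((D.L ×ˢ range D.m ×ˢ range D.m).filter fun z => (z.1, z.2.1) ∈ D.G ∧
      (z.1, z.2.2) ∈ D.G ∧ |(z.2.1 : ℝ) - z.2.2| ≤ t ∧
      par (D.cls z.1 z.2.1) ≠ par (D.cls z.1 z.2.2)).card : ℝ) ≤ D.L.card * a * (8 * t ^ 2) := by
    rw [card_prod_left_Strad]
    push_cast
    refine (sum_le_card_nsmul _ _ (a * (8 * t ^ 2)) fun q _ => ?_).trans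
      (le_of_eq (by rw [nsmul_eq_mul]; ring))
    refine pairs_Strad ((range D.m).filter fun i => (q, i) ∈ D.G) (fun i => par (D.cls q i)) ht ha0
      (fun i hi j hj l hl hij hjl he => ?_) (ha q) _ fun y hy => ?_
    · have k1 := hx i j hij (mem_range.1 (mem_filter.1 hj).1)
      have k2 := hx j l hjl (mem_range.1 (mem_filter.1 hl).1)
      rcases le_total 0 (D.A q) with h | h
      · have k3 : D.v q i ≤ D.v q j := by unfold SD.v; nlinarith
        have k4 : D.v q j ≤ D.v q l := by unfold SD.v; nlinarith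
        exact le_antisymm (he ▸ hpar (hom k4)) (hpar (hom k3))
      · have k3 : D.v q j ≤ D.v q i := by unfold SD.v; nlinarith
        have k4 : D.v q l ≤ D.v q j := by unfold SD.v; nlinarith
        exact le_antisymm (hpar (hom k3)) (he ▸ hpar (hom k4))
    · obtain ⟨k1, k2, k3, k4⟩ := mem_filter.1 hy
      obtain ⟨k5, k6⟩ := mem_product.1 k1
      exact ⟨mem_filter.2 ⟨k5, k2⟩, mem_filter.2 ⟨k6, k3⟩, k4⟩
  have b2 : (((D.L ×ˢ range D.m ×ˢ range D.m).filter fun z =>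
      (z.1, z.2.2) ∈ D.G ∧ D.cls z.1 z.2.1 = D.cls z.1 z.2.2).card : ℝ) ≤ D.L.card * D.m * Xd := by
    rw [card_prod_left_Strad]
    push_cast
    refine (sum_le_card_nsmul _ _ (D.m * Xd) fun q _ => ?_).trans
      (le_of_eq (by rw [nsmul_eq_mul]; ring))
    rw [card_prod_left_Strad]
    push_cast
    refine (sum_le_card_nsmul _ _ Xd fun i _ => ?_).trans
      (le_of_eq (by rw [nsmul_eq_mul, card_range]))
    refine le_trans (Nat.cast_le.2 (card_le_card fun j hj => ?_)) (hX (D.cls q i))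
    obtain ⟨k1, k2, k3⟩ := mem_filter.1 hj
    refine mem_filter.2 ⟨k1, ?_⟩
    rw [show D.cls q i = D.cls q j from k3]
    exact SD.cls_mem_SRho k2
  have b3 := fib_Strad
    ((D.tri t).filter fun z => D.cls z.1 z.2.1 ≠ D.cls z.1 z.2.2 ∧
      par (D.cls z.1 z.2.1) = par (D.cls z.1 z.2.2) ∧ 2 * B0 < D.cell z.1 z.2.1 z.2.2)
    ((D.tri D.m).filter fun z => (z.1, D.cls z.1 z.2.1, D.cls z.1 z.2.2) ∈ BadS)
    (fun z => (z.2, D.cls z.1 z.2.1, D.cls z.1 z.2.2)) (by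
      rintro ⟨q0, i, j⟩ hz0
      obtain ⟨k0, k1, k2, k3⟩ := mem_filter.1 hz0
      simp only at k1 k2 k3
      have k4 := hB i j _ _ k1 k2
      set Ce := D.L.filter fun q' => (q', i) ∈ D.G ∧ (q', j) ∈ D.G ∧ D.cls q' i = D.cls q0 i ∧
        D.cls q' j = D.cls q0 j with hCe
      have k5 : D.cell q0 i j = Ce.card := rfl
      have k6 := card_filter_add_card_filter_not (s := Ce)
        (fun q => (q, D.cls q0 i, D.cls q0 j) ∈ BadS)
      have k7 : ((Ce.filter fun q => ¬ (q, D.cls q0 i, D.cls q0 j) ∈ BadS).card : ℝ) ≤ B0 := by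
        refine le_trans (Nat.cast_le.2 (card_le_card fun q hq => ?_)) k4
        obtain ⟨m1, m2⟩ := mem_filter.1 hq
        obtain ⟨m3, m4, m5, m6, m7⟩ := mem_filter.1 m1
        exact mem_filter.2 ⟨m3, m4, m5, m6, m7, m2⟩
      have k8 : (((D.tri t).filter fun z => D.cls z.1 z.2.1 ≠ D.cls z.1 z.2.2 ∧
          par (D.cls z.1 z.2.1) = par (D.cls z.1 z.2.2) ∧ 2 * B0 < D.cell z.1 z.2.1 z.2.2).filter
          fun z => (z.2, D.cls z.1 z.2.1, D.cls z.1 z.2.2) =
            ((i, j), D.cls q0 i, D.cls q0 j)).card ≤ Ce.card := by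
        refine card_le_card_of_injOn Prod.fst (fun z hz => ?_) ?_
        · obtain ⟨q, i', j'⟩ := z
          obtain ⟨m1, m2⟩ := mem_filter.1 (mem_coe.1 hz)
          simp only [Prod.mk.injEq] at m2
          obtain ⟨⟨rfl, rfl⟩, m3, m4⟩ := m2
          obtain ⟨m5, m6, m7, _⟩ := mem_filter.1 (mem_filter.1 m1).1
          exact mem_coe.2 (mem_filter.2 ⟨(mem_product.1 m5).1, m6, m7, m3, m4⟩)
        · intro z hz z' hz' he
          have m1 := congrArg Prod.fst (mem_filter.1 (mem_coe.1 hz)).2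
          have m2 := congrArg Prod.fst (mem_filter.1 (mem_coe.1 hz')).2
          exact Prod.ext he (m1.trans m2.symm)
      have k9 : (Ce.filter fun q => (q, D.cls q0 i, D.cls q0 j) ∈ BadS).card ≤
          (((D.tri D.m).filter fun z => (z.1, D.cls z.1 z.2.1, D.cls z.1 z.2.2) ∈ BadS).filter
          fun z => (z.2, D.cls z.1 z.2.1, D.cls z.1 z.2.2) =
            ((i, j), D.cls q0 i, D.cls q0 j)).card := by
        refine card_le_card_of_injOn (fun q => (q, i, j)) (fun q hq => ?_) ?_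
        · obtain ⟨m1, m2⟩ := mem_filter.1 (mem_coe.1 hq)
          obtain ⟨m3, m4, m5, m6, m7⟩ := mem_filter.1 m1
          have n1 : (i : ℝ) < D.m := by exact_mod_cast hm m4
          have n2 : (j : ℝ) < D.m := by exact_mod_cast hm m5
          have n3 : (0 : ℝ) ≤ i := Nat.cast_nonneg _
          have n4 : (0 : ℝ) ≤ j := Nat.cast_nonneg _
          refine mem_coe.2 (mem_filter.2 ⟨mem_filter.2 ⟨mem_filter.2 ⟨mem_product.2 ⟨m3,
            mem_product.2 ⟨mem_range.2 (hm m4), mem_range.2 (hm m5)⟩⟩, m4, m5,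
            abs_le.2 ⟨by simp only []; linarith, by simp only []; linarith⟩⟩, ?_⟩, ?_⟩)
          · simp only [m6, m7]
            exact m2
          · simp only [m6, m7]
        · intro q _ q' _ he
          exact congrArg Prod.fst he
      have k6' := congrArg (Nat.cast (R := ℝ)) k6
      have k8' := (Nat.cast_le (α := ℝ)).2 k8
      have k9' := (Nat.cast_le (α := ℝ)).2 k9
      push_cast at k6'
      rw [k5] at k3
      simp only
      linarith)
  have hsub : ((D.tri t).filter fun z => ¬ D.Good Γ t z.1 z.2.1 z.2.2) ⊆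
      ((D.L ×ˢ range D.m ×ˢ range D.m).filter fun z => (z.1, z.2.1) ∈ D.G ∧
      (z.1, z.2.2) ∈ D.G ∧ |(z.2.1 : ℝ) - z.2.2| ≤ t ∧
      par (D.cls z.1 z.2.1) ≠ par (D.cls z.1 z.2.2)) ∪
      (((D.L ×ˢ range D.m ×ˢ range D.m).filter fun z =>
      (z.1, z.2.2) ∈ D.G ∧ D.cls z.1 z.2.1 = D.cls z.1 z.2.2) ∪
      ((D.tri t).filter fun z => D.cls z.1 z.2.1 ≠ D.cls z.1 z.2.2 ∧
      par (D.cls z.1 z.2.1) = par (D.cls z.1 z.2.2) ∧ 2 * B0 < D.cell z.1 z.2.1 z.2.2)) := by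
    intro z hz
    obtain ⟨k1, k2⟩ := mem_filter.1 hz
    obtain ⟨k3, k4, k5, k6⟩ := mem_filter.1 k1
    by_cases c1 : par (D.cls z.1 z.2.1) = par (D.cls z.1 z.2.2)
    · refine mem_union_right _ ?_
      by_cases c2 : D.cls z.1 z.2.1 = D.cls z.1 z.2.2
      · exact mem_union_left _ (mem_filter.2 ⟨k3, k5, c2⟩)
      · refine mem_union_right _ (mem_filter.2 ⟨k1, c2, c1, not_le.1 fun h => k2 ⟨h.trans h1,
          (hb _ _ _ k4 k5 c1).trans h2⟩⟩)
    · exact mem_union_left _ (mem_filter.2 ⟨k3, k4, k5, k6, c1⟩)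
  have hc := (Nat.cast_le (α := ℝ)).2 ((card_le_card hsub).trans ((card_union_le _ _).trans
    (Nat.add_le_add_left (card_union_le _ _) _)))
  push_cast at hc
  have _ := hX0
  unfold SD.badT
  linarith

end Vale.Agent.P065.U
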