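import Vale.Agent.P065.U.Setup
import Vale.Agent.P065.U.Strad

/-!
P065/U task Geo: from the setup to the hypotheses of Proposition S.

`tb_sum`: a triple z ∈ Bad is counted for ≤ K n d/4^j starts e0 (`cnt`), with ≤ K n/4^j choices each of
f and f' (`use_le`, `links_spec`).

`geo`. C = 2^j, N = n/C². For α, jW ≤ j with K ≤ 2^α and 2^jW (2^α)^cI ≤ C let Bad α jW be given by
`Cfg.ind` at 2^α (otherwise empty). By `tb_sum` and averaging over Pi, some e0 ∈ Pi has, for all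
(α, jW), tb ≤ (j+1)² K⁴ |Bad| n²/C⁶ ≤ 4K⁶ n³/(C⁴ 2^jW 2^α) (`Big.scales`). D, f from `build`.
L_le, G_ge (`links_ge`), W_le (classes are -u with (f i).1 tame at u: `tame_anc` at j' = j), cls_le
(`Tame.act`, `Tame.act_card`), use_le (`use_le`, `m_ge`), logC (C ≤ d ≤ n).
ind: given lam, t let jW be the largest with 2^jW ≤ m/(32 K² lam t), or 0 if there is none; in both
cases 2^jW ≥ m/(64 K² lam t), 2^jW ≤ m/t, 2^jW ≤ max 1 (C/lam^c). 2^α ∈ [lam^24, 2 lam^24). Apply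
`badT_le` with par w = -((-w)/16^(j-jW)), BadS = {(q,-u,-u'), (q,-u',-u) | (q,u,u') ∈ Bad}, a = 0 if jW = 0
and K 2^jW otherwise (`tame_anc`), Xd = K n/C², B0 = (2^α)^cI n 2^jW/16^j, b0 = K² C/2^jW (`tame_count`;
a class between two classes with the same parent has that parent). The last term is ≤ 4 tb.
t ≥ lam^c m/C ≥ 1 because m ≥ n/(K C) and n ≥ C⁶.
-/

namespace Vale.Agent.P065.U

open Finset Classical

/-- Incidences between bad triples and pairs of edges over the piece of `e0`. -/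
noncomputable def Cfg.tb (X : Cfg) (j : ℕ) (r : ℝ) (j1 m0 : ℕ) (Z A : ℕ → Finset Pt)
    (G : Finset Ed) (Bad : Finset (Pt × ℕ × ℕ)) (e0 : Ed) : ℕ :=
  ((Bad ×ˢ X.ovr j1 m0 G e0 ×ˢ X.ovr j1 m0 G e0).filter fun z =>
    z.1.1 ∈ X.links j Z A r z.2.1 ∧ z.1.1 ∈ X.links j Z A r z.2.2 ∧
    X.wi j (sl (z.1.1, z.2.1.1)) = z.1.2.1 ∧ X.wi j (sl (z.1.1, z.2.2.1)) = z.1.2.2).card

theorem Cfg.tb_sum {X : Cfg} {K : ℝ} {j : ℕ} {K1 r : ℝ} {j1 m0 : ℕ} {Z A : ℕ → Finset Pt}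
    {G Pi : Finset Ed} (h : X.Setup K j K1 r j1 m0 Z A G Pi) (Bad : Finset (Pt × ℕ × ℕ)) :
    ∑ e0 ∈ Pi, (X.tb j r j1 m0 Z A G Bad e0 : ℝ) ≤
      Bad.card * (K * X.n * X.d / 4 ^ j) * (K * X.n / 4 ^ j) ^ 2 := by
  have hA : ∀ u, ∀ p ∈ A u, u < 16 ^ j := fun u p hp => (h.A_tame u p hp).lt
  have h1 : ∀ e0 ∈ Pi, (X.tb j r j1 m0 Z A G Bad e0 : ℝ) ≤
      ((Bad.filter fun z => z.1 ∈ (X.ovr j1 m0 G e0).biUnion (X.links j Z A r)).card : ℝ) *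
        (K * X.n / 4 ^ j) ^ 2 := by
    intro e0 he0
    let U : ℕ → Finset Ed := fun u => (X.ovr j1 m0 G e0).filter fun f => f.1 ∈ A u ∧
      sl f < X.al j u
    have a1 : X.tb j r j1 m0 Z A G Bad e0 ≤ ∑ z ∈ Bad.filter fun z =>
        z.1 ∈ (X.ovr j1 m0 G e0).biUnion (X.links j Z A r), ({z} ×ˢ U z.2.1 ×ˢ U z.2.2).card := by
      refine le_trans (card_le_card fun z hz => ?_) card_biUnion_le
      obtain ⟨b1, b2, b3, b4, b5⟩ := mem_filter.1 hz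
      obtain ⟨c1, c2⟩ := mem_product.1 b1
      obtain ⟨c2, c3⟩ := mem_product.1 c2
      have d1 := X.links_spec j Z A r hA b2
      have d2 := X.links_spec j Z A r hA b3
      rw [b4] at d1
      rw [b5] at d2
      exact mem_biUnion.2 ⟨z.1, mem_filter.2 ⟨c1, mem_biUnion.2 ⟨_, c2, b2⟩⟩,
        mem_product.2 ⟨mem_singleton_self _, mem_product.2
          ⟨mem_filter.2 ⟨c2, d1.2.2.1, d1.2.1⟩, mem_filter.2 ⟨c3, d2.2.2.1, d2.2.1⟩⟩⟩⟩
    refine (Nat.cast_le.2 a1).trans ?_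
    rw [Nat.cast_sum, ← nsmul_eq_mul]
    refine sum_le_card_nsmul _ _ _ fun z _ => ?_
    rw [card_product, card_product, card_singleton, one_mul, Nat.cast_mul, pow_two]
    exact mul_le_mul (h.use_le e0 he0 _) (h.use_le e0 he0 _) (Nat.cast_nonneg _)
      ((Nat.cast_nonneg _).trans (h.use_le e0 he0 0))
  refine (sum_le_sum h1).trans ?_
  rw [← sum_mul]
  refine mul_le_mul_of_nonneg_right ?_ (sq_nonneg _)
  have e : ∑ e0 ∈ Pi, (Bad.filter fun z =>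
      z.1 ∈ (X.ovr j1 m0 G e0).biUnion (X.links j Z A r)).card = ∑ z ∈ Bad, (Pi.filter fun e0 =>
      z.1 ∈ (X.ovr j1 m0 G e0).biUnion (X.links j Z A r)).card := by
    simp only [card_filter]
    exact sum_comm
  rw [← Nat.cast_sum, e, Nat.cast_sum, ← nsmul_eq_mul]
  exact sum_le_card_nsmul _ _ _ fun z _ => h.cnt z.1

theorem geo_neg {S : Finset ℤ} {T : Finset ℕ} (h : ∀ w ∈ S, ∃ v ∈ T, w = -(v : ℤ)) :
    S.card ≤ T.card :=
  le_trans (card_le_card fun w hw => by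
    obtain ⟨v, hv, rfl⟩ := h w hw
    exact mem_image_of_mem (fun v : ℕ => -(v : ℤ)) hv) card_image_le

theorem geo_W {X : Cfg} {D : SD} {K1 : ℝ} {j : ℕ} {u : Pt → ℕ → ℕ} {p : ℕ → Pt}
    (hu : ∀ q i, (q, i) ∈ D.G → D.cls q i = -(u q i : ℤ) ∧ X.Tame K1 j (u q i) q ∧
      X.Tame K1 j (u q i) (p i)) {i : ℕ} {w : ℤ} (hw : w ∈ D.W i) :
    ∃ v : ℕ, w = -(v : ℤ) ∧ X.Tame K1 j v (p i) := by
  obtain ⟨⟨q, i'⟩, a3, rfl⟩ := mem_image.1 hw
  obtain ⟨a4, rfl⟩ := mem_filter.1 a3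
  exact ⟨_, (hu q i' a4).1, (hu q i' a4).2.2⟩

theorem geo_bad {X : Cfg} {D : SD} {K1 : ℝ} {j jW : ℕ} {u : Pt → ℕ → ℕ} {p : ℕ → Pt}
    {Bad : Finset (Pt × ℕ × ℕ)} {B0 Xd Γ t a : ℝ} {T : ℕ} (hK1 : 0 < K1) (hjW : jW ≤ j)
    (hu : ∀ q i, (q, i) ∈ D.G → D.cls q i = -(u q i : ℤ) ∧ X.Tame K1 j (u q i) q ∧
      X.Tame K1 j (u q i) (p i)) (hx : ∀ i j, i ≤ j → j < D.m → D.x i ≤ D.x j)
    (hom : Monotone D.om) (hG : D.G ⊆ D.L ×ˢ range D.m) (ht : 1 ≤ t) (hB0 : 0 ≤ B0) (hX0 : 0 ≤ Xd)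
    (hX : ∀ w, (((range D.m).filter fun i => w ∈ D.W i).card : ℝ) ≤ Xd)
    (hBad : ∀ v v', v < v' → v / 16 ^ (j - jW) = v' / 16 ^ (j - jW) →
      ((X.P.filter fun q => X.Tame K1 j v q ∧ X.Tame K1 j v' q ∧ (q, v, v') ∉ Bad).card : ℝ) ≤ B0)
    (hT : ∀ S : Finset (Pt × ℕ × ℕ), (∀ z ∈ S, (z.1, z.2.1) ∈ D.G ∧ (z.1, z.2.2) ∈ D.G ∧
      (z.1, u z.1 z.2.1, u z.1 z.2.2) ∈ Bad) → S.card ≤ T)
    (ha0 : 0 ≤ a) (ha : jW = 0 ∨ K1 * 2 ^ jW ≤ a)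
    (h1 : 2 * B0 ≤ Γ * D.N * D.m / (D.C ^ 2 * t))
    (h2 : K1 ^ 2 * 2 ^ j / 2 ^ jW ≤ Γ * D.C * t / D.m) :
    (D.badT Γ t : ℝ) ≤ D.L.card * a * (8 * t ^ 2) + D.L.card * D.m * Xd + 4 * T := by
  let par : ℤ → ℤ := fun w => -(-w / ((16 ^ (j - jW) : ℕ) : ℤ))
  have hpv : ∀ v : ℕ, par (-(v : ℤ)) = -((v / 16 ^ (j - jW) : ℕ) : ℤ) := fun v => by
    simp only [par, neg_neg, Int.natCast_div]
  have hpar : Monotone par := fun w w' hw =>
    neg_le_neg (Int.ediv_le_ediv (by positivity) (neg_le_neg hw))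
  refine (D.badT_le Γ t a Xd B0 _ par hpar
    (Bad.image (fun z => (z.1, -(z.2.1 : ℤ), -(z.2.2 : ℤ))) ∪
      Bad.image fun z => (z.1, -(z.2.2 : ℤ), -(z.2.1 : ℤ))) hx hom hG ht ha0 hX0 (fun q => ?_) hX
    (fun i i' w w' hw hp => ?_) (fun q i i' hi hi' hp => ?_) h1 h2).trans ?_
  · rcases ha with ha | ha
    · refine le_trans (Nat.cast_le.2 (geo_neg (T := {0}) fun w hw => ?_)) (by simpa using ha0)
      obtain ⟨i, hi, rfl⟩ := mem_image.1 hw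
      obtain ⟨b1, b2, -⟩ := hu q i (mem_filter.1 hi).2
      refine ⟨0, mem_singleton_self _, ?_⟩
      rw [b1, hpv, ha, Nat.sub_zero, Nat.div_eq_of_lt b2.lt]
    · refine le_trans (Nat.cast_le.2 (geo_neg fun w hw => ?_))
        ((X.tame_anc hK1 hjW q).trans (by linarith))
      obtain ⟨i, hi, rfl⟩ := mem_image.1 hw
      obtain ⟨b1, b2, -⟩ := hu q i (mem_filter.1 hi).2
      exact ⟨_, mem_image_of_mem _ (mem_filter.2 ⟨mem_range.2 b2.lt, b2⟩), by rw [b1, hpv]⟩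
  · rcases (D.L.filter fun q => (q, i) ∈ D.G ∧ (q, i') ∈ D.G ∧ D.cls q i = w ∧ D.cls q i' = w' ∧
      (q, w, w') ∉ Bad.image (fun z => (z.1, -(z.2.1 : ℤ), -(z.2.2 : ℤ))) ∪
        Bad.image fun z => (z.1, -(z.2.2 : ℤ), -(z.2.1 : ℤ))).eq_empty_or_nonempty with e | ⟨q, hq⟩
    · rw [e, card_empty, Nat.cast_zero]
      exact hB0
    obtain ⟨-, a1, a2, a3, a4, -⟩ := mem_filter.1 hq
    rw [(hu q i a1).1] at a3
    rw [(hu q i' a2).1] at a4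
    generalize u q i = v at a3
    generalize u q i' = v' at a4
    subst a3 a4
    rw [hpv, hpv, neg_inj, Nat.cast_inj] at hp
    have key : ∀ q' ∈ D.L.filter fun q => (q, i) ∈ D.G ∧ (q, i') ∈ D.G ∧ D.cls q i = -(v : ℤ) ∧
        D.cls q i' = -(v' : ℤ) ∧ (q, -(v : ℤ), -(v' : ℤ)) ∉
          Bad.image (fun z => (z.1, -(z.2.1 : ℤ), -(z.2.2 : ℤ))) ∪
            Bad.image fun z => (z.1, -(z.2.2 : ℤ), -(z.2.1 : ℤ)),
        X.Tame K1 j v q' ∧ X.Tame K1 j v' q' ∧ (q', v, v') ∉ Bad ∧ (q', v', v) ∉ Bad := by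
      intro q' hq'
      obtain ⟨-, b1, b2, b3, b4, b5⟩ := mem_filter.1 hq'
      rw [(hu q' i b1).1, neg_inj, Nat.cast_inj] at b3
      rw [(hu q' i' b2).1, neg_inj, Nat.cast_inj] at b4
      exact ⟨b3 ▸ (hu q' i b1).2.1, b4 ▸ (hu q' i' b2).2.1,
        fun c => b5 (mem_union_left _ (mem_image.2 ⟨_, c, rfl⟩)),
        fun c => b5 (mem_union_right _ (mem_image.2 ⟨_, c, rfl⟩))⟩
    rcases lt_trichotomy v v' with c | c | c
    · refine le_trans (Nat.cast_le.2 (card_le_card fun q' hq' => ?_)) (hBad v v' c hp)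
      obtain ⟨b1, b2, b3, -⟩ := key q' hq'
      exact mem_filter.2 ⟨b1.mem, b1, b2, b3⟩
    · exact absurd (by rw [c]) hw
    · refine le_trans (Nat.cast_le.2 (card_le_card fun q' hq' => ?_)) (hBad v' v c hp.symm)
      obtain ⟨b1, b2, -, b3⟩ := key q' hq'
      exact mem_filter.2 ⟨b1.mem, b2, b1, b3⟩
  · refine le_trans (Nat.cast_le.2 (geo_neg fun w hw => ?_))
      (X.tame_count hK1 hjW (u q i / 16 ^ (j - jW)) (p i))
    obtain ⟨b1, b2, b3⟩ := mem_filter.1 hw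
    obtain ⟨v, rfl, hv⟩ := geo_W hu b1
    refine ⟨v, mem_filter.2 ⟨mem_range.2 hv.lt, hv, ?_⟩, rfl⟩
    have c1 := hpar b2
    have c2 := hpar b3
    rw [hpar.map_min, ← hp, min_self] at c1
    rw [hpar.map_max, ← hp, max_self] at c2
    have c3 := le_antisymm c2 c1
    rwa [(hu q i hi).1, hpv, hpv, neg_inj, Nat.cast_inj] at c3
  · have c1 := hT ((D.tri D.m).filter fun z => (z.1, u z.1 z.2.1, u z.1 z.2.2) ∈ Bad) fun z hz =>
      ⟨(mem_filter.1 (mem_filter.1 hz).1).2.1, (mem_filter.1 (mem_filter.1 hz).1).2.2.1,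
        (mem_filter.1 hz).2⟩
    have c2 := hT (((D.tri D.m).filter fun z => (z.1, u z.1 z.2.2, u z.1 z.2.1) ∈ Bad).image
      fun z => (z.1, z.2.swap)) fun z hz => by
        obtain ⟨y, hy, rfl⟩ := mem_image.1 hz
        exact ⟨(mem_filter.1 (mem_filter.1 hy).1).2.2.1, (mem_filter.1 (mem_filter.1 hy).1).2.1,
          (mem_filter.1 hy).2⟩
    rw [card_image_of_injective _ fun z z' e => Prod.ext (congrArg (·.1) e)
      (Prod.swap_injective (congrArg (·.2) e))] at c2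
    have c3 : ((D.tri D.m).filter fun z => (z.1, D.cls z.1 z.2.1, D.cls z.1 z.2.2) ∈
        Bad.image (fun z => (z.1, -(z.2.1 : ℤ), -(z.2.2 : ℤ))) ∪
          Bad.image fun z => (z.1, -(z.2.2 : ℤ), -(z.2.1 : ℤ))).card ≤ T + T := by
      refine le_trans (card_le_card fun z hz => ?_) ((card_union_le _ _).trans (add_le_add c1 c2))
      obtain ⟨b1, b2⟩ := mem_filter.1 hz
      obtain ⟨-, b3, b4, -⟩ := mem_filter.1 b1
      rw [(hu _ _ b3).1, (hu _ _ b4).1] at b2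
      rcases mem_union.1 b2 with b2 | b2
      · obtain ⟨⟨y1, y2, y3⟩, hy, e⟩ := mem_image.1 b2
        simp only [Prod.mk.injEq, neg_inj, Nat.cast_inj] at e
        obtain ⟨e1, e2, e3⟩ := e
        rw [e1, e2, e3] at hy
        exact mem_union_left _ (mem_filter.2 ⟨b1, hy⟩)
      · obtain ⟨⟨y1, y2, y3⟩, hy, e⟩ := mem_image.1 b2
        simp only [Prod.mk.injEq, neg_inj, Nat.cast_inj] at e
        obtain ⟨e1, e2, e3⟩ := e
        rw [e1, e2, e3] at hy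
        exact mem_union_right _ (mem_filter.2 ⟨b1, hy⟩)
    have c4 := (Nat.cast_le (α := ℝ)).2 c3
    rw [Nat.cast_add] at c4
    linarith

theorem geo_t {K lam Γ C n m t : ℝ} (hK : 2 ≤ K) (hl : K ≤ lam) (hΓ : lam ^ 25 ≤ Γ) (hC : 1 ≤ C)
    (hn : C ^ 6 ≤ n) (hm : n / (K * C) ≤ m) (ht : Γ * m / C ≤ t) :
    1 ≤ t ∧ 4 * K ^ 2 * lam * (n / C ^ 2) ≤ t := by
  have hK0 : 0 < K := by linarith
  have hC0 : 0 < C := by linarith
  have hl2 : 2 ≤ lam := hK.trans hl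
  have hn0 : 0 ≤ n := le_trans (by positivity) hn
  have h1 : 4 * K ^ 3 * lam ≤ Γ :=
    calc 4 * K ^ 3 * lam = 2 ^ 2 * K ^ 3 * lam := by norm_num
      _ ≤ lam ^ 2 * lam ^ 3 * lam := by gcongr
      _ = lam ^ 6 := by ring
      _ ≤ lam ^ 25 := pow_le_pow_right₀ (by linarith) (by norm_num)
      _ ≤ Γ := hΓ
  have h2 : 4 * K ^ 2 * lam * (n / C ^ 2) ≤ t :=
    calc _ = 4 * K ^ 3 * lam * (n / (K * C)) / C := by field_simp
      _ ≤ Γ * m / C := by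
        have : 0 ≤ Γ := le_trans (by positivity) h1
        gcongr
      _ ≤ t := ht
  refine ⟨le_trans ?_ h2, h2⟩
  refine one_le_mul_of_one_le_of_one_le (by nlinarith) ((one_le_div (by positivity)).2 ?_)
  exact (pow_le_pow_right₀ hC (by norm_num)).trans hn

theorem geo_al {K lam : ℝ} (hK : 2 ≤ K) (hl : K ≤ lam) :
    ∃ α : ℕ, lam ^ 24 ≤ 2 ^ α ∧ 2 ^ α ≤ lam ^ 25 := by
  obtain ⟨α, h1, h2⟩ := exists_nat_pow_near (one_le_pow₀ (n := 24) (show 1 ≤ lam by linarith))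
    one_lt_two
  refine ⟨α + 1, h2.le, ?_⟩
  rw [pow_succ, pow_succ lam 24]
  exact mul_le_mul h1 (hK.trans hl) zero_le_two (le_trans (by positivity) h1)

theorem geo_jW {K lam m t : ℝ} (hK : 2 ≤ K) (hl : K ≤ lam) (ht : 0 < t) (hm : t ≤ m) :
    ∃ (jW : ℕ) (a : ℝ), 2 ^ jW * t ≤ m ∧ m ≤ 64 * K ^ 2 * lam * t * 2 ^ jW ∧ 0 ≤ a ∧
      (jW = 0 ∨ K * 2 ^ jW ≤ a) ∧ 32 * K * lam * t * a ≤ m := by
  have hK0 : 0 < K := by linarith
  have hl0 : 0 < lam := by linarith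
  have h0 : 0 < 32 * K ^ 2 * lam * t := by positivity
  rcases le_or_gt 1 (m / (32 * K ^ 2 * lam * t)) with h | h
  · obtain ⟨w, h1, h2⟩ := exists_nat_pow_near h one_lt_two
    rw [le_div_iff₀ h0] at h1
    rw [div_lt_iff₀ h0, pow_succ] at h2
    refine ⟨w, K * 2 ^ w, le_trans ?_ h1, by linarith, by positivity, Or.inr le_rfl, by linarith⟩
    refine mul_le_mul_of_nonneg_left (le_mul_of_one_le_left ht.le ?_) (by positivity)
    nlinarith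
  · rw [div_lt_one h0] at h
    exact ⟨0, 0, by linarith, by linarith, le_rfl, Or.inl rfl, by linarith⟩

theorem geo_b {K K1 lam Γ C m t W : ℝ} (hK : 2 ≤ K) (hl : K ≤ lam) (hΓ : lam ^ 25 ≤ Γ)
    (h1 : K1 ^ 2 ≤ K ^ 2) (hC : 0 < C) (hm : 0 < m) (ht : 0 < t) (hW : 0 < W)
    (h : m ≤ 64 * K ^ 2 * lam * t * W) : K1 ^ 2 * C / W ≤ Γ * C * t / m := by
  have hK0 : 0 < K := by linarith
  have hl2 : 2 ≤ lam := hK.trans hl
  have h2 : 64 * K ^ 4 * lam ≤ Γ :=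
    calc 64 * K ^ 4 * lam = 2 ^ 6 * K ^ 4 * lam := by norm_num
      _ ≤ lam ^ 6 * lam ^ 4 * lam := by gcongr
      _ = lam ^ 11 := by ring
      _ ≤ lam ^ 25 := pow_le_pow_right₀ (by linarith) (by norm_num)
      _ ≤ Γ := hΓ
  rw [div_le_div_iff₀ hW hm]
  calc K1 ^ 2 * C * m ≤ K ^ 2 * C * (64 * K ^ 2 * lam * t * W) := by gcongr
    _ = 64 * K ^ 4 * lam * (C * t * W) := by ring
    _ ≤ Γ * (C * t * W) := by gcongr
    _ = _ := by ring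

theorem geo_fin {K lam C n m t W Al L a T : ℝ} (hK : 2 ≤ K) (hl : K ≤ lam) (hC : 0 < C)
    (hn : 0 < n) (hm : n / (K * C) ≤ m) (ht : 0 < t) (hW : 0 < W)
    (h1 : 4 * K ^ 2 * lam * (n / C ^ 2) ≤ t) (hL : L ≤ K * (n / C ^ 2))
    (h2 : m ≤ 64 * K ^ 2 * lam * t * W) (ha : 0 ≤ a) (h3 : 32 * K * lam * t * a ≤ m)
    (hA : lam ^ 24 ≤ Al) (hT0 : 0 ≤ T) (hT : T * (W * Al) ≤ 4 * K ^ 6 * n ^ 3 / C ^ 4) :
    L * a * (8 * t ^ 2) + L * m * (K * n / C ^ 2) + 4 * T ≤ n / C ^ 2 * m * t / lam := by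
  have hK0 : 0 < K := by linarith
  have hl2 : 2 ≤ lam := hK.trans hl
  have hl0 : 0 < lam := by linarith
  have hm0 : 0 < m := lt_of_lt_of_le (by positivity) hm
  obtain ⟨N, hN⟩ : ∃ N, N = n / C ^ 2 := ⟨_, rfl⟩
  have hN0 : 0 < N := by rw [hN]; positivity
  have e1 : 4 * K ^ 6 * n ^ 3 / C ^ 4 = 4 * K ^ 8 * N * (n / (K * C)) ^ 2 := by
    rw [hN]; field_simp
  rw [mul_div_assoc K n, ← hN, le_div_iff₀ hl0]
  rw [← hN] at h1 hL
  rw [e1] at hT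
  have a1 : L * a * (8 * t ^ 2) * lam ≤ N * m * t / 4 :=
    calc _ ≤ K * N * a * (8 * t ^ 2) * lam := by gcongr
      _ = N * (32 * K * lam * t * a) * t / 4 := by ring
      _ ≤ _ := by gcongr
  have a2 : L * m * (K * N) * lam ≤ N * m * t / 4 :=
    calc _ ≤ K * N * m * (K * N) * lam := by gcongr
      _ = N * m * (4 * K ^ 2 * lam * N) / 4 := by ring
      _ ≤ _ := by gcongr
  have a3 : 2048 * K ^ 10 * lam ^ 2 ≤ Al :=
    calc 2048 * K ^ 10 * lam ^ 2 = 2 ^ 11 * K ^ 10 * lam ^ 2 := by norm_num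
      _ ≤ lam ^ 11 * lam ^ 10 * lam ^ 2 := by gcongr
      _ = lam ^ 23 := by ring
      _ ≤ lam ^ 24 := pow_le_pow_right₀ (by linarith) (by norm_num)
      _ ≤ Al := hA
  have a4 : 4 * T * lam ≤ N * m * t / 2 := by
    refine le_of_mul_le_mul_right (a := 512 * K ^ 10 * lam * W) ?_ (by positivity)
    calc _ = T * (W * (2048 * K ^ 10 * lam ^ 2)) := by ring
      _ ≤ T * (W * Al) := by gcongr
      _ ≤ 4 * K ^ 8 * N * (n / (K * C)) ^ 2 := hT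
      _ ≤ 4 * K ^ 8 * N * m ^ 2 := by gcongr
      _ = 4 * K ^ 8 * N * m * m := by ring
      _ ≤ 4 * K ^ 8 * N * m * (64 * K ^ 2 * lam * t * W) := by gcongr
      _ = _ := by ring
  linarith

theorem Cfg.geo : ∃ c : ℕ, ∀ (X : Cfg) (K : ℝ) (j : ℕ) (K1 r : ℝ) (j1 m0 : ℕ)
    (Z A : ℕ → Finset Pt) (G Pi : Finset Ed), X.Big K → 4 ^ j ≤ X.d →
    X.Setup K j K1 r j1 m0 Z A G Pi → ∃ D : SD, D.C = 2 ^ j ∧ D.Hyp (K ^ c) c := by
  obtain ⟨cI, hI⟩ := Cfg.ind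
  refine ⟨25 * cI + 25, fun X K j K1 r j1 m0 Z A G Pi hB hj h => ?_⟩
  have hK := hB.1
  have hK0 : 0 < K := by linarith
  have hK1 : 0 < K1 := by linarith [h.two_le]
  have hd := X.d_pos
  have hn : 0 < X.n := X.n_eq ▸ pow_pos hd 3
  have hC : (0 : ℝ) < 2 ^ j := by positivity
  have e4 : (4 : ℝ) ^ j = (2 ^ j) ^ 2 := by rw [← pow_mul, mul_comm, pow_mul]; norm_num
  have e8 : (8 : ℝ) ^ j = (2 ^ j) ^ 3 := by rw [← pow_mul, mul_comm, pow_mul]; norm_num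
  have e16 : (16 : ℝ) ^ j = (2 ^ j) ^ 4 := by rw [← pow_mul, mul_comm, pow_mul]; norm_num
  have hCd : (2 : ℝ) ^ j ≤ X.d := le_trans (pow_le_pow_left₀ zero_le_two (by norm_num) j) hj
  have hdn : X.d ≤ X.n := X.n_eq ▸ le_self_pow₀ X.one_le_d three_ne_zero
  have hA : ∀ u, ∀ p ∈ A u, u < 16 ^ j := fun u p hp => (h.A_tame u p hp).lt
  have hex : ∀ x : ℕ × ℕ, ∃ Bad : Finset (Pt × ℕ × ℕ),
      (Bad.card : ℝ) * (2 ^ x.2 * 2 ^ x.1) ≤ X.n * 4 ^ j ∧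
      (K ≤ 2 ^ x.1 → x.2 ≤ j → (2 : ℝ) ^ x.2 * (2 ^ x.1) ^ cI ≤ 2 ^ j →
        ∀ u u', u < u' → u / 16 ^ (j - x.2) = u' / 16 ^ (j - x.2) →
        ((X.P.filter fun q => X.Tame K1 j u q ∧ X.Tame K1 j u' q ∧ (q, u, u') ∉ Bad).card : ℝ) ≤
          (2 ^ x.1) ^ cI * X.n * 2 ^ x.2 / 16 ^ j) := by
    intro x
    by_cases hx : K ≤ 2 ^ x.1 ∧ x.2 ≤ j ∧ (2 : ℝ) ^ x.2 * (2 ^ x.1) ^ cI ≤ 2 ^ j
    · obtain ⟨Bad, b1, -, b2⟩ := hI X (2 ^ x.1) K1 x.2 j (hB.mono hx.1) h.two_le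
        (h.le_K.trans hx.1) hx.2.1 hx.2.2 hj
      exact ⟨Bad, (le_div_iff₀ (by positivity)).1 b1, fun _ _ _ => b2⟩
    · refine ⟨∅, ?_, fun a b c => absurd ⟨a, b, c⟩ hx⟩
      rw [card_empty, Nat.cast_zero, zero_mul]
      positivity
  choose Bad hB1 hB2 using hex
  have hPi : (0 : ℝ) < Pi.card := lt_of_lt_of_le (by positivity) h.Pi_ge
  obtain ⟨e0, he0, hΦ⟩ := exists_le_of_sum_le (s := Pi) (card_pos.1 (Nat.cast_pos.1 hPi))
    (f := fun e0 => ∑ x ∈ range (j + 1) ×ˢ range (j + 1),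
      (X.tb j r j1 m0 Z A G (Bad x) e0 : ℝ) * (2 ^ x.2 * 2 ^ x.1))
    (g := fun _ => 4 * K ^ 6 * X.n ^ 3 / (2 ^ j) ^ 4) (by
      rw [sum_comm, sum_const, nsmul_eq_mul]
      refine (sum_le_card_nsmul _ _ (K ^ 3 * X.n ^ 4 * X.d / (2 ^ j) ^ 4) fun x _ => ?_).trans ?_
      · rw [← sum_mul]
        refine (mul_le_mul_of_nonneg_right (tb_sum h (Bad x)) (by positivity)).trans ?_
        calc _ = (Bad x).card * (2 ^ x.2 * 2 ^ x.1) *
              ((K * X.n * X.d / 4 ^ j) * (K * X.n / 4 ^ j) ^ 2) := by ring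
          _ ≤ X.n * 4 ^ j * ((K * X.n * X.d / 4 ^ j) * (K * X.n / 4 ^ j) ^ 2) :=
            mul_le_mul_of_nonneg_right (hB1 x) (by positivity)
          _ = _ := by rw [e4]; field_simp
      · rw [card_product, card_range, nsmul_eq_mul, Nat.cast_mul, Nat.cast_succ]
        have a1 := hB.scales hCd
        have a2 := h.Pi_ge
        calc _ ≤ 2 * K * (2 * K) * (K ^ 3 * X.n ^ 4 * X.d / (2 ^ j) ^ 4) := by gcongr
          _ = X.n * X.d / K * (4 * K ^ 6 * X.n ^ 3 / (2 ^ j) ^ 4) := by field_simp; ring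
          _ ≤ _ := by gcongr)
  obtain ⟨D, f, hm, hN, hDC, hf, hinj, hx, hom, hL, hG, hcls⟩ :=
    X.build j j1 m0 Z A r h.G_sub (h.Pi_sub he0) hA
  have hGm : ∀ q i, (q, i) ∈ D.G → i < D.m ∧ q ∈ X.links j Z A r (f i) := fun q i hq => by
    rw [hG] at hq
    exact ⟨mem_range.1 (mem_product.1 (mem_filter.1 hq).1).2, (mem_filter.1 hq).2⟩
  have hu : ∀ q i, (q, i) ∈ D.G → D.cls q i = -(X.wi j (sl (q, (f i).1)) : ℤ) ∧
      X.Tame K1 j (X.wi j (sl (q, (f i).1))) q ∧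
      X.Tame K1 j (X.wi j (sl (q, (f i).1))) (f i).1 := fun q i hq =>
    have d1 := X.links_spec j Z A r hA (hGm q i hq).2
    ⟨hcls q i hq, h.Z_tame _ _ d1.2.2.2.1, h.A_tame _ _ d1.2.2.1⟩
  have hGs : D.G ⊆ D.L ×ˢ range D.m := hG ▸ filter_subset _ _
  have hm1 : X.n / (K * 2 ^ j) ≤ D.m := hm ▸ h.m_ge e0 he0
  have hm0 : (0 : ℝ) < D.m := lt_of_lt_of_le (by positivity) hm1
  have hN0 : 0 < D.N := by rw [hN]; positivity
  have hLN : (D.L.card : ℝ) ≤ K * D.N := by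
    rw [hL, hN, ← mul_div_assoc]
    exact h.L_le e0 he0
  have huse : ∀ w, (((range D.m).filter fun i => w ∈ D.W i).card : ℝ) ≤ K * X.n / 4 ^ j := by
    intro w
    refine le_trans (Nat.cast_le.2 (card_le_card_of_injOn f (fun i hi => ?_) fun i hi i' hi' e =>
      hinj i (mem_range.1 (mem_filter.1 hi).1) i' (mem_range.1 (mem_filter.1 hi').1) e))
      (h.use_le e0 he0 (-w).toNat)
    obtain ⟨a1, a2⟩ := mem_filter.1 (mem_coe.1 hi)
    obtain ⟨⟨q, i'⟩, a3, rfl⟩ := mem_image.1 a2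
    obtain ⟨a4, rfl⟩ := mem_filter.1 a3
    have d1 := X.links_spec j Z A r hA (hGm q i' a4).2
    rw [hcls q i' a4, neg_neg, Int.toNat_natCast]
    exact mem_coe.2 (mem_filter.2 ⟨hf _ (mem_range.1 a1), d1.2.2.1, d1.2.1⟩)
  have hK2 : K ^ 2 ≤ K ^ (25 * cI + 25) := pow_le_pow_right₀ (by linarith) (by omega)
  have hKK : K ≤ K ^ 2 := le_self_pow₀ (by linarith) two_ne_zero
  have hK12 : K1 ^ 2 ≤ K ^ 2 := pow_le_pow_left₀ hK1.le h.le_K 2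
  refine ⟨D, hDC, SD.Hyp.mono (K := K ^ 2) ⟨by linarith, hN0, hDC ▸ hC, Nat.cast_pos.1 hm0, hx, hom,
    hGs, hLN.trans (by gcongr), ?_, fun i => ?_, fun i w => ?_, fun w => (huse w).trans ?_, ?_,
    fun lam t h1 h2 h3 h4 => ?_⟩ hK2⟩
  · have e : D.G.card = ∑ i ∈ range D.m, (D.L.filter fun q => q ∈ X.links j Z A r (f i)).card := by
      rw [hG, card_filter, sum_product_right]
      exact sum_congr rfl fun i _ => (card_filter _ _).symm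
    have a1 := card_nsmul_le_sum (range D.m)
      (fun i => ((D.L.filter fun q => q ∈ X.links j Z A r (f i)).card : ℝ)) (X.n / (K * 4 ^ j))
      fun i hi => (h.links_ge (f i) (mem_filter.1 (hf i (mem_range.1 hi))).1).trans
        (Nat.cast_le.2 (card_le_card fun q hq => mem_filter.2
          ⟨hL ▸ mem_biUnion.2 ⟨f i, hf i (mem_range.1 hi), hq⟩, hq⟩))
    rw [card_range, nsmul_eq_mul, ← Nat.cast_sum, ← e] at a1
    refine le_trans ?_ a1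
    calc D.N * D.m / K ^ 2 ≤ D.N * D.m / K := by gcongr
      _ = _ := by rw [hN]; field_simp
  · have a1 := X.tame_anc hK1 (le_refl j) (f i).1
    simp only [Nat.sub_self, pow_zero, Nat.div_one, image_id'] at a1
    refine le_trans (Nat.cast_le.2 (geo_neg fun w hw => ?_)) (a1.trans ?_)
    · obtain ⟨v, rfl, hv⟩ := geo_W hu hw
      exact ⟨v, mem_filter.2 ⟨mem_range.2 hv.lt, hv⟩, rfl⟩
    · rw [hDC]
      exact mul_le_mul_of_nonneg_right (h.le_K.trans hKK) hC.le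
  · rcases (D.L.filter fun q => (q, i) ∈ D.G ∧ D.cls q i = w).eq_empty_or_nonempty with e | ⟨q, hq⟩
    · rw [e, card_empty, Nat.cast_zero, hDC]
      positivity
    obtain ⟨-, a1, a2⟩ := mem_filter.1 hq
    have a3 := (hu q i a1).2.1.act_card hK1.le le_rfl
    rw [Nat.sub_self, pow_zero, Nat.div_one] at a3
    refine le_trans (Nat.cast_le.2 (card_le_card fun q' hq' => ?_)) (a3.trans ?_)
    · obtain ⟨-, b1, b2⟩ := mem_filter.1 hq'
      rw [← a2, hcls q i a1, hcls q' i b1, neg_inj, Nat.cast_inj] at b2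
      exact b2 ▸ (hu q' i b1).2.1.act hK1
    · rw [Cfg.sz, hN, hDC, e8, e4]
      calc K1 ^ 2 * (X.n / (2 ^ j) ^ 3) ≤ K ^ 2 * (X.n / (2 ^ j) ^ 3) := by gcongr
        _ = _ := by field_simp
  · rw [hDC, e4]
    calc K * X.n / (2 ^ j) ^ 2 = K ^ 2 * (X.n / (K * 2 ^ j)) / 2 ^ j := by field_simp
      _ ≤ _ := by gcongr
  · rw [hDC]
    exact (hCd.trans (hdn.trans hB.2.2)).trans (Real.rpow_le_rpow_of_exponent_le one_le_two hKK)
  have hKl : K ≤ lam := hKK.trans h1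
  have hl1 : 1 ≤ lam := by linarith
  have hΓ : lam ^ 25 ≤ lam ^ (25 * cI + 25) := pow_le_pow_right₀ hl1 (by omega)
  have hC6 : (2 ^ j) ^ 6 ≤ X.n := by
    rw [X.n_eq, show (6 : ℕ) = 2 * 3 from rfl, pow_mul, ← e4]
    exact pow_le_pow_left₀ (by positivity) hj 3
  rw [hDC] at h2 h3
  have ht := geo_t hK hKl hΓ (one_le_pow₀ one_le_two) hC6 hm1 h3
  have ht0 : 0 < t := by linarith [ht.1]
  obtain ⟨α, hα1, hα2⟩ := geo_al hK hKl
  obtain ⟨jW, a, w1, w2, w3, w4, w5⟩ := geo_jW hK hKl ht0 h4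
  have hp : (2 : ℝ) * (2 ^ α) ^ cI ≤ lam ^ (25 * cI + 25) := by
    rw [pow_add, pow_mul, mul_comm]
    exact mul_le_mul (pow_le_pow_left₀ (by positivity) hα2 _)
      ((hK.trans hKl).trans (le_self_pow₀ hl1 (by norm_num))) zero_le_two (by positivity)
  have hW : 2 ^ jW * lam ^ (25 * cI + 25) ≤ 2 ^ j := by
    rw [div_le_iff₀ hC] at h3
    refine le_of_mul_le_mul_right (a := t) ?_ ht0
    calc _ = lam ^ (25 * cI + 25) * (2 ^ jW * t) := by ring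
      _ ≤ lam ^ (25 * cI + 25) * D.m := by gcongr
      _ ≤ _ := h3.trans_eq (mul_comm _ _)
  have hW0 : (0 : ℝ) < 2 ^ jW := by positivity
  have hjW : jW ≤ j := (pow_le_pow_iff_right₀ (one_lt_two (α := ℝ))).1
    ((le_mul_of_one_le_right hW0.le (one_le_pow₀ hl1)).trans hW)
  have hαj : α ≤ j := (pow_le_pow_iff_right₀ (one_lt_two (α := ℝ))).1 (hα2.trans (hΓ.trans h2))
  have hT : (X.tb j r j1 m0 Z A G (Bad (α, jW)) e0 : ℝ) * (2 ^ jW * 2 ^ α) ≤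
      4 * K ^ 6 * X.n ^ 3 / (2 ^ j) ^ 4 :=
    le_trans (single_le_sum (f := fun x : ℕ × ℕ =>
      (X.tb j r j1 m0 Z A G (Bad x) e0 : ℝ) * (2 ^ x.2 * 2 ^ x.1)) (fun _ _ => by positivity)
      (a := (α, jW)) (mem_product.2 ⟨mem_range.2 (by omega), mem_range.2 (by omega)⟩)) hΦ
  have hp0 : (0 : ℝ) < (2 ^ α) ^ cI := by positivity
  refine (geo_bad (T := X.tb j r j1 m0 Z A G (Bad (α, jW)) e0) hK1 hjW hu hx hom hGs ht.1
    (by positivity) (by positivity) huse (hB2 (α, jW)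
      (hKl.trans ((le_self_pow₀ hl1 (by norm_num)).trans hα1)) hjW
      (le_trans (mul_le_mul_of_nonneg_left (by linarith) hW0.le) hW)) (fun S hS => ?_) w3
    (w4.imp id fun e => le_trans (mul_le_mul_of_nonneg_right h.le_K hW0.le) e) ?_ ?_).trans ?_
  · refine card_le_card_of_injOn (fun z => ((z.1, X.wi j (sl (z.1, (f z.2.1).1)),
      X.wi j (sl (z.1, (f z.2.2).1))), f z.2.1, f z.2.2)) (fun z hz => ?_) fun z hz z' hz' e => ?_
    · obtain ⟨a1, a2, a3⟩ := hS z hz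
      exact mem_coe.2 (mem_filter.2 ⟨mem_product.2 ⟨a3, mem_product.2
        ⟨hf _ (hGm _ _ a1).1, hf _ (hGm _ _ a2).1⟩⟩, (hGm _ _ a1).2, (hGm _ _ a2).2, rfl, rfl⟩)
    · obtain ⟨a1, a2, -⟩ := hS z hz
      obtain ⟨b1, b2, -⟩ := hS z' hz'
      exact Prod.ext (congrArg (·.1.1) e) (Prod.ext
        (hinj _ (hGm _ _ a1).1 _ (hGm _ _ b1).1 (congrArg (·.2.1) e))
        (hinj _ (hGm _ _ a2).1 _ (hGm _ _ b2).1 (congrArg (·.2.2) e)))
  · rw [hN, hDC, e4, e16]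
    calc _ = 2 * (2 ^ α) ^ cI * (2 ^ jW * t) * (X.n / ((2 ^ j) ^ 4 * t)) := by field_simp
      _ ≤ lam ^ (25 * cI + 25) * D.m * (X.n / ((2 ^ j) ^ 4 * t)) := by gcongr
      _ = _ := by field_simp
  · rw [hDC]
    exact geo_b hK hKl hΓ hK12 hC hm0 ht0 hW0 w2
  · rw [hN, e4] at hLN ⊢
    exact geo_fin hK hKl hC hn hm1 ht0 hW0 ht.2 hLN w2 w3 w5 hα1 (Nat.cast_nonneg _) hT

end Vale.Agent.P065.U
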