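import Vale.Agent.P065.U.TokApi

/-!
P065/U task Hit: two points of a segment are separated by few chains.

`hit_dd`. e = (p,r), s = sl e, θlo, θhi below and above all slopes. A chain whose position at s, θlo
or θhi has abscissa in [p.1, r.1] is one of ≤ 3 xc (`pos_inj`). Let c be another chain with z in
and z' out of Epi. Epi forces (pos θlo).1 ≤ z.1 ≤ (pos θhi).1 (let θ → ∓∞; positions are constant
there), so start and end lie on both sides of the range. Say v = pos s is left of p. It is strictly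
below line e (weakly since z ∈ Epi; equality would make v, p, r collinear). Since z' ∉ Epi the chain
passes strictly above z'; `switch` gives an edge f after v with left end strictly below and right
end weakly above line e, and its meeting point y with line e has z.1 ≤ y.1 < z'.1 (if y were left of
z the chain would pass strictly above z, or contain e itself, which puts pos s = p in the range), so
WX e f. If v is right of r one gets WX f e symmetrically. chain ↦ f is injective. xc z z' ≤ xc p r.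

`piece_dd`. Walk along the chain from e0.1 to e.1 (all edges used are in the piece), then to the
meeting point of e and f, then to f.1; use `dd_tri` and `hit_dd`.
-/

namespace Vale.Agent.P065.U

open Finset Classical

theorem hit_fv (σ τ : ℝ) (a b : Pt) :
    fv τ b - fv τ a = fv σ b - fv σ a - (τ - σ) * (b.1 - a.1) := by
  unfold fv
  ring

theorem hit_alg {A B X Y μ ν : ℝ} (hA : 0 < A) (hB : 0 ≤ B) (hμ : 0 < μ) (h1 : μ * X < -A)
    (h2 : μ * Y < B) (hX : X < Y) (h : ν * (Y - X) = A + B) : ν * X < -A := by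
  have h3 : A * Y < -B * X := lt_of_mul_lt_mul_left (by nlinarith) hμ.le
  refine lt_of_mul_lt_mul_right ?_ (sub_pos.2 hX).le
  rw [mul_right_comm, h]
  linarith

/-- `z` lies on the segment `e`. -/
def HitOn (e : Ed) (z : Pt) : Prop := fv (sl e) z = fv (sl e) e.1 ∧ e.1.1 ≤ z.1 ∧ z.1 ≤ e.2.1

theorem hit_core {P : Finset Pt} (hP : Gen P) (T : Tok P) {a : ℕ} {e : Ed} (he : e ∈ prs P)
    {lo hi : ℝ} (hb : ∀ f ∈ prs P, lo ≤ sl f ∧ sl f < hi) {c z z' : Pt} (hc : c ∈ T.lab a)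
    (hz : HitOn e z) (hz' : HitOn e z') (h1 : T.Epi a c z) (h2 : ¬ T.Epi a c z')
    (ho : ∀ θ, θ = sl e ∨ θ = lo ∨ θ = hi → (T.pos a c θ).1 < e.1.1 ∨ e.2.1 < (T.pos a c θ).1) :
    ∃ f ∈ T.chain a c, WX e f ∨ WX f e := by
  obtain ⟨hp, hr, hx⟩ := mem_prs.1 he
  obtain ⟨θ, hθ⟩ := not_forall.1 h2
  have hm : ∀ θ', fv θ z' < fv θ (T.pos a c θ') := fun θ' =>
    (not_le.1 hθ).trans_le (T.pos_min hP hc θ θ')
  have hv : fv (sl e) (T.pos a c (sl e)) < fv (sl e) e.1 :=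
    ((h1 _).trans hz.1.le).lt_of_ne (hP.ncol _ hp _ hr _ (T.pos_mem a c hc _) _
      (fun h => by simp [h] at hx)
      (fun h => by rcases ho _ (Or.inl rfl) with h' | h' <;> rw [← h] at h' <;> linarith)
      (fun h => by rcases ho _ (Or.inl rfl) with h' | h' <;> rw [← h] at h' <;> linarith)
      (fv_sl hx)).symm
  have hf : ∀ f ∈ T.chain a c, f.1.1 < f.2.1 ∧ fv (sl f) f.1 ≤ fv (sl f) z ∧
      fv θ z' < fv θ f.1 ∧ fv θ z' < fv θ f.2 := fun f hf => by
    obtain ⟨k1, rfl⟩ := T.mem_chain.1 hf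
    exact ⟨(mem_prs.1 (edges_sub _ _ k1)).2.2, T.pos_at a f k1 ▸ h1 (sl f),
      (not_le.1 hθ).trans_le (T.pos_min_left hP k1 θ),
      (not_le.1 hθ).trans_le (T.pos_min_right hP k1 θ)⟩
  have e0 := hit_fv (sl e) θ z' (T.pos a c (sl e))
  have m0 := hm (sl e)
  obtain ⟨z1, z2, z3⟩ := hz
  obtain ⟨y1, y2, y3⟩ := hz'
  rcases ho _ (Or.inl rfl) with h | h
  · have hμ : 0 < θ - sl e := by nlinarith
    have hu : z.1 ≤ (T.pos a c hi).1 := le_of_not_gt fun hu => by
      have k := h1 (max hi ((z.2 - (T.pos a c hi).2) / (z.1 - (T.pos a c hi).1) + 1))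
      rw [← T.pos_const a c hc hi _ (le_max_left _ _) fun f hf _ h =>
        (hb f (edges_sub _ _ hf)).2.not_ge h.1] at k
      have k2 := (div_lt_iff₀ (sub_pos.2 hu)).1 ((lt_add_one _).trans_le (le_max_right hi
        ((z.2 - (T.pos a c hi).2) / (z.1 - (T.pos a c hi).1) + 1)))
      unfold fv at k
      linarith
    have hu' : e.2.1 < (T.pos a c hi).1 :=
      (ho _ (Or.inr (Or.inr rfl))).resolve_left (z2.trans hu).not_gt
    obtain ⟨f, hfc, -, -, k1, k2⟩ := T.switch hP hc (hb e he).2.le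
      (fun y => fv (sl e) y < fv (sl e) e.1) hv
      (not_lt.2 (by nlinarith [hit_fv (sl e) θ z' (T.pos a c hi), hm hi]))
    obtain ⟨k3, k4, k5, k6⟩ := hf f hfc
    have k7 := (fv_lt_iff k3 _).1 (k1.trans_le (not_lt.1 k2))
    refine ⟨f, hfc, Or.inl ⟨k7, k1, not_lt.1 k2, ?_, ?_⟩⟩
    · nlinarith [hit_fv (sl e) (sl f) e.1 z]
    · have := hit_alg (X := f.1.1 - z'.1) (Y := f.2.1 - z'.1) (ν := sl f - sl e) (sub_pos.2 k1)
        (sub_nonneg.2 (not_lt.1 k2)) hμ (by linarith [hit_fv (sl e) θ z' f.1])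
        (by linarith [hit_fv (sl e) θ z' f.2]) (by linarith) (by linarith [fv_sub k3 (sl e)])
      nlinarith [hit_fv (sl e) (sl f) z' f.1, hit_fv (sl e) (sl f) z' e.2, fv_sl hx]
  · have hμ : 0 < sl e - θ := by nlinarith
    have hu : (T.pos a c lo).1 ≤ z.1 := le_of_not_gt fun hu => by
      have k := h1 (min lo (((T.pos a c lo).2 - z.2) / ((T.pos a c lo).1 - z.1) - 1))
      rw [T.pos_const a c hc _ lo (min_le_left _ _) fun f hf _ h =>
        (hb f (edges_sub _ _ hf)).1.not_gt h.2] at k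
      have k2 := (lt_div_iff₀ (sub_pos.2 hu)).1 ((min_le_right lo
        (((T.pos a c lo).2 - z.2) / ((T.pos a c lo).1 - z.1) - 1)).trans_lt (sub_one_lt _))
      unfold fv at k
      linarith
    have hu' : (T.pos a c lo).1 < e.1.1 :=
      (ho _ (Or.inr (Or.inl rfl))).resolve_right (hu.trans z3).not_gt
    obtain ⟨f, hfc, -, k7, k1, k2⟩ := T.switch hP hc (hb e he).1
      (fun y => fv (sl e) e.1 ≤ fv (sl e) y)
      (by nlinarith [hit_fv (sl e) θ z' (T.pos a c lo), hm lo]) hv.not_ge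
    obtain ⟨k3, k4, k5, k6⟩ := hf f hfc
    refine ⟨f, hfc, Or.inr ⟨k7, ?_, ?_, k1, not_le.1 k2⟩⟩
    · have := hit_alg (X := z'.1 - f.2.1) (Y := z'.1 - f.1.1) (ν := sl e - sl f)
        (sub_pos.2 (not_le.1 k2)) (sub_nonneg.2 k1) hμ (by linarith [hit_fv (sl e) θ z' f.2])
        (by linarith [hit_fv (sl e) θ z' f.1]) (by linarith) (by linarith [fv_sub k3 (sl e)])
      nlinarith [hit_fv (sl e) (sl f) z' f.2, hit_fv (sl e) (sl f) z' e.1, fv_sl k3]
    · nlinarith [hit_fv (sl e) (sl f) z e.2, fv_sl hx]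

theorem hit_on {P : Finset Pt} (hP : Gen P) (T : Tok P) (a : ℕ) {e : Ed} (he : e ∈ prs P)
    {z z' : Pt} (hz : HitOn e z) (hz' : HitOn e z') : T.dd a z z' ≤ hit P a e := by
  obtain ⟨lo, hlo⟩ := ((prs P).finite_toSet.image sl).bddBelow
  obtain ⟨hi, hhi⟩ := ((prs P).finite_toSet.image sl).bddAbove
  have hb : ∀ f ∈ prs P, lo ≤ sl f ∧ sl f < hi + 1 := fun f hf =>
    ⟨hlo ⟨f, hf, rfl⟩, (hhi ⟨f, hf, rfl⟩).trans_lt (lt_add_one _)⟩
  have hx := (mem_prs.1 he).2.2.le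
  let B : ℝ → Finset Pt := fun θ =>
    (T.lab a).filter fun c => e.1.1 ≤ (T.pos a c θ).1 ∧ (T.pos a c θ).1 ≤ e.2.1
  have hB : ∀ θ, (B θ).card ≤ xc P e.1 e.2 := fun θ =>
    card_le_card_of_injOn (T.pos a · θ) (fun c hc => by
      obtain ⟨h1, h2⟩ := mem_filter.1 hc
      exact mem_filter.2 ⟨T.pos_mem a c h1 θ, by rwa [min_eq_left hx, max_eq_right hx]⟩)
      fun c hc c' hc' => T.pos_inj a c (mem_filter.1 hc).1 c' (mem_filter.1 hc').1 θ
  have h1 : xc P z z' ≤ xc P e.1 e.2 := card_le_card fun y hy => by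
    obtain ⟨k1, k2, k3⟩ := mem_filter.1 hy
    exact mem_filter.2 ⟨k1, (min_le_left _ _).trans ((le_min hz.2.1 hz'.2.1).trans k2),
      (k3.trans (max_le hz.2.2 hz'.2.2)).trans (le_max_right _ _)⟩
  have h2 : ((T.lab a).filter fun c => ¬ (T.Epi a c z ↔ T.Epi a c z')) ⊆
      (((edges P a).filter fun f => WX e f).image (T.ch a) ∪
        ((edges P a).filter fun f => WX f e).image (T.ch a)) ∪
        (B (sl e) ∪ (B lo ∪ B (hi + 1))) := fun c hc => by
    obtain ⟨k1, k2⟩ := mem_filter.1 hc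
    refine mem_union.2 (or_iff_not_imp_right.2 fun k3 => ?_)
    have ho : ∀ θ, θ = sl e ∨ θ = lo ∨ θ = hi + 1 →
        (T.pos a c θ).1 < e.1.1 ∨ e.2.1 < (T.pos a c θ).1 := fun θ hθ => by
      have : c ∉ B θ := fun h => k3 (by rcases hθ with rfl | rfl | rfl <;> simp [h])
      simpa only [B, mem_filter, k1, true_and, not_and_or, not_le] using this
    obtain ⟨f, hf, hw⟩ : ∃ f ∈ T.chain a c, WX e f ∨ WX f e := by
      by_cases k4 : T.Epi a c z
      · exact hit_core hP T he hb k1 hz hz' k4 (fun h => k2 (iff_of_true k4 h)) ho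
      · exact hit_core hP T he hb k1 hz' hz (by_contra fun h => k2 (iff_of_false k4 h)) k4 ho
    obtain ⟨k5, k6⟩ := T.mem_chain.1 hf
    exact mem_union.2 (hw.imp (fun h => mem_image.2 ⟨f, mem_filter.2 ⟨k5, h⟩, k6⟩)
      fun h => mem_image.2 ⟨f, mem_filter.2 ⟨k5, h⟩, k6⟩)
  have h3 := (card_le_card h2).trans ((card_union_le _ _).trans (add_le_add
    ((card_union_le _ _).trans (add_le_add card_image_le card_image_le))
    ((card_union_le _ _).trans (add_le_add (hB _) ((card_union_le _ _).trans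
      (add_le_add (hB _) (hB _)))))))
  unfold Tok.dd hit
  omega

theorem hit_left {P : Finset Pt} {e : Ed} (he : e ∈ prs P) : HitOn e e.1 :=
  ⟨rfl, le_rfl, (mem_prs.1 he).2.2.le⟩

theorem hit_right {P : Finset Pt} {e : Ed} (he : e ∈ prs P) : HitOn e e.2 :=
  ⟨(fv_sl (mem_prs.1 he).2.2).symm, (mem_prs.1 he).2.2.le, le_rfl⟩

theorem hit_walk {P : Finset Pt} (hP : Gen P) (T : Tok P) {a : ℕ} {c : Pt} {e0 : Ed}
    (h0 : e0 ∈ T.chain a c) (n : ℕ) : ∀ e ∈ T.chain a c, sl e0 ≤ sl e →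
      ((T.chain a c).filter fun f => sl f < sl e).card = n → ∀ y, HitOn e y →
      T.dd a e0.1 y ≤ ∑ f ∈ (T.chain a c).filter fun f => sl e0 ≤ sl f ∧ sl f ≤ sl e, hit P a f := by
  induction n using Nat.strong_induction_on with
  | _ n ih =>
    intro e he hle hn y hy
    obtain ⟨k1, k2⟩ := T.mem_chain.1 he
    have k3 := hit_on hP T a (edges_sub _ _ k1) (hit_left (edges_sub _ _ k1)) hy
    rcases hle.eq_or_lt with h | h
    · rw [sl_inj hP (T.mem_chain.1 h0).1 k1 h]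
      exact k3.trans (single_le_sum (fun _ _ => Nat.zero_le _) (mem_filter.2 ⟨he, le_rfl, le_rfl⟩))
    · obtain ⟨f, hf, l1, l2, l3⟩ := T.pos_end hP h0 h
      rw [← k2, T.pos_at a e k1] at l3
      have l4 := ih _ (hn ▸ card_lt_card ⟨fun g hg => mem_filter.2
        ⟨(mem_filter.1 hg).1, (mem_filter.1 hg).2.trans l2⟩, fun hs => lt_irrefl _
          (mem_filter.1 (hs (mem_filter.2 ⟨hf, l2⟩))).2⟩) f hf l1 rfl _
        (hit_right (edges_sub _ _ (T.mem_chain.1 hf).1))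
      refine (T.dd_tri a _ e.1 _).trans ((add_le_add (l3 ▸ l4) k3).trans ?_)
      rw [add_comm, ← sum_insert fun hs => (mem_filter.1 hs).2.2.not_gt l2]
      exact sum_le_sum_of_subset (insert_subset (mem_filter.2 ⟨he, hle, le_rfl⟩) fun g hg =>
        mem_filter.2 ⟨(mem_filter.1 hg).1, (mem_filter.1 hg).2.1, (mem_filter.1 hg).2.2.trans l2.le⟩)

theorem hit_dd {P : Finset Pt} (hP : Gen P) (T : Tok P) (a : ℕ) {e : Ed} (he : e ∈ prs P)
    (s t : ℝ) (hs0 : 0 ≤ s) (hs1 : s ≤ 1) (ht0 : 0 ≤ t) (ht1 : t ≤ 1) :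
    T.dd a (e.1 + s • (e.2 - e.1)) (e.1 + t • (e.2 - e.1)) ≤ hit P a e := by
  have hx := (mem_prs.1 he).2.2
  have key : ∀ u : ℝ, 0 ≤ u → u ≤ 1 → HitOn e (e.1 + u • (e.2 - e.1)) := fun u h0 h1 => by
    have := fv_sl hx
    simp only [HitOn, fv, Prod.fst_add, Prod.snd_add, Prod.smul_fst, Prod.smul_snd, Prod.fst_sub,
      Prod.snd_sub, smul_eq_mul] at this ⊢
    exact ⟨by linear_combination -u * this, by nlinarith, by nlinarith⟩
  exact hit_on hP T a he (key s hs0 hs1) (key t ht0 ht1)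

theorem hit_ends {P : Finset Pt} (hP : Gen P) (T : Tok P) (a : ℕ) {e : Ed} (he : e ∈ prs P) :
    T.dd a e.1 e.2 ≤ hit P a e := by
  exact hit_on hP T a he (hit_left he) (hit_right he)

theorem piece_dd (X : Cfg) (j m0 : ℕ) {e0 e f : Ed} (h0 : e0 ∈ X.F) (he : e ∈ X.piece j m0 e0)
    (hf : f ∈ X.F) (hx : XC e f) :
    X.T.dd X.k e0.1 f.1 ≤ ∑ e' ∈ X.piece j m0 e0, hit X.P X.k e' + hit X.P X.k f := by
  obtain ⟨h1, h2, h3, h4⟩ := mem_filter.1 he
  have pe := edges_sub _ _ (X.T.mem_chain.1 h1).1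
  have pf := edges_sub _ _ hf
  obtain ⟨x1, x2, x3, x4, x5⟩ := hx
  have hd := sub_pos.2 x1
  obtain ⟨y, y1, y2⟩ : ∃ y, fv (sl e) y = fv (sl e) e.1 ∧ fv (sl f) y = fv (sl f) f.1 := by
    refine ⟨((fv (sl e) e.1 - fv (sl f) f.1) / (sl f - sl e),
      fv (sl e) e.1 + sl e * ((fv (sl e) e.1 - fv (sl f) f.1) / (sl f - sl e))),
      add_sub_cancel_right _ _, ?_⟩
    rw [fv]
    field_simp
    ring
  have ye : HitOn e y := ⟨y1, by nlinarith [hit_fv (sl e) (sl f) e.1 y],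
    by nlinarith [hit_fv (sl e) (sl f) y e.2, fv_sl (mem_prs.1 pe).2.2]⟩
  have yf : HitOn f y := ⟨y2, by nlinarith [hit_fv (sl e) (sl f) f.1 y],
    by nlinarith [hit_fv (sl e) (sl f) y f.2, fv_sl (mem_prs.1 pf).2.2]⟩
  have hw : ∀ θ θ', θ ≤ θ' → X.wi j θ ≤ X.wi j θ' := fun θ θ' h => card_le_card fun u hu =>
    mem_filter.2 ⟨(mem_filter.1 hu).1, (mem_filter.1 hu).2.trans_le h⟩
  refine (X.T.dd_tri X.k _ y _).trans (add_le_add ((hit_walk X.gen X.T
    (X.T.mem_chain.2 ⟨h0, rfl⟩) _ e h1 h2 rfl y ye).trans (sum_le_sum_of_subset fun g hg => ?_))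
    (hit_on X.gen X.T X.k pf yf (hit_left pf)))
  obtain ⟨g1, g2, g3⟩ := mem_filter.1 hg
  exact mem_filter.2 ⟨g1, g2, le_antisymm ((hw _ _ g3).trans h3.le) (hw _ _ g2),
    (card_le_card fun k hk => mem_filter.2 ⟨(mem_filter.1 hk).1, (mem_filter.1 hk).2.1,
      (mem_filter.1 hk).2.2.trans_le g3⟩).trans_lt h4⟩

end Vale.Agent.P065.U
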