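import Mathlib

/-!
P065/U task LocalX, part C: numerical inequalities.
-/

namespace Vale.Agent.P065.U

/-- The relations between the parameters. -/
structure LxN (d a b R K K1 G Q D : ℝ) : Prop where
  k1 : 2 ≤ K1
  k : K1 ≤ K
  g : K ≤ G
  a1 : 1 ≤ a
  r1 : 1 ≤ R
  q1 : 1 ≤ Q
  b1 : 1 ≤ b
  ab : a * D ≤ b * R
  bd : (b * R) ^ 2 ≤ d
  hr : 30 * G * K ^ 7 * Q ^ 2 ≤ R ^ 2
  hD : 10 ^ 7 * K ^ 7 * G ^ 2 * R ^ 6 ≤ D

namespace LxN
variable {d a b R K K1 G Q D : ℝ} (h : LxN d a b R K K1 G Q D)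
include h

theorem pos : 0 < K1 ∧ 1 ≤ K ∧ 1 ≤ G ∧ 0 < a ∧ 0 < b ∧ 0 < R ∧ 0 < Q ∧ b ≤ d ∧ 0 < d ∧ 0 < D := by
  have := h.k1; have := h.k; have := h.g; have := h.a1; have := h.r1; have := h.q1; have := h.b1
  have h1 : b ≤ d := by
    have : b ≤ b * R := by nlinarith
    nlinarith [h.bd]
  have h2 : 0 < K := by linarith
  have h3 : 0 < G := by linarith
  have h4 : 0 < R := by linarith
  refine ⟨by linarith, by linarith, by linarith, by linarith, by linarith, h4, by linarith, h1,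
    by linarith, lt_of_lt_of_le (by positivity) h.hD⟩

theorem big : 10 ^ 7 * K ^ 7 * G ^ 2 * R ^ 5 * a ≤ b := by
  obtain ⟨-, -, -, pa, -, pR, -, -, -, -⟩ := h.pos
  refine le_of_mul_le_mul_right ?_ pR
  calc 10 ^ 7 * K ^ 7 * G ^ 2 * R ^ 5 * a * R = a * (10 ^ 7 * K ^ 7 * G ^ 2 * R ^ 6) := by ring
    _ ≤ a * D := mul_le_mul_of_nonneg_left h.hD pa.le
    _ ≤ b * R := h.ab

theorem big' {c : ℝ} {i j l : ℕ} (hc : c ≤ 10 ^ 7) (hi : i ≤ 7) (hj : j ≤ 2) (hl : l ≤ 5) :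
    c * K ^ i * G ^ j * R ^ l * a ≤ b := by
  obtain ⟨-, pK, pG, pa, -, pR, -, -, -, -⟩ := h.pos
  refine le_trans ?_ h.big
  have := h.r1
  gcongr

theorem band : 2 * (G * (d / b) ^ 3) + 1 ≤ 3 * G * (d / b) ^ 3 := by
  obtain ⟨-, -, pG, -, pb, -, -, hb, -, -⟩ := h.pos
  have h1 : 1 ≤ (d / b) ^ 3 := one_le_pow₀ ((one_le_div pb).2 hb)
  nlinarith

theorem na : d ^ 3 * (K1 * (b * R)) * (K1 * d / b) ≤ d ^ 3 * d * (b * R) / (a * K) / 10 := by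
  obtain ⟨p1, pK, pG, pa, pb, pR, pQ, hb, pd, pD⟩ := h.pos
  have h1 := h.big' (c := 10) (i := 3) (j := 0) (l := 0) (by norm_num) (by norm_num) (by norm_num)
    (by norm_num)
  have hk := h.k
  calc d ^ 3 * (K1 * (b * R)) * (K1 * d / b) ≤ d ^ 3 * (K * (b * R)) * (K * d / b) := by gcongr
    _ = d ^ 3 * d * ((10 * K ^ 3 * G ^ 0 * R ^ 0 * a) * R) / (a * K) / 10 := by field_simp
    _ ≤ _ := by gcongr

theorem nb : d ^ 3 * d / (10 * K ^ 3) * (K1 * (b * R)) / d * (K1 * d / a) ≤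
    d ^ 3 * d * (b * R) / (a * K) / 10 := by
  obtain ⟨p1, pK, pG, pa, pb, pR, pQ, hb, pd, pD⟩ := h.pos
  have hk := h.k
  calc d ^ 3 * d / (10 * K ^ 3) * (K1 * (b * R)) / d * (K1 * d / a) ≤
      d ^ 3 * d / (10 * K ^ 3) * (K * (b * R)) / d * (K * d / a) := by gcongr
    _ = _ := by field_simp

theorem nJ : G * (d / b) ^ 3 ≤ K1 * (d / a) ^ 3 := by
  obtain ⟨p1, pK, pG, pa, pb, pR, pQ, hb, pd, pD⟩ := h.pos
  have h1 := h.big' (c := 1) (i := 0) (j := 1) (l := 0) (by norm_num) (by norm_num) (by norm_num)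
    (by norm_num)
  have h2 : G * a ≤ b := by simpa using h1
  have h3 := h.k1
  calc G * (d / b) ^ 3 ≤ G ^ 3 * (d / (G * a)) ^ 3 := by
        gcongr
        exact le_self_pow₀ pG (by norm_num)
    _ = 1 * (d / a) ^ 3 := by field_simp
    _ ≤ _ := by gcongr; linarith

theorem nc : (b ^ 4 * (2 * (2 * (G * (d / b) ^ 3) + 1)) + a ^ 4 * (2 * (G * (d / b) ^ 3) + 1) *
    (K1 ^ 2 * (d / a) ^ 3) ^ 2 / ((d / b) ^ 3 / Q) ^ 2) * (K1 ^ 2 * (b * R) / b) ≤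
    2 * (d ^ 3 * d * (b * R) / (a * K) / 10) := by
  obtain ⟨p1, pK, pG, pa, pb, pR, pQ, hb, pd, pD⟩ := h.pos
  have h1 := (h.big' (c := 60) (i := 3) (j := 1) (l := 0) (by norm_num) (by norm_num) (by norm_num)
    (by norm_num)).trans hb
  have h2 : 30 * G * K ^ 7 * Q ^ 2 * b ^ 2 ≤ a * d := by
    calc 30 * G * K ^ 7 * Q ^ 2 * b ^ 2 ≤ R ^ 2 * b ^ 2 := by gcongr; exact h.hr
      _ = 1 * (b * R) ^ 2 := by ring
      _ ≤ a * d := by gcongr; exacts [h.a1, h.bd]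
  have hk := h.k
  have hB := h.band
  calc _ ≤ (b ^ 4 * (2 * (3 * G * (d / b) ^ 3)) + a ^ 4 * (3 * G * (d / b) ^ 3) *
      (K ^ 2 * (d / a) ^ 3) ^ 2 / ((d / b) ^ 3 / Q) ^ 2) * (K ^ 2 * (b * R) / b) := by gcongr
    _ = d ^ 3 * (60 * K ^ 3 * G ^ 1 * R ^ 0 * a) * (b * R) / (a * K) / 10 +
        d ^ 3 * ((30 * G * K ^ 7 * Q ^ 2 * b ^ 2) / a) * (b * R) / (a * K) / 10 := by
        field_simp; ring
    _ ≤ d ^ 3 * d * (b * R) / (a * K) / 10 + d ^ 3 * ((a * d) / a) * (b * R) / (a * K) / 10 := by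
        gcongr
    _ = _ := by field_simp; ring

theorem nL : 1024 * (2 * (G * (d / b) ^ 3) + 1) ^ 2 /
    (d ^ 3 * d * (b * R) / (a * K) / 10 / (b * R) ^ 4) ^ 2 ≤
    921600 * G ^ 2 * a ^ 2 * K ^ 2 * R ^ 6 / d ^ 2 := by
  obtain ⟨p1, pK, pG, pa, pb, pR, pQ, hb, pd, pD⟩ := h.pos
  have hB := h.band
  calc _ ≤ 1024 * (3 * G * (d / b) ^ 3) ^ 2 /
      (d ^ 3 * d * (b * R) / (a * K) / 10 / (b * R) ^ 4) ^ 2 := by gcongr
    _ = _ := by field_simp; ring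

theorem nk {y : ℝ} (hy : 0 < y) : 2 * (y * d / (D * a) / y * (K1 * d / a)) ≤
    (d ^ 3 * d * (b * R) / (a * K) / 10 / (b * R) ^ 4) ^ 2 /
      (1024 * (2 * (G * (d / b) ^ 3) + 1) ^ 2) := by
  obtain ⟨p1, pK, pG, pa, pb, pR, pQ, hb, pd, pD⟩ := h.pos
  have hk := h.k
  have h1 : 1843200 * K ^ 3 * G ^ 2 * R ^ 6 ≤ D := le_trans (by gcongr <;> norm_num) h.hD
  refine le_trans ?_ ((one_div_le_one_div_of_le (by positivity) h.nL).trans_eq (one_div_div _ _))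
  calc 2 * (y * d / (D * a) / y * (K1 * d / a)) ≤
      2 * (y * d / ((1843200 * K ^ 3 * G ^ 2 * R ^ 6) * a) / y * (K * d / a)) := by gcongr
    _ = _ := by field_simp; ring

theorem nd : (b * R) ^ 4 * (16 * (2 * (G * (d / b) ^ 3) + 1)) +
    (b * R) ^ 4 * (d ^ 3 * d * (b * R) / (a * K) / 10 / (b * R) ^ 4) +
    a ^ 4 * (K1 ^ 2 * (d / a) ^ 3) ^ 2 * (1024 * (2 * (G * (d / b) ^ 3) + 1) ^ 2 /
      (d ^ 3 * d * (b * R) / (a * K) / 10 / (b * R) ^ 4) ^ 2) ≤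
    3 * (d ^ 3 * d * (b * R) / (a * K) / 10) := by
  obtain ⟨p1, pK, pG, pa, pb, pR, pQ, hb, pd, pD⟩ := h.pos
  have hk := h.k
  have hB := h.band
  have hL := h.nL
  have h1 := (h.big' (c := 480) (i := 1) (j := 1) (l := 3) (by norm_num) (by norm_num) (by norm_num)
    (by norm_num)).trans hb
  have h2 := h.big' (c := 9216000) (i := 7) (j := 2) (l := 5) (by norm_num) (by norm_num)
    (by norm_num) (by norm_num)
  calc _ ≤ (b * R) ^ 4 * (16 * (3 * G * (d / b) ^ 3)) +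
      (b * R) ^ 4 * (d ^ 3 * d * (b * R) / (a * K) / 10 / (b * R) ^ 4) +
      a ^ 4 * (K ^ 2 * (d / a) ^ 3) ^ 2 * (921600 * G ^ 2 * a ^ 2 * K ^ 2 * R ^ 6 / d ^ 2) := by gcongr
    _ = d ^ 3 * (480 * K ^ 1 * G ^ 1 * R ^ 3 * a) * (b * R) / (a * K) / 10 +
        d ^ 3 * d * (b * R) / (a * K) / 10 +
        d ^ 3 * d * ((9216000 * K ^ 7 * G ^ 2 * R ^ 5 * a) * R) / (a * K) / 10 := by
        field_simp; ring
    _ ≤ d ^ 3 * d * (b * R) / (a * K) / 10 + d ^ 3 * d * (b * R) / (a * K) / 10 +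
        d ^ 3 * d * (b * R) / (a * K) / 10 := by gcongr
    _ = _ := by ring

end LxN

end Vale.Agent.P065.U
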