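import Vale.Agent.P065.U.LocalXB
import Vale.Agent.P065.U.LocalXC

/-!
P065/U task LocalX: a fine edge at q is crossed by many coarse edges of a later window of q.

`aim` (geometry). e, e2 ∈ F with XC e2 e (e steeper, at q = e.1; e2 at t = e2.1), both slopes
< α = al j u, TrimC J t0 e, and neither Lt q t nor Lt t q. α, β generic, so either fv q > fv t at both
α and β, or < at both. First case: a good coarse edge e' = (a,t) of the window has a strictly below line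
e (then XC e e'), or weakly above it; then `tri_le` for (e,e') contradicts TrimC. Second case: a good
coarse edge e' = (q,b) has b strictly above line e2 (then XC e2 e'), or weakly below it, then
b.1 < e.2.1 and `tri_le` for (e,e') contradicts TrimC.

`localx`. C = 2^j, CW = 2^jW, ε = 1/K. Intermediate scale j2 with 2^j2 = C/K^c1 roughly, jW ≤ j2 ≤ j,
u2 = ancestor of u. Discard pairs (e,u): (a) e in window u2 itself: ≤ n·K1 C·K1 d/2^j2; otherwise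
sl e < α2 = al j2 u2. (b) q not Cmp j2 u2 (stayers j2 u2 J2) y2, J2 = K2 sz j2, where K2 = Ka^c from
`tame_most` at scale j2 makes miss small and y2 comes from `cmp_most` (q ∈ stayers as K1 ≤ K2): each
such (q,u) owns ≥ d/(K1 C) edges counted by `cmp_most`, and has ≤ K1 d/CW partners e. (c) e.2 has rank at α2
below k - J2: the chain of e is in touch jW j2 u2 J2 y2 (J' = K1 sz jW ≥ J2, B = K1² sz jW), one such e
per (chain,u2), ≤ K1² C/2^j2 windows u per (e,u2) (`tame_count`). The constants make (a)-(c) small,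
using 4^j ≤ d. The rest H u has all ends in the band at α2, of size ≤ B2 = 2 J2 + 1. Windows with
|H u| < 16 B2 or |H u| < h0 = ε n d/(4 CW C³) contribute little. Else `crossing`:
|H u|³ ≤ 512 B2² cr, and by `aim`, cr ≤ sp u + 2|H u| (T/y) K1 d/CW, T = y d/(K^c CW), where sp u counts
crossing pairs with Lt q t or Lt t q (for fixed e there are ≤ T/y points t of the first case, each
with ≤ K1 d/CW edges; same for e2). A pair (e2,e) is special for at most one u (`Lt.spec`), so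
Σ sp ≤ Σ_W |act W|² ≤ K1⁴ n²/CW² (`cr_win`), while sp u ≥ |H u| h0²/(1024 B2²). Needs C/CW ≥ K^c.
-/

namespace Vale.Agent.P065.U

open Finset Classical

theorem Cfg.aim (X : Cfg) (J t0 : ℝ) (hJ : 0 ≤ J) (j u : ℕ) {e e2 : Ed} (he : e ∈ X.F)
    (he2 : e2 ∈ X.F) (hx : XC e2 e) (hs : sl e < X.al j u) (hT : X.TrimC J t0 e)
    (h1 : ¬ X.Lt j u e.1 e2.1) (h2 : ¬ X.Lt j u e2.1 e.1) :
    (∀ e' ∈ X.win (X.gco J t0) j u, e'.2 = e2.1 → XC e e') ∨
      (∀ e' ∈ X.win (X.gco J t0) j u, e'.1 = e.1 → XC e2 e') :=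
  X.lx_aim J t0 hJ j u he he2 hx hs hT h1 h2

/-- Pairs (edge, later window below the same ancestor) with few coarse crossers. -/
noncomputable def Cfg.lxBad (X : Cfg) (K1 J t y T : ℝ) (jW j : ℕ) : Finset (Ed × ℕ) :=
  (X.F ×ˢ range (16 ^ j)).filter fun z => X.wi jW (sl z.1) = z.2 / 16 ^ (j - jW) ∧
    sl z.1 < X.al j z.2 ∧ X.Tame K1 j z.2 z.1.1 ∧ X.Useful J t y j z.2 z.1.1 ∧ X.TrimC J t z.1 ∧
    (((X.win (X.co J) j z.2).filter fun e' => XC z.1 e').card : ℝ) < T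

theorem Cfg.lx_core (X : Cfg) {K K1 J t y G Q D : ℝ} {jW j2 j : ℕ} (h1 : jW ≤ j2) (h2 : j2 ≤ j)
    (hJ : 0 ≤ J) (hy : 0 < y) (hN : LxN X.d (2 ^ jW) (2 ^ j2) (2 ^ (j - j2)) K K1 G Q D)
    (hM : ((X.F.filter fun e => e.1 ∈ X.stayers j2 (X.wi j2 (sl e)) (G * X.sz j2) ∧
      ¬ X.Cmp j2 (X.wi j2 (sl e)) (X.stayers j2 (X.wi j2 (sl e)) (G * X.sz j2)) (X.sz j2 / Q)
        e.1).card : ℝ) ≤ X.n * X.d / (10 * K ^ 3)) :
    ((X.lxBad K1 J t y (y * X.d / (D * 2 ^ jW)) jW j).card : ℝ) ≤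
      X.n * X.d * 2 ^ j / (2 ^ jW * K) := by
  obtain ⟨p1, pK, pG, pa, pb, pR, pQ, hb, pd, pD⟩ := hN.pos
  have hjW := h1.trans h2
  have e2 : (2 : ℝ) ^ j = 2 ^ j2 * 2 ^ (j - j2) := by rw [← pow_add, Nat.add_sub_cancel' h2]
  have e16 : ∀ i : ℕ, (16 : ℝ) ^ i = (2 ^ i) ^ 4 := fun i => (dey_pow i).2.2
  have hs2 : 0 < X.sz j2 := by rw [X.sz_eq]; positivity
  obtain ⟨B, hB, hP⟩ : ∃ B : Finset (Ed × ℕ), B = X.lxBad K1 J t y (y * X.d / (D * 2 ^ jW)) jW j ∧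
      ∀ z ∈ B, X.LxP K1 J t y (y * X.d / (D * 2 ^ jW)) jW j z.2 z.1 := ⟨_, rfl, fun z hz => by
    obtain ⟨a1, a2, a3, a4, a5, a6, a7⟩ := mem_filter.1 hz
    exact ⟨(mem_product.1 a1).1, a2, a3, a4, a5, a6, a7⟩⟩
  rw [← hB]
  have hst : ∀ z ∈ B, |(rk X.P (X.al j2 (z.2 / 16 ^ (j - j2))) z.1.1 : ℝ) - X.k| ≤ G * X.sz j2 :=
    fun z hz => (mem_filter.1 (X.lx_stay (hN.k.trans hN.g) h2 (hP z hz).tame)).2 _ le_rfl
      (X.al_mono j2 (Nat.le_succ _))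
  have ha := (X.lx_partners p1 h2 (B.filter fun z => X.wi j2 (sl z.1) = z.2 / 16 ^ (j - j2))
    (X.lxTP K1 j) (fun z hz => X.lx_mem_TP.2 (hP z (mem_filter.1 hz).1).tame) fun z hz =>
      ⟨(hP z (mem_filter.1 hz).1).mem, (hP z (mem_filter.1 hz).1).tame, (mem_filter.1 hz).2⟩).trans
    (mul_le_mul_of_nonneg_right (X.lx_TP_card p1 j) (by positivity))
  have hb' := X.lx_b p1 (hN.k.trans hN.g) h2 hjW hM (B.filter fun z => ¬ X.Cmp j2 (z.2 / 16 ^ (j - j2))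
      (X.stayers j2 (z.2 / 16 ^ (j - j2)) (G * X.sz j2)) (X.sz j2 / Q) z.1.1)
    (fun z hz => ⟨(hP z (mem_filter.1 hz).1).mem, (hP z (mem_filter.1 hz).1).tame,
      (hP z (mem_filter.1 hz).1).anc⟩) fun z hz => (mem_filter.1 hz).2
  have hc := X.lx_c (J2 := G * X.sz j2) (y2 := X.sz j2 / Q) p1 h1 h2 (by positivity)
    (by rw [X.sz_eq, X.sz_eq]; exact hN.nJ) (by positivity)
    (B.filter fun z => sl z.1 < X.al j2 (z.2 / 16 ^ (j - j2)) ∧ X.Cmp j2 (z.2 / 16 ^ (j - j2))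
      (X.stayers j2 (z.2 / 16 ^ (j - j2)) (G * X.sz j2)) (X.sz j2 / Q) z.1.1 ∧
      (rk X.P (X.al j2 (z.2 / 16 ^ (j - j2))) z.1.2 : ℝ) < X.k - G * X.sz j2)
    (fun z hz => ⟨(hP z (mem_filter.1 hz).1).mem, (hP z (mem_filter.1 hz).1).tame,
      (hP z (mem_filter.1 hz).1).anc⟩) fun z hz => ⟨(mem_filter.1 hz).2.1, (mem_filter.1 hz).2.2.1,
      by linarith [(abs_le.1 (hst z (mem_filter.1 hz).1)).1], (mem_filter.1 hz).2.2.2⟩
  have hd := X.lx_d (J2 := G * X.sz j2) (h0 := X.d ^ 3 * X.d * (2 ^ j2 * 2 ^ (j - j2)) /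
      (2 ^ jW * K) / 10 / (2 ^ j2 * 2 ^ (j - j2)) ^ 4) p1 hJ hy (by positivity) (by positivity) hjW
    (fun u => X.al j2 (u / 16 ^ (j - j2))) (fun u => X.al_gen _ _)
    (by rw [X.sz_eq]; exact hN.nk hy)
    (B.filter fun z => sl z.1 < X.al j2 (z.2 / 16 ^ (j - j2)) ∧
      X.k - G * X.sz j2 ≤ (rk X.P (X.al j2 (z.2 / 16 ^ (j - j2))) z.1.2 : ℝ))
    (fun z hz => hP z (mem_filter.1 hz).1) fun z hz => by
      obtain ⟨a1, a2, a3⟩ := mem_filter.1 hz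
      refine ⟨hst z a1, abs_le.2 ⟨by linarith, ?_⟩⟩
      have a4 : (rk X.P (X.al j2 (z.2 / 16 ^ (j - j2))) z.1.2 : ℝ) ≤
          rk X.P (X.al j2 (z.2 / 16 ^ (j - j2))) z.1.1 := Nat.cast_le.2 (rk_mono _ _
        ((fv_gt_iff (mem_prs.1 (X.F_sub (hP z a1).mem)).2.2 _).2 a2).le)
      linarith [(abs_le.1 (hst z a1)).2]
  have hu : ∀ Sa Sb Sc Sd : Finset (Ed × ℕ), B ⊆ Sa ∪ Sb ∪ Sc ∪ Sd →
      (B.card : ℝ) ≤ Sa.card + Sb.card + Sc.card + Sd.card := fun Sa Sb Sc Sd h => by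
    have c1 := card_le_card h
    have c2 := card_union_le (Sa ∪ Sb ∪ Sc) Sd
    have c3 := card_union_le (Sa ∪ Sb) Sc
    have c4 := card_union_le Sa Sb
    exact_mod_cast (by omega : B.card ≤ Sa.card + Sb.card + Sc.card + Sd.card)
  refine ((hu _ _ _ _ fun z hz => ?_).trans (add_le_add (add_le_add (add_le_add ha hb') hc) hd)).trans ?_
  · simp only [mem_union, mem_filter, hz, true_and]
    have a1 := X.F_sub (hP z hz).mem
    have a2 := (X.wi_lt_iff j a1 (hP z hz).tame.lt).2 (hP z hz).lt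
    have a3 : X.wi j2 (sl z.1) ≤ z.2 / 16 ^ (j - j2) := by
      rw [X.wi_anc h2]; exact Nat.div_le_div_right a2.le
    rcases a3.eq_or_lt with a | a
    · exact Or.inl (Or.inl (Or.inl a))
    have a4 := (X.wi_lt_iff j2 a1 (Cfg.lx_anc_lt h2 (hP z hz).tame.lt)).1 a
    rcases lt_or_ge (rk X.P (X.al j2 (z.2 / 16 ^ (j - j2))) z.1.2 : ℝ) (X.k - G * X.sz j2) with b | b
    · by_cases c : X.Cmp j2 (z.2 / 16 ^ (j - j2))
        (X.stayers j2 (z.2 / 16 ^ (j - j2)) (G * X.sz j2)) (X.sz j2 / Q) z.1.1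
      · exact Or.inl (Or.inr ⟨a4, c, b⟩)
      · exact Or.inl (Or.inl (Or.inr c))
    · exact Or.inr ⟨a4, b⟩
  · rw [e16, e16, e16, X.sz_eq, X.sz_eq, X.n_eq, e2]
    have m0 : 0 ≤ X.d ^ 3 * X.d * (2 ^ j2 * 2 ^ (j - j2)) / (2 ^ jW * K) := by positivity
    linarith [hN.na, hN.nb, hN.nc, hN.nd]

theorem Cfg.localx : ∃ c : ℕ, ∀ (X : Cfg) (K K1 J t y : ℝ) (jW j : ℕ), X.Big K → 2 ≤ K1 → K1 ≤ K →
    jW ≤ j → 2 ^ jW * K ^ c ≤ 2 ^ j → 4 ^ j ≤ X.d → 0 ≤ J → 0 < y →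
    ((X.lxBad K1 J t y (y * X.d / (K ^ c * 2 ^ jW)) jW j).card : ℝ) ≤
      X.n * X.d * 2 ^ j / (2 ^ jW * K) := by
  obtain ⟨ct, hct⟩ := Cfg.tame_most
  obtain ⟨cc, hcc⟩ := Cfg.cmp_most
  refine ⟨24 + 7 + (8 * ct + 1) * 2 + (8 * ct + 8 * cc + 14) * 6,
    fun X K K1 J t y jW j hB h1 h2 h3 h4 h5 hJ hy => ?_⟩
  have hK : 2 ≤ K := hB.1
  have hK1 : 1 ≤ K := by linarith
  have hpow : ∀ {a b : ℕ}, a ≤ b → K ^ a ≤ K ^ b := fun h => pow_le_pow_right₀ hK1 h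
  have h2p : ∀ a : ℕ, (2 : ℝ) ^ a ≤ K ^ a := fun a => pow_le_pow_left₀ (by norm_num) hK a
  obtain ⟨r, hr1, hr2⟩ := exists_nat_pow_near (one_le_pow₀ (n := 8 * ct + 8 * cc + 13) hK1)
    (one_lt_two (α := ℝ))
  have hr3 : (2 : ℝ) ^ (r + 1) ≤ K ^ (8 * ct + 8 * cc + 14) := by
    rw [pow_succ, pow_succ K]
    exact mul_le_mul hr1 hK (by norm_num) (by positivity)
  have hr4 : jW + (r + 1) ≤ j := by
    refine (pow_le_pow_iff_right₀ (one_lt_two (α := ℝ))).1 (le_trans ?_ h4)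
    rw [pow_add]
    exact mul_le_mul_of_nonneg_left (hr3.trans (hpow (by omega))) (by positivity)
  obtain ⟨j2, rfl⟩ : ∃ j2, j = j2 + (r + 1) := ⟨j - (r + 1), by omega⟩
  have hC : K ^ (24 + 7 + (8 * ct + 1) * 2 + (8 * ct + 8 * cc + 14) * 6) ≤ 2 ^ (j2 + (r + 1)) :=
    le_trans (le_mul_of_one_le_left (by positivity) (one_le_pow₀ one_le_two)) h4
  have hd : ∀ a, a ≤ 24 + 7 + (8 * ct + 1) * 2 + (8 * ct + 8 * cc + 14) * 6 →
      2 ^ j2 * K ^ a ≤ X.d := fun a ha => by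
    refine le_trans ?_ h5
    rw [(dey_pow _).1, sq]
    exact mul_le_mul (pow_le_pow_right₀ one_le_two (by omega)) ((hpow ha).trans hC) (by positivity)
      (by positivity)
  have hK8 : K ≤ K ^ 8 := le_self_pow₀ hK1 (by norm_num)
  refine X.lx_core (j2 := j2) (G := K ^ (8 * ct + 1)) (Q := K ^ (8 * cc)) (by omega) (by omega) hJ hy
    ⟨h1, h2, le_self_pow₀ hK1 (by omega), one_le_pow₀ one_le_two, one_le_pow₀ one_le_two,
      one_le_pow₀ hK1, one_le_pow₀ one_le_two, ?_, ?_, ?_, ?_⟩ ?_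
  · rw [← pow_add 2 j2, Nat.add_sub_cancel' (by omega)]; exact h4
  · rw [← pow_add 2 j2, Nat.add_sub_cancel' (by omega), ← (dey_pow _).1]; exact h5
  · rw [Nat.add_sub_cancel_left]
    refine le_trans ?_ (pow_le_pow_left₀ (by positivity) hr2.le 2)
    calc 30 * K ^ (8 * ct + 1) * K ^ 7 * (K ^ (8 * cc)) ^ 2 ≤
        K ^ 5 * K ^ (8 * ct + 1) * K ^ 7 * (K ^ (8 * cc)) ^ 2 := by
          gcongr; exact le_trans (by norm_num) (h2p 5)
      _ = K ^ (5 + (8 * ct + 1) + 7 + 8 * cc * 2) := by rw [← pow_mul, ← pow_add, ← pow_add, ← pow_add]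
      _ ≤ K ^ ((8 * ct + 8 * cc + 13) * 2) := hpow (by omega)
      _ = _ := pow_mul _ _ _
  · rw [Nat.add_sub_cancel_left]
    calc 10 ^ 7 * K ^ 7 * (K ^ (8 * ct + 1)) ^ 2 * (2 ^ (r + 1)) ^ 6 ≤
        K ^ 24 * K ^ 7 * (K ^ (8 * ct + 1)) ^ 2 * (K ^ (8 * ct + 8 * cc + 14)) ^ 6 := by
          gcongr; exact le_trans (by norm_num) (h2p 24)
      _ = _ := by rw [← pow_mul, ← pow_mul, ← pow_add, ← pow_add, ← pow_add]
  · have a1 := hcc X (K ^ 8) j2 (fun u => X.stayers j2 u (K ^ (8 * ct + 1) * X.sz j2)) (hK.trans hK8)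
      (by rw [← pow_mul]; exact hd _ (by omega)) fun u => filter_subset _ _
    have a2 := hct X (K ^ 8) (K ^ (8 * ct + 1)) j2 (hB.mono hK8)
      (by rw [← pow_mul]; exact hpow (by omega)) (by rw [← pow_mul]; exact hd _ (by omega))
    have a3 : X.miss j2 (fun u => X.stayers j2 u (K ^ (8 * ct + 1) * X.sz j2)) ≤
        X.miss j2 (fun u => X.P.filter fun p => X.Tame (K ^ (8 * ct + 1)) j2 u p) := by
      refine card_le_card fun e he => ?_
      obtain ⟨b1, b2⟩ := mem_filter.1 he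
      refine mem_filter.2 ⟨b1, fun h => b2 ?_⟩
      have := X.lx_stay le_rfl le_rfl (mem_filter.1 h).2
      rwa [Nat.sub_self, pow_zero, Nat.div_one] at this
    have a4 := (Nat.cast_le (α := ℝ)).2 a3
    rw [← pow_mul] at a1
    have a5 : X.n * X.d / K ^ 8 + X.n * X.d / K ^ 8 ≤ X.n * X.d / (10 * K ^ 3) := by
      have := X.dey_n_pos
      have := X.d_pos
      have a6 : 20 * K ^ 3 ≤ K ^ 8 := by
        calc 20 * K ^ 3 ≤ K ^ 5 * K ^ 3 := by gcongr; exact le_trans (by norm_num) (h2p 5)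
          _ = K ^ 8 := by ring
      calc X.n * X.d / K ^ 8 + X.n * X.d / K ^ 8 ≤
          X.n * X.d / (20 * K ^ 3) + X.n * X.d / (20 * K ^ 3) := by gcongr
        _ = _ := by field_simp; ring
    linarith

end Vale.Agent.P065.U
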