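import Vale.Agent.P065.U.Useful
import Vale.Agent.P065.U.LocalX

/-!
P065/U task Ind: two windows below one ancestor share few points; and the disjointness bound.

`ind`. Ka = 6K⁴; J, t, y from `useful_most` at Ka; T = y d/(Ka^c CW) from `localx` at Ka. Call
(e,u') bad if e.1 is Tame K1 j u', wi jW (sl e) = ancestor of u', sl e < al j u', and ¬Useful at (e.1,u'),
or ¬TrimC e, or (e,u') ∈ lxBad. Their number is ≤ (n C/Ka) K1 d/CW + (n d/Ka) K1² C/CW + n d C/(CW Ka)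
(`tame_count`, the rdeg bound at the ancestor). Bad = triples (q,u,u'), u < u' with one ancestor, both tame,
with more than half of the right edges of q in window u bad for u'; each owns ≥ d/(2 K1 C) bad pairs.
For fixed u < u', a good q has ≥ d/(2 K1 C) edges, each crossed by ≥ T edges of win (co J) j u'.
By `sep_unique` at al j u' a crossing pair is determined by its two chains, and by `chains_le`,
`Tame.act_card`, `ends_co_sub` (J ≤ sz j ≤ K1 sz j) there are ≤ K1² sz j·(2J+1) K1² sz j pairs of chains.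
Use (2J+1) d ≤ Ka^c y C and n = d³.

`disj`. For such p and a good coarse edge e' = (p,b) of the window: if fv θ0 b ≤ h then b.1 < f.2.1 and
`tri_le` for (f,e') contradicts TrimC. So all ≥ y of them cross the line upwards; by `line_once` a
chain does so once; there are ≤ (2J+1)|Uw j u J| chains (`chains_le`, `ends_co_sub`).
-/

namespace Vale.Agent.P065.U

open Finset Classical

theorem ind_fib_ge {α β : Type} [DecidableEq β] (s : Finset α) (t : Finset β) (f : α → β) (m : ℝ)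
    (h : ∀ b ∈ t, m ≤ ((s.filter fun a => f a = b).card : ℝ)) : (t.card : ℝ) * m ≤ s.card := by
  have h1 := Finset.card_nsmul_le_sum t _ m h
  rw [nsmul_eq_mul, ← Nat.cast_sum, Finset.sum_card_fiberwise_eq_card_filter] at h1
  exact h1.trans (Nat.cast_le.2 (Finset.card_filter_le _ _))

theorem ind_fib_le {α β : Type} [DecidableEq β] (s : Finset α) (t : Finset β) (f : α → β) (m : ℝ)
    (hf : ∀ a ∈ s, f a ∈ t) (h : ∀ b ∈ t, ((s.filter fun a => f a = b).card : ℝ) ≤ m) :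
    (s.card : ℝ) ≤ t.card * m := by
  have h1 := Finset.sum_le_card_nsmul t _ m h
  rwa [nsmul_eq_mul, ← Nat.cast_sum, ← Finset.card_eq_sum_card_fiberwise hf] at h1

theorem ind_lev {P : Finset Pt} {e : Ed} (he : e ∈ prs P) {a : ℕ} {c : Pt} (T : Tok P)
    (h : (lev P e, T.ch (lev P e) e) = (a, c)) : e ∈ T.chain a c := by
  obtain ⟨rfl, rfl⟩ := Prod.mk.inj h
  exact T.mem_chain.2 ⟨budget_self he, rfl⟩

theorem Cfg.ind_chains (X : Cfg) {J J' : ℝ} (hJ : 0 ≤ J) (h : J ≤ J') (j u : ℕ) :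
    (((X.win (X.co J) j u).image fun e => (lev X.P e, X.T.ch (lev X.P e) e)).card : ℝ) ≤
      (2 * J + 1) * (X.Uw j u J').card := by
  rcases le_or_gt (16 ^ j) u with hu | hu
  · rw [X.win_empty _ hu, image_empty, card_empty, Nat.cast_zero]
    positivity
  refine (ind_fib_le _ (X.lv J) Prod.fst (X.Uw j u J').card (fun z hz => ?_) fun a ha => ?_).trans
    (mul_le_mul_of_nonneg_right (X.lv_card hJ) (Nat.cast_nonneg _))
  · obtain ⟨e, he, rfl⟩ := mem_image.1 hz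
    exact (mem_filter.1 (mem_filter.1 he).1).2
  · have h1 := (X.T.chains_le X.gen a (X.al j u) (X.al j (u + 1))).trans
      (card_le_card (budget_sub ha _ _))
    have h2 := X.ends_co_sub j u J J' h
    rw [X.win_eq (X.co_sub J) hu] at h2 ⊢
    refine Nat.cast_le.2 (le_trans ?_ (h1.trans (card_le_card h2)))
    refine card_le_card_of_injOn Prod.snd (fun z hz => ?_) fun z hz z' hz' e => ?_
    · obtain ⟨h3, h4⟩ := mem_filter.1 (mem_coe.1 hz)
      obtain ⟨e, he, rfl⟩ := mem_image.1 h3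
      obtain rfl : lev X.P e = a := h4
      exact mem_coe.2 (mem_image.2 ⟨e, mem_filter.2
        ⟨budget_self (X.co_sub J (mem_filter.1 he).1), (mem_filter.1 he).2⟩, rfl⟩)
    · exact Prod.ext ((mem_filter.1 (mem_coe.1 hz)).2.trans (mem_filter.1 (mem_coe.1 hz')).2.symm) e

theorem Cfg.ind_cross (X : Cfg) {J J' : ℝ} (hJ : 0 ≤ J) (h : J ≤ J') {j u u' : ℕ} (hu : u < u')
    (hu' : u' < 16 ^ j) :
    (cr (X.win X.F j u) (X.win (X.co J) j u') : ℝ) ≤
      (X.act j u).card * ((2 * J + 1) * (X.Uw j u' J').card) := by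
  have h1 : ((X.win X.F j u).image (X.T.ch X.k)).card ≤ (X.act j u).card := by
    rw [Cfg.act, X.win_eq X.F_sub (hu.trans hu')]
    exact X.T.chains_le X.gen _ _ _
  have h2 : cr (X.win X.F j u) (X.win (X.co J) j u') ≤ (((X.win X.F j u).image (X.T.ch X.k)) ×ˢ
      ((X.win (X.co J) j u').image fun e => (lev X.P e, X.T.ch (lev X.P e) e))).card := by
    refine card_le_card_of_injOn (fun x => (X.T.ch X.k x.1, lev X.P x.2, X.T.ch (lev X.P x.2) x.2))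
      (fun x hx => ?_) fun x hx x' hx' e => ?_
    · obtain ⟨h3, h4⟩ := mem_product.1 (mem_filter.1 (mem_coe.1 hx)).1
      exact mem_coe.2 (mem_product.2 ⟨mem_image_of_mem _ h3, mem_image_of_mem _ h4⟩)
    · have key : ∀ x ∈ (X.win X.F j u ×ˢ X.win (X.co J) j u').filter fun x => XC x.1 x.2,
          x.1 ∈ X.F ∧ x.2 ∈ prs X.P ∧ sl x.1 < X.al j u' ∧ X.al j u' ≤ sl x.2 ∧ WX x.1 x.2 := by
        intro x hx
        obtain ⟨h3, h4⟩ := mem_product.1 (mem_filter.1 hx).1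
        obtain ⟨h5, h6⟩ := mem_filter.1 h3
        obtain ⟨h7, h8⟩ := mem_filter.1 h4
        exact ⟨h5, X.co_sub J h7, (X.wi_lt_iff j (X.F_sub h5) hu').1 (h6 ▸ hu),
          (h8 ▸ (X.wi_spec j (X.co_sub J h7)).1).le, (mem_filter.1 hx).2.wx⟩
      obtain ⟨a1, a2, a3, a4, a5⟩ := key x (mem_coe.1 hx)
      obtain ⟨b1, b2, b3, b4, b5⟩ := key x' (mem_coe.1 hx')
      obtain ⟨e1, e2⟩ := Prod.mk.inj e
      obtain ⟨c1, c2⟩ := X.T.sep_unique X.gen (X.T.mem_chain.2 ⟨a1, e1⟩)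
        (X.T.mem_chain.2 ⟨b1, rfl⟩) (ind_lev a2 X.T e2) (ind_lev b2 X.T rfl) a3 b3 a4 b4 a5 b5
      exact Prod.ext c1 c2
  rw [card_product] at h2
  refine (Nat.cast_le.2 h2).trans ?_
  rw [Nat.cast_mul]
  exact mul_le_mul (Nat.cast_le.2 h1) (X.ind_chains hJ h j u') (Nat.cast_nonneg _)
    (Nat.cast_nonneg _)

/-- Bad pairs (edge, later window). -/
noncomputable def Cfg.indBP (X : Cfg) (K1 J t y T : ℝ) (jW j : ℕ) : Finset (Ed × ℕ) :=
  (X.F ×ˢ range (16 ^ j)).filter fun z => X.wi jW (sl z.1) = z.2 / 16 ^ (j - jW) ∧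
    X.Tame K1 j z.2 z.1.1 ∧
    (¬ X.Useful J t y j z.2 z.1.1 ∨ ¬ X.TrimC J t z.1 ∨ z ∈ X.lxBad K1 J t y T jW j)

theorem Cfg.indBP_card (X : Cfg) {K1 Ka J t y T a b : ℝ} {jW j : ℕ} (h1 : 0 < K1) (h2 : K1 ≤ Ka)
    (hj : jW ≤ j) (ha : ((X.F.filter fun e => ¬ X.TrimC J t e).card : ℝ) ≤ a)
    (hb : ∑ u ∈ range (16 ^ j), ((X.P.filter fun p => X.d / (Ka * 2 ^ j) ≤ X.rdeg j u p ∧
        ¬ X.Useful J t y j u p).card : ℝ) ≤ b) :
    ((X.indBP K1 J t y T jW j).card : ℝ) ≤ b * (K1 * X.d / 2 ^ jW) +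
      a * (K1 ^ 2 * 2 ^ j / 2 ^ jW) + (X.lxBad K1 J t y T jW j).card := by
  have hd := X.d_pos
  set S := X.indBP K1 J t y T jW j with hS
  have hm : ∀ z ∈ S, z.1 ∈ X.F ∧ z.2 ∈ range (16 ^ j) ∧ X.wi jW (sl z.1) = z.2 / 16 ^ (j - jW) ∧
      X.Tame K1 j z.2 z.1.1 := fun z hz => by
    obtain ⟨h3, h4, h5, -⟩ := mem_filter.1 hz
    exact ⟨(mem_product.1 h3).1, (mem_product.1 h3).2, h4, h5⟩
  have s0 : S ⊆ (S.filter fun z => ¬ X.Useful J t y j z.2 z.1.1) ∪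
      (S.filter fun z => ¬ X.TrimC J t z.1) ∪ X.lxBad K1 J t y T jW j := fun z hz => by
    rcases (mem_filter.1 hz).2.2.2 with h | h | h
    · exact mem_union_left _ (mem_union_left _ (mem_filter.2 ⟨hz, h⟩))
    · exact mem_union_left _ (mem_union_right _ (mem_filter.2 ⟨hz, h⟩))
    · exact mem_union_right _ h
  have s1 : ((S.filter fun z => ¬ X.Useful J t y j z.2 z.1.1).card : ℝ) ≤
      b * (K1 * X.d / 2 ^ jW) := by
    refine (ind_fib_le _ ((range (16 ^ j)).sigma fun u => X.P.filter fun p =>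
      X.d / (Ka * 2 ^ j) ≤ X.rdeg j u p ∧ ¬ X.Useful J t y j u p) (fun z => ⟨z.2, z.1.1⟩)
      (K1 * X.d / 2 ^ jW) (fun z hz => ?_) fun w _ => ?_).trans ?_
    · obtain ⟨h3, h4⟩ := mem_filter.1 hz
      obtain ⟨-, h5, -, h6⟩ := hm z h3
      exact mem_sigma.2 ⟨h5, mem_filter.2 ⟨h6.mem, le_trans (by gcongr) h6.low, h4⟩⟩
    · rcases ((S.filter fun z => ¬ X.Useful J t y j z.2 z.1.1).filter fun z =>
        (⟨z.2, z.1.1⟩ : Σ _ : ℕ, Pt) = w).eq_empty_or_nonempty with h | ⟨z0, hz0⟩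
      · rw [h, card_empty, Nat.cast_zero]
        positivity
      obtain ⟨h3, rfl⟩ := mem_filter.1 hz0
      refine le_trans (Nat.cast_le.2 ?_) ((hm z0 (mem_filter.1 h3).1).2.2.2.reg jW hj).rdeg_le
      refine card_le_card_of_injOn Prod.fst (fun z hz => ?_) fun z hz z' hz' e => ?_
      · obtain ⟨h4, h5⟩ := mem_filter.1 (mem_coe.1 hz)
        obtain ⟨h6, -, h7, -⟩ := hm z (mem_filter.1 h4).1
        obtain ⟨h8, h9⟩ := Sigma.mk.inj h5
        exact mem_coe.2 (mem_filter.2 ⟨mem_filter.2 ⟨h6, h8 ▸ h7⟩, eq_of_heq h9⟩)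
      · exact Prod.ext e ((Sigma.mk.inj (mem_filter.1 (mem_coe.1 hz)).2).1.trans
          (Sigma.mk.inj (mem_filter.1 (mem_coe.1 hz')).2).1.symm)
    · rw [card_sigma, Nat.cast_sum]
      exact mul_le_mul_of_nonneg_right hb (by positivity)
  have s2 : ((S.filter fun z => ¬ X.TrimC J t z.1).card : ℝ) ≤ a * (K1 ^ 2 * 2 ^ j / 2 ^ jW) := by
    refine (ind_fib_le _ (X.F.filter fun e => ¬ X.TrimC J t e) Prod.fst (K1 ^ 2 * 2 ^ j / 2 ^ jW)
      (fun z hz => mem_filter.2 ⟨(hm z (mem_filter.1 hz).1).1, (mem_filter.1 hz).2⟩)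
      fun e _ => ?_).trans (mul_le_mul_of_nonneg_right ha (by positivity))
    refine le_trans (Nat.cast_le.2 ?_) (X.tame_count h1 hj (X.wi jW (sl e)) e.1)
    refine card_le_card_of_injOn Prod.snd (fun z hz => ?_) fun z hz z' hz' e => ?_
    · obtain ⟨h4, rfl⟩ := mem_filter.1 (mem_coe.1 hz)
      obtain ⟨-, h6, h7, h8⟩ := hm z (mem_filter.1 h4).1
      exact mem_coe.2 (mem_filter.2 ⟨h6, h8, h7.symm⟩)
    · exact Prod.ext ((mem_filter.1 (mem_coe.1 hz)).2.trans (mem_filter.1 (mem_coe.1 hz')).2.symm) e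
  have s3 := (card_le_card s0).trans ((card_union_le _ _).trans
    (Nat.add_le_add_right (card_union_le _ _) _))
  have s4 := (Nat.cast_le (α := ℝ)).2 s3
  push_cast at s4
  linarith

/-- Bad triples. -/
noncomputable def Cfg.indBad (X : Cfg) (K1 J t y T : ℝ) (jW j : ℕ) : Finset (Pt × ℕ × ℕ) :=
  (X.P ×ˢ range (16 ^ j) ×ˢ range (16 ^ j)).filter fun z => X.Tame K1 j z.2.1 z.1 ∧
    X.d / (2 * K1 * 2 ^ j) ≤ (((X.indBP K1 J t y T jW j).filter fun x =>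
      (x.1.1, X.wi j (sl x.1), x.2) = z).card : ℝ)

theorem Cfg.ind_good (X : Cfg) {K1 J t y T : ℝ} {jW j : ℕ} (h1 : 0 < K1) (hT : 0 ≤ T) (hj : jW ≤ j)
    {u u' : ℕ} (hu : u < u') (hw : u / 16 ^ (j - jW) = u' / 16 ^ (j - jW)) :
    ((X.P.filter fun q => X.Tame K1 j u q ∧ X.Tame K1 j u' q ∧
      (q, u, u') ∉ X.indBad K1 J t y T jW j).card : ℝ) * (X.d / (2 * K1 * 2 ^ j)) * T ≤
      cr (X.win X.F j u) (X.win (X.co J) j u') := by
  set G := (X.win X.F j u).filter fun e => X.Tame K1 j u' e.1 ∧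
    (e, u') ∉ X.indBP K1 J t y T jW j with hG
  have s1 := ind_fib_ge G (X.P.filter fun q => X.Tame K1 j u q ∧ X.Tame K1 j u' q ∧
      (q, u, u') ∉ X.indBad K1 J t y T jW j) Prod.fst (X.d / (2 * K1 * 2 ^ j)) fun q hq => by
    obtain ⟨h2, h3, h4, h5⟩ := mem_filter.1 hq
    have h6 := not_le.1 fun h => h5 (mem_filter.2 ⟨mem_product.2 ⟨h2, mem_product.2
      ⟨mem_range.2 h3.lt, mem_range.2 h4.lt⟩⟩, h3, h⟩)
    have h7 : X.rdeg j u q ≤ (G.filter fun e => e.1 = q).card +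
        ((X.indBP K1 J t y T jW j).filter fun x =>
          (x.1.1, X.wi j (sl x.1), x.2) = (q, u, u')).card := by
      rw [Cfg.rdeg, ← card_filter_add_card_filter_not fun e => (e, u') ∉ X.indBP K1 J t y T jW j]
      refine Nat.add_le_add (card_le_card fun e he => ?_)
        (card_le_card_of_injOn (fun e => (e, u')) (fun e he => ?_) fun e _ e' _ h => ?_)
      · obtain ⟨h8, h9⟩ := mem_filter.1 he
        obtain ⟨h10, h11⟩ := mem_filter.1 h8
        exact mem_filter.2 ⟨mem_filter.2 ⟨h10, h11 ▸ h4, h9⟩, h11⟩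
      · obtain ⟨h8, h9⟩ := mem_filter.1 (mem_coe.1 he)
        obtain ⟨h10, h11⟩ := mem_filter.1 h8
        exact mem_coe.2 (mem_filter.2 ⟨not_not.1 h9, by rw [h11, (mem_filter.1 h10).2]⟩)
      · exact (Prod.mk.inj h).1
    have h8 := (Nat.cast_le (α := ℝ)).2 h7
    have h9 := h3.low
    have h10 : X.d / (K1 * 2 ^ j) = X.d / (2 * K1 * 2 ^ j) + X.d / (2 * K1 * 2 ^ j) := by
      field_simp
      norm_num
    push_cast at h8
    linarith
  have s2 := ind_fib_ge ((X.win X.F j u ×ˢ X.win (X.co J) j u').filter fun x => XC x.1 x.2) G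
    Prod.fst T fun e he => by
    obtain ⟨h2, h3, h4⟩ := mem_filter.1 he
    obtain ⟨h5, h6⟩ := mem_filter.1 h2
    have h7 : (e, u') ∈ X.F ×ˢ range (16 ^ j) := mem_product.2 ⟨h5, mem_range.2 h3.lt⟩
    have h8 : X.wi jW (sl e) = u' / 16 ^ (j - jW) := by rw [X.wi_anc hj, h6, hw]
    have h9 := fun h => h4 (mem_filter.2 ⟨h7, h8, h3, h⟩)
    rw [imp_false, not_or, not_or, not_not, not_not] at h9
    have h10 := not_lt.1 fun h => h9.2.2 (mem_filter.2 ⟨h7, h8,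
      (X.wi_lt_iff j (X.F_sub h5) h3.lt).1 (h6 ▸ hu), h3, h9.1, h9.2.1, h⟩)
    refine h10.trans (Nat.cast_le.2 (card_le_card_of_injOn (fun e' => (e, e')) (fun e' he' => ?_)
      fun _ _ _ _ h => (Prod.mk.inj h).2))
    obtain ⟨h11, h12⟩ := mem_filter.1 (mem_coe.1 he')
    exact mem_coe.2 (mem_filter.2 ⟨mem_filter.2 ⟨mem_product.2 ⟨h2, h11⟩, h12⟩, rfl⟩)
  exact (mul_le_mul_of_nonneg_right s1 hT).trans s2

theorem ind_num1 {K K1 n d C W B S : ℝ} (h1 : 2 ≤ K1) (h2 : K1 ≤ K) (hn : 0 ≤ n) (hd : 0 < d)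
    (hC : 0 < C) (hW : 0 < W) (h3 : B * (d / (2 * K1 * C)) ≤ S)
    (h4 : S ≤ n * C / K ^ 6 * (K1 * d / W) + n * d / K ^ 6 * (K1 ^ 2 * C / W) +
      n * d * C / (W * K ^ 6)) : B ≤ n * C ^ 2 / (W * K) := by
  have hK : 0 < K := by linarith
  have hK1 : 0 < K1 := by linarith
  have e1 : n * C / K ^ 6 * (K1 * d / W) + n * d / K ^ 6 * (K1 ^ 2 * C / W) +
      n * d * C / (W * K ^ 6) = n * C ^ 2 / (W * K) * (d / (2 * K1 * C)) *
        (2 * K1 * (K1 + K1 ^ 2 + 1) / K ^ 5) := by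
    field_simp
  have e2 : 2 * K1 * (K1 + K1 ^ 2 + 1) / K ^ 5 ≤ 1 := by
    rw [div_le_one (by positivity)]
    calc 2 * K1 * (K1 + K1 ^ 2 + 1) ≤ 2 * K1 * (2 * K1 ^ 2) := by gcongr; nlinarith
      _ = 2 ^ 2 * K1 ^ 3 := by ring
      _ ≤ K ^ 2 * K ^ 3 := by gcongr; linarith
      _ = K ^ 5 := by ring
  refine le_of_mul_le_mul_right (h3.trans (h4.trans ?_)) (by positivity : 0 < d / (2 * K1 * C))
  rw [e1]
  exact mul_le_of_le_one_right (by positivity) e2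

theorem ind_num2 {K K1 d C W Q J y M M' : ℝ} (h1 : 2 ≤ K1) (h2 : K1 ≤ K) (hd : 0 < d)
    (hC : 0 < C) (hW : 0 < W) (hy : 0 < y) (hM : 0 < M) (hM' : 0 < M')
    (h3 : (2 * J + 1) * d ≤ M * y * C)
    (h4 : Q * (d / (2 * K1 * C)) * (y * d / (M' * W)) ≤
      K1 ^ 2 * (d ^ 3 / C ^ 3) * ((2 * J + 1) * (K1 ^ 2 * (d ^ 3 / C ^ 3)))) :
    Q ≤ M * M' * K ^ 6 * d ^ 3 * W / C ^ 4 := by
  have hK : 0 < K := by linarith
  have hK1 : 0 < K1 := by linarith
  have h5 : 2 * J + 1 ≤ M * y * C / d := (le_div_iff₀ hd).2 h3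
  have h6 : 2 * K1 ^ 5 ≤ K ^ 6 := by
    calc 2 * K1 ^ 5 ≤ K * K ^ 5 := by gcongr; linarith
      _ = K ^ 6 := by ring
  rw [mul_assoc] at h4
  refine le_of_mul_le_mul_right (h4.trans ?_)
    (by positivity : 0 < d / (2 * K1 * C) * (y * d / (M' * W)))
  calc _ ≤ K1 ^ 2 * (d ^ 3 / C ^ 3) * (M * y * C / d * (K1 ^ 2 * (d ^ 3 / C ^ 3))) := by gcongr
    _ = M * M' * (2 * K1 ^ 5) * d ^ 3 * W / C ^ 4 * (d / (2 * K1 * C) * (y * d / (M' * W))) := by
      field_simp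
    _ ≤ _ := by gcongr

theorem Cfg.ind : ∃ c : ℕ, ∀ (X : Cfg) (K K1 : ℝ) (jW j : ℕ), X.Big K → 2 ≤ K1 → K1 ≤ K →
    jW ≤ j → 2 ^ jW * K ^ c ≤ 2 ^ j → 4 ^ j ≤ X.d →
    ∃ Bad : Finset (Pt × ℕ × ℕ), (Bad.card : ℝ) ≤ X.n * 4 ^ j / (2 ^ jW * K) ∧
      (∀ z ∈ Bad, X.Tame K1 j z.2.1 z.1) ∧
      ∀ u u', u < u' → u / 16 ^ (j - jW) = u' / 16 ^ (j - jW) →
        ((X.P.filter fun q => X.Tame K1 j u q ∧ X.Tame K1 j u' q ∧ (q, u, u') ∉ Bad).card : ℝ) ≤
          K ^ c * X.n * 2 ^ jW / 16 ^ j := by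
  obtain ⟨c1, H1⟩ := Cfg.useful_most
  obtain ⟨c2, H2⟩ := Cfg.localx
  refine ⟨6 * c1 + 6 * c2 + 6, fun X K K1 jW j hB h1 h2 hj h3 h4 => ?_⟩
  have hK : 1 ≤ K := by linarith
  have hK1 : 0 < K1 := by linarith
  have hd := X.d_pos
  have hKa : K ≤ K ^ 6 := le_self_pow₀ hK (by norm_num)
  obtain ⟨p4, p8, p16⟩ := Cfg.dey_pow j
  have hW : (1 : ℝ) ≤ 2 ^ jW := one_le_pow₀ one_le_two
  have a1 : (K ^ 6) ^ c1 ≤ K ^ (6 * c1 + 6 * c2 + 6) := by
    rw [← pow_mul]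
    exact pow_le_pow_right₀ hK (by omega)
  have a2 : (K ^ 6) ^ c2 ≤ K ^ (6 * c1 + 6 * c2 + 6) := by
    rw [← pow_mul]
    exact pow_le_pow_right₀ hK (by omega)
  have a3 : K ^ (6 * c1 + 6 * c2 + 6) ≤ 2 ^ j :=
    (le_mul_of_one_le_left (by positivity) hW).trans h3
  obtain ⟨J, t, y, j1, j2, y0, j3, j4, j5⟩ := H1 X (K ^ 6) j (hB.mono hKa) (by
    refine le_trans ?_ h4
    rw [p4, sq]
    exact mul_le_mul_of_nonneg_left (a1.trans a3) (by positivity))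
  have l1 := H2 X (K ^ 6) K1 J t y jW j (hB.mono hKa) h1 (h2.trans hKa) hj
    ((mul_le_mul_of_nonneg_left a2 (by positivity)).trans h3) h4 (by linarith) y0
  set T := y * X.d / ((K ^ 6) ^ c2 * 2 ^ jW) with hT
  refine ⟨X.indBad K1 J t y T jW j, ?_, fun z hz => (mem_filter.1 hz).2.1, fun u u' hu hw => ?_⟩
  · rw [p4]
    exact ind_num1 h1 h2 X.dey_n_pos.le hd (by positivity) (by positivity)
      (ind_fib_ge (X.indBP K1 J t y T jW j) _ (fun x => (x.1.1, X.wi j (sl x.1), x.2)) _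
        fun z hz => (mem_filter.1 hz).2.2)
      ((X.indBP_card hK1 (h2.trans hKa) hj j4 j5).trans (add_le_add le_rfl l1))
  · rcases (X.P.filter fun q => X.Tame K1 j u q ∧ X.Tame K1 j u' q ∧
      (q, u, u') ∉ X.indBad K1 J t y T jW j).eq_empty_or_nonempty with h | ⟨q, hq⟩
    · have := X.dey_n_pos
      rw [h, card_empty, Nat.cast_zero]
      positivity
    obtain ⟨-, q1, q2, -⟩ := mem_filter.1 hq
    have s0 : 0 ≤ X.sz j := by linarith
    have s1 := q1.act_card hK1.le le_rfl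
    have s2 := (q2.reg j le_rfl).nice
    rw [Nat.sub_self, pow_zero, Nat.div_one] at s1 s2
    have s3 := (X.ind_good (t := t) (y := y) hK1 (show 0 ≤ T by positivity) hj hu hw).trans
      ((X.ind_cross (by linarith) (j2.trans (le_mul_of_one_le_left s0 (by linarith : 1 ≤ K1))) hu
        q2.lt).trans (mul_le_mul s1 (mul_le_mul_of_nonneg_left s2 (by linarith)) (by positivity)
          (by positivity)))
    rw [Cfg.sz, X.n_eq, p8] at s3
    rw [X.n_eq, p16, pow_add, pow_add, pow_mul, pow_mul]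
    exact ind_num2 h1 h2 hd (by positivity) (by positivity) y0 (by positivity) (by positivity) j3 s3

theorem Cfg.disj (X : Cfg) (J t y θ0 h : ℝ) (hJ : 0 ≤ J) (j u : ℕ) :
    ((X.P.filter fun p => X.Useful J t y j u p ∧ ∃ f ∈ X.F, f.1 = p ∧ X.TrimC J t f ∧
      fv θ0 f.1 < h ∧ h < fv θ0 f.2 ∧ sl f < X.al j u).card : ℝ) * y ≤
      (2 * J + 1) * (X.Uw j u J).card := by
  refine (ind_fib_ge ((X.win (X.co J) j u).filter fun e => fv θ0 e.1 < h ∧ h ≤ fv θ0 e.2) _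
    Prod.fst y fun p hp => ?_).trans (le_trans (Nat.cast_le.2 ?_) (X.ind_chains hJ le_rfl j u))
  · obtain ⟨-, h1, f, hf, rfl, h2, h3, h4, h5⟩ := mem_filter.1 hp
    refine h1.1.trans (Nat.cast_le.2 (card_le_card fun e he => ?_))
    obtain ⟨h6, h7⟩ := mem_filter.1 he
    obtain ⟨h8, h9⟩ := mem_filter.1 h6
    obtain ⟨h10, h11⟩ := mem_filter.1 h8
    refine mem_filter.2 ⟨mem_filter.2 ⟨mem_filter.2 ⟨h10, h9⟩, h7 ▸ h3, not_lt.1 fun hc => ?_⟩, h7⟩
    have a1 := X.F_sub hf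
    have a2 := X.co_sub J h10
    have a3 := (mem_prs.1 a1).2.2
    have a4 : sl f < sl e := h5.trans (h9 ▸ (X.wi_spec j a2).1)
    have a5 : θ0 < sl f := (fv_lt_iff a3 θ0).1 (h3.trans h4)
    have a6 : fv (sl e) f.2 < fv (sl e) e.2 := by
      rw [← fv_sl (mem_prs.1 a2).2.2, h7]
      exact (fv_gt_iff a3 _).2 a4
    have a7 := (Nat.cast_le (α := ℝ)).2 (tri_le X.gen X.T (X.lv J) a1 a2 a4 (by rw [h7])
      (by rw [h7]) (tri_x (a5.trans a4) a6 (hc.trans h4).le).le)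
    have a8 := mul_le_mul_of_nonneg_right (X.lv_card hJ) (Nat.cast_nonneg (xc X.P f.1 f.2))
    push_cast at a7
    exact absurd (h11.trans (a7.trans (add_le_add le_rfl a8))) (not_le.2 h2)
  · refine card_le_card_of_injOn (fun e => (lev X.P e, X.T.ch (lev X.P e) e))
      (fun e he => mem_coe.2 (mem_image_of_mem _ (mem_filter.1 (mem_coe.1 he)).1))
      fun e he e' he' h => ?_
    obtain ⟨a1, a2, a3⟩ := mem_filter.1 (mem_coe.1 he)
    obtain ⟨b1, b2, b3⟩ := mem_filter.1 (mem_coe.1 he')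
    exact X.T.line_once X.gen (ind_lev (X.co_sub J (mem_filter.1 a1).1) X.T h)
      (ind_lev (X.co_sub J (mem_filter.1 b1).1) X.T rfl) θ0 _ a2 a3 b2 b3

end Vale.Agent.P065.U
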