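import Vale.Agent.P065.U.Exc

/-!
P065/U task Level: from a bound in n to a bound in n and the level.

Let s = a + 1, Low = edges of level ≤ 2s + a (at most 3 n s + ... ≤ 4 n s of them, `low_edges`), Q = s².
For e ∈ edges P a let w e = #{e' ∈ Low | sl e' < sl e}/Q; it takes ≤ 4 n/s + 1 values. If s > n there are
no edges; otherwise ≤ 5 n/s values. For a value u let [α, β] be the closed range of the slopes of the
level-a edges with w e = u. Low edges with slope in [α, β] number ≤ Q + 4 s (ties at β: one per level,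
`sl_inj`). U = {p ∈ P | rk θ p ≤ a for some θ ∈ [α, β]}. A point of U has rk α ≤ 2s + a (≤ 8 s points,
`band_card`) or, by `exc`, ≥ 2s Low edges with slope in [α, β] (≤ (Q + 4s)/s points). So |U| ≤ 13 s.
An edge of level a with slope in [α, β] is an edge of level a of U (its ends and all points below it
are in U), and Gen U. So the total is ≤ (5 n/s) C (13 s)^(4/3 - ε).
-/

namespace Vale.Agent.P065.U

open Finset Classical

theorem level_gen {P U : Finset Pt} (hP : Gen P) (h : U ⊆ P) : Gen U :=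
  ⟨fun p hp q hq => hP.xinj p (h hp) q (h hq),
    fun p hp q hq r hr => hP.ncol p (h hp) q (h hq) r (h hr)⟩

/-- Number of edges of `G` with slope below `θ`. -/
noncomputable def levelN (G : Finset Ed) (θ : ℝ) : ℕ := (G.filter fun e => sl e < θ).card

theorem levelN_mono (G : Finset Ed) {θ θ' : ℝ} (h : θ ≤ θ') : levelN G θ ≤ levelN G θ' :=
  card_le_card fun _ he => mem_filter.2 ⟨(mem_filter.1 he).1, (mem_filter.1 he).2.trans_le h⟩

theorem level_win {P : Finset Pt} (hP : Gen P) (j Q u : ℕ) (hQ : 0 < Q) :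
    ((edgesIn P (range j)).filter fun e => levelN (edgesIn P (range j)) (sl e) / Q = u).card ≤
      Q + j := by
  set G := edgesIn P (range j) with hG
  set W := G.filter fun e => levelN G (sl e) / Q = u with hW
  rcases W.eq_empty_or_nonempty with h0 | h0
  · rw [h0, card_empty]
    exact Nat.zero_le _
  obtain ⟨e1, a1, b1⟩ := exists_min_image W sl h0
  obtain ⟨e2, a2, b2⟩ := exists_max_image W sl h0
  have c1 : (W.filter fun e => sl e < sl e2).card + levelN G (sl e1) ≤ levelN G (sl e2) := by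
    unfold levelN
    rw [← card_union_of_disjoint]
    · refine card_le_card fun e he => ?_
      rcases mem_union.1 he with h | h
      · exact mem_filter.2 ⟨(mem_filter.1 (mem_filter.1 h).1).1, (mem_filter.1 h).2⟩
      · exact mem_filter.2 ⟨(mem_filter.1 h).1, (mem_filter.1 h).2.trans_le (b1 e2 a2)⟩
    · rw [disjoint_left]
      intro e h h'
      exact absurd (mem_filter.1 h').2 (not_lt.2 (b1 e (mem_filter.1 h).1))
  have c2 : (G.filter fun e => sl e = sl e2).card ≤ j := by
    refine le_trans (card_le_card_of_injOn (t := range j) (lev P) (fun e he => ?_)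
      fun e he e' he' h => ?_) (card_range j).le
    · exact (mem_filter.1 (mem_filter.1 he).1).2
    · obtain ⟨d1, d2⟩ := mem_filter.1 he
      obtain ⟨d3, d4⟩ := mem_filter.1 he'
      exact sl_inj hP (mem_filter.2 ⟨(mem_filter.1 d1).1, h⟩)
        (mem_filter.2 ⟨(mem_filter.1 d3).1, rfl⟩) (d2.trans d4.symm)
  have c3 : W.card ≤ (W.filter fun e => sl e < sl e2).card +
      (G.filter fun e => sl e = sl e2).card := by
    refine le_trans (card_le_card fun e he => ?_) (card_union_le _ _)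
    rcases (b2 e he).lt_or_eq with h | h
    · exact mem_union_left _ (mem_filter.2 ⟨he, h⟩)
    · exact mem_union_right _ (mem_filter.2 ⟨(mem_filter.1 he).1, h⟩)
  have c4 := Nat.div_mul_le_self (levelN G (sl e1)) Q
  have c5 := Nat.lt_div_mul_add (a := levelN G (sl e2)) hQ
  rw [(mem_filter.1 a1).2] at c4
  rw [(mem_filter.1 a2).2] at c5
  omega

theorem level_U {P : Finset Pt} (hP : Gen P) (a u : ℕ) :
    (P.filter fun p => ∃ θ, levelN (edgesIn P (range (2 * a + 1))) θ / (a + 1) ^ 2 = u ∧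
      rk P θ p ≤ a).card ≤ 10 * (a + 1) := by
  have hw := level_win hP (2 * a + 1) ((a + 1) ^ 2) u (by positivity)
  set G := edgesIn P (range (2 * a + 1)) with hG
  set W := G.filter fun e => levelN G (sl e) / (a + 1) ^ 2 = u with hW
  set U := P.filter fun p => ∃ θ, levelN G θ / (a + 1) ^ 2 = u ∧ rk P θ p ≤ a with hU
  rcases U.eq_empty_or_nonempty with h0 | ⟨p0, h0⟩
  · rw [h0, card_empty]
    exact Nat.zero_le _
  obtain ⟨θ0, h1, -⟩ := (mem_filter.1 h0).2
  have c1 := band_card hP θ0 (range (2 * a + 1))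
  rw [card_range] at c1
  have c2 : (U.filter fun p => 2 * a < rk P θ0 p).card * (a + 1) ≤ W.card * 2 := by
    refine card_mul_le_card_mul (fun p e => e.1 = p ∨ e.2 = p) (fun p hp => ?_) fun e _ => ?_
    · obtain ⟨d1, d2⟩ := mem_filter.1 hp
      obtain ⟨d3, θ, d4, d5⟩ := mem_filter.1 d1
      refine le_trans (by rw [Nat.card_Ico]; omega)
        (card_le_card_of_surjOn (t := Ico a (2 * a + 1)) (lev P) fun l hl => ?_)
      obtain ⟨l1, l2⟩ := mem_Ico.1 (mem_coe.1 hl)
      obtain ⟨e, f1, f2, f3, f4⟩ := exc hP d3 (d5.trans l1) (show l < rk P θ0 p by omega)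
      obtain ⟨f5, f6⟩ := mem_filter.1 f1
      refine ⟨e, mem_coe.2 ((mem_bipartiteAbove _).2 ⟨mem_filter.2 ⟨mem_filter.2
        ⟨f5, mem_range.2 (by omega)⟩, le_antisymm ?_ ?_⟩, f2⟩), f6⟩
      · refine le_trans (Nat.div_le_div_right (levelN_mono G f4)) ?_
        rcases max_choice θ θ0 with h | h <;> rw [h]
        exacts [d4.le, h1.le]
      · refine le_trans ?_ (Nat.div_le_div_right (levelN_mono G f3))
        rcases min_choice θ θ0 with h | h <;> rw [h]
        exacts [d4.ge, h1.ge]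
    · refine le_trans (card_le_card (t := {e.1, e.2}) fun p hp => ?_) card_le_two
      rcases ((mem_bipartiteBelow _).1 hp).2 with h | h
      · exact mem_insert.2 (Or.inl h.symm)
      · exact mem_insert.2 (Or.inr (mem_singleton.2 h.symm))
  have c3 : U.card ≤ (P.filter fun p => rk P θ0 p ∈ range (2 * a + 1)).card +
      (U.filter fun p => 2 * a < rk P θ0 p).card := by
    refine le_trans (card_le_card fun p hp => ?_) (card_union_le _ _)
    rcases le_or_gt (rk P θ0 p) (2 * a) with h | h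
    · exact mem_union_left _ (mem_filter.2 ⟨(mem_filter.1 hp).1, mem_range.2 (by omega)⟩)
    · exact mem_union_right _ (mem_filter.2 ⟨hp, h⟩)
  have c4 : (U.filter fun p => 2 * a < rk P θ0 p).card ≤ 6 * (a + 1) :=
    Nat.le_of_mul_le_mul_right (c2.trans (by nlinarith)) (Nat.succ_pos a)
  omega

theorem level_sub {P U : Finset Pt} (h : U ⊆ P) {a : ℕ} {e : Ed} (he : e ∈ edges P a)
    (hU : ∀ p ∈ P, rk P (sl e) p ≤ a → p ∈ U) : e ∈ edges U a := by
  obtain ⟨a1, a2⟩ := mem_filter.1 he
  obtain ⟨a3, a4, a5⟩ := mem_prs.1 a1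
  refine mem_filter.2 ⟨mem_prs.2 ⟨hU _ a3 a2.le, hU _ a4 ((rk_right a1).trans a2).le, a5⟩, ?_⟩
  rw [← a2]
  refine congrArg card (Subset.antisymm (filter_subset_filter _ h) fun y hy => ?_)
  obtain ⟨b1, b2⟩ := mem_filter.1 hy
  exact mem_filter.2 ⟨hU y b1 ((rk_mono P _ b2.le).trans a2.le), b2⟩

theorem level_le {ε C : ℝ} (h0 : 0 < ε) (h1 : ε ≤ 1 / 3) (hC : 0 < C)
    (h : ∀ (P : Finset Pt) (a : ℕ), Gen P →
      ((edges P a).card : ℝ) ≤ C * (P.card : ℝ) ^ (4 / 3 - ε)) :
    ∃ C' : ℝ, 0 < C' ∧ ∀ (P : Finset Pt) (a : ℕ), Gen P →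
      ((edges P a).card : ℝ) ≤ C' * P.card * ((a : ℝ) + 1) ^ (1 / 3 - ε) := by
  refine ⟨3 * C * 10 ^ (4 / 3 - ε), by positivity, fun P a hP => ?_⟩
  rcases (edges P a).eq_empty_or_nonempty with h2 | ⟨e0, h2⟩
  · rw [h2, card_empty, Nat.cast_zero]
    positivity
  have ha : a + 1 ≤ P.card := by
    have := lev_lt (mem_filter.1 h2).1
    rw [(mem_filter.1 h2).2] at this
    exact this
  have hG := low_edges hP (2 * a)
  set G := edgesIn P (range (2 * a + 1)) with hG'
  set m := G.card / (a + 1) ^ 2 + 1 with hm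
  have hm1 : m * (a + 1) ≤ 3 * P.card := by
    have b1 := Nat.div_mul_le_self G.card ((a + 1) ^ 2)
    have b2 : G.card / (a + 1) ^ 2 * (a + 1) ≤ 2 * P.card :=
      Nat.le_of_mul_le_mul_right (by nlinarith) (Nat.succ_pos a)
    rw [hm, add_mul]
    omega
  have hs : (0 : ℝ) < (a : ℝ) + 1 := by positivity
  have hu : ∀ u ∈ range m, (((edges P a).filter fun e =>
      levelN G (sl e) / (a + 1) ^ 2 = u).card : ℝ) ≤ C * (10 * ((a : ℝ) + 1)) ^ (4 / 3 - ε) := by
    intro u _
    have b1 := level_U hP a u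
    set U := P.filter fun p => ∃ θ, levelN G θ / (a + 1) ^ 2 = u ∧ rk P θ p ≤ a with hU
    have b2 : ((edges P a).filter fun e => levelN G (sl e) / (a + 1) ^ 2 = u) ⊆ edges U a :=
      fun e he => level_sub (filter_subset _ _) (mem_filter.1 he).1 fun p hp h' =>
        mem_filter.2 ⟨hp, sl e, (mem_filter.1 he).2, h'⟩
    refine (Nat.cast_le.2 (card_le_card b2)).trans ((h U a (level_gen hP (filter_subset _ _))).trans
      (mul_le_mul_of_nonneg_left (Real.rpow_le_rpow (Nat.cast_nonneg _) ?_ (by linarith)) hC.le))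
    exact_mod_cast b1
  have h3 := card_eq_sum_card_fiberwise (s := edges P a) (t := range m)
    (f := fun e => levelN G (sl e) / (a + 1) ^ 2) fun e _ =>
      mem_coe.2 (mem_range.2 (Nat.lt_succ_of_le (Nat.div_le_div_right (card_filter_le _ _))))
  rw [h3, Nat.cast_sum]
  refine (sum_le_card_nsmul _ _ _ hu).trans ?_
  have h4 : (m : ℝ) * ((a : ℝ) + 1) ≤ 3 * P.card := by exact_mod_cast hm1
  have h5 : ((a : ℝ) + 1) ^ (4 / 3 - ε) = ((a : ℝ) + 1) * ((a : ℝ) + 1) ^ (1 / 3 - ε) := by
    rw [← Real.rpow_one_add' hs.le (by linarith)]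
    congr 1
    ring
  rw [card_range, nsmul_eq_mul, Real.mul_rpow (by norm_num) hs.le, h5]
  have h6 : 0 ≤ C * 10 ^ (4 / 3 - ε) * ((a : ℝ) + 1) ^ (1 / 3 - ε) := by positivity
  nlinarith [mul_le_mul_of_nonneg_right h4 h6]

end Vale.Agent.P065.U
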