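import Vale.Agent.P065.U.Dey

/-!
P065/U task Touch: few chains with shallower edges touch the comparable points of a window.

Fix u, α = al j u, W = its ancestor, αW = al jW W, and c ∈ touch with edge e at q = e.1. At most 2(2J+1)
chains have pos c α or pos c αW with rank at α within J of k (`band_gen`, `pos_inj`). For another
chain and stayers a Lt q Lt b, the link l = (a,b) lies in win (co J) j u (`link_mem`), σ = sl l > α, and
some chain edge f with αW ≤ sl f < α has WX f l: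
q above line l: fv α (pos α) ≤ fv α q < fv α b, so pos α is not above the band, hence below it,
fv α (pos α) < fv α a, and it is right of a, so strictly below line l; `switch` from sl e to α.
q below line l: y0 = pos αW has fv α y0 ≥ fv α q > fv α a, so it is above the band, fv α y0 > fv α b,
and it is left of b, so above line l; `switch` from αW to sl e. In both cases both ends of f have
fv α in (fv α a, ∞) or (-∞, fv α b) as needed and the meeting point is strictly inside l.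
(u, c, a, b) ↦ (f, l) is injective; `wcr_win` at scale jW.
-/

namespace Vale.Agent.P065.U

open Finset Classical

/-- Chains with an edge of the ancestor window, shallower than window `u`, at a comparable point. -/
noncomputable def Cfg.touch (X : Cfg) (jW j u : ℕ) (J y : ℝ) : Finset Pt :=
  (X.T.lab X.k).filter fun c => ∃ e ∈ X.T.chain X.k c, X.wi jW (sl e) = u / 16 ^ (j - jW) ∧
    sl e < X.al j u ∧ X.Cmp j u (X.stayers j u J) y e.1

theorem touch_fv (θ θ' : ℝ) (p q : Pt) :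
    fv θ p - fv θ q = fv θ' p - fv θ' q + (θ' - θ) * (p.1 - q.1) := by
  unfold fv
  ring

theorem touch_geo {P : Finset Pt} (hP : Gen P) (T : Tok P) {k : ℕ} {c a b : Pt} {e : Ed}
    {αW α σ J : ℝ} (he : e ∈ T.chain k c) (h1 : αW ≤ sl e) (h2 : sl e < α) (h3 : α < σ)
    (hab : fv σ a = fv σ b) (xa : a.1 < e.1.1) (xb : e.1.1 < b.1) (fa : fv α a < fv α e.1)
    (fb : fv α e.1 < fv α b) (ra : |(rk P α a : ℝ) - k| ≤ J) (rb : |(rk P α b : ℝ) - k| ≤ J)
    (n1 : ¬ |(rk P α (T.pos k c α) : ℝ) - k| ≤ J) (n2 : ¬ |(rk P α (T.pos k c αW) : ℝ) - k| ≤ J) :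
    ∃ f ∈ T.chain k c, αW ≤ sl f ∧ sl f < α ∧ fv (sl f) a < fv (sl f) f.1 ∧
      fv (sl f) f.1 ≤ fv (sl f) b ∧ fv σ a ≤ fv σ f.1 ∧ fv σ f.2 < fv σ a := by
  have hc := T.lab_of_chain_TA he
  have hat : ∀ f ∈ T.chain k c, T.pos k c (sl f) = f.1 := fun f hf => by
    have h := T.pos_at k f ((T.mem_chain.1 hf).1)
    rwa [(T.mem_chain.1 hf).2] at h
  have hx : ∀ f ∈ T.chain k c, f.1.1 < f.2.1 := fun f hf =>
    (mem_prs.1 (edges_sub P k (T.mem_chain.1 hf).1)).2.2
  have hdec : ∀ f ∈ T.chain k c, sl f < α → -fv α f.1 ≤ -fv α f.2 := fun f hf h =>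
    neg_le_neg ((fv_gt_iff (hx f hf) α).2 h).le
  rw [abs_le] at ra rb n1 n2
  by_cases hq : fv σ a ≤ fv σ e.1
  · have g1 := T.pos_min hP hc α (sl e)
    have g2 := T.pos_x_mono hP hc h2.le
    rw [hat e he] at g1 g2
    have g3 : (rk P α (T.pos k c α) : ℝ) ≤ rk P α b := Nat.cast_le.2 (rk_mono P α (g1.trans fb.le))
    have g4 : fv α (T.pos k c α) < fv α a := fv_lt_of_rk_lt (P := P) (Nat.cast_lt (α := ℝ).1 (by
      by_contra h
      exact n1 ⟨by linarith, by linarith⟩))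
    obtain ⟨f, hf, f1, f2, f3, f4⟩ := T.switch hP hc h2.le (fun p => fv σ a ≤ fv σ p)
      (by rwa [hat e he]) (not_le.2 (by
        nlinarith [touch_fv α σ a (T.pos k c α), mul_pos (sub_pos.2 h3) (sub_pos.2 (xa.trans_le g2))]))
    have g5 := T.pos_x_mono hP hc f1
    have g6 := T.pos_le hP hc f1 (fun p => -fv α p) fun g hg _ h => hdec g hg (h.trans f2)
    simp only [hat e he, hat f hf] at g5 g6
    have g7 : f.1.1 < b.1 := by
      by_contra h
      nlinarith [touch_fv α σ b f.1, mul_nonneg (sub_pos.2 h3).le (sub_nonneg.2 (not_lt.1 h))]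
    refine ⟨f, hf, h1.trans f1, f2, ?_, ?_, f3, not_le.1 f4⟩
    · linarith [touch_fv (sl f) σ f.1 a, mul_pos (sub_pos.2 (f2.trans h3)) (sub_pos.2 (xa.trans_le g5))]
    · linarith [touch_fv (sl f) α b f.1, mul_pos (sub_pos.2 f2) (sub_pos.2 g7)]
  · have g1 := T.pos_le hP hc h1 (fun p => -fv α p) fun g hg _ h => hdec g hg (h.trans h2)
    have g2 := T.pos_x_mono hP hc h1
    simp only [hat e he] at g1 g2
    have g3 : (rk P α a : ℝ) ≤ rk P α (T.pos k c αW) := Nat.cast_le.2 (rk_mono P α (by linarith))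
    have g4 : fv α b < fv α (T.pos k c αW) := fv_lt_of_rk_lt (P := P) (Nat.cast_lt (α := ℝ).1 (by
      by_contra h
      exact n2 ⟨by linarith, by linarith⟩))
    obtain ⟨f, hf, f1, f2, f3, f4⟩ := T.switch hP hc h1 (fun p => fv σ a ≤ fv σ p) (by
      nlinarith [touch_fv α σ b (T.pos k c αW), mul_pos (sub_pos.2 h3) (sub_pos.2 (g2.trans_lt xb))])
      (by rwa [hat e he])
    have g5 := T.chain_x_TA hP hf he f2
    have g6 := T.chain_le hP hf he f2 (fun p => -fv α p) fun g hg _ h => hdec g hg (h.trans h2)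
    have g8 := fv_sl (hx f hf)
    have f5 := not_le.1 f4
    have g7 : a.1 < f.2.1 := by
      by_contra h
      nlinarith [touch_fv α σ a f.2, mul_nonneg (sub_pos.2 h3).le (sub_nonneg.2 (not_lt.1 h))]
    refine ⟨f, hf, f1, f2.trans h2, ?_, ?_, f3, f5⟩
    · linarith [touch_fv (sl f) α f.2 a, mul_pos (sub_pos.2 (f2.trans h2)) (sub_pos.2 g7)]
    · linarith [touch_fv (sl f) σ b f.2,
        mul_pos (sub_pos.2 ((f2.trans h2).trans h3)) (sub_pos.2 (g5.trans_lt xb))]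

theorem touch_lt {jW j u : ℕ} (hj : jW ≤ j) (hu : u < 16 ^ j) : u / 16 ^ (j - jW) < 16 ^ jW := by
  rw [Nat.div_lt_iff_lt_mul (by positivity), ← pow_add, Nat.add_sub_cancel' hj]
  exact hu

/-- Weakly crossing pairs of the window `W` whose steeper edge lies in the window `u`. -/
noncomputable def Cfg.touchS (X : Cfg) (jW j W u : ℕ) (J : ℝ) : Finset (Ed × Ed) :=
  ((X.win X.F jW W ×ˢ X.win (X.co J) jW W).filter fun x => WX x.1 x.2).filter
    fun x => X.wi j (sl x.2) = u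

theorem Cfg.touch_band (X : Cfg) (j u : ℕ) (θ : ℝ) {J : ℝ} (hJ : 0 ≤ J) :
    (((X.T.lab X.k).filter fun c =>
      |(rk X.P (X.al j u) (X.T.pos X.k c θ) : ℝ) - X.k| ≤ J).card : ℝ) ≤ 2 * J + 1 := by
  refine le_trans (Nat.cast_le.2 (card_le_card_of_injOn (fun c => X.T.pos X.k c θ)
    (fun c hc => ?_) fun c hc c' hc' h => ?_)) (band_gen (X.al_gen j u) X.k J hJ)
  · have h := mem_filter.1 (mem_coe.1 hc)
    exact mem_coe.2 (mem_filter.2 ⟨X.T.pos_mem _ _ h.1 _, h.2⟩)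
  · exact X.T.pos_inj _ _ (mem_filter.1 (mem_coe.1 hc)).1 _ (mem_filter.1 (mem_coe.1 hc')).1 _ h

theorem Cfg.touch_fib (X : Cfg) {jW j u : ℕ} (hj : jW ≤ j) (hu : u < 16 ^ j) {J y : ℝ} (hy : 0 < y)
    {c : Pt} (hc : c ∈ X.touch jW j u J y)
    (n1 : ¬ |(rk X.P (X.al j u) (X.T.pos X.k c (X.al j u)) : ℝ) - X.k| ≤ J)
    (n2 : ¬ |(rk X.P (X.al j u) (X.T.pos X.k c (X.al jW (u / 16 ^ (j - jW)))) : ℝ) - X.k| ≤ J) :
    y ^ 2 ≤ ((X.touchS jW j (u / 16 ^ (j - jW)) u J).filter fun x => X.T.ch X.k x.1 = c).card := by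
  obtain ⟨e, he, e1, e2, e3, e4⟩ := (mem_filter.1 hc).2
  have h1 := mul_le_mul e3 e4 hy.le (Nat.cast_nonneg _)
  rw [← Nat.cast_mul, ← card_product, ← sq] at h1
  refine h1.trans (Nat.cast_le.2 ((card_le_card fun l hl => ?_).trans
    (card_image_le (f := Prod.snd))))
  obtain ⟨a, b⟩ := l
  obtain ⟨ha, hb⟩ := mem_product.1 hl
  obtain ⟨ha, la⟩ := mem_filter.1 ha
  obtain ⟨hb, lb⟩ := mem_filter.1 hb
  obtain ⟨ha, sa⟩ := mem_filter.1 ha
  obtain ⟨hb, sb⟩ := mem_filter.1 hb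
  have lab := la.trans lb
  have hl := X.link_mem hu ha hb lab (Or.inl sa)
  have hle : X.al j u ≤ X.al j (u + 1) := X.al_mono j (Nat.le_succ u)
  have w := (X.wi_spec jW (edges_sub _ _ (X.T.mem_chain.1 he).1)).1
  rw [e1] at w
  obtain ⟨f, hf, f1, f2, f3, f4, f5, f6⟩ := touch_geo X.gen X.T he w.le e2 lab.spec.2.1
    (fv_sl (e := (a, b)) lab.spec.1) la.spec.1 lb.spec.1 la.1 lb.1 (sa _ le_rfl hle)
    (sb _ le_rfl hle) n1 n2
  refine mem_image.2 ⟨(f, (a, b)), mem_filter.2 ⟨mem_filter.2 ⟨mem_filter.2 ⟨mem_product.2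
    ⟨?_, X.win_anc _ hj u hl⟩, f2.trans lab.spec.2.1, f3, f4, f5, f6⟩, (mem_filter.1 hl).2⟩,
    (X.T.mem_chain.1 hf).2⟩, rfl⟩
  rw [X.win_eq X.F_sub (touch_lt hj hu)]
  exact mem_filter.2 ⟨(X.T.mem_chain.1 hf).1, f1, f2.le.trans (hle.trans (X.al_anc_le hj u).2)⟩

theorem Cfg.touch_one (X : Cfg) {jW j u : ℕ} (hj : jW ≤ j) (hu : u < 16 ^ j) {J y : ℝ} (hJ : 0 ≤ J)
    (hy : 0 < y) : ((X.touch jW j u J y).card : ℝ) ≤
      2 * (2 * J + 1) + ((X.touchS jW j (u / 16 ^ (j - jW)) u J).card : ℝ) / y ^ 2 := by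
  obtain ⟨R, hR⟩ : ∃ R, R = (X.touch jW j u J y).filter fun c =>
      ¬ |(rk X.P (X.al j u) (X.T.pos X.k c (X.al j u)) : ℝ) - X.k| ≤ J ∧
      ¬ |(rk X.P (X.al j u) (X.T.pos X.k c (X.al jW (u / 16 ^ (j - jW)))) : ℝ) - X.k| ≤ J :=
    ⟨_, rfl⟩
  have h1 : (R.card : ℝ) ≤ ((X.touchS jW j (u / 16 ^ (j - jW)) u J).card : ℝ) / y ^ 2 := by
    rw [le_div_iff₀ (by positivity), ← nsmul_eq_mul]
    refine (card_nsmul_le_sum R _ _ fun c hc => ?_).trans (b := ∑ c ∈ R,
      (((X.touchS jW j (u / 16 ^ (j - jW)) u J).filter fun x => X.T.ch X.k x.1 = c).card : ℝ)) ?_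
    · rw [hR] at hc
      exact X.touch_fib hj hu hy (mem_filter.1 hc).1 (mem_filter.1 hc).2.1 (mem_filter.1 hc).2.2
    · rw [← Nat.cast_sum, Nat.cast_le, sum_card_fiberwise_eq_card_filter]
      exact card_filter_le _ _
  have h2 := X.touch_band j u (X.al j u) hJ
  have h3 := X.touch_band j u (X.al jW (u / 16 ^ (j - jW))) hJ
  refine le_trans ?_ (add_le_add ((add_le_add h2 h3).trans_eq (two_mul _).symm) h1)
  rw [← Nat.cast_add, ← Nat.cast_add, Nat.cast_le]
  refine le_trans (card_le_card fun c hc => ?_)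
    ((card_union_le _ _).trans (Nat.add_le_add_right (card_union_le _ _) _))
  have hc' := (mem_filter.1 hc).1
  simp only [mem_union, hR, mem_filter, hc, hc', true_and]
  tauto

theorem Cfg.touch_sum (X : Cfg) (jW j : ℕ) (hj : jW ≤ j) (J J' y B : ℝ) (hJ : 0 ≤ J) (hJ' : J ≤ J')
    (hy : 0 < y) :
    ∑ u ∈ (range (16 ^ j)).filter
        (fun u => ((X.Uw jW (u / 16 ^ (j - jW)) J').card : ℝ) ≤ B), ((X.touch jW j u J y).card : ℝ) ≤
      16 ^ j * (2 * (2 * J + 1)) + 16 ^ jW * (2 * J + 1) * B ^ 2 / y ^ 2 := by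
  have hS : ∀ u ∈ (range (16 ^ j)).filter
      (fun u => ((X.Uw jW (u / 16 ^ (j - jW)) J').card : ℝ) ≤ B), ((X.touch jW j u J y).card : ℝ) ≤
      2 * (2 * J + 1) + ((X.touchS jW j (u / 16 ^ (j - jW)) u J).card : ℝ) / y ^ 2 :=
    fun u hu => X.touch_one hj (mem_range.1 (mem_filter.1 hu).1) hJ hy
  refine (sum_le_sum hS).trans ?_
  rw [sum_add_distrib, ← sum_div]
  refine add_le_add ?_ (div_le_div_of_nonneg_right ?_ (by positivity))
  · rw [sum_const, nsmul_eq_mul]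
    refine mul_le_mul_of_nonneg_right ?_ (by positivity)
    exact_mod_cast (card_filter_le _ _).trans_eq (card_range _)
  · rw [← sum_fiberwise_of_maps_to (t := range (16 ^ jW)) (g := fun u => u / 16 ^ (j - jW))
      fun u hu => mem_range.2 (touch_lt hj (mem_range.1 (mem_filter.1 hu).1))]
    refine (sum_le_card_nsmul _ _ ((2 * J + 1) * B ^ 2) fun W _ => ?_).trans_eq (by
      rw [card_range, nsmul_eq_mul, mul_assoc]
      norm_cast)
    rcases eq_empty_or_nonempty (((range (16 ^ j)).filter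
      (fun u => ((X.Uw jW (u / 16 ^ (j - jW)) J').card : ℝ) ≤ B)).filter
        fun u => u / 16 ^ (j - jW) = W) with h0 | ⟨u0, hu0⟩
    · rw [h0, sum_empty]
      positivity
    · have h1 := (mem_filter.1 (mem_filter.1 hu0).1).2
      rw [(mem_filter.1 hu0).2] at h1
      refine le_trans ?_ ((X.wcr_win jW W J J' hJ hJ').trans (mul_le_mul_of_nonneg_left
        (pow_le_pow_left₀ (Nat.cast_nonneg _) h1 2) (by positivity)))
      rw [sum_congr rfl fun u hu => by rw [(mem_filter.1 hu).2], ← Nat.cast_sum, Nat.cast_le]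
      unfold Cfg.touchS
      rw [sum_card_fiberwise_eq_card_filter]
      exact card_filter_le _ _

end Vale.Agent.P065.U
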