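import Vale.Agent.P065.U.Cmp
import Vale.Agent.P065.U.Touch

/-!
P065/U task Links: most fine edges have many links.

C = 2^j, y = sz j/(8K)^c1 from `cmp_most`, J = K1 sz j, r = K^c n/C. Call (p,u) good if p ∈ A u ∩ Z u,
Cmp j u (Z u) y p, and at most y/4 points q ∈ Z u with Lt q p have hit (q,p) > r. These links lie in
co J (`link_mem`), Σ hit ≤ 10(2J+1) n² (`hit_sum`), so few pairs fail the last condition, each
carrying ≤ K1 d/C edges. G1 = edges e with (e.1, wi e) good: all but miss A + 2 miss Z + n d/(4K).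
Drop the f ∈ G1 that are among the last d/(8K) edges of G1 at f.1 in slope order (≤ n d/(8K) + n).
For the others the later G1 edges at f.1 lie in ≥ C/(8 K K1) windows, so ≥ C/(16 K K1) good windows u
have sl f < al j u (`wi_lt_iff`). Say (f,u) has a large drop if rk α f.1 - rk α f.2 > y/4, α = al j u.
Without a large drop, u gives ≥ y/2 links: q Lt f.1 has fv β f.2 < fv β f.1 < fv β q, and
fv α q < fv α f.2 fails for ≤ y/4 points (`between_card`). Different u give disjoint sets (`Lt.spec`).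
Large drops: the chain of f is in touch 0 j u J y (Z u ⊆ stayers; take J' = J, B = n); ranks at α
decrease along chain edges of slope < α and f.1 is in the band of radius J, so ≤ 1 + 8J/y such f per
(chain, u). `touch_sum` bounds the total by K^c2 n C³; an edge with large drops in half of its windows
uses ≥ C/(32 K K1) of them; K^c3 n C² ≤ n d/(8K).
-/

namespace Vale.Agent.P065.U

open Finset Classical

theorem links_fib_ge {α β : Type} [DecidableEq β] (s : Finset α) (t : Finset β) (f : α → β) (m : ℝ)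
    (h : ∀ b ∈ t, m ≤ ((s.filter fun a => f a = b).card : ℝ)) : (t.card : ℝ) * m ≤ s.card := by
  have h1 := Finset.card_nsmul_le_sum t _ m h
  rw [nsmul_eq_mul, ← Nat.cast_sum, Finset.sum_card_fiberwise_eq_card_filter] at h1
  exact h1.trans (Nat.cast_le.2 (Finset.card_filter_le _ _))

theorem links_fib_le {α β : Type} [DecidableEq β] (s : Finset α) (t : Finset β) (f : α → β) (m : ℝ)
    (hf : ∀ a ∈ s, f a ∈ t) (h : ∀ b ∈ t, ((s.filter fun a => f a = b).card : ℝ) ≤ m) :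
    (s.card : ℝ) ≤ t.card * m := by
  have h1 := Finset.sum_le_card_nsmul t _ m h
  rwa [nsmul_eq_mul, ← Nat.cast_sum, ← Finset.card_eq_sum_card_fiberwise hf] at h1

theorem links_sep {ι : Type} (s : Finset ι) (v : ι → ℝ) {a J δ : ℝ} (hJ : 0 ≤ J) (hδ : 0 < δ)
    (h1 : ∀ i ∈ s, |v i - a| ≤ J) (h2 : ∀ i ∈ s, ∀ i' ∈ s, |v i - v i'| < δ → i = i') :
    (s.card : ℝ) ≤ 2 * J / δ + 1 := by
  have h3 : s.card ≤ (range (⌊2 * J / δ⌋₊ + 1)).card := by
    refine card_le_card_of_injOn (fun i => ⌊(v i - a + J) / δ⌋₊) (fun i hi => ?_)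
      fun i hi i' hi' e => h2 i hi i' hi' ?_
    · refine mem_coe.2 (mem_range.2 (Nat.lt_succ_of_le (Nat.floor_le_floor ?_)))
      have := (abs_le.1 (h1 i hi)).2
      exact div_le_div_of_nonneg_right (by linarith) hδ.le
    · have a1 : 0 ≤ (v i - a + J) / δ := div_nonneg (by linarith [(abs_le.1 (h1 i hi)).1]) hδ.le
      have a2 : 0 ≤ (v i' - a + J) / δ := div_nonneg (by linarith [(abs_le.1 (h1 i' hi')).1]) hδ.le
      have a3 := Nat.floor_le a1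
      have a4 := Nat.floor_le a2
      have a5 := Nat.lt_floor_add_one ((v i - a + J) / δ)
      have a6 := Nat.lt_floor_add_one ((v i' - a + J) / δ)
      have a7 : (⌊(v i - a + J) / δ⌋₊ : ℝ) = ⌊(v i' - a + J) / δ⌋₊ := congrArg _ e
      have a8 : (v i - v i') / δ = (v i - a + J) / δ - (v i' - a + J) / δ := by ring
      have a9 : |(v i - v i') / δ| < 1 := abs_lt.2 ⟨by linarith, by linarith⟩
      rwa [abs_div, abs_of_pos hδ, div_lt_one hδ] at a9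
  rw [card_range] at h3
  have h4 := (Nat.cast_le (α := ℝ)).2 h3
  have h5 := Nat.floor_le (show 0 ≤ 2 * J / δ by positivity)
  push_cast at h4
  linarith

theorem links_last (s : Finset Ed) (hs : ∀ e ∈ s, ∀ e' ∈ s, sl e = sl e' → e = e') {D : ℝ}
    (hD : 0 ≤ D) :
    ((s.filter fun f => ((s.filter fun e => sl f < sl e).card : ℝ) < D).card : ℝ) ≤ D + 1 := by
  have key : ∀ f ∈ s, ∀ f' ∈ s, sl f < sl f' →
      (s.filter fun e => sl f' < sl e).card < (s.filter fun e => sl f < sl e).card :=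
    fun f _ f' hf' h => card_lt_card ⟨fun e he => mem_filter.2
      ⟨(mem_filter.1 he).1, h.trans (mem_filter.1 he).2⟩,
      fun h' => lt_irrefl _ (mem_filter.1 (h' (mem_filter.2 ⟨hf', h⟩))).2⟩
  have h3 : (s.filter fun f => ((s.filter fun e => sl f < sl e).card : ℝ) < D).card ≤
      (range ⌈D⌉₊).card := by
    refine card_le_card_of_injOn (fun f => (s.filter fun e => sl f < sl e).card) (fun f hf => ?_)
      fun f hf f' hf' e => ?_
    · exact mem_coe.2 (mem_range.2 (Nat.lt_ceil.2 (mem_filter.1 (mem_coe.1 hf)).2))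
    · have a1 := (mem_filter.1 (mem_coe.1 hf)).1
      have a2 := (mem_filter.1 (mem_coe.1 hf')).1
      rcases lt_trichotomy (sl f) (sl f') with h | h | h
      · exact absurd e (key f a1 f' a2 h).ne'
      · exact hs f a1 f' a2 h
      · exact absurd e (key f' a2 f a1 h).ne
  rw [card_range] at h3
  exact (Nat.cast_le.2 h3).trans (Nat.ceil_lt_add_one hD).le

/-- Points of `Z u` before `p` whose link to `p` is expensive. -/
noncomputable def Cfg.lkExp (X : Cfg) (j : ℕ) (Z : ℕ → Finset Pt) (r : ℝ) (u : ℕ) (p : Pt) :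
    Finset Pt :=
  (Z u).filter fun q => X.Lt j u q p ∧ r < hit X.P X.k (q, p)

/-- Good pairs (window, point). -/
def Cfg.LkGood (X : Cfg) (j : ℕ) (Z A : ℕ → Finset Pt) (y r : ℝ) (u : ℕ) (p : Pt) : Prop :=
  p ∈ A u ∧ p ∈ Z u ∧ X.Cmp j u (Z u) y p ∧ ((X.lkExp j Z r u p).card : ℝ) ≤ y / 4

/-- Pairs (edge, later good window) with a large drop of the rank along the edge. -/
noncomputable def Cfg.lkDrop (X : Cfg) (j : ℕ) (Z A : ℕ → Finset Pt) (y r : ℝ) : Finset (Ed × ℕ) :=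
  (X.F ×ˢ range (16 ^ j)).filter fun z => sl z.1 < X.al j z.2 ∧ X.LkGood j Z A y r z.2 z.1.1 ∧
    y / 4 < (rk X.P (X.al j z.2) z.1.1 : ℝ) - rk X.P (X.al j z.2) z.1.2

theorem Cfg.Tame.lk {X : Cfg} {K1 : ℝ} {j u : ℕ} {p : Pt} (h : X.Tame K1 j u p) :
    X.Stay j u (K1 * X.sz j) p ∧ (X.rdeg j u p : ℝ) ≤ K1 * X.d / 2 ^ j := by
  have h1 := h.reg j le_rfl
  rw [Nat.sub_self, pow_zero, Nat.div_one] at h1
  exact ⟨h1.stay, h1.rdeg_le⟩

theorem Cfg.links_heavy (X : Cfg) {K1 y r : ℝ} {j : ℕ} {Z : ℕ → Finset Pt} (h1 : 0 < K1)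
    (hy : 0 ≤ y) (hr : 0 ≤ r) (hZ : ∀ u, ∀ q ∈ Z u, X.Tame K1 j u q) :
    ((X.F.filter fun e => e.1 ∈ Z (X.wi j (sl e)) ∧
      y / 4 < (X.lkExp j Z r (X.wi j (sl e)) e.1).card).card : ℝ) * (y / 4 * r) ≤
      K1 * X.d / 2 ^ j * (10 * (2 * (K1 * X.sz j) + 1) * X.n ^ 2) := by
  have hd := X.d_pos
  have hn := X.dey_n_pos
  have hJ : 0 ≤ K1 * X.sz j := by
    rw [Cfg.sz]
    positivity
  set H := (range (16 ^ j) ×ˢ X.P).filter fun z => z.2 ∈ Z z.1 ∧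
    y / 4 < (X.lkExp j Z r z.1 z.2).card with hH
  set S := (X.co (K1 * X.sz j)).filter fun e => r < hit X.P X.k e with hS
  have s1 := links_fib_le (X.F.filter fun e => e.1 ∈ Z (X.wi j (sl e)) ∧
      y / 4 < (X.lkExp j Z r (X.wi j (sl e)) e.1).card) H (fun e => (X.wi j (sl e), e.1))
      (K1 * X.d / 2 ^ j) (fun e he => mem_filter.2 ⟨mem_product.2 ⟨mem_range.2 (X.wi_lt j _),
        (mem_prs.1 (X.F_sub (mem_filter.1 he).1)).1⟩, (mem_filter.1 he).2⟩) fun z hz => by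
    refine le_trans (Nat.cast_le.2 (card_le_card fun e he => ?_))
      (hZ _ _ (mem_filter.1 hz).2.1).lk.2
    obtain ⟨h2, rfl⟩ := mem_filter.1 he
    exact mem_filter.2 ⟨mem_filter.2 ⟨(mem_filter.1 h2).1, rfl⟩, rfl⟩
  have s2 := links_fib_ge S H (fun e => (X.wi j (sl e), e.2)) (y / 4) fun z hz => by
    obtain ⟨h2, h3, h4⟩ := mem_filter.1 hz
    refine h4.le.trans (Nat.cast_le.2 (card_le_card_of_injOn (fun q => (q, z.2)) (fun q hq => ?_)
      fun _ _ _ _ h => (Prod.mk.inj h).1))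
    obtain ⟨h5, h6, h7⟩ := mem_filter.1 (mem_coe.1 hq)
    obtain ⟨h8, h9⟩ := mem_filter.1 (X.link_mem (hZ _ _ h3).lt (hZ _ _ h5).mem (hZ _ _ h3).mem h6
      (Or.inr (hZ _ _ h3).lk.1))
    exact mem_coe.2 (mem_filter.2 ⟨mem_filter.2 ⟨h8, h7⟩, Prod.ext h9 rfl⟩)
  have s3 : (S.card : ℝ) * r ≤ 10 * (2 * (K1 * X.sz j) + 1) * X.n ^ 2 := by
    have a1 := Finset.card_nsmul_le_sum S (fun e => (hit X.P X.k e : ℝ)) r
      fun e he => (mem_filter.1 he).2.le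
    have a2 := (Finset.sum_le_sum_of_subset (f := hit X.P X.k) (filter_subset _ _ : S ⊆ _)).trans
      (hit_sum X.gen X.T X.k (X.lv (K1 * X.sz j)))
    have a3 := (Nat.cast_le (α := ℝ)).2 a2
    have a4 := X.lv_card hJ
    rw [nsmul_eq_mul] at a1
    push_cast at a3
    refine a1.trans (a3.trans ?_)
    rw [Cfg.n]
    gcongr
  calc _ ≤ H.card * (K1 * X.d / 2 ^ j) * (y / 4 * r) := by gcongr
    _ = K1 * X.d / 2 ^ j * (H.card * (y / 4) * r) := by ring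
    _ ≤ K1 * X.d / 2 ^ j * (S.card * r) := by gcongr
    _ ≤ _ := by gcongr

theorem Cfg.links_late (X : Cfg) {G : Finset Ed} (hG : G ⊆ X.F) {D : ℝ} (hD : 0 ≤ D) :
    ((G.filter fun f => (((G.filter fun e => e.1 = f.1).filter fun e => sl f < sl e).card : ℝ) <
      D).card : ℝ) ≤ X.n * (D + 1) := by
  refine links_fib_le _ X.P Prod.fst (D + 1)
    (fun e he => (mem_prs.1 (X.F_sub (hG (mem_filter.1 he).1))).1) fun p _ => ?_
  refine le_trans (Nat.cast_le.2 (card_le_card fun e he => ?_)) (links_last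
    (G.filter fun e => e.1 = p) (fun e he e' he' =>
      sl_inj X.gen (hG (mem_filter.1 he).1) (hG (mem_filter.1 he').1)) hD)
  obtain ⟨h1, rfl⟩ := mem_filter.1 he
  exact mem_filter.2 ⟨mem_filter.2 ⟨(mem_filter.1 h1).1, rfl⟩, (mem_filter.1 h1).2⟩

theorem Cfg.links_win (X : Cfg) {K1 y r : ℝ} {j : ℕ} {Z A : ℕ → Finset Pt} (h1 : 0 < K1)
    (hZ : ∀ u, ∀ q ∈ Z u, X.Tame K1 j u q) {f : Ed} (hf : f ∈ X.F) :
    ((((X.F.filter fun e => X.LkGood j Z A y r (X.wi j (sl e)) e.1).filter fun e => e.1 = f.1).filter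
      fun e => sl f < sl e).card : ℝ) ≤
      ((((range (16 ^ j)).filter fun u => sl f < X.al j u ∧ X.LkGood j Z A y r u f.1).card : ℝ) + 1) *
        (K1 * X.d / 2 ^ j) := by
  have hd := X.d_pos
  refine (links_fib_le _ (insert (X.wi j (sl f)) ((range (16 ^ j)).filter fun u =>
    sl f < X.al j u ∧ X.LkGood j Z A y r u f.1)) (fun e => X.wi j (sl e)) (K1 * X.d / 2 ^ j)
    (fun e he => ?_) fun u _ => ?_).trans (mul_le_mul_of_nonneg_right ?_ (by positivity))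
  · obtain ⟨h2, h3⟩ := mem_filter.1 he
    obtain ⟨h4, h5⟩ := mem_filter.1 h2
    rcases (X.wi_mono j h3.le).eq_or_lt with h | h
    · exact mem_insert.2 (Or.inl h.symm)
    · exact mem_insert_of_mem (mem_filter.2 ⟨mem_range.2 (X.wi_lt j _),
        (X.wi_lt_iff j (X.F_sub hf) (X.wi_lt j _)).1 h, h5 ▸ (mem_filter.1 h4).2⟩)
  · rcases (((((X.F.filter fun e => X.LkGood j Z A y r (X.wi j (sl e)) e.1).filter fun e =>
      e.1 = f.1).filter fun e => sl f < sl e)).filter fun e => X.wi j (sl e) = u).eq_empty_or_nonempty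
      with h | ⟨e0, h0⟩
    · rw [h, card_empty, Nat.cast_zero]
      positivity
    obtain ⟨h2, rfl⟩ := mem_filter.1 h0
    obtain ⟨h3, h4⟩ := mem_filter.1 (mem_filter.1 h2).1
    refine le_trans (Nat.cast_le.2 (card_le_card fun e he => ?_))
      (hZ _ _ (mem_filter.1 h3).2.2.1).lk.2
    obtain ⟨h5, h6⟩ := mem_filter.1 he
    obtain ⟨h7, h8⟩ := mem_filter.1 (mem_filter.1 h5).1
    exact mem_filter.2 ⟨mem_filter.2 ⟨(mem_filter.1 h7).1, h6⟩, h8.trans h4.symm⟩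
  · exact_mod_cast card_insert_le _ _

theorem Cfg.links_many (X : Cfg) {K1 y r : ℝ} {j : ℕ} {Z A : ℕ → Finset Pt}
    (hZ : ∀ u, ∀ q ∈ Z u, X.Tame K1 j u q) {f : Ed} (hf : f ∈ X.F) :
    ((((range (16 ^ j)).filter fun u => sl f < X.al j u ∧ X.LkGood j Z A y r u f.1).filter fun u =>
      (f, u) ∉ X.lkDrop j Z A y r).card : ℝ) * (y / 2) ≤ (X.links j Z A r f).card := by
  refine links_fib_ge _ _ (fun q => X.wi j (sl (q, f.1))) _ fun u hu => ?_
  obtain ⟨h1, h2⟩ := mem_filter.1 hu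
  obtain ⟨h3, h4, h5⟩ := mem_filter.1 h1
  have h6 := not_lt.1 fun h => h2 (mem_filter.2 ⟨mem_product.2 ⟨hf, h3⟩, h4, h5, h⟩)
  have hx := (mem_prs.1 (X.F_sub hf)).2.2
  have h7 := (Nat.cast_inj (R := ℝ)).2
    (between_card X.P (X.al j u) f.2 f.1 ((fv_gt_iff hx _).2 h4).le)
  have h8 : ((Z u).filter fun q => X.Lt j u q f.1) ⊆
      ((X.links j Z A r f).filter fun q => X.wi j (sl (q, f.1)) = u) ∪ X.lkExp j Z r u f.1 ∪
      X.P.filter fun q => fv (X.al j u) f.2 ≤ fv (X.al j u) q ∧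
        fv (X.al j u) q < fv (X.al j u) f.1 := fun q hq => by
    obtain ⟨a1, a2⟩ := mem_filter.1 hq
    rcases le_or_gt (fv (X.al j u) f.2) (fv (X.al j u) q) with a3 | a3
    · exact mem_union_right _ (mem_filter.2 ⟨(hZ _ _ a1).mem, a3, a2.1⟩)
    rcases lt_or_ge r (hit X.P X.k (q, f.1)) with a4 | a4
    · exact mem_union_left _ (mem_union_right _ (mem_filter.2 ⟨a1, a2, a4⟩))
    refine mem_union_left _ (mem_union_left _ (mem_filter.2 ⟨mem_filter.2 ⟨(hZ _ _ a1).mem, u, h4,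
      h5.1, a1, a2, ⟨a3, ?_⟩, a4⟩, X.wi_eq (mem_range.1 h3) a2.spec.2.1 a2.spec.2.2⟩))
    exact ((fv_gt_iff hx _).2 (h4.trans_le (X.al_mono j (Nat.le_succ u)))).trans a2.2
  have h9 := (Nat.cast_le (α := ℝ)).2 ((card_le_card h8).trans ((card_union_le _ _).trans
    (Nat.add_le_add_right (card_union_le _ _) _)))
  have h10 := h5.2.2.1.1
  have h11 := h5.2.2.2
  push_cast at h7 h9
  dsimp only at h6
  linarith

theorem Cfg.links_chain (X : Cfg) {J δ : ℝ} {j : ℕ} (hJ : 0 ≤ J) (hδ : 0 < δ) (S : Finset (Ed × ℕ))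
    (u : ℕ) (c : Pt) (key : ∀ z ∈ S, z.2 = u ∧ z.1 ∈ X.T.chain X.k c ∧ sl z.1 < X.al j u ∧
      X.Stay j u J z.1.1 ∧ δ < (rk X.P (X.al j u) z.1.1 : ℝ) - rk X.P (X.al j u) z.1.2) :
    (S.card : ℝ) ≤ 2 * J / δ + 1 := by
  have mon : ∀ z ∈ S, ∀ z' ∈ S, sl z.1 < sl z'.1 →
      δ < (rk X.P (X.al j u) z.1.1 : ℝ) - rk X.P (X.al j u) z'.1.1 := fun z hz z' hz' h => by
    obtain ⟨-, a1, -, -, a2⟩ := key z hz
    obtain ⟨-, b1, b2, -, -⟩ := key z' hz'
    have a3 := X.T.chain_le X.gen a1 b1 h (fun p => -fv (X.al j u) p) fun g hg _ h' =>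
      neg_le_neg ((fv_gt_iff (mem_prs.1 (X.F_sub (X.T.mem_chain.1 hg).1)).2.2 _).2
        (h'.trans b2)).le
    have a4 := (Nat.cast_le (α := ℝ)).2 (rk_mono X.P (X.al j u) (neg_le_neg_iff.1 a3))
    linarith
  refine links_sep S (fun z => (rk X.P (X.al j u) z.1.1 : ℝ)) (a := X.k) hJ hδ
    (fun z hz => (key z hz).2.2.2.1 (X.al j u) le_rfl (X.al_mono j (Nat.le_succ u)))
    fun z hz z' hz' h => ?_
  obtain ⟨h1, h2⟩ := abs_lt.1 h
  rcases lt_trichotomy (sl z.1) (sl z'.1) with h' | h' | h'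
  · linarith [mon z hz z' hz' h']
  · exact Prod.ext (sl_inj X.gen (X.T.mem_chain.1 (key z hz).2.1).1
      (X.T.mem_chain.1 (key z' hz').2.1).1 h') ((key z hz).1.trans (key z' hz').1.symm)
  · linarith [mon z' hz' z hz h']

theorem Cfg.links_drop (X : Cfg) {K1 y r : ℝ} {j : ℕ} {Z A : ℕ → Finset Pt} (h1 : 0 < K1)
    (hy : 0 < y) (hZ : ∀ u, ∀ q ∈ Z u, X.Tame K1 j u q) :
    ((X.lkDrop j Z A y r).card : ℝ) ≤ (16 ^ j * (2 * (2 * (K1 * X.sz j) + 1)) +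
      (2 * (K1 * X.sz j) + 1) * X.n ^ 2 / y ^ 2) * (2 * (K1 * X.sz j) / (y / 4) + 1) := by
  have hn := X.dey_n_pos
  have hJ : 0 ≤ K1 * X.sz j := by
    rw [Cfg.sz]
    positivity
  have s1 := X.touch_sum 0 j (Nat.zero_le j) _ _ y X.n hJ le_rfl hy
  have s0 : ∀ u, ((X.Uw 0 u (K1 * X.sz j)).card : ℝ) ≤ X.n := fun u =>
    Nat.cast_le.2 (card_filter_le _ _)
  rw [filter_true_of_mem fun u _ => s0 _, pow_zero, one_mul] at s1
  refine (links_fib_le _ ((range (16 ^ j)).sigma fun u => X.touch 0 j u (K1 * X.sz j) y)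
    (fun z => ⟨z.2, X.T.ch X.k z.1⟩) (2 * (K1 * X.sz j) / (y / 4) + 1) (fun z hz => ?_)
    fun w _ => ?_).trans (mul_le_mul_of_nonneg_right ?_ (by positivity))
  · obtain ⟨h2, h3, h4, -⟩ := mem_filter.1 hz
    obtain ⟨h5, h6⟩ := mem_product.1 h2
    have h7 : Z z.2 ⊆ X.stayers j z.2 (K1 * X.sz j) := fun q hq =>
      mem_filter.2 ⟨(hZ _ _ hq).mem, (hZ _ _ hq).lk.1⟩
    refine mem_sigma.2 ⟨h6, mem_filter.2 ⟨X.T.ch_mem _ _ h5, z.1, X.T.mem_chain.2 ⟨h5, rfl⟩, ?_, h3,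
      h4.2.2.1.1.trans (Nat.cast_le.2 (card_le_card (filter_subset_filter _ h7))),
      h4.2.2.1.2.trans (Nat.cast_le.2 (card_le_card (filter_subset_filter _ h7)))⟩⟩
    rw [X.wi_zero, Nat.sub_zero, Nat.div_eq_of_lt (mem_range.1 h6)]
  · refine X.links_chain (j := j) hJ (by positivity) _ w.1 w.2 fun z hz => ?_
    obtain ⟨h2, rfl⟩ := mem_filter.1 hz
    obtain ⟨h3, h4, h5, h6⟩ := mem_filter.1 h2
    exact ⟨rfl, X.T.mem_chain.2 ⟨(mem_product.1 h3).1, rfl⟩, h4, (hZ _ _ h5.2.1).lk.1, h6⟩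
  · rw [card_sigma, Nat.cast_sum]
    exact s1

theorem links_num1 {K K1 M N n d C H s : ℝ} (h1 : 2 ≤ K1) (h2 : K1 ≤ K) (hM : 0 < M) (hn : 0 < n)
    (hd : 0 < d) (hC : 0 < C) (hz : s = n / C ^ 3) (hs : 1 ≤ s) (hN : K ^ 13 * M ≤ N)
    (h : H * (s / M / 4 * (N * n / C)) ≤ K1 * d / C * (10 * (2 * (K1 * s) + 1) * n ^ 2)) :
    H ≤ n * d / K ^ 4 := by
  subst hz
  have hK : 0 < K := by linarith
  have hK1 : 0 < K1 := by linarith
  have hN0 : 0 < N := lt_of_lt_of_le (by positivity) hN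
  have a1 : 2 * (K1 * (n / C ^ 3)) + 1 ≤ 3 * (K1 * (n / C ^ 3)) := by nlinarith
  have a2 : 120 * K1 ^ 2 * M * K ^ 4 ≤ N := by
    calc _ ≤ 2 ^ 7 * K ^ 2 * M * K ^ 4 := by gcongr; norm_num
      _ ≤ K ^ 7 * K ^ 2 * M * K ^ 4 := by gcongr; linarith
      _ = K ^ 13 * M := by ring
      _ ≤ N := hN
  refine le_of_mul_le_mul_right (h.trans ?_)
    (by positivity : 0 < n / C ^ 3 / M / 4 * (N * n / C))
  calc _ ≤ K1 * d / C * (10 * (3 * (K1 * (n / C ^ 3))) * n ^ 2) := by gcongr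
    _ = n * d / K ^ 4 * (n / C ^ 3 / M / 4 * (120 * K1 ^ 2 * M * K ^ 4 * n / C)) := by
      field_simp
      norm_num
    _ ≤ _ := by gcongr

theorem links_num2 {K K1 M n d C B S s : ℝ} (h1 : 2 ≤ K1) (h2 : K1 ≤ K) (hM : 1 ≤ M) (hn : 0 < n)
    (hC1 : 1 ≤ C) (hz : s = n / C ^ 3) (hs : 1 ≤ s) (hd : C ^ 2 * (K ^ 20 * M ^ 3) ≤ d)
    (h3 : B * (C / (4 * K ^ 4 * K1)) ≤ S)
    (h4 : S ≤ (C ^ 4 * (2 * (2 * (K1 * s) + 1)) + (2 * (K1 * s) + 1) * n ^ 2 / (s / M) ^ 2) *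
      (2 * (K1 * s) / (s / M / 4) + 1)) : B ≤ n * d / K ^ 4 := by
  subst hz
  have hC : 0 < C := by linarith
  have hK : 0 < K := by linarith
  have hK1 : 0 < K1 := by linarith
  have hM0 : 0 < M := by linarith
  have a1 : 2 * (K1 * (n / C ^ 3)) + 1 ≤ 3 * (K1 * (n / C ^ 3)) := by nlinarith
  have a2 : 2 * (K1 * (n / C ^ 3)) / (n / C ^ 3 / M / 4) + 1 ≤ 9 * K1 * M := by
    have : 2 * (K1 * (n / C ^ 3)) / (n / C ^ 3 / M / 4) = 8 * K1 * M := by
      field_simp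
      norm_num
    nlinarith
  have a3 : C ^ 4 * (2 * (3 * (K1 * (n / C ^ 3)))) +
      3 * (K1 * (n / C ^ 3)) * n ^ 2 / (n / C ^ 3 / M) ^ 2 ≤ 9 * K1 * M ^ 2 * n * C ^ 3 := by
    have b1 : C ^ 4 * (2 * (3 * (K1 * (n / C ^ 3)))) +
        3 * (K1 * (n / C ^ 3)) * n ^ 2 / (n / C ^ 3 / M) ^ 2 =
        6 * K1 * 1 ^ 2 * n * C ^ 1 + 3 * K1 * M ^ 2 * n * C ^ 3 := by
      field_simp
      ring
    have b2 : 6 * K1 * 1 ^ 2 * n * C ^ 1 ≤ 6 * K1 * M ^ 2 * n * C ^ 3 := by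
      gcongr
      norm_num
    linarith
  have a4 : C ^ 2 * (324 * K1 ^ 3 * K ^ 8 * M ^ 3) ≤ d := by
    refine le_trans ?_ hd
    calc _ ≤ C ^ 2 * (2 ^ 9 * K ^ 3 * K ^ 8 * M ^ 3) := by gcongr; norm_num
      _ ≤ C ^ 2 * (K ^ 9 * K ^ 3 * K ^ 8 * M ^ 3) := by gcongr; linarith
      _ = _ := by ring
  refine le_of_mul_le_mul_right (h3.trans (h4.trans ?_)) (by positivity : 0 < C / (4 * K ^ 4 * K1))
  calc _ ≤ (C ^ 4 * (2 * (3 * (K1 * (n / C ^ 3)))) +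
      3 * (K1 * (n / C ^ 3)) * n ^ 2 / (n / C ^ 3 / M) ^ 2) * (9 * K1 * M) := by gcongr
    _ ≤ 9 * K1 * M ^ 2 * n * C ^ 3 * (9 * K1 * M) := by gcongr
    _ = n * (C ^ 2 * (324 * K1 ^ 3 * K ^ 8 * M ^ 3)) / K ^ 4 * (C / (4 * K ^ 4 * K1)) := by
      field_simp
      norm_num
    _ ≤ _ := by gcongr

theorem links_num3 {K K1 M N n d C W V Y L s : ℝ} (h1 : 2 ≤ K1) (h2 : K1 ≤ K) (hM : 0 < M)
    (hn : 0 < n) (hd : 0 < d) (hC : K ^ 6 ≤ C) (hN : K ^ 8 * M ≤ N) (hz : s = n / C ^ 3)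
    (h3 : d / K ^ 4 ≤ (W + 1) * (K1 * d / C)) (h4 : W = V + Y) (h5 : Y < C / (4 * K ^ 4 * K1))
    (h6 : V * (s / M / 2) ≤ L) : n / (N * C ^ 2) ≤ L := by
  subst hz
  have hK : 0 < K := by linarith
  have hK1 : 0 < K1 := by linarith
  have hC0 : 0 < C := lt_of_lt_of_le (by positivity) hC
  have a1 : 4 * (C / (4 * K ^ 4 * K1)) ≤ W + 1 := by
    refine le_of_mul_le_mul_right (le_trans (le_of_eq ?_) h3) (by positivity : 0 < K1 * d / C)
    field_simp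
  have a2 : 1 ≤ 2 * (C / (4 * K ^ 4 * K1)) := by
    have : 2 * K ^ 4 * K1 ≤ C := by
      calc _ ≤ K * K ^ 4 * K := by gcongr; linarith
        _ = K ^ 6 := by ring
        _ ≤ C := hC
    rw [← mul_div_assoc, one_le_div (by positivity)]
    linarith
  have a3 : 8 * K ^ 4 * K1 * M ≤ N := by
    calc _ ≤ 2 ^ 3 * K ^ 4 * K * M := by gcongr; norm_num
      _ ≤ K ^ 3 * K ^ 4 * K * M := by gcongr; linarith
      _ = K ^ 8 * M := by ring
      _ ≤ N := hN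
  calc _ ≤ n / (8 * K ^ 4 * K1 * M * C ^ 2) := by gcongr
    _ = C / (4 * K ^ 4 * K1) * (n / C ^ 3 / M / 2) := by
      field_simp
      norm_num
    _ ≤ V * (n / C ^ 3 / M / 2) := by gcongr; linarith
    _ ≤ L := h6

theorem Cfg.links_most : ∃ c : ℕ, ∀ (X : Cfg) (K K1 : ℝ) (j : ℕ) (Z A : ℕ → Finset Pt),
    2 ≤ K1 → K1 ≤ K → K ^ c ≤ 2 ^ j → 4 ^ j * K ^ c ≤ X.d →
    (∀ u, ∀ q ∈ Z u, X.Tame K1 j u q) → (∀ u, ∀ p ∈ A u, X.Tame K1 j u p) →
    ((X.F.filter fun f => ((X.links j Z A (K ^ c * X.n / 2 ^ j) f).card : ℝ) <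
      X.n / (K ^ c * 4 ^ j)).card : ℝ) ≤ X.n * X.d / K + X.miss j A + 2 * X.miss j Z := by
  obtain ⟨c1, H1⟩ := Cfg.cmp_most
  refine ⟨12 * c1 + 20, fun X K K1 j Z A h1 h2 h3 h4 hZ _ => ?_⟩
  have hK : 2 ≤ K := h1.trans h2
  have hK1 : 1 ≤ K := by linarith
  have h0 : 0 < K1 := by linarith
  have hd := X.d_pos
  have hn := X.dey_n_pos
  obtain ⟨p4, p8, p16⟩ := Cfg.dey_pow j
  have hC : (1 : ℝ) ≤ 2 ^ j := one_le_pow₀ one_le_two
  have hC2 : (2 : ℝ) ^ j ≤ 4 ^ j := pow_le_pow_left₀ zero_le_two (by norm_num) j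
  have hM : 1 ≤ (K ^ 4) ^ c1 := one_le_pow₀ (one_le_pow₀ hK1)
  have hN : K ^ (12 * c1 + 20) = K ^ 20 * ((K ^ 4) ^ c1) ^ 3 := by ring
  have hp : ∀ a ≤ 20, K ^ a * (K ^ 4) ^ c1 ≤ K ^ (12 * c1 + 20) := fun a ha => by
    rw [← pow_mul, ← pow_add]
    exact pow_le_pow_right₀ hK1 (by omega)
  have hq : ∀ a ≤ 20, K ^ a ≤ K ^ (12 * c1 + 20) := fun a ha => pow_le_pow_right₀ hK1 (by omega)
  have hs : 1 ≤ X.sz j := X.dey_sz (hC2.trans
    ((le_mul_of_one_le_right (by positivity) (one_le_pow₀ hK1)).trans h4))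
  have hz : X.sz j = X.n / (2 ^ j) ^ 3 := by rw [Cfg.sz, p8]
  have e1 := H1 X (K ^ 4) j Z (hK.trans (le_self_pow₀ hK1 (by norm_num))) (le_trans
    (mul_le_mul hC2 (by simpa using hp 0 (by norm_num)) (by positivity) (by positivity)) h4)
    fun u q hq => (hZ u q hq).mem
  set y := X.sz j / (K ^ 4) ^ c1 with hy
  set r := K ^ (12 * c1 + 20) * X.n / 2 ^ j with hr
  have y0 : 0 < y := by positivity
  have e2 := X.links_heavy h0 y0.le (show 0 ≤ r by positivity) hZ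
  have e3 := X.links_late
    (filter_subset (fun e => X.LkGood j Z A y r (X.wi j (sl e)) e.1) X.F)
    (show 0 ≤ X.d / K ^ 4 by positivity)
  have e4 := links_fib_ge (X.lkDrop j Z A y r) (X.F.filter fun f => 2 ^ j / (4 * K ^ 4 * K1) ≤
    (((X.lkDrop j Z A y r).filter fun z => z.1 = f).card : ℝ)) Prod.fst _
    fun f hf => (mem_filter.1 hf).2
  have e5 := X.links_drop (A := A) (r := r) h0 y0 hZ
  have e6 : (X.F.filter fun f => ((X.links j Z A r f).card : ℝ) <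
      X.n / (K ^ (12 * c1 + 20) * 4 ^ j)) ⊆
      (X.F.filter fun e => e.1 ∉ A (X.wi j (sl e))) ∪ (X.F.filter fun e => e.1 ∉ Z (X.wi j (sl e))) ∪
      (X.F.filter fun e => e.1 ∈ Z (X.wi j (sl e)) ∧
        ¬ X.Cmp j (X.wi j (sl e)) (Z (X.wi j (sl e))) y e.1) ∪
      (X.F.filter fun e => e.1 ∈ Z (X.wi j (sl e)) ∧
        y / 4 < (X.lkExp j Z r (X.wi j (sl e)) e.1).card) ∪
      ((X.F.filter fun e => X.LkGood j Z A y r (X.wi j (sl e)) e.1).filter fun f =>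
        ((((X.F.filter fun e => X.LkGood j Z A y r (X.wi j (sl e)) e.1).filter fun e =>
          e.1 = f.1).filter fun e => sl f < sl e).card : ℝ) < X.d / K ^ 4) ∪
      (X.F.filter fun f => 2 ^ j / (4 * K ^ 4 * K1) ≤
        (((X.lkDrop j Z A y r).filter fun z => z.1 = f).card : ℝ)) := fun f hf => by
    obtain ⟨a1, a2⟩ := mem_filter.1 hf
    by_contra hc
    simp only [mem_union, not_or] at hc
    obtain ⟨⟨⟨⟨⟨b1, b2⟩, b3⟩, b4⟩, b5⟩, b6⟩ := hc
    have d2 := not_not.1 fun h => b2 (mem_filter.2 ⟨a1, h⟩)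
    have d5 := not_lt.1 fun h => b5 (mem_filter.2 ⟨mem_filter.2 ⟨a1,
      not_not.1 fun h => b1 (mem_filter.2 ⟨a1, h⟩), d2,
      not_not.1 fun h => b3 (mem_filter.2 ⟨a1, d2, h⟩),
      not_lt.1 fun h => b4 (mem_filter.2 ⟨a1, d2, h⟩)⟩, h⟩)
    have d6 := not_le.1 fun h => b6 (mem_filter.2 ⟨a1, h⟩)
    have d7 := X.links_many (A := A) (y := y) (r := r) hZ a1
    have d8 := (Nat.cast_inj (R := ℝ)).2 (card_filter_add_card_filter_not
      (s := (range (16 ^ j)).filter fun u => sl f < X.al j u ∧ X.LkGood j Z A y r u f.1)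
      fun u => (f, u) ∉ X.lkDrop j Z A y r)
    rw [Nat.cast_add] at d8
    refine absurd a2 (not_lt.2 ?_)
    rw [p4]
    refine links_num3 h1 h2 (by positivity) hn hd ((hq 6 (by norm_num)).trans h3)
      (hp 8 (by norm_num)) hz (d5.trans (X.links_win h0 hZ a1)) d8.symm (lt_of_le_of_lt
        (Nat.cast_le.2 (card_le_card_of_injOn (fun u => (f, u)) (fun u hu => mem_coe.2
          (mem_filter.2 ⟨not_not.1 (mem_filter.1 (mem_coe.1 hu)).2, rfl⟩))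
          fun _ _ _ _ h => (Prod.mk.inj h).2)) d6) d7
  have e7 := (Nat.cast_le (α := ℝ)).2 ((card_le_card e6).trans ((card_union_le _ _).trans
    (Nat.add_le_add_right ((card_union_le _ _).trans (Nat.add_le_add_right ((card_union_le _ _).trans
      (Nat.add_le_add_right ((card_union_le _ _).trans
        (Nat.add_le_add_right (card_union_le _ _) _)) _)) _)) _)))
  have f2 := links_num1 h1 h2 (by positivity) hn hd (by positivity) hz hs (hp 13 (by norm_num)) e2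
  rw [p16] at e5
  have f4 := links_num2 (d := X.d) h1 h2 hM hn hC hz hs (by rw [← p4, ← hN]; exact h4) e4 e5
  have f3 : X.n * (X.d / K ^ 4 + 1) ≤ 2 * (X.n * X.d / K ^ 4) := by
    have : 1 ≤ X.d / K ^ 4 := (one_le_div (by positivity)).2 ((hq 4 (by norm_num)).trans
      ((le_mul_of_one_le_left (by positivity) (hC.trans hC2)).trans h4))
    rw [mul_div_assoc]
    nlinarith
  have f5 : 5 * (X.n * X.d / K ^ 4) ≤ X.n * X.d / K := by
    have : (2 : ℝ) ^ 3 ≤ K ^ 3 := by gcongr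
    calc _ ≤ K ^ 3 * (X.n * X.d / K ^ 4) := by gcongr; linarith
      _ = _ := by field_simp
  push_cast at e7
  rw [Cfg.miss] at e1
  rw [Cfg.miss, Cfg.miss]
  linarith

end Vale.Agent.P065.U
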