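import Vale.Agent.P065.U.TokApi

/-!
P065/U task Tri: a steep segment e' lying above the line of e, inside its x-range, has few steeper
crossers.

Proof. s = sl e, s' = sl e'. A chain (level a ∈ I, label c) contains at most one crosser e''
(`line_once` with σ = s'). Let y be the meeting point of e' and e''; it is strictly above line e and
y.1 < e'.2.1 ≤ e.2.1. Let v = pos c s'; fv s' v ≤ fv s' e''.1 < fv s' e'.1 ≤ fv s' e.1 and v.1 ≤ e''.1.1.
If fv s e.1 ≤ fv s v then e.1.1 < v.1 < e.2.1; by `pos_inj` there are ≤ xc such chains per level.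
Otherwise `switch` (Q = strictly below line e, from slope s' to just after sl e'') gives a chain edge f
with s' ≤ sl f ≤ sl e'', left end strictly below and right end weakly above line e; its meeting point
with line e is weakly below line e' and weakly left of y, which gives WX e f. The map chain ↦ f is
injective.
-/

namespace Vale.Agent.P065.U

open Finset Classical

theorem tri_x {s t : ℝ} {p q : Pt} (h : s < t) (h1 : fv t p < fv t q) (h2 : fv s q ≤ fv s p) :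
    q.1 < p.1 := by
  unfold fv at h1 h2
  by_contra h3
  nlinarith [mul_nonneg (sub_pos.2 h).le (sub_nonneg.2 (not_lt.1 h3))]

theorem tri_x' {s t : ℝ} {p q : Pt} (h : s < t) (h1 : fv t p ≤ fv t q) (h2 : fv s q ≤ fv s p) :
    q.1 ≤ p.1 := by
  unfold fv at h1 h2
  by_contra h3
  nlinarith [mul_pos (sub_pos.2 h) (sub_pos.2 (not_le.1 h3))]

theorem tri_up {s t : ℝ} {p q : Pt} (h : s ≤ t) (h1 : fv s p ≤ fv s q) (h2 : q.1 ≤ p.1) :
    fv t p ≤ fv t q := by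
  unfold fv at h1 ⊢
  nlinarith [mul_nonneg (sub_nonneg.2 h) (sub_nonneg.2 h2)]

theorem tri_up' {s t : ℝ} {p q : Pt} (h : s < t) (h1 : fv s p ≤ fv s q) (h2 : q.1 < p.1) :
    fv t p < fv t q := by
  unfold fv at h1 ⊢
  nlinarith [mul_pos (sub_pos.2 h) (sub_pos.2 h2)]

theorem tri_mono {e : Ed} (h : e.1.1 < e.2.1) {θ : ℝ} (h1 : θ ≤ sl e) : fv θ e.1 ≤ fv θ e.2 :=
  not_lt.1 fun h2 => absurd ((fv_gt_iff h θ).1 h2) (not_lt.2 h1)

theorem tri_g {e' g : Ed} (he' : e'.1.1 < e'.2.1) (h : XC e' g) : g.1.1 < e'.2.1 :=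
  tri_x h.1 h.2.2.2.2 (h.2.1.le.trans_eq (fv_sl he'))

theorem tri_once {P : Finset Pt} (hP : Gen P) (T : Tok P) {e' g g' : Ed} (hg : g ∈ prs P)
    (hg' : g' ∈ prs P) (h : XC e' g) (h' : XC e' g') (h1 : lev P g = lev P g')
    (h2 : T.ch (lev P g) g = T.ch (lev P g') g') : g = g' :=
  T.line_once hP (a := lev P g) (T.mem_chain.2 ⟨mem_filter.2 ⟨hg, rfl⟩, rfl⟩)
    (T.mem_chain.2 ⟨mem_filter.2 ⟨hg', h1.symm⟩, by rw [h2, h1]⟩) (sl e') (fv (sl e') e'.1)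
    h.2.1 h.2.2.1.le h'.2.1 h'.2.2.1.le

theorem tri_low {P : Finset Pt} (hP : Gen P) (T : Tok P) {e e' g : Ed} {a : ℕ}
    (he : e.1.1 < e.2.1) (he' : e'.1.1 < e'.2.1) (hs : sl e < sl e')
    (h1 : fv (sl e) e.1 ≤ fv (sl e) e'.1) (h2 : fv (sl e') e'.1 ≤ fv (sl e') e.1)
    (h3 : e'.2.1 ≤ e.2.1) (hg : g ∈ edges P a) (h : XC e' g)
    (hv : fv (sl e) (T.pos a (T.ch a g) (sl e')) < fv (sl e) e.1) :
    ∃ f ∈ T.chain a (T.ch a g), WX e f := by
  have hx : ∀ f ∈ T.chain a (T.ch a g), f.1.1 < f.2.1 := fun f hf =>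
    (mem_prs.1 (edges_sub P a (T.mem_chain.1 hf).1)).2.2
  have hg' : g ∈ T.chain a (T.ch a g) := T.mem_chain.2 ⟨hg, rfl⟩
  by_cases h4 : fv (sl e) g.1 < fv (sl e) e.1
  · have h5 : e'.1.1 < g.2.1 :=
      tri_x h.1 ((fv_sl (hx g hg')).symm.trans_lt h.2.2.2.1) h.2.2.1.le
    refine ⟨g, hg', hs.trans h.1, h4, h1.trans (not_lt.1 fun h6 => ?_),
      h.2.2.2.1.le.trans (tri_up h.1.le h2 (tri_x' hs h2 h1)),
      (tri_up (hs.trans h.1).le ?_ h3).trans_lt h.2.2.2.2⟩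
    · exact absurd (tri_up hs.le h6.le h5.le) (not_le.2 h.2.2.1)
    · exact (fv_sl he).symm.trans_le (h1.trans (tri_mono he' hs.le))
  · obtain ⟨f, hf, p1, p2, p3, p4⟩ := T.switch hP (T.ch_mem a g hg) h.1.le
      (fun z => fv (sl e) z < fv (sl e) e.1) hv (by rwa [T.pos_at a g hg])
    have h5 := (T.chain_le hP hf hg' p2 (fv (sl e')) fun f' hf' q _ =>
      tri_mono (hx f' hf') (p1.trans q.le)).trans_lt (h.2.1.trans_le h2)
    have h6 := (T.chain_le hP hf hg' p2 Prod.fst fun f' hf' _ _ => (hx f' hf').le).trans_lt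
      ((tri_g he' h).trans_le h3)
    refine ⟨f, hf, hs.trans_le p1, p3, not_lt.1 p4, ?_, ?_⟩ <;> rw [fv_sl (hx f hf)]
    · exact tri_up p1 h5.le (tri_x hs h5 (not_lt.1 p4)).le
    · exact tri_up' (hs.trans_le p1) ((fv_sl he).symm.trans_le (not_lt.1 p4)) h6

theorem tri_le {P : Finset Pt} (hP : Gen P) (T : Tok P) (I : Finset ℕ) {e e' : Ed}
    (he : e ∈ prs P) (he' : e' ∈ prs P) (hs : sl e < sl e')
    (h1 : fv (sl e) e.1 ≤ fv (sl e) e'.1) (h2 : fv (sl e') e'.1 ≤ fv (sl e') e.1)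
    (h3 : e'.2.1 ≤ e.2.1) :
    ((edgesIn P I).filter fun f => XC e' f).card ≤
      ((edgesIn P I).filter fun f => WX e f).card + I.card * xc P e.1 e.2 := by
  have hx := (mem_prs.1 he).2.2
  have hx' := (mem_prs.1 he').2.2
  rw [← card_filter_add_card_filter_not (fun g =>
    fv (sl e) (T.pos (lev P g) (T.ch (lev P g) g) (sl e')) < fv (sl e) e.1), xc, ← card_product]
  refine add_le_add (card_le_card_of_forall_subsingleton
    (fun g f => f ∈ T.chain (lev P g) (T.ch (lev P g) g)) (fun g hg => ?_)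
    fun f _ g hg g' hg' => ?_) (card_le_card_of_injOn
      (fun g => (lev P g, T.pos (lev P g) (T.ch (lev P g) g) (sl e'))) (fun g hg => ?_)
      fun g hg g' hg' h => ?_)
  · obtain ⟨p1, p2⟩ := mem_filter.1 hg
    obtain ⟨p3, p4⟩ := mem_filter.1 p1
    obtain ⟨p5, p6⟩ := mem_filter.1 p3
    obtain ⟨f, q1, q2⟩ := tri_low hP T hx hx' hs h1 h2 h3 (mem_filter.2 ⟨p5, rfl⟩) p4 p2
    obtain ⟨q3, q4⟩ := mem_filter.1 (T.mem_chain.1 q1).1
    exact ⟨f, mem_filter.2 ⟨mem_filter.2 ⟨q3, q4 ▸ p6⟩, q2⟩, q1⟩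
  · obtain ⟨p1, p2⟩ := mem_filter.1 (mem_filter.1 hg.1).1
    obtain ⟨q1, q2⟩ := mem_filter.1 (mem_filter.1 hg'.1).1
    obtain ⟨p3, p4⟩ := T.mem_chain.1 hg.2
    obtain ⟨q3, q4⟩ := T.mem_chain.1 hg'.2
    have h := (mem_filter.1 p3).2.symm.trans (mem_filter.1 q3).2
    exact tri_once hP T (mem_filter.1 p1).1 (mem_filter.1 q1).1 p2 q2 h (by rw [← p4, ← q4, h])
  · obtain ⟨p1, p2⟩ := mem_filter.1 (mem_coe.1 hg)
    obtain ⟨p3, p4⟩ := mem_filter.1 p1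
    obtain ⟨p5, p6⟩ := mem_filter.1 p3
    have p7 : g ∈ edges P (lev P g) := mem_filter.2 ⟨p5, rfl⟩
    have p8 := T.ch_mem _ g p7
    have p9 := T.pos_x_mono hP p8 p4.1.le
    rw [T.pos_at _ g p7] at p9
    refine mem_coe.2 (mem_product.2 ⟨p6, mem_filter.2 ⟨T.pos_mem _ _ p8 _,
      (min_le_left _ _).trans (tri_x hs ((T.pos_min_left hP p7 _).trans_lt (p4.2.1.trans_le h2))
        (not_lt.1 p2)).le, (p9.trans ((tri_g hx' p4).le.trans h3)).trans (le_max_right _ _)⟩⟩)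
  · obtain ⟨p1, p2⟩ := mem_filter.1 (mem_filter.1 (mem_coe.1 hg)).1
    obtain ⟨q1, q2⟩ := mem_filter.1 (mem_filter.1 (mem_coe.1 hg')).1
    obtain ⟨r1, r2⟩ := Prod.mk.inj h
    have p3 := (mem_filter.1 p1).1
    have q3 := (mem_filter.1 q1).1
    refine tri_once hP T p3 q3 p2 q2 r1 ?_
    rw [← r1] at r2 ⊢
    exact T.pos_inj _ _ (T.ch_mem _ g (mem_filter.2 ⟨p3, rfl⟩)) _
      (T.ch_mem _ g' (mem_filter.2 ⟨q3, r1.symm⟩)) _ r2

end Vale.Agent.P065.U
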