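import Vale.Agent.P065.U.Tame
import Vale.Agent.P065.U.Cmp
import Vale.Agent.P065.U.Touch
import Vale.Agent.P065.U.Tri

/-!
P065/U task LocalX, part A: the geometric lemma and the discarded pairs (a), (b), (c).
-/

namespace Vale.Agent.P065.U

open Finset Classical

theorem lx_interp {α β τ : ℝ} {p q : Pt} (h1 : α < τ) (h2 : τ < β) (ha : fv α p < fv α q)
    (hb : fv β p < fv β q) : fv τ p < fv τ q := by
  unfold fv at *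
  rcases le_total p.1 q.1 with h | h
  · nlinarith [mul_nonneg (sub_pos.2 h2).le (sub_nonneg.2 h)]
  · nlinarith [mul_nonneg (sub_pos.2 h1).le (sub_nonneg.2 h)]

theorem Cfg.lx_tri (X : Cfg) {J t0 : ℝ} (hJ : 0 ≤ J) {e e' : Ed} (he : e ∈ prs X.P)
    (he' : e' ∈ X.gco J t0) (hT : X.TrimC J t0 e) (hs : sl e < sl e')
    (h1 : fv (sl e) e.1 ≤ fv (sl e) e'.1) (h2 : fv (sl e') e'.1 ≤ fv (sl e') e.1)
    (h3 : e'.2.1 ≤ e.2.1) : False := by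
  obtain ⟨g1, g2⟩ := mem_filter.1 he'
  have h4 := tri_le X.gen X.T (X.lv J) he (X.co_sub J g1) hs h1 h2 h3
  have h5 : ((((X.co J).filter fun f => XC e' f).card : ℕ) : ℝ) ≤
      ((X.co J).filter fun f => WX e f).card + (X.lv J).card * xc X.P e.1 e.2 := by
    exact_mod_cast h4
  have h6 := mul_le_mul_of_nonneg_right (X.lv_card hJ) (Nat.cast_nonneg (xc X.P e.1 e.2))
  unfold Cfg.TrimC at hT
  linarith

theorem Cfg.lx_aim (X : Cfg) (J t0 : ℝ) (hJ : 0 ≤ J) (j u : ℕ) {e e2 : Ed} (he : e ∈ X.F)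
    (he2 : e2 ∈ X.F) (hx : XC e2 e) (hs : sl e < X.al j u) (hT : X.TrimC J t0 e)
    (h1 : ¬ X.Lt j u e.1 e2.1) (h2 : ¬ X.Lt j u e2.1 e.1) :
    (∀ e' ∈ X.win (X.gco J t0) j u, e'.2 = e2.1 → XC e e') ∨
      (∀ e' ∈ X.win (X.gco J t0) j u, e'.1 = e.1 → XC e2 e') := by
  have pe := X.F_sub he
  have pe2 := X.F_sub he2
  obtain ⟨q1, -, q3⟩ := mem_prs.1 pe
  obtain ⟨r1, -, r3⟩ := mem_prs.1 pe2
  obtain ⟨x1, x2, x3, x4, x5⟩ := hx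
  have hne : e.1 ≠ e2.1 := fun h => by rw [h] at x2; exact lt_irrefl _ x2
  have g1 : fv (X.al j u) e.1 ≠ fv (X.al j u) e2.1 := fun h => hne (X.al_gen j u _ q1 _ r1 h)
  have g2 : fv (X.al j (u + 1)) e.1 ≠ fv (X.al j (u + 1)) e2.1 := fun h =>
    hne (X.al_gen j (u + 1) _ q1 _ r1 h)
  have hw : ∀ e' ∈ X.win (X.gco J t0) j u, e' ∈ X.gco J t0 ∧ e'.1.1 < e'.2.1 ∧ X.al j u < sl e' ∧
      sl e' < X.al j (u + 1) := fun e' he' => by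
    obtain ⟨a1, a2⟩ := mem_filter.1 he'
    have a3 := X.co_sub J (mem_filter.1 a1).1
    have a4 := X.wi_spec j a3
    rw [a2] at a4
    exact ⟨a1, (mem_prs.1 a3).2.2, a4⟩
  unfold Cfg.Lt at h1 h2
  rcases g1.lt_or_gt with a | a
  · right
    have b : fv (X.al j (u + 1)) e.1 < fv (X.al j (u + 1)) e2.1 :=
      g2.lt_or_gt.resolve_right fun b => h1 ⟨a, b⟩
    intro e' he' hq
    obtain ⟨w1, w2, w3, w4⟩ := hw e' he'
    have s1 : sl e < sl e' := hs.trans w3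
    by_cases hb : fv (sl e2) e2.1 < fv (sl e2) e'.2
    · refine ⟨x1.trans s1, hq ▸ x2, hb, hq ▸ lx_interp w3 w4 a b, ?_⟩
      rw [hq]
      exact tri_up' s1 x5.le (tri_x x1 x5 (x2.le.trans_eq (fv_sl r3)))
    · exfalso
      refine X.lx_tri hJ pe w1 hT s1 (by rw [hq]) (by rw [hq]) (tri_x x1 ?_ ?_).le
      · rw [← fv_sl q3, ← hq]
        exact (fv_lt_iff w2 _).2 s1
      · exact (not_lt.1 hb).trans x3.le
  · left
    have b : fv (X.al j (u + 1)) e2.1 < fv (X.al j (u + 1)) e.1 :=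
      g2.lt_or_gt.resolve_left fun b => h2 ⟨a, b⟩
    intro e' he' hq
    obtain ⟨w1, w2, w3, w4⟩ := hw e' he'
    have s1 : sl e < sl e' := hs.trans w3
    have c1 : fv (sl e') e'.1 < fv (sl e') e.1 := by
      rw [fv_sl w2, hq]; exact lx_interp w3 w4 a b
    have c2 : e2.1.1 < e.2.1 := tri_x x1 ((fv_sl q3).symm.trans_lt x4) x3.le
    by_cases hb : fv (sl e) e'.1 < fv (sl e) e.1
    · refine ⟨s1, hb, hq ▸ x4, c1, ?_⟩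
      rw [fv_sl w2, hq]
      exact tri_up' s1 ((fv_sl q3).symm.trans_lt x4).le c2
    · exact (X.lx_tri hJ pe w1 hT s1 (not_lt.1 hb) c1.le (hq ▸ c2.le)).elim

theorem lx_fib {α β : Type*} [DecidableEq β] (S : Finset α) (A : Finset β) (f : α → β) (b : ℝ)
    (h1 : ∀ x ∈ S, f x ∈ A) (h2 : ∀ a ∈ A, ((S.filter fun x => f x = a).card : ℝ) ≤ b) :
    (S.card : ℝ) ≤ A.card * b := by
  rw [card_eq_sum_card_fiberwise (f := f) (t := A) h1, Nat.cast_sum, ← nsmul_eq_mul, ← sum_const]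
  exact sum_le_sum h2

theorem lx_fib' {α β : Type*} [DecidableEq β] (S : Finset α) (A : Finset β) (f : α → β) (b : ℝ) (hb : 0 ≤ b)
    (h1 : ∀ x ∈ S, f x ∈ A)
    (h2 : ∀ x0 ∈ S, ((S.filter fun x => f x = f x0).card : ℝ) ≤ b) :
    (S.card : ℝ) ≤ A.card * b := by
  refine lx_fib S A f b h1 fun a _ => ?_
  rcases (S.filter fun x => f x = a).eq_empty_or_nonempty with h | ⟨x0, h⟩
  · rw [h]; simpa using hb
  · obtain ⟨h3, rfl⟩ := mem_filter.1 h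
    exact h2 x0 h3

theorem lx_disj {α β : Type*} [DecidableEq β] (E : Finset α) (A : Finset β) (g : α → β) (y : ℝ)
    (h : ∀ a ∈ A, y ≤ ((E.filter fun x => g x = a).card : ℝ)) : (A.card : ℝ) * y ≤ E.card := by
  rw [← nsmul_eq_mul, ← sum_const]
  refine (sum_le_sum h).trans ?_
  rw [← Nat.cast_sum, Nat.cast_le, ← card_biUnion]
  · exact card_le_card (biUnion_subset.2 fun a _ => filter_subset _ _)
  · intro a _ a' _ hne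
    exact disjoint_filter.2 fun x _ h1 h2 => hne (h1.symm.trans h2)

namespace Cfg
variable (X : Cfg)

/-- Tame pairs. -/
noncomputable def lxTP (K1 : ℝ) (j : ℕ) : Finset (Pt × ℕ) :=
  (X.P ×ˢ range (16 ^ j)).filter fun z => X.Tame K1 j z.2 z.1

theorem lx_mem_TP {K1 : ℝ} {j u : ℕ} {p : Pt} : (p, u) ∈ X.lxTP K1 j ↔ X.Tame K1 j u p :=
  ⟨fun h => (mem_filter.1 h).2, fun h => mem_filter.2 ⟨mem_product.2 ⟨h.mem, mem_range.2 h.lt⟩, h⟩⟩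

theorem lx_TP_card {K1 : ℝ} (hK : 0 < K1) (j : ℕ) : ((X.lxTP K1 j).card : ℝ) ≤ X.n * (K1 * 2 ^ j) := by
  refine lx_fib' _ X.P Prod.fst _ (by positivity) (fun z hz => (X.lx_mem_TP.1 hz).mem) fun z0 h0 => ?_
  refine le_trans ?_ ((X.lx_mem_TP.1 h0).reg j le_rfl).nact_le
  unfold Cfg.nact
  refine Nat.cast_le.2 (card_le_card_of_injOn Prod.snd (fun z hz => ?_) fun z hz z' hz' h => ?_)
  · obtain ⟨a1, a2⟩ := mem_filter.1 (mem_coe.1 hz)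
    have a3 := X.lx_mem_TP.1 a1
    exact mem_coe.2 (mem_filter.2 ⟨mem_range.2 a3.lt, a2 ▸ a3.act hK⟩)
  · exact Prod.ext ((mem_filter.1 (mem_coe.1 hz)).2.trans (mem_filter.1 (mem_coe.1 hz')).2.symm) h

theorem lx_partners {K1 : ℝ} (hK : 0 < K1) {j j' : ℕ} (hj : j' ≤ j) (S : Finset (Ed × ℕ))
    (A : Finset (Pt × ℕ)) (h1 : ∀ z ∈ S, (z.1.1, z.2) ∈ A)
    (h2 : ∀ z ∈ S, z.1 ∈ X.F ∧ X.Tame K1 j z.2 z.1.1 ∧ X.wi j' (sl z.1) = z.2 / 16 ^ (j - j')) :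
    (S.card : ℝ) ≤ A.card * (K1 * X.d / 2 ^ j') := by
  have := X.d_pos
  refine lx_fib' S A (fun z => (z.1.1, z.2)) _ (by positivity) h1 fun z0 h0 => ?_
  refine le_trans ?_ ((h2 z0 h0).2.1.reg j' hj).rdeg_le
  unfold Cfg.rdeg
  refine Nat.cast_le.2 (card_le_card_of_injOn Prod.fst (fun z hz => ?_) fun z hz z' hz' h => ?_)
  · obtain ⟨a1, a2⟩ := mem_filter.1 (mem_coe.1 hz)
    obtain ⟨a3, a4⟩ := Prod.mk.inj a2
    exact mem_coe.2 (mem_filter.2 ⟨mem_filter.2 ⟨(h2 z a1).1, a4 ▸ (h2 z a1).2.2⟩, a3⟩)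
  · exact Prod.ext h ((Prod.mk.inj (mem_filter.1 (mem_coe.1 hz)).2).2.trans
      (Prod.mk.inj (mem_filter.1 (mem_coe.1 hz')).2).2.symm)

theorem lx_stay {K1 G : ℝ} (hG : K1 ≤ G) {j j2 u : ℕ} (hj : j2 ≤ j) {p : Pt} (h : X.Tame K1 j u p) :
    p ∈ X.stayers j2 (u / 16 ^ (j - j2)) (G * X.sz j2) := by
  refine mem_filter.2 ⟨h.mem, fun θ a b => ((h.reg j2 hj).stay θ a b).trans ?_⟩
  have := X.dey_n_pos
  exact mul_le_mul_of_nonneg_right hG (by unfold Cfg.sz; positivity)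

theorem lx_b {K1 G y2 M : ℝ} (hK : 0 < K1) (hG : K1 ≤ G) {jW j2 j : ℕ} (hj : j2 ≤ j) (hjW : jW ≤ j)
    (hM : ((X.F.filter fun e => e.1 ∈ X.stayers j2 (X.wi j2 (sl e)) (G * X.sz j2) ∧
      ¬ X.Cmp j2 (X.wi j2 (sl e)) (X.stayers j2 (X.wi j2 (sl e)) (G * X.sz j2)) y2 e.1).card : ℝ) ≤ M)
    (S : Finset (Ed × ℕ))
    (h2 : ∀ z ∈ S, z.1 ∈ X.F ∧ X.Tame K1 j z.2 z.1.1 ∧ X.wi jW (sl z.1) = z.2 / 16 ^ (j - jW))
    (h3 : ∀ z ∈ S, ¬ X.Cmp j2 (z.2 / 16 ^ (j - j2))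
      (X.stayers j2 (z.2 / 16 ^ (j - j2)) (G * X.sz j2)) y2 z.1.1) :
    (S.card : ℝ) ≤ M * (K1 * 2 ^ j) / X.d * (K1 * X.d / 2 ^ jW) := by
  have hd := X.d_pos
  set A := (X.lxTP K1 j).filter fun z => ¬ X.Cmp j2 (z.2 / 16 ^ (j - j2))
      (X.stayers j2 (z.2 / 16 ^ (j - j2)) (G * X.sz j2)) y2 z.1 with hA
  refine (X.lx_partners hK hjW S A (fun z hz => mem_filter.2 ⟨X.lx_mem_TP.2 (h2 z hz).2.1, h3 z hz⟩)
    h2).trans (mul_le_mul_of_nonneg_right ?_ (by positivity))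
  have h4 := (lx_disj _ A (fun e : Ed => (e.1, X.wi j (sl e))) (X.d / (K1 * 2 ^ j)) fun z hz => by
    obtain ⟨a1, a2⟩ := mem_filter.1 hz
    have a3 := X.lx_mem_TP.1 a1
    refine a3.low.trans (Nat.cast_le.2 (card_le_card fun e he => ?_))
    obtain ⟨b1, b2⟩ := mem_filter.1 he
    obtain ⟨b3, b4⟩ := mem_filter.1 b1
    refine mem_filter.2 ⟨mem_filter.2 ⟨b3, ?_⟩, Prod.ext b2 b4⟩
    rw [X.wi_anc hj, b4, b2]
    exact ⟨X.lx_stay hG hj a3, a2⟩).trans hM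
  rw [le_div_iff₀ hd]
  rw [mul_div_assoc', div_le_iff₀ (by positivity)] at h4
  exact h4

theorem lx_div {jW j2 j : ℕ} (h1 : jW ≤ j2) (h2 : j2 ≤ j) (u : ℕ) :
    u / 16 ^ (j - j2) / 16 ^ (j2 - jW) = u / 16 ^ (j - jW) := by
  rw [Nat.div_div_eq_div_mul, ← pow_add]
  congr 2; omega

theorem lx_anc_lt {j2 j u : ℕ} (h2 : j2 ≤ j) (hu : u < 16 ^ j) : u / 16 ^ (j - j2) < 16 ^ j2 := by
  rw [Nat.div_lt_iff_lt_mul (by positivity), ← pow_add, Nat.add_sub_cancel' h2]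
  exact hu

theorem lx_c {K1 J2 y2 : ℝ} (hK : 0 < K1) {jW j2 j : ℕ} (h1 : jW ≤ j2) (hj : j2 ≤ j)
    (hJ : 0 ≤ J2) (hJ' : J2 ≤ K1 * X.sz jW) (hy : 0 < y2) (S : Finset (Ed × ℕ))
    (h2 : ∀ z ∈ S, z.1 ∈ X.F ∧ X.Tame K1 j z.2 z.1.1 ∧ X.wi jW (sl z.1) = z.2 / 16 ^ (j - jW))
    (h3 : ∀ z ∈ S, sl z.1 < X.al j2 (z.2 / 16 ^ (j - j2)) ∧ X.Cmp j2 (z.2 / 16 ^ (j - j2))
      (X.stayers j2 (z.2 / 16 ^ (j - j2)) J2) y2 z.1.1 ∧
      (X.k : ℝ) - J2 ≤ rk X.P (X.al j2 (z.2 / 16 ^ (j - j2))) z.1.1 ∧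
      (rk X.P (X.al j2 (z.2 / 16 ^ (j - j2))) z.1.2 : ℝ) < X.k - J2) :
    (S.card : ℝ) ≤ (16 ^ j2 * (2 * (2 * J2 + 1)) +
      16 ^ jW * (2 * J2 + 1) * (K1 ^ 2 * X.sz jW) ^ 2 / y2 ^ 2) * (K1 ^ 2 * 2 ^ j / 2 ^ j2) := by
  have h4 := X.touch_sum jW j2 h1 J2 (K1 * X.sz jW) y2 (K1 ^ 2 * X.sz jW) hJ hJ' hy
  rw [← Nat.cast_sum, ← card_sigma] at h4
  refine (lx_fib' S _ (fun z => (⟨z.2 / 16 ^ (j - j2), X.T.ch X.k z.1⟩ : Σ _ : ℕ, Pt)) _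
    (by positivity) (fun z hz => ?_) fun z0 h0 => ?_).trans
    (mul_le_mul_of_nonneg_right h4 (by positivity))
  · obtain ⟨a1, a2, a3⟩ := h2 z hz
    refine mem_sigma.2 ⟨mem_filter.2 ⟨mem_range.2 (lx_anc_lt hj a2.lt), ?_⟩,
      mem_filter.2 ⟨X.T.ch_mem _ _ a1, z.1, X.T.mem_chain.2 ⟨a1, rfl⟩, ?_, (h3 z hz).1, (h3 z hz).2.1⟩⟩
    · rw [lx_div h1 hj]; exact (a2.reg jW (h1.trans hj)).nice
    · rw [lx_div h1 hj]; exact a3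
  · refine le_trans ?_ (X.tame_count hK hj (z0.2 / 16 ^ (j - j2)) z0.1.1)
    have key : ∀ z ∈ S, ∀ z' ∈ S, z.2 / 16 ^ (j - j2) = z'.2 / 16 ^ (j - j2) →
        X.T.ch X.k z.1 = X.T.ch X.k z'.1 → ¬ sl z.1 < sl z'.1 := fun z hz z' hz' e1 e2 hlt => by
      obtain ⟨-, -, -, b4⟩ := h3 z hz
      obtain ⟨c1, -, c3, -⟩ := h3 z' hz'
      rw [e1] at b4
      have := X.T.chain_le X.gen (X.T.mem_chain.2 ⟨(h2 z hz).1, e2⟩)
        (X.T.mem_chain.2 ⟨(h2 z' hz').1, rfl⟩) hlt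
        (fun p => -fv (X.al j2 (z'.2 / 16 ^ (j - j2))) p) fun f hf _ g2 =>
          neg_le_neg ((fv_gt_iff (mem_prs.1 (edges_sub _ _ (X.T.mem_chain.1 hf).1)).2.2 _).2
            (g2.trans c1)).le
      have h5 : (rk X.P (X.al j2 (z'.2 / 16 ^ (j - j2))) z'.1.1 : ℝ) ≤
          rk X.P (X.al j2 (z'.2 / 16 ^ (j - j2))) z.1.2 :=
        Nat.cast_le.2 (rk_mono _ _ (neg_le_neg_iff.1 this))
      linarith
    have key2 : ∀ z ∈ S, (⟨z.2 / 16 ^ (j - j2), X.T.ch X.k z.1⟩ : Σ _ : ℕ, Pt) =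
        ⟨z0.2 / 16 ^ (j - j2), X.T.ch X.k z0.1⟩ →
        z.2 / 16 ^ (j - j2) = z0.2 / 16 ^ (j - j2) ∧ z.1 = z0.1 := fun z hz h => by
      simp only [Sigma.mk.injEq, heq_eq_eq] at h
      exact ⟨h.1, sl_inj X.gen (h2 z hz).1 (h2 z0 h0).1 (le_antisymm
        (not_lt.1 (key z0 h0 z hz h.1.symm h.2.symm)) (not_lt.1 (key z hz z0 h0 h.1 h.2)))⟩
    refine Nat.cast_le.2 (card_le_card_of_injOn Prod.snd (fun z hz => ?_) fun z hz z' hz' h => ?_)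
    · obtain ⟨a1, a2⟩ := mem_filter.1 (mem_coe.1 hz)
      obtain ⟨a3, a4⟩ := key2 z a1 a2
      exact mem_coe.2 (mem_filter.2 ⟨mem_range.2 (h2 z a1).2.1.lt, a4 ▸ (h2 z a1).2.1, a3⟩)
    · obtain ⟨a1, a2⟩ := mem_filter.1 (mem_coe.1 hz)
      obtain ⟨b1, b2⟩ := mem_filter.1 (mem_coe.1 hz')
      exact Prod.ext ((key2 z a1 a2).2.trans (key2 z' b1 b2).2.symm) h

end Cfg

end Vale.Agent.P065.U
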