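import Vale.Agent.P065.U.LocalXA

/-!
P065/U task LocalX, part B: the remaining pairs, window by window.
-/

namespace Vale.Agent.P065.U

open Finset Classical

namespace Cfg
variable (X : Cfg)

theorem lx_pts {K1 J t y T : ℝ} (hK : 0 < K1) (hy : 0 < y) {jW j u : ℕ} (hj : jW ≤ j) (g : Ed → Pt)
    (e : Ed) (S : Finset Ed)
    (hS : ∀ f ∈ S, f ∈ X.F ∧ X.Tame K1 j u f.1 ∧ X.wi jW (sl f) = u / 16 ^ (j - jW) ∧
      y ≤ (((X.win (X.gco J t) j u).filter fun e' => g e' = f.1).card : ℝ) ∧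
      ∀ e' ∈ X.win (X.gco J t) j u, g e' = f.1 → XC e e')
    (hT : (((X.win (X.co J) j u).filter fun e' => XC e e').card : ℝ) < T) :
    (S.card : ℝ) ≤ T / y * (K1 * X.d / 2 ^ jW) := by
  have hd := X.d_pos
  have h1 := (lx_disj ((X.win (X.co J) j u).filter fun e' => XC e e') (S.image Prod.fst) g y
    fun a ha => by
      obtain ⟨f, hf, rfl⟩ := mem_image.1 ha
      obtain ⟨-, -, -, a4, a5⟩ := hS f hf
      refine a4.trans (Nat.cast_le.2 (card_le_card fun e' he' => ?_))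
      obtain ⟨b1, b2⟩ := mem_filter.1 he'
      obtain ⟨b3, b4⟩ := mem_filter.1 b1
      exact mem_filter.2 ⟨mem_filter.2 ⟨mem_filter.2 ⟨(mem_filter.1 b3).1, b4⟩, a5 e' b1 b2⟩, b2⟩).trans
    hT.le
  refine (lx_fib' S (S.image Prod.fst) Prod.fst _ (by positivity)
    (fun f hf => mem_image_of_mem _ hf) fun f0 h0 => ?_).trans
    (mul_le_mul_of_nonneg_right ((le_div_iff₀ hy).2 h1) (by positivity))
  refine le_trans ?_ ((hS f0 h0).2.1.reg jW hj).rdeg_le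
  refine Nat.cast_le.2 (card_le_card fun f hf => ?_)
  obtain ⟨a1, a2⟩ := mem_filter.1 hf
  exact mem_filter.2 ⟨mem_filter.2 ⟨(hS f a1).1, (hS f a1).2.2.1⟩, a2⟩

/-- The properties of a bad pair. -/
structure LxP (K1 J t y T : ℝ) (jW j u : ℕ) (e : Ed) : Prop where
  mem : e ∈ X.F
  anc : X.wi jW (sl e) = u / 16 ^ (j - jW)
  lt : sl e < X.al j u
  tame : X.Tame K1 j u e.1
  use : X.Useful J t y j u e.1
  trim : X.TrimC J t e
  few : (((X.win (X.co J) j u).filter fun e' => XC e e').card : ℝ) < T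

/-- Special crossings. -/
noncomputable def lxSp (j u : ℕ) (H : Finset Ed) : Finset (Ed × Ed) :=
  (H ×ˢ H).filter fun x => XC x.1 x.2 ∧ (X.Lt j u x.2.1 x.1.1 ∨ X.Lt j u x.1.1 x.2.1)

theorem lx_cr {K1 J t y T : ℝ} (hK : 0 < K1) (hJ : 0 ≤ J) (hy : 0 < y) {jW j u : ℕ} (hj : jW ≤ j)
    (H : Finset Ed) (hH : ∀ e ∈ H, X.LxP K1 J t y T jW j u e) :
    (cr H H : ℝ) ≤ (X.lxSp j u H).card + 2 * H.card * (T / y * (K1 * X.d / 2 ^ jW)) := by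
  set C1 := (H ×ˢ H).filter fun x : Ed × Ed =>
    ∀ e' ∈ X.win (X.gco J t) j u, e'.2 = x.1.1 → XC x.2 e' with hC1
  set C2 := (H ×ˢ H).filter fun x : Ed × Ed =>
    ∀ e' ∈ X.win (X.gco J t) j u, e'.1 = x.2.1 → XC x.1 e' with hC2
  have h1 : (C1.card : ℝ) ≤ H.card * (T / y * (K1 * X.d / 2 ^ jW)) := by
    refine lx_fib C1 H Prod.snd _ (fun x hx => (mem_product.1 (mem_filter.1 hx).1).2) fun e he => ?_
    refine le_trans ?_ (X.lx_pts (t := t) hK hy hj Prod.snd e (H.filter fun f =>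
      ∀ e' ∈ X.win (X.gco J t) j u, e'.2 = f.1 → XC e e') (fun f hf => ?_) (hH e he).few)
    · refine Nat.cast_le.2 (card_le_card_of_injOn Prod.fst (fun z hz => ?_) fun z hz z' hz' h => ?_)
      · obtain ⟨a1, a2⟩ := mem_filter.1 (mem_coe.1 hz)
        obtain ⟨a3, a4⟩ := mem_filter.1 a1
        exact mem_coe.2 (mem_filter.2 ⟨(mem_product.1 a3).1, a2 ▸ a4⟩)
      · exact Prod.ext h ((mem_filter.1 (mem_coe.1 hz)).2.trans (mem_filter.1 (mem_coe.1 hz')).2.symm)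
    · obtain ⟨a1, a2⟩ := mem_filter.1 hf
      exact ⟨(hH f a1).mem, (hH f a1).tame, (hH f a1).anc, (hH f a1).use.2, a2⟩
  have h2 : (C2.card : ℝ) ≤ H.card * (T / y * (K1 * X.d / 2 ^ jW)) := by
    refine lx_fib C2 H Prod.fst _ (fun x hx => (mem_product.1 (mem_filter.1 hx).1).1) fun e he => ?_
    refine le_trans ?_ (X.lx_pts (t := t) hK hy hj Prod.fst e (H.filter fun f =>
      ∀ e' ∈ X.win (X.gco J t) j u, e'.1 = f.1 → XC e e') (fun f hf => ?_) (hH e he).few)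
    · refine Nat.cast_le.2 (card_le_card_of_injOn Prod.snd (fun z hz => ?_) fun z hz z' hz' h => ?_)
      · obtain ⟨a1, a2⟩ := mem_filter.1 (mem_coe.1 hz)
        obtain ⟨a3, a4⟩ := mem_filter.1 a1
        exact mem_coe.2 (mem_filter.2 ⟨(mem_product.1 a3).2, a2 ▸ a4⟩)
      · exact Prod.ext ((mem_filter.1 (mem_coe.1 hz)).2.trans
          (mem_filter.1 (mem_coe.1 hz')).2.symm) h
    · obtain ⟨a1, a2⟩ := mem_filter.1 hf
      exact ⟨(hH f a1).mem, (hH f a1).tame, (hH f a1).anc, (hH f a1).use.1, a2⟩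
  have h3 : cr H H ≤ (X.lxSp j u H).card + C1.card + C2.card := by
    refine le_trans (card_le_card fun x hx => ?_) ((card_union_le _ _).trans
      (Nat.add_le_add_right (card_union_le _ _) _))
    obtain ⟨a1, a2⟩ := mem_filter.1 hx
    obtain ⟨a3, a4⟩ := mem_product.1 a1
    by_cases b1 : X.Lt j u x.2.1 x.1.1
    · exact mem_union_left _ (mem_union_left _ (mem_filter.2 ⟨a1, a2, Or.inl b1⟩))
    by_cases b2 : X.Lt j u x.1.1 x.2.1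
    · exact mem_union_left _ (mem_union_left _ (mem_filter.2 ⟨a1, a2, Or.inr b2⟩))
    rcases X.lx_aim J t hJ j u (hH _ a4).mem (hH _ a3).mem a2 (hH _ a4).lt (hH _ a4).trim b1 b2 with
      b | b
    · exact mem_union_left _ (mem_union_right _ (mem_filter.2 ⟨a1, b⟩))
    · exact mem_union_right _ (mem_filter.2 ⟨a1, b⟩)
  have h4 : (cr H H : ℝ) ≤ (X.lxSp j u H).card + C1.card + C2.card := by exact_mod_cast h3
  linarith

theorem lx_win {K1 J t y T J2 h0 θ : ℝ} (hK : 0 < K1) (hJ : 0 ≤ J) (hy : 0 < y) (hJ2 : 0 ≤ J2)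
    (h00 : 0 < h0) (hθ : GenSl X.P θ) {jW j u : ℕ} (hj : jW ≤ j)
    (hκ : 2 * (T / y * (K1 * X.d / 2 ^ jW)) ≤ h0 ^ 2 / (1024 * (2 * J2 + 1) ^ 2))
    (H : Finset Ed) (hH : ∀ e ∈ H, X.LxP K1 J t y T jW j u e)
    (hb : ∀ e ∈ H, |(rk X.P θ e.1 : ℝ) - X.k| ≤ J2 ∧ |(rk X.P θ e.2 : ℝ) - X.k| ≤ J2) :
    (H.card : ℝ) ≤ 16 * (2 * J2 + 1) + h0 +
      (X.lxSp j u H).card * (1024 * (2 * J2 + 1) ^ 2 / h0 ^ 2) := by
  have p0 : (0 : ℝ) ≤ (X.lxSp j u H).card * (1024 * (2 * J2 + 1) ^ 2 / h0 ^ 2) := by positivity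
  by_cases c1 : (H.card : ℝ) ≤ 16 * (2 * J2 + 1)
  · linarith
  by_cases c2 : (H.card : ℝ) ≤ h0
  · linarith
  push Not at c1 c2
  have hY := band_gen hθ (X.k : ℝ) J2 hJ2
  set Y := X.P.filter fun p => |(rk X.P θ p : ℝ) - X.k| ≤ J2 with hYd
  have hY' : 16 * Y.card ≤ H.card := by
    have : (16 : ℝ) * Y.card ≤ H.card := by linarith
    exact_mod_cast this
  have h1 := crossing X.P X.gen H (fun e he => X.F_sub (hH e he).mem) Y Y
    (fun e he => mem_filter.2 ⟨(mem_prs.1 (X.F_sub (hH e he).mem)).1, (hb e he).1⟩)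
    (fun e he => mem_filter.2 ⟨(mem_prs.1 (X.F_sub (hH e he).mem)).2.1, (hb e he).2⟩) hY' hY'
  have h2 : (H.card : ℝ) ^ 3 ≤ 512 * Y.card * Y.card * cr H H := by exact_mod_cast h1
  have h3 := X.lx_cr hK hJ hy hj H hH
  set B := 2 * J2 + 1 with hB
  have hB0 : 0 < B := by linarith
  set h : ℝ := ((H.card : ℕ) : ℝ) with hh
  set s : ℝ := (((X.lxSp j u H).card : ℕ) : ℝ) with hs
  have hY0 : (0 : ℝ) ≤ Y.card := Nat.cast_nonneg _
  have hc0 : (0 : ℝ) ≤ cr H H := Nat.cast_nonneg _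
  have h4 : h ^ 3 ≤ 512 * B ^ 2 * cr H H :=
    h2.trans (mul_le_mul_of_nonneg_right (by nlinarith [mul_self_le_mul_self hY0 hY]) hc0)
  have h5 : (cr H H : ℝ) ≤ s + h * (h0 ^ 2 / (1024 * B ^ 2)) := by
    nlinarith [mul_le_mul_of_nonneg_left hκ (h00.le.trans c2.le)]
  have h6 : h * h0 ^ 2 ≤ h ^ 3 := by
    nlinarith [mul_le_mul_of_nonneg_left (pow_le_pow_left₀ h00.le c2.le 2) (h00.le.trans c2.le)]
  have h7 : 512 * B ^ 2 * (s + h * (h0 ^ 2 / (1024 * B ^ 2))) = 512 * B ^ 2 * s + h * h0 ^ 2 / 2 := by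
    field_simp; ring
  have h8 := mul_le_mul_of_nonneg_left h5 (by positivity : 0 ≤ 512 * B ^ 2)
  have h9 : h ≤ s * (1024 * B ^ 2 / h0 ^ 2) := by
    rw [mul_div_assoc', le_div_iff₀ (by positivity)]
    linarith
  linarith

theorem lx_sp {K1 J t y T : ℝ} (hK : 0 < K1) {jW j : ℕ} (hj : jW ≤ j) (H : ℕ → Finset Ed)
    (hH : ∀ u, ∀ e ∈ H u, X.LxP K1 J t y T jW j u e) :
    ∑ u ∈ range (16 ^ j), ((X.lxSp j u (H u)).card : ℝ) ≤ 16 ^ jW * (K1 ^ 2 * X.sz jW) ^ 2 := by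
  rw [← Nat.cast_sum, ← card_sigma]
  have hwi : ∀ u < 16 ^ j, ∀ p q, X.Lt j u p q → p.1 < q.1 ∧ X.wi j (sl (p, q)) = u :=
    fun u hu p q h => ⟨h.spec.1, X.wi_eq hu h.spec.2.1 h.spec.2.2⟩
  refine (lx_fib' _ (range (16 ^ jW)) (fun z => X.wi jW (sl z.2.1))
    ((K1 ^ 2 * X.sz jW) ^ 2) (sq_nonneg _)
    (fun z _ => mem_range.2 (X.wi_lt _ _)) fun z0 h0 => ?_).trans (le_of_eq (by simp))
  obtain ⟨-, a2⟩ := mem_sigma.1 h0
  have a3 := hH _ _ (mem_product.1 (mem_filter.1 a2).1).1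
  have a4 := a3.tame.act_card hK.le hj
  rw [← a3.anc] at a4
  have a5 : (cr (X.win X.F jW (X.wi jW (sl z0.2.1))) (X.win X.F jW (X.wi jW (sl z0.2.1))) : ℝ) ≤
      ((X.act jW (X.wi jW (sl z0.2.1))).card : ℝ) ^ 2 := by exact_mod_cast X.cr_win jW _
  refine le_trans ?_ (a5.trans (pow_le_pow_left₀ (Nat.cast_nonneg _) a4 2))
  refine Nat.cast_le.2 (card_le_card_of_injOn (fun z => z.2) (fun z hz => ?_) fun z hz z' hz' h => ?_)
  · obtain ⟨b1, b2⟩ := mem_filter.1 (mem_coe.1 hz)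
    obtain ⟨b3, b4⟩ := mem_filter.1 (mem_sigma.1 b1).2
    obtain ⟨b5, b6⟩ := mem_product.1 b3
    refine mem_coe.2 (mem_filter.2 ⟨mem_product.2 ⟨mem_filter.2 ⟨(hH _ _ b5).mem, b2⟩,
      mem_filter.2 ⟨(hH _ _ b6).mem, ?_⟩⟩, b4.1⟩)
    rw [← b2, (hH _ _ b5).anc, (hH _ _ b6).anc]
  · obtain ⟨b1, b2⟩ := mem_sigma.1 (mem_filter.1 (mem_coe.1 hz)).1
    obtain ⟨c1, c2⟩ := mem_sigma.1 (mem_filter.1 (mem_coe.1 hz')).1
    have b3 := (mem_filter.1 b2).2.2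
    have c3 := (mem_filter.1 c2).2.2
    obtain ⟨u, x⟩ := z
    obtain ⟨u', x'⟩ := z'
    simp only at h b3 c3 b1 c1
    subst h
    have : u = u' := by
      rcases b3 with b | b <;> rcases c3 with c | c
      · exact (hwi u (mem_range.1 b1) _ _ b).2.symm.trans (hwi u' (mem_range.1 c1) _ _ c).2
      · exact absurd (hwi u (mem_range.1 b1) _ _ b).1 (hwi u' (mem_range.1 c1) _ _ c).1.not_gt
      · exact absurd (hwi u (mem_range.1 b1) _ _ b).1 (hwi u' (mem_range.1 c1) _ _ c).1.not_gt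
      · exact (hwi u (mem_range.1 b1) _ _ b).2.symm.trans (hwi u' (mem_range.1 c1) _ _ c).2
    rw [this]

theorem lx_d {K1 J t y T J2 h0 : ℝ} (hK : 0 < K1) (hJ : 0 ≤ J) (hy : 0 < y) (hJ2 : 0 ≤ J2)
    (h00 : 0 < h0) {jW j : ℕ} (hj : jW ≤ j) (θ : ℕ → ℝ) (hθ : ∀ u, GenSl X.P (θ u))
    (hκ : 2 * (T / y * (K1 * X.d / 2 ^ jW)) ≤ h0 ^ 2 / (1024 * (2 * J2 + 1) ^ 2))
    (S : Finset (Ed × ℕ)) (hS : ∀ z ∈ S, X.LxP K1 J t y T jW j z.2 z.1)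
    (hb : ∀ z ∈ S, |(rk X.P (θ z.2) z.1.1 : ℝ) - X.k| ≤ J2 ∧ |(rk X.P (θ z.2) z.1.2 : ℝ) - X.k| ≤ J2) :
    (S.card : ℝ) ≤ 16 ^ j * (16 * (2 * J2 + 1)) + 16 ^ j * h0 +
      16 ^ jW * (K1 ^ 2 * X.sz jW) ^ 2 * (1024 * (2 * J2 + 1) ^ 2 / h0 ^ 2) := by
  obtain ⟨H, hH⟩ : ∃ H : ℕ → Finset Ed, ∀ u e, e ∈ H u ↔ (e, u) ∈ S :=
    ⟨fun u => X.F.filter fun e => (e, u) ∈ S, fun u e =>
      ⟨fun h => (mem_filter.1 h).2, fun h => mem_filter.2 ⟨(hS _ h).mem, h⟩⟩⟩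
  have hH' : ∀ u, ∀ e ∈ H u, X.LxP K1 J t y T jW j u e := fun u e he => hS (e, u) ((hH u e).1 he)
  have h1 : (S.card : ℝ) ≤ ∑ u ∈ range (16 ^ j), ((H u).card : ℝ) := by
    rw [← Nat.cast_sum, ← card_sigma]
    refine Nat.cast_le.2 (card_le_card_of_injOn (fun z => ⟨z.2, z.1⟩) (fun z hz => ?_)
      fun z _ z' _ h => ?_)
    · exact mem_coe.2 (mem_sigma.2 ⟨mem_range.2 (hS z hz).tame.lt, (hH z.2 z.1).2 hz⟩)
    · simp only [Sigma.mk.injEq, heq_eq_eq] at h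
      exact Prod.ext h.2 h.1
  have h2 : ∑ u ∈ range (16 ^ j), ((H u).card : ℝ) ≤ ∑ u ∈ range (16 ^ j), (16 * (2 * J2 + 1) + h0 +
      (X.lxSp j u (H u)).card * (1024 * (2 * J2 + 1) ^ 2 / h0 ^ 2)) := sum_le_sum fun u _ =>
    X.lx_win hK hJ hy hJ2 h00 (hθ u) hj hκ (H u) (hH' u) fun e he => hb (e, u) ((hH u e).1 he)
  have h3 := mul_le_mul_of_nonneg_right (X.lx_sp hK hj H hH')
    (by positivity : 0 ≤ 1024 * (2 * J2 + 1) ^ 2 / h0 ^ 2)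
  rw [sum_add_distrib, ← sum_mul, sum_const, card_range, nsmul_eq_mul] at h2
  push_cast at h2
  linarith

end Cfg

end Vale.Agent.P065.U
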