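import Vale.Agent.P065.U.PiecesA

/-!
P065/U task Pieces: many sliding pieces are crossed by many edges of G.

C1 = 2^j. m0 = ⌊d/(Kd C1)⌋ ≥ d/(2 Kd C1), Kd = 16000 K. A start e0 ∈ F is good if e0.1 ∈ Z (wi e0) and
Σ_piece hit ≤ λ m0 n/d; an edge is in ≤ m0 pieces, so by `hit_sum` ≤ 10 n d/λ starts fail the second
condition. G' = edges e ∈ G with e.1 ∈ Z (wi e), ldeg 0 0 e.2 ≤ Kb d (`small` at scale 0), at least m0 - 1
earlier edges of its chain in its window (fails for ≤ m0 Σ|act| edges, `chains_le`, `act_sum`), and at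
least m0/2 good starts among the m0 starts whose piece contains e (fails for ≤ 2·#bad starts edges).
|G'| ≥ n d/(4K). `crossing`: cr G' G' ≥ n²/(2^15 K³); crossings inside a window number ≤ K1⁴ n²/C1².
So ≥ n²/(2^16 K³) pairs (e,f) with f in a later window, and ≥ (m0/2) n²/(2^16 K³) pairs (e0,f), e0
good, f crossing its piece (f crosses a piece once, `sep_unique`). If f.2 is not above the line then
f.2 ∈ Uw j u (K1 sz j): rk (sl e) f.2 ≥ k and rk β f.2 ≤ rk β e0.1 ≤ k + K1 sz j; such (e0,f) number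
≤ 24 n d·K1² sz j·Kb d, at most half. Finally |ovr| ≤ Σ_piece hit ≤ λ n/C1 for a good start, and
the good starts with |ovr| below half the average contribute at most half.
-/

namespace Vale.Agent.P065.U

open Finset Classical

theorem Cfg.ovr_card (X : Cfg) (j m0 : ℕ) {G : Finset Ed} (hG : G ⊆ X.F) (e0 : Ed) :
    (X.ovr j m0 G e0).card ≤ ∑ e ∈ X.piece j m0 e0, hit X.P X.k e := by
  refine le_trans (card_le_card (t := (X.piece j m0 e0).biUnion fun e =>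
    (edges X.P X.k).filter fun f => WX e f) fun f hf => ?_) (card_biUnion_le.trans
      (sum_le_sum fun e _ => (Nat.le_add_right _ _).trans (Nat.le_add_right _ _)))
  obtain ⟨h1, ⟨e, he, h2⟩, -⟩ := mem_filter.1 hf
  exact mem_biUnion.2 ⟨e, he, mem_filter.2 ⟨hG h1, h2.wx⟩⟩

theorem pc_num1 {n d K K1 s g L : ℝ} (hd : 0 < d) (hn : n = d ^ 3) (hK : 0 < K) (hs : 0 < s)
    (h1 : 2 ^ 16 * K ^ 3 * K1 ^ 4 ≤ s ^ 2) (hg : n * d / (4 * K) ≤ g)
    (h : g ^ 3 ≤ 512 * n * n * (K1 ^ 4 * n ^ 2 / s ^ 2 + L)) : n ^ 2 / (2 ^ 16 * K ^ 3) ≤ L := by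
  have hn0 : 0 < n := hn ▸ pow_pos hd 3
  have a1 : K1 ^ 4 * n ^ 2 / s ^ 2 ≤ n ^ 2 / (2 ^ 16 * K ^ 3) := by
    rw [div_le_div_iff₀ (by positivity) (by positivity)]
    have := mul_le_mul_of_nonneg_left h1 (pow_pos hn0 2).le
    linarith
  have a2 : (n * d / (4 * K)) ^ 3 = 512 * n * n * (2 * (n ^ 2 / (2 ^ 16 * K ^ 3))) := by
    rw [hn]
    field_simp
    ring
  have a3 := (pow_le_pow_left₀ (by positivity) hg 3).trans h
  rw [a2] at a3
  have a4 := le_of_mul_le_mul_left a3 (by positivity)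
  linarith

theorem pc_num2 {n d K K1 s Q R m L p : ℝ} (hd : 0 < d) (hn : 0 < n) (hK : 0 < K) (hs : 0 < s)
    (hQ : 0 < Q) (h2 : 2 ^ 43 * K ^ 4 * K1 ^ 2 * R * d ≤ s ^ 2) (h3 : 2 ^ 39 * K ^ 4 ≤ Q)
    (hL : n ^ 2 / (2 ^ 16 * K ^ 3) ≤ L) (hm : d / (32000 * K * s) ≤ m) (hR : 0 ≤ R)
    (h : m * L ≤ 2 * (p * (n / s) + 24 * n * d * (n / (Q * s)) +
      24 * n * d * (K1 ^ 2 * (n / s ^ 3) * (24 * R * d)))) : n * d / Q ≤ p := by
  obtain ⟨T, hT⟩ : ∃ T, T = d * n ^ 2 / (64000 * 2 ^ 17 * K ^ 4 * s) := ⟨_, rfl⟩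
  have a1 : 4 * T ≤ m * L := by
    refine le_trans (le_of_eq ?_) (mul_le_mul hm hL (by positivity) (le_trans (by positivity) hm))
    rw [hT]
    field_simp
    ring
  have a2 : 24 * n * d * (n / (Q * s)) ≤ T / 2 := by
    have e1 : 24 * n * d * (n / (Q * s)) = d * n ^ 2 / s * (24 / Q) := by field_simp
    have e2 : T / 2 = d * n ^ 2 / s * (1 / (128000 * 2 ^ 17 * K ^ 4)) := by
      rw [hT]
      field_simp
      ring
    rw [e1, e2]
    refine mul_le_mul_of_nonneg_left ?_ (by positivity)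
    rw [div_le_div_iff₀ hQ (by positivity)]
    have := pow_pos hK 4
    linarith
  have a3 : 24 * n * d * (K1 ^ 2 * (n / s ^ 3) * (24 * R * d)) ≤ T := by
    have e1 : 24 * n * d * (K1 ^ 2 * (n / s ^ 3) * (24 * R * d)) =
        d * n ^ 2 / s * (576 * K1 ^ 2 * R * d / s ^ 2) := by
      field_simp
      ring
    have e2 : T = d * n ^ 2 / s * (1 / (64000 * 2 ^ 17 * K ^ 4)) := by
      rw [hT]
      field_simp
    rw [e1, e2]
    refine mul_le_mul_of_nonneg_left ?_ (by positivity)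
    rw [div_le_div_iff₀ (by positivity) (by positivity)]
    have : 0 ≤ K ^ 4 * K1 ^ 2 * R * d := by positivity
    linarith
  have a4 : n * d / Q * (n / s) ≤ T / 2 := by
    have e1 : 24 * n * d * (n / (Q * s)) = 24 * (n * d / Q * (n / s)) := by field_simp
    have : 0 ≤ n * d / Q * (n / s) := by positivity
    linarith
  exact le_of_mul_le_mul_right (by linarith) (div_pos hn hs)

theorem pc_num3 {K K1 : ℝ} (hK : 2 ≤ K) (h : K ≤ K1) (c : ℕ) :
    2 ^ 43 * K1 ^ 7 * (16 * K) ^ c ≤ K1 ^ (50 + 5 * c) := by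
  have h2 : 2 ≤ K1 := hK.trans h
  have a1 : (2 : ℝ) ^ 43 ≤ K1 ^ 43 := pow_le_pow_left₀ (by norm_num) h2 _
  have a2 : (2 : ℝ) ^ 4 ≤ K1 ^ 4 := pow_le_pow_left₀ (by norm_num) h2 _
  have a3 : 16 * K ≤ K1 ^ 5 := by
    rw [pow_succ]
    exact mul_le_mul (by linarith) h (by linarith) (by positivity)
  have a4 : (16 * K) ^ c ≤ (K1 ^ 5) ^ c := pow_le_pow_left₀ (by linarith) a3 _
  calc _ ≤ K1 ^ 43 * K1 ^ 7 * (K1 ^ 5) ^ c := by gcongr
    _ = _ := by ring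

theorem pc_card4 {α : Type*} (F A B C D : Finset α) (h : ∀ x ∈ F, x ∈ A ∨ x ∈ B ∨ x ∈ C ∨ x ∈ D) :
    (F.card : ℝ) ≤ A.card + B.card + C.card + D.card := by
  have h1 : F ⊆ A ∪ B ∪ C ∪ D := fun x hx => by
    simpa only [mem_union, or_assoc] using h x hx
  have h2 := card_le_card h1
  have h3 := card_union_le (A ∪ B ∪ C) D
  have h4 := card_union_le (A ∪ B) C
  have h5 := card_union_le A B
  exact_mod_cast (by omega : F.card ≤ A.card + B.card + C.card + D.card)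

/-- points of large left degree -/
theorem pc_heavy (X : Cfg) {R : ℝ} (hR : 0 < R) :
    ((X.P.filter fun p => 24 * R * X.d < (X.F.filter fun f => f.2 = p).card).card : ℝ) ≤ X.n / R := by
  set Y := X.P.filter fun p => 24 * R * X.d < (X.F.filter fun f => f.2 = p).card with hY
  have h1 := card_nsmul_le_sum Y (fun p => ((X.F.filter fun f => f.2 = p).card : ℝ)) (24 * R * X.d)
    fun p hp => (mem_filter.1 hp).2.le
  rw [← Nat.cast_sum, sum_card_fiberwise_eq_card_filter, nsmul_eq_mul] at h1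
  have h2 := (h1.trans (Nat.cast_le.2 (card_filter_le _ _))).trans X.F_card
  have hd := X.d_pos
  rw [le_div_iff₀ hR]
  refine le_of_mul_le_mul_right ?_ (by positivity : 0 < 24 * X.d)
  linarith

theorem pc_hitbad (X : Cfg) (j m0 : ℕ) {K : ℝ} (hK : 0 < K)
    (hm : (m0 : ℝ) ≤ X.d / (16000 * K * 2 ^ j)) :
    ((X.F.filter fun e0 => X.n / 2 ^ j < (∑ e ∈ X.piece j m0 e0, hit X.P X.k e : ℕ)).card : ℝ) ≤
      X.n * X.d / (16 * K) := by
  set Y := X.F.filter fun e0 => X.n / 2 ^ j < (∑ e ∈ X.piece j m0 e0, hit X.P X.k e : ℕ) with hY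
  have h1 := card_nsmul_le_sum Y (fun e0 => ((∑ e ∈ X.piece j m0 e0, hit X.P X.k e : ℕ) : ℝ))
    (X.n / 2 ^ j) fun p hp => (mem_filter.1 hp).2.le
  rw [← Nat.cast_sum, nsmul_eq_mul] at h1
  have h2 : ((∑ e0 ∈ Y, ∑ e ∈ X.piece j m0 e0, hit X.P X.k e : ℕ) : ℝ) ≤ m0 * (10 * X.n ^ 2) := by
    unfold Cfg.n
    exact_mod_cast (sum_le_sum_of_subset (filter_subset _ _)).trans (pc_hit X j m0)
  have hd := X.d_pos
  have hn := X.dey_n_pos
  have h3 := mul_le_mul_of_nonneg_right hm (by positivity : 0 ≤ 10 * X.n ^ 2)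
  have e : X.d / (16000 * K * 2 ^ j) * (10 * X.n ^ 2) =
      X.n * X.d / (16 * K) * (X.n / 2 ^ j) / 100 := by
    field_simp
    ring
  have h4 : 0 ≤ X.n * X.d / (16 * K) * (X.n / 2 ^ j) := by positivity
  refine le_of_mul_le_mul_right ?_ (by positivity : 0 < X.n / 2 ^ j)
  linarith

theorem pc_late' (X : Cfg) (j m0 : ℕ) {K : ℝ} (hK : 0 < K) (hj : (2 : ℝ) ^ j ≤ X.d)
    (hm : (m0 : ℝ) ≤ X.d / (16000 * K * 2 ^ j)) :
    ((X.F.filter fun e0 => (X.piece j m0 e0).card < m0).card : ℝ) ≤ X.n * X.d / (16 * K) := by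
  have h1 := (Nat.cast_le (α := ℝ)).2 (pc_late X j m0)
  rw [Nat.cast_mul, Nat.cast_sum] at h1
  have hd := X.d_pos
  refine (h1.trans (mul_le_mul hm (X.act_sum j hj) (by positivity) (by positivity))).trans_eq ?_
  field_simp
  ring

theorem Cfg.pieces : ∃ c : ℕ, ∀ (X : Cfg) (K K1 : ℝ) (j : ℕ) (G : Finset Ed) (Z : ℕ → Finset Pt),
    X.Big K → 2 ≤ K1 → K ≤ K1 → X.d * K1 ^ c ≤ 4 ^ j → 2 ^ j * K1 ^ c ≤ X.d → G ⊆ X.F →
    ((X.F \ G).card : ℝ) ≤ X.n * X.d / (16 * K) → (X.miss j Z : ℝ) ≤ X.n * X.d / (16 * K) →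
    (∀ u, ∀ p ∈ Z u, X.Tame K1 j u p) →
    ∃ (m0 : ℕ) (Pi : Finset Ed), Pi ⊆ X.F ∧ X.n * X.d / K1 ^ c ≤ Pi.card ∧ ∀ e0 ∈ Pi,
      e0.1 ∈ Z (X.wi j (sl e0)) ∧
      ((∑ e ∈ X.piece j m0 e0, hit X.P X.k e : ℕ) : ℝ) ≤ K1 ^ c * X.n / 2 ^ j ∧
      X.n / (K1 ^ c * 2 ^ j) ≤ (X.ovr j m0 G e0).card := by
  obtain ⟨c0, hc0⟩ := Cfg.small
  refine ⟨50 + 5 * c0, fun X K K1 j G Z hB hK1 hK h1 h2 hG hFG hmiss hZ => ?_⟩
  have hQ := pc_num3 hB.1 hK c0
  have hK2 := hB.1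
  have K0 : 0 < K := by linarith
  have hd := X.d_pos
  have hd1 := X.one_le_d
  have hn := X.dey_n_pos
  rw [(Cfg.dey_pow j).1] at h1
  have hsz : X.sz j = X.n / (2 ^ j) ^ 3 := by rw [Cfg.sz, (Cfg.dey_pow j).2.1]
  have hR1 : 1 ≤ (16 * K) ^ c0 := one_le_pow₀ (by linarith)
  have hsm := hc0 X (16 * K) 0 fun _ => X.P.filter fun p =>
    24 * (16 * K) ^ c0 * X.d < (X.F.filter fun f => f.2 = p).card
  have hY := pc_heavy X (zero_lt_one.trans_le hR1)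
  generalize K1 ^ (50 + 5 * c0) = Q at *
  generalize (16 * K) ^ c0 = R at *
  have s1 : (1 : ℝ) ≤ 2 ^ j := one_le_pow₀ one_le_two
  have k1 : 1 ≤ K1 := by linarith
  have p7 : K ^ 3 * K1 ^ 4 ≤ K1 ^ 7 := by
    calc K ^ 3 * K1 ^ 4 ≤ K1 ^ 3 * K1 ^ 4 := by gcongr
      _ = _ := by ring
  have p6 : K ^ 4 * K1 ^ 2 ≤ K1 ^ 7 := by
    calc K ^ 4 * K1 ^ 2 ≤ K1 ^ 4 * K1 ^ 3 := by gcongr; norm_num
      _ = _ := by ring
  have p4 : K ^ 4 ≤ K1 ^ 7 := (le_mul_of_one_le_right (by positivity) (one_le_pow₀ k1)).trans p6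
  have p1 : K ≤ K1 ^ 7 := hK.trans (le_self_pow₀ k1 (by norm_num))
  have q1 : K1 ^ 7 ≤ K1 ^ 7 * R := le_mul_of_one_le_right (by positivity) hR1
  have q2 : R ≤ K1 ^ 7 * R := le_mul_of_one_le_left (by positivity) (one_le_pow₀ k1)
  have q3 : K ^ 4 * K1 ^ 2 * R ≤ K1 ^ 7 * R := mul_le_mul_of_nonneg_right p6 (by positivity)
  have Q1 : 1 ≤ Q := by linarith
  have Qd : Q ≤ X.d := (le_mul_of_one_le_left (by linarith) s1).trans h2
  have Qs : Q ≤ (2 ^ j) ^ 2 := (le_mul_of_one_le_left (by linarith) hd1).trans h1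
  have sd : (2 : ℝ) ^ j ≤ X.d := (le_mul_of_one_le_right (by linarith) Q1).trans h2
  have hx : 1 ≤ X.d / (16000 * K * 2 ^ j) := by
    rw [one_le_div (by positivity), mul_comm]
    exact (mul_le_mul_of_nonneg_left (by linarith) (by linarith)).trans h2
  obtain ⟨m0, hm0, hm1, hm2⟩ : ∃ m0 : ℕ, 0 < m0 ∧ (m0 : ℝ) ≤ X.d / (16000 * K * 2 ^ j) ∧
      X.d / (32000 * K * 2 ^ j) ≤ m0 := by
    refine ⟨⌊X.d / (16000 * K * 2 ^ j)⌋₊, Nat.floor_pos.2 hx, Nat.floor_le (by linarith), ?_⟩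
    have a1 := Nat.lt_floor_add_one (X.d / (16000 * K * 2 ^ j))
    have a2 : (1 : ℝ) ≤ ⌊X.d / (16000 * K * 2 ^ j)⌋₊ := by exact_mod_cast Nat.floor_pos.2 hx
    have e : X.d / (32000 * K * 2 ^ j) = X.d / (16000 * K * 2 ^ j) / 2 := by
      field_simp
      ring
    linarith
  have a3 := hsm (by linarith) (by rw [pow_zero, one_mul]; linarith)
    (by simpa using hY)
  have a4 := pc_hitbad X j m0 K0 hm1
  have a5 := pc_late' X j m0 K0 sd hm1
  obtain ⟨S, hS⟩ : ∃ S, S = X.F.filter fun e0 => e0.1 ∈ Z (X.wi j (sl e0)) ∧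
    ((∑ e ∈ X.piece j m0 e0, hit X.P X.k e : ℕ) : ℝ) ≤ X.n / 2 ^ j ∧
      m0 ≤ (X.piece j m0 e0).card := ⟨_, rfl⟩
  have hSF : S ⊆ X.F := hS ▸ filter_subset _ _
  have hSm : ∀ e0 ∈ S, e0.1 ∈ Z (X.wi j (sl e0)) ∧
      ((∑ e ∈ X.piece j m0 e0, hit X.P X.k e : ℕ) : ℝ) ≤ X.n / 2 ^ j ∧
      m0 ≤ (X.piece j m0 e0).card := fun e0 h => by
    rw [hS] at h
    exact (mem_filter.1 h).2
  have b1 := pc_card4 X.F S (X.F.filter fun e => e.1 ∉ Z (X.wi j (sl e)))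
    (X.F.filter fun e0 => X.n / 2 ^ j < (∑ e ∈ X.piece j m0 e0, hit X.P X.k e : ℕ))
    (X.F.filter fun e0 => (X.piece j m0 e0).card < m0) fun e he => by
      by_contra hc
      simp only [not_or, mem_filter, he, true_and, not_not, not_lt] at hc
      exact hc.1 (hS ▸ mem_filter.2 ⟨he, hc.2⟩)
  have b2 := (Nat.cast_le (α := ℝ)).2 (pc_weight X j hm0 hSF fun e0 h => (hSm e0 h).2.2)
  push_cast at b2
  obtain ⟨G', hG'⟩ : ∃ G', G' = G.filter fun e => e.1 ∈ Z (X.wi j (sl e)) ∧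
    ((X.F.filter fun f => f.2 = e.2).card : ℝ) ≤ 24 * R * X.d ∧
      m0 ≤ 2 * (S.filter fun e0 => e ∈ X.piece j m0 e0).card := ⟨_, rfl⟩
  have hGG : G' ⊆ G := hG' ▸ filter_subset _ _
  have hGm : ∀ e ∈ G', e.1 ∈ Z (X.wi j (sl e)) ∧
      ((X.F.filter fun f => f.2 = e.2).card : ℝ) ≤ 24 * R * X.d ∧
      m0 ≤ 2 * (S.filter fun e0 => e ∈ X.piece j m0 e0).card := fun e h => by
    rw [hG'] at h
    exact (mem_filter.1 h).2
  have b3 := pc_card4 G G' (X.F.filter fun e => e.1 ∉ Z (X.wi j (sl e)))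
    (X.F.filter fun e => (e.1 ∈ X.P.filter fun p =>
      24 * R * X.d < (X.F.filter fun f => f.2 = p).card) ∨ e.2 ∈ X.P.filter fun p =>
      24 * R * X.d < (X.F.filter fun f => f.2 = p).card)
    (X.F.filter fun e => 2 * (S.filter fun e0 => e ∈ X.piece j m0 e0).card < m0) fun e he => by
      by_contra hc
      simp only [not_or, mem_filter, hG he, true_and, not_not, not_lt,
        (mem_prs.1 (X.F_sub (hG he))).2.1] at hc
      exact hc.1 (hG' ▸ mem_filter.2 ⟨he, hc.2.1, hc.2.2.1.2, hc.2.2.2⟩)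
  have b4 : (X.F.card : ℝ) = (X.F \ G).card + G.card := by
    exact_mod_cast (card_sdiff_add_card_eq_card hG).symm
  have b5 : X.n * X.d / (4 * K) ≤ G'.card := by
    have e1 : X.n * X.d / (4 * K) = 4 * (X.n * X.d / (16 * K)) := by
      field_simp
      ring
    have e2 : X.n * X.d / K = 16 * (X.n * X.d / (16 * K)) := by field_simp
    have e3 := hB.2.1
    have e4 : 0 ≤ X.n * X.d / (16 * K) := by positivity
    unfold Cfg.miss at hmiss
    linarith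
  have b6 : 16 * X.n ≤ G'.card := by
    refine le_trans ?_ b5
    rw [le_div_iff₀ (by positivity), mul_comm 16, mul_assoc]
    exact mul_le_mul_of_nonneg_left (by linarith) hn.le
  have c1 := pc_num1 hd X.n_eq K0 (by positivity) (by linarith) b5
    (pc_cross X j (by linarith) (hGG.trans hG) (fun e he => hZ _ _ (hGm e he).1) b6)
  have c2 := (Nat.cast_le (α := ℝ)).2 (pc_triple X j m0 (hGG.trans hG) S fun e he => (hGm e he).2.2)
  rw [Nat.cast_mul, Nat.cast_mul, Nat.cast_sum S, Nat.cast_ofNat] at c2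
  have c3 : ∑ e0 ∈ S, ((pcN X j m0 G' e0).card : ℝ) ≤
      ∑ e0 ∈ S, (((X.ovr j m0 G e0).card : ℝ) + K1 ^ 2 * X.sz j * (24 * R * X.d)) :=
    sum_le_sum fun e0 h => pc_ovr X j m0 hGG hG (by linarith) (by positivity) (hZ _ _ (hSm e0 h).1)
      fun f hf => (hGm f hf).2.1
  rw [sum_add_distrib, sum_const, nsmul_eq_mul, hsz, ← sum_filter_add_sum_filter_not S
    (fun e0 => X.n / (Q * 2 ^ j) ≤ (X.ovr j m0 G e0).card)
    fun e0 => ((X.ovr j m0 G e0).card : ℝ)] at c3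
  have c4 := sum_le_card_nsmul (S.filter fun e0 => X.n / (Q * 2 ^ j) ≤ (X.ovr j m0 G e0).card)
    (fun e0 => ((X.ovr j m0 G e0).card : ℝ)) (X.n / 2 ^ j) fun e0 h =>
      (Nat.cast_le.2 (X.ovr_card j m0 hG e0)).trans (hSm e0 (mem_filter.1 h).1).2.1
  have c5 := sum_le_card_nsmul (S.filter fun e0 => ¬ X.n / (Q * 2 ^ j) ≤ (X.ovr j m0 G e0).card)
    (fun e0 => ((X.ovr j m0 G e0).card : ℝ)) (X.n / (Q * 2 ^ j)) fun e0 h =>
      (not_le.1 (mem_filter.1 h).2).le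
  rw [nsmul_eq_mul] at c4 c5
  have c6 : (S.card : ℝ) ≤ 24 * X.n * X.d := (Nat.cast_le.2 (card_le_card hSF)).trans X.F_card
  have c7 := mul_le_mul_of_nonneg_right ((Nat.cast_le.2 (card_filter_le S fun e0 =>
    ¬ X.n / (Q * 2 ^ j) ≤ (X.ovr j m0 G e0).card)).trans c6) (by positivity : 0 ≤ X.n / (Q * 2 ^ j))
  have c8 := mul_le_mul_of_nonneg_right c6
    (by positivity : 0 ≤ K1 ^ 2 * (X.n / (2 ^ j) ^ 3) * (24 * R * X.d))
  refine ⟨m0, S.filter fun e0 => X.n / (Q * 2 ^ j) ≤ (X.ovr j m0 G e0).card,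
    (filter_subset _ _).trans hSF, ?_, fun e0 h => ?_⟩
  · refine pc_num2 (K1 := K1) (R := R) hd hn K0 (by positivity) (by linarith) ?_ (by linarith) c1 hm2
      (by linarith) (by linarith)
    refine le_trans ?_ h1
    rw [mul_comm X.d]
    exact mul_le_mul_of_nonneg_right (by linarith) hd.le
  · obtain ⟨g1, g2⟩ := mem_filter.1 h
    refine ⟨(hSm e0 g1).1, (hSm e0 g1).2.1.trans ?_, g2⟩
    exact div_le_div_of_nonneg_right (le_mul_of_one_le_left hn.le Q1) (by positivity)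

end Vale.Agent.P065.U
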