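import Vale.Agent.P065.U.Rich

/-! P065/U task Pieces, part A: counting lemmas for sliding pieces. -/

namespace Vale.Agent.P065.U

open Finset Classical

theorem pc_inj (X : Cfg) {A : Finset Ed} (hA : A ⊆ X.F) (r : Ed → ℕ) (I : Finset ℕ)
    (h : ∀ a ∈ A, ∀ b ∈ A, sl a < sl b → r a ≠ r b) (hr : ∀ a ∈ A, r a ∈ I) :
    A.card ≤ I.card := by
  refine card_le_card_of_injOn r hr fun a ha b hb e => ?_
  rcases lt_trichotomy (sl a) (sl b) with c | c | c
  · exact absurd e (h a ha b hb c)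
  · exact sl_inj X.gen (hA ha) (hA hb) c
  · exact absurd e.symm (h b hb a ha c)

theorem pc_mem (X : Cfg) {j m0 : ℕ} {e0 e : Ed} (h : e ∈ X.piece j m0 e0) :
    e ∈ X.F ∧ X.T.ch X.k e = X.T.ch X.k e0 ∧ sl e0 ≤ sl e ∧ X.wi j (sl e) = X.wi j (sl e0) ∧
      ((X.T.chain X.k (X.T.ch X.k e0)).filter fun e' => sl e0 ≤ sl e' ∧ sl e' < sl e).card < m0 := by
  obtain ⟨h1, h2⟩ := mem_filter.1 h
  exact ⟨(mem_filter.1 h1).1, (mem_filter.1 h1).2, h2⟩

/-- an edge lies in at most `m0` pieces -/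
theorem pc_cover (X : Cfg) (j m0 : ℕ) {S : Finset Ed} (hS : S ⊆ X.F) (e : Ed) :
    (S.filter fun e0 => e ∈ X.piece j m0 e0).card ≤ m0 := by
  refine (pc_inj X ((filter_subset _ _).trans hS) (fun e0 =>
    ((X.T.chain X.k (X.T.ch X.k e)).filter fun e' => sl e0 ≤ sl e' ∧ sl e' < sl e).card)
    (range m0) (fun a ha b hb c => ?_) fun a ha => ?_).trans (card_range m0).le
  · obtain ⟨-, a2, -, -, -⟩ := pc_mem X (mem_filter.1 ha).2
    obtain ⟨-, -, b3, -, -⟩ := pc_mem X (mem_filter.1 hb).2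
    refine (card_lt_card ⟨fun x hx => ?_, fun hx => ?_⟩).ne'
    · obtain ⟨x1, x2, x3⟩ := mem_filter.1 hx
      exact mem_filter.2 ⟨x1, c.le.trans x2, x3⟩
    · have h1 := hx (mem_filter.2 ⟨mem_filter.2 ⟨hS (mem_filter.1 ha).1, a2.symm⟩, le_rfl,
        c.trans_le b3⟩)
      exact absurd (mem_filter.1 h1).2.1 (not_le.2 c)
  · obtain ⟨-, a2, -, -, a5⟩ := pc_mem X (mem_filter.1 ha).2
    rw [mem_range, a2]
    exact a5

/-- the rest of the chain in the window -/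
noncomputable def pcA (X : Cfg) (j : ℕ) (e0 : Ed) : Finset Ed :=
  (X.T.chain X.k (X.T.ch X.k e0)).filter fun e => sl e0 ≤ sl e ∧ X.wi j (sl e) = X.wi j (sl e0)

theorem pc_full (X : Cfg) (j m0 : ℕ) (e0 : Ed) (h : m0 ≤ (pcA X j e0).card) :
    m0 ≤ (X.piece j m0 e0).card := by
  set r : Ed → ℕ := fun e =>
    ((X.T.chain X.k (X.T.ch X.k e0)).filter fun e' => sl e0 ≤ sl e' ∧ sl e' < sl e).card with hr
  have h1 : (pcA X j e0).filter (fun e => r e < m0) = X.piece j m0 e0 := by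
    rw [pcA, filter_filter]
    exact filter_congr fun e _ => and_assoc
  have h2 : ((pcA X j e0).filter fun e => ¬ r e < m0).card ≤ (Ico m0 (pcA X j e0).card).card := by
    refine pc_inj X ((filter_subset _ _).trans ((filter_subset _ _).trans (filter_subset _ _))) r _
      (fun a ha b hb c => ?_) fun a ha => ?_
    · obtain ⟨a1, a2, -⟩ := mem_filter.1 (mem_filter.1 ha).1
      refine (card_lt_card ⟨fun x hx => ?_, fun hx => ?_⟩).ne
      · obtain ⟨x1, x2, x3⟩ := mem_filter.1 hx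
        exact mem_filter.2 ⟨x1, x2, x3.trans c⟩
      · exact lt_irrefl _ (mem_filter.1 (hx (mem_filter.2 ⟨a1, a2, c⟩))).2.2
    · obtain ⟨a0, a4⟩ := mem_filter.1 ha
      obtain ⟨a1, a2, a3⟩ := mem_filter.1 a0
      refine mem_Ico.2 ⟨not_lt.1 a4, card_lt_card ⟨fun x hx => ?_, fun hx => ?_⟩⟩
      · obtain ⟨x1, x2, x3⟩ := mem_filter.1 hx
        exact mem_filter.2 ⟨x1, x2, le_antisymm (a3 ▸ X.wi_mono j x3.le) (X.wi_mono j x2)⟩
      · exact lt_irrefl _ (mem_filter.1 (hx a0)).2.2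
  have h3 := card_filter_add_card_filter_not (s := pcA X j e0) fun e => r e < m0
  rw [Nat.card_Ico] at h2
  rw [h1] at h3
  omega

/-- few pieces are short -/
theorem pc_late (X : Cfg) (j m0 : ℕ) :
    (X.F.filter fun e0 => (X.piece j m0 e0).card < m0).card ≤
      m0 * ∑ u ∈ range (16 ^ j), (X.act j u).card := by
  rw [← X.sum_win _ j, mul_sum]
  refine sum_le_sum fun u hu => ?_
  have h1 : ((X.win X.F j u).image (X.T.ch X.k)).card ≤ (X.act j u).card := by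
    rw [Cfg.act, X.win_eq X.F_sub (mem_range.1 hu)]
    exact X.T.chains_le X.gen _ _ _
  refine le_trans (card_le_mul_card_image_of_maps_to (f := X.T.ch X.k)
    (t := (X.win X.F j u).image (X.T.ch X.k)) (fun a ha => ?_) m0 fun c _ => ?_)
    (Nat.mul_le_mul_left _ h1)
  · exact mem_image_of_mem _ (filter_subset_filter _ (filter_subset _ _) ha)
  refine (pc_inj X ((filter_subset _ _).trans ((filter_subset _ _).trans (filter_subset _ _)))
    (fun e0 => (pcA X j e0).card) (range m0) (fun a ha b hb h => ?_) fun a ha => ?_).trans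
    (card_range m0).le
  · obtain ⟨a1, a2⟩ := mem_filter.1 ha
    obtain ⟨a3, a4⟩ := mem_filter.1 a1
    obtain ⟨b1, b2⟩ := mem_filter.1 hb
    obtain ⟨-, b4⟩ := mem_filter.1 b1
    refine (card_lt_card ⟨fun x hx => ?_, fun hx => ?_⟩).ne'
    · obtain ⟨x1, x2, x3⟩ := mem_filter.1 hx
      refine mem_filter.2 ⟨?_, h.le.trans x2, x3.trans (b4.trans a4.symm)⟩
      rw [a2, ← b2]
      exact x1
    · have h2 := hx (mem_filter.2 ⟨mem_filter.2 ⟨(mem_filter.1 a3).1, rfl⟩, le_rfl, rfl⟩)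
      exact absurd (mem_filter.1 h2).2.1 (not_le.2 h)
  · have a3 := (mem_filter.1 (mem_filter.1 (mem_filter.1 ha).1).1).2
    exact mem_range.2 (not_le.1 fun h => absurd (pc_full X j m0 a h) (not_le.2 a3))

theorem pc_swap (X : Cfg) (j m0 : ℕ) (S : Finset Ed) (g : Ed → ℕ) :
    ∑ e0 ∈ S, ∑ e ∈ X.piece j m0 e0, g e =
      ∑ e ∈ X.F, (S.filter fun e0 => e ∈ X.piece j m0 e0).card * g e := by
  rw [sum_comm' (t' := X.F) (s' := fun e => S.filter fun e0 => e ∈ X.piece j m0 e0)]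
  · exact sum_congr rfl fun e _ => by rw [sum_const, smul_eq_mul]
  · intro e0 e
    rw [mem_filter]
    exact ⟨fun h => ⟨h, (pc_mem X h.2).1⟩, fun h => h.1⟩

theorem pc_hit (X : Cfg) (j m0 : ℕ) :
    ∑ e0 ∈ X.F, ∑ e ∈ X.piece j m0 e0, hit X.P X.k e ≤ m0 * (10 * X.P.card ^ 2) := by
  have h := hit_sum X.gen X.T X.k {X.k}
  rw [← edges_eq, card_singleton, mul_one] at h
  rw [pc_swap]
  refine (sum_le_sum fun e _ => Nat.mul_le_mul_right _ (pc_cover X j m0 Subset.rfl e)).trans ?_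
  rw [← mul_sum]
  exact Nat.mul_le_mul_left _ h

/-- most edges lie in many pieces with start in `S` -/
theorem pc_weight (X : Cfg) (j : ℕ) {m0 : ℕ} (hm : 0 < m0) {S : Finset Ed} (hS : S ⊆ X.F)
    (h : ∀ e0 ∈ S, m0 ≤ (X.piece j m0 e0).card) :
    (X.F.filter fun e => 2 * (S.filter fun e0 => e ∈ X.piece j m0 e0).card < m0).card +
      2 * S.card ≤ 2 * X.F.card := by
  have h1 := pc_swap X j m0 S fun _ => 1
  simp only [sum_const, smul_eq_mul, mul_one] at h1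
  have h2 := card_nsmul_le_sum S _ m0 h
  have h3 : ∑ e ∈ X.F, (2 * (S.filter fun e0 => e ∈ X.piece j m0 e0).card +
      if 2 * (S.filter fun e0 => e ∈ X.piece j m0 e0).card < m0 then m0 else 0) ≤
      X.F.card • (2 * m0) := by
    refine sum_le_card_nsmul _ _ _ fun e _ => ?_
    have := pc_cover X j m0 hS e
    split_ifs <;> omega
  rw [sum_add_distrib, ← mul_sum, ← sum_filter, sum_const, ← h1] at h3
  simp only [smul_eq_mul] at h2 h3
  refine Nat.le_of_mul_le_mul_right ?_ hm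
  nlinarith

/-- edges of later windows crossing the piece -/
noncomputable def pcN (X : Cfg) (j m0 : ℕ) (G : Finset Ed) (e0 : Ed) : Finset Ed :=
  G.filter fun f => (∃ e ∈ X.piece j m0 e0, XC e f) ∧ X.wi j (sl e0) < X.wi j (sl f)

theorem pc_once (X : Cfg) (j m0 : ℕ) {G : Finset Ed} (hG : G ⊆ X.F) (e0 : Ed) :
    ∑ e ∈ X.piece j m0 e0, (G.filter fun f => XC e f ∧ X.wi j (sl e) < X.wi j (sl f)).card ≤
      (pcN X j m0 G e0).card := by
  rw [← card_biUnion]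
  · refine card_le_card fun f hf => ?_
    obtain ⟨e, he, hf⟩ := mem_biUnion.1 hf
    obtain ⟨h1, h2, h3⟩ := mem_filter.1 hf
    exact mem_filter.2 ⟨h1, ⟨e, he, h2⟩, (pc_mem X he).2.2.2.1 ▸ h3⟩
  · intro a ha b hb hab
    refine disjoint_left.2 fun f h1 h2 => hab ?_
    obtain ⟨f1, f2, -⟩ := mem_filter.1 h1
    obtain ⟨-, f3, -⟩ := mem_filter.1 h2
    have f4 : f ∈ X.T.chain X.k (X.T.ch X.k f) := mem_filter.2 ⟨hG f1, rfl⟩
    exact (X.T.sep_unique X.gen (mem_filter.1 ha).1 (mem_filter.1 hb).1 f4 f4 f2.1 f3.1 le_rfl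
      le_rfl f2.wx f3.wx).1

theorem pc_triple (X : Cfg) (j m0 : ℕ) {G : Finset Ed} (hG : G ⊆ X.F) (S : Finset Ed)
    (h : ∀ e ∈ G, m0 ≤ 2 * (S.filter fun e0 => e ∈ X.piece j m0 e0).card) :
    m0 * ∑ e ∈ G, (G.filter fun f => XC e f ∧ X.wi j (sl e) < X.wi j (sl f)).card ≤
      2 * ∑ e0 ∈ S, (pcN X j m0 G e0).card := by
  refine le_trans ?_ (Nat.mul_le_mul_left 2 (sum_le_sum fun e0 _ => pc_once X j m0 hG e0))
  rw [pc_swap]
  refine le_trans ?_ (Nat.mul_le_mul_left 2 (sum_le_sum_of_subset hG))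
  rw [mul_sum, mul_sum]
  refine sum_le_sum fun e he => ?_
  rw [← mul_assoc]
  exact Nat.mul_le_mul_right _ (h e he)

theorem pc_ovr (X : Cfg) (j m0 : ℕ) {G G' : Finset Ed} (hG : G' ⊆ G) (hG' : G ⊆ X.F) {e0 : Ed}
    {K B : ℝ} (hK : 0 ≤ K) (hB0 : 0 ≤ B) (ht : X.Tame K j (X.wi j (sl e0)) e0.1)
    (hB : ∀ f ∈ G', ((X.F.filter fun f' => f'.2 = f.2).card : ℝ) ≤ B) :
    ((pcN X j m0 G' e0).card : ℝ) ≤ (X.ovr j m0 G e0).card + K ^ 2 * X.sz j * B := by
  have hr := ht.reg j le_rfl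
  rw [Nat.sub_self, pow_zero, Nat.div_one] at hr
  set u := X.wi j (sl e0) with hu
  have hJ : 0 ≤ K * X.sz j := mul_nonneg hK (div_nonneg (Nat.cast_nonneg _) (by positivity))
  have h1 : pcN X j m0 G' e0 ⊆ X.ovr j m0 G e0 ∪ G'.filter fun f => f.2 ∈ X.Uw j u (K * X.sz j) := by
    intro f hf
    obtain ⟨f1, ⟨e, he, f2⟩, f3⟩ := mem_filter.1 hf
    by_cases c : fv (X.al j (u + 1)) e0.1 < fv (X.al j (u + 1)) f.2
    · exact mem_union_left _ (mem_filter.2 ⟨hG f1, ⟨e, he, f2⟩, f3, c⟩)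
    refine mem_union_right _ (mem_filter.2 ⟨f1, mem_filter.2
      ⟨(mem_prs.1 (X.F_sub (hG' (hG f1)))).2.1, ⟨_, X.al_mono j u.le_succ, le_rfl, ?_⟩, ?_⟩⟩)
    · have a1 := (abs_le.1 (hr.stay _ (X.al_mono j u.le_succ) le_rfl)).2
      have a2 := (Nat.cast_le (α := ℝ)).2 (rk_mono X.P _ (not_lt.1 c))
      linarith
    · obtain ⟨e1, -, -, e4, -⟩ := pc_mem X he
      have a1 := X.wi_spec j (X.F_sub e1)
      rw [e4] at a1
      refine ⟨sl e, a1.1.le, a1.2.le, ?_⟩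
      have a2 : rk X.P (sl e) e.1 = X.k := (mem_filter.1 e1).2
      have a3 := (Nat.cast_le (α := ℝ)).2 (rk_mono X.P _ f2.2.2.1.le)
      rw [a2] at a3
      linarith
  have h2 : ((G'.filter fun f => f.2 ∈ X.Uw j u (K * X.sz j)).card : ℝ) ≤
      (X.Uw j u (K * X.sz j)).card * B := by
    rw [← sum_card_fiberwise_eq_card_filter, Nat.cast_sum, ← nsmul_eq_mul]
    refine sum_le_card_nsmul _ _ _ fun p _ => ?_
    rcases (G'.filter fun f => f.2 = p).eq_empty_or_nonempty with h | ⟨f, h⟩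
    · rw [h, card_empty, Nat.cast_zero]
      exact hB0
    · obtain ⟨f1, rfl⟩ := mem_filter.1 h
      exact (Nat.cast_le.2 (card_le_card (filter_subset_filter _ (hG.trans hG')))).trans (hB f f1)
  have h3 := (Nat.cast_le (α := ℝ)).2 ((card_le_card h1).trans (card_union_le _ _))
  rw [Nat.cast_add] at h3
  have h4 := mul_le_mul_of_nonneg_right hr.nice hB0
  linarith

/-- crossings between different windows -/
theorem pc_cross (X : Cfg) (j : ℕ) {K : ℝ} (hK : 0 ≤ K) {B : Finset Ed} (hBF : B ⊆ X.F)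
    (ht : ∀ e ∈ B, X.Tame K j (X.wi j (sl e)) e.1) (h16 : 16 * X.n ≤ B.card) :
    (B.card : ℝ) ^ 3 ≤ 512 * X.n * X.n * (K ^ 4 * X.n ^ 2 / (2 ^ j) ^ 2 +
      (∑ e ∈ B, (B.filter fun f => XC e f ∧ X.wi j (sl e) < X.wi j (sl f)).card : ℕ)) := by
  have h16' : 16 * X.P.card ≤ B.card := by
    unfold Cfg.n at h16
    exact_mod_cast h16
  have hc := crossing X.P X.gen B (hBF.trans X.F_sub) X.P X.P
    (fun e he => (mem_prs.1 (X.F_sub (hBF he))).1) (fun e he => (mem_prs.1 (X.F_sub (hBF he))).2.1)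
    h16' h16'
  have hc' : (B.card : ℝ) ^ 3 ≤ 512 * X.n * X.n * cr B B := by
    unfold Cfg.n
    exact_mod_cast hc
  have s1 : ∀ u ∈ range (16 ^ j), (cr (X.win B j u) (X.win B j u) : ℝ) ≤ (K ^ 2 * X.sz j) ^ 2 := by
    intro u _
    rcases (X.win B j u).eq_empty_or_nonempty with he | ⟨e, he⟩
    · rw [he]
      simp only [cr, empty_product, filter_empty, card_empty, Nat.cast_zero]
      positivity
    · obtain ⟨he1, he2⟩ := mem_filter.1 he
      have t := ht e he1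
      rw [he2] at t
      have t1 := t.act_card hK le_rfl
      rw [Nat.sub_self, pow_zero, Nat.div_one] at t1
      have t2 : cr (X.win B j u) (X.win B j u) ≤ (X.act j u).card ^ 2 :=
        (rich_cr_mono (filter_subset_filter _ hBF) (filter_subset_filter _ hBF)).trans
          (X.cr_win j u)
      have t3 : (cr (X.win B j u) (X.win B j u) : ℝ) ≤ ((X.act j u).card : ℝ) ^ 2 := by
        exact_mod_cast t2
      exact t3.trans (pow_le_pow_left₀ (Nat.cast_nonneg _) t1 2)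
  have s3 := sum_le_card_nsmul _ _ _ s1
  rw [nsmul_eq_mul] at s3
  have s5 := (Nat.cast_le (α := ℝ)).2 (rich_cr_split X j B)
  rw [Nat.cast_add, Nat.cast_sum] at s5
  have s6 : ((range (16 ^ j)).card : ℝ) * (K ^ 2 * X.sz j) ^ 2 =
      K ^ 4 * X.n ^ 2 / (2 ^ j) ^ 2 := by
    rw [card_range, Cfg.sz]
    push_cast
    rw [(Cfg.dey_pow j).2.1, (Cfg.dey_pow j).2.2]
    field_simp
  have hn := X.dey_n_pos
  refine hc'.trans (mul_le_mul_of_nonneg_left ?_ (by positivity))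
  linarith

end Vale.Agent.P065.U
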