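import Vale.Agent.P065.U.Defs

/-!
P065/U task Planar: a crossing-free straight-line graph has at most `4 n` edges.

Proof (wedges). Let V = Y1 ∪ Y2. For p sort the edges with left end p by slope (distinct slopes by
`ncol`); all but the steepest have a successor, so |G| ≤ |Y1| + #wedges, a wedge being a pair
e = (p,q), e' = (p,q') of slope-consecutive edges. Let v be the point of `ends G` with smallest
abscissa > p.1 in the closed wedge (weakly above line e, weakly below line e'); v.1 ≤ min q.1 q'.1.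
By `ncol`, v = q, v = q', or v is strictly inside. In each of the three cases v determines the wedge:
two wedges with apexes p1.1 < p2.1 have p2 outside closed wedge 1, so p2 is strictly above line e1'
(then e2 crosses e1') or strictly below line e1 (then e2' crosses e1); equal apexes give equal
wedges. So #wedges ≤ 3 |Y1 ∪ Y2|. Any other proof of the bound is fine.
-/

namespace Vale.Agent.P065.U

open Finset Classical

theorem planar_on {e : Ed} (he : e.1.1 < e.2.1) : fv (sl e) e.2 = fv (sl e) e.1 := by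
  have : e.2.1 - e.1.1 ≠ 0 := sub_ne_zero.2 he.ne'
  simp only [fv, sl]
  field_simp
  ring

theorem planar_cross {e f : Ed} (he : e.1.1 < e.2.1) (hf : f.1.1 < f.2.1) {z s : ℝ}
    (h1 : e.1.1 ≤ z) (h2 : f.1.1 ≤ z) (h3 : z < s) (h4 : s ≤ e.2.1) (h5 : s ≤ f.2.1)
    (hz : fv (sl f) f.1 + sl f * z < fv (sl e) e.1 + sl e * z)
    (hs : fv (sl e) e.1 + sl e * s < fv (sl f) f.1 + sl f * s) : XC e f := by
  have e1 := planar_on he
  have e2 := planar_on hf
  unfold XC
  generalize sl e = a at *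
  generalize sl f = b at *
  simp only [fv] at *
  have ab : a < b := by
    by_contra h
    nlinarith [mul_nonneg (sub_nonneg.2 (not_lt.1 h)) (sub_pos.2 h3).le]
  have k := (sub_pos.2 ab).le
  refine ⟨ab, ?_, ?_, ?_, ?_⟩
  · nlinarith [mul_nonneg k (sub_nonneg.2 h2)]
  · nlinarith [mul_nonneg k (sub_nonneg.2 h5)]
  · nlinarith [mul_nonneg k (sub_nonneg.2 h1)]
  · nlinarith [mul_nonneg k (sub_nonneg.2 h4)]

/-- `e'` is the slope successor of `e` and `v` is the first point of `V` in the closed wedge. -/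
structure PlW (G : Finset Ed) (V : Finset Pt) (e e' : Ed) (v : Pt) : Prop where
  mem : e' ∈ G
  fst : e'.1 = e.1
  lt : sl e < sl e'
  nxt : ∀ f ∈ G, f.1 = e.1 → sl e < sl f → sl e' ≤ sl f
  vmem : v ∈ V
  right : e.1.1 < v.1
  above : fv (sl e) e.1 ≤ fv (sl e) v
  below : fv (sl e') v ≤ fv (sl e') e.1
  le1 : v.1 ≤ e.2.1
  le2 : v.1 ≤ e'.2.1
  first : ∀ w ∈ V, e.1.1 < w.1 → fv (sl e) e.1 ≤ fv (sl e) w → fv (sl e') w ≤ fv (sl e') e.1 →
    v.1 ≤ w.1

theorem planar_ex {G : Finset Ed} {V : Finset Pt} (hG : ∀ e ∈ G, e.1.1 < e.2.1)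
    (hV : ∀ e ∈ G, e.2 ∈ V) {e : Ed} (he : e ∈ G) (h : ∃ f ∈ G, f.1 = e.1 ∧ sl e < sl f) :
    ∃ e' v, PlW G V e e' v := by
  obtain ⟨f, hf⟩ := h
  obtain ⟨e', h1, h2⟩ := (G.filter fun f => f.1 = e.1 ∧ sl e < sl f).exists_min_image sl
    ⟨f, mem_filter.2 hf⟩
  obtain ⟨h3, h4, h5⟩ := mem_filter.1 h1
  have e1 := planar_on (hG e he)
  have e2 := planar_on (hG e' h3)
  have l1 := hG e he
  have l2 := hG e' h3
  rw [h4] at e2 l2
  have q1 : fv (sl e') e.2 ≤ fv (sl e') e.1 := by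
    simp only [fv] at e1 ⊢
    nlinarith [mul_pos (sub_pos.2 h5) (sub_pos.2 l1)]
  have q2 : fv (sl e) e.1 ≤ fv (sl e) e'.2 := by
    simp only [fv] at e2 ⊢
    nlinarith [mul_pos (sub_pos.2 h5) (sub_pos.2 l2)]
  obtain ⟨v, h6, h7⟩ := (V.filter fun w => e.1.1 < w.1 ∧ fv (sl e) e.1 ≤ fv (sl e) w ∧
    fv (sl e') w ≤ fv (sl e') e.1).exists_min_image Prod.fst
    ⟨e.2, mem_filter.2 ⟨hV e he, l1, e1.ge, q1⟩⟩
  obtain ⟨h8, h9, h10, h11⟩ := mem_filter.1 h6
  exact ⟨e', v, h3, h4, h5, fun f a b c => h2 f (mem_filter.2 ⟨a, b, c⟩), h8, h9, h10, h11,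
    h7 _ (mem_filter.2 ⟨hV e he, l1, e1.ge, q1⟩), h7 _ (mem_filter.2 ⟨hV e' h3, l2, q2, e2.le⟩),
    fun w a b c d => h7 w (mem_filter.2 ⟨a, b, c, d⟩)⟩

theorem PlW.strict {G : Finset Ed} {V : Finset Pt} {e e' : Ed} {v : Pt} (h : PlW G V e e' v)
    (h1 : fv (sl e) e.1 = fv (sl e) v) : fv (sl e') v < fv (sl e') e.1 := by
  simp only [fv] at h1 ⊢
  nlinarith [mul_pos (sub_pos.2 h.lt) (sub_pos.2 h.right)]

theorem planar_apex {G : Finset Ed} {V : Finset Pt} (hG : ∀ e ∈ G, e.1.1 < e.2.1)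
    (hV : ∀ e ∈ G, e.1 ∈ V) (hx : ∀ e ∈ G, ∀ e' ∈ G, ¬ XC e e') {e e' f f' : Ed} {v : Pt}
    (he : e ∈ G) (hf : f ∈ G) (h : PlW G V e e' v) (k : PlW G V f f' v)
    (ht : fv (sl e) e.1 = fv (sl e) v ↔ fv (sl f) f.1 = fv (sl f) v) : ¬ e.1.1 < f.1.1 := by
  intro hl
  have a1 := h.above
  have a2 := h.below
  have a3 := k.above
  have a4 := k.below
  by_cases c : fv (sl e) e.1 ≤ fv (sl e) f.1
  · have c' : fv (sl e') e.1 < fv (sl e') f.1 := by
      by_contra c'
      exact absurd (h.first _ (hV f hf) hl c (not_lt.1 c')) (not_le.2 k.right)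
    refine hx f hf e' h.mem (planar_cross (hG f hf) (hG e' h.mem) le_rfl (by rw [h.fst]; exact hl.le)
      k.right k.le1 h.le2 ?_ ?_)
    · rw [h.fst]
      simp only [fv] at c' ⊢
      linarith
    · rw [h.fst]
      rcases a3.eq_or_lt with a | a
      · have := h.strict (ht.2 a)
        simp only [fv] at this a ⊢
        linarith
      · simp only [fv] at a2 a ⊢
        linarith
  · refine hx e he f' k.mem (planar_cross (hG e he) (hG f' k.mem) hl.le (by rw [k.fst])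
      k.right h.le1 k.le2 ?_ ?_)
    · rw [k.fst]
      simp only [fv] at c ⊢
      linarith
    · rw [k.fst]
      rcases a1.eq_or_lt with a | a
      · have := k.strict (ht.1 a)
        simp only [fv] at this a ⊢
        linarith
      · simp only [fv] at a4 a ⊢
        linarith

theorem planar_slope {G : Finset Ed} {V : Finset Pt} {e e' f f' : Ed} {v : Pt}
    (hf : f ∈ G) (h : PlW G V e e' v) (k : PlW G V f f' v) (hp : f.1 = e.1)
    (ht : fv (sl e) e.1 = fv (sl e) v ↔ fv (sl f) f.1 = fv (sl f) v) : ¬ sl e < sl f := by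
  intro hl
  have a1 := mul_nonneg (sub_nonneg.2 (h.nxt f hf hp hl)) (sub_pos.2 h.right).le
  have a2 := h.below
  have a3 := k.above
  rw [hp] at a3 ht
  have a4 := h.strict (ht.2 (by simp only [fv] at a2 a3 ⊢; nlinarith))
  simp only [fv] at a3 a4
  nlinarith

theorem planar_eq {P : Finset Pt} (hP : Gen P) {e f : Ed} (he : e ∈ prs P) (hf : f ∈ prs P)
    (h1 : e.1 = f.1) (h2 : sl e = sl f) : e = f := by
  obtain ⟨a1, a2⟩ := mem_filter.1 he
  obtain ⟨b1, b2⟩ := mem_filter.1 hf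
  rw [mem_product] at a1 b1
  refine Prod.ext h1 ?_
  by_contra h3
  refine hP.ncol e.1 a1.1 e.2 a1.2 f.2 b1.2 (sl e) (fun h => by simp [h] at a2)
    (fun h => by rw [← h1, h] at b2; exact lt_irrefl _ b2) h3 (planar_on a2).symm ?_
  rw [h2, h1, planar_on b2]

theorem planar_le (P : Finset Pt) (hP : Gen P) (G : Finset Ed) (hG : G ⊆ prs P)
    (Y1 Y2 : Finset Pt) (h1 : ∀ e ∈ G, e.1 ∈ Y1) (h2 : ∀ e ∈ G, e.2 ∈ Y2)
    (hx : ∀ e ∈ G, ∀ e' ∈ G, ¬ XC e e') : G.card ≤ 4 * (Y1.card + Y2.card) := by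
  have hl : ∀ e ∈ G, e.1.1 < e.2.1 := fun e he => (mem_filter.1 (hG he)).2
  have hm : ∀ e ∈ G, e.1 ∈ P := fun e he => (mem_product.1 (mem_filter.1 (hG he)).1).1
  have e0 := card_filter_add_card_filter_not (s := G) fun e => ∃ f ∈ G, f.1 = e.1 ∧ sl e < sl f
  have e1 : (G.filter fun e => ¬ ∃ f ∈ G, f.1 = e.1 ∧ sl e < sl f).card ≤ Y1.card := by
    refine card_le_card_of_injOn Prod.fst (fun e he => h1 e (mem_filter.1 he).1) ?_
    intro e he f hf h
    obtain ⟨a1, a2⟩ := mem_filter.1 he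
    obtain ⟨b1, b2⟩ := mem_filter.1 hf
    exact planar_eq hP (hG a1) (hG b1) h (le_antisymm
      (not_lt.1 fun c => b2 ⟨e, a1, h, c⟩) (not_lt.1 fun c => a2 ⟨f, b1, h.symm, c⟩))
  have ex : ∀ e : Ed, ∃ e' v, e ∈ (G.filter fun e => ∃ f ∈ G, f.1 = e.1 ∧ sl e < sl f) →
      PlW G (Y1 ∪ Y2) e e' v := by
    intro e
    by_cases he : e ∈ (G.filter fun e => ∃ f ∈ G, f.1 = e.1 ∧ sl e < sl f)
    · obtain ⟨e', v, h⟩ := planar_ex (V := Y1 ∪ Y2) hl (fun e he => mem_union_right _ (h2 e he))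
        (mem_filter.1 he).1 (mem_filter.1 he).2
      exact ⟨e', v, fun _ => h⟩
    · exact ⟨e, e.1, fun h => absurd h he⟩
  choose s v hw using ex
  have e2 : (G.filter fun e => ∃ f ∈ G, f.1 = e.1 ∧ sl e < sl f).card ≤
      ((Y1 ∪ Y2) ×ˢ (univ : Finset Prop)).card := by
    refine card_le_card_of_injOn (fun e => (v e, fv (sl e) e.1 = fv (sl e) (v e)))
      (fun e he => mem_coe.2 (mem_product.2 ⟨(hw e he).vmem, mem_univ _⟩)) ?_
    intro e he f hf h
    obtain ⟨c1, c2⟩ := Prod.mk.inj h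
    have a := hw e he
    have b := hw f hf
    have c3 := c2.to_iff
    rw [← c1] at b c3
    have a1 := (mem_filter.1 he).1
    have b1 := (mem_filter.1 hf).1
    have hV : ∀ e ∈ G, e.1 ∈ Y1 ∪ Y2 := fun e he => mem_union_left _ (h1 e he)
    have hp : e.1 = f.1 := hP.xinj _ (hm e a1) _ (hm f b1) (le_antisymm
      (not_lt.1 (planar_apex hl hV hx b1 a1 b a c3.symm))
      (not_lt.1 (planar_apex hl hV hx a1 b1 a b c3)))
    exact planar_eq hP (hG a1) (hG b1) hp (le_antisymm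
      (not_lt.1 (planar_slope a1 b a hp c3.symm)) (not_lt.1 (planar_slope b1 a b hp.symm c3)))
  rw [card_product, card_univ, Fintype.card_prop] at e2
  have e3 := card_union_le Y1 Y2
  omega

end Vale.Agent.P065.U
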