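import Vale.Agent.P065.Defs
import Vale.Agent.P065.U.Exc

/-!
P065/U task Reduce: halving lines and k-sets are counted by level edges.

`exists_gen`: the shear (x,y) ↦ (x + s y, y) is a linear bijection preserving `cross`; for all but finitely
many s the images have distinct abscissae. It preserves collinearity, halving pairs and k-sets
(bijections of the counted sets). Three points with equal fv θ are collinear.
`halving_le`: order a halving pair by abscissa; cross p q r < 0 iff r is strictly below the line.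
`kset_le`: let a x + b y < c cut off S. Perturb (finitely many strict inequalities) so that b ≠ 0 and
θ = -a/b is generic. If b > 0, S = {p | rk θ p ≤ k-1}. If some edge of level k-1 has slope > θ take the one
e of least slope; by `exc` S = {points strictly below e} ∪ {e.1}. Otherwise S is the same set for a fixed
θ above all slopes. So there are ≤ |edges| + 1 such S. If b < 0 use the reflection.
-/

namespace Vale.Agent.P065.U

open Finset Classical

/-- Reflection in the `x`-axis. -/
noncomputable def refl (P : Finset Pt) : Finset Pt := P.image fun p => (p.1, -p.2)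

theorem Gen.refl {P : Finset Pt} (h : Gen P) : Gen (refl P) := by
  constructor
  · intro p hp q hq e
    obtain ⟨p, hp', rfl⟩ := mem_image.1 hp
    obtain ⟨q, hq', rfl⟩ := mem_image.1 hq
    rw [h.xinj p hp' q hq' e]
  · intro p hp q hq r hr θ n1 n2 n3 e1 e2
    obtain ⟨p, hp', rfl⟩ := mem_image.1 hp
    obtain ⟨q, hq', rfl⟩ := mem_image.1 hq
    obtain ⟨r, hr', rfl⟩ := mem_image.1 hr
    refine h.ncol p hp' q hq' r hr' (-θ) (fun c => n1 (by rw [c])) (fun c => n2 (by rw [c]))
      (fun c => n3 (by rw [c])) ?_ ?_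
    · unfold fv at e1 ⊢
      simp only at e1
      linarith
    · unfold fv at e2 ⊢
      simp only at e2
      linarith

theorem refl_card (P : Finset Pt) : (refl P).card = P.card := by
  refine card_image_of_injective _ fun p q e => ?_
  obtain ⟨a, b⟩ := Prod.mk.inj e
  exact Prod.ext a (neg_injective b)

/-- The shear. -/
def shr_red (s : ℝ) (p : Pt) : Pt := (p.1 + s * p.2, p.2)

theorem shr_neg_red (s : ℝ) (p : Pt) : shr_red (-s) (shr_red s p) = p := by
  unfold shr_red
  exact Prod.ext (by simp) rfl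

theorem shr_neg'_red (s : ℝ) (p : Pt) : shr_red s (shr_red (-s) p) = p := by
  unfold shr_red
  exact Prod.ext (by simp) rfl

theorem shr_inj_red (s : ℝ) : Function.Injective (shr_red s) :=
  Function.LeftInverse.injective (shr_neg_red s)

theorem cross_shr_red (s : ℝ) (p q r : Pt) :
    cross (shr_red s p) (shr_red s q) (shr_red s r) = cross p q r := by
  unfold cross shr_red
  ring

theorem ncard_shr_red (s : ℝ) (P : Finset Pt) (A B : Pt → Prop) (h : ∀ r, A (shr_red s r) ↔ B r) :
    {r | r ∈ P.image (shr_red s) ∧ A r}.ncard = {r | r ∈ P ∧ B r}.ncard := by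
  rw [← Set.ncard_image_of_injective {r | r ∈ P ∧ B r} (shr_inj_red s)]
  congr 1
  ext r
  constructor
  · rintro ⟨a, b⟩
    obtain ⟨r, hr, rfl⟩ := mem_image.1 a
    exact ⟨r, ⟨hr, (h r).1 b⟩, rfl⟩
  · rintro ⟨r, ⟨a, b⟩, rfl⟩
    exact ⟨mem_image_of_mem _ a, (h r).2 b⟩

theorem pair_shr_red (s : ℝ) (P : Finset Pt) (p q : Pt) :
    IsHalvingPair (P.image (shr_red s)) (shr_red s p) (shr_red s q) ↔ IsHalvingPair P p q := by
  unfold IsHalvingPair
  rw [ncard_shr_red s P _ (fun r => 0 < cross p q r) (fun r => by rw [cross_shr_red]),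
    ncard_shr_red s P _ (fun r => cross p q r < 0) (fun r => by rw [cross_shr_red]),
    card_image_of_injective _ (shr_inj_red s), (shr_inj_red s).mem_finset_image,
    (shr_inj_red s).mem_finset_image, (shr_inj_red s).ne_iff]

theorem halving_shr_red (s : ℝ) (P : Finset Pt) :
    halvingCount (P.image (shr_red s)) = halvingCount P := by
  unfold halvingCount
  rw [← Set.ncard_image_of_injective {e : Sym2 Pt | ∃ p q, e = s(p, q) ∧ IsHalvingPair P p q}
    (Sym2.map.injective (shr_inj_red s))]
  congr 1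
  ext e
  constructor
  · rintro ⟨p, q, rfl, h⟩
    rw [← shr_neg'_red s p, ← shr_neg'_red s q] at h ⊢
    exact ⟨_, ⟨_, _, rfl, (pair_shr_red s P _ _).1 h⟩, rfl⟩
  · rintro ⟨_, ⟨p, q, rfl, h⟩, rfl⟩
    exact ⟨_, _, rfl, (pair_shr_red s P _ _).2 h⟩

theorem isK_shr_red (s : ℝ) {P S : Finset Pt} {k : ℕ} (h : IsKSet P k S) :
    IsKSet (P.image (shr_red s)) k (S.image (shr_red s)) := by
  obtain ⟨h1, h2, a, b, c, h3, h4, h5⟩ := h
  refine ⟨image_subset_image h1, by rw [card_image_of_injective _ (shr_inj_red s), h2],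
    a, b - a * s, c, ?_, ?_, ?_⟩
  · by_cases ha : a = 0
    · right
      rw [ha, zero_mul, sub_zero]
      exact h3.resolve_left fun c => c ha
    · exact Or.inl ha
  · intro r hr
    obtain ⟨r, hr', rfl⟩ := mem_image.1 hr
    have := h4 r hr'
    unfold shr_red
    simp only
    linarith
  · intro r hr hn
    obtain ⟨r, hr', rfl⟩ := mem_image.1 hr
    have := h5 r hr' fun c => hn (mem_image_of_mem _ c)
    unfold shr_red
    simp only
    linarith

theorem kset_shr_red (s : ℝ) (P : Finset Pt) (k : ℕ) :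
    kSetCount (P.image (shr_red s)) k = kSetCount P k := by
  unfold kSetCount
  rw [← Set.ncard_image_of_injective {S | IsKSet P k S} (image_injective (shr_inj_red s))]
  congr 1
  ext S
  have i1 : ∀ A : Finset Pt, (A.image (shr_red s)).image (shr_red (-s)) = A := fun A => by
    rw [image_image, show shr_red (-s) ∘ shr_red s = id from funext (shr_neg_red s), image_id]
  have i2 : ∀ A : Finset Pt, (A.image (shr_red (-s))).image (shr_red s) = A := fun A => by
    rw [image_image, show shr_red s ∘ shr_red (-s) = id from funext (shr_neg'_red s), image_id]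
  constructor
  · intro h
    have := isK_shr_red (-s) (show IsKSet _ _ _ from h)
    rw [i1] at this
    exact ⟨_, this, i2 S⟩
  · rintro ⟨S, h, rfl⟩
    exact isK_shr_red s h

theorem exists_gen (P : Finset Pt) (h : NoThreeCollinear P) : ∃ P' : Finset Pt, Gen P' ∧
    P'.card = P.card ∧ halvingCount P' = halvingCount P ∧ ∀ k, kSetCount P' k = kSetCount P k := by
  obtain ⟨s, hs⟩ := Infinite.exists_notMem_finset
    ((P ×ˢ P).image fun e : Pt × Pt => (e.2.1 - e.1.1) / (e.1.2 - e.2.2))
  refine ⟨P.image (shr_red s), ⟨?_, ?_⟩, card_image_of_injective _ (shr_inj_red s),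
    halving_shr_red s P, kset_shr_red s P⟩
  · intro p hp q hq e
    obtain ⟨p, hp', rfl⟩ := mem_image.1 hp
    obtain ⟨q, hq', rfl⟩ := mem_image.1 hq
    have e' : p.1 + s * p.2 = q.1 + s * q.2 := e
    by_cases c : p.2 = q.2
    · rw [c] at e'
      rw [show p = q from Prod.ext (by linarith) c]
    · exfalso
      refine hs (mem_image.2 ⟨(p, q), mem_product.2 ⟨hp', hq'⟩, ?_⟩)
      have c' : p.2 - q.2 ≠ 0 := sub_ne_zero.2 c
      simp only
      field_simp
      linarith
  · intro p hp q hq r hr θ n1 n2 n3 e1 e2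
    obtain ⟨p, hp', rfl⟩ := mem_image.1 hp
    obtain ⟨q, hq', rfl⟩ := mem_image.1 hq
    obtain ⟨r, hr', rfl⟩ := mem_image.1 hr
    refine h p hp' q hq' r hr' (fun c => n1 (by rw [c])) (fun c => n2 (by rw [c]))
      (fun c => n3 (by rw [c])) ?_
    have key : ∀ x : Pt, fv θ (shr_red s p) = fv θ (shr_red s x) →
        ∃ t : ℝ, x = t • ((1 - s * θ, θ) : Pt) +ᵥ p := by
      intro x hx
      have hx' : p.2 - θ * (p.1 + s * p.2) = x.2 - θ * (x.1 + s * x.2) := hx
      refine ⟨x.1 + s * x.2 - (p.1 + s * p.2), Prod.ext ?_ ?_⟩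
      · simp only [vadd_eq_add, Prod.fst_add, Prod.smul_fst, smul_eq_mul]
        linear_combination s * hx'
      · simp only [vadd_eq_add, Prod.snd_add, Prod.smul_snd, smul_eq_mul]
        linear_combination -hx'
    rw [collinear_iff_of_mem (p₀ := p) (by simp)]
    refine ⟨(1 - s * θ, θ), fun x hx => ?_⟩
    rcases hx with rfl | rfl | rfl
    · exact key _ rfl
    · exact key _ e1
    · exact key _ e2

theorem mul_neg_iff_of_pos_left_red {a b : ℝ} (h : 0 < a) : a * b < 0 ↔ b < 0 := by
  constructor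
  · intro h1
    by_contra h2
    exact absurd (mul_nonneg h.le (not_lt.1 h2)) (not_le.2 h1)
  · exact mul_neg_of_pos_of_neg h

theorem halving_le {P : Finset Pt} (h : Gen P) :
    halvingCount P ≤ (edges P ((P.card - 2) / 2)).card := by
  have key : ∀ p ∈ P, ∀ q ∈ P, p.1 < q.1 → 2 * {r | r ∈ P ∧ cross p q r < 0}.ncard + 2 = P.card →
      (p, q) ∈ edges P ((P.card - 2) / 2) := by
    intro p hp q hq hlt hc
    refine mem_filter.2 ⟨mem_prs.2 ⟨hp, hq, hlt⟩, ?_⟩
    have : {r | r ∈ P ∧ cross p q r < 0}.ncard = lev P (p, q) := by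
      unfold lev rk
      rw [← Set.ncard_coe_finset]
      congr 1
      ext r
      have h0 : 0 < q.1 - p.1 := sub_pos.2 hlt
      have e : cross p q r = (q.1 - p.1) * (fv (sl (p, q)) r - fv (sl (p, q)) p) := by
        unfold cross fv sl
        field_simp
        ring
      rw [coe_filter, Set.mem_setOf_eq, Set.mem_setOf_eq, e, mul_neg_iff_of_pos_left_red h0, sub_neg]
    omega
  unfold halvingCount
  refine le_trans ?_ (card_image_le (f := fun e : Ed => s(e.1, e.2)))
  rw [← Set.ncard_coe_finset]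
  refine Set.ncard_le_ncard ?_ (Finset.finite_toSet _)
  rintro _ ⟨p, q, rfl, hp, hq, n, c1, c2⟩
  rcases lt_or_gt_of_ne (fun c => n (h.xinj p hp q hq c)) with c | c
  · exact mem_coe.2 (mem_image.2 ⟨(p, q), key p hp q hq c c2, rfl⟩)
  · refine mem_coe.2 (mem_image.2 ⟨(q, p), key q hq p hp c ?_, Sym2.eq_swap⟩)
    have : ∀ r, cross q p r < 0 ↔ 0 < cross p q r := fun r => by
      have : cross q p r = -cross p q r := by
        unfold cross
        ring
      rw [this, neg_lt_zero]
    simp only [this]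
    exact c1

/-- The `k`-sets lying below a non-vertical line. -/
noncomputable def low_red (P : Finset Pt) (k : ℕ) : Finset (Finset Pt) :=
  P.powerset.filter fun S => S.card = k ∧
    ∃ θ c : ℝ, (∀ r ∈ S, fv θ r < c) ∧ ∀ r ∈ P, r ∉ S → c < fv θ r

theorem low_rk_red {P S : Finset Pt} {k : ℕ} (hk : 1 ≤ k) (h1 : S ⊆ P) (h2 : S.card = k) {θ c : ℝ}
    (h3 : ∀ r ∈ S, fv θ r < c) (h4 : ∀ r ∈ P, r ∉ S → c < fv θ r) :
    (∀ p ∈ P, p ∈ S ↔ rk P θ p ≤ k - 1) ∧ ∀ e ∈ edges P (k - 1), sl e ≠ θ := by
  have below : ∀ p ∈ S, ∀ y ∈ P, fv θ y < fv θ p → y ∈ S := by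
    intro p hp y hy hlt
    by_contra hn
    linarith [h3 p hp, h4 y hy hn]
  have a1 : ∀ p ∈ P, p ∈ S ↔ rk P θ p ≤ k - 1 := by
    intro p hp
    constructor
    · intro hs
      rw [← h2, ← card_erase_of_mem hs]
      refine card_le_card fun y hy => ?_
      obtain ⟨y1, y2⟩ := mem_filter.1 hy
      exact mem_erase.2 ⟨fun c => by rw [c] at y2; exact lt_irrefl _ y2, below p hs y y1 y2⟩
    · intro hr
      by_contra hn
      have : S.card ≤ rk P θ p :=
        card_le_card fun y hy => mem_filter.2 ⟨h1 hy, (h3 y hy).trans (h4 p hp hn)⟩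
      omega
  refine ⟨a1, fun e he hs => ?_⟩
  obtain ⟨e1, e2⟩ := mem_filter.1 he
  obtain ⟨b1, b2, b3⟩ := mem_prs.1 e1
  have r2 := rk_right e1
  have r3 := fv_sl b3
  rw [e2] at r2
  unfold lev at e2
  rw [hs] at e2 r2 r3
  have s1 := (a1 _ b1).2 e2.le
  have s2 := (a1 _ b2).2 r2.le
  have n : e.2 ≠ e.1 := fun c => by rw [c] at b3; exact lt_irrefl _ b3
  have s3 : e.2 ∈ S.erase e.1 := mem_erase.2 ⟨n, s2⟩
  have : rk P θ e.1 ≤ ((S.erase e.1).erase e.2).card := by
    refine card_le_card fun y hy => ?_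
    obtain ⟨y1, y2⟩ := mem_filter.1 hy
    refine mem_erase.2 ⟨fun c => ?_, mem_erase.2 ⟨fun c => ?_, below _ s1 y y1 y2⟩⟩
    · rw [c, r3] at y2
      exact lt_irrefl _ y2
    · rw [c] at y2
      exact lt_irrefl _ y2
  have d1 := card_erase_add_one s3
  have d2 := card_erase_add_one s1
  omega

theorem low_card_red {P : Finset Pt} (h : Gen P) {k : ℕ} (hk : 1 ≤ k) :
    (low_red P k).card ≤ (edges P (k - 1)).card + 1 := by
  have ex : ∀ S : Finset Pt, ∃ θ : ℝ, S ∈ low_red P k →
      (∀ p ∈ P, p ∈ S ↔ rk P θ p ≤ k - 1) ∧ ∀ e ∈ edges P (k - 1), sl e ≠ θ := by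
    intro S
    by_cases hS : S ∈ low_red P k
    · obtain ⟨h1, h2, θ, c, h3, h4⟩ := mem_filter.1 hS
      exact ⟨θ, fun _ => low_rk_red hk (mem_powerset.1 h1) h2 h3 h4⟩
    · exact ⟨0, fun c => absurd c hS⟩
  choose θ hθ using ex
  rw [← card_range ((edges P (k - 1)).card + 1)]
  have key : ∀ S ∈ low_red P k, ∀ S' ∈ low_red P k, θ S ≤ θ S' →
      ((edges P (k - 1)).filter fun e => sl e < θ S).card =
        ((edges P (k - 1)).filter fun e => sl e < θ S').card → S = S' := by
    intro S hS S' hS' hle hc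
    have hsub : ((edges P (k - 1)).filter fun e => sl e < θ S) ⊆
        (edges P (k - 1)).filter fun e => sl e < θ S' := fun e he =>
      mem_filter.2 ⟨(mem_filter.1 he).1, lt_of_lt_of_le (mem_filter.1 he).2 hle⟩
    have heq := eq_of_subset_of_card_le hsub hc.ge
    have none : ∀ e ∈ edges P (k - 1), θ S ≤ sl e → sl e ≤ θ S' → False := by
      intro e he a b
      have : e ∈ (edges P (k - 1)).filter fun e => sl e < θ S' :=
        mem_filter.2 ⟨he, lt_of_le_of_ne b ((hθ S' hS').2 e he)⟩
      rw [← heq] at this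
      exact absurd (mem_filter.1 this).2 (not_lt.2 a)
    have p1 := mem_powerset.1 (mem_filter.1 hS).1
    have p2 := mem_powerset.1 (mem_filter.1 hS').1
    ext p
    constructor
    · intro hp
      rw [(hθ S' hS').1 p (p1 hp)]
      by_contra hn
      obtain ⟨e, he, -, a, b⟩ := exc h (p1 hp) (((hθ S hS).1 p (p1 hp)).1 hp) (not_le.1 hn)
      rw [min_eq_left hle] at a
      rw [max_eq_right hle] at b
      exact none e he a b
    · intro hp
      rw [(hθ S hS).1 p (p2 hp)]
      by_contra hn
      obtain ⟨e, he, -, a, b⟩ := exc h (p2 hp) (((hθ S' hS').1 p (p2 hp)).1 hp) (not_le.1 hn)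
      rw [min_eq_right hle] at a
      rw [max_eq_left hle] at b
      exact none e he a b
  refine card_le_card_of_injOn (fun S => ((edges P (k - 1)).filter fun e => sl e < θ S).card)
    (fun S _ => mem_coe.2 (mem_range.2 (Nat.lt_succ_of_le (card_filter_le _ _))))
    fun S hS S' hS' e => ?_
  rcases le_total (θ S) (θ S') with c | c
  · exact key S hS S' hS' c e
  · exact (key S' hS' S hS c e.symm).symm

theorem kset_le {P : Finset Pt} (h : Gen P) {k : ℕ} (hk : 1 ≤ k) :
    kSetCount P k ≤ (edges P (k - 1)).card + (edges (refl P) (k - 1)).card + 2 := by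
  have rr : ∀ A : Finset Pt, refl (refl A) = A := fun A => by
    unfold refl
    rw [image_image]
    refine (image_congr fun p _ => ?_).trans image_id
    simp
  have pos : ∀ (Q S : Finset Pt) (a b c : ℝ), S ⊆ Q → S.card = k → 0 < b →
      (∀ r ∈ S, a * r.1 + b * r.2 < c) → (∀ r ∈ Q, r ∉ S → c < a * r.1 + b * r.2) →
      S ∈ low_red Q k := by
    intro Q S a b c h1 h2 hb h4 h5
    have e : ∀ r : Pt, fv (-a / b) r = (a * r.1 + b * r.2) / b := fun r => by
      unfold fv
      field_simp
      ring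
    refine mem_filter.2 ⟨mem_powerset.2 h1, h2, -a / b, c / b, fun r hr => ?_, fun r hr hn => ?_⟩
    · rw [e]
      exact div_lt_div_of_pos_right (h4 r hr) hb
    · rw [e]
      exact div_lt_div_of_pos_right (h5 r hr hn) hb
  have c1 := low_card_red h hk
  have c2 := low_card_red h.refl hk
  have c3 : kSetCount P k ≤ (low_red P k ∪ (low_red (refl P) k).image refl).card := by
    unfold kSetCount
    rw [← Set.ncard_coe_finset]
    refine Set.ncard_le_ncard ?_ (Finset.finite_toSet _)
    rintro S ⟨h1, h2, a, b, c, -, h4, h5⟩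
    refine mem_coe.2 (mem_union.2 ?_)
    rcases lt_trichotomy b 0 with hb | hb | hb
    · refine Or.inr (mem_image.2 ⟨refl S, ?_, rr S⟩)
      refine pos _ _ a (-b) c (image_subset_image h1) (by rw [refl_card, h2]) (by linarith) ?_ ?_
      · intro r hr
        obtain ⟨r, hr', rfl⟩ := mem_image.1 hr
        have := h4 r hr'
        simp only
        linarith
      · intro r hr hn
        obtain ⟨r, hr', rfl⟩ := mem_image.1 hr
        have := h5 r hr' fun c => hn (mem_image_of_mem _ c)
        simp only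
        linarith
    · left
      have ev : ∀ᶠ t in nhds b, ∀ r ∈ P, (r ∈ S → a * r.1 + t * r.2 < c) ∧
          (r ∉ S → c < a * r.1 + t * r.2) := by
        rw [Filter.eventually_all_finset]
        intro r hr
        have ct : Continuous fun t : ℝ => a * r.1 + t * r.2 := by fun_prop
        by_cases hs : r ∈ S
        · exact (ct.continuousAt.eventually_lt continuousAt_const (h4 r hs)).mono
            fun t ht => ⟨fun _ => ht, fun c => absurd hs c⟩
        · exact (continuousAt_const.eventually_lt ct.continuousAt (h5 r hr hs)).mono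
            fun t ht => ⟨fun c => absurd c hs, fun _ => ht⟩
      obtain ⟨t, t1, t2⟩ := ((ev.filter_mono (nhdsWithin_le_nhds (s := Set.Ioi b))).and
        self_mem_nhdsWithin).exists
      exact pos _ _ a t c h1 h2 (hb ▸ t2) (fun r hr => (t1 r (h1 hr)).1 hr)
        fun r hr hn => (t1 r hr).2 hn
    · exact Or.inl (pos _ _ a b c h1 h2 hb h4 h5)
  have c4 := card_union_le (low_red P k) ((low_red (refl P) k).image refl)
  have c5 := card_image_le (s := low_red (refl P) k) (f := refl)
  omega

end Vale.Agent.P065.U
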