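import Vale.Agent.P065.U.Tame

/-!
P065/U task Rich: most edges start at a rich point.

K1 = (8K)^c1 from `tame_most`, M = 2^j a large power of K (M ≥ K1² K^c2), L = K^c. Let Bad be the edges
with tame left end at scale j that are not in gfi j L. If |Bad| > n d/(8K) then `crossing` gives
cr Bad Bad ≥ |Bad|³/(512 n²), while crossings inside a window number ≤ 16^j (K1² sz j)² = K1⁴ n²/M²
(`cr_win`, `Tame.act_card`) and the others ≤ |Bad| n/(d L) (`wi_mono`): contradiction. G = tame and gfi.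
Points with fewer than d/(8K) G-edges carry ≤ n d/(8K) of them. A point with more has at most
K1 d/M ≤ d/(16K) in each window, so besides a fullest window another one has ≥ d/(16 K M⁴).
-/

namespace Vale.Agent.P065.U

open Finset Classical

theorem rich_cr_mono {G G' H H' : Finset Ed} (h : G ⊆ G') (h' : H ⊆ H') : cr G H ≤ cr G' H' :=
  card_le_card (filter_subset_filter _ (product_subset_product h h'))

theorem rich_cr_split (X : Cfg) (j : ℕ) (B : Finset Ed) :
    cr B B ≤ ∑ u ∈ range (16 ^ j), cr (X.win B j u) (X.win B j u) +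
      ∑ e ∈ B, (B.filter fun f => XC e f ∧ X.wi j (sl e) < X.wi j (sl f)).card := by
  have h2 : ((B ×ˢ B).filter fun x => XC x.1 x.2 ∧ X.wi j (sl x.1) < X.wi j (sl x.2)).card =
      ∑ e ∈ B, (B.filter fun f => XC e f ∧ X.wi j (sl e) < X.wi j (sl f)).card := by
    rw [card_filter, sum_product]
    exact sum_congr rfl fun e _ => (card_filter _ _).symm
  rw [← h2]
  refine le_trans (card_le_card (t := ((range (16 ^ j)).biUnion fun u =>
    (X.win B j u ×ˢ X.win B j u).filter fun x => XC x.1 x.2) ∪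
      (B ×ˢ B).filter fun x => XC x.1 x.2 ∧ X.wi j (sl x.1) < X.wi j (sl x.2)) fun x hx => ?_)
    ((card_union_le _ _).trans (Nat.add_le_add_right card_biUnion_le _))
  obtain ⟨h3, h4⟩ := mem_filter.1 hx
  obtain ⟨h5, h6⟩ := mem_product.1 h3
  rcases (X.wi_mono j h4.1.le).lt_or_eq with h7 | h7
  · exact mem_union_right _ (mem_filter.2 ⟨h3, h4, h7⟩)
  · exact mem_union_left _ (mem_biUnion.2 ⟨X.wi j (sl x.1), mem_range.2 (X.wi_lt _ _),
      mem_filter.2 ⟨mem_product.2 ⟨mem_filter.2 ⟨h5, rfl⟩, mem_filter.2 ⟨h6, h7.symm⟩⟩, h4⟩⟩)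

theorem rich_num {B n d K K1 M L : ℝ} (hd : 0 < d) (hn : n = d ^ 3) (hK : 0 < K) (hM : 0 < M)
    (hL : 0 < L) (h1 : 2 ^ 19 * K ^ 3 * K1 ^ 4 ≤ M ^ 2) (h2 : 2 ^ 16 * K ^ 2 ≤ L)
    (hB : n * d / (8 * K) < B)
    (h : B ^ 3 ≤ 512 * n * n * (K1 ^ 4 * n ^ 2 / M ^ 2 + B * (n / (d * L)))) : False := by
  obtain ⟨t, ht⟩ : ∃ t, t = n * d / (8 * K) := ⟨_, rfl⟩
  have hn0 : 0 < n := hn ▸ pow_pos hd 3
  have t0 : 0 < t := by rw [ht]; positivity
  rw [← ht] at hB
  have B0 : 0 < B := t0.trans hB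
  have a1 : 512 * n * n * (K1 ^ 4 * n ^ 2 / M ^ 2) ≤ t ^ 3 / 2 := by
    have e1 : t ^ 3 / 2 = n ^ 4 / (1024 * K ^ 3) := by
      rw [ht, hn]; field_simp; ring
    have e2 : 512 * n * n * (K1 ^ 4 * n ^ 2 / M ^ 2) = n ^ 4 * (512 * K1 ^ 4) / M ^ 2 := by ring
    rw [e1, e2, div_le_div_iff₀ (by positivity) (by positivity)]
    have := mul_le_mul_of_nonneg_left h1 (pow_pos hn0 4).le
    nlinarith
  have a2 : 512 * n * n * (n / (d * L)) ≤ t ^ 2 / 2 := by
    have e1 : t ^ 2 / 2 = d ^ 8 / (128 * K ^ 2) := by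
      rw [ht, hn]; field_simp; ring
    have e2 : 512 * n * n * (n / (d * L)) = d ^ 8 * 512 / L := by
      rw [hn]; field_simp
    rw [e1, e2, div_le_div_iff₀ (by positivity) (by positivity)]
    have := mul_le_mul_of_nonneg_left h2 (pow_pos hd 8).le
    nlinarith
  have a3 : t ^ 3 < B ^ 3 := pow_lt_pow_left₀ hB t0.le (by norm_num)
  have a4 : t ^ 2 < B ^ 2 := pow_lt_pow_left₀ hB t0.le (by norm_num)
  have a5 : B * (512 * n * n * (n / (d * L))) ≤ B * (t ^ 2 / 2) :=
    mul_le_mul_of_nonneg_left a2 B0.le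
  have a6 : B * t ^ 2 < B * B ^ 2 := mul_lt_mul_of_pos_left a4 B0
  nlinarith

theorem rich_bad (X : Cfg) (j : ℕ) {K K1 L : ℝ} (hK : 0 < K) (hK1 : 0 ≤ K1) (hL : 0 < L)
    (h0 : 128 * K ≤ X.d) (h1 : 2 ^ 19 * K ^ 3 * K1 ^ 4 ≤ (2 ^ j) ^ 2) (h2 : 2 ^ 16 * K ^ 2 ≤ L) :
    ((X.F.filter fun e => X.Tame K1 j (X.wi j (sl e)) e.1 ∧ e ∉ X.gfi j L).card : ℝ) ≤
      X.n * X.d / (8 * K) := by
  obtain ⟨B, hB⟩ : ∃ B, B = X.F.filter fun e => X.Tame K1 j (X.wi j (sl e)) e.1 ∧
    e ∉ X.gfi j L := ⟨_, rfl⟩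
  rw [← hB]
  have hBF : B ⊆ X.F := hB ▸ filter_subset _ _
  have hd := X.d_pos
  have hn0 : 0 < X.n := X.n_eq ▸ pow_pos hd 3
  refine le_of_not_gt fun hlt => ?_
  have h16 : 16 * X.P.card ≤ B.card := by
    have e1 : 16 * X.n ≤ X.n * X.d / (8 * K) := by
      rw [le_div_iff₀ (by positivity)]
      nlinarith
    have e2 : (16 : ℝ) * X.P.card ≤ B.card := e1.trans hlt.le
    exact_mod_cast e2
  have hc := crossing X.P X.gen B (hBF.trans X.F_sub) X.P X.P
    (fun e he => (mem_prs.1 (X.F_sub (hBF he))).1) (fun e he => (mem_prs.1 (X.F_sub (hBF he))).2.1)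
    h16 h16
  have hc' : (B.card : ℝ) ^ 3 ≤ 512 * X.n * X.n * cr B B := by
    unfold Cfg.n
    exact_mod_cast hc
  have s1 : ∀ u ∈ range (16 ^ j), (cr (X.win B j u) (X.win B j u) : ℝ) ≤ (K1 ^ 2 * X.sz j) ^ 2 := by
    intro u _
    rcases (X.win B j u).eq_empty_or_nonempty with he | ⟨e, he⟩
    · rw [he]
      simp only [cr, empty_product, filter_empty, card_empty, Nat.cast_zero]
      positivity
    · obtain ⟨he1, he2⟩ := mem_filter.1 he
      rw [hB] at he1
      have t := (mem_filter.1 he1).2.1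
      rw [he2] at t
      have t1 := t.act_card hK1 le_rfl
      rw [Nat.sub_self, pow_zero, Nat.div_one] at t1
      have t2 : cr (X.win B j u) (X.win B j u) ≤ (X.act j u).card ^ 2 :=
        (rich_cr_mono (filter_subset_filter _ hBF) (filter_subset_filter _ hBF)).trans
          (X.cr_win j u)
      have t3 : (cr (X.win B j u) (X.win B j u) : ℝ) ≤ ((X.act j u).card : ℝ) ^ 2 := by
        exact_mod_cast t2
      exact t3.trans (pow_le_pow_left₀ (Nat.cast_nonneg _) t1 2)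
  have s2 : ∀ e ∈ B, ((B.filter fun f => XC e f ∧ X.wi j (sl e) < X.wi j (sl f)).card : ℝ) ≤
      X.n / (X.d * L) := by
    intro e he
    have he1 := he
    rw [hB] at he1
    obtain ⟨he2, -, he3⟩ := mem_filter.1 he1
    refine le_trans (Nat.cast_le.2 (card_le_card (filter_subset_filter _ hBF))) ?_
    exact le_of_not_ge fun h => he3 (mem_filter.2 ⟨he2, h⟩)
  have s3 := sum_le_card_nsmul _ _ _ s1
  have s4 := sum_le_card_nsmul _ _ _ s2
  rw [nsmul_eq_mul] at s3 s4
  have s5 : (cr B B : ℝ) ≤ ∑ u ∈ range (16 ^ j), (cr (X.win B j u) (X.win B j u) : ℝ) +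
      ∑ e ∈ B, ((B.filter fun f => XC e f ∧ X.wi j (sl e) < X.wi j (sl f)).card : ℝ) := by
    exact_mod_cast rich_cr_split X j B
  have s6 : ((range (16 ^ j)).card : ℝ) * (K1 ^ 2 * X.sz j) ^ 2 =
      K1 ^ 4 * X.n ^ 2 / (2 ^ j) ^ 2 := by
    have e16 : (16 : ℝ) ^ j = (2 ^ j) ^ 4 := by
      rw [← pow_mul, mul_comm, pow_mul]; norm_num
    have e8 : (8 : ℝ) ^ j = (2 ^ j) ^ 3 := by
      rw [← pow_mul, mul_comm, pow_mul]; norm_num
    rw [card_range, Cfg.sz]
    push_cast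
    rw [e16, e8]
    field_simp
  refine rich_num hd X.n_eq hK (by positivity : (0 : ℝ) < 2 ^ j) hL h1 h2 hlt (hc'.trans ?_)
  refine mul_le_mul_of_nonneg_left ?_ (by positivity)
  linarith

theorem rich_two (g : ℕ → ℝ) (N : ℕ) {hi lo : ℝ} (h0 : 0 ≤ hi) (h1 : 0 ≤ lo)
    (hg : ∀ u, g u ≤ hi) (h : hi + N * lo < ∑ u ∈ range N, g u) :
    ∃ u u', u < u' ∧ lo ≤ g u ∧ lo ≤ g u' := by
  by_contra hc
  have a1 : ((range N).filter fun u => lo ≤ g u).card ≤ 1 := by
    rw [card_le_one]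
    intro a ha b hb
    rcases lt_trichotomy a b with c | c | c
    · exact absurd ⟨a, b, c, (mem_filter.1 ha).2, (mem_filter.1 hb).2⟩ hc
    · exact c
    · exact absurd ⟨b, a, c, (mem_filter.1 hb).2, (mem_filter.1 ha).2⟩ hc
  have a2 := sum_le_card_nsmul ((range N).filter fun u => lo ≤ g u) g hi fun u _ => hg u
  have a3 := sum_le_card_nsmul ((range N).filter fun u => ¬ lo ≤ g u) g lo
    fun u hu => (not_le.1 (mem_filter.1 hu).2).le
  have a4 := sum_filter_add_sum_filter_not (range N) (fun u => lo ≤ g u) g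
  rw [nsmul_eq_mul] at a2 a3
  have a5 : (((range N).filter fun u => lo ≤ g u).card : ℝ) ≤ 1 := by exact_mod_cast a1
  have a6 : (((range N).filter fun u => ¬ lo ≤ g u).card : ℝ) ≤ N := by
    exact_mod_cast (card_filter_le _ _).trans (card_range N).le
  have a7 := mul_le_mul_of_nonneg_right a5 h0
  have a8 := mul_le_mul_of_nonneg_right a6 h1
  linarith

theorem rich_low (P : Finset Pt) (G : Finset Ed) (hG : ∀ e ∈ G, e.1 ∈ P) {y : ℝ} (hy : 0 ≤ y) :
    ((G.filter fun e => ((G.filter fun f => f.1 = e.1).card : ℝ) ≤ y).card : ℝ) ≤ P.card * y := by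
  rw [card_eq_sum_card_fiberwise (f := Prod.fst) (t := P)
    fun e he => mem_coe.2 (hG e (mem_filter.1 (mem_coe.1 he)).1)]
  push_cast
  rw [← nsmul_eq_mul]
  refine sum_le_card_nsmul _ _ _ fun p _ => ?_
  rcases ((G.filter fun e => ((G.filter fun f => f.1 = e.1).card : ℝ) ≤ y).filter
    fun e => e.1 = p).eq_empty_or_nonempty with he | ⟨e, he⟩
  · rw [he, card_empty, Nat.cast_zero]
    exact hy
  · obtain ⟨h1, h2⟩ := mem_filter.1 he
    have h3 := (mem_filter.1 h1).2
    rw [h2] at h3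
    exact (Nat.cast_le.2 (card_le_card (filter_subset_filter _ (filter_subset _ _)))).trans h3

theorem rich_point (X : Cfg) (j : ℕ) {K K1 L : ℝ} (hK : 0 < K) (hL : 0 < L)
    (h1 : 16 * K * K1 ≤ 2 ^ j) (h2 : 16 * K * 16 ^ j ≤ L) (G : Finset Ed) (hG : G ⊆ X.gfi j L)
    (hT : ∀ e ∈ G, X.Tame K1 j (X.wi j (sl e)) e.1) {q : Pt} (hq : q ∈ X.P)
    (h : X.d / (8 * K) < ((G.filter fun f => f.1 = q).card : ℝ)) : X.Rich j L q := by
  have hd := X.d_pos
  have hGF : G ⊆ X.F := hG.trans (filter_subset _ _)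
  obtain ⟨u, u', huu, a, b⟩ := rich_two
    (fun u => ((X.win (G.filter fun f => f.1 = q) j u).card : ℝ)) (16 ^ j)
    (hi := X.d / (16 * K)) (lo := X.d / L) (by positivity) (by positivity) (fun u => by
      rcases (X.win (G.filter fun f => f.1 = q) j u).eq_empty_or_nonempty with he | ⟨e, he⟩
      · simp only [he, card_empty, Nat.cast_zero]
        positivity
      · obtain ⟨e1, e2⟩ := mem_filter.1 he
        obtain ⟨e3, e4⟩ := mem_filter.1 e1
        have t := hT e e3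
        rw [e2, e4] at t
        have t1 := (t.reg j le_rfl).rdeg_le
        rw [Nat.sub_self, pow_zero, Nat.div_one] at t1
        have t2 : (X.win (G.filter fun f => f.1 = q) j u).card ≤ X.rdeg j u q := by
          refine card_le_card fun f hf => ?_
          obtain ⟨f1, f2⟩ := mem_filter.1 hf
          obtain ⟨f3, f4⟩ := mem_filter.1 f1
          exact mem_filter.2 ⟨mem_filter.2 ⟨hGF f3, f2⟩, f4⟩
        refine (Nat.cast_le.2 t2).trans (t1.trans ?_)
        rw [div_le_div_iff₀ (by positivity) (by positivity)]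
        nlinarith) (by
      have s := X.sum_win (G.filter fun f => f.1 = q) j
      have s1 : ∑ u ∈ range (16 ^ j), ((X.win (G.filter fun f => f.1 = q) j u).card : ℝ) =
          ((G.filter fun f => f.1 = q).card : ℝ) := by exact_mod_cast s
      rw [s1]
      refine lt_of_le_of_lt ?_ h
      have s2 : ((16 ^ j : ℕ) : ℝ) * (X.d / L) ≤ X.d / (16 * K) := by
        push_cast
        rw [← mul_div_assoc, div_le_div_iff₀ hL (by positivity)]
        nlinarith
      have s3 : X.d / (8 * K) = X.d / (16 * K) + X.d / (16 * K) := by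
        field_simp; norm_num
      linarith)
  have key : ∀ v, (X.win (G.filter fun f => f.1 = q) j v).card ≤
      ((X.win (X.gfi j L) j v).filter fun e => e.1 = q).card := by
    intro v
    refine card_le_card fun f hf => ?_
    obtain ⟨f1, f2⟩ := mem_filter.1 hf
    obtain ⟨f3, f4⟩ := mem_filter.1 f1
    exact mem_filter.2 ⟨mem_filter.2 ⟨hG f3, f2⟩, f4⟩
  exact ⟨hq, u, u', huu, a.trans (Nat.cast_le.2 (key u)), b.trans (Nat.cast_le.2 (key u'))⟩

theorem Cfg.rich_most : ∃ c : ℕ, ∀ (X : Cfg) (K : ℝ), X.Big K → K ^ c ≤ X.d →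
    ∃ j : ℕ, (2 : ℝ) ^ j ≤ K ^ c ∧
      ((X.F.filter fun e => ¬ X.Rich j (K ^ c) e.1).card : ℝ) ≤ X.n * X.d / K := by
  obtain ⟨c1, hc1⟩ := Cfg.tame_most
  refine ⟨32 * c1 + 54, fun X K hB hd => ?_⟩
  have hK : 2 ≤ K := hB.1
  have K0 : 0 < K := by linarith
  have K1 : 1 ≤ K := by linarith
  have pw : ∀ {a b : ℕ}, a ≤ b → K ^ a ≤ K ^ b := fun h => pow_le_pow_right₀ K1 h
  have two : ∀ a : ℕ, (2 : ℝ) ^ a ≤ K ^ a := fun a => pow_le_pow_left₀ (by norm_num) hK a
  have tw : ∀ a b : ℕ, (2 : ℝ) ^ a * K ^ b ≤ K ^ (a + b) := fun a b => by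
    rw [pow_add]
    exact mul_le_mul_of_nonneg_right (two a) (by positivity)
  obtain ⟨i, hi1, hi2⟩ := exists_nat_pow_near (one_le_pow₀ K1 : 1 ≤ K ^ (8 * c1 + 11))
    (one_lt_two : (1 : ℝ) < 2)
  have hj : (2 : ℝ) ^ (i + 1) ≤ K ^ (8 * c1 + 12) := by
    rw [pow_succ, pow_succ K (8 * c1 + 11)]
    exact mul_le_mul hi1 hK (by norm_num) (by positivity)
  refine ⟨i + 1, hj.trans (pw (by omega)), ?_⟩
  generalize i + 1 = j at hj hi2
  have h8 : (8 * K) ^ c1 ≤ K ^ (4 * c1) := by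
    rw [pow_mul]
    refine pow_le_pow_left₀ (by positivity) ?_ _
    have := tw 3 1
    norm_num at this
    exact this
  have m1 := hc1 X (8 * K) (K ^ (4 * c1)) j (hB.mono (by linarith)) h8 (by
    refine le_trans (mul_le_mul hj h8 (by positivity) (by positivity)) ?_
    rw [← pow_add]
    exact (pw (by omega)).trans hd)
  have m2 := rich_bad X j (K := K) (K1 := K ^ (4 * c1)) (L := K ^ (32 * c1 + 54)) K0
    (by positivity) (by positivity)
    (by
      have := tw 7 1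
      norm_num at this
      exact this.trans ((pw (by omega)).trans hd))
    (by
      refine le_trans ?_ (pow_le_pow_left₀ (by positivity) hi2.le 2)
      rw [← pow_mul, ← pow_mul, mul_assoc, ← pow_add]
      exact (tw _ _).trans (pw (by omega)))
    ((tw _ _).trans (pw (by omega)))
  obtain ⟨G, hG⟩ : ∃ G, G = (X.gfi j (K ^ (32 * c1 + 54))).filter
    fun e => X.Tame (K ^ (4 * c1)) j (X.wi j (sl e)) e.1 := ⟨_, rfl⟩
  have hG1 : G ⊆ X.gfi j (K ^ (32 * c1 + 54)) := hG ▸ filter_subset _ _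
  have hGF : G ⊆ X.F := hG1.trans (filter_subset _ _)
  have hGT : ∀ f ∈ G, X.Tame (K ^ (4 * c1)) j (X.wi j (sl f)) f.1 := by
    intro f hf
    rw [hG] at hf
    exact (mem_filter.1 hf).2
  have hd0 := X.d_pos
  have m3 := rich_low X.P G (fun e he => (mem_prs.1 (X.F_sub (hGF he))).1)
    (y := X.d / (8 * K)) (by positivity)
  have hsub : (X.F.filter fun e => ¬ X.Rich j (K ^ (32 * c1 + 54)) e.1) ⊆
      ((X.F.filter fun e => e.1 ∉ X.P.filter
        fun p => X.Tame (K ^ (4 * c1)) j (X.wi j (sl e)) p) ∪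
      (X.F.filter fun e => X.Tame (K ^ (4 * c1)) j (X.wi j (sl e)) e.1 ∧
        e ∉ X.gfi j (K ^ (32 * c1 + 54)))) ∪
      G.filter fun e => ((G.filter fun f => f.1 = e.1).card : ℝ) ≤ X.d / (8 * K) := by
    intro e he
    obtain ⟨e1, e2⟩ := mem_filter.1 he
    by_cases t : X.Tame (K ^ (4 * c1)) j (X.wi j (sl e)) e.1
    · by_cases g : e ∈ X.gfi j (K ^ (32 * c1 + 54))
      · refine mem_union_right _ (mem_filter.2 ⟨hG ▸ mem_filter.2 ⟨g, t⟩, le_of_not_gt fun h =>
          e2 (rich_point X j (K1 := K ^ (4 * c1)) K0 (by positivity) ?_ ?_ G hG1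
            hGT t.mem h)⟩)
        · refine le_trans ?_ hi2.le
          have := tw 4 (1 + 4 * c1)
          rw [pow_add K 1, pow_one] at this
          norm_num at this
          rw [mul_assoc]
          exact this.trans (pw (by omega))
        · have e16 : (16 : ℝ) ^ j = (2 ^ j) ^ 4 := by
            rw [← pow_mul, mul_comm, pow_mul]; norm_num
          have a1 : (16 : ℝ) ^ j ≤ K ^ ((8 * c1 + 12) * 4) := by
            rw [e16, pow_mul]
            exact pow_le_pow_left₀ (by positivity) hj 4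
          have a2 := tw 4 1
          norm_num at a2
          refine le_trans (mul_le_mul a2 a1 (by positivity) (by positivity)) ?_
          rw [← pow_add]
          exact pw (by omega)
      · exact mem_union_left _ (mem_union_right _ (mem_filter.2 ⟨e1, t, g⟩))
    · exact mem_union_left _ (mem_union_left _ (mem_filter.2 ⟨e1, fun h => t (mem_filter.1 h).2⟩))
  have c1' := (card_le_card hsub).trans ((card_union_le _ _).trans
    (Nat.add_le_add_right (card_union_le _ _) _))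
  have c2 := (Nat.cast_le (α := ℝ)).2 c1'
  push_cast at c2
  unfold Cfg.miss at m1
  have hn0 : 0 < X.n := X.n_eq ▸ pow_pos hd0 3
  have e1 : X.n * X.d / K = 8 * (X.n * X.d / (8 * K)) := by field_simp
  have e2 : (X.P.card : ℝ) * (X.d / (8 * K)) = X.n * X.d / (8 * K) := by
    unfold Cfg.n
    ring
  have e3 : 0 ≤ X.n * X.d / (8 * K) := by positivity
  rw [e2] at m3
  linarith

end Vale.Agent.P065.U
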