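import Vale.Agent.P065.U.SRho

/-!
P065/U task SAB: choice of the frame, and the piece lemma.

`frame`. deg q = #{i | (q,i) ∈ G2}. Points with deg q ≥ m/(2K²) carry half of G2, so there are
≥ N/(2K) of them; m ≥ C/K is large, so ≥ N m³/K^9 quadruples (q, i1 < i2 < i3) with all pairs in G2.
Remove those with a pair that is not `Good Γ m` (lam a suitable power of K, `ind` at t = m) and those
with x i1 = x i3 (then ≤ K C cells of size ≤ Γ N/C²). In the rest take i = i2 and (a,b) = (i1,i3) or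
(i3,i1) so that lam a b i ≤ 1/2. Pigeonhole over (a,b) (≤ m² choices); La = indices i with at least
half the average number of points.

`piece`. Σ_q Σ_pieces (number of i in the piece with q ∈ AA i)² ≥ (N m/K²)²/(K N·K m/t) = N m t/K⁶
triples in `tri t`; with lam = 2K⁶ at least half are `Good`; there are ≤ m(2t+1) ≤ 3 m t pairs (i,i')
(t ≥ 1 by `Hyp.C_le`).
-/

namespace Vale.Agent.P065.U

open Finset Classical

theorem card_prod_left_SAB {α β : Type*} (s : Finset α) (t : Finset β) (p : α × β → Prop)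
    [DecidablePred p] :
    ((s ×ˢ t).filter p).card = ∑ a ∈ s, (t.filter fun b => p (a, b)).card := by
  simp only [card_filter, sum_product]

theorem card_prod_right_SAB {α β : Type*} (s : Finset α) (t : Finset β) (p : α × β → Prop)
    [DecidablePred p] :
    ((s ×ˢ t).filter p).card = ∑ b ∈ t, (s.filter fun a => p (a, b)).card := by
  simp only [card_filter, sum_product_right]

theorem inj_le_SAB {α β γ : Type*} (S : Finset α) (Y : Finset β) (W : Finset γ) (f : α → β × γ)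
    (hf : ∀ z ∈ S, (f z).1 ∈ Y ∧ (f z).2 ∈ W) (hi : Function.Injective f) :
    (S.card : ℝ) ≤ Y.card * W.card := by
  have h := card_le_card_of_injOn (s := S) (t := Y ×ˢ W) f
    (fun z hz => mem_coe.2 (mem_product.2 (hf z hz))) hi.injOn
  rw [card_product] at h
  exact_mod_cast h

/-- `w` lies between `u` and `v`, in the half next to `u`. -/
def ArSAB (u v w : ℝ) : Prop := u ≠ v ∧ 0 ≤ (w - u) / (v - u) ∧ (w - u) / (v - u) ≤ 1 / 2

theorem ar_two_SAB {u v w : ℝ} (h : u < v) (h1 : u ≤ w) (h2 : w ≤ v) :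
    ArSAB u v w ∨ ArSAB v u w := by
  have hp : 0 < v - u := by linarith
  rcases le_total (w - u) ((v - u) / 2) with h3 | h3
  · left
    refine ⟨h.ne, div_nonneg (by linarith) hp.le, ?_⟩
    rw [div_le_iff₀ hp]; linarith
  · right
    have e : (w - v) / (u - v) = (v - w) / (v - u) := by
      rw [← neg_sub v w, ← neg_sub v u, neg_div_neg_eq]
    refine ⟨h.ne', ?_, ?_⟩
    · rw [e]; exact div_nonneg (by linarith) hp.le
    · rw [e, div_le_iff₀ hp]; linarith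

theorem ar_six_SAB {u v : ℝ} (w : ℝ) (h : u ≠ v) :
    ArSAB u v w ∨ ArSAB v u w ∨ ArSAB u w v ∨ ArSAB w u v ∨ ArSAB v w u ∨ ArSAB w v u := by
  rcases lt_or_gt_of_ne h with h | h
  · rcases le_total w u with h1 | h1
    · rcases ar_two_SAB (lt_of_le_of_lt h1 h) h1 h.le with h2 | h2 <;> tauto
    · rcases le_total w v with h2 | h2
      · rcases ar_two_SAB h h1 h2 with h2 | h2 <;> tauto
      · rcases ar_two_SAB (lt_of_lt_of_le h h2) h.le h2 with h2 | h2 <;> tauto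
  · rcases le_total w v with h1 | h1
    · rcases ar_two_SAB (lt_of_le_of_lt h1 h) h1 h.le with h2 | h2 <;> tauto
    · rcases le_total w u with h2 | h2
      · rcases ar_two_SAB h h1 h2 with h2 | h2 <;> tauto
      · rcases ar_two_SAB (lt_of_lt_of_le h h2) h.le h2 with h2 | h2 <;> tauto

/-- all quadruples. -/
def SD.USAB (D : SD) : Finset ((ℝ × ℝ) × ℕ × ℕ × ℕ) :=
  D.L ×ˢ range D.m ×ˢ range D.m ×ˢ range D.m

def InSAB (G2 : Finset ((ℝ × ℝ) × ℕ)) (z : (ℝ × ℝ) × ℕ × ℕ × ℕ) : Prop :=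
  (z.1, z.2.1) ∈ G2 ∧ (z.1, z.2.2.1) ∈ G2 ∧ (z.1, z.2.2.2) ∈ G2

def SD.RSAB (D : SD) (G2 : Finset ((ℝ × ℝ) × ℕ)) (g : ℝ) (z : (ℝ × ℝ) × ℕ × ℕ × ℕ) : Prop :=
  InSAB G2 z ∧ (D.cell z.1 z.2.1 z.2.2.1 : ℝ) ≤ g ∧ (D.cell z.1 z.2.1 z.2.2.2 : ℝ) ≤ g ∧
    (D.cell z.1 z.2.2.1 z.2.2.2 : ℝ) ≤ g

theorem quad_ge_SAB {D : SD} {K : ℝ} {c : ℕ} (h : D.Hyp K c) {G2 : Finset ((ℝ × ℝ) × ℕ)}
    (hG : G2 ⊆ D.G) (hb : D.N * D.m / K ≤ G2.card) :
    D.N * (D.m : ℝ) ^ 3 / K ^ 5 ≤ (D.USAB.filter (InSAB G2)).card := by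
  have hK : 0 < K := by linarith [h.two_le]
  have hN := h.N_pos
  have h1 : G2.card = ∑ q ∈ D.L, ((range D.m).filter fun i => (q, i) ∈ G2).card := by
    rw [← card_prod_left_SAB D.L (range D.m) (fun w => w ∈ G2)]
    congr 1
    ext w
    simp only [mem_filter]
    exact ⟨fun hw => ⟨h.G_sub (hG hw), hw⟩, fun hw => hw.2⟩
  have h2 : (D.USAB.filter (InSAB G2)).card =
      ∑ q ∈ D.L, ((range D.m).filter fun i => (q, i) ∈ G2).card ^ 3 := by
    unfold SD.USAB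
    rw [card_prod_left_SAB]
    refine sum_congr rfl fun q _ => ?_
    have e : ((range D.m ×ˢ range D.m ×ˢ range D.m).filter fun b => InSAB G2 (q, b)) =
        ((range D.m).filter fun i => (q, i) ∈ G2) ×ˢ ((range D.m).filter fun i => (q, i) ∈ G2) ×ˢ
          ((range D.m).filter fun i => (q, i) ∈ G2) := by
      ext w
      simp only [mem_filter, mem_product]
      unfold InSAB
      tauto
    rw [e, card_product, card_product]
    ring
  have h3 := pow_sum_le_card_mul_sum_pow (s := D.L)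
    (f := fun q => (((range D.m).filter fun i => (q, i) ∈ G2).card : ℝ))
    (fun q _ => Nat.cast_nonneg _) 2
  have h4 : (∑ q ∈ D.L, (((range D.m).filter fun i => (q, i) ∈ G2).card : ℝ)) = G2.card := by
    rw [h1]; push_cast; rfl
  have h5 : (∑ q ∈ D.L, (((range D.m).filter fun i => (q, i) ∈ G2).card : ℝ) ^ (2 + 1)) =
      (D.USAB.filter (InSAB G2)).card := by
    rw [h2]; push_cast; rfl
  rw [h4, h5] at h3
  have h6 : (D.N * D.m / K) ^ 3 ≤ (G2.card : ℝ) ^ (2 + 1) :=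
    pow_le_pow_left₀ (by positivity) hb 3
  have h7 : (D.L.card : ℝ) ^ 2 * (D.USAB.filter (InSAB G2)).card ≤
      (K * D.N) ^ 2 * (D.USAB.filter (InSAB G2)).card :=
    mul_le_mul_of_nonneg_right (pow_le_pow_left₀ (Nat.cast_nonneg _) h.L_le 2) (Nat.cast_nonneg _)
  have h8 := h6.trans (h3.trans h7)
  have e : (D.N * D.m / K) ^ 3 = (K * D.N) ^ 2 * (D.N * (D.m : ℝ) ^ 3 / K ^ 5) := by
    field_simp
  rw [e] at h8
  exact le_of_mul_le_mul_left h8 (by positivity)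

theorem bad_mem_SAB {D : SD} {K : ℝ} {c : ℕ} (h : D.Hyp K c) {Γ : ℝ} {q : ℝ × ℝ} {i j : ℕ}
    (hi : (q, i) ∈ D.G) (hj : (q, j) ∈ D.G) (hb : ¬ (D.cell q i j : ℝ) ≤ Γ * D.N / D.C ^ 2) :
    (q, i, j) ∈ (D.tri D.m).filter fun z => ¬ D.Good Γ D.m z.1 z.2.1 z.2.2 := by
  have h1 := mem_product.1 (h.G_sub hi)
  have h2 := mem_product.1 (h.G_sub hj)
  have hm : (0 : ℝ) < D.m := by exact_mod_cast h.m_pos
  have hC := h.C_pos
  refine mem_filter.2 ⟨mem_filter.2 ⟨mem_product.2 ⟨h1.1, mem_product.2 ⟨h1.2, h2.2⟩⟩,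
    hi, hj, ?_⟩, fun hg => hb ?_⟩
  · have h3 : (i : ℝ) < D.m := by exact_mod_cast mem_range.1 h1.2
    have h4 : (j : ℝ) < D.m := by exact_mod_cast mem_range.1 h2.2
    have h5 : (0 : ℝ) ≤ i := Nat.cast_nonneg _
    have h6 : (0 : ℝ) ≤ j := Nat.cast_nonneg _
    rw [abs_le]
    constructor <;> simp only [] <;> linarith
  · have e : Γ * D.N * D.m / (D.C ^ 2 * D.m) = Γ * D.N / D.C ^ 2 := by field_simp
    rw [← e]
    exact hg.1

theorem eqx_le_SAB {D : SD} {K : ℝ} {c : ℕ} (h : D.Hyp K c) {G2 : Finset ((ℝ × ℝ) × ℕ)}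
    (hG : G2 ⊆ D.G) {g : ℝ} (hg : 0 ≤ g) :
    ((D.USAB.filter fun z => InSAB G2 z ∧ (D.cell z.1 z.2.1 z.2.2.1 : ℝ) ≤ g ∧
      D.x z.2.1 = D.x z.2.2.1).card : ℝ) ≤ (D.m : ℝ) ^ 3 * (g * (K * D.C)) := by
  unfold SD.USAB
  rw [card_prod_right_SAB]
  push_cast
  refine (sum_le_card_nsmul _ _ (g * (K * D.C)) fun y _ => ?_).trans (le_of_eq ?_)
  · refine (SD.card_le_cells h _ y.1 y.2.1 g hg (fun q hq => ?_) (fun q hq => ?_)).trans ?_
    · have h1 := (mem_filter.1 hq).2.1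
      exact ⟨hG h1.1, hG h1.2.1⟩
    · exact (mem_filter.1 hq).2.2.1
    · refine mul_le_mul_of_nonneg_left (le_trans ?_ (h.W_le y.1)) hg
      have h1 : ((D.L.filter fun q => InSAB G2 (q, y) ∧ (D.cell q y.1 y.2.1 : ℝ) ≤ g ∧
          D.x y.1 = D.x y.2.1).image fun q => (D.cls q y.1, D.cls q y.2.1)) ⊆
          (D.W y.1).image fun w => (w, w) := by
        intro w hw
        obtain ⟨q, hq, rfl⟩ := mem_image.1 hw
        have h2 := (mem_filter.1 hq).2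
        refine mem_image.2 ⟨D.cls q y.1, ?_, ?_⟩
        · exact mem_image.2 ⟨(q, y.1), mem_filter.2 ⟨hG h2.1.1, rfl⟩, rfl⟩
        · simp only [SD.cls, SD.v, h2.2.2]
      exact_mod_cast (card_le_card h1).trans card_image_le
  · rw [card_product, card_product, card_range, nsmul_eq_mul]
    push_cast
    ring

theorem six_le_SAB (D : SD) (G2 : Finset ((ℝ × ℝ) × ℕ)) (g : ℝ) :
    (D.USAB.filter fun z => D.RSAB G2 g z ∧ D.x z.2.1 ≠ D.x z.2.2.1).card ≤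
      (D.USAB.filter fun z => D.RSAB G2 g z ∧
        ArSAB (D.x z.2.1) (D.x z.2.2.1) (D.x z.2.2.2)).card * 6 := by
  refine le_trans (card_le_card ?_) (card_biUnion_le_card_mul _
    (fun r : (ℝ × ℝ) × ℕ × ℕ × ℕ => ({(r.1, r.2.1, r.2.2.1, r.2.2.2), (r.1, r.2.2.1, r.2.1, r.2.2.2),
      (r.1, r.2.1, r.2.2.2, r.2.2.1), (r.1, r.2.2.1, r.2.2.2, r.2.1),
      (r.1, r.2.2.2, r.2.1, r.2.2.1), (r.1, r.2.2.2, r.2.2.1, r.2.1)} : Finset _)) 6
    fun r _ => card_le_six)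
  rintro ⟨q, i, j, l⟩ hz
  obtain ⟨hU, ⟨⟨g1, g2, g3⟩, c1, c2, c3⟩, hx⟩ := mem_filter.1 hz
  simp only [SD.USAB, mem_product] at hU
  obtain ⟨u0, u1, u2, u3⟩ := hU
  simp only at g1 g2 g3 c1 c2 c3 hx u0 u1 u2 u3
  have c1' := c1
  have c2' := c2
  have c3' := c3
  rw [SD.cell_comm] at c1' c2' c3'
  have hm : ∀ a b e : ℕ, a ∈ range D.m → b ∈ range D.m → e ∈ range D.m → (q, a, b, e) ∈ D.USAB :=
    fun a b e ha hb he => mem_product.2 ⟨u0, mem_product.2 ⟨ha, mem_product.2 ⟨hb, he⟩⟩⟩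
  rw [mem_biUnion]
  rcases ar_six_SAB (D.x l) hx with h | h | h | h | h | h
  · exact ⟨(q, i, j, l), mem_filter.2 ⟨hm _ _ _ u1 u2 u3, ⟨⟨g1, g2, g3⟩, c1, c2, c3⟩, h⟩, by simp⟩
  · exact ⟨(q, j, i, l), mem_filter.2 ⟨hm _ _ _ u2 u1 u3, ⟨⟨g2, g1, g3⟩, c1', c3, c2⟩, h⟩, by simp⟩
  · exact ⟨(q, i, l, j), mem_filter.2 ⟨hm _ _ _ u1 u3 u2, ⟨⟨g1, g3, g2⟩, c2, c1, c3'⟩, h⟩, by simp⟩
  · exact ⟨(q, l, i, j), mem_filter.2 ⟨hm _ _ _ u3 u1 u2, ⟨⟨g3, g1, g2⟩, c2', c3', c1⟩, h⟩, by simp⟩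
  · exact ⟨(q, j, l, i), mem_filter.2 ⟨hm _ _ _ u2 u3 u1, ⟨⟨g2, g3, g1⟩, c3, c1', c2'⟩, h⟩, by simp⟩
  · exact ⟨(q, l, j, i), mem_filter.2 ⟨hm _ _ _ u3 u2 u1, ⟨⟨g3, g2, g1⟩, c3', c2', c1'⟩, h⟩,
      by simp⟩

theorem R_ge_SAB {D : SD} {K : ℝ} {c : ℕ} (h : D.Hyp K c) {G2 : Finset ((ℝ × ℝ) × ℕ)}
    (hC : K ^ (8 * c + 11) ≤ D.C) (hG : G2 ⊆ D.G) (hb : D.N * D.m / K ≤ G2.card) :
    D.N * (D.m : ℝ) ^ 3 / K ^ 9 ≤
      (D.USAB.filter fun z => D.RSAB G2 ((K ^ 8) ^ c * D.N / D.C ^ 2) z ∧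
        ArSAB (D.x z.2.1) (D.x z.2.2.1) (D.x z.2.2.2)).card := by
  have hK2 := h.two_le
  have hK : 0 < K := by linarith
  have hK1 : 1 ≤ K := by linarith
  have hN := h.N_pos
  have hCp := h.C_pos
  have hm : (0 : ℝ) < D.m := by exact_mod_cast h.m_pos
  set Γ := (K ^ 8) ^ c with hΓ
  have hΓ0 : 0 < Γ := by positivity
  have hΓC : Γ * K ^ 9 ≤ D.C := by
    refine le_trans ?_ hC
    rw [hΓ, ← pow_mul, ← pow_add]
    exact pow_le_pow_right₀ hK1 (by omega)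
  have hΓC' : Γ ≤ D.C := le_trans (le_mul_of_one_le_right hΓ0.le (one_le_pow₀ hK1)) hΓC
  have hbad := h.ind (K ^ 8) D.m (le_self_pow₀ hK1 (by norm_num)) hΓC'
    (by rw [div_le_iff₀ hCp]; nlinarith) le_rfl
  rw [← hΓ] at hbad
  set g := Γ * D.N / D.C ^ 2 with hg
  have hg0 : 0 ≤ g := by positivity
  have hmem : ∀ z ∈ D.USAB, z.2.1 ∈ range D.m ∧ z.2.2.1 ∈ range D.m ∧ z.2.2.2 ∈ range D.m := by
    intro z hz
    simp only [SD.USAB, mem_product] at hz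
    exact hz.2
  have b1 := inj_le_SAB (D.USAB.filter fun z => InSAB G2 z ∧ ¬ (D.cell z.1 z.2.1 z.2.2.1 : ℝ) ≤ g)
    ((D.tri D.m).filter fun z => ¬ D.Good Γ D.m z.1 z.2.1 z.2.2) (range D.m)
    (fun z => ((z.1, z.2.1, z.2.2.1), z.2.2.2))
    (fun z hz => by
      obtain ⟨hU, hI, hc⟩ := mem_filter.1 hz
      exact ⟨bad_mem_SAB h (hG hI.1) (hG hI.2.1) hc, (hmem z hU).2.2⟩)
    (by rintro ⟨a, b, c, d⟩ ⟨a', b', c', d'⟩ h; simp only [Prod.mk.injEq] at h ⊢; tauto)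
  have b2 := inj_le_SAB (D.USAB.filter fun z => InSAB G2 z ∧ ¬ (D.cell z.1 z.2.1 z.2.2.2 : ℝ) ≤ g)
    ((D.tri D.m).filter fun z => ¬ D.Good Γ D.m z.1 z.2.1 z.2.2) (range D.m)
    (fun z => ((z.1, z.2.1, z.2.2.2), z.2.2.1))
    (fun z hz => by
      obtain ⟨hU, hI, hc⟩ := mem_filter.1 hz
      exact ⟨bad_mem_SAB h (hG hI.1) (hG hI.2.2) hc, (hmem z hU).2.1⟩)
    (by rintro ⟨a, b, c, d⟩ ⟨a', b', c', d'⟩ h; simp only [Prod.mk.injEq] at h ⊢; tauto)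
  have b3 := inj_le_SAB
    (D.USAB.filter fun z => InSAB G2 z ∧ ¬ (D.cell z.1 z.2.2.1 z.2.2.2 : ℝ) ≤ g)
    ((D.tri D.m).filter fun z => ¬ D.Good Γ D.m z.1 z.2.1 z.2.2) (range D.m)
    (fun z => ((z.1, z.2.2.1, z.2.2.2), z.2.1))
    (fun z hz => by
      obtain ⟨hU, hI, hc⟩ := mem_filter.1 hz
      exact ⟨bad_mem_SAB h (hG hI.2.1) (hG hI.2.2) hc, (hmem z hU).1⟩)
    (by rintro ⟨a, b, c, d⟩ ⟨a', b', c', d'⟩ h; simp only [Prod.mk.injEq] at h ⊢; tauto)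
  have b4 := eqx_le_SAB h hG hg0
  have b5 := six_le_SAB D G2 g
  have b0 := quad_ge_SAB h hG hb
  have hsub : D.USAB.filter (InSAB G2) ⊆
      (D.USAB.filter fun z => InSAB G2 z ∧ ¬ (D.cell z.1 z.2.1 z.2.2.1 : ℝ) ≤ g) ∪
      ((D.USAB.filter fun z => InSAB G2 z ∧ ¬ (D.cell z.1 z.2.1 z.2.2.2 : ℝ) ≤ g) ∪
      ((D.USAB.filter fun z => InSAB G2 z ∧ ¬ (D.cell z.1 z.2.2.1 z.2.2.2 : ℝ) ≤ g) ∪
      ((D.USAB.filter fun z => InSAB G2 z ∧ (D.cell z.1 z.2.1 z.2.2.1 : ℝ) ≤ g ∧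
        D.x z.2.1 = D.x z.2.2.1) ∪
      (D.USAB.filter fun z => D.RSAB G2 g z ∧ D.x z.2.1 ≠ D.x z.2.2.1)))) := by
    intro z hz
    simp only [mem_union, mem_filter] at hz ⊢
    unfold SD.RSAB
    tauto
  have hc := (card_le_card hsub).trans ((card_union_le _ _).trans (Nat.add_le_add_left
    ((card_union_le _ _).trans (Nat.add_le_add_left ((card_union_le _ _).trans
      (Nat.add_le_add_left ((card_union_le _ _).trans (Nat.add_le_add_left b5 _)) _)) _)) _))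
  have hc' := (Nat.cast_le (α := ℝ)).2 hc
  push_cast at hc'
  rw [card_range] at b1 b2 b3
  unfold SD.badT at hbad
  have hb' : (((D.tri D.m).filter fun z => ¬ D.Good Γ D.m z.1 z.2.1 z.2.2).card : ℝ) * D.m ≤
      K * (D.N * (D.m : ℝ) ^ 3 / K ^ 9) := by
    refine (mul_le_mul_of_nonneg_right hbad hm.le).trans (le_of_eq ?_)
    field_simp
  have he : (D.m : ℝ) ^ 3 * (g * (K * D.C)) ≤ K * (D.N * (D.m : ℝ) ^ 3 / K ^ 9) := by
    have e1 : (D.m : ℝ) ^ 3 * (g * (K * D.C)) =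
        K * (D.N * (D.m : ℝ) ^ 3 / K ^ 9) * (Γ * K ^ 9 / D.C) := by
      rw [hg]; field_simp
    rw [e1]
    exact mul_le_of_le_one_right (by positivity) ((div_le_one hCp).2 hΓC)
  have e2 : D.N * (D.m : ℝ) ^ 3 / K ^ 5 = K ^ 4 * (D.N * (D.m : ℝ) ^ 3 / K ^ 9) := by
    field_simp
  have hw : 0 < D.N * (D.m : ℝ) ^ 3 / K ^ 9 := by positivity
  rw [e2] at b0
  set w := D.N * (D.m : ℝ) ^ 3 / K ^ 9
  have hk : 4 * K + 6 ≤ K ^ 4 := by
    have h3 : 2 ^ 3 ≤ K ^ 3 := pow_le_pow_left₀ (by norm_num) hK2 3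
    nlinarith
  have := mul_le_mul_of_nonneg_right hk hw.le
  linarith

theorem cs_SAB {α β : Type*} [DecidableEq β] (S : Finset α) (Y : Finset β) (φ : α → β)
    (hφ : ∀ a ∈ S, φ a ∈ Y) :
    (S.card : ℝ) ^ 2 ≤ Y.card * ((S ×ˢ S).filter fun p => φ p.1 = φ p.2).card := by
  have h1 : S.card = ∑ y ∈ Y, (S.filter fun a => φ a = y).card := card_eq_sum_card_fiberwise hφ
  have h2 : ((S ×ˢ S).filter fun p => φ p.1 = φ p.2).card =
      ∑ y ∈ Y, (S.filter fun a => φ a = y).card ^ 2 := by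
    rw [card_eq_sum_card_fiberwise (f := fun p : α × α => φ p.1) (t := Y)
      (fun p hp => hφ _ (mem_product.1 (mem_filter.1 hp).1).1)]
    refine sum_congr rfl fun y _ => ?_
    rw [sq, ← card_product]
    congr 1
    ext p
    simp only [mem_filter, mem_product]
    constructor
    · rintro ⟨⟨⟨h1, h2⟩, h3⟩, h4⟩
      exact ⟨⟨h1, h4⟩, h2, h3 ▸ h4⟩
    · rintro ⟨⟨h1, h2⟩, h3, h4⟩
      exact ⟨⟨⟨h1, h3⟩, h2.trans h4.symm⟩, h2⟩
  rw [h1, h2]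
  push_cast
  exact sq_sum_le_card_mul_sum_sq

theorem near_le_SAB (i : ℕ) {t : ℝ} (ht : 1 ≤ t) (S : Finset ℕ) (hS : ∀ j ∈ S, |(i : ℝ) - j| ≤ t) :
    (S.card : ℝ) ≤ 3 * t := by
  have h1 : S ⊆ Icc (i - ⌊t⌋₊) (i + ⌊t⌋₊) := by
    intro j hj
    have h2 := abs_le.1 (hS j hj)
    rw [mem_Icc]
    constructor
    · rcases le_total i j with h3 | h3
      · omega
      · have : i - j ≤ ⌊t⌋₊ := Nat.le_floor (by rw [Nat.cast_sub h3]; exact h2.2)
        omega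
    · rcases le_total i j with h3 | h3
      · have : j - i ≤ ⌊t⌋₊ := Nat.le_floor (by rw [Nat.cast_sub h3]; linarith [h2.1])
        omega
      · omega
  have h2 := card_le_card h1
  rw [Nat.card_Icc] at h2
  have h3 : S.card ≤ 2 * ⌊t⌋₊ + 1 := by omega
  have h4 : (S.card : ℝ) ≤ 2 * ⌊t⌋₊ + 1 := by exact_mod_cast h3
  have h5 : (⌊t⌋₊ : ℝ) ≤ t := Nat.floor_le (by linarith)
  linarith

theorem SD.frame (c : ℕ) : ∃ c' : ℕ, ∀ (D : SD) (K : ℝ) (G2 : Finset ((ℝ × ℝ) × ℕ)),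
    D.Hyp K c → K ^ c' ≤ D.C → G2 ⊆ D.G → D.N * D.m / K ≤ G2.card →
    ∃ a b La AA, D.Frame G2 a b La AA (K ^ c') := by
  refine ⟨8 * c + 11, fun D K G2 h hC hG hb => ?_⟩
  have hR := R_ge_SAB h hC hG hb
  have hK2 := h.two_le
  have hK : 0 < K := by linarith
  have hK1 : 1 ≤ K := by linarith
  have hN := h.N_pos
  have hCp := h.C_pos
  have hm : (0 : ℝ) < D.m := by exact_mod_cast h.m_pos
  set g := (K ^ 8) ^ c * D.N / D.C ^ 2 with hg
  have hne : (range D.m).Nonempty := ⟨0, mem_range.2 h.m_pos⟩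
  unfold SD.USAB at hR
  rw [card_prod_right_SAB, sum_product] at hR
  push_cast at hR
  obtain ⟨a, ha, h1⟩ := exists_le_of_sum_le (f := fun _ => D.N * (D.m : ℝ) ^ 2 / K ^ 9) hne
    (le_trans (le_of_eq (by rw [sum_const, card_range, nsmul_eq_mul]; ring)) hR)
  rw [sum_product] at h1
  obtain ⟨b, hb', h2⟩ := exists_le_of_sum_le (f := fun _ => D.N * (D.m : ℝ) / K ^ 9) hne
    (le_trans (le_of_eq (by rw [sum_const, card_range, nsmul_eq_mul]; ring)) h1)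
  set AA : ℕ → Finset (ℝ × ℝ) := fun i => D.L.filter fun q =>
    D.RSAB G2 g (q, a, b, i) ∧ ArSAB (D.x a) (D.x b) (D.x i) with hAA
  have h3 : D.N * (D.m : ℝ) / K ^ 9 ≤ ∑ i ∈ range D.m, ((AA i).card : ℝ) := h2
  set La := (range D.m).filter fun i => D.N / K ^ 10 ≤ (AA i).card with hLa
  have h4 : ∑ i ∈ range D.m, ((AA i).card : ℝ) ≤ La.card * (K * D.N) + D.m * (D.N / K ^ 10) := by
    rw [← sum_filter_add_sum_filter_not (range D.m) (fun i => D.N / K ^ 10 ≤ (AA i).card)]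
    refine add_le_add ?_ ?_
    · rw [← nsmul_eq_mul]
      refine sum_le_card_nsmul _ _ _ fun i _ => le_trans ?_ h.L_le
      exact_mod_cast card_filter_le _ _
    · refine (sum_le_card_nsmul _ _ (D.N / K ^ 10) fun i hi =>
        (not_le.1 (mem_filter.1 hi).2).le).trans ?_
      rw [nsmul_eq_mul]
      refine mul_le_mul_of_nonneg_right ?_ (by positivity)
      exact_mod_cast (card_filter_le _ _).trans (card_range _).le
  have h5 : (D.m : ℝ) / K ^ 11 ≤ La.card := by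
    have e1 : D.N * (D.m : ℝ) / K ^ 9 = K * (D.m * (D.N / K ^ 10)) := by field_simp
    have e2 : (D.m : ℝ) * (D.N / K ^ 10) = (D.m : ℝ) / K ^ 11 * (K * D.N) := by field_simp
    have hw : 0 ≤ (D.m : ℝ) * (D.N / K ^ 10) := by positivity
    have h6 : (D.m : ℝ) / K ^ 11 * (K * D.N) ≤ La.card * (K * D.N) := by
      rw [← e2]; nlinarith
    exact le_of_mul_le_mul_right h6 (by positivity)
  have hA : ∀ i ∈ La, ArSAB (D.x a) (D.x b) (D.x i) := by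
    intro i hi
    have h6 : (0 : ℝ) < (AA i).card := lt_of_lt_of_le (by positivity) (mem_filter.1 hi).2
    obtain ⟨q, hq⟩ := card_pos.1 (Nat.cast_pos.1 h6)
    exact (mem_filter.1 hq).2.2
  have hLne : La.Nonempty := by
    have h6 : (0 : ℝ) < La.card := lt_of_lt_of_le (by positivity) h5
    exact card_pos.1 (Nat.cast_pos.1 h6)
  obtain ⟨i0, hi0⟩ := hLne
  have hgle : g ≤ K ^ (8 * c + 11) * D.N / D.C ^ 2 := by
    rw [hg, ← pow_mul]
    have : K ^ (8 * c) ≤ K ^ (8 * c + 11) := pow_le_pow_right₀ hK1 (by omega)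
    gcongr
  refine ⟨a, b, La, AA, (hA i0 hi0).1, mem_range.1 ha, mem_range.1 hb', filter_subset _ _,
    le_trans ?_ h5, fun i hi => (hA i hi).2, fun i hi => le_trans ?_ (mem_filter.1 hi).2,
    fun i _ q hq => (mem_filter.1 hq).2.1.1, fun i _ q hq => ?_⟩
  · exact div_le_div_of_nonneg_left hm.le (by positivity) (pow_le_pow_right₀ hK1 (by omega))
  · exact div_le_div_of_nonneg_left hN.le (by positivity) (pow_le_pow_right₀ hK1 (by omega))
  · have h6 := (mem_filter.1 hq).2.1.2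
    exact ⟨h6.1.trans hgle, h6.2.1.trans hgle, h6.2.2.trans hgle⟩

theorem SD.piece (c : ℕ) : ∃ c' : ℕ, ∀ (D : SD) (K t : ℝ) (Z : Finset ℕ)
    (AA : ℕ → Finset (ℝ × ℝ)) (pc : ℕ → ℕ), D.Hyp K c → K ^ c' ≤ D.C → Z ⊆ range D.m →
    D.m / K ≤ Z.card → (∀ i ∈ Z, ∀ q ∈ AA i, (q, i) ∈ D.G) → (∀ i ∈ Z, D.N / K ≤ (AA i).card) →
    K ^ c' * D.m / D.C ≤ t → t ≤ D.m → ((Z.image pc).card : ℝ) ≤ K * D.m / t →
    (∀ i ∈ Z, ∀ i' ∈ Z, pc i = pc i' → |(i : ℝ) - i'| ≤ t) →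
    ∃ i ∈ Z, ∃ i' ∈ Z, pc i = pc i' ∧ D.N / K ^ c' ≤ (((AA i ∩ AA i').filter fun q =>
      (D.cell q i i' : ℝ) ≤ K ^ c' * D.N * D.m / (D.C ^ 2 * t)).card : ℝ) := by
  refine ⟨7 * c + 9, fun D K t Z AA pc h hC hZ hZb hAG hAb ht htm hpc hnear => ?_⟩
  have hK2 := h.two_le
  have hK : 0 < K := by linarith
  have hK1 : 1 ≤ K := by linarith
  have hN := h.N_pos
  have hCp := h.C_pos
  have hm : (0 : ℝ) < D.m := by exact_mod_cast h.m_pos
  have hΓ : (K ^ 7) ^ c ≤ K ^ (7 * c + 9) := by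
    rw [← pow_mul]; exact pow_le_pow_right₀ hK1 (by omega)
  have ht1 : 1 ≤ t := by
    refine le_trans ?_ ht
    rw [le_div_iff₀ hCp, one_mul]
    refine h.C_le.trans (mul_le_mul_of_nonneg_right (le_self_pow₀ hK1 (by omega)) hm.le)
  have ht0 : 0 < t := by linarith
  have hbad := h.ind (K ^ 7) t (le_self_pow₀ hK1 (by norm_num)) (hΓ.trans hC)
    (le_trans (by gcongr) ht) htm
  unfold SD.badT at hbad
  by_contra hcon
  push Not at hcon
  set S := (D.L ×ˢ Z).filter fun w => w.1 ∈ AA w.2 with hS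
  have hAL : ∀ i ∈ Z, AA i ⊆ D.L := fun i hi q hq => (mem_product.1 (h.G_sub (hAG i hi q hq))).1
  have hS1 : D.N * D.m / K ^ 2 ≤ (S.card : ℝ) := by
    rw [hS, card_prod_right_SAB]
    push_cast
    have h1 : Z.card • (D.N / K) ≤ ∑ i ∈ Z, ((D.L.filter fun q => q ∈ AA i).card : ℝ) := by
      refine card_nsmul_le_sum _ _ _ fun i hi => (hAb i hi).trans ?_
      exact_mod_cast card_le_card fun q hq => mem_filter.2 ⟨hAL i hi hq, hq⟩
    rw [nsmul_eq_mul] at h1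
    refine le_trans ?_ h1
    have e : D.N * D.m / K ^ 2 = D.m / K * (D.N / K) := by field_simp
    rw [e]
    exact mul_le_mul_of_nonneg_right hZb (by positivity)
  have hcs := cs_SAB S (D.L ×ˢ Z.image pc) (fun w => (w.1, pc w.2)) (fun w hw => by
    have h1 := mem_product.1 (mem_filter.1 hw).1
    exact mem_product.2 ⟨h1.1, mem_image_of_mem _ h1.2⟩)
  set T := (D.L ×ˢ ((Z ×ˢ Z).filter fun y => pc y.1 = pc y.2)).filter fun z =>
    z.1 ∈ AA z.2.1 ∧ z.1 ∈ AA z.2.2 with hT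
  have hT1 : ((S ×ˢ S).filter fun p => (p.1.1, pc p.1.2) = (p.2.1, pc p.2.2)).card ≤ T.card := by
    refine card_le_card_of_injOn (fun p => (p.1.1, p.1.2, p.2.2)) (fun p hp => ?_) ?_
    · simp only [hS, hT, coe_filter, mem_filter, mem_product, Set.mem_ofPred_eq,
        Prod.mk.injEq] at hp ⊢
      obtain ⟨⟨⟨⟨h1, h2⟩, h3⟩, ⟨h4, h5⟩, h6⟩, h7, h8⟩ := hp
      exact ⟨⟨h1, ⟨h2, h5⟩, h8⟩, h3, h7 ▸ h6⟩
    · rintro ⟨⟨a, b⟩, a1, b1⟩ hp ⟨⟨a', b'⟩, a1', b1'⟩ hp' he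
      have h1 := (mem_filter.1 (mem_coe.1 hp)).2
      have h2 := (mem_filter.1 (mem_coe.1 hp')).2
      simp only [Prod.mk.injEq] at h1 h2 he ⊢
      obtain ⟨rfl, rfl, rfl⟩ := he
      exact ⟨⟨rfl, rfl⟩, h1.1.symm.trans h2.1, rfl⟩
  have hT2 : D.N * D.m * t / K ^ 6 ≤ (T.card : ℝ) := by
    have h1 : ((D.L ×ˢ Z.image pc).card : ℝ) ≤ K * D.N * (K * D.m / t) := by
      rw [card_product]
      push_cast
      exact mul_le_mul h.L_le hpc (Nat.cast_nonneg _) (by positivity)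
    have h2 : (D.N * D.m / K ^ 2) ^ 2 ≤ K * D.N * (K * D.m / t) * T.card :=
      (pow_le_pow_left₀ (by positivity) hS1 2).trans (hcs.trans
        (mul_le_mul h1 (by exact_mod_cast hT1) (Nat.cast_nonneg _) (by positivity)))
    have e : (D.N * D.m / K ^ 2) ^ 2 = K * D.N * (K * D.m / t) * (D.N * D.m * t / K ^ 6) := by
      field_simp
    rw [e] at h2
    exact le_of_mul_le_mul_left h2 (by positivity)
  set T' := (D.L ×ˢ ((Z ×ˢ Z).filter fun y => pc y.1 = pc y.2)).filter fun z =>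
    z.1 ∈ AA z.2.1 ∧ z.1 ∈ AA z.2.2 ∧
      (D.cell z.1 z.2.1 z.2.2 : ℝ) ≤ K ^ (7 * c + 9) * D.N * D.m / (D.C ^ 2 * t) with hT'
  have hsub : T ⊆ T' ∪ (D.tri t).filter fun z => ¬ D.Good ((K ^ 7) ^ c) t z.1 z.2.1 z.2.2 := by
    intro z hz
    obtain ⟨h1, h2, h3⟩ := mem_filter.1 hz
    obtain ⟨h4, h5⟩ := mem_product.1 h1
    obtain ⟨h6, h7⟩ := mem_filter.1 h5
    obtain ⟨h8, h9⟩ := mem_product.1 h6
    by_cases hg : D.Good ((K ^ 7) ^ c) t z.1 z.2.1 z.2.2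
    · refine mem_union_left _ (mem_filter.2 ⟨h1, h2, h3, hg.1.trans ?_⟩)
      gcongr
    · exact mem_union_right _ (mem_filter.2 ⟨mem_filter.2 ⟨mem_product.2 ⟨h4,
        mem_product.2 ⟨hZ h8, hZ h9⟩⟩, hAG _ h8 _ h2, hAG _ h9 _ h3, hnear _ h8 _ h9 h7⟩, hg⟩)
  have hc := (Nat.cast_le (α := ℝ)).2 ((card_le_card hsub).trans (card_union_le _ _))
  push_cast at hc
  have hP : (((Z ×ˢ Z).filter fun y => pc y.1 = pc y.2).card : ℝ) ≤ D.m * (3 * t) := by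
    rw [card_prod_left_SAB]
    push_cast
    refine (sum_le_card_nsmul _ _ (3 * t) fun i hi => near_le_SAB i ht1 _ fun j hj =>
      hnear i hi j (mem_filter.1 hj).1 (mem_filter.1 hj).2).trans ?_
    rw [nsmul_eq_mul]
    refine mul_le_mul_of_nonneg_right ?_ (by positivity)
    exact_mod_cast (card_le_card hZ).trans (card_range _).le
  have hT3 : (T'.card : ℝ) ≤ D.m * (3 * t) * (D.N / K ^ 9) := by
    rw [hT', card_prod_right_SAB]
    push_cast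
    refine (sum_le_card_nsmul _ _ (D.N / K ^ 9) fun y hy => ?_).trans ?_
    · obtain ⟨h6, h7⟩ := mem_filter.1 hy
      obtain ⟨h8, h9⟩ := mem_product.1 h6
      refine le_trans ?_ ((hcon _ h8 _ h9 h7).le.trans (div_le_div_of_nonneg_left hN.le
        (by positivity) (pow_le_pow_right₀ hK1 (by omega))))
      refine Nat.cast_le.2 (card_le_card fun q hq => ?_)
      obtain ⟨_, h1, h2, h3⟩ := mem_filter.1 hq
      exact mem_filter.2 ⟨mem_inter.2 ⟨h1, h2⟩, h3⟩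
    · rw [nsmul_eq_mul]
      exact mul_le_mul_of_nonneg_right hP (by positivity)
  have e1 : D.N * D.m * t / K ^ 6 = K ^ 3 * (D.N * D.m * t / K ^ 9) := by field_simp
  have e2 : D.N * D.m * t / K ^ 7 = K ^ 2 * (D.N * D.m * t / K ^ 9) := by field_simp
  have e3 : D.m * (3 * t) * (D.N / K ^ 9) = 3 * (D.N * D.m * t / K ^ 9) := by field_simp
  have hw : 0 < D.N * D.m * t / K ^ 9 := by positivity
  rw [e1] at hT2
  rw [e2] at hbad
  rw [e3] at hT3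
  set w := D.N * D.m * t / K ^ 9
  have hk : K ^ 2 + 4 ≤ K ^ 3 := by nlinarith
  have := mul_le_mul_of_nonneg_right hk hw.le
  linarith

end Vale.Agent.P065.U
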