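import Vale.Agent.P065.U.SMv

/-!
P065/U task SCS: most pairs satisfy `Self`, most triples satisfy `Cross`.

Proof. Let badM ≤ ε N m³ (`badM_le`; ε is made a small power of 1/K' by choosing lam, then τ, and
using U ≤ C/K'^c', K'^c' ≤ C). I_q = {i | (q,i) ∈ G}, |L| ≤ K N, m ≥ C/K (`Hyp.C_le`).
Cross. The diagonal has ≤ K N m = N m² K/m triples. For i' < i: if fewer than η m elements of I_q
exceed i, count ≤ K N η m·m. Otherwise one good quadruple (q,i',i,l) gives Int at i', i and, by the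
fourth comparison and x l - x i ≤ x l - x i', Cross q i i'; all bad happens ≤ ε N m³/(η m) times.
For i < i' use l < i and the sixth comparison. Total ≤ εX N m², εX = 2Kη + 2ε/η + K²/C.
Self. Drop i among the top or bottom 2ηm elements of I_q (η m ≥ 1). A good (q,i,j,l) gives by
comparisons 2, 5, 4: rho s i u ≤ rho (!s) i (u T³) (and `rho_mono` for equal signs). A good
(q,i',i,l') with Cross q i' i and Cross q l' i gives, with the outer index of weight at most half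
(comparison 4 or 6), 2 rho s' i (u T³) ≤ rho s' i (u T^5). There are ≥ η²m² choices of each kind.
-/

namespace Vale.Agent.P065.U

open Finset Classical

theorem scs_top (R : ℕ → ℕ → Prop) [DecidableRel R] (tr : ∀ a b c, R a b → R b c → R a c)
    (ir : ∀ a, ¬ R a a) (tot : ∀ a b, a ≠ b → R a b ∨ R b a) (I : Finset ℕ) (r k : ℕ) :
    ∑ i ∈ I, (if (I.filter (R i)).card < r then k else 0) ≤ r * k := by
  have h : ∀ a ∈ I, ∀ b ∈ I, R a b → (I.filter (R b)).card < (I.filter (R a)).card :=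
    fun a _ b hb hab => card_lt_card ⟨fun c hc => mem_filter.2
      ⟨(mem_filter.1 hc).1, tr _ _ _ hab (mem_filter.1 hc).2⟩,
      fun hs => ir b (mem_filter.1 (hs (mem_filter.2 ⟨hb, hab⟩))).2⟩
  rw [← sum_filter, sum_const, smul_eq_mul]
  refine Nat.mul_le_mul_right _ ((card_le_card_of_injOn (t := range r)
    (fun i => (I.filter (R i)).card) (fun i hi => ?_) fun a ha b hb e => ?_).trans_eq
      (card_range r))
  · exact mem_coe.2 (mem_range.2 (mem_filter.1 (mem_coe.1 hi)).2)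
  · by_contra hne
    have ha' := (mem_filter.1 (mem_coe.1 ha)).1
    have hb' := (mem_filter.1 (mem_coe.1 hb)).1
    rcases tot a b hne with h1 | h1
    · exact (h a ha' b hb' h1).ne' e
    · exact (h b hb' a ha' h1).ne e

theorem scs_up (I : Finset ℕ) (r k : ℕ) :
    ∑ i ∈ I, (if (I.filter (i < ·)).card < r then k else 0) ≤ r * k :=
  scs_top (· < ·) (fun _ _ _ => lt_trans) lt_irrefl (fun _ _ => lt_or_gt_of_ne) I r k

theorem scs_dn (I : Finset ℕ) (r k : ℕ) :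
    ∑ i ∈ I, (if (I.filter (· < i)).card < r then k else 0) ≤ r * k :=
  scs_top (· > ·) (fun _ _ _ => gt_trans) lt_irrefl (fun _ _ h => (lt_or_gt_of_ne h).symm) I r k

theorem scs_le {I : Finset ℕ} {p : ℕ → Prop} [DecidablePred p] {r y : ℕ} {f : ℕ → ℕ}
    (hr : ¬ (I.filter p).card < r) (h : ∀ l ∈ I, p l → y ≤ f l) : r * y ≤ ∑ l ∈ I, f l := by
  refine (Nat.mul_le_mul_right _ (not_lt.1 hr)).trans (le_trans ?_
    (sum_le_sum_of_subset (filter_subset p I)))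
  exact card_nsmul_le_sum _ _ _ fun l hl => h l (mem_filter.1 hl).1 (mem_filter.1 hl).2

theorem scs_cross {I : Finset ℕ} {m r : ℕ} (hm : I.card ≤ m) (hr : 1 ≤ r) {x : ℕ → ℕ → ℕ}
    {t : ℕ → ℕ → ℕ → ℕ} (hx : ∀ i j, x i j ≤ 1)
    (h : ∀ i ∈ I, ∀ j ∈ I, ∀ l ∈ I, i < j → j < l → x j i ≤ t i j l ∧ x j l ≤ t i j l) :
    r * ∑ j ∈ I, ∑ i ∈ I, x j i ≤ 3 * r ^ 2 * m + 2 * ∑ i ∈ I, ∑ j ∈ I, ∑ l ∈ I, t i j l := by
  have h1 : ∀ j ∈ I, ∀ i ∈ I, r * x j i ≤ (if j = i then r else 0) +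
      (if (I.filter (j < ·)).card < r then r else 0) +
      (if (I.filter (· < j)).card < r then r else 0) + ∑ l ∈ I, t i j l + ∑ l ∈ I, t l j i := by
    intro j hj i hi
    have h0 : r * x j i ≤ r := by simpa using Nat.mul_le_mul_left r (hx j i)
    rcases lt_trichotomy j i with h2 | h2 | h2
    · by_cases h3 : (I.filter (· < j)).card < r
      · rw [if_pos h3]
        omega
      · have := scs_le h3 fun l hl hlj => (h l hl j hj i hi hlj h2).2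
        omega
    · rw [if_pos h2]
      omega
    · by_cases h3 : (I.filter (j < ·)).card < r
      · rw [if_pos h3]
        omega
      · have := scs_le h3 fun l hl hlj => (h i hi j hj l hl h2 hlj).1
        omega
  have h2 := sum_le_sum fun j hj => sum_le_sum (h1 j hj)
  simp only [← mul_sum, sum_add_distrib] at h2
  have e1 : ∑ j ∈ I, ∑ i ∈ I, (if j = i then r else 0) ≤ r ^ 2 * m := by
    rw [sum_congr rfl fun j hj => (sum_ite_eq I j fun _ => r).trans (if_pos hj), sum_const,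
      smul_eq_mul, mul_comm]
    exact Nat.mul_le_mul (Nat.le_self_pow two_ne_zero r) hm
  have e2 : ∀ f : ℕ → ℕ, ∑ j ∈ I, f j ≤ r * r → ∑ j ∈ I, ∑ _i ∈ I, f j ≤ r ^ 2 * m := fun f hf => by
    rw [sum_comm, sum_const, smul_eq_mul, mul_comm, sq]
    exact Nat.mul_le_mul hf hm
  have e3 := e2 _ (scs_up I r r)
  have e4 := e2 _ (scs_dn I r r)
  have e5 : ∑ j ∈ I, ∑ i ∈ I, ∑ l ∈ I, t i j l = ∑ i ∈ I, ∑ j ∈ I, ∑ l ∈ I, t i j l := sum_comm
  have e6 : ∑ j ∈ I, ∑ i ∈ I, ∑ l ∈ I, t l j i = ∑ i ∈ I, ∑ j ∈ I, ∑ l ∈ I, t i j l :=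
    (sum_congr rfl fun j _ => sum_comm).trans sum_comm
  rw [e5, e6] at h2
  linarith

theorem scs_self {I : Finset ℕ} {m r : ℕ} (hm : I.card ≤ m) {s : ℕ → ℕ} {x : ℕ → ℕ → ℕ}
    {t : ℕ → ℕ → ℕ → ℕ} (hs : ∀ i, s i ≤ 1)
    (h : ∀ i ∈ I, (∀ j ∈ I, ∀ l ∈ I, i < j → j < l → s i ≤ t i j l) ∨
      ∀ j ∈ I, ∀ l ∈ I, j < i → i < l → s i ≤ t j i l + x j i + x l i) :
    r ^ 2 * ∑ i ∈ I, s i ≤ 3 * r ^ 3 + 2 * ∑ i ∈ I, ∑ j ∈ I, ∑ l ∈ I, t i j l +
      2 * m * ∑ j ∈ I, ∑ i ∈ I, x j i := by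
  have h1 : ∀ i ∈ I, r ^ 2 * s i ≤ (if (I.filter (i < ·)).card < 2 * r then r ^ 2 else 0) +
      (if (I.filter (· < i)).card < r then r ^ 2 else 0) + ∑ j ∈ I, ∑ l ∈ I, t i j l +
      ∑ j ∈ I, ∑ l ∈ I, t j i l + 2 * m * ∑ j ∈ I, x j i := by
    intro i hi
    have h0 : r ^ 2 * s i ≤ r ^ 2 := by simpa using Nat.mul_le_mul_left (r ^ 2) (hs i)
    by_cases h2 : (I.filter (i < ·)).card < 2 * r
    · rw [if_pos h2]
      omega
    by_cases h3 : (I.filter (· < i)).card < r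
    · rw [if_pos h3]
      omega
    rw [if_neg h2, if_neg h3]
    rcases h i hi with h4 | h4
    · have a1 : ∀ j ∈ I.filter (i < ·), r * s i ≤
          (if (I.filter (j < ·)).card < r then r * s i else 0) + ∑ l ∈ I, t i j l := fun j hj => by
        rw [mem_filter] at hj
        by_cases h5 : (I.filter (j < ·)).card < r
        · rw [if_pos h5]
          omega
        · rw [if_neg h5, zero_add]
          exact scs_le h5 fun l hl hjl => h4 j hj.1 l hl hj.2 hjl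
      have a2 := (card_nsmul_le_sum _ _ _ a1).trans (sum_le_sum_of_subset (filter_subset _ I))
      rw [sum_add_distrib, smul_eq_mul] at a2
      have a3 := scs_up I r (r * s i)
      have a4 := Nat.mul_le_mul_right (r * s i) (not_lt.1 h2)
      rw [mul_assoc] at a4
      rw [sq, mul_assoc]
      omega
    · have a0 : ¬ (I.filter (i < ·)).card < r := by omega
      have a1 := scs_le (y := r * s i) (f := fun j => ∑ l ∈ I, (t j i l + x j i + x l i)) h3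
        fun j hj hji => scs_le a0 fun l hl hil => h4 j hj l hl hji hil
      simp only [sum_add_distrib, sum_const, smul_eq_mul, ← mul_sum] at a1
      have a2 := Nat.mul_le_mul_right (∑ j ∈ I, x j i) hm
      rw [sq, mul_assoc, mul_assoc]
      omega
  have h2 := sum_le_sum h1
  simp only [← mul_sum, sum_add_distrib] at h2
  have e3 := scs_up I (2 * r) (r ^ 2)
  have e4 := scs_dn I r (r ^ 2)
  have e5 : ∑ i ∈ I, ∑ j ∈ I, ∑ l ∈ I, t j i l = ∑ i ∈ I, ∑ j ∈ I, ∑ l ∈ I, t i j l := sum_comm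
  have e6 : ∑ i ∈ I, ∑ j ∈ I, x j i = ∑ j ∈ I, ∑ i ∈ I, x j i := sum_comm
  rw [e5, e6] at h2
  nlinarith

namespace SD
variable {D : SD} {τ U : ℕ} {q : ℝ × ℝ} {i j l : ℕ}

/-- good quadruples -/
def Gd (D : SD) (τ U : ℕ) (q : ℝ × ℝ) (i j l : ℕ) : Prop :=
  D.Int U q i ∧ D.Int U q j ∧ D.Int U q l ∧ D.Mv τ U q i j l

theorem scs_pos (hom : Monotone D.om) (h : D.Int U q i) {e : ℕ} (he : 2 ^ e ≤ U) (s : Bool) :
    0 < D.rho s q i (2 ^ e) := rho_pos hom h Nat.one_le_two_pow he s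

theorem Gd.cross (hom : Monotone D.om) (h : D.Gd τ U q i j l) :
    D.Cross τ U q j i ∧ D.Cross τ U q j l := by
  obtain ⟨hi, -, hl, h1, h2, h3⟩ := h
  refine ⟨fun e s he => ?_, fun e s he => ?_⟩
  · obtain ⟨-, -, -, h4, -⟩ := h3 e s he
    have h5 := scs_pos hom hi he s
    exact le_of_mul_le_mul_left (a := D.x l - D.x i) (by nlinarith) (by linarith)
  · obtain ⟨-, -, -, -, -, h4⟩ := h3 e s he
    have h5 := scs_pos hom hl he s
    exact le_of_mul_le_mul_left (a := D.x l - D.x i) (by nlinarith) (by linarith)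

theorem scs_pow {a b : ℕ} (h : 2 ^ b ≤ U) (hab : a ≤ b) : 2 ^ a ≤ U :=
  (Nat.pow_le_pow_right two_pos hab).trans h

theorem Gd.flip (h : D.Gd τ U q i j l) (e : ℕ) (s s' : Bool) (he : 2 ^ (e + τ + τ + τ) ≤ U) :
    D.rho s q i (2 ^ e) ≤ D.rho s' q i (2 ^ (e + τ + τ + τ)) := by
  obtain ⟨hi, -, -, h1, h2, h3⟩ := h
  by_cases hs : s' = s
  · rw [hs]
    exact rho_mono hi (Nat.pow_le_pow_right two_pos (by omega)) he s
  · rw [Bool.eq_not_of_ne hs]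
    obtain ⟨-, a1, -⟩ := h3 e s (scs_pow he (by omega))
    obtain ⟨-, -, -, -, a2, -⟩ := h3 (e + τ) (!s) (scs_pow he (by omega))
    obtain ⟨-, -, -, a3, -⟩ := h3 (e + τ + τ) (!s) he
    exact le_of_mul_le_mul_left ((a1.trans a2).trans a3) (by linarith)

theorem Gd.dbl (hom : Monotone D.om) (h : D.Gd τ U q j i l) (c1 : D.Cross τ U q j i)
    (c2 : D.Cross τ U q l i) (e : ℕ) (s : Bool) (he : 2 ^ (e + τ + τ) ≤ U) :
    2 * D.rho s q i (2 ^ e) ≤ D.rho s q i (2 ^ (e + τ + τ)) := by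
  obtain ⟨-, hi, -, h1, h2, h3⟩ := h
  obtain ⟨-, -, -, a1, -, a2⟩ := h3 e s (scs_pow he (by omega))
  have b1 := mul_le_mul_of_nonneg_left (c1 (e + τ) s he) (sub_pos.2 h2).le
  have b2 := mul_le_mul_of_nonneg_left (c2 (e + τ) s he) (sub_pos.2 h1).le
  exact le_of_mul_le_mul_left (a := D.x l - D.x j) (by linarith) (by linarith)

theorem scs_slf (hom : Monotone D.om) {j' l' : ℕ} (h : D.Gd τ U q i j l) (h' : D.Gd τ U q j' i l')
    (c1 : D.Cross τ U q j' i) (c2 : D.Cross τ U q l' i) : D.Int U q i ∧ D.Self τ U q i := by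
  refine ⟨h.1, fun e s s' he => ?_⟩
  have e1 : e + 5 * τ = e + τ + τ + τ + τ + τ := by omega
  rw [e1] at he ⊢
  have a1 := h.flip e s s' (scs_pow he (by omega))
  have a2 := h'.dbl hom c1 c2 _ s' he
  linarith

/-- indices present at `q` -/
noncomputable def Iq (D : SD) (q : ℝ × ℝ) : Finset ℕ := (range D.m).filter fun i => (q, i) ∈ D.G

/-- indicator of bad quadruples -/
noncomputable def tq (D : SD) (τ U : ℕ) (q : ℝ × ℝ) (i j l : ℕ) : ℕ :=
  if i < j ∧ j < l ∧ ¬ D.Gd τ U q i j l then 1 else 0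

/-- indicator of bad triples -/
noncomputable def xq (D : SD) (τ U : ℕ) (q : ℝ × ℝ) (i j : ℕ) : ℕ :=
  if ¬ D.Cross τ U q i j then 1 else 0

/-- indicator of bad pairs -/
noncomputable def yq (D : SD) (τ U : ℕ) (q : ℝ × ℝ) (i : ℕ) : ℕ :=
  if ¬ (D.Int U q i ∧ D.Self τ U q i) then 1 else 0

theorem scs_badM (D : SD) (τ U : ℕ) :
    ∑ q ∈ D.L, ∑ i ∈ D.Iq q, ∑ j ∈ D.Iq q, ∑ l ∈ D.Iq q, D.tq τ U q i j l = D.badM τ U := by
  have e : D.badM τ U = ((D.L ×ˢ range D.m ×ˢ range D.m ×ˢ range D.m).filter fun z =>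
      (z.1, z.2.1) ∈ D.G ∧ (z.1, z.2.2.1) ∈ D.G ∧ (z.1, z.2.2.2) ∈ D.G ∧ z.2.1 < z.2.2.1 ∧
      z.2.2.1 < z.2.2.2 ∧ ¬ D.Gd τ U z.1 z.2.1 z.2.2.1 z.2.2.2).card :=
    congrArg card (filter_congr fun _ _ => Iff.rfl)
  simp only [Iq, sum_filter]
  simp only [e, tq, card_filter, sum_product, ite_and, sum_ite_irrel, sum_const_zero]

theorem scs_tri (D : SD) (τ U : ℕ) (t : ℝ) :
    ((D.tri t).filter fun z => ¬ D.Cross τ U z.1 z.2.1 z.2.2).card ≤
      ∑ q ∈ D.L, ∑ i ∈ D.Iq q, ∑ j ∈ D.Iq q, D.xq τ U q i j := by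
  refine (card_le_card (t := (D.L ×ˢ range D.m ×ˢ range D.m).filter fun z =>
    (z.1, z.2.1) ∈ D.G ∧ (z.1, z.2.2) ∈ D.G ∧ ¬ D.Cross τ U z.1 z.2.1 z.2.2) fun z hz => ?_).trans_eq ?_
  · rw [mem_filter, tri, mem_filter] at hz
    exact mem_filter.2 ⟨hz.1.1, hz.1.2.1, hz.1.2.2.1, hz.2⟩
  · simp only [Iq, xq, card_filter, sum_product, sum_filter, ite_and, sum_ite_irrel,
      sum_const_zero]

theorem scs_G (hG : D.G ⊆ D.L ×ˢ range D.m) (τ U : ℕ) :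
    (D.G.filter fun g => ¬ (D.Int U g.1 g.2 ∧ D.Self τ U g.1 g.2)).card ≤
      ∑ q ∈ D.L, ∑ i ∈ D.Iq q, D.yq τ U q i := by
  refine (card_le_card (t := (D.L ×ˢ range D.m).filter fun z =>
    (z.1, z.2) ∈ D.G ∧ ¬ (D.Int U z.1 z.2 ∧ D.Self τ U z.1 z.2)) fun z hz => ?_).trans_eq ?_
  · rw [mem_filter] at hz
    exact mem_filter.2 ⟨hG hz.1, hz.1, hz.2⟩
  · simp only [Iq, yq, card_filter, sum_product, sum_filter, ite_and]

theorem scs_Iq (D : SD) (q : ℝ × ℝ) : (D.Iq q).card ≤ D.m :=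
  (card_filter_le _ _).trans_eq (card_range _)

theorem scs_X (hom : Monotone D.om) (τ U : ℕ) {r : ℕ} (hr : 1 ≤ r) :
    r * ∑ q ∈ D.L, ∑ i ∈ D.Iq q, ∑ j ∈ D.Iq q, D.xq τ U q i j ≤
      D.L.card * (3 * r ^ 2 * D.m) + 2 * D.badM τ U := by
  rw [← scs_badM, mul_sum, mul_sum, ← smul_eq_mul D.L.card, ← sum_const, ← sum_add_distrib]
  refine sum_le_sum fun q _ => scs_cross (D.scs_Iq q) hr (fun i j => ?_) fun i _ j _ l _ h1 h2 => ?_
  · unfold xq
    split_ifs <;> simp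
  · unfold xq tq
    by_cases h : D.Gd τ U q i j l
    · simp [(h.cross hom).1, (h.cross hom).2]
    · rw [if_pos (⟨h1, h2, h⟩ : i < j ∧ j < l ∧ ¬ D.Gd τ U q i j l)]
      constructor <;> split_ifs <;> simp

theorem scs_S (hom : Monotone D.om) (τ U r : ℕ) :
    r ^ 2 * ∑ q ∈ D.L, ∑ i ∈ D.Iq q, D.yq τ U q i ≤ D.L.card * (3 * r ^ 3) + 2 * D.badM τ U +
      2 * D.m * ∑ q ∈ D.L, ∑ i ∈ D.Iq q, ∑ j ∈ D.Iq q, D.xq τ U q i j := by
  rw [← scs_badM, mul_sum, mul_sum, mul_sum, ← smul_eq_mul D.L.card, ← sum_const,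
    ← sum_add_distrib, ← sum_add_distrib]
  have hs : ∀ q i, D.yq τ U q i ≤ 1 := fun q i => by
    unfold yq
    split_ifs <;> simp
  have ht : ∀ q i j l, i < j → j < l → ¬ D.Gd τ U q i j l → D.tq τ U q i j l = 1 :=
    fun q i j l h1 h2 h => if_pos ⟨h1, h2, h⟩
  refine sum_le_sum fun q _ => scs_self (D.scs_Iq q) (hs q) fun i _ => ?_
  by_cases h : ∃ j l, D.Gd τ U q i j l
  · obtain ⟨j, l, h⟩ := h
    refine Or.inr fun j' _ l' _ h1 h2 => ?_
    have h0 := hs q i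
    by_cases h3 : D.Gd τ U q j' i l'
    · by_cases c1 : D.Cross τ U q j' i
      · by_cases c2 : D.Cross τ U q l' i
        · have : D.yq τ U q i = 0 := if_neg (not_not.2 (scs_slf hom h h3 c1 c2))
          omega
        · have : D.xq τ U q l' i = 1 := if_pos c2
          omega
      · have : D.xq τ U q j' i = 1 := if_pos c1
        omega
    · have := ht q _ _ _ h1 h2 h3
      omega
  · exact Or.inl fun j _ l _ h1 h2 => (hs q i).trans_eq (ht q _ _ _ h1 h2 fun h' => h ⟨j, l, h'⟩).symm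

end SD

theorem scs_num1 {K N m L B X r P : ℝ} (hm : 0 < m) (hX : 0 ≤ X) (hP : 0 ≤ P) (hL0 : 0 ≤ L)
    (h1 : m ≤ r * P) (h2 : r * P ≤ 2 * m) (h3 : r * X ≤ L * (3 * r ^ 2 * m) + 2 * B)
    (hL : L ≤ K * N) (hB : B * P ^ 2 ≤ N * m ^ 3) : X * P ≤ (12 * K + 2) * (N * m ^ 2) := by
  have a1 := mul_le_mul_of_nonneg_right h3 (sq_nonneg P)
  have a2 := mul_le_mul_of_nonneg_left h1 (mul_nonneg hX hP)
  have a3 : (r * P) ^ 2 ≤ (2 * m) ^ 2 := pow_le_pow_left₀ (hm.le.trans h1) h2 2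
  have a4 := mul_le_mul (mul_le_mul_of_nonneg_right hL hm.le) a3 (sq_nonneg _)
    (mul_nonneg (hL0.trans hL) hm.le)
  exact le_of_mul_le_mul_right (by nlinarith) hm

theorem scs_num2 {K N m L B X S r P : ℝ} (hm : 0 < m) (hS : 0 ≤ S) (hP : 0 ≤ P) (hL0 : 0 ≤ L)
    (h1 : m ≤ r * P) (h2 : r * P ≤ 2 * m) (h3 : r ^ 2 * S ≤ L * (3 * r ^ 3) + 2 * B + 2 * m * X)
    (hL : L ≤ K * N) (hB : B * P ^ 3 ≤ N * m ^ 3) (hX : X * P ^ 3 ≤ N * m ^ 2) :
    S * P ≤ (24 * K + 4) * (N * m) := by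
  have a1 := mul_le_mul_of_nonneg_right h3 (pow_nonneg hP 3)
  have a2 := mul_le_mul_of_nonneg_left (pow_le_pow_left₀ hm.le h1 2) (mul_nonneg hS hP)
  have a3 : (r * P) ^ 3 ≤ (2 * m) ^ 3 := pow_le_pow_left₀ (hm.le.trans h1) h2 3
  have a4 := mul_le_mul hL a3 (pow_nonneg (hm.le.trans h1) 3) (hL0.trans hL)
  have a5 := mul_le_mul_of_nonneg_left hX hm.le
  exact le_of_mul_le_mul_right (by nlinarith) (pow_pos hm 2)

theorem scs_r {m P : ℝ} (hP : 0 < P) (h : P ≤ m) :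
    ∃ r : ℕ, 1 ≤ r ∧ m ≤ r * P ∧ r * P ≤ 2 * m := by
  have h0 : 0 < m / P := div_pos (hP.trans_le h) hP
  refine ⟨⌈m / P⌉₊, Nat.ceil_pos.2 h0, (div_le_iff₀ hP).1 (Nat.le_ceil _), ?_⟩
  have h1 := mul_le_mul_of_nonneg_right (Nat.ceil_lt_add_one h0.le).le hP.le
  rw [add_mul, div_mul_cancel₀ _ hP.ne'] at h1
  linarith

theorem SD.cross_self (c : ℕ) : ∃ c' : ℕ, ∀ (D : SD) (K : ℝ), D.Hyp K c → K ^ c' ≤ D.C →
    ∃ τ : ℕ, 1 ≤ τ ∧ (2 : ℝ) ^ τ ≤ K ^ c' ∧ ∀ U : ℕ, (U : ℝ) * K ^ c' ≤ D.C →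
      ((D.G.filter fun g => ¬ (D.Int U g.1 g.2 ∧ D.Self τ U g.1 g.2)).card : ℝ) ≤ D.N * D.m / K ∧
      (((D.tri D.m).filter fun z => ¬ D.Cross τ U z.1 z.2.1 z.2.2).card : ℝ) ≤
        D.N * D.m ^ 2 / K := by
  refine ⟨56 * c + 67, fun D K h hC => ?_⟩
  have K2 := h.two_le
  have K0 : 0 < K := by linarith
  have K1 : 1 ≤ K := by linarith
  have C0 := h.C_pos
  have N0 := h.N_pos
  have m0 : (0 : ℝ) < D.m := by exact_mod_cast h.m_pos
  have hp : ∀ (a : ℝ) (i j k : ℕ), a ≤ 2 ^ i → i + j ≤ k → a * K ^ j ≤ K ^ k := fun a i j k h1 h2 =>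
    (mul_le_mul_of_nonneg_right (h1.trans (pow_le_pow_left₀ zero_le_two K2 i))
      (pow_nonneg K0.le j)).trans ((pow_add K i j).symm.trans_le (pow_le_pow_right₀ K1 h2))
  obtain ⟨n, n1, n2⟩ := exists_nat_pow_near (one_le_pow₀ K1 : 1 ≤ K ^ (56 * c + 66))
    (one_lt_two : (1 : ℝ) < 2)
  refine ⟨n + 1, by omega, ?_, fun U hU => ?_⟩
  · have := hp 2 1 (56 * c + 66) (56 * c + 67) (by norm_num) (by omega)
    rw [pow_succ]
    linarith
  have U0 : (0 : ℝ) ≤ U := Nat.cast_nonneg _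
  have hB := D.badM_le K (K ^ 56) c (n + 1) U h (le_self_pow₀ K1 (by norm_num))
    (by
      rw [← pow_mul]
      exact (pow_le_pow_right₀ K1 (by omega)).trans hC)
    ((le_mul_of_one_le_right U0 (one_le_pow₀ K1)).trans hU)
  have P0 : 0 < K ^ 54 := pow_pos K0 _
  have t1 : 3 / K ^ 56 ≤ 1 / K ^ 54 := by
    rw [div_le_div_iff₀ (pow_pos K0 _) P0, one_mul]
    exact hp 3 2 54 56 (by norm_num) le_rfl
  have t2 : 6 * K * U / D.C ≤ 1 / K ^ 54 := by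
    rw [div_le_div_iff₀ C0 P0, one_mul]
    have a1 := mul_le_mul_of_nonneg_left (hp 6 3 55 (56 * c + 67) (by norm_num) (by omega)) U0
    calc 6 * K * U * K ^ 54 = U * (6 * K ^ 55) := by ring
      _ ≤ _ := a1.trans hU
  have t3 : 2 * K * (K ^ 56) ^ c / D.C ≤ 1 / K ^ 54 := by
    rw [div_le_div_iff₀ C0 P0, one_mul]
    calc 2 * K * (K ^ 56) ^ c * K ^ 54 = 2 * K ^ (56 * c + 55) := by ring
      _ ≤ _ := (hp 2 1 _ _ (by norm_num) (by omega)).trans hC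
  have t4 : 400 * K ^ 3 * (K ^ 56) ^ c / 2 ^ (n + 1) ≤ 1 / K ^ 54 := by
    rw [div_le_div_iff₀ (by positivity) P0, one_mul]
    calc 400 * K ^ 3 * (K ^ 56) ^ c * K ^ 54 = 400 * K ^ (56 * c + 57) := by ring
      _ ≤ _ := (hp 400 9 _ _ (by norm_num) (by omega)).trans n2.le
  have t5 : 4 * (1 / K ^ 54) ≤ 1 / K ^ 52 := by
    rw [mul_one_div, div_le_div_iff₀ P0 (pow_pos K0 _), one_mul]
    exact hp 4 2 52 54 (by norm_num) le_rfl
  have M3 : 0 ≤ D.N * (D.m : ℝ) ^ 3 := by positivity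
  have M2 : 0 ≤ D.N * (D.m : ℝ) ^ 2 := by positivity
  have M1 : 0 ≤ D.N * (D.m : ℝ) := by positivity
  have hB1 : (D.badM (n + 1) U : ℝ) * (K ^ 26) ^ 2 ≤ D.N * D.m ^ 3 := by
    rw [← pow_mul, ← le_div_iff₀ (pow_pos K0 _), div_eq_mul_one_div]
    exact hB.trans (mul_le_mul_of_nonneg_left (by linarith) M3)
  have hB2 : (D.badM (n + 1) U : ℝ) * (K ^ 7) ^ 3 ≤ D.N * D.m ^ 3 := by
    refine le_trans (mul_le_mul_of_nonneg_left ?_ (Nat.cast_nonneg _)) hB1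
    rw [← pow_mul, ← pow_mul]
    exact pow_le_pow_right₀ K1 (by norm_num)
  have hm : K ^ 26 ≤ D.m := by
    refine le_of_mul_le_mul_left (le_trans ?_ (hC.trans h.C_le)) K0
    rw [← pow_succ']
    exact pow_le_pow_right₀ K1 (by omega)
  obtain ⟨r, r1, r2, r3⟩ := scs_r (pow_pos K0 26) hm
  obtain ⟨r', -, r2', r3'⟩ := scs_r (pow_pos K0 7) ((pow_le_pow_right₀ K1 (by norm_num)).trans hm)
  have hX := SD.scs_X h.om_mono (n + 1) U r1
  have hS := SD.scs_S h.om_mono (n + 1) U r'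
  have hX' := D.scs_tri (n + 1) U D.m
  have hS' := SD.scs_G h.G_sub (n + 1) U
  generalize ∑ q ∈ D.L, ∑ i ∈ D.Iq q, ∑ j ∈ D.Iq q, D.xq (n + 1) U q i j = X at hX hS hX'
  generalize ∑ q ∈ D.L, ∑ i ∈ D.Iq q, D.yq (n + 1) U q i = S at hS hS'
  have X0 : (0 : ℝ) ≤ X := Nat.cast_nonneg _
  have S0 : (0 : ℝ) ≤ S := Nat.cast_nonneg _
  have a1 := scs_num1 m0 X0 (pow_pos K0 26).le (Nat.cast_nonneg _) r2 r3 (by exact_mod_cast hX)
    h.L_le hB1
  have a2 : (X : ℝ) * (K ^ 7) ^ 3 ≤ D.N * D.m ^ 2 := by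
    have b1 := hp 16 4 1 5 (by norm_num) le_rfl
    have b2 := a1.trans (mul_le_mul_of_nonneg_right (show 12 * K + 2 ≤ K ^ 5 by linarith) M2)
    exact le_of_mul_le_mul_left (le_of_eq_of_le (by ring) b2) (pow_pos K0 5)
  have a3 := scs_num2 m0 S0 (pow_pos K0 7).le (Nat.cast_nonneg _) r2' r3' (by exact_mod_cast hS)
    h.L_le hB2 a2
  constructor
  · rw [le_div_iff₀ K0]
    have b1 := hp 32 5 1 6 (by norm_num) le_rfl
    have b2 := a3.trans (mul_le_mul_of_nonneg_right (show 24 * K + 4 ≤ K ^ 6 by linarith) M1)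
    refine (mul_le_mul_of_nonneg_right (Nat.cast_le.2 hS') K0.le).trans ?_
    exact le_of_mul_le_mul_left (le_of_eq_of_le (by ring) b2) (pow_pos K0 6)
  · rw [le_div_iff₀ K0]
    refine (mul_le_mul (Nat.cast_le.2 hX') ?_ K0.le X0).trans a2
    rw [← pow_mul]
    exact le_self_pow₀ K1 (by norm_num)

end Vale.Agent.P065.U
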