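import Vale.Agent.P065.U.SRho
import Vale.Agent.P065.U.Add

/-!
P065/U: helper lemmas for `SD.finish` (task SMain).
-/

namespace Vale.Agent.P065.U

open Finset Classical

theorem Cn.mono_M {Z : Set ℝ} {r M M' : ℝ} (h : Cn Z r M) (hM : M ≤ M') : Cn Z r M' := by
  obtain ⟨F, h1, h2⟩ := h
  exact ⟨F, h1.trans hM, h2⟩

theorem CovT.mono_L {Y : ℤ → ℝ} {S : Finset ℤ} {k : ℕ} {L L' r t : ℝ} (h : CovT Y S k L r t)
    (hL : L ≤ L') : CovT Y S k L' r t := by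
  obtain ⟨F, h1, h2⟩ := h
  exact ⟨F, h1.trans hL, h2⟩

/-- A set within `4 r` of a finite set of centres is covered by four times as many `r`-balls. -/
theorem fin_cn4 {Z : Set ℝ} {r M : ℝ} (W : Finset ℤ) (c : ℤ → ℝ)
    (hW : (W.card : ℝ) ≤ M) (h : ∀ z ∈ Z, ∃ w ∈ W, |z - c w| ≤ 4 * r) : Cn Z r (4 * M) := by
  refine ⟨(W ×ˢ range 4).image fun p => c p.1 + (2 * (p.2 : ℝ) - 3) * r, ?_, fun z hz => ?_⟩
  · refine le_trans (Nat.cast_le.2 card_image_le) ?_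
    rw [card_product, card_range]
    push_cast
    linarith
  · obtain ⟨w, hw, hz⟩ := h z hz
    rw [abs_le] at hz
    have key : ∀ j : ℕ, j < 4 → |z - (c w + (2 * (j : ℝ) - 3) * r)| ≤ r →
        ∃ f ∈ (W ×ˢ range 4).image fun p => c p.1 + (2 * (p.2 : ℝ) - 3) * r, |z - f| ≤ r :=
      fun j hj hz => ⟨_, mem_image.2 ⟨(w, j), mem_product.2 ⟨hw, mem_range.2 hj⟩, rfl⟩, hz⟩
    by_cases h1 : z - c w ≤ -2 * r
    · refine key 0 (by norm_num) (abs_le.2 ⟨?_, ?_⟩) <;> push_cast <;> linarith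
    by_cases h2 : z - c w ≤ 0
    · refine key 1 (by norm_num) (abs_le.2 ⟨?_, ?_⟩) <;> push_cast <;> linarith
    by_cases h3 : z - c w ≤ 2 * r
    · refine key 2 (by norm_num) (abs_le.2 ⟨?_, ?_⟩) <;> push_cast <;> linarith
    · refine key 3 (by norm_num) (abs_le.2 ⟨?_, ?_⟩) <;> push_cast <;> linarith

theorem fin_mu {l : ℝ} (h0 : 0 ≤ l) (h1 : l ≤ 1 / 2) :
    l ≤ l / (1 - l) ∧ l / (1 - l) ≤ 1 := by
  have h : 0 < 1 - l := by linarith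
  refine ⟨?_, ?_⟩
  · rw [le_div_iff₀ h]; nlinarith
  · rw [div_le_one h]; linarith

theorem fin_mu_sub {l l' : ℝ} (h0 : 0 ≤ l) (h1 : l ≤ 1 / 2) (h0' : 0 ≤ l') (h1' : l' ≤ 1 / 2) :
    |l - l'| ≤ |l / (1 - l) - l' / (1 - l')| := by
  have h : 0 < 1 - l := by linarith
  have h' : 0 < 1 - l' := by linarith
  have e : l - l' = (l / (1 - l) - l' / (1 - l')) * ((1 - l) * (1 - l')) := by
    field_simp
    ring
  have h2 : (1 - l) * (1 - l') ≤ 1 := mul_le_one₀ (by linarith) h'.le (by linarith)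
  rw [e, abs_mul, abs_of_pos (mul_pos h h')]
  exact mul_le_of_le_one_right (abs_nonneg _) h2

namespace SD
variable {D : SD}

theorem fin_rep (P : Finset (ℝ × ℝ)) (j : ℕ) :
    ∃ r : ℤ → ℝ × ℝ, ∀ w ∈ P.image fun q => D.cls q j, r w ∈ P ∧ D.cls (r w) j = w := by
  have : ∀ w : ℤ, ∃ q : ℝ × ℝ, w ∈ (P.image fun q => D.cls q j) → q ∈ P ∧ D.cls q j = w := by
    intro w
    by_cases hw : w ∈ P.image fun q => D.cls q j
    · obtain ⟨q, hq, e⟩ := mem_image.1 hw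
      exact ⟨q, fun _ => ⟨hq, e⟩⟩
    · exact ⟨0, fun h => absurd h hw⟩
  choose r hr using this
  exact ⟨r, hr⟩

theorem fin_img_le {G2 : Finset ((ℝ × ℝ) × ℕ)} {K : ℝ} {c : ℕ} (h : D.Hyp K c) (hG : G2 ⊆ D.G)
    (P : Finset (ℝ × ℝ)) (j : ℕ) (hP : ∀ q ∈ P, (q, j) ∈ G2) :
    ((P.image fun q => D.cls q j).card : ℝ) ≤ K * D.C := by
  refine le_trans (Nat.cast_le.2 (card_le_card fun w hw => ?_)) (h.W_le j)
  obtain ⟨q, hq, rfl⟩ := mem_image.1 hw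
  exact mem_image.2 ⟨(q, j), mem_filter.2 ⟨hG (hP q hq), rfl⟩, rfl⟩

theorem fin_fib {G2 : Finset ((ℝ × ℝ) × ℕ)} {δ : ℕ → ℝ} {τ e0 : ℕ} (hR : D.Reg G2 δ τ e0)
    (S : Finset ℤ) (j e : ℕ) (r : ℤ → ℝ × ℝ) (z : ℝ) (he : e ≤ e0)
    (hr : ∀ w ∈ S, (r w, j) ∈ G2 ∧ D.cls (r w) j = w) (hz : ∀ w ∈ S, |D.v (r w) j - z| ≤ δ e) :
    (S.card : ℝ) ≤ 3 * (2 ^ e * 2 ^ τ) := by
  have h1 := hR.count (S.image r) j e 1 z he
    (fun q hq => by obtain ⟨w, hw, rfl⟩ := mem_image.1 hq; exact (hr w hw).1)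
    (fun q hq => by obtain ⟨w, hw, rfl⟩ := mem_image.1 hq; simpa using hz w hw)
  have h2 : S ⊆ (S.image r).image fun q => D.cls q j := fun w hw =>
    mem_image.2 ⟨r w, mem_image_of_mem _ hw, (hr w hw).2⟩
  have h3 := (card_le_card h2).trans h1
  rw [pow_add] at h3
  exact_mod_cast h3

theorem fin_blk {G2 : Finset ((ℝ × ℝ) × ℕ)} {δ : ℕ → ℝ} {τ e0 : ℕ} (hR : D.Reg G2 δ τ e0)
    (S : Finset ℤ) (j β : ℕ) (r : ℤ → ℝ × ℝ)
    (hr : ∀ w ∈ S, (r w, j) ∈ G2 ∧ D.cls (r w) j = w) (hβ : ∀ w ∈ S, D.kap (r w) j / 2 ^ e0 = β) :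
    (S.card : ℝ) ≤ 2 ^ e0 ∧ ∀ w ∈ S, ∀ w' ∈ S, |D.v (r w) j - D.v (r w') j| ≤ δ e0 := by
  have hp : 0 < 2 ^ e0 := by positivity
  have hb : ∀ w ∈ S, β * 2 ^ e0 ≤ D.kap (r w) j ∧ D.kap (r w) j < β * 2 ^ e0 + 2 ^ e0 := by
    intro w hw
    have h1 := Nat.div_add_mod' (D.kap (r w) j) (2 ^ e0)
    have h2 := Nat.mod_lt (D.kap (r w) j) hp
    rw [hβ w hw] at h1
    omega
  refine ⟨?_, fun w hw w' hw' => ?_⟩
  · have h1 : S.card ≤ (Ico (β * 2 ^ e0) (β * 2 ^ e0 + 2 ^ e0)).card := by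
      refine card_le_card_of_injOn (fun w => D.kap (r w) j) (fun w hw => ?_) fun w hw w' hw' e => ?_
      · exact mem_coe.2 (mem_Ico.2 (hb w hw))
      · have := (kap_eq_iff (hR.sub (hr w hw).1) (hR.sub (hr w' hw').1)).1 e
        rwa [(hr w hw).2, (hr w' hw').2] at this
    rw [Nat.card_Ico, Nat.add_sub_cancel_left] at h1
    exact_mod_cast h1
  · have h1 := hb w hw
    have h2 := hb w' hw'
    exact hR.p1 (r w') (r w) j e0 (hr w' hw').1 (hR.sub (hr w hw).1) le_rfl (by omega) (by omega)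

/-- The graph at index `i` has few sums. -/
theorem fin_cov {G2 : Finset ((ℝ × ℝ) × ℕ)} {K δ' Δ : ℝ} {c a b i : ℕ} (h : D.Hyp K c)
    (hG : G2 ⊆ D.G) (hne : D.x a ≠ D.x b) (hΔ : 0 < Δ) (Q : Finset (ℝ × ℝ)) (ra rb : ℤ → ℝ × ℝ)
    (h0 : 0 ≤ D.lam a b i) (h1 : D.lam a b i ≤ 1 / 2)
    (hQ : ∀ q ∈ Q, (q, a) ∈ G2 ∧ (q, b) ∈ G2 ∧ (q, i) ∈ G2)
    (hra : ∀ q ∈ Q, (ra (D.cls q a), a) ∈ G2 ∧ D.cls (ra (D.cls q a)) a = D.cls q a)
    (hrb : ∀ q ∈ Q, (rb (D.cls q b), b) ∈ G2 ∧ D.cls (rb (D.cls q b)) b = D.cls q b)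
    (hcl : ∀ q q' i, (q, i) ∈ G2 → (q', i) ∈ G2 → D.cls q i = D.cls q' i →
      |D.v q i - D.v q' i| ≤ δ') :
    Cn {z | ∃ g ∈ Q.image fun q => (D.cls q a, D.cls q b), z = D.v (ra g.1) a / Δ +
      D.lam a b i / (1 - D.lam a b i) * (D.v (rb g.2) b / Δ)} (δ' / Δ) (4 * (K * D.C)) := by
  obtain ⟨r, hr⟩ := fin_rep (D := D) Q i
  refine fin_cn4 (Q.image fun q => D.cls q i) (fun w => D.v (r w) i / ((1 - D.lam a b i) * Δ))
    (fin_img_le h hG Q i fun q hq => (hQ q hq).2.2) ?_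
  rintro z ⟨g, hg, rfl⟩
  obtain ⟨q, hq, rfl⟩ := mem_image.1 hg
  refine ⟨D.cls q i, mem_image_of_mem _ hq, ?_⟩
  obtain ⟨hq1, hq2⟩ := hr _ (mem_image_of_mem _ hq)
  have e1 := hcl _ _ _ (hra q hq).1 (hQ q hq).1 (hra q hq).2
  have e2 := hcl _ _ _ (hrb q hq).1 (hQ q hq).2.1 (hrb q hq).2
  have e3 := hcl _ _ _ (hQ q hq).2.2 (hQ _ hq1).2.2 hq2.symm
  have ev := v_eq (D := D) a b i hne q
  generalize D.v (ra (D.cls q a)) a = xa at *
  generalize D.v (rb (D.cls q b)) b = yb at *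
  generalize D.v (r (D.cls q i)) i = zi at *
  generalize D.v q a = va at *
  generalize D.v q b = vb at *
  generalize D.v q i = vi at *
  generalize D.lam a b i = l at *
  have hl : 0 < 1 - l := by linarith
  have e : xa / Δ + l / (1 - l) * (yb / Δ) - zi / ((1 - l) * Δ) =
      ((1 - l) * (xa - va) + l * (yb - vb) + (vi - zi)) / ((1 - l) * Δ) := by
    rw [ev]
    field_simp
    ring
  have hd : 0 ≤ δ' := (abs_nonneg _).trans e1
  rw [e, abs_div, abs_of_pos (mul_pos hl hΔ), div_le_iff₀ (mul_pos hl hΔ)]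
  have e' : 4 * (δ' / Δ) * ((1 - l) * Δ) = 4 * δ' * (1 - l) := by field_simp
  rw [e']
  have t1 : |(1 - l) * (xa - va)| ≤ (1 - l) * δ' := by
    rw [abs_mul, abs_of_pos hl]; exact mul_le_mul_of_nonneg_left e1 hl.le
  have t2 : |l * (yb - vb)| ≤ l * δ' := by
    rw [abs_mul, abs_of_nonneg h0]; exact mul_le_mul_of_nonneg_left e2 h0
  have t3 := abs_add_three ((1 - l) * (xa - va)) (l * (yb - vb)) (vi - zi)
  have t4 : l * δ' ≤ 1 / 2 * δ' := mul_le_mul_of_nonneg_right h1 hd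
  linarith

/-- The indices with a ratio bounded below. -/
theorem fin_La2 {G2 : Finset ((ℝ × ℝ) × ℕ)} {K s B : ℝ} {a b : ℕ} {La La1 : Finset ℕ}
    {AA : ℕ → Finset (ℝ × ℝ)} (hK : 0 < K) (hF : D.Frame G2 a b La AA K) (h1 : La1 ⊆ La)
    (h2 : La.card ≤ 2 * La1.card) (hB : B ≤ D.m / (4 * K))
    (h3 : ∀ i ∈ La1, ((La.filter fun i' => |D.lam a b i - D.lam a b i'| ≤ 2 * s).card : ℝ) ≤ B) :
    D.m / (4 * K) ≤ ((La1.filter fun i => s ≤ D.lam a b i / (1 - D.lam a b i)).card : ℝ) := by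
  have h4 := card_filter_add_card_filter_not (s := La1)
    (fun i => s ≤ D.lam a b i / (1 - D.lam a b i))
  have h5 : ((La1.filter fun i => ¬ s ≤ D.lam a b i / (1 - D.lam a b i)).card : ℝ) ≤
      D.m / (4 * K) := by
    rcases (La1.filter fun i => ¬ s ≤ D.lam a b i / (1 - D.lam a b i)).eq_empty_or_nonempty with
      he | ⟨i, hi⟩
    · rw [he, card_empty, Nat.cast_zero]; positivity
    · refine le_trans (Nat.cast_le.2 (card_le_card fun i' hi' => ?_))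
        ((h3 i (mem_filter.1 hi).1).trans hB)
      obtain ⟨m1, m2⟩ := mem_filter.1 hi
      obtain ⟨m3, m4⟩ := mem_filter.1 hi'
      have l1 := hF.lam_mem i (h1 m1)
      have l2 := hF.lam_mem i' (h1 m3)
      have u1 := (fin_mu l1.1 l1.2).1
      have u2 := (fin_mu l2.1 l2.2).1
      refine mem_filter.2 ⟨h1 m3, abs_le.2 ⟨?_, ?_⟩⟩ <;> linarith [not_le.1 m2, not_le.1 m4]
  have h6 := hF.big
  have h7 : (La.card : ℝ) ≤ 2 * La1.card := by exact_mod_cast h2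
  have h8 : (La1.card : ℝ) = ((La1.filter fun i => s ≤ D.lam a b i / (1 - D.lam a b i)).card : ℝ) +
      ((La1.filter fun i => ¬ s ≤ D.lam a b i / (1 - D.lam a b i)).card : ℝ) := by
    exact_mod_cast h4.symm
  have e : D.m / K = 4 * (D.m / (4 * K)) := by field_simp
  linarith

end SD

end Vale.Agent.P065.U
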