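import Vale.Agent.P065.U.SFinA
import Vale.Agent.P065.U.Cov
import Vale.Agent.P065.U.Close
import Vale.Agent.P065.U.GKZ

/-!
P065/U: the additive core of `SD.finish`: `cov_main`, `close_main` and `gkz` combined.
-/

namespace Vale.Agent.P065.U

open Finset Classical

theorem fin_add : ∃ c : ℕ, ∀ (Xs Ys : Finset ℤ) (X Y : ℤ → ℝ) (La : Finset ℕ) (mu : ℕ → ℝ)
    (G : ℕ → Finset (ℤ × ℤ)) (U : ℝ → ℝ) (δn σ1 σ2 σI K D : ℝ), 2 ≤ K → 1 ≤ D → 0 < δn →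
    δn ≤ σ1 → σ1 ≤ σ2 → σ2 ≤ 1 → La.Nonempty →
    (Xs.card : ℝ) ≤ K * D ^ 20 → (Ys.card : ℝ) ≤ K * D ^ 20 →
    (∀ i ∈ La, σ1 ≤ mu i ∧ mu i ≤ 1 ∧ δn ≤ mu i * σI) →
    (∀ i ∈ La, G i ⊆ Xs ×ˢ Ys) → (∀ i ∈ La, (D ^ 20) ^ 2 / K ≤ (G i).card) →
    (∀ i ∈ La, Cn {z | ∃ g ∈ G i, z = X g.1 + mu i * Y g.2} δn (K * D ^ 20)) →
    (∀ z : ℝ, ((Xs.filter fun x => |X x - z| ≤ δn).card : ℝ) ≤ K) →
    (∀ i ∈ La, ∀ z : ℝ, ((Ys.filter fun y => |mu i * Y y - z| ≤ δn).card : ℝ) ≤ K) →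
    (∀ y ∈ Ys, ∀ y' ∈ Ys, |Y y - Y y'| ≤ 1) →
    (∀ s, 0 < s → 0 < U s ∧ U s ≤ D ^ 20) →
    (∀ s, 0 < s → ∀ x : ℝ, ((Ys.filter fun y => |Y y - x| ≤ s).card : ℝ) ≤ K * U s) →
    (∀ s, 0 < s → ∀ x : ℝ,
      ((La.filter fun i => |mu i - x| ≤ s).card : ℝ) * D ^ 20 ≤ K * U s * La.card) →
    (∀ s1 s2, 0 < s1 → 0 < s2 → s1 * s2 ≤ 100 * σI → U s1 * U s2 ≤ K * D ^ 20) →
    (∀ s1 s2 s3, 0 < s1 → 0 < s2 → 0 < s3 → s1 * s2 * s3 ≤ 100 * σI →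
      U s1 * U s2 * U s3 ≤ K * D ^ 40) →
    U σ1 ≤ D ^ 18 → D ^ 19 / K ≤ U σ2 → U σ2 ≤ D ^ 19 → δn * D ^ 25 ≤ K * σ1 ^ 3 →
    D ≤ K ^ c := by
  obtain ⟨cC, hC⟩ := cov_main
  obtain ⟨cX, hX⟩ := close_main
  obtain ⟨cG, hG⟩ := gkz
  refine ⟨((cC + 1) * (cX + 1) + 1) * cG, fun Xs Ys X Y La mu G U δn σ1 σ2 σI K D hK hD hδ h01 h12
    h21 hL hXs hYs hmu hGs hGc hCn fX fY hdiam hU hNB hNN hM2 hM3 u1 u2 u3 hsm => ?_⟩
  have hK0 : 0 < K := by linarith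
  have hK1 : 1 ≤ K := by linarith
  have hD0 : 0 < D := by linarith
  have hC0 : 0 < D ^ 20 := by positivity
  have hσ1 : 0 < σ1 := hδ.trans_le h01
  obtain ⟨i0, hi0, Nn, hNn, S, hS, n1, s1, hcov, hsum⟩ := hC Xs Ys X Y La mu G δn K (D ^ 20) hK hC0
    hδ hL hXs hYs (fun i hi => hσ1.trans_le (hmu i hi).1) hGs hGc hCn fX fY
  obtain ⟨m1, m2, m3⟩ := hmu i0 hi0
  have hμ0 : 0 < mu i0 := hσ1.trans_le m1
  obtain ⟨K2, hK2⟩ : ∃ K2 : ℝ, K2 = K ^ (cC + 1) := ⟨_, rfl⟩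
  obtain ⟨K3, hK3⟩ : ∃ K3 : ℝ, K3 = K ^ ((cC + 1) * (cX + 1) + 1) := ⟨_, rfl⟩
  have a1 : K ^ cC ≤ K2 := hK2 ▸ pow_le_pow_right₀ hK1 (by omega)
  have a2 : K ≤ K2 := hK2 ▸ le_self_pow₀ hK1 (by omega)
  have a3 : K * K ^ cC ≤ K3 := by
    rw [hK3, ← pow_succ']
    exact pow_le_pow_right₀ hK1 (by nlinarith)
  have a4 : K2 ^ cX * K ≤ K3 := by
    rw [hK3, hK2, ← pow_mul, ← pow_succ]
    exact pow_le_pow_right₀ hK1 (by nlinarith)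
  have a5 : K ≤ K3 := hK3 ▸ le_self_pow₀ hK1 (by omega)
  have a6 : K ^ cC ≤ K3 := hK3 ▸ pow_le_pow_right₀ hK1 (by nlinarith)
  have hP : 0 < K ^ cC := by positivity
  have hε : 0 < δn / mu i0 := div_pos hδ hμ0
  have hεI : δn / mu i0 ≤ σI := by rw [div_le_iff₀ hμ0, mul_comm]; exact m3
  have hLc : (0 : ℝ) < La.card := by exact_mod_cast hL.card_pos
  have hnu : ∀ i ∈ Nn, 0 ≤ mu i / mu i0 ∧ mu i / mu i0 ≤ 1 := fun i hi =>
    ⟨div_nonneg (hσ1.le.trans (hmu i (hNn hi)).1) hμ0.le, (div_le_one hμ0).2 (hcov i hi).1⟩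
  have hNB' : ∀ s, 0 < s → ∀ x : ℝ, ((S.filter fun y => |Y y - x| ≤ s).card : ℝ) ≤ K * U s :=
    fun s hs x => le_trans (Nat.cast_le.2 (card_le_card (filter_subset_filter _ hS))) (hNB s hs x)
  have key := hG S Y Nn (fun i => mu i / mu i0) U (δn / mu i0) (mu i0) σ1 σ2 K3 D (hK.trans a5) hD
    hε hσ1 h12 h21 m1 m2 ?_ hnu ?_ hU ?_ ?_ ?_ ?_ ?_ u1 ?_ u3 ?_
  · rw [hK3, ← pow_mul] at key
    exact key
  · rw [← card_pos]
    exact_mod_cast (div_pos hLc hP).trans_le n1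
  · exact (div_le_div_of_nonneg_left hC0.le hP a6).trans s1
  · exact fun s hs x => (hNB' s hs x).trans (mul_le_mul_of_nonneg_right a5 (hU s hs).1.le)
  · intro s hs x
    have b1 : ((Nn.filter fun i => |mu i / mu i0 - x| ≤ s / mu i0).card : ℝ) ≤
        ((La.filter fun i => |mu i - x * mu i0| ≤ s).card : ℝ) := by
      refine Nat.cast_le.2 (card_le_card fun i hi => ?_)
      obtain ⟨q1, q2⟩ := mem_filter.1 hi
      refine mem_filter.2 ⟨hNn q1, ?_⟩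
      have e : mu i / mu i0 - x = (mu i - x * mu i0) / mu i0 := by field_simp
      rwa [e, abs_div, abs_of_pos hμ0, div_le_div_iff_of_pos_right hμ0] at q2
    have b2 := hNN s hs (x * mu i0)
    have b3 : (La.card : ℝ) ≤ K ^ cC * Nn.card := by
      rw [div_le_iff₀ hP] at n1; linarith
    have b4 := (hU s hs).1
    calc _ ≤ ((La.filter fun i => |mu i - x * mu i0| ≤ s).card : ℝ) * D ^ 20 :=
          mul_le_mul_of_nonneg_right b1 hC0.le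
      _ ≤ K * U s * La.card := b2
      _ ≤ K * U s * (K ^ cC * Nn.card) := mul_le_mul_of_nonneg_left b3 (by positivity)
      _ = K * K ^ cC * U s * Nn.card := by ring
      _ ≤ K3 * U s * Nn.card := by gcongr
  · intro den num p1 p2 p3 p4
    have b1 : δn / mu i0 ≤ |den| := (div_le_div_of_nonneg_right h01 hμ0.le).trans p3
    have b2 : 0 < |den| := hε.trans_le b1
    refine (hX S Y Nn (fun i => mu i / mu i0) (δn / mu i0) K2 (D ^ 20) (K * U |den|) den num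
      (hK.trans a2) hC0 hε (fun y hy y' hy' => hdiam y (hS hy) y' (hS hy'))
      ((div_le_div_of_nonneg_left hC0.le hP a1).trans s1)
      (fun i hi => ⟨(hnu i hi).1, (hnu i hi).2, (hcov i hi).2.mono_L a1⟩)
      (hsum.mono_M (mul_le_mul_of_nonneg_right a1 hC0.le)) p1 p2 b1 p4
      (hNB' _ b2)).mono_M ?_
    rw [← mul_assoc]
    exact mul_le_mul_of_nonneg_right a4 (hU _ b2).1.le
  · exact fun s1 s2 p1 p2 p3 => (hM2 s1 s2 p1 p2 (p3.trans (by linarith))).trans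
      (mul_le_mul_of_nonneg_right a5 hC0.le)
  · exact fun s1 s2 s3 p1 p2 p3 p4 => (hM3 s1 s2 s3 p1 p2 p3 (p4.trans (by linarith))).trans
      (mul_le_mul_of_nonneg_right a5 (by positivity))
  · exact (div_le_div_of_nonneg_left (by positivity) hK0 a5).trans u2
  · rw [div_mul_cancel₀ _ hμ0.ne']
    exact hsm.trans (mul_le_mul_of_nonneg_right a5 (by positivity))

end Vale.Agent.P065.U
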