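import Vale.Agent.P065.U.SRho

/-!
P065/U task SMv: most quadruples satisfy the six comparisons.

Proof. Γ = lam^c. Remove the quadruples for which one of the pairs (i,j), (i,l), (j,l) is not
`Good Γ m` (≤ 3 m · N m²/lam by `ind` at t = m; a good cell is ≤ g = Γ N/C²), those with a
non-interior class (≤ 2U classes of size ≤ K N/C at each index), and those with x i = x j or
x j = x l (then the two classes agree, so ≤ K C cells, ≤ K Γ N/C points). For fixed i<j<l with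
x i < x j < x l, fixed e (2^e ≤ C ≤ 2^K, so ≤ 2K values), s and one of the six comparisons, let Z be
the remaining q for which it fails. The identity
(x l - x i) v j = (x l - x j) v i + (x j - x i) v l and `up_le, dn_le, le_up, le_dn, kap_mono` show that
Z satisfies the hypothesis of `lemmaX` with k1 = rank at the index on the right side of the
comparison, k2 = rank at the index on the left side, k3 = rank at the third index, u = 2^e, T = 2^τ,
n0 = K C (for s = false swap the roles of q and q'). So |Z| ≤ 16 K² Γ N/2^τ.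
-/

namespace Vale.Agent.P065.U

open Finset Classical

namespace SD
variable {D : SD}

theorem mv_kapcount {K : ℝ} {c : ℕ} (h : D.Hyp K c) (i r : ℕ) :
    ((D.L.filter fun q => (q, i) ∈ D.G ∧ D.kap q i = r).card : ℝ) ≤ K * D.N / D.C := by
  rcases (D.L.filter fun q => (q, i) ∈ D.G ∧ D.kap q i = r).eq_empty_or_nonempty with he | ⟨q0, hq0⟩
  · rw [he]
    have := h.two_le; have := h.N_pos; have := h.C_pos
    simp only [card_empty, Nat.cast_zero]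
    positivity
  · refine le_trans ?_ (h.cls_le i (D.cls q0 i))
    rw [mem_filter] at hq0
    exact_mod_cast card_le_card fun q hq => by
      rw [mem_filter] at hq ⊢
      exact ⟨hq.1, hq.2.1, (kap_eq_iff hq.2.1 hq0.2.1).1 (hq.2.2.trans hq0.2.2.symm)⟩

theorem mv_nonint {K : ℝ} {c : ℕ} (h : D.Hyp K c) (i U : ℕ) :
    ((D.L.filter fun q => (q, i) ∈ D.G ∧ ¬ D.Int U q i).card : ℝ) ≤ 2 * U * (K * D.N / D.C) := by
  set R : Finset ℕ := range U ∪ Ico ((D.W i).card - U) (D.W i).card with hR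
  have hRc : R.card ≤ 2 * U := by
    refine (card_union_le _ _).trans ?_
    rw [card_range, Nat.card_Ico]; omega
  have hsub : (D.L.filter fun q => (q, i) ∈ D.G ∧ ¬ D.Int U q i) ⊆
      R.biUnion fun r => D.L.filter fun q => (q, i) ∈ D.G ∧ D.kap q i = r := by
    intro q hq
    rw [mem_filter] at hq
    rw [mem_biUnion]
    refine ⟨D.kap q i, ?_, mem_filter.2 ⟨hq.1, hq.2.1, rfl⟩⟩
    have h1 := kap_lt hq.2.1
    have h2 := hq.2.2
    unfold SD.Int at h2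
    rw [hR, mem_union, mem_range, mem_Ico]
    omega
  have h1 : ((D.L.filter fun q => (q, i) ∈ D.G ∧ ¬ D.Int U q i).card : ℝ) ≤
      ∑ r ∈ R, ((D.L.filter fun q => (q, i) ∈ D.G ∧ D.kap q i = r).card : ℝ) := by
    exact_mod_cast (card_le_card hsub).trans card_biUnion_le
  refine h1.trans ((sum_le_sum fun r _ => mv_kapcount h i r).trans ?_)
  rw [sum_const, nsmul_eq_mul]
  have := h.two_le; have := h.N_pos; have := h.C_pos
  have h3 : (R.card : ℝ) ≤ 2 * U := by exact_mod_cast hRc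
  exact mul_le_mul_of_nonneg_right h3 (by positivity)

theorem mv_eqx {K : ℝ} {c : ℕ} (h : D.Hyp K c) (i j : ℕ) (g : ℝ) (hg0 : 0 ≤ g)
    (hx : D.x i = D.x j) (Q : Finset (ℝ × ℝ)) (hQ : ∀ q ∈ Q, (q, i) ∈ D.G ∧ (q, j) ∈ D.G)
    (hg : ∀ q ∈ Q, (D.cell q i j : ℝ) ≤ g) : (Q.card : ℝ) ≤ g * (K * D.C) := by
  refine (card_le_cells h Q i j g hg0 hQ hg).trans (mul_le_mul_of_nonneg_left ?_ hg0)
  refine le_trans ?_ (h.W_le i)
  have hsub : (Q.image fun q => (D.cls q i, D.cls q j)) ⊆ (D.W i).image fun w => (w, w) := by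
    intro z hz
    rw [mem_image] at hz ⊢
    obtain ⟨q, hq, rfl⟩ := hz
    refine ⟨D.cls q i, ?_, ?_⟩
    · unfold SD.W
      rw [mem_image]
      exact ⟨(q, i), mem_filter.2 ⟨(hQ q hq).1, rfl⟩, rfl⟩
    · unfold SD.cls SD.v
      rw [hx]
  exact_mod_cast (card_le_card hsub).trans card_image_le

theorem mv_opp (hom : Monotone D.om) {q q' : ℝ × ℝ} {a b u u' U : ℕ} {α β : ℝ} (s : Bool)
    (hα : 0 < α) (hβ : 0 < β) (hu' : u' ≤ U) (hI : D.Int U q a) (hI' : D.Int U q' a)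
    (hb : (q, b) ∈ D.G) (hb' : (q', b) ∈ D.G)
    (hf : ¬ α * D.rho s q b u ≤ β * D.rho (!s) q a u')
    (hf' : ¬ α * D.rho s q' b u ≤ β * D.rho (!s) q' a u')
    (h1 : D.kap q a < D.kap q' a + u') (h2 : D.kap q b + u ≤ D.kap q' b) :
    0 < α * (D.v q' b - D.v q b) + β * (D.v q' a - D.v q a) := by
  cases s
  · simp only [SD.rho, Bool.not_false, if_true, Bool.false_eq_true, if_false, not_le] at hf'
    have e1 := dn_le (q := q') (q' := q) hb h2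
    have e2 := le_up hom (q := q') (q' := q) hI' hu' h1
    nlinarith [mul_le_mul_of_nonneg_left e1 hα.le, mul_le_mul_of_nonneg_left e2 hβ.le]
  · simp only [SD.rho, Bool.not_true, if_true, Bool.false_eq_true, if_false, not_le] at hf
    have e1 := up_le (q := q) (q' := q') hb' h2
    have e2 := le_dn hom (q := q) (q' := q') hI hu' h1
    nlinarith [mul_le_mul_of_nonneg_left e1 hα.le, mul_le_mul_of_nonneg_left e2 hβ.le]

theorem mv_same (hom : Monotone D.om) {q q' : ℝ × ℝ} {a b u u' U : ℕ} {α β : ℝ} (s : Bool)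
    (hα : 0 < α) (hβ : 0 < β) (hu' : u' ≤ U) (hI : D.Int U q a) (hI' : D.Int U q' a)
    (hb : (q, b) ∈ D.G) (hb' : (q', b) ∈ D.G)
    (hf : ¬ α * D.rho s q b u ≤ β * D.rho s q a u')
    (hf' : ¬ α * D.rho s q' b u ≤ β * D.rho s q' a u')
    (h1 : D.kap q' a < D.kap q a + u') (h2 : D.kap q b + u ≤ D.kap q' b) :
    0 < α * (D.v q' b - D.v q b) - β * (D.v q' a - D.v q a) := by
  cases s
  · simp only [SD.rho, Bool.false_eq_true, if_false, not_le] at hf'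
    have e1 := dn_le (q := q') (q' := q) hb h2
    have e2 := le_dn hom (q := q') (q' := q) hI' hu' h1
    nlinarith [mul_le_mul_of_nonneg_left e1 hα.le, mul_le_mul_of_nonneg_left e2 hβ.le]
  · simp only [SD.rho, if_true, not_le] at hf
    have e1 := up_le (q := q) (q' := q') hb' h2
    have e2 := le_up hom (q := q) (q' := q') hI hu' h1
    nlinarith [mul_le_mul_of_nonneg_left e1 hα.le, mul_le_mul_of_nonneg_left e2 hβ.le]

theorem mv_Z {K : ℝ} {c : ℕ} (h : D.Hyp K c) (Z : Finset (ℝ × ℝ)) (a b d u T : ℕ) (g γ : ℝ)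
    (hg0 : 0 ≤ g) (hu : 1 ≤ u) (hT : 1 ≤ T) (hn : ((u * T : ℕ) : ℝ) ≤ D.C)
    (hL : ∀ q ∈ Z, q ∈ D.L) (ha : ∀ q ∈ Z, (q, a) ∈ D.G) (hb : ∀ q ∈ Z, (q, b) ∈ D.G)
    (hd : ∀ q ∈ Z, (q, d) ∈ D.G) (hc : ∀ q ∈ Z, (D.cell q b d : ℝ) ≤ g)
    (hm : ∀ q ∈ Z, ∀ q' ∈ Z, D.kap q' a < D.kap q a + u * T → D.kap q a < D.kap q' a + u * T →
      D.kap q b + u ≤ D.kap q' b → 0 < γ * (D.v q' d - D.v q d)) :
    (Z.card : ℝ) ≤ 16 * (K * D.C) ^ 2 * g / T := by
  have hK := h.two_le; have hC := h.C_pos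
  have hlt : ∀ i q, (q, i) ∈ D.G → (D.kap q i : ℝ) < K * D.C := fun i q hq =>
    lt_of_lt_of_le (by exact_mod_cast kap_lt hq) (h.W_le i)
  refine lemmaX Z (fun q => D.kap q a) (fun q => D.kap q b) (fun q => D.kap q d) u T (K * D.C) g
    hu hT (hn.trans (by nlinarith)) hg0 (fun q hq => hlt _ _ (ha q hq))
    (fun q hq => hlt _ _ (hb q hq)) (fun q hq => hlt _ _ (hd q hq)) ?_ ?_
  · intro r r'
    rcases (Z.filter fun q => D.kap q b = r ∧ D.kap q d = r').eq_empty_or_nonempty with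
      he | ⟨q0, hq0⟩
    · rw [he]; simpa using hg0
    · rw [mem_filter] at hq0
      refine le_trans ?_ (hc q0 hq0.1)
      unfold SD.cell
      exact_mod_cast card_le_card fun q hq => by
        rw [mem_filter] at hq ⊢
        exact ⟨hL q hq.1, hb q hq.1, hd q hq.1,
          (kap_eq_iff (hb q hq.1) (hb q0 hq0.1)).1 (hq.2.1.trans hq0.2.1.symm),
          (kap_eq_iff (hd q hq.1) (hd q0 hq0.1)).1 (hq.2.2.trans hq0.2.2.symm)⟩
  · rcases le_total 0 γ with hγ | hγ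
    · left
      intro q hq q' hq' h1 h2 h3
      have := hm q hq q' hq' h1 h2 h3
      refine kap_mono h.om_mono ?_
      by_contra hh
      push Not at hh
      nlinarith
    · right
      intro q hq q' hq' h1 h2 h3
      have := hm q hq q' hq' h1 h2 h3
      refine kap_mono h.om_mono ?_
      by_contra hh
      push Not at hh
      nlinarith

/-- The remaining points at a triple of indices. -/
structure MvOk (D : SD) (g : ℝ) (U : ℕ) (i j l : ℕ) (q : ℝ × ℝ) : Prop where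
  mem : q ∈ D.L
  gi : (q, i) ∈ D.G
  gj : (q, j) ∈ D.G
  gl : (q, l) ∈ D.G
  cij : (D.cell q i j : ℝ) ≤ g
  cil : (D.cell q i l : ℝ) ≤ g
  cjl : (D.cell q j l : ℝ) ≤ g
  ii : D.Int U q i
  ij : D.Int U q j
  il : D.Int U q l

theorem mv_Zopp {K : ℝ} {c : ℕ} (h : D.Hyp K c) (Q : Finset (ℝ × ℝ)) (a b d e τ U : ℕ)
    (g α β γ : ℝ) (s : Bool) (hg0 : 0 ≤ g) (hα : 0 < α) (hβ : 0 < β) (he : 2 ^ (e + τ) ≤ U)
    (hU : (U : ℝ) ≤ D.C) (hL : ∀ q ∈ Q, q ∈ D.L) (ha : ∀ q ∈ Q, (q, a) ∈ D.G)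
    (hb : ∀ q ∈ Q, (q, b) ∈ D.G) (hd : ∀ q ∈ Q, (q, d) ∈ D.G)
    (hc : ∀ q ∈ Q, (D.cell q b d : ℝ) ≤ g) (hI : ∀ q ∈ Q, D.Int U q a)
    (hid : ∀ q, γ * D.v q d = α * D.v q b + β * D.v q a) :
    ((Q.filter fun q => ¬ α * D.rho s q b (2 ^ e) ≤ β * D.rho (!s) q a (2 ^ (e + τ))).card : ℝ) ≤
      16 * (K * D.C) ^ 2 * g / 2 ^ τ := by
  have := mv_Z h (Q.filter fun q => ¬ α * D.rho s q b (2 ^ e) ≤ β * D.rho (!s) q a (2 ^ (e + τ)))
    a b d (2 ^ e) (2 ^ τ) g γ hg0 Nat.one_le_two_pow Nat.one_le_two_pow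
    (by rw [← pow_add]; exact le_trans (by exact_mod_cast he) hU)
    (fun q hq => hL q (mem_filter.1 hq).1) (fun q hq => ha q (mem_filter.1 hq).1)
    (fun q hq => hb q (mem_filter.1 hq).1) (fun q hq => hd q (mem_filter.1 hq).1)
    (fun q hq => hc q (mem_filter.1 hq).1) (by
      intro q hq q' hq' h1 h2 h3
      rw [mem_filter] at hq hq'
      rw [← pow_add] at h1 h2
      have := mv_opp h.om_mono s hα hβ he (hI q hq.1) (hI q' hq'.1) (hb q hq.1) (hb q' hq'.1)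
        hq.2 hq'.2 h2 h3
      have e1 := hid q
      have e2 := hid q'
      linarith [mul_sub γ (D.v q' d) (D.v q d), mul_sub α (D.v q' b) (D.v q b),
        mul_sub β (D.v q' a) (D.v q a)])
  exact_mod_cast this

theorem mv_Zsame {K : ℝ} {c : ℕ} (h : D.Hyp K c) (Q : Finset (ℝ × ℝ)) (a b d e τ U : ℕ)
    (g α β γ : ℝ) (s : Bool) (hg0 : 0 ≤ g) (hα : 0 < α) (hβ : 0 < β) (he : 2 ^ (e + τ) ≤ U)
    (hU : (U : ℝ) ≤ D.C) (hL : ∀ q ∈ Q, q ∈ D.L) (ha : ∀ q ∈ Q, (q, a) ∈ D.G)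
    (hb : ∀ q ∈ Q, (q, b) ∈ D.G) (hd : ∀ q ∈ Q, (q, d) ∈ D.G)
    (hc : ∀ q ∈ Q, (D.cell q b d : ℝ) ≤ g) (hI : ∀ q ∈ Q, D.Int U q a)
    (hid : ∀ q, γ * D.v q d = α * D.v q b - β * D.v q a) :
    ((Q.filter fun q => ¬ α * D.rho s q b (2 ^ e) ≤ β * D.rho s q a (2 ^ (e + τ))).card : ℝ) ≤
      16 * (K * D.C) ^ 2 * g / 2 ^ τ := by
  have := mv_Z h (Q.filter fun q => ¬ α * D.rho s q b (2 ^ e) ≤ β * D.rho s q a (2 ^ (e + τ)))
    a b d (2 ^ e) (2 ^ τ) g γ hg0 Nat.one_le_two_pow Nat.one_le_two_pow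
    (by rw [← pow_add]; exact le_trans (by exact_mod_cast he) hU)
    (fun q hq => hL q (mem_filter.1 hq).1) (fun q hq => ha q (mem_filter.1 hq).1)
    (fun q hq => hb q (mem_filter.1 hq).1) (fun q hq => hd q (mem_filter.1 hq).1)
    (fun q hq => hc q (mem_filter.1 hq).1) (by
      intro q hq q' hq' h1 h2 h3
      rw [mem_filter] at hq hq'
      rw [← pow_add] at h1 h2
      have := mv_same h.om_mono s hα hβ he (hI q hq.1) (hI q' hq'.1) (hb q hq.1) (hb q' hq'.1)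
        hq.2 hq'.2 h1 h3
      have e1 := hid q
      have e2 := hid q'
      linarith [mul_sub γ (D.v q' d) (D.v q d), mul_sub α (D.v q' b) (D.v q b),
        mul_sub β (D.v q' a) (D.v q a)])
  exact_mod_cast this

theorem mv_card6 {α : Type*} {A Z1 Z2 Z3 Z4 Z5 Z6 : Finset α} {a1 a2 a3 a4 a5 a6 : ℝ}
    (h : ∀ q ∈ A, q ∈ Z1 ∨ q ∈ Z2 ∨ q ∈ Z3 ∨ q ∈ Z4 ∨ q ∈ Z5 ∨ q ∈ Z6)
    (h1 : (Z1.card : ℝ) ≤ a1) (h2 : (Z2.card : ℝ) ≤ a2) (h3 : (Z3.card : ℝ) ≤ a3)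
    (h4 : (Z4.card : ℝ) ≤ a4) (h5 : (Z5.card : ℝ) ≤ a5) (h6 : (Z6.card : ℝ) ≤ a6) :
    (A.card : ℝ) ≤ a1 + a2 + a3 + a4 + a5 + a6 := by
  have hsub : A ⊆ Z1 ∪ Z2 ∪ Z3 ∪ Z4 ∪ Z5 ∪ Z6 := fun q hq => by
    have := h q hq
    simp only [mem_union]
    tauto
  have c1 := card_le_card hsub
  have c2 := card_union_le (Z1 ∪ Z2 ∪ Z3 ∪ Z4 ∪ Z5) Z6
  have c3 := card_union_le (Z1 ∪ Z2 ∪ Z3 ∪ Z4) Z5
  have c4 := card_union_le (Z1 ∪ Z2 ∪ Z3) Z4
  have c5 := card_union_le (Z1 ∪ Z2) Z3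
  have c6 := card_union_le Z1 Z2
  have : A.card ≤ Z1.card + Z2.card + Z3.card + Z4.card + Z5.card + Z6.card := by omega
  have : (A.card : ℝ) ≤ Z1.card + Z2.card + Z3.card + Z4.card + Z5.card + Z6.card := by
    exact_mod_cast this
  linarith

/-- The six comparisons for fixed `e`, `s`. -/
def Six (D : SD) (τ : ℕ) (i j l e : ℕ) (s : Bool) (q : ℝ × ℝ) : Prop :=
    (D.x j - D.x i) * D.rho s q l (2 ^ e) ≤ (D.x l - D.x j) * D.rho (!s) q i (2 ^ (e + τ)) ∧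
    (D.x l - D.x j) * D.rho s q i (2 ^ e) ≤ (D.x j - D.x i) * D.rho (!s) q l (2 ^ (e + τ)) ∧
    (D.x l - D.x j) * D.rho s q i (2 ^ e) ≤ (D.x l - D.x i) * D.rho s q j (2 ^ (e + τ)) ∧
    (D.x l - D.x i) * D.rho s q j (2 ^ e) ≤ (D.x l - D.x j) * D.rho s q i (2 ^ (e + τ)) ∧
    (D.x j - D.x i) * D.rho s q l (2 ^ e) ≤ (D.x l - D.x i) * D.rho s q j (2 ^ (e + τ)) ∧
    (D.x l - D.x i) * D.rho s q j (2 ^ e) ≤ (D.x j - D.x i) * D.rho s q l (2 ^ (e + τ))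

theorem mv_six {K : ℝ} {c : ℕ} (h : D.Hyp K c) (Q : Finset (ℝ × ℝ)) (i j l e τ U : ℕ) (g : ℝ)
    (s : Bool) (hg0 : 0 ≤ g) (hij : D.x i < D.x j) (hjl : D.x j < D.x l) (he : 2 ^ (e + τ) ≤ U)
    (hU : (U : ℝ) ≤ D.C) (hQ : ∀ q ∈ Q, MvOk D g U i j l q) :
    ((Q.filter fun q => ¬ Six D τ i j l e s q).card : ℝ) ≤
      6 * (16 * (K * D.C) ^ 2 * g / 2 ^ τ) := by
  have p1 : 0 < D.x j - D.x i := by linarith
  have p2 : 0 < D.x l - D.x j := by linarith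
  have p3 : 0 < D.x l - D.x i := by linarith
  have hL := fun q hq => (hQ q hq).mem
  have gi := fun q hq => (hQ q hq).gi
  have gj := fun q hq => (hQ q hq).gj
  have gl := fun q hq => (hQ q hq).gl
  have cij := fun q hq => (hQ q hq).cij
  have cil := fun q hq => (hQ q hq).cil
  have cjl := fun q hq => (hQ q hq).cjl
  have cji : ∀ q ∈ Q, (D.cell q j i : ℝ) ≤ g := fun q hq => by rw [cell_comm]; exact cij q hq
  have cli : ∀ q ∈ Q, (D.cell q l i : ℝ) ≤ g := fun q hq => by rw [cell_comm]; exact cil q hq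
  have clj : ∀ q ∈ Q, (D.cell q l j : ℝ) ≤ g := fun q hq => by rw [cell_comm]; exact cjl q hq
  have ii := fun q hq => (hQ q hq).ii
  have ij := fun q hq => (hQ q hq).ij
  have il := fun q hq => (hQ q hq).il
  have z1 := mv_Zopp h Q i l j e τ U g _ _ (D.x l - D.x i) s hg0 p1 p2 he hU hL gi gl gj clj ii
    (fun q => by unfold SD.v; ring)
  have z2 := mv_Zopp h Q l i j e τ U g _ _ (D.x l - D.x i) s hg0 p2 p1 he hU hL gl gi gj cij il
    (fun q => by unfold SD.v; ring)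
  have z3 := mv_Zsame h Q j i l e τ U g _ _ (-(D.x j - D.x i)) s hg0 p2 p3 he hU hL gj gi gl cil ij
    (fun q => by unfold SD.v; ring)
  have z4 := mv_Zsame h Q i j l e τ U g _ _ (D.x j - D.x i) s hg0 p3 p2 he hU hL gi gj gl cjl ii
    (fun q => by unfold SD.v; ring)
  have z5 := mv_Zsame h Q j l i e τ U g _ _ (-(D.x l - D.x j)) s hg0 p1 p3 he hU hL gj gl gi cli ij
    (fun q => by unfold SD.v; ring)
  have z6 := mv_Zsame h Q l j i e τ U g _ _ (D.x l - D.x j) s hg0 p3 p1 he hU hL gl gj gi cji il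
    (fun q => by unfold SD.v; ring)
  refine (mv_card6 ?_ z1 z2 z3 z4 z5 z6).trans (le_of_eq (by ring))
  intro q hq
  simp only [mem_filter] at hq ⊢
  unfold Six at hq
  tauto

theorem mv_fail {K : ℝ} {c : ℕ} (h : D.Hyp K c) (Q : Finset (ℝ × ℝ)) (i j l τ U : ℕ) (g : ℝ)
    (hg0 : 0 ≤ g) (hij : D.x i < D.x j) (hjl : D.x j < D.x l)
    (hU : (U : ℝ) ≤ D.C) (hQ : ∀ q ∈ Q, MvOk D g U i j l q) :
    ((Q.filter fun q => ¬ D.Mv τ U q i j l).card : ℝ) ≤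
      24 * K * (16 * (K * D.C) ^ 2 * g / 2 ^ τ) := by
  have hK := h.two_le
  set E : Finset (ℕ × Bool) := ((range (⌊K⌋₊ + 1)).filter fun e => 2 ^ (e + τ) ≤ U) ×ˢ univ with hE
  have hEc : (E.card : ℝ) ≤ 4 * K := by
    have h1 : E.card ≤ (⌊K⌋₊ + 1) * 2 := by
      rw [hE, card_product, card_univ, Fintype.card_bool]
      exact Nat.mul_le_mul_right _ ((card_filter_le _ _).trans (by rw [card_range]))
    have h2 : (⌊K⌋₊ : ℝ) ≤ K := Nat.floor_le (by linarith)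
    have h3 : (E.card : ℝ) ≤ ((⌊K⌋₊ : ℝ) + 1) * 2 := by exact_mod_cast h1
    linarith
  have hsub : (Q.filter fun q => ¬ D.Mv τ U q i j l) ⊆
      E.biUnion fun z => Q.filter fun q => ¬ Six D τ i j l z.1 z.2 q := by
    intro q hq
    rw [mem_filter] at hq
    have h1 : ¬ ∀ (e : ℕ) (s : Bool), 2 ^ (e + τ) ≤ U → Six D τ i j l e s q :=
      fun hh => hq.2 ⟨hij, hjl, hh⟩
    push Not at h1
    obtain ⟨e, s, he, hs⟩ := h1
    rw [mem_biUnion]
    refine ⟨(e, s), ?_, mem_filter.2 ⟨hq.1, hs⟩⟩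
    rw [hE, mem_product, mem_filter, mem_range]
    refine ⟨⟨?_, he⟩, mem_univ _⟩
    have h2 : ((2 : ℝ) ^ (e + τ : ℕ)) ≤ (2 : ℝ) ^ K :=
      le_trans (le_trans (by exact_mod_cast he) hU) h.logC
    rw [← Real.rpow_natCast, Real.rpow_le_rpow_left_iff (by norm_num)] at h2
    have h3 : (e : ℝ) ≤ K := by
      push_cast at h2
      have : (0 : ℝ) ≤ τ := Nat.cast_nonneg _
      linarith
    have := Nat.le_floor h3
    simp only
    omega
  have h1 : ((Q.filter fun q => ¬ D.Mv τ U q i j l).card : ℝ) ≤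
      ∑ z ∈ E, ((Q.filter fun q => ¬ Six D τ i j l z.1 z.2 q).card : ℝ) := by
    exact_mod_cast (card_le_card hsub).trans card_biUnion_le
  have h2 : ∀ z ∈ E, ((Q.filter fun q => ¬ Six D τ i j l z.1 z.2 q).card : ℝ) ≤
      6 * (16 * (K * D.C) ^ 2 * g / 2 ^ τ) := fun z hz => by
    rw [hE, mem_product, mem_filter] at hz
    exact mv_six h Q i j l z.1 τ U g z.2 hg0 hij hjl hz.1.2 hU hQ
  refine h1.trans ((sum_le_sum h2).trans ?_)
  rw [sum_const, nsmul_eq_mul]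
  have h3 : 0 ≤ 16 * (K * D.C) ^ 2 * g / 2 ^ τ := by positivity
  nlinarith

/-- Points present at `i`, `i'` that are not good. -/
noncomputable def mvB (D : SD) (Γ : ℝ) (i i' : ℕ) : Finset (ℝ × ℝ) :=
  D.L.filter fun q => (q, i) ∈ D.G ∧ (q, i') ∈ D.G ∧ ¬ D.Good Γ D.m q i i'

theorem mv_sumB (Γ : ℝ) :
    ∑ i ∈ range D.m, ∑ i' ∈ range D.m, (mvB D Γ i i').card ≤ D.badT Γ D.m := by
  rw [← sum_product', ← card_sigma]
  unfold SD.badT
  refine card_le_card_of_injOn (fun z => (z.2, z.1)) ?_ ?_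
  · intro z hz
    simp only [coe_sigma, Set.mem_sigma_iff, coe_product, Set.mem_prod, mem_coe, mem_range, mvB,
      mem_filter, SD.tri, mem_product] at hz ⊢
    obtain ⟨⟨h1, h2⟩, h3, h4, h5, h6⟩ := hz
    refine ⟨⟨⟨h3, h1, h2⟩, h4, h5, ?_⟩, h6⟩
    have a1 : (z.1.1 : ℝ) < D.m := by exact_mod_cast h1
    have a2 : (z.1.2 : ℝ) < D.m := by exact_mod_cast h2
    have a3 : (0 : ℝ) ≤ z.1.1 := Nat.cast_nonneg _
    have a4 : (0 : ℝ) ≤ z.1.2 := Nat.cast_nonneg _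
    rw [abs_le]; constructor <;> linarith
  · rintro ⟨a, b⟩ _ ⟨a', b'⟩ _ hh
    simp only [Prod.mk.injEq] at hh
    obtain ⟨rfl, rfl⟩ := hh
    rfl

/-- The bad points at a triple of indices. -/
noncomputable def mvS (D : SD) (τ U i j l : ℕ) : Finset (ℝ × ℝ) :=
  D.L.filter fun q => (q, i) ∈ D.G ∧ (q, j) ∈ D.G ∧ (q, l) ∈ D.G ∧ i < j ∧ j < l ∧
    ¬ (D.Int U q i ∧ D.Int U q j ∧ D.Int U q l ∧ D.Mv τ U q i j l)

theorem mv_badM (τ U : ℕ) : D.badM τ U ≤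
    ∑ i ∈ range D.m, ∑ j ∈ range D.m, ∑ l ∈ range D.m, (mvS D τ U i j l).card := by
  have : ∑ i ∈ range D.m, ∑ j ∈ range D.m, ∑ l ∈ range D.m, (mvS D τ U i j l).card =
      ∑ z ∈ range D.m ×ˢ range D.m ×ˢ range D.m, (mvS D τ U z.1 z.2.1 z.2.2).card := by
    rw [sum_product]
    refine sum_congr rfl fun i _ => ?_
    rw [sum_product]
  rw [this, ← card_sigma]
  unfold SD.badM
  refine card_le_card_of_injOn (fun z => ⟨z.2, z.1⟩) ?_ ?_
  · intro z hz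
    simp only [coe_sigma, Set.mem_sigma_iff, coe_product, Set.mem_prod, mem_coe, mem_range, mvS,
      mem_filter, mem_product] at hz ⊢
    tauto
  · rintro ⟨a, b⟩ _ ⟨a', b'⟩ _ hh
    simp only [Sigma.mk.injEq, heq_eq_eq] at hh
    obtain ⟨rfl, rfl⟩ := hh
    rfl

theorem mv_triple {K : ℝ} {c : ℕ} (h : D.Hyp K c) (Γ : ℝ) (hΓ : 0 ≤ Γ) (τ U i j l : ℕ)
    (hl : l < D.m) (hU : (U : ℝ) ≤ D.C) :
    ((mvS D τ U i j l).card : ℝ) ≤ (mvB D Γ i j).card + (mvB D Γ i l).card + (mvB D Γ j l).card +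
      D.N * (6 * K * U / D.C + 2 * K * Γ / D.C + 400 * K ^ 3 * Γ / 2 ^ τ) := by
  have hK := h.two_le; have hN := h.N_pos; have hC := h.C_pos
  have hm : (0 : ℝ) < D.m := by exact_mod_cast h.m_pos
  have hK0 : 0 < K := by linarith
  by_cases hijl : i < j ∧ j < l
  swap
  · have : mvS D τ U i j l = ∅ := by
      unfold mvS
      rw [filter_eq_empty_iff]
      tauto
    rw [this]
    simp only [card_empty, Nat.cast_zero]
    positivity
  set g := Γ * D.N / D.C ^ 2 with hg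
  have hg0 : 0 ≤ g := by positivity
  have hgood : ∀ q a b, D.Good Γ D.m q a b → (D.cell q a b : ℝ) ≤ g := fun q a b hq => by
    refine hq.1.trans (le_of_eq ?_)
    rw [hg]; field_simp
  set Q := D.L.filter fun q => MvOk D g U i j l q with hQ
  have hQ' : ∀ q ∈ Q, MvOk D g U i j l q := fun q hq => (mem_filter.1 hq).2
  have hF : ((Q.filter fun q => ¬ D.Mv τ U q i j l).card : ℝ) ≤
      D.N * (2 * K * Γ / D.C + 400 * K ^ 3 * Γ / 2 ^ τ) := by
    have e1 : g * (K * D.C) = D.N * (K * Γ / D.C) := by rw [hg]; field_simp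
    have e2 : 0 ≤ K * Γ / D.C := by positivity
    have e3 : 0 ≤ K ^ 3 * Γ / 2 ^ τ := by positivity
    have e4 : 2 * K * Γ / D.C + 400 * K ^ 3 * Γ / 2 ^ τ =
        2 * (K * Γ / D.C) + 400 * (K ^ 3 * Γ / 2 ^ τ) := by ring
    have hQc : ((Q.filter fun q => ¬ D.Mv τ U q i j l).card : ℝ) ≤ Q.card := by
      exact_mod_cast card_filter_le _ _
    rw [e4]
    rcases (h.x_mono i j hijl.1.le (by omega)).eq_or_lt with hij | hij
    · have := mv_eqx h i j g hg0 hij Q (fun q hq => ⟨(hQ' q hq).gi, (hQ' q hq).gj⟩)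
        (fun q hq => (hQ' q hq).cij)
      nlinarith [mul_nonneg hN.le e2, mul_nonneg hN.le e3]
    rcases (h.x_mono j l hijl.2.le hl).eq_or_lt with hjl | hjl
    · have := mv_eqx h j l g hg0 hjl Q (fun q hq => ⟨(hQ' q hq).gj, (hQ' q hq).gl⟩)
        (fun q hq => (hQ' q hq).cjl)
      nlinarith [mul_nonneg hN.le e2, mul_nonneg hN.le e3]
    have := mv_fail h Q i j l τ U g hg0 hij hjl hU hQ'
    have e5 : 24 * K * (16 * (K * D.C) ^ 2 * g / 2 ^ τ) = 384 * (D.N * (K ^ 3 * Γ / 2 ^ τ)) := by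
      rw [hg]; field_simp; ring
    nlinarith [mul_nonneg hN.le e2, mul_nonneg hN.le e3]
  have hI : ((((D.L.filter fun q => (q, i) ∈ D.G ∧ ¬ D.Int U q i) ∪
      (D.L.filter fun q => (q, j) ∈ D.G ∧ ¬ D.Int U q j)) ∪
      (D.L.filter fun q => (q, l) ∈ D.G ∧ ¬ D.Int U q l)).card : ℝ) ≤ D.N * (6 * K * U / D.C) := by
    have a1 := mv_nonint h i U
    have a2 := mv_nonint h j U
    have a3 := mv_nonint h l U
    have a4 : ((((D.L.filter fun q => (q, i) ∈ D.G ∧ ¬ D.Int U q i) ∪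
      (D.L.filter fun q => (q, j) ∈ D.G ∧ ¬ D.Int U q j)) ∪
      (D.L.filter fun q => (q, l) ∈ D.G ∧ ¬ D.Int U q l)).card : ℝ) ≤
      (D.L.filter fun q => (q, i) ∈ D.G ∧ ¬ D.Int U q i).card +
      (D.L.filter fun q => (q, j) ∈ D.G ∧ ¬ D.Int U q j).card +
      (D.L.filter fun q => (q, l) ∈ D.G ∧ ¬ D.Int U q l).card := by
      exact_mod_cast (card_union_le _ _).trans (Nat.add_le_add_right (card_union_le _ _) _)
    have e1 : D.N * (6 * K * U / D.C) = 3 * (2 * U * (K * D.N / D.C)) := by ring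
    linarith
  refine (mv_card6 ?_ (le_refl ((mvB D Γ i j).card : ℝ)) (le_refl ((mvB D Γ i l).card : ℝ))
    (le_refl ((mvB D Γ j l).card : ℝ)) hI hF
    (le_refl ((∅ : Finset (ℝ × ℝ)).card : ℝ))).trans (le_of_eq (by simp; ring))
  intro q hq
  unfold mvS at hq
  rw [mem_filter] at hq
  obtain ⟨h0, h1, h2, h3, -, -, h6⟩ := hq
  by_cases g1 : D.Good Γ D.m q i j
  swap
  · exact Or.inl (mem_filter.2 ⟨h0, h1, h2, g1⟩)
  by_cases g2 : D.Good Γ D.m q i l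
  swap
  · exact Or.inr (Or.inl (mem_filter.2 ⟨h0, h1, h3, g2⟩))
  by_cases g3 : D.Good Γ D.m q j l
  swap
  · exact Or.inr (Or.inr (Or.inl (mem_filter.2 ⟨h0, h2, h3, g3⟩)))
  by_cases i1 : D.Int U q i ∧ D.Int U q j ∧ D.Int U q l
  swap
  · refine Or.inr (Or.inr (Or.inr (Or.inl ?_)))
    simp only [mem_union, mem_filter]
    tauto
  refine Or.inr (Or.inr (Or.inr (Or.inr (Or.inl ?_))))
  refine mem_filter.2 ⟨mem_filter.2 ⟨h0, ⟨h0, h1, h2, h3, hgood _ _ _ g1, hgood _ _ _ g2,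
    hgood _ _ _ g3, i1.1, i1.2.1, i1.2.2⟩⟩, fun hh => h6 ⟨i1.1, i1.2.1, i1.2.2, hh⟩⟩

end SD

theorem SD.badM_le (D : SD) (K lam : ℝ) (c τ U : ℕ) (h : D.Hyp K c) (hl : K ≤ lam)
    (hlc : lam ^ c ≤ D.C) (hU : (U : ℝ) ≤ D.C) :
    (D.badM τ U : ℝ) ≤ D.N * D.m ^ 3 *
      (3 / lam + 6 * K * U / D.C + 2 * K * lam ^ c / D.C + 400 * K ^ 3 * lam ^ c / 2 ^ τ) := by
  have hK := h.two_le; have hN := h.N_pos; have hC := h.C_pos
  have hm : (0 : ℝ) < D.m := by exact_mod_cast h.m_pos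
  have hΓ : 0 ≤ lam ^ c := pow_nonneg (by linarith) _
  have hB : (D.badT (lam ^ c) D.m : ℝ) ≤ D.N * D.m * D.m / lam :=
    h.ind lam D.m hl hlc (by rw [div_le_iff₀ hC]; nlinarith) le_rfl
  have hS : ∑ i ∈ range D.m, ∑ i' ∈ range D.m, ((SD.mvB D (lam ^ c) i i').card : ℝ) ≤
      D.N * D.m * D.m / lam := le_trans (by exact_mod_cast SD.mv_sumB (lam ^ c)) hB
  set R := D.N * (6 * K * U / D.C + 2 * K * lam ^ c / D.C + 400 * K ^ 3 * lam ^ c / 2 ^ τ) with hR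
  set b : ℕ → ℕ → ℝ := fun i i' => ((SD.mvB D (lam ^ c) i i').card : ℝ) with hb
  have h1 : (D.badM τ U : ℝ) ≤ ∑ i ∈ range D.m, ∑ j ∈ range D.m, ∑ l ∈ range D.m,
      ((SD.mvS D τ U i j l).card : ℝ) := by exact_mod_cast SD.mv_badM τ U
  have h2 : ∑ i ∈ range D.m, ∑ j ∈ range D.m, ∑ l ∈ range D.m,
      ((SD.mvS D τ U i j l).card : ℝ) ≤ ∑ i ∈ range D.m, ∑ j ∈ range D.m, ∑ l ∈ range D.m,
      (b i j + b i l + b j l + R) :=
    sum_le_sum fun i _ => sum_le_sum fun j _ => sum_le_sum fun l hl' =>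
      SD.mv_triple h _ hΓ τ U i j l (mem_range.1 hl') hU
  have h3 : ∑ i ∈ range D.m, ∑ j ∈ range D.m, ∑ l ∈ range D.m, (b i j + b i l + b j l + R) =
      3 * D.m * (∑ i ∈ range D.m, ∑ i' ∈ range D.m, b i i') + D.m ^ 3 * R := by
    simp only [sum_add_distrib, sum_const, card_range, nsmul_eq_mul, ← mul_sum]
    ring
  refine h1.trans (h2.trans ?_)
  rw [h3]
  have h4 := mul_le_mul_of_nonneg_left hS (by positivity : (0 : ℝ) ≤ 3 * D.m)
  have e : D.N * D.m ^ 3 *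
      (3 / lam + 6 * K * U / D.C + 2 * K * lam ^ c / D.C + 400 * K ^ 3 * lam ^ c / 2 ^ τ) =
      3 * D.m * (D.N * D.m * D.m / lam) + D.m ^ 3 * R := by rw [hR]; ring
  rw [e]
  linarith

end Vale.Agent.P065.U
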