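import Vale.Agent.P065.U.SCS

/-!
P065/U task SRef: one reference class gives one scale sequence for a large part of G.

Proof. Apply `cross_self` with K' = 64 K³ (via `Hyp.mono`), get τ0; U = the largest power of two with
U K'^c' ≤ C; τ = 7 τ0, E0 with 2^(E0+τ) = U. G1 = pairs with Int U and Self; |G1| ≥ 3Nm/(4K).
G1' = pairs of G1 whose class (same i, same cls) contains ≥ N/(8K²C) points of G1; |G1'| ≥ Nm/(2K).
Triples (q,i0,i) with both pairs in G1': ≥ N m²/(4K³) (Cauchy-Schwarz over q ∈ L). Remove those failing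
Cross q i0 i, Cross q i i0, or `Good Γ m` (lam = 64K³): ≥ N m²/(8K³) remain. Pigeonhole over (i0,w0)
(≤ m K C): ≥ N m/(8K⁴C) pairs (q,i) with cls q i0 = w0. Call (i, cls q i) marked; a marked class takes
≤ Γ N/C² of these q, so ≥ m C/(8K⁴Γ) classes are marked. Gs = pairs of G1 in marked classes,
|Gs| ≥ N m/(64 K⁶ Γ). Put Dd u = up q0 i0 u + dn q0 i0 u for a point q0 of the reference class and
δ e = Dd (2^(e+τ0)). With R u = up + dn of a marked class (`up_add_dn`): R (2^e) ≤ Dd (2^(e+τ0)) and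
Dd (2^(e+τ0)) ≤ R (2^(e+2τ0)) by Cross. p1: `le_up`, `le_dn`, `rho_pos`. p2: if the ranks differ by
≥ 2^(e+7τ0) then |Δ| ≥ rho s (2^(e+7τ0)) ≥ 2 rho s' (2^(e+2τ0)) for both s' (Self), so
|Δ| ≥ R (2^(e+2τ0)) ≥ δ e. grow: Self of q0.
-/

namespace Vale.Agent.P065.U

open Finset Classical

section fib

variable {α β : Type*} [DecidableEq β]

theorem sref_le (S : Finset α) (κ : α → β) (T : Finset β) (hT : ∀ a ∈ S, κ a ∈ T) {η : ℝ}
    (h : ∀ b ∈ T, ((S.filter fun a => κ a = b).card : ℝ) ≤ η) : (S.card : ℝ) ≤ T.card * η := by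
  rw [card_eq_sum_card_fiberwise (f := κ) (t := T) hT, Nat.cast_sum, ← nsmul_eq_mul]
  exact sum_le_card_nsmul _ _ _ h

theorem sref_ge (S : Finset α) (κ : α → β) (T : Finset β) {η : ℝ}
    (h : ∀ b ∈ T, η ≤ ((S.filter fun a => κ a = b).card : ℝ)) :
    T.card * η ≤ ((S.filter fun a => κ a ∈ T).card : ℝ) := by
  rw [card_eq_sum_card_fiberwise (f := κ) (s := S.filter fun a => κ a ∈ T) (t := T)
    fun a ha => (mem_filter.1 ha).2, Nat.cast_sum, ← nsmul_eq_mul]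
  refine card_nsmul_le_sum _ _ _ fun b hb => (h b hb).trans (Nat.cast_le.2 (card_le_card ?_))
  intro a ha
  rw [mem_filter] at ha
  exact mem_filter.2 ⟨mem_filter.2 ⟨ha.1, ha.2 ▸ hb⟩, ha.2⟩

theorem sref_cs [DecidableEq α] (L : Finset α) (R : Finset β) (H : Finset (α × β))
    (hH : H ⊆ L ×ˢ R) : (H.card : ℝ) ^ 2 ≤ L.card *
      (((L ×ˢ R ×ˢ R).filter fun z => (z.1, z.2.1) ∈ H ∧ (z.1, z.2.2) ∈ H).card : ℝ) := by
  have h1 : H.card = ∑ q ∈ L, (R.filter fun i => (q, i) ∈ H).card := by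
    have : H = (L ×ˢ R).filter fun z => z ∈ H := by
      rw [filter_mem_eq_inter, inter_eq_right.2 hH]
    conv_lhs => rw [this]
    simp only [card_filter, sum_product]
  have h2 : ((L ×ˢ R ×ˢ R).filter fun z => (z.1, z.2.1) ∈ H ∧ (z.1, z.2.2) ∈ H).card =
      ∑ q ∈ L, (R.filter fun i => (q, i) ∈ H).card ^ 2 := by
    rw [card_filter, sum_product]
    refine sum_congr rfl fun q _ => ?_
    rw [sq, ← card_product, ← filter_product, card_filter]
  rw [h1, h2]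
  exact_mod_cast sq_sum_le_card_mul_sum_sq

end fib

namespace SD

variable {D : SD}

theorem sref_cls {K : ℝ} {c : ℕ} (h : D.Hyp K c) : ∃ T : Finset (ℕ × ℤ),
    (T.card : ℝ) ≤ D.m * (K * D.C) ∧ ∀ q i, (q, i) ∈ D.G → (i, D.cls q i) ∈ T := by
  refine ⟨(range D.m).biUnion fun i => (D.W i).image fun w => (i, w), ?_, fun q i hq => ?_⟩
  · refine (Nat.cast_le.2 card_biUnion_le).trans ?_
    rw [Nat.cast_sum]
    refine (sum_le_card_nsmul _ _ (K * D.C) fun i _ =>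
      (Nat.cast_le.2 card_image_le).trans (h.W_le i)).trans_eq ?_
    rw [card_range, nsmul_eq_mul]
  · exact mem_biUnion.2 ⟨i, (mem_product.1 (h.G_sub hq)).2, mem_image_of_mem _
      (mem_image.2 ⟨(q, i), mem_filter.2 ⟨hq, rfl⟩, rfl⟩)⟩

theorem sref_count {K Γ : ℝ} {c : ℕ} (h : D.Hyp K c) (hΓ : 0 < Γ) {G1 : Finset ((ℝ × ℝ) × ℕ)}
    (hs : G1 ⊆ D.G) (h1 : 3 * (D.N * D.m) / (4 * K) ≤ G1.card) (P : ℝ × ℝ → ℕ → ℕ → Prop)
    (hP : (((D.tri D.m).filter fun z => ¬ P z.1 z.2.1 z.2.2).card : ℝ) ≤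
      D.N * D.m ^ 2 / (8 * K ^ 3))
    (hc : ∀ q i i', P q i i' → (D.cell q i i' : ℝ) ≤ Γ * D.N / D.C ^ 2) :
    ∃ q0 i0, (q0, i0) ∈ G1 ∧ ∃ Gs ⊆ G1, D.N * D.m / (32 * K ^ 6 * Γ) ≤ Gs.card ∧
      ∀ g ∈ Gs, ∃ q, D.cls q0 i0 = D.cls q i0 ∧ D.cls g.1 g.2 = D.cls q g.2 ∧ P q i0 g.2 := by
  obtain ⟨T, hT, hT'⟩ := sref_cls h
  have hK : 0 < K := by linarith [h.two_le]
  have hN := h.N_pos
  have hC := h.C_pos
  have hm : (0 : ℝ) < D.m := Nat.cast_pos.2 h.m_pos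
  let κ : (ℝ × ℝ) × ℕ → ℕ × ℤ := fun g => (g.2, D.cls g.1 g.2)
  let big : (ℝ × ℝ) × ℕ → Prop := fun g =>
    D.N / (4 * K ^ 2 * D.C) ≤ ((G1.filter fun a => κ a = κ g).card : ℝ)
  have h2 : D.N * D.m / (2 * K) ≤ (G1.filter big).card := by
    have e1 := sref_le (G1.filter fun g => ¬ big g) κ T
      (fun a ha => hT' _ _ (hs (mem_filter.1 ha).1)) (η := D.N / (4 * K ^ 2 * D.C)) fun b _ => by
        rcases (filter (fun a => κ a = b) (G1.filter fun g => ¬ big g)).eq_empty_or_nonempty with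
          e | ⟨a, ha⟩
        · rw [e, card_empty, Nat.cast_zero]
          positivity
        · rw [mem_filter, mem_filter] at ha
          refine le_trans (Nat.cast_le.2 (card_le_card ?_)) (not_le.1 ha.1.2).le
          rw [ha.2]
          exact filter_subset_filter _ (filter_subset _ _)
    have e2 : ((G1.filter big).card : ℝ) + (G1.filter fun g => ¬ big g).card = G1.card := by
      exact_mod_cast card_filter_add_card_filter_not big
    have e3 := mul_le_mul_of_nonneg_right hT (show 0 ≤ D.N / (4 * K ^ 2 * D.C) by positivity)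
    have e4 : D.m * (K * D.C) * (D.N / (4 * K ^ 2 * D.C)) = D.N * D.m / (4 * K) := by field_simp
    have e5 : 3 * (D.N * D.m) / (4 * K) = D.N * D.m / (2 * K) + D.N * D.m / (4 * K) := by
      field_simp
      ring
    linarith
  have hsG : G1.filter big ⊆ D.G := (filter_subset _ _).trans hs
  have h3 := sref_cs D.L (range D.m) (G1.filter big) (hsG.trans h.G_sub)
  set T0 := (D.L ×ˢ range D.m ×ˢ range D.m).filter fun z =>
    (z.1, z.2.1) ∈ G1.filter big ∧ (z.1, z.2.2) ∈ G1.filter big with hT0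
  have h4 : D.N * D.m ^ 2 / (4 * K ^ 3) ≤ T0.card := by
    have e1 := (pow_le_pow_left₀ (by positivity) h2 2).trans
      (h3.trans (mul_le_mul_of_nonneg_right h.L_le (Nat.cast_nonneg _)))
    refine le_of_mul_le_mul_left (le_trans (le_of_eq ?_) e1) (mul_pos hK hN)
    field_simp
    ring
  set T1 := T0.filter fun z => P z.1 z.2.1 z.2.2 with hT1
  have h5 : D.N * D.m ^ 2 / (8 * K ^ 3) ≤ T1.card := by
    have e1 : T0 ⊆ D.tri D.m := fun z hz => by
      rw [hT0, mem_filter] at hz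
      refine mem_filter.2 ⟨hz.1, hsG hz.2.1, hsG hz.2.2, ?_⟩
      have e := mem_product.1 (mem_product.1 hz.1).2
      have e3 : (z.2.1 : ℝ) < D.m := Nat.cast_lt.2 (mem_range.1 e.1)
      have e4 : (z.2.2 : ℝ) < D.m := Nat.cast_lt.2 (mem_range.1 e.2)
      have e5 : (0 : ℝ) ≤ z.2.1 := Nat.cast_nonneg _
      have e6 : (0 : ℝ) ≤ z.2.2 := Nat.cast_nonneg _
      rw [abs_le]
      constructor <;> linarith
    have e2 : (T1.card : ℝ) + (T0.filter fun z => ¬ P z.1 z.2.1 z.2.2).card = T0.card := by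
      exact_mod_cast card_filter_add_card_filter_not _
    have e3 : ((T0.filter fun z => ¬ P z.1 z.2.1 z.2.2).card : ℝ) ≤
        ((D.tri D.m).filter fun z => ¬ P z.1 z.2.1 z.2.2).card :=
      Nat.cast_le.2 (card_le_card (filter_subset_filter _ e1))
    have e5 : D.N * D.m ^ 2 / (4 * K ^ 3) =
        D.N * D.m ^ 2 / (8 * K ^ 3) + D.N * D.m ^ 2 / (8 * K ^ 3) := by
      field_simp
      ring
    linarith
  have hmem : ∀ z ∈ T1, (z.1, z.2.1) ∈ G1.filter big ∧ (z.1, z.2.2) ∈ G1.filter big ∧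
      z.1 ∈ D.L ∧ P z.1 z.2.1 z.2.2 := fun z hz => by
    rw [hT1, mem_filter, hT0, mem_filter] at hz
    exact ⟨hz.1.2.1, hz.1.2.2, (mem_product.1 hz.1.1).1, hz.2⟩
  have hpos : 0 < D.N * D.m ^ 2 / (8 * K ^ 3) := by positivity
  obtain ⟨z1, hz1⟩ : T1.Nonempty := card_pos.1 (Nat.cast_pos.1 (hpos.trans_le h5))
  obtain ⟨b, -, hb⟩ := exists_max_image T
    (fun b => (T1.filter fun z => κ (z.1, z.2.1) = b).card) ⟨_, hT' _ _ (hsG (hmem _ hz1).1)⟩
  have h6 := sref_le T1 (fun z => κ (z.1, z.2.1)) T (fun z hz => hT' _ _ (hsG (hmem z hz).1))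
    fun b' hb' => Nat.cast_le.2 (hb b' hb')
  set T2 := T1.filter fun z => κ (z.1, z.2.1) = b with hT2
  obtain ⟨z0, hz0⟩ : T2.Nonempty := by
    rw [nonempty_iff_ne_empty]
    intro e
    rw [e, card_empty, Nat.cast_zero, mul_zero] at h6
    linarith
  have hm2 : ∀ z ∈ T2, z ∈ T1 ∧ z.2.1 = z0.2.1 ∧ D.cls z.1 z0.2.1 = D.cls z0.1 z0.2.1 :=
    fun z hz => by
      have e := (mem_filter.1 hz).2.trans (mem_filter.1 hz0).2.symm
      have e1 : z.2.1 = z0.2.1 := (Prod.ext_iff.1 e).1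
      have e2 : D.cls z.1 z.2.1 = D.cls z0.1 z0.2.1 := congrArg Prod.snd e
      exact ⟨(mem_filter.1 hz).1, e1, e1 ▸ e2⟩
  have h7 := sref_le T2 (fun z => κ (z.1, z.2.2)) (T2.image fun z => κ (z.1, z.2.2))
    (fun z hz => mem_image_of_mem _ hz) (η := Γ * D.N / D.C ^ 2) fun b' hb' => by
      obtain ⟨y, hy, rfl⟩ := mem_image.1 hb'
      obtain ⟨y1, y2, y3⟩ := hm2 y hy
      refine le_trans (Nat.cast_le.2 ?_) (hc _ _ _ (hmem y y1).2.2.2)
      have e : ∀ z ∈ T2.filter fun z => κ (z.1, z.2.2) = κ (y.1, y.2.2),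
          z ∈ T2 ∧ z.2 = y.2 ∧ D.cls z.1 z.2.2 = D.cls y.1 y.2.2 := fun z hz => by
        rw [mem_filter] at hz
        exact ⟨hz.1, Prod.ext ((hm2 z hz.1).2.1.trans y2.symm) (congrArg Prod.fst hz.2),
          congrArg Prod.snd hz.2⟩
      refine card_le_card_of_injOn Prod.fst (fun z hz => ?_) fun z hz z' hz' e' =>
        Prod.ext e' ((e z hz).2.1.trans (e z' hz').2.1.symm)
      obtain ⟨e1, e2, e3⟩ := e z hz
      obtain ⟨z2, -, z3⟩ := hm2 z e1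
      obtain ⟨u1, u2, u3, -⟩ := hmem z z2
      rw [e2] at u1 u2 e3
      refine mem_filter.2 ⟨u3, hsG u1, hsG u2, ?_, e3⟩
      rw [y2, z3, y3]
  have h8 := sref_ge G1 κ (T2.image fun z => κ (z.1, z.2.2)) (η := D.N / (4 * K ^ 2 * D.C))
    fun b' hb' => by
      obtain ⟨y, hy, rfl⟩ := mem_image.1 hb'
      exact (mem_filter.1 (hmem y (hm2 y hy).1).2.1).2
  refine ⟨z0.1, z0.2.1, (mem_filter.1 (hmem z0 (hm2 z0 hz0).1).1).1, _, filter_subset _ _,
    le_trans ?_ h8, fun g hg => ?_⟩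
  · generalize ((T2.image fun z => κ (z.1, z.2.2)).card : ℝ) = M at h7 ⊢
    have e1 := h5.trans (h6.trans (mul_le_mul hT h7 (Nat.cast_nonneg _) (by positivity)))
    refine le_of_mul_le_mul_left (le_trans (le_of_eq ?_) (e1.trans (le_of_eq ?_)))
      (show 0 < 4 * K ^ 3 * Γ * D.m by positivity)
    · field_simp
      ring
    · field_simp
  · obtain ⟨y, hy, e⟩ := mem_image.1 (mem_filter.1 hg).2
    obtain ⟨y1, y2, y3⟩ := hm2 y hy
    have e1 : y.2.2 = g.2 := congrArg Prod.fst e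
    have e2 : D.cls y.1 y.2.2 = D.cls g.1 g.2 := congrArg Prod.snd e
    refine ⟨y.1, y3.symm, ?_, ?_⟩
    · rw [← e2, e1]
    · rw [← e1, ← y2]
      exact (hmem y y1).2.2.2

theorem sref_reg (hom : Monotone D.om) {τ E0 : ℕ} {Gs : Finset ((ℝ × ℝ) × ℕ)} (hs : Gs ⊆ D.G)
    {q0 : ℝ × ℝ} {i0 : ℕ} (hI : D.Int (2 ^ (E0 + 7 * τ)) q0 i0)
    (hS : D.Self τ (2 ^ (E0 + 7 * τ)) q0 i0)
    (h : ∀ g ∈ Gs, D.Int (2 ^ (E0 + 7 * τ)) g.1 g.2 ∧ D.Self τ (2 ^ (E0 + 7 * τ)) g.1 g.2 ∧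
      ∃ q, D.cls q0 i0 = D.cls q i0 ∧ D.cls g.1 g.2 = D.cls q g.2 ∧
        D.Cross τ (2 ^ (E0 + 7 * τ)) q i0 g.2 ∧ D.Cross τ (2 ^ (E0 + 7 * τ)) q g.2 i0) :
    D.Reg Gs (fun e => D.up q0 i0 (2 ^ (e + τ)) + D.dn q0 i0 (2 ^ (e + τ))) (7 * τ) E0 := by
  have pw : ∀ {a b : ℕ}, a ≤ b → 2 ^ a ≤ 2 ^ b := fun h => Nat.pow_le_pow_right two_pos h
  refine ⟨hs, fun g hg => ?_, fun e he => ?_, fun e e' h1 h2 => ?_, fun e he => ?_,
    fun q q' i e hq hq' he h1 h2 => ?_, fun q q' i e hq hq' he h1 => ?_⟩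
  · have := pw (Nat.le_add_right E0 (7 * τ))
    obtain ⟨h1, h2⟩ := (h g hg).1
    exact ⟨by omega, by omega⟩
  · exact add_pos (rho_pos hom hI Nat.one_le_two_pow (pw (by omega)) true)
      (rho_pos hom hI Nat.one_le_two_pow (pw (by omega)) false)
  · exact add_le_add (rho_mono hI (pw (by omega)) (pw (by omega)) true)
      (rho_mono hI (pw (by omega)) (pw (by omega)) false)
  · have key : ∀ s, 2 * D.rho s q0 i0 (2 ^ (e + τ)) ≤ D.rho s q0 i0 (2 ^ (e + 7 * τ + τ)) :=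
      fun s => (hS _ s s (pw (by omega))).trans (rho_mono hI (pw (by omega)) (pw (by omega)) s)
    rw [mul_add]
    exact add_le_add (key true) (key false)
  · obtain ⟨a1, -, r, a2, a3, -, a4⟩ := h _ hq
    have u1 := pw (show e ≤ E0 + 7 * τ by omega)
    have u2 := pw (show e + τ ≤ E0 + 7 * τ by omega)
    have e1 : D.up q i (2 ^ e) + D.dn q i (2 ^ e) = _ := up_add_dn a1 u1 a3
    have e2 : D.up r i (2 ^ e) ≤ D.up r i0 (2 ^ (e + τ)) := a4 e true u2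
    have e3 : D.dn r i (2 ^ e) ≤ D.dn r i0 (2 ^ (e + τ)) := a4 e false u2
    have e4 : 0 < D.up q i (2 ^ e) := rho_pos hom a1 Nat.one_le_two_pow u1 true
    have e5 : 0 < D.dn q i (2 ^ e) := rho_pos hom a1 Nat.one_le_two_pow u1 false
    have e6 : D.v q' i - D.v q i ≤ D.up q i (2 ^ e) := le_up hom a1 u1 h1
    have e7 : D.v q i - D.v q' i ≤ D.dn q i (2 ^ e) := le_dn hom a1 u1 h2
    rw [up_add_dn hI u2 a2, abs_le]
    constructor <;> linarith
  · obtain ⟨a1, a5, r, a2, a3, a4, -⟩ := h _ hq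
    have u1 := pw (show e + τ + τ ≤ E0 + 7 * τ by omega)
    have u2 := pw (show e + τ ≤ E0 + 7 * τ by omega)
    have e1 : D.up q i (2 ^ (e + τ + τ)) + D.dn q i (2 ^ (e + τ + τ)) = _ := up_add_dn a1 u1 a3
    have e2 : D.up r i0 (2 ^ (e + τ)) ≤ D.up r i (2 ^ (e + τ + τ)) := a4 _ true u1
    have e3 : D.dn r i0 (2 ^ (e + τ)) ≤ D.dn r i (2 ^ (e + τ + τ)) := a4 _ false u1
    have e4 := fun s s' => a5 (e + τ + τ) s s' (pw (by omega))
    rw [show e + τ + τ + 5 * τ = e + 7 * τ by omega] at e4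
    rw [up_add_dn hI u2 a2, abs_lt] at h1
    constructor
    · by_contra hn
      have e5 := up_le hq' (not_lt.1 hn)
      have e6 : 2 * D.up q i (2 ^ (e + τ + τ)) ≤ D.up q i (2 ^ (e + 7 * τ)) := e4 true true
      have e7 : 2 * D.dn q i (2 ^ (e + τ + τ)) ≤ D.up q i (2 ^ (e + 7 * τ)) := e4 false true
      linarith [h1.2]
    · by_contra hn
      have e5 := dn_le hq' (not_lt.1 hn)
      have e6 : 2 * D.up q i (2 ^ (e + τ + τ)) ≤ D.dn q i (2 ^ (e + 7 * τ)) := e4 true false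
      have e7 : 2 * D.dn q i (2 ^ (e + τ + τ)) ≤ D.dn q i (2 ^ (e + 7 * τ)) := e4 false false
      linarith [h1.1]

theorem sref_bad (P P1 P3 : ℝ × ℝ → ℕ → ℕ → Prop) (t : ℝ)
    (hP : ∀ q i i', P1 q i i' → P1 q i' i → P3 q i i' → P q i i') :
    ((D.tri t).filter fun z => ¬ P z.1 z.2.1 z.2.2).card ≤
    2 * ((D.tri t).filter fun z => ¬ P1 z.1 z.2.1 z.2.2).card +
      ((D.tri t).filter fun z => ¬ P3 z.1 z.2.1 z.2.2).card := by
  have h1 : ((D.tri t).filter fun z => ¬ P1 z.1 z.2.2 z.2.1).card ≤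
      ((D.tri t).filter fun z => ¬ P1 z.1 z.2.1 z.2.2).card := by
    refine card_le_card_of_injOn (fun z => (z.1, z.2.2, z.2.1)) (fun z hz => ?_)
      fun z _ z' _ e => ?_
    · simp only [tri, coe_filter, mem_filter, mem_product, Set.mem_ofPred_eq] at hz ⊢
      exact ⟨⟨⟨hz.1.1.1, hz.1.1.2.2, hz.1.1.2.1⟩, hz.1.2.2.1, hz.1.2.1,
        (abs_sub_comm _ _).trans_le hz.1.2.2.2⟩, hz.2⟩
    · simp only [Prod.mk.injEq] at e
      exact Prod.ext e.1 (Prod.ext e.2.2 e.2.1)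
  refine (card_le_card (t := (((D.tri t).filter fun z => ¬ P1 z.1 z.2.1 z.2.2) ∪
    (D.tri t).filter fun z => ¬ P1 z.1 z.2.2 z.2.1) ∪
      (D.tri t).filter fun z => ¬ P3 z.1 z.2.1 z.2.2) fun z hz => ?_).trans
    ((card_union_le _ _).trans (Nat.add_le_add_right ((card_union_le _ _).trans (by omega)) _))
  simp only [mem_filter, mem_union] at hz ⊢
  have := hP z.1 z.2.1 z.2.2
  tauto

end SD

theorem SD.exists_reg (c : ℕ) : ∃ c' : ℕ, ∀ (D : SD) (K : ℝ), D.Hyp K c → K ^ c' ≤ D.C →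
    ∃ (τ E0 : ℕ) (Gs : Finset ((ℝ × ℝ) × ℕ)) (δ : ℕ → ℝ), 1 ≤ τ ∧ (2 : ℝ) ^ τ ≤ K ^ c' ∧
      D.C ≤ K ^ c' * 2 ^ E0 ∧ (2 : ℝ) ^ E0 ≤ D.C ∧ D.N * D.m / K ^ c' ≤ Gs.card ∧
      D.Reg Gs δ τ E0 := by
  obtain ⟨c1, hc1⟩ := SD.cross_self c
  refine ⟨72 * c1 + 9 * c + 11, fun D K h hC => ?_⟩
  have hK := h.two_le
  have hK1 : 1 ≤ K := by linarith
  have hN := h.N_pos
  have hC0 := h.C_pos
  have hm : (0 : ℝ) < D.m := Nat.cast_pos.2 h.m_pos
  have pw : ∀ {a b : ℕ}, a ≤ b → K ^ a ≤ K ^ b := fun h => pow_le_pow_right₀ hK1 h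
  have k3 : K ≤ K ^ 3 := le_self_pow₀ hK1 (by norm_num)
  have k9 : 64 * K ^ 3 ≤ K ^ 9 := by
    have := pow_le_pow_left₀ zero_le_two hK 6
    calc 64 * K ^ 3 ≤ K ^ 6 * K ^ 3 := mul_le_mul_of_nonneg_right (by linarith) (by positivity)
      _ = K ^ 9 := by ring
  have kp : ∀ a : ℕ, (64 * K ^ 3) ^ a ≤ K ^ (9 * a) := fun a => by
    rw [pow_mul]
    exact pow_le_pow_left₀ (by positivity) k9 a
  have k1 : ∀ a : ℕ, 1 ≤ (64 * K ^ 3) ^ a := fun a => one_le_pow₀ (by linarith)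
  obtain ⟨τ, hτ, hτM, hU⟩ := hc1 D (64 * K ^ 3) (h.mono (by linarith))
    ((kp c1).trans ((pw (by omega)).trans hC))
  have hΓ : (64 * K ^ 3) ^ c ≤ D.C := (kp c).trans ((pw (by omega)).trans hC)
  have hbad := h.ind (64 * K ^ 3) D.m (by linarith) hΓ (by
    rw [div_le_iff₀ hC0, mul_comm]
    exact mul_le_mul_of_nonneg_left hΓ hm.le) le_rfl
  have hM1 := k1 c1
  have hM8 : ((64 * K ^ 3) ^ c1) ^ 8 ≤ K ^ (72 * c1) := by
    refine (pow_le_pow_left₀ (by positivity) (kp c1) 8).trans_eq ?_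
    rw [← pow_mul]
    congr 1
    ring
  have hΓ1 := k1 c
  have hΓ2 := kp c
  generalize (64 * K ^ 3) ^ c1 = M at hτM hU hM1 hM8
  generalize (64 * K ^ 3) ^ c = Γ at hbad hΓ1 hΓ2
  have h7 : (2 : ℝ) ^ (7 * τ) * M ≤ M ^ 8 := by
    rw [mul_comm 7, pow_mul, pow_succ M]
    exact mul_le_mul_of_nonneg_right (pow_le_pow_left₀ (by positivity) hτM 7) (by linarith)
  have h7' : (1 : ℝ) ≤ 2 ^ (7 * τ) := one_le_pow₀ one_le_two
  obtain ⟨E0, hE1, hE2⟩ := exists_nat_pow_near (x := D.C / (2 ^ (7 * τ) * M)) (y := 2) (by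
    rw [le_div_iff₀ (by positivity), one_mul]
    exact h7.trans (hM8.trans ((pw (by omega)).trans hC))) one_lt_two
  rw [le_div_iff₀ (by positivity)] at hE1
  rw [div_lt_iff₀ (by positivity)] at hE2
  obtain ⟨hb1, hb2⟩ := hU (2 ^ (E0 + 7 * τ)) (by
    rw [Nat.cast_pow, pow_add, mul_assoc]
    exact hE1)
  obtain ⟨q0, i0, h0, Gs, hs, hcard, hG⟩ := SD.sref_count h (Γ := Γ) (by linarith)
    (filter_subset (fun g => D.Int (2 ^ (E0 + 7 * τ)) g.1 g.2 ∧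
      D.Self τ (2 ^ (E0 + 7 * τ)) g.1 g.2) D.G) (by
      have e1 := (Nat.cast_inj (R := ℝ)).2 (card_filter_add_card_filter_not (s := D.G)
        fun g => D.Int (2 ^ (E0 + 7 * τ)) g.1 g.2 ∧ D.Self τ (2 ^ (E0 + 7 * τ)) g.1 g.2)
      rw [Nat.cast_add] at e1
      have e2 : D.N * D.m / (64 * K ^ 3) ≤ D.N * D.m / (4 * K) :=
        div_le_div_of_nonneg_left (by positivity) (by positivity) (by linarith)
      have e3 : D.N * D.m / K = 3 * (D.N * D.m) / (4 * K) + D.N * D.m / (4 * K) := by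
        field_simp
        ring
      linarith [h.G_ge])
    (fun q i i' => D.Cross τ (2 ^ (E0 + 7 * τ)) q i i' ∧ D.Cross τ (2 ^ (E0 + 7 * τ)) q i' i ∧
      D.Good Γ D.m q i i') (by
      have e1 := (Nat.cast_le (α := ℝ)).2 (SD.sref_bad (D := D)
        (fun q i i' => D.Cross τ (2 ^ (E0 + 7 * τ)) q i i' ∧ D.Cross τ (2 ^ (E0 + 7 * τ)) q i' i ∧
          D.Good Γ D.m q i i') (D.Cross τ (2 ^ (E0 + 7 * τ))) (D.Good Γ D.m) D.m
        fun _ _ _ a b c => ⟨a, b, c⟩)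
      rw [Nat.cast_add, Nat.cast_mul, Nat.cast_ofNat] at e1
      have e2 : D.N * D.m ^ 2 / (8 * K ^ 3) = 8 * (D.N * D.m ^ 2 / (64 * K ^ 3)) := by
        field_simp
        ring
      have e3 : 0 < D.N * D.m ^ 2 / (64 * K ^ 3) := by positivity
      rw [SD.badT, mul_assoc, ← sq] at hbad
      linarith)
    (fun q i i' hq => hq.2.2.1.trans_eq (by field_simp))
  rw [mem_filter] at h0
  refine ⟨7 * τ, E0, Gs, _, by omega, ?_, ?_, ?_, le_trans ?_ hcard,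
    SD.sref_reg h.om_mono (hs.trans (filter_subset _ _)) h0.2.1 h0.2.2 fun g hg => ?_⟩
  · exact (le_mul_of_one_le_right (by positivity) hM1).trans (h7.trans (hM8.trans (pw (by omega))))
  · refine hE2.le.trans ?_
    rw [pow_succ (2 : ℝ) E0, mul_assoc, mul_comm]
    refine mul_le_mul_of_nonneg_right (le_trans ?_ (pw (show 72 * c1 + 1 ≤ _ by omega)))
      (by positivity)
    rw [pow_succ' K]
    exact mul_le_mul hK (h7.trans hM8) (by positivity) (by positivity)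
  · exact (le_mul_of_one_le_right (by positivity) (one_le_mul_of_one_le_of_one_le h7' hM1)).trans hE1
  · refine div_le_div_of_nonneg_left (by positivity) (by positivity)
      (le_trans ?_ (pw (show 5 + 6 + 9 * c ≤ _ by omega)))
    have := pow_le_pow_left₀ zero_le_two hK 5
    rw [pow_add, pow_add]
    exact mul_le_mul (mul_le_mul_of_nonneg_right (by linarith) (by positivity)) hΓ2
      (by positivity) (by positivity)
  · obtain ⟨q, a1, a2, a3, a4, -⟩ := hG g hg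
    exact ⟨(mem_filter.1 (hs hg)).2.1, (mem_filter.1 (hs hg)).2.2, q, a1, a2, a3, a4⟩

end Vale.Agent.P065.U
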