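import Vale.Agent.P065.U.SDefs

/-!
P065/U task SRho: basic facts on class ranks and the scales `up`, `dn`, and Lemma X.
All sets in the infima are finite (G is finite) and nonempty under `Int`, so `sInf` is a minimum.
-/

namespace Vale.Agent.P065.U

open Finset Classical

namespace SD
variable {D : SD}

theorem cls_mem_SRho {q : ℝ × ℝ} {i : ℕ} (h : (q, i) ∈ D.G) : D.cls q i ∈ D.W i :=
  mem_image.2 ⟨(q, i), mem_filter.2 ⟨h, rfl⟩, rfl⟩

theorem rank_le_SRho (W : Finset ℤ) {a b : ℤ} (h : a ≤ b) :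
    (W.filter fun w => w < a).card ≤ (W.filter fun w => w < b).card :=
  card_le_card fun _ hw => mem_filter.2 ⟨(mem_filter.1 hw).1, (mem_filter.1 hw).2.trans_le h⟩

theorem rank_lt_SRho {W : Finset ℤ} {a b : ℤ} (ha : a ∈ W) (h : a < b) :
    (W.filter fun w => w < a).card < (W.filter fun w => w < b).card :=
  card_lt_card ⟨fun _ hw => mem_filter.2 ⟨(mem_filter.1 hw).1, (mem_filter.1 hw).2.trans h⟩,
    fun e => lt_irrefl _ (mem_filter.1 (e (mem_filter.2 ⟨ha, h⟩))).2⟩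

theorem rank_inj_SRho (W : Finset ℤ) :
    Set.InjOn (fun a => (W.filter fun w => w < a).card) W := fun _ ha _ hb e =>
  le_antisymm (not_lt.1 fun h => (rank_lt_SRho hb h).ne' e)
    (not_lt.1 fun h => (rank_lt_SRho ha h).ne e)

theorem Hyp.mono {K K' : ℝ} {c : ℕ} (h : D.Hyp K c) (hK : K ≤ K') : D.Hyp K' c := by
  have h2 := h.two_le
  have hN := h.N_pos
  have hC := h.C_pos
  have hm : (0 : ℝ) ≤ D.m := Nat.cast_nonneg _
  exact ⟨h2.trans hK, hN, hC, h.m_pos, h.x_mono, h.om_mono, h.G_sub,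
    h.L_le.trans (by gcongr), le_trans (by gcongr) h.G_ge, fun i => (h.W_le i).trans (by gcongr),
    fun i w => (h.cls_le i w).trans (by gcongr), fun w => (h.use_le w).trans (by gcongr),
    h.logC.trans (Real.rpow_le_rpow_of_exponent_le one_le_two hK),
    fun lam t hl => h.ind lam t (hK.trans hl)⟩

/-- `G` is nonempty, so one class is used and `C ≤ K m`. -/
theorem Hyp.C_le {K : ℝ} {c : ℕ} (h : D.Hyp K c) : D.C ≤ K * D.m := by
  have h2 := h.two_le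
  have hN := h.N_pos
  have hm : (0 : ℝ) < D.m := Nat.cast_pos.2 h.m_pos
  have hG : (0 : ℝ) < D.G.card := lt_of_lt_of_le (by positivity) h.G_ge
  obtain ⟨⟨q, i⟩, hq⟩ := card_pos.1 (Nat.cast_pos.1 hG)
  have h1 : 1 ≤ ((range D.m).filter fun j => D.cls q i ∈ D.W j).card :=
    card_pos.2 ⟨i, mem_filter.2 ⟨(mem_product.1 (h.G_sub hq)).2, cls_mem_SRho hq⟩⟩
  have h3 := le_trans (Nat.one_le_cast.2 h1) (h.use_le (D.cls q i))
  rwa [le_div_iff₀ h.C_pos, one_mul] at h3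

theorem Frame.mono {G2 : Finset ((ℝ × ℝ) × ℕ)} {a b : ℕ} {La : Finset ℕ}
    {AA : ℕ → Finset (ℝ × ℝ)} {K K' : ℝ} (h : D.Frame G2 a b La AA K) (h0 : 0 < K) (hK : K ≤ K')
    (hN : 0 < D.N) : D.Frame G2 a b La AA K' := by
  have hm : (0 : ℝ) ≤ D.m := Nat.cast_nonneg _
  have h1 : K * D.N / D.C ^ 2 ≤ K' * D.N / D.C ^ 2 := by gcongr
  exact ⟨h.ne, h.a_lt, h.b_lt, h.sub, le_trans (by gcongr) h.big, h.lam_mem,
    fun i hi => le_trans (by gcongr) (h.AA_big i hi), h.mem, fun i hi q hq =>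
      ⟨(h.cells i hi q hq).1.trans h1, (h.cells i hi q hq).2.1.trans h1,
        (h.cells i hi q hq).2.2.trans h1⟩⟩

theorem Reg.mono_E {Gs : Finset ((ℝ × ℝ) × ℕ)} {δ : ℕ → ℝ} {τ E0 E1 : ℕ} (h : D.Reg Gs δ τ E0)
    (hE : E1 ≤ E0) : D.Reg Gs δ τ E1 := by
  have h1 : 2 ^ E1 ≤ 2 ^ E0 := Nat.pow_le_pow_right two_pos hE
  exact ⟨h.sub, fun g hg => ⟨h1.trans (h.int g hg).1,
      lt_of_le_of_lt (Nat.add_le_add_left h1 _) (h.int g hg).2⟩,
    fun e he => h.pos e (he.trans hE), fun e e' h1 h2 => h.mono e e' h1 (h2.trans hE),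
    fun e he => h.grow e (he.trans hE), fun q q' i e h1 h2 he => h.p1 q q' i e h1 h2 (he.trans hE),
    fun q q' i e h1 h2 he => h.p2 q q' i e h1 h2 (he.trans hE)⟩

theorem Reg.subset {Gs G2 : Finset ((ℝ × ℝ) × ℕ)} {δ : ℕ → ℝ} {τ E0 : ℕ} (h : D.Reg Gs δ τ E0)
    (hG : G2 ⊆ Gs) : D.Reg G2 δ τ E0 := by
  exact ⟨hG.trans h.sub, fun g hg => h.int g (hG hg), h.pos, h.mono, h.grow,
    fun q q' i e h1 => h.p1 q q' i e (hG h1), fun q q' i e h1 => h.p2 q q' i e (hG h1)⟩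

theorem v_eq (a b i : ℕ) (hab : D.x a ≠ D.x b) (q : ℝ × ℝ) :
    D.v q i = (1 - D.lam a b i) * D.v q a + D.lam a b i * D.v q b := by
  have h : D.x b - D.x a ≠ 0 := sub_ne_zero.2 hab.symm
  unfold v lam
  field_simp
  ring

theorem cell_comm (q : ℝ × ℝ) (i i' : ℕ) : D.cell q i i' = D.cell q i' i := by
  unfold cell
  exact congrArg card (filter_congr fun _ _ => by tauto)

theorem kap_lt {q : ℝ × ℝ} {i : ℕ} (h : (q, i) ∈ D.G) : D.kap q i < (D.W i).card := by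
  exact card_lt_card (filter_ssubset.2 ⟨_, cls_mem_SRho h, lt_irrefl _⟩)

theorem kap_surj (i r : ℕ) (h : r < (D.W i).card) : ∃ q, (q, i) ∈ D.G ∧ D.kap q i = r := by
  have hs := surjOn_of_injOn_of_card_le (s := D.W i) (t := range (D.W i).card)
    (fun w => ((D.W i).filter fun w' => w' < w).card)
    (fun w hw => mem_coe.2 (mem_range.2
      (card_lt_card (filter_ssubset.2 ⟨w, mem_coe.1 hw, lt_irrefl _⟩))))
    (rank_inj_SRho _) (card_range _).le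
  obtain ⟨w, hw, e⟩ := hs (mem_coe.2 (mem_range.2 h))
  obtain ⟨⟨q, j⟩, hg, rfl⟩ := mem_image.1 (mem_coe.1 hw)
  obtain ⟨h1, rfl⟩ := mem_filter.1 hg
  exact ⟨q, h1, e⟩

theorem kap_lt_iff {q q' : ℝ × ℝ} {i : ℕ} (h : (q, i) ∈ D.G) (h' : (q', i) ∈ D.G) :
    D.kap q i < D.kap q' i ↔ D.cls q i < D.cls q' i := by
  exact ⟨fun hk => not_le.1 fun e => not_le.2 hk (rank_le_SRho _ e),
    rank_lt_SRho (cls_mem_SRho h)⟩

theorem kap_eq_iff {q q' : ℝ × ℝ} {i : ℕ} (h : (q, i) ∈ D.G) (h' : (q', i) ∈ D.G) :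
    D.kap q i = D.kap q' i ↔ D.cls q i = D.cls q' i := by
  exact ⟨fun e => rank_inj_SRho _ (mem_coe.2 (cls_mem_SRho h)) (mem_coe.2 (cls_mem_SRho h')) e,
    fun e => by unfold kap; rw [e]⟩

theorem kap_mono (hom : Monotone D.om) {q q' : ℝ × ℝ} {i : ℕ} (h : D.v q i ≤ D.v q' i) :
    D.kap q i ≤ D.kap q' i := by
  exact rank_le_SRho _ (hom h)

theorem up_fin_SRho (q : ℝ × ℝ) (i u : ℕ) :
    {z | ∃ q', (q', i) ∈ D.G ∧ D.kap q i + u ≤ D.kap q' i ∧ z = D.v q' i - D.v q i}.Finite := by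
  refine (D.G.finite_toSet.image fun g => D.v g.1 i - D.v q i).subset ?_
  rintro _ ⟨q', h, -, rfl⟩
  exact ⟨(q', i), h, rfl⟩

theorem dn_fin_SRho (q : ℝ × ℝ) (i u : ℕ) :
    {z | ∃ q', (q', i) ∈ D.G ∧ D.kap q' i + u ≤ D.kap q i ∧ z = D.v q i - D.v q' i}.Finite := by
  refine (D.G.finite_toSet.image fun g => D.v q i - D.v g.1 i).subset ?_
  rintro _ ⟨q', h, -, rfl⟩
  exact ⟨(q', i), h, rfl⟩

theorem up_mem_SRho {q : ℝ × ℝ} {i u U : ℕ} (hI : D.Int U q i) (hu : u ≤ U) :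
    ∃ q', (q', i) ∈ D.G ∧ D.kap q i + u ≤ D.kap q' i ∧ D.up q i u = D.v q' i - D.v q i := by
  obtain ⟨q', h1, h2⟩ := kap_surj (D := D) i (D.kap q i + u) (by have := hI.2; omega)
  refine Set.Nonempty.csInf_mem ?_ (up_fin_SRho q i u)
  exact ⟨_, q', h1, h2.ge, rfl⟩

theorem dn_mem_SRho {q : ℝ × ℝ} {i u U : ℕ} (hI : D.Int U q i) (hu : u ≤ U) :
    ∃ q', (q', i) ∈ D.G ∧ D.kap q' i + u ≤ D.kap q i ∧ D.dn q i u = D.v q i - D.v q' i := by
  obtain ⟨q', h1, h2⟩ := kap_surj (D := D) i (D.kap q i - u) (by have := hI.2; omega)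
  refine Set.Nonempty.csInf_mem ?_ (dn_fin_SRho q i u)
  exact ⟨_, q', h1, by have := hI.1; omega, rfl⟩

theorem rho_pos (hom : Monotone D.om) {q : ℝ × ℝ} {i u U : ℕ} (hI : D.Int U q i) (h1 : 1 ≤ u)
    (hu : u ≤ U) (s : Bool) : 0 < D.rho s q i u := by
  cases s
  · obtain ⟨q', -, h2, e⟩ := dn_mem_SRho hI hu
    rw [rho, if_neg Bool.false_ne_true, e]
    exact sub_pos.2 (not_le.1 fun e => by have := kap_mono hom e; omega)
  · obtain ⟨q', -, h2, e⟩ := up_mem_SRho hI hu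
    rw [rho, if_pos rfl, e]
    exact sub_pos.2 (not_le.1 fun e => by have := kap_mono hom e; omega)

theorem rho_mono {q : ℝ × ℝ} {i u u' U : ℕ} (hI : D.Int U q i) (h1 : u ≤ u') (hu : u' ≤ U)
    (s : Bool) : D.rho s q i u ≤ D.rho s q i u' := by
  cases s
  · obtain ⟨q', h3, h2, e⟩ := dn_mem_SRho hI hu
    rw [rho, rho, if_neg Bool.false_ne_true, if_neg Bool.false_ne_true, e]
    exact csInf_le (dn_fin_SRho _ _ _).bddBelow ⟨q', h3, by omega, rfl⟩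
  · obtain ⟨q', h3, h2, e⟩ := up_mem_SRho hI hu
    rw [rho, rho, if_pos rfl, if_pos rfl, e]
    exact csInf_le (up_fin_SRho _ _ _).bddBelow ⟨q', h3, by omega, rfl⟩

theorem up_le {q q' : ℝ × ℝ} {i u : ℕ} (h' : (q', i) ∈ D.G) (hk : D.kap q i + u ≤ D.kap q' i) :
    D.up q i u ≤ D.v q' i - D.v q i := by
  exact csInf_le (up_fin_SRho _ _ _).bddBelow ⟨q', h', hk, rfl⟩

theorem dn_le {q q' : ℝ × ℝ} {i u : ℕ} (h' : (q', i) ∈ D.G) (hk : D.kap q' i + u ≤ D.kap q i) :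
    D.dn q i u ≤ D.v q i - D.v q' i := by
  exact csInf_le (dn_fin_SRho _ _ _).bddBelow ⟨q', h', hk, rfl⟩

theorem le_up (hom : Monotone D.om) {q q' : ℝ × ℝ} {i u U : ℕ} (hI : D.Int U q i) (hu : u ≤ U)
    (hk : D.kap q' i < D.kap q i + u) : D.v q' i - D.v q i ≤ D.up q i u := by
  obtain ⟨q2, -, h2, e⟩ := up_mem_SRho hI hu
  rw [e]
  exact sub_le_sub_right (not_lt.1 fun e => by have := kap_mono hom e.le; omega) _

theorem le_dn (hom : Monotone D.om) {q q' : ℝ × ℝ} {i u U : ℕ} (hI : D.Int U q i) (hu : u ≤ U)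
    (hk : D.kap q i < D.kap q' i + u) : D.v q i - D.v q' i ≤ D.dn q i u := by
  obtain ⟨q2, -, h2, e⟩ := dn_mem_SRho hI hu
  rw [e]
  exact sub_le_sub_left (not_lt.1 fun e => by have := kap_mono hom e.le; omega) _

/-- `up + dn` depends only on the class. -/
theorem up_add_dn {q q' : ℝ × ℝ} {i u U : ℕ} (hI : D.Int U q i) (hu : u ≤ U)
    (hc : D.cls q i = D.cls q' i) : D.up q i u + D.dn q i u = D.up q' i u + D.dn q' i u := by
  have hk : D.kap q i = D.kap q' i := by unfold kap; rw [hc]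
  have hI' : D.Int U q' i := by unfold Int at hI ⊢; rwa [← hk]
  obtain ⟨a, a1, a2, a3⟩ := up_mem_SRho hI hu
  obtain ⟨b, b1, b2, b3⟩ := up_mem_SRho hI' hu
  obtain ⟨c, c1, c2, c3⟩ := dn_mem_SRho hI hu
  obtain ⟨d, d1, d2, d3⟩ := dn_mem_SRho hI' hu
  have h1 := up_le (q := q') a1 (hk ▸ a2)
  have h2 := up_le (q := q) b1 (hk ▸ b2)
  have h3 := dn_le (q := q') c1 (hk ▸ c2)
  have h4 := dn_le (q := q) d1 (hk ▸ d2)
  linarith

/-- An interval of radius `M δ e` meets few classes: cut it into `2M+1` pieces shorter than `δ e`;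
by `p2` the ranks in one piece differ by less than `2^(e+τ)`. -/
theorem Reg.count {Gs : Finset ((ℝ × ℝ) × ℕ)} {δ : ℕ → ℝ} {τ E0 : ℕ} (h : D.Reg Gs δ τ E0)
    (Q : Finset (ℝ × ℝ)) (i e M : ℕ) (z : ℝ) (he : e ≤ E0) (hQ : ∀ q ∈ Q, (q, i) ∈ Gs)
    (hz : ∀ q ∈ Q, |D.v q i - z| ≤ M * δ e) :
    (Q.image fun q => D.cls q i).card ≤ (2 * M + 1) * 2 ^ (e + τ) := by
  have hδ := h.pos e he
  let j : ℝ × ℝ → ℕ := fun q => ⌊(D.v q i - z + M * δ e) / δ e⌋₊
  have hj0 : ∀ q ∈ Q, 0 ≤ (D.v q i - z + M * δ e) / δ e := fun q hq =>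
    div_nonneg (by linarith [(abs_le.1 (hz q hq)).1]) hδ.le
  have hsub : (Q.image fun q => D.cls q i) ⊆ (range (2 * M + 1)).biUnion fun r =>
      (Q.filter fun q => j q = r).image fun q => D.cls q i := by
    intro w hw
    obtain ⟨q, hq, rfl⟩ := mem_image.1 hw
    refine mem_biUnion.2 ⟨j q, mem_range.2 ?_, mem_image_of_mem _ (mem_filter.2 ⟨hq, rfl⟩)⟩
    refine (Nat.floor_lt (hj0 q hq)).2 ?_
    rw [div_lt_iff₀ hδ]
    push_cast
    linarith [(abs_le.1 (hz q hq)).2]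
  refine (card_le_card hsub).trans (card_biUnion_le.trans ?_)
  refine (sum_le_card_nsmul _ _ (2 ^ (e + τ)) fun r _ => ?_).trans (by rw [card_range, smul_eq_mul])
  rcases (Q.filter fun q => j q = r).eq_empty_or_nonempty with h0 | h0
  · rw [h0, image_empty, card_empty]
    exact Nat.zero_le _
  obtain ⟨q0, hq0, hmin⟩ := exists_min_image _ (fun q => D.kap q i) h0
  refine (card_le_card_of_injOn (t := Ico (D.kap q0 i) (D.kap q0 i + 2 ^ (e + τ)))
    (fun w => ((D.W i).filter fun w' => w' < w).card) (fun w hw => ?_)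
    ((rank_inj_SRho (D.W i)).mono fun w hw => ?_)).trans (by rw [Nat.card_Ico, Nat.add_sub_cancel_left])
  · obtain ⟨q, hq, rfl⟩ := mem_image.1 (mem_coe.1 hw)
    obtain ⟨h1, h2⟩ := mem_filter.1 hq
    obtain ⟨h3, h4⟩ := mem_filter.1 hq0
    refine mem_coe.2 (mem_Ico.2 ⟨hmin q hq, (h.p2 q0 q i e (hQ q0 h3) (h.sub (hQ q h1)) he ?_).1⟩)
    have a1 := Nat.floor_le (hj0 q h1)
    have a2 := Nat.lt_floor_add_one ((D.v q i - z + M * δ e) / δ e)
    have a3 := Nat.floor_le (hj0 q0 h3)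
    have a4 := Nat.lt_floor_add_one ((D.v q0 i - z + M * δ e) / δ e)
    simp only [j] at h2 h4
    rw [h2] at a1 a2
    rw [h4] at a3 a4
    rw [le_div_iff₀ hδ] at a1 a3
    rw [div_lt_iff₀ hδ] at a2 a4
    rw [abs_lt]
    constructor <;> linarith
  · obtain ⟨q, hq, rfl⟩ := mem_image.1 (mem_coe.1 hw)
    exact mem_coe.2 (cls_mem_SRho (h.sub (hQ q (mem_filter.1 hq).1)))

/-- If every point of `Q` has a cell of size at most `g`, then `|Q| ≤ g · #(pairs of classes)`. -/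
theorem card_le_cells {K : ℝ} {c : ℕ} (h : D.Hyp K c) (Q : Finset (ℝ × ℝ)) (i i' : ℕ) (g : ℝ)
    (hg0 : 0 ≤ g) (hQ : ∀ q ∈ Q, (q, i) ∈ D.G ∧ (q, i') ∈ D.G)
    (hg : ∀ q ∈ Q, (D.cell q i i' : ℝ) ≤ g) :
    (Q.card : ℝ) ≤ g * (Q.image fun q => (D.cls q i, D.cls q i')).card := by
  have h1 := card_le_mul_card_image (f := fun q => (D.cls q i, D.cls q i')) Q ⌊g⌋₊ fun b hb => by
    obtain ⟨q0, hq0, rfl⟩ := mem_image.1 hb
    refine Nat.le_floor (le_trans (Nat.cast_le.2 (card_le_card fun q hq => ?_)) (hg q0 hq0))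
    obtain ⟨h1, h2⟩ := mem_filter.1 hq
    exact mem_filter.2 ⟨(mem_product.1 (h.G_sub (hQ q h1).1)).1, (hQ q h1).1, (hQ q h1).2,
      congrArg Prod.fst h2, congrArg Prod.snd h2⟩
  refine (Nat.cast_le.2 h1).trans ?_
  rw [Nat.cast_mul]
  exact mul_le_mul_of_nonneg_right (Nat.floor_le hg0) (Nat.cast_nonneg _)

end SD

theorem blk_SRho {d : ℕ} {n0 : ℝ} (hd : 0 < d) (hn : (d : ℝ) ≤ n0) :
    ∃ B : ℕ, (B : ℝ) ≤ 2 * n0 / d ∧ ∀ k : ℕ, (k : ℝ) < n0 → k / d < B := by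
  have h0 : (0 : ℝ) < d := Nat.cast_pos.2 hd
  have h1 : 1 ≤ n0 / d := (one_le_div h0).2 hn
  refine ⟨⌊n0 / d⌋₊ + 1, ?_, fun k hk => Nat.lt_succ_of_le (Nat.le_floor ?_)⟩
  · have := Nat.floor_le (zero_le_one.trans h1)
    rw [Nat.cast_succ, mul_div_assoc]
    linarith
  · exact Nat.cast_div_le.trans (div_le_div_of_nonneg_right hk.le h0.le)

/-- Lemma X. Blocks of length `u T` for `k1`, of length `u` for `k2` and `k3`. Inside one `k1`-block
and one parity of the `k2`-block index, the `k3`-block is monotone (or antitone) in the `k2`-block,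
so at most `2 (n0/u + 1)` pairs of blocks occur; each holds at most `u^2 g` elements. -/
theorem lemmaX {ι : Type*} (Z : Finset ι) (k1 k2 k3 : ι → ℕ) (u T : ℕ) (n0 g : ℝ) (hu : 1 ≤ u)
    (hT : 1 ≤ T) (hn : ((u * T : ℕ) : ℝ) ≤ n0) (hg0 : 0 ≤ g)
    (h1 : ∀ q ∈ Z, (k1 q : ℝ) < n0) (h2 : ∀ q ∈ Z, (k2 q : ℝ) < n0) (h3 : ∀ q ∈ Z, (k3 q : ℝ) < n0)
    (hg : ∀ r r' : ℕ, ((Z.filter fun q => k2 q = r ∧ k3 q = r').card : ℝ) ≤ g)
    (hm : (∀ q ∈ Z, ∀ q' ∈ Z, k1 q' < k1 q + u * T → k1 q < k1 q' + u * T → k2 q + u ≤ k2 q' →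
        k3 q ≤ k3 q') ∨
      (∀ q ∈ Z, ∀ q' ∈ Z, k1 q' < k1 q + u * T → k1 q < k1 q' + u * T → k2 q + u ≤ k2 q' →
        k3 q' ≤ k3 q)) :
    (Z.card : ℝ) ≤ 16 * n0 ^ 2 * g / T := by
  have hu0 : (0 : ℝ) < u := Nat.cast_pos.2 hu
  have hT0 : (0 : ℝ) < T := Nat.cast_pos.2 hT
  obtain ⟨B1, hB1, b1⟩ := blk_SRho (Nat.mul_pos hu hT) hn
  obtain ⟨B, hB, b⟩ := blk_SRho hu (le_trans (Nat.cast_le.2 (Nat.le_mul_of_pos_right u hT)) hn)
  have near : ∀ q q', k1 q / (u * T) = k1 q' / (u * T) → k1 q' < k1 q + u * T := by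
    intro q q' e
    have a1 := Nat.lt_div_mul_add (a := k1 q') (Nat.mul_pos hu hT)
    have a2 := Nat.div_mul_le_self (k1 q) (u * T)
    rw [e] at a2
    omega
  have far : ∀ q q', k2 q / u % 2 = k2 q' / u % 2 → k2 q / u < k2 q' / u → k2 q + u ≤ k2 q' := by
    intro q q' e h
    have a1 := Nat.lt_div_mul_add (a := k2 q) hu
    have a2 := Nat.div_mul_le_self (k2 q') u
    have a3 := Nat.mul_le_mul_right u (show k2 q / u + 2 ≤ k2 q' / u by omega)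
    rw [add_mul] at a3
    omega
  obtain ⟨σ, hσ, hinj⟩ : ∃ σ : ι → ℕ, (∀ q ∈ Z, σ q < 2 * B) ∧ ∀ q ∈ Z, ∀ q' ∈ Z,
      k1 q / (u * T) = k1 q' / (u * T) → k2 q / u % 2 = k2 q' / u % 2 → σ q = σ q' →
        k2 q / u = k2 q' / u ∧ k3 q / u = k3 q' / u := by
    rcases hm with hm | hm
    · refine ⟨fun q => k2 q / u + k3 q / u, fun q hq => ?_, fun q hq q' hq' e1 e2 e3 => ?_⟩
      · have := b _ (h2 q hq)
        have := b _ (h3 q hq)
        beta_reduce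
        omega
      · have a1 := fun h => Nat.div_le_div_right (c := u)
          (hm q hq q' hq' (near _ _ e1) (near _ _ e1.symm) (far _ _ e2 h))
        have a2 := fun h => Nat.div_le_div_right (c := u)
          (hm q' hq' q hq (near _ _ e1.symm) (near _ _ e1) (far _ _ e2.symm h))
        beta_reduce at e3
        omega
    · refine ⟨fun q => k2 q / u + (B - k3 q / u), fun q hq => ?_, fun q hq q' hq' e1 e2 e3 => ?_⟩
      · have := b _ (h2 q hq)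
        have := Nat.sub_le B (k3 q / u)
        beta_reduce
        omega
      · have a1 := fun h => Nat.div_le_div_right (c := u)
          (hm q hq q' hq' (near _ _ e1) (near _ _ e1.symm) (far _ _ e2 h))
        have a2 := fun h => Nat.div_le_div_right (c := u)
          (hm q' hq' q hq (near _ _ e1.symm) (near _ _ e1) (far _ _ e2.symm h))
        have := b _ (h3 q hq)
        have := b _ (h3 q' hq')
        beta_reduce at e3
        omega
  have c1 := card_le_mul_card_image (f := fun q => (k1 q / (u * T), k2 q / u % 2, σ q)) Z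
    (⌊g⌋₊ * (u * u)) fun c hc => by
      obtain ⟨q0, hq0, rfl⟩ := mem_image.1 hc
      refine (card_le_mul_card_image (f := fun q => (k2 q, k3 q)) _ ⌊g⌋₊ fun r _ => ?_).trans
        (Nat.mul_le_mul_left _ ?_)
      · refine Nat.le_floor (le_trans (Nat.cast_le.2 (card_le_card fun q hq => ?_)) (hg r.1 r.2))
        obtain ⟨a1, a2⟩ := mem_filter.1 hq
        exact mem_filter.2 ⟨(mem_filter.1 a1).1, congrArg Prod.fst a2, congrArg Prod.snd a2⟩
      · refine (card_le_card (t := Ico (k2 q0 / u * u) (k2 q0 / u * u + u) ×ˢ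
          Ico (k3 q0 / u * u) (k3 q0 / u * u + u)) fun r hr => ?_).trans (by simp)
        obtain ⟨q, hq, rfl⟩ := mem_image.1 hr
        obtain ⟨a1, a2⟩ := mem_filter.1 hq
        obtain ⟨e1, e2⟩ := hinj q a1 q0 hq0 (congrArg Prod.fst a2) (congrArg (·.2.1) a2)
          (congrArg (·.2.2) a2)
        rw [← e1, ← e2]
        exact mem_product.2 ⟨mem_Ico.2 ⟨Nat.div_mul_le_self _ _, Nat.lt_div_mul_add hu⟩,
          mem_Ico.2 ⟨Nat.div_mul_le_self _ _, Nat.lt_div_mul_add hu⟩⟩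
  have c2 : (Z.image fun q => (k1 q / (u * T), k2 q / u % 2, σ q)).card ≤ B1 * (2 * (2 * B)) := by
    refine (card_le_card (t := range B1 ×ˢ range 2 ×ˢ range (2 * B)) fun r hr => ?_).trans (by simp)
    obtain ⟨q, hq, rfl⟩ := mem_image.1 hr
    exact mem_product.2 ⟨mem_range.2 (b1 _ (h1 q hq)), mem_product.2
      ⟨mem_range.2 (Nat.mod_lt _ two_pos), mem_range.2 (hσ q hq)⟩⟩
  have c3 : (Z.card : ℝ) ≤ ⌊g⌋₊ * (u * u) * (B1 * (2 * (2 * B))) := by
    exact_mod_cast c1.trans (Nat.mul_le_mul_left _ c2)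
  have hn0 : 0 ≤ n0 := le_trans (Nat.cast_nonneg _) hn
  have c4 := Nat.floor_le hg0
  rw [Nat.cast_mul] at hB1
  refine c3.trans (le_trans (b := g * (u * u) * (2 * n0 / (u * T) * (2 * (2 * (2 * n0 / u)))))
    (by gcongr) (le_of_eq ?_))
  field_simp
  ring

end Vale.Agent.P065.U
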