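import Vale.Agent.P065.U.SRho

/-!
P065/U task SSparse, auxiliary lemmas: packing of wide windows, Cauchy-Schwarz for fibres,
close indices give close values, and the number of pairs per class.
-/

namespace Vale.Agent.P065.U

open Finset Classical

/-- Wide windows inside `[a, b]` are disjoint, so there are at most `(b - a)/h` of them. -/
theorem sp_pack (om : ℝ → ℤ) (hom : Monotone om) (h a : ℝ) (T : Finset ℤ) :
    ∀ b : ℝ, a ≤ b → (∀ w ∈ T, ∃ lo hi : ℝ, om lo = w ∧ om hi = w ∧ a ≤ lo ∧ hi ≤ b ∧ lo ≤ hi ∧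
      lo + h ≤ hi) → (T.card : ℝ) * h ≤ b - a := by
  induction T using Finset.induction_on_max with
  | empty => intro b hab _; simpa using hab
  | insert w T hw ih =>
    intro b hab H
    obtain ⟨lo, hi, h1, h2, h3, h4, h5, h6⟩ := H w (mem_insert_self _ _)
    have hn : w ∉ T := fun hx => lt_irrefl _ (hw w hx)
    have := ih lo h3 (fun w' hw' => by
      obtain ⟨lo', hi', g1, g2, g3, g4, g5, g6⟩ := H w' (mem_insert_of_mem hw')
      refine ⟨lo', hi', g1, g2, g3, ?_, g5, g6⟩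
      by_contra hc
      have := hom (le_of_lt (not_le.mp hc))
      rw [h1, g2] at this
      exact absurd (hw w' hw') (not_lt.mpr this))
    rw [card_insert_of_notMem hn]
    push_cast
    linarith

theorem sp_pack2 (om : ℝ → ℤ) (hom : Monotone om) (h a b : ℝ) (hh : 0 ≤ h) (hab : a ≤ b)
    (S : Finset ℤ) (H1 : ∀ w ∈ S, ∃ y, om y = w ∧ a ≤ y ∧ y ≤ b)
    (H2 : ∀ w ∈ S, ∃ lo hi : ℝ, om lo = w ∧ om hi = w ∧ lo + h ≤ hi) :
    ((S.card : ℝ) - 2) * h ≤ b - a := by
  have key := sp_pack om hom h a ((S.erase (om a)).erase (om b)) b hab (fun w hw => by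
    have hb : w ≠ om b := (mem_erase.mp hw).1
    have ha : w ≠ om a := (mem_erase.mp (mem_erase.mp hw).2).1
    have hS : w ∈ S := (mem_erase.mp (mem_erase.mp hw).2).2
    obtain ⟨y, y1, y2, y3⟩ := H1 w hS
    obtain ⟨lo, hi, g1, g2, g3⟩ := H2 w hS
    have e1 : om a ≤ w := y1 ▸ hom y2
    have e2 : w ≤ om b := y1 ▸ hom y3
    refine ⟨lo, hi, g1, g2, ?_, ?_, by linarith, g3⟩
    · by_contra hc
      have := hom (le_of_lt (not_le.mp hc))
      rw [g1] at this
      exact ha (le_antisymm this e1)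
    · by_contra hc
      have := hom (le_of_lt (not_le.mp hc))
      rw [g2] at this
      exact hb (le_antisymm e2 this))
  have c1 : S.card ≤ ((S.erase (om a)).erase (om b)).card + 2 := by
    have p1 := pred_card_le_card_erase (s := S) (a := om a)
    have p2 := pred_card_le_card_erase (s := S.erase (om a)) (a := om b)
    omega
  have c2 : (S.card : ℝ) - 2 ≤ ((S.erase (om a)).erase (om b)).card := by
    have : (S.card : ℝ) ≤ ((S.erase (om a)).erase (om b)).card + 2 := by exact_mod_cast c1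
    linarith
  exact le_trans (mul_le_mul_of_nonneg_right c2 hh) key

/-- Cauchy-Schwarz for the fibres of a map. -/
theorem sp_cs {α β : Type*} [DecidableEq β] (X : Finset α) (B : Finset β) (f : α → β) (hf : ∀ x ∈ X, f x ∈ B) :
    X.card ^ 2 ≤ B.card * ((X ×ˢ X).filter fun p => f p.1 = f p.2).card := by
  have h1 : X.card = ∑ y ∈ B, (X.filter fun x => f x = y).card :=
    card_eq_sum_card_fiberwise hf
  have h2 : ((X ×ˢ X).filter fun p => f p.1 = f p.2).card =
      ∑ y ∈ B, (X.filter fun x => f x = y).card ^ 2 := by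
    rw [card_eq_sum_card_fiberwise (f := fun p : α × α => f p.1) (t := B)
      (fun p hp => hf p.1 (mem_product.mp (mem_filter.mp (mem_coe.mp hp)).1).1)]
    refine sum_congr rfl fun y _ => ?_
    rw [sq, ← card_product]
    congr 1
    ext p
    simp only [mem_filter, mem_product]
    constructor
    · rintro ⟨⟨⟨a1, a2⟩, a3⟩, a4⟩
      exact ⟨⟨a1, a4⟩, a2, a3 ▸ a4⟩
    · rintro ⟨⟨a1, a2⟩, a3, a4⟩
      exact ⟨⟨⟨a1, a3⟩, a2.trans a4.symm⟩, a2⟩
  rw [h2, h1]
  exact sq_sum_le_card_mul_sum_sq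

theorem sp_div_close {i j b : ℕ} (hb : 0 < b) (h : i / b = j / b) : i < j + b := by
  have h1 := Nat.div_add_mod i b
  have h2 := Nat.div_add_mod j b
  have h3 := Nat.mod_lt i hb
  rw [h] at h1
  omega

namespace SD
variable {D : SD}

/-- Few classes between the two values of `q` force the values to be close. -/
theorem sp_near (hom : Monotone D.om) {Gs : Finset ((ℝ × ℝ) × ℕ)} {δ : ℕ → ℝ} {τ e0 : ℕ}
    (hR : D.Reg Gs δ τ e0) {q : ℝ × ℝ} {i i' : ℕ} (hq : (q, i) ∈ Gs)
    (hb : D.btw q i i' + 1 < 2 ^ e0) : |D.v q i' - D.v q i| ≤ δ e0 := by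
  obtain ⟨I1, I2⟩ := hR.int _ hq
  simp only at I1 I2
  obtain ⟨qp, p1, p2⟩ := kap_surj (D := D) i (D.kap q i + (2 ^ e0 - 1)) (by omega)
  obtain ⟨qm, m1, m2⟩ := kap_surj (D := D) i (D.kap q i - (2 ^ e0 - 1)) (by omega)
  have hp := hR.p1 q qp i e0 hq p1 le_rfl (by omega) (by omega)
  have hm := hR.p1 q qm i e0 hq m1 le_rfl (by omega) (by omega)
  have up : D.v q i' ≤ D.v qp i := by
    by_contra hc
    have h1 : D.cls qp i ≤ D.cls q i' := hom (le_of_lt (not_le.mp hc))
    have h2 : D.kap qp i ≤ D.kap q i + D.btw q i i' := by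
      unfold kap btw
      refine le_trans (card_le_card ?_) (card_union_le _ _)
      intro w hw
      obtain ⟨w1, w2⟩ := mem_filter.mp hw
      by_cases hw' : w < D.cls q i
      · exact mem_union_left _ (mem_filter.mpr ⟨w1, hw'⟩)
      · refine mem_union_right _ (mem_filter.mpr ⟨w1, ?_, ?_⟩)
        · exact le_trans (min_le_left _ _) (not_lt.mp hw')
        · exact le_trans (le_trans w2.le h1) (le_max_right _ _)
    omega
  have dn : D.v qm i ≤ D.v q i' := by
    by_contra hc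
    have h1 : D.cls q i' ≤ D.cls qm i := hom (le_of_lt (not_le.mp hc))
    have h2 : D.kap q i ≤ D.kap qm i + D.btw q i i' := by
      unfold kap btw
      refine le_trans (card_le_card ?_) (card_union_le _ _)
      intro w hw
      obtain ⟨w1, w2⟩ := mem_filter.mp hw
      by_cases hw' : w < D.cls qm i
      · exact mem_union_left _ (mem_filter.mpr ⟨w1, hw'⟩)
      · refine mem_union_right _ (mem_filter.mpr ⟨w1, ?_, ?_⟩)
        · exact le_trans (min_le_right _ _) (le_trans h1 (not_lt.mp hw'))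
        · exact le_trans w2.le (le_max_left _ _)
    omega
  rw [abs_le] at hp hm ⊢
  constructor <;> linarith [hp.2, hm.1]

/-- One class accounts for at most `(K m / C) (K N / C)` pairs of `G`. -/
theorem sp_cls {K : ℝ} {c : ℕ} (h : D.Hyp K c) (P : Finset ((ℝ × ℝ) × ℕ)) (hP : P ⊆ D.G) :
    (P.card : ℝ) ≤ (P.image fun g => D.cls g.1 g.2).card * (K * D.m / D.C * (K * D.N / D.C)) := by
  have hK : 0 < K := by linarith [h.two_le]
  have hNC : 0 ≤ K * D.N / D.C := by
    have := h.N_pos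
    have := h.C_pos
    positivity
  rw [card_eq_sum_card_fiberwise (f := fun g : (ℝ × ℝ) × ℕ => D.cls g.1 g.2)
    (t := P.image fun g => D.cls g.1 g.2) (fun g hg => mem_coe.mpr (mem_image_of_mem _ hg))]
  push_cast
  rw [← nsmul_eq_mul]
  refine sum_le_card_nsmul _ _ _ fun w _ => ?_
  rw [card_eq_sum_card_fiberwise (f := fun g : (ℝ × ℝ) × ℕ => g.2)
    (t := (range D.m).filter fun i => w ∈ D.W i) ?_]
  · push_cast
    refine le_trans (sum_le_card_nsmul _ _ (K * D.N / D.C) fun i _ => ?_) ?_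
    · refine le_trans ?_ (h.cls_le i w)
      have : (((P.filter fun g => D.cls g.1 g.2 = w).filter fun g => g.2 = i).card) ≤
          (D.L.filter fun q => (q, i) ∈ D.G ∧ D.cls q i = w).card := by
        refine card_le_card_of_injOn (fun g => g.1) ?_ ?_
        · intro g hg
          obtain ⟨g1, g2⟩ := mem_filter.mp (mem_coe.mp hg)
          obtain ⟨g3, g4⟩ := mem_filter.mp g1
          have g5 := hP g3
          subst g2
          exact mem_coe.mpr (mem_filter.mpr ⟨(mem_product.mp (h.G_sub g5)).1, g5, g4⟩)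
        · intro g hg g' hg' e
          have g2 := (mem_filter.mp (mem_coe.mp hg)).2
          have g2' := (mem_filter.mp (mem_coe.mp hg')).2
          exact Prod.ext e (g2.trans g2'.symm)
      exact_mod_cast this
    · rw [nsmul_eq_mul]
      exact mul_le_mul_of_nonneg_right (h.use_le w) hNC
  · intro g hg
    obtain ⟨g3, g4⟩ := mem_filter.mp (mem_coe.mp hg)
    have g5 := hP g3
    refine mem_coe.mpr (mem_filter.mpr ⟨(mem_product.mp (h.G_sub g5)).2, ?_⟩)
    unfold W
    exact mem_image.mpr ⟨g, mem_filter.mpr ⟨g5, rfl⟩, g4⟩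

/-- Many triples with close indices have both pairs in a given large subset of `G`. -/
theorem sp_tri {K : ℝ} {c : ℕ} (h : D.Hyp K c) (Gb : Finset ((ℝ × ℝ) × ℕ)) (hG : Gb ⊆ D.G)
    (t : ℝ) (ht : 0 < t) (htm : t ≤ D.m) :
    (Gb.card : ℝ) ^ 2 ≤ K * D.N * (2 * D.m / t) *
      ((D.tri t).filter fun z => (z.1, z.2.1) ∈ Gb ∧ (z.1, z.2.2) ∈ Gb).card := by
  have hb : 0 < ⌊t⌋₊ + 1 := Nat.succ_pos _
  have h1 := sp_cs Gb (D.L ×ˢ range (D.m / (⌊t⌋₊ + 1) + 1))
    (fun g => (g.1, g.2 / (⌊t⌋₊ + 1))) (fun g hg => by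
      obtain ⟨a1, a2⟩ := mem_product.mp (h.G_sub (hG hg))
      refine mem_product.mpr ⟨a1, mem_range.mpr (Nat.lt_succ_of_le ?_)⟩
      exact Nat.div_le_div_right (mem_range.mp a2).le)
  have h2 : ((Gb ×ˢ Gb).filter fun p => (p.1.1, p.1.2 / (⌊t⌋₊ + 1)) =
      (p.2.1, p.2.2 / (⌊t⌋₊ + 1))).card ≤
      ((D.tri t).filter fun z => (z.1, z.2.1) ∈ Gb ∧ (z.1, z.2.2) ∈ Gb).card := by
    refine card_le_card_of_injOn (fun p => (p.1.1, p.1.2, p.2.2)) ?_ ?_
    · rintro ⟨⟨q, i⟩, ⟨q', j⟩⟩ hp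
      obtain ⟨a1, a2⟩ := mem_filter.mp (mem_coe.mp hp)
      obtain ⟨a3, a4⟩ := mem_product.mp a1
      obtain ⟨a5, a6⟩ := Prod.mk.inj a2
      simp only at a3 a4 a5 a6
      subst a5
      obtain ⟨b1, b2⟩ := mem_product.mp (h.G_sub (hG a3))
      obtain ⟨-, b4⟩ := mem_product.mp (h.G_sub (hG a4))
      refine mem_coe.mpr (mem_filter.mpr ⟨?_, a3, a4⟩)
      unfold tri
      refine mem_filter.mpr ⟨mem_product.mpr ⟨b1, mem_product.mpr ⟨b2, b4⟩⟩, hG a3, hG a4, ?_⟩
      have c1 : (i : ℝ) ≤ j + ⌊t⌋₊ := by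
        have := sp_div_close hb a6
        exact_mod_cast (by omega : i ≤ j + ⌊t⌋₊)
      have c2 : (j : ℝ) ≤ i + ⌊t⌋₊ := by
        have := sp_div_close hb a6.symm
        exact_mod_cast (by omega : j ≤ i + ⌊t⌋₊)
      have c3 := Nat.floor_le ht.le
      simp only
      rw [abs_le]
      constructor <;> linarith
    · rintro ⟨⟨q, i⟩, ⟨q', j⟩⟩ hp ⟨⟨r, k⟩, ⟨r', l⟩⟩ hp' e
      have a5 := (Prod.mk.inj (mem_filter.mp (mem_coe.mp hp)).2).1
      have a6 := (Prod.mk.inj (mem_filter.mp (mem_coe.mp hp')).2).1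
      simp only [Prod.mk.injEq] at a5 a6 e ⊢
      obtain ⟨e1, e2, e3⟩ := e
      exact ⟨⟨e1, e2⟩, by rw [← a5, ← a6, e1], e3⟩
  have h3 : ((D.L ×ˢ range (D.m / (⌊t⌋₊ + 1) + 1)).card : ℝ) ≤ K * D.N * (2 * D.m / t) := by
    rw [card_product, card_range]
    push_cast
    have d1 : ((D.m / (⌊t⌋₊ + 1) : ℕ) : ℝ) ≤ D.m / t := by
      refine le_trans Nat.cast_div_le ?_
      push_cast
      exact div_le_div_of_nonneg_left (Nat.cast_nonneg _) ht (Nat.lt_floor_add_one t).le
    have d2 : (1 : ℝ) ≤ D.m / t := (one_le_div ht).mpr htm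
    have d3 : 2 * (D.m : ℝ) / t = D.m / t + D.m / t := by ring
    refine mul_le_mul h.L_le (by linarith) (by positivity) (le_trans (Nat.cast_nonneg _) h.L_le)
  have h4 : (Gb.card : ℝ) ^ 2 ≤ ((D.L ×ˢ range (D.m / (⌊t⌋₊ + 1) + 1)).card : ℝ) *
      ((D.tri t).filter fun z => (z.1, z.2.1) ∈ Gb ∧ (z.1, z.2.2) ∈ Gb).card := by
    exact_mod_cast le_trans h1 (Nat.mul_le_mul_left _ h2)
  exact le_trans h4 (mul_le_mul_of_nonneg_right h3 (Nat.cast_nonneg _))

end SD

end Vale.Agent.P065.U
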