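import Vale.Agent.P065.U.SAB

/-!
P065/U task SSub: submultiplicativity of the scales, and the lower bound on the ratios.

`lam_cover`. u0 = 2^e0, u' = 2^e', e' + τ ≤ e0. For i ∈ Fm the pairs (q,q') ∈ (AA i)² in one block
kap · i / u' number ≥ |AA i|² u'/(2KC). Those whose ranks at a differ by less than u0 2^τ number
≤ |AA i|·u'·2u0 2^τ·K N/C² (cells a i), at most half. For the others |Δ v a| ≥ δ e0 (p2),
|Δ v i| ≤ δ e' ≤ δ e0/2 (p1, grow), Δ v i = Δ v a + lam i·Zq with Zq = Δ v b - Δ v a, so |Zq| ≥ δ e0,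
and a pair (q,q') can serve two indices only if their lam differ by ≤ 2 δ e'/δ e0. Hence
|Fm| N² u'/(4K³C) ≤ (K N)².

`submult`. If e' + τ > e0 replace e' by e' - τ (costs a factor 2^τ ≤ K; mono). A maximal separated
family (`lam_cover`) cuts La into ≤ 4K^5 C/u' lam-intervals of length 2σ e'; intersect with index
blocks, t = m u'/C. `piece` gives i, i' and Q, |Q| ≥ N/K', cells ≤ K' N/(C u'). Group Q by (class at i,
block kap · b / u): ≤ 2K²C²/u groups, so one group has ≥ N u/(2K²K'C²) points. In it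
|Zq| ≤ 2(δ e + δ 0) ≤ 4δ e, so |Δ v i'| ≤ δ 0 + 8 σ e' δ e. If this is < δ e'' then by p2 the group
meets ≤ 2·2^(e''+τ) classes at i', so N u/(2K²K'C²) ≤ 2·2^e'' K·K' N/(C u'), contradicting the
hypothesis. So δ e'' ≤ δ 0 + 8σ e' δ e, and δ e'' ≥ δ τ ≥ 2 δ 0.

`mu_lower`. If μ δ e ≤ δ', group AA i by (class at a, block kap · b / 2^e), ≤ 2K²C²/2^e groups; in a
group |Δ v i| ≤ δ' + lam δ e ≤ 2δ' ≤ 2 δ 0, so ≤ 5·2^τ classes at i, each cell ≤ K N/C². So
N/K ≤ 10 K⁴ N/2^e.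
-/

namespace Vale.Agent.P065.U

open Finset Classical

theorem SD.mu_lower2 (D : SD) (K δ' : ℝ) (c : ℕ) (G2 : Finset ((ℝ × ℝ) × ℕ)) (δ : ℕ → ℝ)
    (τ e0 e a b : ℕ) (La : Finset ℕ) (AA : ℕ → Finset (ℝ × ℝ)) (h : D.Hyp K c)
    (hR : D.Reg G2 δ τ e0) (hτ : (2 : ℝ) ^ τ ≤ K) (hF : D.Frame G2 a b La AA K)
    (hδ : δ' ≤ δ 0) (hcl : ∀ q q' i, (q, i) ∈ G2 → (q', i) ∈ G2 → D.cls q i = D.cls q' i →
      |D.v q i - D.v q' i| ≤ δ') (he : e ≤ e0) (hC : (2 : ℝ) ^ e0 ≤ D.C) (hK : 16 * K ^ 5 ≤ 2 ^ e) :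
    ∀ i ∈ La, δ' < D.lam a b i / (1 - D.lam a b i) * δ e := by
  intro i hi
  by_contra hc
  rw [not_lt] at hc
  have K2 := h.two_le
  have K0 : (0 : ℝ) < K := by linarith
  have hN := h.N_pos
  have C0 := h.C_pos
  obtain ⟨l0, l1⟩ := hF.lam_mem i hi
  have d0 := hR.pos e he
  have lm : D.lam a b i * δ e ≤ δ' := by
    refine le_trans (mul_le_mul_of_nonneg_right ?_ d0.le) hc
    rw [le_div_iff₀ (by linarith)]
    nlinarith
  have dp : 0 ≤ δ' := le_trans (mul_nonneg l0 d0.le) lm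
  have he2 : ((2 ^ e : ℕ) : ℝ) ≤ K * D.C := by
    have : (2 : ℝ) ^ e ≤ 2 ^ e0 := pow_le_pow_right₀ one_le_two he
    push_cast
    nlinarith
  obtain ⟨B, hB1, hB2⟩ := blk_SRho (Nat.two_pow_pos e) he2
  have m1 := hF.mem i hi
  have key : ((AA i).image fun q => (D.cls q a, D.cls q i)).card ≤
      ((D.W a) ×ˢ range B).card * (5 * 2 ^ τ) := by
    have sub : ((AA i).image fun q => (D.cls q a, D.cls q i)) ⊆ ((D.W a) ×ˢ range B).biUnion
        fun g => ((AA i).filter fun q => D.cls q a = g.1 ∧ D.kap q b / 2 ^ e = g.2).image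
          fun q => (D.cls q a, D.cls q i) := by
      intro p hp
      obtain ⟨q, hq, rfl⟩ := mem_image.1 hp
      refine mem_biUnion.2 ⟨(D.cls q a, D.kap q b / 2 ^ e), mem_product.2 ⟨?_, ?_⟩, ?_⟩
      · exact SD.cls_mem_SRho (hR.sub (m1 q hq).1)
      · refine mem_range.2 (hB2 _ (lt_of_lt_of_le ?_ (h.W_le b)))
        exact_mod_cast SD.kap_lt (hR.sub (m1 q hq).2.1)
      · exact mem_image.2 ⟨q, mem_filter.2 ⟨hq, rfl, rfl⟩, rfl⟩
    refine (card_le_card sub).trans (card_biUnion_le_card_mul _ _ _ fun g _ => ?_)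
    rcases ((AA i).filter fun q => D.cls q a = g.1 ∧ D.kap q b / 2 ^ e = g.2).eq_empty_or_nonempty
      with h0 | ⟨q0, hq0⟩
    · rw [h0]; simp
    obtain ⟨a0, a1, a2⟩ := mem_filter.1 hq0
    have cnt := hR.count ((AA i).filter fun q => D.cls q a = g.1 ∧ D.kap q b / 2 ^ e = g.2) i 0 2
      (D.v q0 i) (Nat.zero_le _) (fun q hq => (m1 q (mem_filter.1 hq).1).2.2) (fun q hq => by
        obtain ⟨b0, b1, b2⟩ := mem_filter.1 hq
        have c1 := hcl q q0 a (m1 q b0).1 (m1 q0 a0).1 (b1.trans a1.symm)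
        have n1 := Nat.div_add_mod (D.kap q b) (2 ^ e)
        have n2 := Nat.div_add_mod (D.kap q0 b) (2 ^ e)
        have n3 := Nat.mod_lt (D.kap q b) (Nat.two_pow_pos e)
        have n4 := Nat.mod_lt (D.kap q0 b) (Nat.two_pow_pos e)
        rw [b2] at n1
        rw [a2] at n2
        have c2 := hR.p1 q0 q b e (m1 q0 a0).2.1 (hR.sub (m1 q b0).2.1) he (by omega) (by omega)
        have e1 : D.v q i - D.v q0 i = (1 - D.lam a b i) * (D.v q a - D.v q0 a) +
            D.lam a b i * (D.v q b - D.v q0 b) := by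
          rw [SD.v_eq a b i hF.ne q, SD.v_eq a b i hF.ne q0]
          ring
        rw [e1]
        refine (abs_add_le _ _).trans ?_
        rw [abs_mul, abs_mul, abs_of_nonneg l0, abs_of_nonneg (by linarith : 0 ≤ 1 - D.lam a b i)]
        have f1 : (1 - D.lam a b i) * |D.v q a - D.v q0 a| ≤ δ' := by
          nlinarith [abs_nonneg (D.v q a - D.v q0 a)]
        have f2 := mul_le_mul_of_nonneg_left c2 l0
        push_cast
        linarith)
    refine le_trans ?_ (cnt.trans (by simp))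
    refine card_le_card_of_injOn Prod.snd (fun p hp => ?_) fun p hp p' hp' hh => ?_
    · obtain ⟨q, hq, rfl⟩ := mem_image.1 hp
      exact mem_image_of_mem _ hq
    · obtain ⟨q, hq, rfl⟩ := mem_image.1 hp
      obtain ⟨q', hq', rfl⟩ := mem_image.1 hp'
      exact Prod.ext ((mem_filter.1 hq).2.1.trans (mem_filter.1 hq').2.1.symm) hh
  have s2 := SD.card_le_cells h (AA i) a i (K * D.N / D.C ^ 2) (by positivity)
    (fun q hq => ⟨hR.sub (m1 q hq).1, hR.sub (m1 q hq).2.2⟩) fun q hq => (hF.cells i hi q hq).2.1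
  have s3 := (Nat.cast_le (α := ℝ)).2 key
  rw [card_product, card_range] at s3
  push_cast at s3 hB1
  have s4 : ((D.W a).card : ℝ) * B * (5 * 2 ^ τ) ≤ K * D.C * (2 * (K * D.C) / 2 ^ e) * (5 * K) := by
    have := h.W_le a
    gcongr
  have s5 := (hF.AA_big i hi).trans (s2.trans
    (mul_le_mul_of_nonneg_left (s3.trans s4) (by positivity)))
  have e1 : K * D.N / D.C ^ 2 * (K * D.C * (2 * (K * D.C) / 2 ^ e) * (5 * K)) =
      D.N / K * (10 * K ^ 5 / 2 ^ e) := by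
    field_simp
    ring
  rw [e1] at s5
  have s6 : 10 * K ^ 5 / 2 ^ e < 1 := by
    rw [div_lt_one (by positivity)]
    have : 0 < K ^ 5 := by positivity
    linarith
  have s7 : 0 < D.N / K := by positivity
  nlinarith

end Vale.Agent.P065.U
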