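import Vale.Agent.P065.U.SAB

/-!
P065/U task SSub: submultiplicativity of the scales, and the lower bound on the ratios.

`lam_cover`. u0 = 2^e0, u' = 2^e', e' + τ ≤ e0. For i ∈ Fm the pairs (q,q') ∈ (AA i)² in one block
kap · i / u' number ≥ |AA i|² u'/(2KC). Those whose ranks at a differ by less than u0 2^τ number
≤ |AA i|·u'·2u0 2^τ·K N/C² (cells a i), at most half. For the others |Δ v a| ≥ δ e0 (p2),
|Δ v i| ≤ δ e' ≤ δ e0/2 (p1, grow), Δ v i = Δ v a + lam i·Zq with Zq = Δ v b - Δ v a, so |Zq| ≥ δ e0,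
and a pair (q,q') can serve two indices only if their lam differ by ≤ 2 δ e'/δ e0. Hence
|Fm| N² u'/(4K³C) ≤ (K N)².

`submult`. If e' + τ > e0 replace e' by e' - τ (costs a factor 2^τ ≤ K; mono). A maximal separated
family (`lam_cover`) cuts La into ≤ 4K^5 C/u' lam-intervals of length 2σ e'; intersect with index
blocks, t = m u'/C. `piece` gives i, i' and Q, |Q| ≥ N/K', cells ≤ K' N/(C u'). Group Q by (class at i,
block kap · b / u): ≤ 2K²C²/u groups, so one group has ≥ N u/(2K²K'C²) points. In it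
|Zq| ≤ 2(δ e + δ 0) ≤ 4δ e, so |Δ v i'| ≤ δ 0 + 8 σ e' δ e. If this is < δ e'' then by p2 the group
meets ≤ 2·2^(e''+τ) classes at i', so N u/(2K²K'C²) ≤ 2·2^e'' K·K' N/(C u'), contradicting the
hypothesis. So δ e'' ≤ δ 0 + 8σ e' δ e, and δ e'' ≥ δ τ ≥ 2 δ 0.

`mu_lower`. If μ δ e ≤ δ', group AA i by (class at a, block kap · b / 2^e), ≤ 2K²C²/2^e groups; in a
group |Δ v i| ≤ δ' + lam δ e ≤ 2δ' ≤ 2 δ 0, so ≤ 5·2^τ classes at i, each cell ≤ K N/C². So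
N/K ≤ 10 K⁴ N/2^e.
-/

namespace Vale.Agent.P065.U

open Finset Classical

theorem ssb_img {D : SD} (Q : Finset (ℝ × ℝ)) (j : ℕ) (I : Finset ℕ)
    (hQ : ∀ q ∈ Q, (q, j) ∈ D.G ∧ D.kap q j ∈ I) : (Q.image fun q => D.cls q j).card ≤ I.card := by
  refine card_le_card_of_injOn (fun w => ((D.W j).filter fun w' => w' < w).card)
    (fun w hw => ?_) fun w hw w' hw' e => ?_
  · obtain ⟨q, hq, rfl⟩ := mem_image.1 (mem_coe.1 hw)
    exact (hQ q hq).2
  · obtain ⟨q, hq, rfl⟩ := mem_image.1 (mem_coe.1 hw)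
    obtain ⟨q', hq', rfl⟩ := mem_image.1 (mem_coe.1 hw')
    exact (SD.kap_eq_iff (hQ q hq).1 (hQ q' hq').1).1 e

theorem ssb_near {D : SD} {K g : ℝ} {c : ℕ} (h : D.Hyp K c) (Q : Finset (ℝ × ℝ)) (a i u U : ℕ)
    (hu : 0 < u) (hg0 : 0 ≤ g) (hQ : ∀ q ∈ Q, (q, a) ∈ D.G ∧ (q, i) ∈ D.G)
    (hg : ∀ q ∈ Q, (D.cell q a i : ℝ) ≤ g) :
    (((Q ×ˢ Q).filter fun p => D.kap p.1 i / u = D.kap p.2 i / u ∧
      (D.kap p.2 a < D.kap p.1 a + U ∧ D.kap p.1 a < D.kap p.2 a + U)).card : ℝ) ≤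
      Q.card * (g * (2 * U * u)) := by
  rw [card_prod_left_SAB, Nat.cast_sum, ← nsmul_eq_mul]
  refine sum_le_card_nsmul _ _ _ fun q _ => ?_
  obtain ⟨S, hS⟩ : ∃ S, S = Q.filter fun q' => D.kap q i / u = D.kap q' i / u ∧
      (D.kap q' a < D.kap q a + U ∧ D.kap q a < D.kap q' a + U) := ⟨_, rfl⟩
  have hm : ∀ q' ∈ S, q' ∈ Q ∧ D.kap q i / u = D.kap q' i / u ∧
      (D.kap q' a < D.kap q a + U ∧ D.kap q a < D.kap q' a + U) := fun q' hq' => by
    rw [hS] at hq'; exact mem_filter.1 hq'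
  rw [← hS]
  refine (SD.card_le_cells h S a i g hg0 (fun q' hq' => hQ q' (hm q' hq').1)
    fun q' hq' => hg q' (hm q' hq').1).trans (mul_le_mul_of_nonneg_left ?_ hg0)
  have h1 := ssb_img S a (Ico (D.kap q a - U) (D.kap q a + U)) fun q' hq' =>
    ⟨(hQ q' (hm q' hq').1).1, mem_Ico.2 (by have := (hm q' hq').2.2; omega)⟩
  have h2 := ssb_img S i (Ico (D.kap q i / u * u) (D.kap q i / u * u + u)) fun q' hq' =>
    ⟨(hQ q' (hm q' hq').1).2, mem_Ico.2 (by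
      have t1 := Nat.div_add_mod' (D.kap q' i) u
      have t2 := Nat.mod_lt (D.kap q' i) hu
      rw [(hm q' hq').2.1]
      omega)⟩
  rw [Nat.card_Ico] at h1 h2
  have h3 : (S.image fun q => (D.cls q a, D.cls q i)) ⊆
      (S.image fun q => D.cls q a) ×ˢ S.image fun q => D.cls q i := fun z hz => by
    obtain ⟨q', hq', rfl⟩ := mem_image.1 hz
    exact mem_product.2 ⟨mem_image_of_mem _ hq', mem_image_of_mem _ hq'⟩
  have h4 := card_le_card h3
  rw [card_product] at h4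
  have h5 : (S.image fun q => D.cls q a).card ≤ 2 * U := by omega
  have h6 : (S.image fun q => D.cls q i).card ≤ u := by omega
  exact_mod_cast h4.trans (Nat.mul_le_mul h5 h6)

theorem ssb_close {i j b : ℕ} (hb : 0 < b) (h : i / b = j / b) : i < j + b := by
  have t1 := Nat.div_add_mod' i b
  have t2 := Nat.mod_lt i hb
  have t3 := Nat.div_mul_le_self j b
  rw [h] at t1
  omega

theorem ssb_same {D : SD} {K : ℝ} {c : ℕ} (h : D.Hyp K c) (Q : Finset (ℝ × ℝ)) (i u : ℕ)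
    (hC : (u : ℝ) ≤ K * D.C) (hQ : ∀ q ∈ Q, (q, i) ∈ D.G) :
    (Q.card : ℝ) ^ 2 * u ≤ 2 * (K * D.C) *
      ((Q ×ˢ Q).filter fun p => D.kap p.1 i / u = D.kap p.2 i / u).card := by
  have h1 := cs_SAB Q (range ((D.W i).card / u + 1)) (fun q => D.kap q i / u) fun q hq =>
    mem_range.2 (Nat.lt_succ_of_le (Nat.div_le_div_right (SD.kap_lt (hQ q hq)).le))
  have h2 : ((((D.W i).card / u + 1) * u : ℕ) : ℝ) ≤ (((D.W i).card + u : ℕ) : ℝ) := by
    have := Nat.div_mul_le_self (D.W i).card u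
    rw [Nat.cast_le, add_mul]
    omega
  rw [card_range] at h1
  rw [Nat.cast_mul, Nat.cast_add (D.W i).card] at h2
  have h3 := h.W_le i
  calc _ ≤ _ := mul_le_mul_of_nonneg_right h1 (Nat.cast_nonneg u)
    _ = _ := mul_right_comm _ _ _
    _ ≤ _ := mul_le_mul_of_nonneg_right (by linarith) (Nat.cast_nonneg _)

theorem SD.lam_cover2 (D : SD) (K : ℝ) (c : ℕ) (G2 : Finset ((ℝ × ℝ) × ℕ)) (δ : ℕ → ℝ)
    (τ e0 e' a b : ℕ) (La Fm : Finset ℕ) (AA : ℕ → Finset (ℝ × ℝ)) (h : D.Hyp K c)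
    (hR : D.Reg G2 δ τ e0) (hτ : (2 : ℝ) ^ τ ≤ K) (hF : D.Frame G2 a b La AA K)
    (h0 : 8 * K ^ 4 * 2 ^ e0 ≤ D.C) (he : e' + τ ≤ e0) (hs : Fm ⊆ La)
    (hsep : ∀ i ∈ Fm, ∀ i' ∈ Fm, i ≠ i' → 2 * (δ e' / δ e0) < |D.lam a b i - D.lam a b i'|) :
    (Fm.card : ℝ) ≤ 4 * K ^ 5 * D.C / 2 ^ e' := by
  have hK := h.two_le
  have hK0 : 0 < K := by linarith
  have hN := h.N_pos
  have hC := h.C_pos
  have hΔ := hR.pos e0 le_rfl
  have hu : (0 : ℝ) < 2 ^ e' := by positivity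
  have hδ : 2 * δ e' ≤ δ e0 := (hR.grow e' he).trans (hR.mono _ _ he le_rfl)
  obtain ⟨P, hP⟩ : ∃ P : ℕ → Finset ((ℝ × ℝ) × ℝ × ℝ), ∀ i, P i =
      ((AA i ×ˢ AA i).filter fun p => D.kap p.1 i / 2 ^ e' = D.kap p.2 i / 2 ^ e').filter fun p =>
        ¬ (D.kap p.2 a < D.kap p.1 a + 2 ^ (e0 + τ) ∧ D.kap p.1 a < D.kap p.2 a + 2 ^ (e0 + τ)) :=
    ⟨_, fun _ => rfl⟩
  have h1 : ∀ i ∈ Fm, D.N ^ 2 * 2 ^ e' / (4 * K ^ 3 * D.C) ≤ (P i).card := by
    intro i hi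
    have m := hF.mem i (hs hi)
    have t0 : (2 : ℝ) ^ e' ≤ K * D.C := by
      have q1 : (2 : ℝ) ^ e' ≤ 2 ^ e0 := pow_le_pow_right₀ (by norm_num) (by omega)
      have q2 : 1 * (2 : ℝ) ^ e0 ≤ 8 * K ^ 4 * 2 ^ e0 := mul_le_mul_of_nonneg_right
        (by linarith [one_le_pow₀ (n := 4) (by linarith : 1 ≤ K)]) (by positivity)
      have q3 : 1 * D.C ≤ K * D.C := mul_le_mul_of_nonneg_right (by linarith) hC.le
      linarith
    have t1 := ssb_same h (AA i) i (2 ^ e') (by exact_mod_cast t0)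
      fun q hq => hR.sub (m q hq).2.2
    have t2 := ssb_near h (AA i) a i (2 ^ e') (2 ^ (e0 + τ)) (by positivity) (by positivity)
      (fun q hq => ⟨hR.sub (m q hq).1, hR.sub (m q hq).2.2⟩)
      fun q hq => (hF.cells i (hs hi) q hq).2.1
    have t3 := congrArg (Nat.cast (R := ℝ)) (card_filter_add_card_filter_not
      (s := (AA i ×ˢ AA i).filter fun p => D.kap p.1 i / 2 ^ e' = D.kap p.2 i / 2 ^ e')
      fun p => D.kap p.2 a < D.kap p.1 a + 2 ^ (e0 + τ) ∧ D.kap p.1 a < D.kap p.2 a + 2 ^ (e0 + τ))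
    rw [filter_filter, ← hP, Nat.cast_add] at t3
    rw [← t3] at t1
    have t4 := hF.AA_big i (hs hi)
    push_cast at t1 t2
    generalize ((AA i).card : ℝ) = n at t1 t2 t4
    have n0 : 0 < n := (div_pos hN hK0).trans_le t4
    have t5 : n * (K * D.N / D.C ^ 2 * (2 * 2 ^ (e0 + τ) * 2 ^ e')) ≤
        n ^ 2 * 2 ^ e' / (4 * (K * D.C)) := by
      calc _ = n * 2 ^ e' / (4 * (K * D.C)) * (D.N / K * (8 * K ^ 3 * 2 ^ τ * 2 ^ e0 / D.C)) := by
            field_simp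
            ring
        _ ≤ n * 2 ^ e' / (4 * (K * D.C)) * (n * 1) := by
            refine mul_le_mul_of_nonneg_left (mul_le_mul t4 ((div_le_one hC).2 (le_trans ?_ h0))
              (by positivity) n0.le) (by positivity)
            rw [pow_succ K 3, ← mul_assoc]
            gcongr
        _ = _ := by ring
    have t6 : D.N ^ 2 * 2 ^ e' / (4 * K ^ 3 * D.C) ≤ n ^ 2 * 2 ^ e' / (4 * (K * D.C)) := by
      calc _ = (D.N / K) ^ 2 * 2 ^ e' / (4 * (K * D.C)) := by field_simp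
        _ ≤ _ := by gcongr
    have t7 : 2 * (n ^ 2 * 2 ^ e' / (4 * (K * D.C))) ≤ _ :=
      le_trans (le_of_eq (by field_simp; norm_num)) ((div_le_iff₀' (by positivity)).2 t1)
    linarith
  have h2 : ∀ i ∈ Fm, ∀ p ∈ P i, |D.v p.2 a - D.v p.1 a + D.lam a b i *
      (D.v p.2 b - D.v p.1 b - (D.v p.2 a - D.v p.1 a))| ≤ δ e' ∧
      δ e0 ≤ |D.v p.2 b - D.v p.1 b - (D.v p.2 a - D.v p.1 a)| := by
    intro i hi p hp
    rw [hP, mem_filter, mem_filter, mem_product] at hp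
    obtain ⟨⟨⟨p1, p2⟩, p3⟩, p4⟩ := hp
    have m1 := hF.mem i (hs hi) _ p1
    have m2 := hF.mem i (hs hi) _ p2
    have t1 := hR.p1 p.1 p.2 i e' m1.2.2 (hR.sub m2.2.2) (by omega)
      (ssb_close (by positivity) p3.symm) (ssb_close (by positivity) p3)
    have t2 : δ e0 ≤ |D.v p.2 a - D.v p.1 a| :=
      not_lt.1 fun q => p4 (hR.p2 p.1 p.2 a e0 m1.1 (hR.sub m2.1) le_rfl q)
    have t3 : D.v p.2 i - D.v p.1 i = D.v p.2 a - D.v p.1 a + D.lam a b i *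
        (D.v p.2 b - D.v p.1 b - (D.v p.2 a - D.v p.1 a)) := by
      rw [SD.v_eq a b i hF.ne p.1, SD.v_eq a b i hF.ne p.2]
      ring
    rw [t3] at t1
    refine ⟨t1, ?_⟩
    obtain ⟨l0, l1⟩ := hF.lam_mem i (hs hi)
    generalize D.v p.2 b - D.v p.1 b - (D.v p.2 a - D.v p.1 a) = Z at t1 ⊢
    have t4 := abs_sub (D.v p.2 a - D.v p.1 a + D.lam a b i * Z) (D.lam a b i * Z)
    rw [add_sub_cancel_right, abs_mul, abs_of_nonneg l0] at t4
    have t5 := mul_le_mul_of_nonneg_right l1 (abs_nonneg Z)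
    linarith
  have h3 : (Fm : Set ℕ).PairwiseDisjoint P := fun i hi i' hi' hne => by
    refine disjoint_left.2 fun p p1 p2 => ?_
    obtain ⟨t1, t2⟩ := h2 i hi p p1
    obtain ⟨t3, -⟩ := h2 i' hi' p p2
    have t4 := hsep i hi i' hi' hne
    rw [← mul_div_assoc, div_lt_iff₀ hΔ] at t4
    generalize D.v p.2 b - D.v p.1 b - (D.v p.2 a - D.v p.1 a) = Z at t1 t2 t3
    have t5 := abs_sub (D.v p.2 a - D.v p.1 a + D.lam a b i * Z)
      (D.v p.2 a - D.v p.1 a + D.lam a b i' * Z)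
    rw [add_sub_add_left_eq_sub, ← sub_mul, abs_mul] at t5
    have t6 := mul_le_mul_of_nonneg_left t2 (abs_nonneg (D.lam a b i - D.lam a b i'))
    linarith
  have h4 : Fm.biUnion P ⊆ D.L ×ˢ D.L := fun p hp => by
    obtain ⟨i, hi, hp⟩ := mem_biUnion.1 hp
    rw [hP, mem_filter, mem_filter, mem_product] at hp
    exact mem_product.2 ⟨(mem_product.1 (h.G_sub (hR.sub (hF.mem i (hs hi) _ hp.1.1.1).1))).1,
      (mem_product.1 (h.G_sub (hR.sub (hF.mem i (hs hi) _ hp.1.1.2).1))).1⟩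
  have h5 : ((Fm.biUnion P).card : ℝ) ≤ (D.L ×ˢ D.L).card := Nat.cast_le.2 (card_le_card h4)
  rw [card_biUnion h3, card_product, Nat.cast_sum, Nat.cast_mul] at h5
  have h6 := (card_nsmul_le_sum Fm _ _ h1).trans (h5.trans
    (mul_le_mul h.L_le h.L_le (Nat.cast_nonneg _) (by positivity)))
  rw [nsmul_eq_mul, ← le_div_iff₀ (by positivity)] at h6
  exact h6.trans (le_of_eq (by field_simp))

end Vale.Agent.P065.U
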