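import Vale.Agent.P065.U.Rich
import Vale.Agent.P065.U.Ball
import Vale.Agent.P065.U.Links
import Vale.Agent.P065.U.Ind
import Vale.Agent.P065.U.Pieces
import Vale.Agent.P065.U.Hit
import Vale.Agent.P065.U.Build

/-!
P065/U task Setup, counting lemmas.
-/

namespace Vale.Agent.P065.U

open Finset Classical

theorem su_n_pos (X : Cfg) : 0 < X.n := by
  rw [X.n_eq]
  exact pow_pos X.d_pos 3

theorem su_rich_mono (X : Cfg) {j : ℕ} {L L' : ℝ} (hL : 0 < L) (h : L ≤ L') {q : Pt}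
    (hq : X.Rich j L q) : X.Rich j L' q := by
  have hd := X.d_pos
  have hn := su_n_pos X
  have hsub : X.gfi j L ⊆ X.gfi j L' := by
    intro e he
    obtain ⟨h1, h2⟩ := mem_filter.1 he
    refine mem_filter.2 ⟨h1, le_trans ?_ h2⟩
    exact div_le_div_of_nonneg_left hn.le (mul_pos hd hL) (mul_le_mul_of_nonneg_left h hd.le)
  have hc : ∀ u, (((X.win (X.gfi j L) j u).filter fun e => e.1 = q).card : ℝ) ≤
      (((X.win (X.gfi j L') j u).filter fun e => e.1 = q).card : ℝ) := by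
    intro u
    exact_mod_cast card_le_card (filter_subset_filter _ (filter_subset_filter _ hsub))
  have hdl : X.d / L' ≤ X.d / L := div_le_div_of_nonneg_left hd.le hL h
  obtain ⟨h0, u, u', huu, h1, h2⟩ := hq
  exact ⟨h0, u, u', huu, hdl.trans (h1.trans (hc u)), hdl.trans (h2.trans (hc u'))⟩

theorem su_rich : ∃ c : ℕ, ∀ (X : Cfg) (K : ℝ), X.Big K → K ^ c ≤ X.d →
    2 ≤ K ^ c ∧ ∃ j : ℕ, (2 : ℝ) ^ j ≤ K ^ c ∧
      ((X.F.filter fun e => ¬ X.Rich j (K ^ c) e.1).card : ℝ) ≤ X.n * X.d / K := by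
  obtain ⟨c, hc⟩ := Cfg.rich_most
  refine ⟨c + 1, fun X K hK hd => ?_⟩
  have h2 := hK.1
  have h1 : (1 : ℝ) ≤ K := by linarith
  have hle : K ^ c ≤ K ^ (c + 1) := pow_le_pow_right₀ h1 (by omega)
  obtain ⟨j, hj, hF⟩ := hc X K hK (hle.trans hd)
  refine ⟨h2.trans (le_self_pow₀ h1 (by omega)), j, hj.trans hle, le_trans ?_ hF⟩
  have hp : 0 < K ^ c := pow_pos (by linarith) c
  have : (X.F.filter fun e => ¬ X.Rich j (K ^ (c + 1)) e.1) ⊆
      X.F.filter fun e => ¬ X.Rich j (K ^ c) e.1 := fun e he =>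
    mem_filter.2 ⟨(mem_filter.1 he).1, fun hr => (mem_filter.1 he).2 (su_rich_mono X hp hle hr)⟩
  exact_mod_cast card_le_card this

theorem su_miss_and (X : Cfg) (j : ℕ) (Q R : ℕ → Pt → Prop) :
    X.miss j (fun u => X.P.filter fun p => Q u p ∧ R u p) ≤
      X.miss j (fun u => X.P.filter fun p => Q u p) +
        (X.F.filter fun e => Q (X.wi j (sl e)) e.1 ∧ ¬ R (X.wi j (sl e)) e.1).card := by
  unfold Cfg.miss
  refine le_trans (card_le_card ?_) (card_union_le _ _)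
  intro e he
  obtain ⟨h1, h2⟩ := mem_filter.1 he
  by_cases h : e.1 ∈ X.P.filter fun p => Q (X.wi j (sl e)) p
  · refine mem_union_right _ (mem_filter.2 ⟨h1, (mem_filter.1 h).2, fun hr => h2 ?_⟩)
    exact mem_filter.2 ⟨(mem_filter.1 h).1, (mem_filter.1 h).2, hr⟩
  · exact mem_union_left _ (mem_filter.2 ⟨h1, h⟩)

theorem su_miss_rich (X : Cfg) (j : ℕ) (Q : ℕ → Pt → Prop) (R : Pt → Prop) :
    X.miss j (fun u => X.P.filter fun p => Q u p ∧ R p) ≤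
      X.miss j (fun u => X.P.filter fun p => Q u p) + (X.F.filter fun e => ¬ R e.1).card := by
  refine (su_miss_and X j Q fun _ => R).trans (Nat.add_le_add_left (card_le_card ?_) _)
  exact monotone_filter_right _ fun e _ he => he.2

theorem su_fib (S : Finset Ed) (D : Finset Pt) {y : ℝ} (hy : 0 ≤ y) (hS : ∀ e ∈ S, e.1 ∈ D)
    (h : ∀ e ∈ S, ((S.filter fun f => f.1 = e.1).card : ℝ) ≤ y) : (S.card : ℝ) ≤ D.card * y := by
  rw [card_eq_sum_card_fiberwise (f := Prod.fst) (t := D) (fun e he => hS e he)]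
  push_cast
  have : ∀ p ∈ D, ((S.filter fun f => f.1 = p).card : ℝ) ≤ y := by
    intro p _
    rcases (S.filter fun f => f.1 = p).eq_empty_or_nonempty with h0 | ⟨e, he⟩
    · rw [h0]; simpa using hy
    · obtain ⟨h1, h2⟩ := mem_filter.1 he
      rw [← h2]
      exact h e h1
  refine (sum_le_sum this).trans ?_
  rw [sum_const, nsmul_eq_mul]

theorem su_deg (X : Cfg) {K : ℝ} (hK : 0 ≤ K) {S : Finset Ed} (hF : S ⊆ X.F) (D : Finset Pt)
    (hS : ∀ e ∈ S, e.1 ∈ D) (hT : ∀ e ∈ S, ∃ j u, X.Tame K j u e.1) :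
    (S.card : ℝ) ≤ D.card * (K * X.d) := by
  refine su_fib S D (mul_nonneg hK X.d_pos.le) hS fun e he => ?_
  obtain ⟨j, u, h⟩ := hT e he
  refine le_trans ?_ h.deg
  exact_mod_cast card_le_card (filter_subset_filter _ hF)

theorem su_nice {X : Cfg} {K : ℝ} {j u : ℕ} {p : Pt} (h : X.Tame K j u p) : X.Reg K j u p := by
  have := h.reg j le_rfl
  simpa using this

theorem su_useless (X : Cfg) (j : ℕ) {Ka K1 : ℝ} (hKa : 1 ≤ Ka) (hK1 : 0 < K1) (R : ℕ → Pt → Prop)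
    (h : ∑ u ∈ range (16 ^ j), ((X.P.filter fun p => X.d / (Ka * K1 * 2 ^ j) ≤ X.rdeg j u p ∧
        ¬ R u p).card : ℝ) ≤ X.n * 2 ^ j / (Ka * K1)) :
    ((X.F.filter fun e => X.Tame K1 j (X.wi j (sl e)) e.1 ∧ ¬ R (X.wi j (sl e)) e.1).card : ℝ) ≤
      X.n * X.d / Ka := by
  have hd := X.d_pos
  have h2 : (0 : ℝ) < 2 ^ j := by positivity
  have hy : 0 ≤ K1 * X.d / 2 ^ j := by positivity
  rw [← X.sum_win _ j]
  push_cast
  have key : ∀ u ∈ range (16 ^ j), ((X.win (X.F.filter fun e => X.Tame K1 j (X.wi j (sl e)) e.1 ∧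
      ¬ R (X.wi j (sl e)) e.1) j u).card : ℝ) ≤
      ((X.P.filter fun p => X.d / (Ka * K1 * 2 ^ j) ≤ X.rdeg j u p ∧ ¬ R u p).card : ℝ) *
        (K1 * X.d / 2 ^ j) := by
    intro u _
    refine su_fib _ _ hy (fun e he => ?_) (fun e he => ?_)
    · obtain ⟨h1, hu⟩ := mem_filter.1 he
      obtain ⟨_, h3, h4⟩ := mem_filter.1 h1
      rw [hu] at h3 h4
      refine mem_filter.2 ⟨h3.mem, le_trans ?_ h3.low, h4⟩
      refine div_le_div_of_nonneg_left hd.le (by positivity) ?_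
      refine mul_le_mul_of_nonneg_right ?_ h2.le
      nlinarith
    · obtain ⟨h1, hu⟩ := mem_filter.1 he
      obtain ⟨_, h3, _⟩ := mem_filter.1 h1
      rw [hu] at h3
      refine le_trans ?_ (su_nice h3).rdeg_le
      unfold Cfg.rdeg
      exact_mod_cast card_le_card (filter_subset_filter _
        (filter_subset_filter _ (filter_subset _ _)))
  refine (sum_le_sum key).trans ?_
  rw [← sum_mul]
  refine (mul_le_mul_of_nonneg_right h hy).trans (le_of_eq ?_)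
  have : Ka ≠ 0 := by linarith
  field_simp

theorem su_hit (X : Cfg) {Ka : ℝ} (hKa : 0 < Ka) :
    ((X.F.filter fun f => 10 * Ka * X.n / X.d < hit X.P X.k f).card : ℝ) ≤ X.n * X.d / Ka := by
  have hd := X.d_pos
  have hn := su_n_pos X
  have h1 : ((∑ e ∈ X.F, hit X.P X.k e : ℕ) : ℝ) ≤ 10 * X.n ^ 2 := by
    have := hit_sum X.gen X.T X.k {X.k}
    rw [← edges_eq, card_singleton, mul_one] at this
    unfold Cfg.n Cfg.F
    exact_mod_cast this
  have h2 : ((X.F.filter fun f => 10 * Ka * X.n / X.d < hit X.P X.k f).card : ℝ) *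
      (10 * Ka * X.n / X.d) ≤ ((∑ e ∈ X.F, hit X.P X.k e : ℕ) : ℝ) := by
    push_cast
    rw [← nsmul_eq_mul, ← sum_const]
    refine le_trans (sum_le_sum fun e he => (mem_filter.1 he).2.le) ?_
    exact sum_le_sum_of_subset_of_nonneg (filter_subset _ _) fun _ _ _ => Nat.cast_nonneg _
  have hp : 0 < 10 * Ka * X.n / X.d := by positivity
  refine le_of_mul_le_mul_right (h2.trans (h1.trans (le_of_eq ?_))) hp
  field_simp

theorem su_dd (X : Cfg) (j j1 m0 : ℕ) (Z A : ℕ → Finset Pt) (r : ℝ) {G : Finset Ed} (hG : G ⊆ X.F)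
    (hA : ∀ u, ∀ p ∈ A u, u < 16 ^ j) {e0 f : Ed} (h0 : e0 ∈ X.F) (hf : f ∈ X.ovr j1 m0 G e0)
    {q : Pt} (hq : q ∈ X.links j Z A r f) :
    (X.T.dd X.k e0.1 q : ℝ) ≤
      ((∑ e ∈ X.piece j1 m0 e0, hit X.P X.k e : ℕ) : ℝ) + hit X.P X.k f + r := by
  obtain ⟨h1, ⟨e, he, hx⟩, _⟩ := mem_filter.1 hf
  have hfF := hG h1
  have a1 := piece_dd X j1 m0 h0 he hfF hx
  obtain ⟨b1, _, _, _, b5, b6⟩ := X.links_spec j Z A r hA hq
  have hp : ((q, f.1) : Ed) ∈ prs X.P :=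
    mem_prs.2 ⟨b1, (mem_prs.1 (X.F_sub hfF)).1, b5.spec.1⟩
  have a2 := hit_ends X.gen X.T X.k hp
  have a3 := X.T.dd_tri X.k e0.1 f.1 q
  rw [X.T.dd_comm X.k f.1 q] at a3
  have a4 : X.T.dd X.k e0.1 q ≤
      ∑ e ∈ X.piece j1 m0 e0, hit X.P X.k e + hit X.P X.k f + hit X.P X.k (q, f.1) := by
    simp only at a2
    omega
  have a5 : (X.T.dd X.k e0.1 q : ℝ) ≤ ((∑ e ∈ X.piece j1 m0 e0, hit X.P X.k e : ℕ) : ℝ) +
      hit X.P X.k f + hit X.P X.k (q, f.1) := by exact_mod_cast a4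
  linarith

theorem su_scale {w : ℝ} (hw : 1 ≤ w) : ∃ j : ℕ, w ≤ 4 ^ j ∧ (4 : ℝ) ^ j ≤ 4 * w := by
  obtain ⟨n, h1, h2⟩ := exists_nat_pow_near hw (show (1 : ℝ) < 4 by norm_num)
  refine ⟨n + 1, h2.le, ?_⟩
  rw [pow_succ]
  linarith

theorem su_use (X : Cfg) (j j1 m0 : ℕ) {K1 B J t y : ℝ} (hK1 : 1 ≤ K1) (hJ : 1 ≤ J)
    (hJs : J ≤ X.sz j) (hy : 0 < y) (hB : (2 * J + 1) * X.d ≤ B * y * 2 ^ j) {G : Finset Ed}
    (hG : G ⊆ X.F) (hT : ∀ f ∈ G, X.TrimC J t f) {e0 : Ed} (h0 : e0 ∈ X.F) (u : ℕ) :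
    (((X.ovr j1 m0 G e0).filter fun f => f.1 ∈ (X.P.filter fun p => X.Tame K1 j u p ∧
      X.Useful J t y j u p) ∧ sl f < X.al j u).card : ℝ) ≤ B * K1 ^ 3 * X.n / 4 ^ j := by
  have hd := X.d_pos
  have hn := su_n_pos X
  have h2 : (0 : ℝ) < 2 ^ j := by positivity
  have hB0 : 0 < B := by
    have : 0 < B * y * 2 ^ j := lt_of_lt_of_le (by positivity) hB
    exact (mul_pos_iff_of_pos_right hy).1 ((mul_pos_iff_of_pos_right h2).1 this)
  rcases ((X.ovr j1 m0 G e0).filter fun f => f.1 ∈ (X.P.filter fun p => X.Tame K1 j u p ∧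
      X.Useful J t y j u p) ∧ sl f < X.al j u).eq_empty_or_nonempty with hE | ⟨g, hg⟩
  · rw [hE, card_empty, Nat.cast_zero]
    positivity
  have htame : X.Tame K1 j u g.1 := (mem_filter.1 (mem_filter.1 hg).2.1).2.1
  have hsz : 0 < X.sz j := by linarith
  have hU : ((X.Uw j u J).card : ℝ) ≤ K1 ^ 2 * X.sz j := by
    refine le_trans ?_ (su_nice htame).nice
    have : J ≤ K1 * X.sz j := by nlinarith
    exact_mod_cast card_le_card (X.Uw_mono j u this)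
  have hD := X.disj J t y (X.al j1 (X.wi j1 (sl e0) + 1)) (fv (X.al j1 (X.wi j1 (sl e0) + 1)) e0.1)
    (by linarith) j u
  have hS := su_deg X (K := K1) (by linarith) (S := (X.ovr j1 m0 G e0).filter fun f =>
      f.1 ∈ (X.P.filter fun p => X.Tame K1 j u p ∧ X.Useful J t y j u p) ∧ sl f < X.al j u)
    (fun f hf => hG (mem_filter.1 (mem_filter.1 hf).1).1)
    (X.P.filter fun p => X.Useful J t y j u p ∧ ∃ f ∈ X.F, f.1 = p ∧ X.TrimC J t f ∧
      fv (X.al j1 (X.wi j1 (sl e0) + 1)) f.1 < fv (X.al j1 (X.wi j1 (sl e0) + 1)) e0.1 ∧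
      fv (X.al j1 (X.wi j1 (sl e0) + 1)) e0.1 < fv (X.al j1 (X.wi j1 (sl e0) + 1)) f.2 ∧
      sl f < X.al j u)
    (fun f hf => by
      obtain ⟨a1, a2, a3⟩ := mem_filter.1 hf
      obtain ⟨a4, _, a5⟩ := mem_filter.1 a2
      obtain ⟨a6, _, _, a7⟩ := mem_filter.1 a1
      exact mem_filter.2 ⟨a4, a5, f, hG a6, rfl, hT f a6, X.ovr_below j1 m0 hG h0 a1, a7, a3⟩)
    (fun f hf => ⟨j, u, (mem_filter.1 (mem_filter.1 hf).2.1).2.1⟩)
  refine hS.trans ?_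
  generalize ((X.P.filter fun p => X.Useful J t y j u p ∧ ∃ f ∈ X.F, f.1 = p ∧ X.TrimC J t f ∧
      fv (X.al j1 (X.wi j1 (sl e0) + 1)) f.1 < fv (X.al j1 (X.wi j1 (sl e0) + 1)) e0.1 ∧
      fv (X.al j1 (X.wi j1 (sl e0) + 1)) e0.1 < fv (X.al j1 (X.wi j1 (sl e0) + 1)) f.2 ∧
      sl f < X.al j u).card : ℝ) = D at hD ⊢
  have e1 : D * X.d * y ≤ B * 2 ^ j * (K1 ^ 2 * X.sz j) * y := by
    calc D * X.d * y = D * y * X.d := by ring
      _ ≤ (2 * J + 1) * (K1 ^ 2 * X.sz j) * X.d :=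
        mul_le_mul_of_nonneg_right (hD.trans (mul_le_mul_of_nonneg_left hU (by linarith))) hd.le
      _ = (2 * J + 1) * X.d * (K1 ^ 2 * X.sz j) := by ring
      _ ≤ B * y * 2 ^ j * (K1 ^ 2 * X.sz j) := mul_le_mul_of_nonneg_right hB (by positivity)
      _ = _ := by ring
  have e2 := le_of_mul_le_mul_right e1 hy
  have e3 : (8 : ℝ) ^ j = 2 ^ j * 4 ^ j := by rw [← mul_pow]; norm_num
  calc D * (K1 * X.d) = K1 * (D * X.d) := by ring
    _ ≤ K1 * (B * 2 ^ j * (K1 ^ 2 * X.sz j)) := mul_le_mul_of_nonneg_left e2 (by linarith)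
    _ = _ := by
      unfold Cfg.sz
      rw [e3]
      field_simp

end Vale.Agent.P065.U
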