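import Vale.Agent.P065.U.Rich
import Vale.Agent.P065.U.Ball
import Vale.Agent.P065.U.Links
import Vale.Agent.P065.U.Ind
import Vale.Agent.P065.U.Pieces
import Vale.Agent.P065.U.Hit
import Vale.Agent.P065.U.Build
import Vale.Agent.P065.U.SetupA

/-!
P065/U task Setup: collect the geometric lemmas.

C = 2^j, Ka = 200 K0, K1 = Ka^cT (`tame_most`, used at scales j and j1), (jM, L) from `rich_most` at Ka,
(J,t,y) from `useful_most` at Kb = Ka K1. Z u = {q ∈ P | Tame K1 j u q ∧ Rich jM L q},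
A u = {p ∈ P | Tame K1 j u p ∧ Useful J t y j u p}; miss Z ≤ 2 n d/Ka, miss A ≤ 2 n d/Ka (a tame pair
that is not useful carries ≤ K1 d/C edges). r = K1^cL n/C from `links_most` at K = K1.
G = {f ∈ F | many links, TrimC J t f, hit f ≤ 10 Ka n/d} (`hit_sum`), |F \ G| ≤ 9 n d/Ka.
j1 least with d K1^cP ≤ 4^j1 (so 2^j ≤ 2^j1 ≤ 4 K0^c1 K1^cP 2^j); Z1 u = tame at scale j1 and rich;
`pieces` gives m0, Pi; `ovr_card`. For q a link of f ∈ ovr e0, dd e0.1 q ≤ r' := a power of K0 times n/C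
(`piece_dd`, `hit_ends`, `dd_tri`, `links_spec`), so `ball` (centre e0.1, or centre q and `Tame.deg`)
gives L_le and cnt. use_le: `disj` with θ0 = al j1 (wi + 1), h = fv θ0 e0.1 (`ovr_below`), the nice
bound |Uw j u J| ≤ K1² sz j (J ≤ sz j, `Uw_mono`), (2J+1) d ≤ Kb^c y C and `Tame.deg`.
-/

namespace Vale.Agent.P065.U

open Finset Classical

structure Cfg.Setup (X : Cfg) (K : ℝ) (j : ℕ) (K1 r : ℝ) (j1 m0 : ℕ) (Z A : ℕ → Finset Pt)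
    (G Pi : Finset Ed) : Prop where
  two_le : 2 ≤ K1
  le_K : K1 ≤ K
  Z_tame : ∀ u, ∀ q ∈ Z u, X.Tame K1 j u q
  A_tame : ∀ u, ∀ p ∈ A u, X.Tame K1 j u p
  G_sub : G ⊆ X.F
  Pi_sub : Pi ⊆ X.F
  Pi_ge : X.n * X.d / K ≤ Pi.card
  m_ge : ∀ e0 ∈ Pi, X.n / (K * 2 ^ j) ≤ (X.ovr j1 m0 G e0).card
  m_le : ∀ e0 ∈ Pi, ((X.ovr j1 m0 G e0).card : ℝ) ≤ K * X.n / 2 ^ j
  links_ge : ∀ f ∈ G, X.n / (K * 4 ^ j) ≤ (X.links j Z A r f).card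
  L_le : ∀ e0 ∈ Pi, (((X.ovr j1 m0 G e0).biUnion (X.links j Z A r)).card : ℝ) ≤ K * X.n / 4 ^ j
  cnt : ∀ q, ((Pi.filter fun e0 => q ∈ (X.ovr j1 m0 G e0).biUnion (X.links j Z A r)).card : ℝ) ≤
    K * X.n * X.d / 4 ^ j
  use_le : ∀ e0 ∈ Pi, ∀ u, (((X.ovr j1 m0 G e0).filter fun f => f.1 ∈ A u ∧
    sl f < X.al j u).card : ℝ) ≤ K * X.n / 4 ^ j

theorem su_geo (X : Cfg) (j j1 jM m0 cB : ℕ) {W K1 L r J t y : ℝ} {G Pi : Finset Ed}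
    (hW : 4 ≤ W) (hK1 : 2 ≤ K1) (hKW : K1 ≤ W) (hLW : L ^ cB ≤ W) (hj : (2 : ℝ) ^ j ≤ X.d)
    (hj1 : (2 : ℝ) ^ j ≤ 2 ^ j1) (hr : r ≤ W * X.n / 2 ^ j) (hG : G ⊆ X.F) (hPi : Pi ⊆ X.F)
    (hB : ∀ (r : ℝ) (z : Pt), X.n / X.d ≤ r →
      ((X.P.filter fun q => X.Rich jM L q ∧ (X.T.dd X.k z q : ℝ) ≤ r).card : ℝ) ≤
        L ^ cB * r ^ 2 / X.n)
    (hh : ∀ f ∈ G, (hit X.P X.k f : ℝ) ≤ W * X.n / X.d)
    (h1 : ∀ e0 ∈ Pi, X.Tame K1 j1 (X.wi j1 (sl e0)) e0.1 ∧ X.Rich jM L e0.1)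
    (h2 : ∀ e0 ∈ Pi, ((∑ e ∈ X.piece j1 m0 e0, hit X.P X.k e : ℕ) : ℝ) ≤ W * X.n / 2 ^ j1) :
    (∀ e0 ∈ Pi, (((X.ovr j1 m0 G e0).biUnion (X.links j
      (fun u => X.P.filter fun p => X.Tame K1 j u p ∧ X.Rich jM L p)
      (fun u => X.P.filter fun p => X.Tame K1 j u p ∧ X.Useful J t y j u p) r)).card : ℝ) ≤
        W ^ 7 * X.n / 4 ^ j) ∧
    ∀ q, ((Pi.filter fun e0 => q ∈ (X.ovr j1 m0 G e0).biUnion (X.links j
      (fun u => X.P.filter fun p => X.Tame K1 j u p ∧ X.Rich jM L p)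
      (fun u => X.P.filter fun p => X.Tame K1 j u p ∧ X.Useful J t y j u p) r)).card : ℝ) ≤
        W ^ 7 * X.n * X.d / 4 ^ j := by
  have hd := X.d_pos
  have hn := su_n_pos X
  have p2 : (0 : ℝ) < 2 ^ j := by positivity
  have hW0 : 0 < W := by linarith
  have hA : ∀ u, ∀ p ∈ X.P.filter fun p => X.Tame K1 j u p ∧ X.Useful J t y j u p, u < 16 ^ j :=
    fun u p hp => (mem_filter.1 hp).2.1.lt
  have hnd : X.n / X.d ≤ X.n / 2 ^ j := div_le_div_of_nonneg_left hn.le p2 hj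
  have hn1 : X.n / 2 ^ j1 ≤ X.n / 2 ^ j := div_le_div_of_nonneg_left hn.le p2 hj1
  have hpos : 0 < X.n / 2 ^ j := by positivity
  have hdd : ∀ e0 ∈ Pi, ∀ q ∈ (X.ovr j1 m0 G e0).biUnion (X.links j
      (fun u => X.P.filter fun p => X.Tame K1 j u p ∧ X.Rich jM L p)
      (fun u => X.P.filter fun p => X.Tame K1 j u p ∧ X.Useful J t y j u p) r),
      X.Rich jM L q ∧ (X.T.dd X.k e0.1 q : ℝ) ≤ 3 * W * (X.n / 2 ^ j) := by
    intro e0 h0 q hq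
    obtain ⟨f, hf, hq⟩ := mem_biUnion.1 hq
    refine ⟨(mem_filter.1 (X.links_spec j _ _ r hA hq).2.2.2.1).2.2, ?_⟩
    have a1 := su_dd X j j1 m0 _ _ r hG hA (hPi h0) hf hq
    have a2 := h2 e0 h0
    have a3 := hh f (mem_filter.1 hf).1
    rw [mul_div_assoc] at a2 a3 hr
    have a4 := mul_le_mul_of_nonneg_left hnd hW0.le
    have a5 := mul_le_mul_of_nonneg_left hn1 hW0.le
    linarith
  have hball : ∀ z, ((X.P.filter fun q => X.Rich jM L q ∧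
      (X.T.dd X.k z q : ℝ) ≤ 3 * W * (X.n / 2 ^ j)).card : ℝ) ≤ W ^ 5 * X.n / 4 ^ j := by
    intro z
    refine (hB _ z (hnd.trans (by nlinarith))).trans ?_
    have e3 : (4 : ℝ) ^ j = 2 ^ j * 2 ^ j := by rw [← mul_pow]; norm_num
    have e4 : 9 * W ^ 3 ≤ W ^ 5 := by
      have : 9 ≤ W ^ 2 := by nlinarith
      calc 9 * W ^ 3 ≤ W ^ 2 * W ^ 3 := mul_le_mul_of_nonneg_right this (by positivity)
        _ = _ := by ring
    calc L ^ cB * (3 * W * (X.n / 2 ^ j)) ^ 2 / X.n ≤ W * (3 * W * (X.n / 2 ^ j)) ^ 2 / X.n := by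
          gcongr
      _ = 9 * W ^ 3 * X.n / 4 ^ j := by
          rw [e3]
          field_simp
          norm_num
      _ ≤ _ := by gcongr
  have h57 : W ^ 5 ≤ W ^ 7 := pow_le_pow_right₀ (by linarith) (by norm_num)
  have h67 : W ^ 6 ≤ W ^ 7 := pow_le_pow_right₀ (by linarith) (by norm_num)
  refine ⟨fun e0 h0 => ?_, fun q => ?_⟩
  · refine le_trans ?_ ((hball e0.1).trans (by gcongr))
    exact_mod_cast card_le_card fun q hq => mem_filter.2 ⟨(hdd e0 h0 q hq).1.1, hdd e0 h0 q hq⟩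
  · refine (su_deg X (K := K1) (by linarith) ((filter_subset _ _).trans hPi)
      (X.P.filter fun p => X.Rich jM L p ∧ (X.T.dd X.k q p : ℝ) ≤ 3 * W * (X.n / 2 ^ j))
      (fun e he => ?_) (fun e he => ⟨j1, _, (h1 e (mem_filter.1 he).1).1⟩)).trans ?_
    · obtain ⟨a1, a2⟩ := mem_filter.1 he
      refine mem_filter.2 ⟨(h1 e a1).2.1, (h1 e a1).2, ?_⟩
      rw [X.T.dd_comm]
      exact (hdd e a1 q a2).2
    · calc _ ≤ W ^ 5 * X.n / 4 ^ j * (W * X.d) :=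
            mul_le_mul (hball q) (by gcongr) (by positivity) (by positivity)
        _ = W ^ 6 * X.n * X.d / 4 ^ j := by ring
        _ ≤ _ := by gcongr

theorem su_sq {a b : ℝ} (hb : 0 ≤ b) (h : a * a ≤ b * b) : a ≤ b := by
  by_contra h'
  nlinarith

theorem su_num {W d c c1 k : ℝ} (hW : 4 ≤ W) (hk : 1 ≤ k) (hkW : k ≤ W) (hc : 1 ≤ c)
    (h1 : c * c * W ^ 4 ≤ d) (h2 : d ≤ 4 * (c * c) * W ^ 4) (h3 : d * k ≤ c1 * c1)
    (h4 : c1 * c1 ≤ 4 * (d * k)) (hc1 : 0 < c1) :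
    c ≤ c1 ∧ c1 * W ≤ d ∧ W * c1 ≤ W ^ 7 * c ∧ W ^ 4 ≤ d ∧ c * W ≤ d ∧ c * c * W ≤ d := by
  have hW0 : 0 < W := by linarith
  have hW1 : 1 ≤ W := by linarith
  have a1 : W ≤ W ^ 4 := le_self_pow₀ hW1 (by norm_num)
  have a2 : 1 ≤ c * c := by nlinarith
  have a3 : W ^ 4 ≤ d := by nlinarith
  have a4 : c * c * W ≤ d := by nlinarith
  have a5 : c * W ≤ d := by nlinarith
  have hd : 0 < d := by linarith
  have a6 : c1 * c1 ≤ 4 * (d * W) := by nlinarith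
  have a7 : 4 * W ^ 3 ≤ d := by nlinarith [pow_pos hW0 3]
  refine ⟨su_sq hc1.le (by nlinarith), su_sq hd.le ?_, ?_, a3, a5, a4⟩
  · calc c1 * W * (c1 * W) = c1 * c1 * W ^ 2 := by ring
      _ ≤ 4 * (d * W) * W ^ 2 := by gcongr
      _ = 4 * W ^ 3 * d := by ring
      _ ≤ d * d := by gcongr
  · have a8 : c1 ≤ W ^ 6 * c := by
      refine su_sq (by positivity) ?_
      have b1 : 16 ≤ W ^ 7 := by
        calc (16 : ℝ) ≤ 4 ^ 7 := by norm_num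
          _ ≤ W ^ 7 := by gcongr
      calc c1 * c1 ≤ 4 * (d * W) := a6
        _ ≤ 4 * (4 * (c * c) * W ^ 4 * W) := by gcongr
        _ = 16 * (W ^ 5 * (c * c)) := by ring
        _ ≤ W ^ 7 * (W ^ 5 * (c * c)) := by gcongr
        _ = _ := by ring
    calc W * c1 ≤ W * (W ^ 6 * c) := by gcongr
      _ = _ := by ring

theorem su_exp (cT cR cU cL cP cB : ℕ) : ∃ w : ℕ, ∀ K0 : ℝ, 2 ≤ K0 → ∃ Ka K1 : ℝ,
    256 * K0 ≤ Ka ∧ Ka ≤ K1 ∧ Ka ^ cT ≤ K1 ∧ K1 ≤ K0 ^ w ∧ K1 ^ cP ≤ K0 ^ w ∧ K1 ^ cL ≤ K0 ^ w ∧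
      Ka ^ cR ≤ K0 ^ w ∧ (Ka ^ cR) ^ cB ≤ K0 ^ w ∧ (Ka * K1) ^ cU ≤ K0 ^ w ∧ 10 * Ka ≤ K0 ^ w := by
  obtain ⟨w, hw⟩ : ∃ w, w = 9 * (cT + 1) + 9 * (cT + 1) * cP + 9 * (cT + 1) * cL + 9 * cR +
      9 * cR * cB + (9 + 9 * (cT + 1)) * cU + 13 := ⟨_, rfl⟩
  refine ⟨w, fun K0 k2 => ?_⟩
  have k1 : (1 : ℝ) ≤ K0 := by linarith
  have pw : ∀ a, a ≤ w → K0 ^ a ≤ K0 ^ w := fun a h => pow_le_pow_right₀ k1 h
  obtain ⟨Ka, hKa⟩ : ∃ Ka, Ka = K0 ^ 9 := ⟨_, rfl⟩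
  obtain ⟨K1, hK1⟩ : ∃ K1, K1 = Ka ^ (cT + 1) := ⟨_, rfl⟩
  have a0 : 256 * K0 ≤ Ka := by
    have : (2 : ℝ) ^ 8 ≤ K0 ^ 8 := by gcongr
    rw [hKa, pow_succ]
    nlinarith
  have a1 : (1 : ℝ) ≤ Ka := by linarith
  refine ⟨Ka, K1, a0, hK1 ▸ le_self_pow₀ a1 (by omega), hK1 ▸ pow_le_pow_right₀ a1 (by omega),
    ?_, ?_, ?_, ?_, ?_, ?_, ?_⟩
  · rw [hK1, hKa, ← pow_mul]
    exact pw _ (by omega)
  · rw [hK1, hKa, ← pow_mul K0, ← pow_mul]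
    exact pw _ (by omega)
  · rw [hK1, hKa, ← pow_mul K0, ← pow_mul]
    exact pw _ (by omega)
  · rw [hKa, ← pow_mul]
    exact pw _ (by omega)
  · rw [hKa, ← pow_mul K0, ← pow_mul]
    exact pw _ (by omega)
  · rw [hK1, hKa, ← pow_mul, ← pow_add, ← pow_mul]
    exact pw _ (by omega)
  · refine le_trans ?_ (pw (4 + 9) (by omega))
    have : (2 : ℝ) ^ 4 ≤ K0 ^ 4 := by gcongr
    rw [pow_add, ← hKa]
    nlinarith

theorem su_G (X : Cfg) {K0 Ka J t a : ℝ} (hK : 2 ≤ K0) (h0 : 256 * K0 ≤ Ka) (g : Ed → ℝ)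
    (h1 : ((X.F.filter fun f => g f < a).card : ℝ) ≤ 7 * (X.n * X.d / Ka))
    (h2 : ((X.F.filter fun e => ¬ X.TrimC J t e).card : ℝ) ≤ X.n * X.d / Ka) :
    ∃ G ⊆ X.F, (∀ f ∈ G, a ≤ g f ∧ X.TrimC J t f ∧ (hit X.P X.k f : ℝ) ≤ 10 * Ka * X.n / X.d) ∧
      ((X.F \ G).card : ℝ) ≤ X.n * X.d / (16 * K0) ∧
      2 * (X.n * X.d / Ka) ≤ X.n * X.d / (16 * K0) := by
  have hnd : 0 < X.n * X.d := mul_pos (su_n_pos X) X.d_pos
  have hKa : 0 < Ka := by linarith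
  have q3 : 9 * (X.n * X.d / Ka) ≤ X.n * X.d / (16 * K0) := by
    rw [← mul_div_assoc, div_le_div_iff₀ (by linarith) (by linarith)]
    nlinarith
  have q4 : 0 < X.n * X.d / Ka := by positivity
  refine ⟨X.F.filter fun f => a ≤ g f ∧ X.TrimC J t f ∧ (hit X.P X.k f : ℝ) ≤ 10 * Ka * X.n / X.d,
    filter_subset _ _, fun f hf => (mem_filter.1 hf).2, ?_, by linarith⟩
  have s1 : X.F \ (X.F.filter fun f => a ≤ g f ∧ X.TrimC J t f ∧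
      (hit X.P X.k f : ℝ) ≤ 10 * Ka * X.n / X.d) ⊆ ((X.F.filter fun f => g f < a) ∪
      X.F.filter fun e => ¬ X.TrimC J t e) ∪
      X.F.filter fun f => 10 * Ka * X.n / X.d < hit X.P X.k f := by
    intro f hf
    obtain ⟨f1, f2⟩ := mem_sdiff.1 hf
    by_contra hc
    simp only [mem_union, mem_filter, f1, true_and, not_or, not_lt, not_not] at hc
    exact f2 (mem_filter.2 ⟨f1, hc.1.1, hc.1.2, hc.2⟩)
  have s2 := (Nat.cast_le (α := ℝ)).2 ((card_le_card s1).trans ((card_union_le _ _).trans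
    (Nat.add_le_add_right (card_union_le _ _) _)))
  rw [Nat.cast_add, Nat.cast_add] at s2
  have s3 := su_hit X hKa
  linarith

theorem su_miss (X : Cfg) (i : ℕ) {K1 a : ℝ} (R : Pt → Prop)
    (h1 : (X.miss i (fun u => X.P.filter fun p => X.Tame K1 i u p) : ℝ) ≤ a)
    (h2 : ((X.F.filter fun e => ¬ R e.1).card : ℝ) ≤ a) :
    (X.miss i (fun u => X.P.filter fun p => X.Tame K1 i u p ∧ R p) : ℝ) ≤ 2 * a := by
  have := (Nat.cast_le (α := ℝ)).2 (su_miss_rich X i (X.Tame K1 i) R)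
  rw [Nat.cast_add] at this
  linarith

theorem su_missA (X : Cfg) (j : ℕ) {Ka K1 : ℝ} (hKa : 1 ≤ Ka) (hK1 : 0 < K1) (R : ℕ → Pt → Prop)
    (h1 : (X.miss j (fun u => X.P.filter fun p => X.Tame K1 j u p) : ℝ) ≤ X.n * X.d / Ka)
    (h : ∑ u ∈ range (16 ^ j), ((X.P.filter fun p => X.d / (Ka * K1 * 2 ^ j) ≤ X.rdeg j u p ∧
        ¬ R u p).card : ℝ) ≤ X.n * 2 ^ j / (Ka * K1)) :
    (X.miss j (fun u => X.P.filter fun p => X.Tame K1 j u p ∧ R u p) : ℝ) ≤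
      2 * (X.n * X.d / Ka) := by
  have := (Nat.cast_le (α := ℝ)).2 (su_miss_and X j (X.Tame K1 j) R)
  rw [Nat.cast_add] at this
  have h' := su_useless X j hKa hK1 R h
  linarith

theorem stp_le {a b x c : ℝ} (hx : 0 ≤ x) (h : a ≤ b) (h' : x * b ≤ c) : x * a ≤ c :=
  (mul_le_mul_of_nonneg_left h hx).trans h'

theorem su_div {a b x c : ℝ} (hx : 0 ≤ x) (hc : 0 ≤ c) (h : a ≤ b) : a * x / c ≤ b * x / c := by
  gcongr

theorem Cfg.setup : ∃ c1 c2 : ℕ, ∀ (X : Cfg) (K0 : ℝ) (j : ℕ), X.Big K0 →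
    4 ^ j * K0 ^ c1 ≤ X.d → X.d ≤ 4 * 4 ^ j * K0 ^ c1 → K0 ^ c2 ≤ 2 ^ j →
    ∃ K1 r j1 m0 Z A G Pi, X.Setup (K0 ^ c2) j K1 r j1 m0 Z A G Pi := by
  obtain ⟨cT, hT⟩ := Cfg.tame_most
  obtain ⟨cR, hR⟩ := su_rich
  obtain ⟨cU, hU⟩ := Cfg.useful_most
  obtain ⟨cL, hL⟩ := Cfg.links_most
  obtain ⟨cP, hP⟩ := Cfg.pieces
  obtain ⟨cB, hB⟩ := Cfg.ball
  obtain ⟨w, hw⟩ := su_exp cT cR cU cL cP cB
  refine ⟨w * 4, w * 7, fun X K0 j hK0 h1 h2 h3 => ?_⟩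
  rw [pow_mul] at h1 h2 h3 ⊢
  have k2 := hK0.1
  obtain ⟨Ka, K1, a0, a2, a3, w1, w2, w3, w4, w5, w6, w7⟩ := hw K0 k2
  generalize K0 ^ w = W at h1 h2 h3 w1 w2 w3 w4 w5 w6 w7 ⊢
  clear hw
  have a1 : (1 : ℝ) ≤ Ka := by linarith only [a0, k2]
  have a4 : K0 ≤ Ka := by linarith only [a0, k2]
  have hd := X.d_pos
  have hn := su_n_pos X
  have hW : 4 ≤ W := by linarith only [a1, w7]
  have hW1 : 1 ≤ W := by linarith only [hW]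
  have b1 : 2 ≤ K1 := by linarith only [a0, k2, a2]
  have b0 : 0 < K1 := by linarith only [b1]
  have b3 : 1 ≤ K1 := by linarith only [b1]
  have b2 : 1 ≤ K1 ^ cP := one_le_pow₀ b3
  have W7 : W ≤ W ^ 7 := le_self_pow₀ hW1 (by norm_num)
  have e4 : ∀ i : ℕ, (4 : ℝ) ^ i = 2 ^ i * 2 ^ i := fun i => by rw [← mul_pow]; norm_num
  have p2 : (1 : ℝ) ≤ 2 ^ j := one_le_pow₀ (by norm_num)
  have z2 : ∀ i : ℕ, (0 : ℝ) ≤ 2 ^ i := fun i => by positivity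
  have z4 : (0 : ℝ) < 4 ^ j := by positivity
  obtain ⟨j1, c1, c2⟩ := su_scale (w := X.d * K1 ^ cP) (one_le_mul_of_one_le_of_one_le X.one_le_d b2)
  obtain ⟨n1, n2, n3, n4, n5, n6⟩ := su_num (c := 2 ^ j) (c1 := 2 ^ j1) hW b2 w2 p2
    (e4 j ▸ h1) (e4 j ▸ h2) (e4 j1 ▸ c1) (e4 j1 ▸ c2) (by positivity)
  rw [← e4] at n6
  have W4 : W ≤ W ^ 4 := le_self_pow₀ hW1 (by norm_num)
  have bKa : X.Big Ka := hK0.mono a4
  have a5 : Ka ≤ Ka * K1 := le_mul_of_one_le_right (by linarith only [a1]) b3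
  have bKb : X.Big (Ka * K1) := bKa.mono a5
  have t0 := hT X Ka K1 j bKa a3 (stp_le (z2 j) (a3.trans w1) n5)
  have t1 := hT X Ka K1 j1 bKa a3 (stp_le (z2 j1) (a3.trans w1) n2)
  obtain ⟨r0, jM, r1, r2⟩ := hR X Ka bKa (w4.trans (W4.trans n4))
  obtain ⟨J, t, y, u1, u2, u3, u4, u5, u6⟩ := hU X (Ka * K1) j bKb (stp_le (z2 j) w6 n5)
  have mA := su_missA X j a1 b0 (X.Useful J t y j) t0 u6
  have mZ := su_miss X j (X.Rich jM (Ka ^ cR)) t0 r2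
  obtain ⟨Z, hZ⟩ : ∃ Z : ℕ → Finset Pt,
      Z = fun u => X.P.filter fun p => X.Tame K1 j u p ∧ X.Rich jM (Ka ^ cR) p := ⟨_, rfl⟩
  obtain ⟨A, hA⟩ : ∃ A : ℕ → Finset Pt,
      A = fun u => X.P.filter fun p => X.Tame K1 j u p ∧ X.Useful J t y j u p := ⟨_, rfl⟩
  have zt : ∀ u, ∀ q ∈ Z u, X.Tame K1 j u q := fun u q hq => by
    rw [hZ] at hq
    exact (mem_filter.1 hq).2.1
  have at' : ∀ u, ∀ q ∈ A u, X.Tame K1 j u q := fun u q hq => by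
    rw [hA] at hq
    exact (mem_filter.1 hq).2.1
  have l0 := hL X K1 K1 j Z A b1 le_rfl (w3.trans (W7.trans h3)) (stp_le z4.le w3 n6) zt at'
  rw [← hZ] at mZ
  rw [← hA] at mA
  have hnd : 0 < X.n * X.d := mul_pos hn hd
  have a6 : 0 < Ka := by linarith only [a1]
  have q1 : X.n * X.d / K1 ≤ X.n * X.d / Ka := div_le_div_of_nonneg_left hnd.le a6 a2
  obtain ⟨G, gF, gm, gc, q3⟩ := su_G X k2 a0
    (fun f => ((X.links j Z A (K1 ^ cL * X.n / 2 ^ j) f).card : ℝ)) (a := X.n / (K1 ^ cL * 4 ^ j))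
    (by linarith only [l0, q1, mA, mZ]) (u5.trans (div_le_div_of_nonneg_left hnd.le a6 a5))
  obtain ⟨m0, Pi, i1, i2, i3⟩ := hP X K0 K1 j1 G
    (fun u => X.P.filter fun p => X.Tame K1 j1 u p ∧ X.Rich jM (Ka ^ cR) p) hK0 b1 (a4.trans a2) c1
    (stp_le (z2 j1) w2 n2) gF gc ((su_miss X j1 (X.Rich jM (Ka ^ cR)) t1 r2).trans q3)
    (fun u p hp => (mem_filter.1 hp).2.1)
  have i4 : ∀ e0 ∈ Pi, ((∑ e ∈ X.piece j1 m0 e0, hit X.P X.k e : ℕ) : ℝ) ≤ W * X.n / 2 ^ j1 :=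
    fun e0 h0 => (i3 e0 h0).2.1.trans (su_div hn.le (z2 j1) w2)
  have geo := su_geo X j j1 jM m0 cB (L := Ka ^ cR) (r := K1 ^ cL * X.n / 2 ^ j) (J := J) (t := t)
    (y := y) hW b1 w1 w5 ((le_mul_of_one_le_right (z2 j) hW1).trans n5) n1 (su_div hn.le (z2 j) w3)
    gF i1 (fun r z h => hB X _ r jM z r0 r1 h)
    (fun f hf => (gm f hf).2.2.trans (su_div hn.le hd.le w7))
    (fun e0 h0 => (mem_filter.1 (i3 e0 h0).1).2) i4
  rw [← hZ, ← hA] at geo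
  refine ⟨K1, K1 ^ cL * X.n / 2 ^ j, j1, m0, Z, A, G, Pi, b1, w1.trans W7, zt, at', gF, i1,
    le_trans ?_ i2, fun e0 h0 => le_trans ?_ (i3 e0 h0).2.2, fun e0 h0 => ?_,
    fun f hf => le_trans ?_ (gm f hf).1, geo.1, geo.2, fun e0 h0 u => ?_⟩
  · exact div_le_div_of_nonneg_left hnd.le (pow_pos b0 _) (w2.trans W7)
  · exact div_le_div_of_nonneg_left hn.le (by positivity)
      ((mul_le_mul_of_nonneg_right w2 (z2 j1)).trans n3)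
  · refine le_trans ?_ ((i4 e0 h0).trans ((su_div hn.le (z2 j1) W7).trans
      (div_le_div_of_nonneg_left (by positivity) (by positivity) n1)))
    exact_mod_cast X.ovr_card j1 m0 gF e0
  · exact div_le_div_of_nonneg_left hn.le (by positivity)
      (mul_le_mul_of_nonneg_right (w3.trans W7) z4.le)
  · rw [hA]
    refine (su_use X j j1 m0 b3 u1 u2 u3 u4 gF (fun f hf => (gm f hf).2.1) (i1 h0) u).trans
      (su_div hn.le z4.le ?_)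
    calc _ ≤ W * W ^ 3 := by gcongr
      _ = W ^ 4 := by ring
      _ ≤ _ := pow_le_pow_right₀ hW1 (by norm_num)

end Vale.Agent.P065.U
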