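import Vale.Agent.P065.U.Dey

/-!
P065/U tasks Small and Tame.

`small`: few (point, window) pairs carry few edges. s = 2^j. Windows with |act| > B = Γ sz j number
≤ 1000·16^j/Γ (`act_sum`) and carry ≤ (1000·16^j/Γ)(24 n d/16^j + 1) edges; 16^j ≤ n d. In another
window let G be the edges with e.1 ∈ Y u. `crossing` with Y1 = Y u ∩ act, Y2 = act and `cr_win`: either
|G| < 16 B or |G|³ ≤ 512 |Y u| B³, so |G| ≤ 16 B + 8 B (|Y u|/r² + r) for every r > 0. Sum with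
r = (d/s)/K^c1. Same for e.2 ∈ Y u. Choose Γ, c1, c as powers.
-/

namespace Vale.Agent.P065.U

open Finset Classical

lemma sm_cr_mono {G H : Finset Ed} (h : G ⊆ H) : cr G G ≤ cr H H :=
  card_le_card (filter_subset_filter _ (product_subset_product h h))

lemma sm_alg {g y a t ρ : ℝ} (hg : 0 ≤ g) (hy : 0 ≤ y) (ha : 0 ≤ a) (ht : 0 ≤ t) (hρ : 0 < ρ)
    (h1 : g ^ 3 ≤ 512 * y * a ^ 3) (h2 : g ≤ 25 * t ^ 4) : g ≤ 11 * t * (y / ρ ^ 3 + ρ * a) := by
  set p := y / ρ ^ 3 with hp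
  set q := ρ * a with hq
  have hp0 : 0 ≤ p := by positivity
  have hq0 : 0 ≤ q := by positivity
  have e : y * a ^ 3 = p * q ^ 3 := by
    rw [hp, hq]
    field_simp
  have h3 : p * q ^ 3 ≤ (p + q) ^ 4 := by
    have : (p + q) ^ 4 = (p + q) * (p + q) ^ 3 := by ring
    rw [this]
    exact mul_le_mul (by linarith) (pow_le_pow_left₀ hq0 (by linarith) 3) (by positivity)
      (by positivity)
  have h4 : g ^ 4 ≤ (11 * t * (p + q)) ^ 4 := by
    calc g ^ 4 = g * g ^ 3 := by ring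
      _ ≤ (25 * t ^ 4) * (512 * y * a ^ 3) := mul_le_mul h2 h1 (by positivity) (by positivity)
      _ = 12800 * t ^ 4 * (p * q ^ 3) := by rw [← e]; ring
      _ ≤ 14641 * t ^ 4 * (p + q) ^ 4 :=
        mul_le_mul (by nlinarith [pow_nonneg ht 4]) h3 (by positivity) (by positivity)
      _ = (11 * t * (p + q)) ^ 4 := by ring
  exact (pow_le_pow_iff_left₀ hg (by positivity) (by norm_num)).1 h4

lemma sm_win (X : Cfg) (j u : ℕ) {G : Finset Ed} (hG : G ⊆ X.win X.F j u) (Y1 Y2 : Finset Pt)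
    (h1 : ∀ e ∈ G, e.1 ∈ Y1) (h2 : ∀ e ∈ G, e.2 ∈ Y2) (c1 : Y1.card ≤ (X.act j u).card)
    (c2 : Y2.card ≤ (X.act j u).card) (y : ℕ) (c3 : Y1.card * Y2.card ≤ y * (X.act j u).card)
    {t ρ : ℝ} (ht : 0 ≤ t) (hρ : 0 < ρ) (hW : ((X.win X.F j u).card : ℝ) ≤ 25 * t ^ 4) :
    (G.card : ℝ) ≤ 16 * (X.act j u).card + 11 * t * (y / ρ ^ 3 + ρ * (X.act j u).card) := by
  set a := (X.act j u).card with ha
  by_cases h : 16 * a ≤ G.card
  · have hP : G ⊆ prs X.P := hG.trans ((filter_subset _ _).trans X.F_sub)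
    have hc := crossing X.P X.gen G hP Y1 Y2 h1 h2 (by omega) (by omega)
    have hcr : cr G G ≤ a ^ 2 := (sm_cr_mono hG).trans (X.cr_win j u)
    have h3 : G.card ^ 3 ≤ 512 * y * a ^ 3 := by
      calc G.card ^ 3 ≤ 512 * Y1.card * Y2.card * cr G G := hc
        _ = 512 * (Y1.card * Y2.card) * cr G G := by ring
        _ ≤ 512 * (y * a) * a ^ 2 := Nat.mul_le_mul (Nat.mul_le_mul_left _ c3) hcr
        _ = 512 * y * a ^ 3 := by ring
    have h4 : (G.card : ℝ) ≤ 25 * t ^ 4 := (Nat.cast_le.2 (card_le_card hG)).trans hW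
    have h5 := sm_alg (Nat.cast_nonneg G.card) (Nat.cast_nonneg y) (Nat.cast_nonneg a) ht hρ
      (by exact_mod_cast h3) h4
    have : (0 : ℝ) ≤ 16 * a := by positivity
    linarith
  · have h6 : (G.card : ℝ) ≤ 16 * a := by exact_mod_cast (not_le.1 h).le
    have : (0 : ℝ) ≤ 11 * t * (y / ρ ^ 3 + ρ * a) := by positivity
    linarith

lemma sm_two (X : Cfg) (j u : ℕ) (Y : ℕ → Finset Pt) {t ρ : ℝ} (ht : 0 ≤ t) (hρ : 0 < ρ)
    (hW : ((X.win X.F j u).card : ℝ) ≤ 25 * t ^ 4) :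
    ((X.win (X.F.filter fun e => e.1 ∈ Y (X.wi j (sl e)) ∨ e.2 ∈ Y (X.wi j (sl e))) j u).card : ℝ) ≤
      32 * (X.act j u).card + 22 * t * ((Y u).card / ρ ^ 3 + ρ * (X.act j u).card) := by
  have hl : ∀ e ∈ X.win X.F j u, e.1 ∈ X.act j u := fun e he => mem_ends.2 ⟨e, he, Or.inl rfl⟩
  have hr : ∀ e ∈ X.win X.F j u, e.2 ∈ X.act j u := fun e he => mem_ends.2 ⟨e, he, Or.inr rfl⟩
  have hi1 : (Y u ∩ X.act j u).card ≤ (X.act j u).card := card_le_card inter_subset_right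
  have hi2 : (Y u ∩ X.act j u).card ≤ (Y u).card := card_le_card inter_subset_left
  have b1 := sm_win X j u (G := (X.win X.F j u).filter fun e => e.1 ∈ Y u) (filter_subset _ _)
    (Y u ∩ X.act j u) (X.act j u)
    (fun e he => mem_inter.2 ⟨(mem_filter.1 he).2, hl e (mem_filter.1 he).1⟩)
    (fun e he => hr e (mem_filter.1 he).1) hi1 le_rfl (Y u).card (Nat.mul_le_mul_right _ hi2) ht hρ hW
  have b2 := sm_win X j u (G := (X.win X.F j u).filter fun e => e.2 ∈ Y u) (filter_subset _ _)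
    (X.act j u) (Y u ∩ X.act j u)
    (fun e he => hl e (mem_filter.1 he).1)
    (fun e he => mem_inter.2 ⟨(mem_filter.1 he).2, hr e (mem_filter.1 he).1⟩) le_rfl hi1 (Y u).card
    (by rw [mul_comm]; exact Nat.mul_le_mul_right _ hi2) ht hρ hW
  have hs : X.win (X.F.filter fun e => e.1 ∈ Y (X.wi j (sl e)) ∨ e.2 ∈ Y (X.wi j (sl e))) j u ⊆
      ((X.win X.F j u).filter fun e => e.1 ∈ Y u) ∪ ((X.win X.F j u).filter fun e => e.2 ∈ Y u) := by
    intro e he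
    obtain ⟨he1, he2⟩ := mem_filter.1 he
    obtain ⟨he3, he4⟩ := mem_filter.1 he1
    have hw : e ∈ X.win X.F j u := mem_filter.2 ⟨he3, he2⟩
    rw [he2] at he4
    rcases he4 with h | h
    · exact mem_union_left _ (mem_filter.2 ⟨hw, h⟩)
    · exact mem_union_right _ (mem_filter.2 ⟨hw, h⟩)
  have hc := (card_le_card hs).trans (card_union_le _ _)
  have hc' := (Nat.cast_le (α := ℝ)).2 hc
  rw [Nat.cast_add] at hc'
  linarith

lemma sm_num {K t : ℝ} (hK : 2 ≤ K) (ht : K ^ 59 ≤ t) :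
    32000 + 22 * t * (1 / K ^ 59 / (1 / K ^ 17) ^ 3 + 1 / K ^ 17 * 1000) ≤ t / K := by
  have K0 : 0 < K := by linarith
  have p7 : (128 : ℝ) ≤ K ^ 7 := by
    calc (128 : ℝ) = 2 ^ 7 := by norm_num
      _ ≤ K ^ 7 := pow_le_pow_left₀ (by norm_num) hK 7
  have p16 : (65536 : ℝ) ≤ K ^ 16 := by
    calc (65536 : ℝ) = 2 ^ 16 := by norm_num
      _ ≤ K ^ 16 := pow_le_pow_left₀ (by norm_num) hK 16
  have p58 : (128000 : ℝ) ≤ K ^ 58 := by
    calc (128000 : ℝ) ≤ 2 ^ 58 := by norm_num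
      _ ≤ K ^ 58 := pow_le_pow_left₀ (by norm_num) hK 58
  have t0 : 0 ≤ t / K := div_nonneg ((pow_nonneg K0.le _).trans ht) K0.le
  have h1 : 128000 ≤ t / K := by
    rw [le_div_iff₀ K0]
    calc 128000 * K ≤ K ^ 58 * K := mul_le_mul_of_nonneg_right p58 K0.le
      _ = K ^ 59 := by ring
      _ ≤ t := ht
  have e : 22 * t * (1 / K ^ 59 / (1 / K ^ 17) ^ 3 + 1 / K ^ 17 * 1000) =
      t / K * (22 / K ^ 7 + 22000 / K ^ 16) := by
    field_simp
    ring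
  have h2 : 22 / K ^ 7 ≤ 1 / 4 := by
    rw [div_le_iff₀ (by positivity)]
    linarith
  have h3 : 22000 / K ^ 16 ≤ 1 / 2 := by
    rw [div_le_iff₀ (by positivity)]
    linarith
  rw [e]
  have h4 : t / K * (22 / K ^ 7 + 22000 / K ^ 16) ≤ t / K * (3 / 4) :=
    mul_le_mul_of_nonneg_left (by linarith) t0
  linarith

theorem Cfg.small : ∃ c : ℕ, ∀ (X : Cfg) (K : ℝ) (j : ℕ) (Y : ℕ → Finset Pt), 2 ≤ K →
    2 ^ j * K ^ c ≤ X.d → ∑ u ∈ range (16 ^ j), ((Y u).card : ℝ) ≤ 2 ^ j * X.n / K ^ c →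
    ((X.F.filter fun e => e.1 ∈ Y (X.wi j (sl e)) ∨ e.2 ∈ Y (X.wi j (sl e))).card : ℝ) ≤
      X.n * X.d / K := by
  refine ⟨59, fun X K j Y hK hj hY => ?_⟩
  have K0 : 0 < K := by linarith
  have K1 : 1 ≤ K ^ 59 := one_le_pow₀ (by linarith)
  have s0 : (0 : ℝ) < 2 ^ j := by positivity
  set s : ℝ := 2 ^ j with hs
  have hsd : s ≤ X.d := le_trans (le_mul_of_one_le_right s0.le K1) hj
  set t := X.d / s with ht
  have htK : K ^ 59 ≤ t := by
    rw [ht, le_div_iff₀ s0]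
    linarith
  have t1 : 1 ≤ t := K1.trans htK
  have hd : X.d = s * t := by
    rw [ht]
    field_simp
  have hn : X.n = s ^ 3 * t ^ 3 := by
    rw [X.n_eq, hd]
    ring
  have h16 : (16 : ℝ) ^ j = s ^ 4 := by
    rw [hs, ← pow_mul, mul_comm, pow_mul]
    norm_num
  have hW : ∀ u, ((X.win X.F j u).card : ℝ) ≤ 25 * t ^ 4 := by
    intro u
    have h1 := X.win_card j u
    have h2 : (X.F.card : ℝ) / 16 ^ j ≤ 24 * t ^ 4 := by
      rw [h16, div_le_iff₀ (by positivity)]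
      calc (X.F.card : ℝ) ≤ 24 * X.n * X.d := X.F_card
        _ = 24 * t ^ 4 * s ^ 4 := by rw [hn, hd]; ring
    have h3 : 1 ≤ t ^ 4 := one_le_pow₀ t1
    linarith
  have hρ : (0 : ℝ) < 1 / K ^ 17 := by positivity
  have hA := X.act_sum j hsd
  rw [← X.sum_win _ j, Nat.cast_sum]
  calc _ ≤ ∑ u ∈ range (16 ^ j), (32 * ((X.act j u).card : ℝ) +
        22 * t * ((Y u).card / (1 / K ^ 17) ^ 3 + 1 / K ^ 17 * (X.act j u).card)) :=
        sum_le_sum fun u _ => sm_two X j u Y (by linarith) hρ (hW u)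
    _ = 32 * ∑ u ∈ range (16 ^ j), ((X.act j u).card : ℝ) +
        22 * t * ((∑ u ∈ range (16 ^ j), ((Y u).card : ℝ)) / (1 / K ^ 17) ^ 3 +
          1 / K ^ 17 * ∑ u ∈ range (16 ^ j), ((X.act j u).card : ℝ)) := by
        rw [sum_add_distrib, ← mul_sum, ← mul_sum, sum_add_distrib, ← mul_sum, ← sum_div]
    _ ≤ 32 * (1000 * s * X.n) + 22 * t * ((s * X.n / K ^ 59) / (1 / K ^ 17) ^ 3 +
          1 / K ^ 17 * (1000 * s * X.n)) := by gcongr
    _ = s * X.n * (32000 + 22 * t * (1 / K ^ 59 / (1 / K ^ 17) ^ 3 + 1 / K ^ 17 * 1000)) := by ring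
    _ ≤ s * X.n * (t / K) := mul_le_mul_of_nonneg_left (sm_num hK htK) (by rw [hn]; positivity)
    _ = X.n * X.d / K := by rw [hd]; ring

end Vale.Agent.P065.U
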