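import Vale.Agent.P065.U.Small

/-!
P065/U task Tame: almost all fine edges start at a tame pair.

For each of the ≤ 2K scales j' ≤ j (`Big.scales`) and e ∈ F with u' = wi j' (sl e) (`wi_anc`):
nice fails for ≤ 1000·16^j'/K1 windows (`Uw_sum`), carrying ≤ (1000/K1)(24 n d + n d) edges;
stay fails for few pairs (`nonstay_sum` with g = K^(c/3)), then `small`; rdeg > K1 d/2^j' for
≤ 24·2^j' n/K1 pairs, then `small`; nact > K1 2^j' for ≤ 1000 n/K1 points (`act_sum`), then `small` at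
scale 0. Pairs with rdeg < d/(K1 2^j) carry ≤ 1000 n d/K1 edges. Use `small` with 20 K² for K.
-/

namespace Vale.Agent.P065.U

open Finset Classical

theorem tame_markov {ι : Type*} (s : Finset ι) (f : ι → ℕ) (t : ℝ) :
    ((s.filter fun i => t < f i).card : ℝ) * t ≤ ∑ i ∈ s, (f i : ℝ) := by
  rw [← nsmul_eq_mul]
  exact (card_nsmul_le_sum _ _ _ fun i hi => (mem_filter.1 hi).2.le).trans
    (sum_le_sum_of_subset_of_nonneg (filter_subset _ _) fun i _ _ => Nat.cast_nonneg _)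

theorem tame_bi {ι κ : Type*} {s : Finset ι} {f : ι → Finset κ} {G : Finset κ}
    (h : ∀ e ∈ G, ∃ i ∈ s, e ∈ f i) : (G.card : ℝ) ≤ ∑ i ∈ s, ((f i).card : ℝ) := by
  exact_mod_cast (card_le_card fun e he => mem_biUnion.2 (h e he)).trans card_biUnion_le

theorem tame_fib {ι κ : Type*} [DecidableEq ι] (G : Finset κ) (S : Finset ι) (π : κ → ι) (r : ι → ℕ) {t : ℝ}
    (ht : 0 ≤ t) (hS : ∀ e ∈ G, π e ∈ S) (hr : ∀ p, (G.filter fun e => π e = p).card ≤ r p) :
    ((G.filter fun e => (r (π e) : ℝ) < t).card : ℝ) ≤ S.card * t := by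
  have a1 := (card_le_card (s := G.filter fun e => (r (π e) : ℝ) < t)
    fun e he => mem_filter.2 ⟨(mem_filter.1 he).1, mem_filter.2
      ⟨hS e (mem_filter.1 he).1, (mem_filter.1 he).2⟩⟩).trans
    ((sum_card_fiberwise_eq_card_filter G (S.filter fun p => (r p : ℝ) < t) π).ge.trans
      (sum_le_sum fun p _ => hr p))
  have a2 := sum_le_card_nsmul (S.filter fun p => (r p : ℝ) < t)
    (fun p => (r p : ℝ)) t fun p hp => (mem_filter.1 hp).2.le
  rw [nsmul_eq_mul, ← Nat.cast_sum] at a2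
  exact ((Nat.cast_le.2 a1).trans a2).trans
    (mul_le_mul_of_nonneg_right (Nat.cast_le.2 (card_filter_le _ _)) ht)

namespace Cfg
variable (X : Cfg) {j : ℕ} {K1 : ℝ}

theorem tame_n : 0 < X.n := by rw [X.n_eq]; exact pow_pos X.d_pos 3

theorem tame_act {e : Ed} (he : e ∈ X.F) (j : ℕ) : e.1 ∈ X.act j (X.wi j (sl e)) :=
  mem_ends.2 ⟨e, mem_filter.2 ⟨he, rfl⟩, Or.inl rfl⟩

theorem tame_nice (hj : (2 : ℝ) ^ j ≤ X.d) (h1 : 1 ≤ K1) :
    ((X.F.filter fun e => K1 ^ 2 * X.sz j <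
      (X.Uw j (X.wi j (sl e)) (K1 * X.sz j)).card).card : ℝ) ≤ 25000 * (X.n * X.d / K1) := by
  have hn := X.tame_n
  have hd := X.d_pos
  have a := (tame_markov (range (16 ^ j)) (fun u => (X.Uw j u (K1 * X.sz j)).card)
    (K1 ^ 2 * X.sz j)).trans (X.Uw_sum j hj K1 h1)
  have b := (tame_bi (G := X.F.filter fun e => K1 ^ 2 * X.sz j <
      (X.Uw j (X.wi j (sl e)) (K1 * X.sz j)).card) (f := X.win X.F j)
    (s := (range (16 ^ j)).filter fun u => K1 ^ 2 * X.sz j < (X.Uw j u (K1 * X.sz j)).card)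
    fun e he => ⟨_, mem_filter.2 ⟨mem_range.2 (X.wi_lt j _), (mem_filter.1 he).2⟩,
      mem_filter.2 ⟨(mem_filter.1 he).1, rfl⟩⟩).trans
    (sum_le_card_nsmul _ _ _ fun u _ => X.win_card j u)
  have e16 : (16 : ℝ) ^ j = (2 ^ j) ^ 4 := by rw [← pow_mul, mul_comm, pow_mul]; norm_num
  have e8 : (8 : ℝ) ^ j = (2 ^ j) ^ 3 := by rw [← pow_mul, mul_comm, pow_mul]; norm_num
  have c : (16 : ℝ) ^ j ≤ X.n * X.d := by
    rw [e16, X.n_eq, ← pow_succ]
    exact pow_le_pow_left₀ (by positivity) hj 4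
  rw [← le_div_iff₀ (by unfold sz; positivity)] at a
  have d : (X.F.card : ℝ) / 16 ^ j + 1 ≤ 25 * (X.n * X.d) / 16 ^ j := by
    rw [div_add_one (by positivity)]
    exact div_le_div_of_nonneg_right (by linarith [X.F_card]) (by positivity)
  rw [nsmul_eq_mul] at b
  refine b.trans ((mul_le_mul a d (by positivity) (by unfold sz; positivity)).trans (le_of_eq ?_))
  rw [sz, e16, e8]
  field_simp
  ring

theorem tame_Y (hj : (2 : ℝ) ^ j ≤ X.d) {g : ℝ} (hg : 1 ≤ g) (h1 : g ^ 3 ≤ K1) :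
    ∑ u ∈ range (16 ^ j), ((((X.act j u).filter fun p => ¬ X.Stay j u (K1 * X.sz j) p) ∪
      (X.act j u).filter fun p => K1 * X.d / 2 ^ j < X.rdeg j u p).card : ℝ) ≤
      408 * (2 ^ j * X.n / g) := by
  have hn := X.tame_n
  have hd := X.d_pos
  have h2 : g ≤ K1 := (le_self_pow₀ hg (by norm_num)).trans h1
  have h0 : 0 < K1 := by linarith
  have a : ∀ u, (((X.act j u).filter fun p => K1 * X.d / 2 ^ j < X.rdeg j u p).card : ℝ) ≤
      (X.win X.F j u).card / (K1 * X.d / 2 ^ j) := fun u => by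
    rw [le_div_iff₀ (by positivity)]
    refine (tame_markov _ _ _).trans ?_
    have := (sum_card_fiberwise_eq_card_filter (X.win X.F j u) (X.act j u) Prod.fst).trans_le
      (card_filter_le _ _)
    exact_mod_cast this
  have b : ∑ u ∈ range (16 ^ j), ((X.win X.F j u).card : ℝ) / (K1 * X.d / 2 ^ j) ≤
      24 * (2 ^ j * X.n / g) := by
    rw [← sum_div, ← Nat.cast_sum, X.sum_win]
    refine (div_le_div_of_nonneg_right X.F_card (by positivity)).trans ?_
    have : 24 * X.n * X.d / (K1 * X.d / 2 ^ j) = 24 * (2 ^ j * X.n / K1) := by field_simp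
    rw [this]
    gcongr
  have c := X.nonstay_sum j hj g K1 hg h1
  refine (sum_le_sum fun u _ => (Nat.cast_le.2 (card_union_le _ _)).trans
    ((Nat.cast_add _ _).trans_le (add_le_add le_rfl (a u)))).trans ?_
  rw [sum_add_distrib]
  refine (add_le_add c b).trans (le_of_eq ?_)
  ring

theorem tame_pts (hj : (2 : ℝ) ^ j ≤ X.d) (h0 : 0 < K1) :
    ((X.P.filter fun p => K1 * 2 ^ j < X.nact j p).card : ℝ) ≤ 1000 * (X.n / K1) := by
  have a : ∑ p ∈ X.P, X.nact j p ≤ ∑ u ∈ range (16 ^ j), (X.act j u).card := by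
    simp only [nact, card_filter]
    rw [sum_comm]
    refine sum_le_sum fun u _ => ?_
    rw [← card_filter]
    exact card_le_card fun p hp => (mem_filter.1 hp).2
  have b := (tame_markov X.P (X.nact j) (K1 * 2 ^ j)).trans
    (le_trans (by exact_mod_cast a) (X.act_sum j hj))
  rw [← le_div_iff₀ (by positivity)] at b
  refine b.trans (le_of_eq ?_)
  field_simp

theorem tame_low (hj : (2 : ℝ) ^ j ≤ X.d) (h0 : 0 < K1) :
    ((X.F.filter fun e => (X.rdeg j (X.wi j (sl e)) e.1 : ℝ) < X.d / (K1 * 2 ^ j)).card : ℝ) ≤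
      1000 * (X.n * X.d / K1) := by
  have hd := X.d_pos
  obtain ⟨t, ht⟩ : ∃ t, t = X.d / (K1 * 2 ^ j) := ⟨_, rfl⟩
  have t0 : 0 ≤ t := by rw [ht]; positivity
  rw [← ht]
  have a : ∀ u, (((X.win X.F j u).filter fun e => (X.rdeg j u e.1 : ℝ) < t).card : ℝ) ≤
      (X.act j u).card * t := fun u =>
    tame_fib (X.win X.F j u) (X.act j u) Prod.fst (X.rdeg j u) t0
      (fun e he => mem_ends.2 ⟨e, he, Or.inl rfl⟩) fun p => le_rfl
  have b : ((X.F.filter fun e => (X.rdeg j (X.wi j (sl e)) e.1 : ℝ) < t).card : ℝ) ≤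
      ∑ u ∈ range (16 ^ j),
        (((X.win X.F j u).filter fun e => (X.rdeg j u e.1 : ℝ) < t).card : ℝ) := by
    refine tame_bi fun e he => ?_
    obtain ⟨h1, h2⟩ := mem_filter.1 he
    refine ⟨X.wi j (sl e), mem_range.2 (X.wi_lt j _), ?_⟩
    refine mem_filter.2 ⟨?_, h2⟩
    exact mem_filter.2 ⟨h1, rfl⟩
  refine b.trans ((sum_le_sum fun u _ => a u).trans ?_)
  rw [← sum_mul]
  refine (mul_le_mul_of_nonneg_right (X.act_sum j hj) t0).trans (le_of_eq ?_)
  rw [ht]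
  field_simp

end Cfg

theorem Cfg.tame_most : ∃ c : ℕ, ∀ (X : Cfg) (K K1 : ℝ) (j : ℕ), X.Big K → K ^ c ≤ K1 →
    2 ^ j * K ^ c ≤ X.d →
    (X.miss j (fun u => X.P.filter fun p => X.Tame K1 j u p) : ℝ) ≤ X.n * X.d / K := by
  obtain ⟨c1, hs⟩ := Cfg.small
  refine ⟨15 * c1 + 30, fun X K K1 j hB hK hj => ?_⟩
  have K2 := hB.1
  have K1' : (1 : ℝ) ≤ K := by linarith
  have hn := X.tame_n
  have hd := X.d_pos
  have p10 : (1024 : ℝ) ≤ K ^ 10 := le_trans (by norm_num) (pow_le_pow_left₀ zero_le_two K2 10)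
  have p17 : (131072 : ℝ) ≤ K ^ 17 := le_trans (by norm_num) (pow_le_pow_left₀ zero_le_two K2 17)
  have p3 : (8 : ℝ) ≤ K ^ 3 := le_trans (by norm_num) (pow_le_pow_left₀ zero_le_two K2 3)
  obtain ⟨q, hq⟩ : ∃ q, q = (K ^ 5) ^ c1 := ⟨_, rfl⟩
  have q1 : 1 ≤ q := hq ▸ one_le_pow₀ (one_le_pow₀ K1')
  have g1 : 1 ≤ q * K ^ 10 := by nlinarith
  have g3 : (q * K ^ 10) ^ 3 = K ^ (15 * c1 + 30) := by rw [hq]; ring
  have g4 : q * K ^ 10 ≤ K ^ (15 * c1 + 30) := g3 ▸ le_self_pow₀ g1 (by norm_num)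
  have g5 : q ≤ K ^ (15 * c1 + 30) := le_trans (by nlinarith) g4
  have k1 : 1 ≤ K1 := g1.trans (g4.trans hK)
  have k19 : K ^ 19 ≤ K1 := (pow_le_pow_right₀ K1' (by omega)).trans hK
  have K5 : 2 ≤ K ^ 5 := K2.trans (le_self_pow₀ K1' (by norm_num))
  have sc : ∀ i ≤ j, (2 : ℝ) ^ i * q ≤ X.d := fun i hi =>
    (mul_le_mul (pow_le_pow_right₀ one_le_two hi) g5 (by linarith) (by positivity)).trans hj
  have sc' : ∀ i ≤ j, (2 : ℝ) ^ i ≤ X.d := fun i hi =>
    (le_mul_of_one_le_right (by positivity) q1).trans (sc i hi)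
  have dv : ∀ {a y z : ℝ}, 0 ≤ y → a ≤ 1024 → q * K ^ 10 ≤ z → a * (y / z) ≤ y / q := by
    intro a y z hy ha hz
    rw [← mul_div_assoc, div_le_div_iff₀ (by linarith) (by linarith)]
    have h1 : a * q ≤ z := by nlinarith
    nlinarith [mul_le_mul_of_nonneg_left h1 hy]
  have key : ∀ i ≤ j, ((X.F.filter fun e => ¬ X.Reg K1 i (X.wi i (sl e)) e.1).card : ℝ) ≤
      25000 * (X.n * X.d / K1) + 2 * (X.n * X.d / K ^ 5) := by
    intro i hi
    have a1 := X.tame_nice (sc' i hi) k1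
    have a2 := hs X (K ^ 5) i _ K5 (hq ▸ sc i hi)
      (hq ▸ (X.tame_Y (sc' i hi) g1 (g3.trans_le hK)).trans (dv (by positivity) (by norm_num) le_rfl))
    have a3 := hs X (K ^ 5) 0 (fun _ => X.P.filter fun p => K1 * 2 ^ i < X.nact i p) K5
      (hq ▸ sc 0 (Nat.zero_le _)) (by
        rw [pow_zero, pow_zero, sum_range_one, one_mul, ← hq]
        exact (X.tame_pts (sc' i hi) (by linarith)).trans (dv hn.le (by norm_num) (g4.trans hK)))
    refine le_trans ?_ ((add_le_add a1 (add_le_add a2 a3)).trans (le_of_eq (by ring)))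
    rw [← Nat.cast_add, ← Nat.cast_add, Nat.cast_le]
    refine (card_le_card fun e he => ?_).trans ((card_union_le _ _).trans
      (Nat.add_le_add_left (card_union_le _ _) _))
    obtain ⟨e1, e2⟩ := mem_filter.1 he
    by_contra hc
    simp only [mem_union, mem_filter, e1, X.tame_act e1 i, (mem_prs.1 (X.F_sub e1)).1, true_and,
      not_or, not_lt, not_not] at hc
    exact e2 ⟨hc.1, hc.2.1.1.1, hc.2.1.1.2, hc.2.2.1⟩
  have b1 := (tame_bi (G := X.F.filter fun e => ∃ i ≤ j, ¬ X.Reg K1 i (X.wi i (sl e)) e.1)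
    (s := range (j + 1)) (f := fun i => X.F.filter fun e => ¬ X.Reg K1 i (X.wi i (sl e)) e.1)
    fun e he => by
      obtain ⟨e1, i, hi, e2⟩ := mem_filter.1 he
      exact ⟨i, mem_range.2 (by omega), mem_filter.2 ⟨e1, e2⟩⟩).trans
    (sum_le_card_nsmul _ _ _ fun i hi => key i (Nat.lt_succ_iff.1 (mem_range.1 hi)))
  rw [card_range, nsmul_eq_mul, Nat.cast_succ] at b1
  have b2 := b1.trans (mul_le_mul_of_nonneg_right (hB.scales (sc' j le_rfl)) (by positivity))
  have b3 := X.tame_low (sc' j le_rfl) (K1 := K1) (by linarith)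
  have b4 : X.miss j (fun u => X.P.filter fun p => X.Tame K1 j u p) ≤
      (X.F.filter fun e => ∃ i ≤ j, ¬ X.Reg K1 i (X.wi i (sl e)) e.1).card +
      (X.F.filter fun e => (X.rdeg j (X.wi j (sl e)) e.1 : ℝ) < X.d / (K1 * 2 ^ j)).card := by
    refine (card_le_card fun e he => ?_).trans (card_union_le _ _)
    obtain ⟨e1, e2⟩ := mem_filter.1 he
    have e3 := (mem_prs.1 (X.F_sub e1)).1
    by_contra hc
    simp only [mem_union, mem_filter, e1, true_and, not_or, not_lt, not_exists, not_and,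
      not_not] at hc
    exact e2 (mem_filter.2 ⟨e3, e3, X.wi_lt j _, fun i hi => X.wi_anc hi _ ▸ hc.1 i hi, hc.2⟩)
  have b5 := (Nat.cast_le (α := ℝ)).2 b4
  rw [Nat.cast_add] at b5
  obtain ⟨y, hy⟩ : ∃ y, y = X.n * X.d / K := ⟨_, rfl⟩
  have y0 : 0 < y := by rw [hy]; positivity
  have c1' : K * (X.n * X.d / K1) ≤ y / 131072 := by
    rw [hy, ← mul_div_assoc, div_div, div_le_div_iff₀ (by linarith) (by positivity)]
    have h1 : K * (K * 131072) ≤ K1 := le_trans (by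
      have := mul_le_mul_of_nonneg_left p17 (sq_nonneg K)
      nlinarith) k19
    nlinarith [mul_le_mul_of_nonneg_left h1 (mul_pos hn hd).le]
  have c2 : K * (X.n * X.d / K ^ 5) ≤ y / 8 := by
    rw [hy, ← mul_div_assoc, div_div, div_le_div_iff₀ (by linarith) (by positivity)]
    have h1 : K * (K * 8) ≤ K ^ 5 := by
      have := mul_le_mul_of_nonneg_left p3 (sq_nonneg K)
      nlinarith
    nlinarith [mul_le_mul_of_nonneg_left h1 (mul_pos hn hd).le]
  have c3 : X.n * X.d / K1 ≤ K * (X.n * X.d / K1) := le_mul_of_one_le_left (by positivity) K1'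
  rw [← hy]
  linarith

end Vale.Agent.P065.U
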