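import Vale.Agent.P065.U.Exc

/-!
P065/U task TokEx: tokens exist.

Proof. Fix the level a. Sort the edges of level a by slope (distinct, `sl_inj`): e_0, ..., e_(r-1).
For generic θ let S θ = {p ∈ P | rk θ p ≤ a}. By `exc`, S is unchanged between two generic slopes with
no level-a slope between them, and across sl e_j it loses e_j.1 and gains e_j.2 (just before the slope
the ranks of e_j.1, e_j.2 are a, a+1, just after they are a+1, a; other points keep their membership).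
lab a = S θ0 for θ0 below all slopes. Define step j c by recursion: step 0 c = c,
step (j+1) c = if step j c = e_j.1 then e_j.2 else step j c. Invariant: step j maps lab a bijectively
onto S θ for generic θ between sl e_(j-1) and sl e_j. pos a c θ = step (card {j | sl e_j < θ}) c, and
ch a e_j = the c ∈ lab a with step j c = e_j.1. Build the data level by level and use choice.
-/

namespace Vale.Agent.P065.U

open Finset Classical

/-- Number of edges of `E` with slope below `θ`. -/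
noncomputable def tkIdx (E : Finset Ed) (θ : ℝ) : ℕ := (E.filter fun e => sl e < θ).card

theorem tkIdx_mono (E : Finset Ed) {θ θ' : ℝ} (h : θ ≤ θ') : tkIdx E θ ≤ tkIdx E θ' :=
  card_le_card fun _ he => mem_filter.mpr ⟨(mem_filter.mp he).1, lt_of_lt_of_le (mem_filter.mp he).2 h⟩

theorem tkIdx_lt {E : Finset Ed} {e : Ed} (he : e ∈ E) {θ θ' : ℝ} (h : θ ≤ sl e) (h' : sl e < θ') :
    tkIdx E θ < tkIdx E θ' := by
  refine card_lt_card ⟨fun f hf => mem_filter.mpr ⟨(mem_filter.mp hf).1, ?_⟩, fun c => ?_⟩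
  · exact lt_trans (lt_of_lt_of_le (mem_filter.mp hf).2 h) h'
  · exact absurd (mem_filter.mp (c (mem_filter.mpr ⟨he, h'⟩))).2 (not_lt.mpr h)

/-- The move at time `j`. -/
noncomputable def tkMv (E : Finset Ed) (j : ℕ) (x : Pt) : Pt :=
  if h : ∃ e ∈ E, tkIdx E (sl e) = j ∧ e.1 = x then (choose h).2 else x

/-- Position after `j` moves. -/
noncomputable def tkStep (E : Finset Ed) : ℕ → Pt → Pt
  | 0, c => c
  | j + 1, c => tkMv E j (tkStep E j c)

theorem tkIdx_inj {E : Finset Ed} (hinj : ∀ e ∈ E, ∀ e' ∈ E, sl e = sl e' → e = e') {e e' : Ed}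
    (he : e ∈ E) (he' : e' ∈ E) (h : tkIdx E (sl e) = tkIdx E (sl e')) : e = e' := by
  rcases lt_trichotomy (sl e) (sl e') with c | c | c
  · exact absurd h (tkIdx_lt he le_rfl c).ne
  · exact hinj e he e' he' c
  · exact absurd h (tkIdx_lt he' le_rfl c).ne'

theorem tkMv_at {E : Finset Ed} (hinj : ∀ e ∈ E, ∀ e' ∈ E, sl e = sl e' → e = e') {e : Ed}
    (he : e ∈ E) : tkMv E (tkIdx E (sl e)) e.1 = e.2 := by
  have h : ∃ f ∈ E, tkIdx E (sl f) = tkIdx E (sl e) ∧ f.1 = e.1 := ⟨e, he, rfl, rfl⟩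
  unfold tkMv
  rw [dif_pos h]
  obtain ⟨a1, a2, -⟩ := choose_spec h
  rw [tkIdx_inj hinj a1 he a2]

theorem tkMv_not {E : Finset Ed} {j : ℕ} {x : Pt}
    (h : ¬ ∃ e ∈ E, tkIdx E (sl e) = j ∧ e.1 = x) : tkMv E j x = x := by
  unfold tkMv
  rw [dif_neg h]

theorem tkIdx_succ {E : Finset Ed} (hinj : ∀ e ∈ E, ∀ e' ∈ E, sl e = sl e' → e = e') {θ : ℝ}
    {j : ℕ} (h : tkIdx E θ = j + 1) : ∃ e ∈ E, tkIdx E (sl e) = j := by
  have h0 : (E.filter fun e => sl e < θ).Nonempty := by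
    rw [← card_pos]
    unfold tkIdx at h
    omega
  obtain ⟨e, he, hm⟩ := exists_max_image _ sl h0
  obtain ⟨a1, a2⟩ := mem_filter.mp he
  refine ⟨e, a1, ?_⟩
  have a3 : (E.filter fun f => sl f < sl e) = (E.filter fun e => sl e < θ).erase e := by
    ext f
    rw [mem_erase, mem_filter, mem_filter]
    constructor
    · rintro ⟨b1, b2⟩
      exact ⟨fun c => by rw [c] at b2; exact lt_irrefl _ b2, b1, b2.trans a2⟩
    · rintro ⟨b1, b2, b3⟩
      exact ⟨b2, lt_of_le_of_ne (hm f (mem_filter.mpr ⟨b2, b3⟩)) fun c => b1 (hinj f b2 e a1 c)⟩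
  unfold tkIdx at h ⊢
  rw [a3, card_erase_of_mem he, h]
  rfl

/-- The invariant: the tokens occupy exactly the state set. -/
theorem tk_inv {E : Finset Ed} (hinj : ∀ e ∈ E, ∀ e' ∈ E, sl e = sl e' → e = e')
    (S : ℝ → Finset Pt)
    (hC : ∀ θ θ', θ ≤ θ' → (∀ e ∈ E, ¬ (θ ≤ sl e ∧ sl e < θ')) → S θ = S θ')
    (hJ : ∀ e ∈ E, ∀ θ, sl e < θ → (∀ e' ∈ E, ¬ (sl e < sl e' ∧ sl e' < θ)) →
      S θ = insert e.2 ((S (sl e)).erase e.1))
    (hM : ∀ e ∈ E, e.1 ∈ S (sl e) ∧ e.2 ∉ S (sl e)) (θ0 : ℝ) (h0 : tkIdx E θ0 = 0) (j : ℕ) :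
    (∀ c ∈ S θ0, ∀ c' ∈ S θ0, tkStep E j c = tkStep E j c' → c = c') ∧
      ∀ θ, tkIdx E θ = j → (S θ0).image (tkStep E j) = S θ := by
  have hC' : ∀ θ θ', tkIdx E θ = tkIdx E θ' → S θ = S θ' := by
    intro θ θ' h
    rcases le_total θ θ' with c | c
    · exact hC θ θ' c fun e he d => absurd h (tkIdx_lt he d.1 d.2).ne
    · exact (hC θ' θ c fun e he d => absurd h (tkIdx_lt he d.1 d.2).ne').symm
  induction j with
  | zero =>
    refine ⟨fun c _ c' _ h => h, fun θ h => ?_⟩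
    rw [← hC' θ0 θ (h0.trans h.symm)]
    exact image_id'
  | succ j ih =>
    obtain ⟨i1, i2⟩ := ih
    by_cases hex : ∃ e ∈ E, tkIdx E (sl e) = j
    · obtain ⟨e, he, hj⟩ := hex
      have i3 := i2 _ hj
      have m1 : tkMv E j e.1 = e.2 := by rw [← hj]; exact tkMv_at hinj he
      have m2 : ∀ x, x ≠ e.1 → tkMv E j x = x := by
        intro x hx
        refine tkMv_not ?_
        rintro ⟨f, a1, a2, a3⟩
        rw [tkIdx_inj hinj a1 he (a2.trans hj.symm)] at a3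
        exact hx a3.symm
      have m3 : ∀ c ∈ S θ0, tkStep E j c ∈ S (sl e) := fun c hc => by
        rw [← i3]
        exact mem_image_of_mem _ hc
      constructor
      · intro c hc c' hc' h
        have h' : tkMv E j (tkStep E j c) = tkMv E j (tkStep E j c') := h
        refine i1 c hc c' hc' ?_
        by_cases d : tkStep E j c = e.1 <;> by_cases d' : tkStep E j c' = e.1
        · exact d.trans d'.symm
        · rw [d, m1, m2 _ d'] at h'
          exact absurd (h' ▸ m3 c' hc') (hM e he).2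
        · rw [d', m1, m2 _ d] at h'
          exact absurd (h' ▸ m3 c hc) (hM e he).2
        · rwa [m2 _ d, m2 _ d'] at h'
      · intro θ hθ
        have a1 : sl e < θ := by
          by_contra c
          have := tkIdx_mono E (not_lt.mp c)
          omega
        rw [hJ e he θ a1 fun e' he' d => by
          have b1 := tkIdx_lt he le_rfl d.1
          have b2 := tkIdx_lt he' le_rfl d.2
          omega]
        ext x
        rw [mem_insert, mem_erase, mem_image]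
        constructor
        · rintro ⟨c, hc, rfl⟩
          show tkMv E j (tkStep E j c) = e.2 ∨ tkMv E j (tkStep E j c) ≠ e.1 ∧
            tkMv E j (tkStep E j c) ∈ S (sl e)
          by_cases d : tkStep E j c = e.1
          · rw [d, m1]
            exact Or.inl rfl
          · rw [m2 _ d]
            exact Or.inr ⟨d, m3 c hc⟩
        · rintro (rfl | ⟨b1, b2⟩)
          · have b3 := (hM e he).1
            rw [← i3] at b3
            obtain ⟨c, hc, b4⟩ := mem_image.mp b3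
            refine ⟨c, hc, ?_⟩
            show tkMv E j (tkStep E j c) = e.2
            rw [b4, m1]
          · rw [← i3] at b2
            obtain ⟨c, hc, b4⟩ := mem_image.mp b2
            refine ⟨c, hc, ?_⟩
            show tkMv E j (tkStep E j c) = x
            rw [b4, m2 _ b1]
    · refine ⟨fun c hc c' hc' h => ?_, fun θ h => absurd (tkIdx_succ hinj h) hex⟩
      have h' : tkMv E j (tkStep E j c) = tkMv E j (tkStep E j c') := h
      rw [tkMv_not fun ⟨f, a1, a2, _⟩ => hex ⟨f, a1, a2⟩,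
        tkMv_not fun ⟨f, a1, a2, _⟩ => hex ⟨f, a1, a2⟩] at h'
      exact i1 c hc c' hc' h'

/-- Tokens from a state function. -/
theorem tk_abs {E : Finset Ed} (hinj : ∀ e ∈ E, ∀ e' ∈ E, sl e = sl e' → e = e')
    (S : ℝ → Finset Pt)
    (hC : ∀ θ θ', θ ≤ θ' → (∀ e ∈ E, ¬ (θ ≤ sl e ∧ sl e < θ')) → S θ = S θ')
    (hJ : ∀ e ∈ E, ∀ θ, sl e < θ → (∀ e' ∈ E, ¬ (sl e < sl e' ∧ sl e' < θ)) →
      S θ = insert e.2 ((S (sl e)).erase e.1))
    (hM : ∀ e ∈ E, e.1 ∈ S (sl e) ∧ e.2 ∉ S (sl e)) :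
    ∃ (lab : Finset Pt) (pos : Pt → ℝ → Pt) (ch : Ed → Pt), (∃ θ, lab = S θ) ∧
      (∀ c ∈ lab, ∀ θ, pos c θ ∈ S θ) ∧
      (∀ c ∈ lab, ∀ c' ∈ lab, ∀ θ, pos c θ = pos c' θ → c = c') ∧
      (∀ e ∈ E, ch e ∈ lab) ∧ (∀ e ∈ E, pos (ch e) (sl e) = e.1) ∧
      (∀ e ∈ E, ∀ θ, sl e < θ →
        (∀ e' ∈ E, ch e' = ch e → ¬ (sl e < sl e' ∧ sl e' < θ)) → pos (ch e) θ = e.2) ∧
      ∀ c ∈ lab, ∀ θ θ', θ ≤ θ' →
        (∀ e ∈ E, ch e = c → ¬ (θ ≤ sl e ∧ sl e < θ')) → pos c θ = pos c θ' := by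
  obtain ⟨θ0, hθ0⟩ : ∃ θ0, tkIdx E θ0 = 0 := by
    obtain ⟨b, hb⟩ := (E.image sl).bddBelow
    refine ⟨b, ?_⟩
    unfold tkIdx
    rw [card_eq_zero, filter_eq_empty_iff]
    intro e he
    exact not_lt.mpr (hb (mem_coe.mpr (mem_image_of_mem _ he)))
  have inv := tk_inv hinj S hC hJ hM θ0 hθ0
  have ex : ∀ e : Ed, ∃ c, e ∈ E → c ∈ S θ0 ∧ tkStep E (tkIdx E (sl e)) c = e.1 := by
    intro e
    by_cases he : e ∈ E
    · have b3 := (hM e he).1
      rw [← (inv _).2 (sl e) rfl] at b3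
      obtain ⟨c, hc, b4⟩ := mem_image.mp b3
      exact ⟨c, fun _ => ⟨hc, b4⟩⟩
    · exact ⟨e.1, fun h => absurd h he⟩
  choose ch hch using ex
  have K : ∀ c ∈ S θ0, ∀ j j', j ≤ j' →
      (∀ e ∈ E, j ≤ tkIdx E (sl e) → tkIdx E (sl e) < j' → ch e ≠ c) →
      tkStep E j c = tkStep E j' c := by
    intro c hc j j' hj
    induction j', hj using Nat.le_induction with
    | base => exact fun _ => rfl
    | succ k hk ih =>
      intro h
      rw [ih fun e he a b => h e he a (by omega)]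
      refine (tkMv_not ?_).symm
      rintro ⟨e, a1, a2, a3⟩
      refine h e a1 (by omega) (by omega) ((inv k).1 _ (hch e a1).1 c hc ?_)
      rw [← a3, ← a2]
      exact (hch e a1).2
  refine ⟨S θ0, fun c θ => tkStep E (tkIdx E θ) c, ch, ⟨θ0, rfl⟩, fun c hc θ => ?_,
    fun c hc c' hc' θ h => (inv _).1 c hc c' hc' h, fun e he => (hch e he).1,
    fun e he => (hch e he).2, fun e he θ h1 h2 => ?_, fun c hc θ θ' h1 h2 => ?_⟩
  · rw [← (inv _).2 θ rfl]
    exact mem_image_of_mem _ hc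
  · show tkStep E (tkIdx E θ) (ch e) = e.2
    rw [← K _ (hch e he).1 (tkIdx E (sl e) + 1) _ (tkIdx_lt he le_rfl h1) fun f hf a b c => ?_]
    · show tkMv E (tkIdx E (sl e)) (tkStep E (tkIdx E (sl e)) (ch e)) = e.2
      rw [(hch e he).2, tkMv_at hinj he]
    · refine h2 f hf c ⟨?_, ?_⟩
      · by_contra d
        have := tkIdx_mono E (not_lt.mp d)
        omega
      · by_contra d
        have := tkIdx_mono E (not_lt.mp d)
        omega
  · refine K c hc _ _ (tkIdx_mono E h1) fun f hf a b d => h2 f hf d ⟨?_, ?_⟩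
    · by_contra d
      have := tkIdx_lt hf le_rfl (not_le.mp d)
      omega
    · by_contra d
      have := tkIdx_mono E (not_lt.mp d)
      omega

theorem tk_gap (E : Finset Ed) (θ : ℝ) : ∃ g, g < θ ∧ ∀ e ∈ E, ¬ (g ≤ sl e ∧ sl e < θ) := by
  rcases (E.filter fun e => sl e < θ).eq_empty_or_nonempty with h | h
  · refine ⟨θ - 1, by linarith, fun e he d => ?_⟩
    exact filter_eq_empty_iff.mp h he d.2
  · obtain ⟨e, he, hm⟩ := exists_max_image _ sl h
    have a1 := (mem_filter.mp he).2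
    refine ⟨(sl e + θ) / 2, by linarith, fun f hf d => ?_⟩
    have := hm f (mem_filter.mpr ⟨hf, d.2⟩)
    linarith [d.1]

/-- Ranks of the two ends `u`, `v` of a tie at a nearby slope where `u` is below `v`. -/
theorem tk_near {P : Finset Pt} (hP : Gen P) {u v : Pt} (hu : u ∈ P) (hv : v ∈ P) (huv : u ≠ v)
    {θ : ℝ} (h : fv θ u = fv θ v) :
    ∀ᶠ t in nhds θ, fv t u < fv t v → rk P t u ≤ rk P θ u ∧ rk P θ u < rk P t v := by
  refine ((fv_near P u θ).and (fv_near P v θ)).mono fun t ⟨h1, h2⟩ h3 => ⟨?_, ?_⟩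
  · unfold rk
    refine card_le_card fun q hq => ?_
    obtain ⟨a1, a2⟩ := mem_filter.mp hq
    refine mem_filter.mpr ⟨a1, ?_⟩
    rcases lt_trichotomy (fv θ q) (fv θ u) with c | c | c
    · exact c
    · exfalso
      refine hP.ncol u hu v hv q a1 θ huv (fun d => ?_) (fun d => ?_) h c.symm
      · rw [d] at a2
        exact lt_irrefl _ a2
      · rw [← d] at a2
        exact lt_asymm a2 h3
    · exact absurd ((h1 q a1).2 c) (not_lt.mpr a2.le)
  · unfold rk
    refine card_lt_card ⟨fun q hq => ?_, fun c => ?_⟩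
    · obtain ⟨a1, a2⟩ := mem_filter.mp hq
      exact mem_filter.mpr ⟨a1, (h2 q a1).1 (h ▸ a2)⟩
    · exact lt_irrefl _ (mem_filter.mp (c (mem_filter.mpr ⟨hu, h3⟩))).2

/-- Membership in the lowest `a + 1` points agrees at two slopes unless an edge intervenes. -/
theorem tk_same {P : Finset Pt} (hP : Gen P) {p : Pt} (hp : p ∈ P) {a : ℕ} {s t : ℝ}
    (h : ∀ e ∈ edges P a, (e.1 = p ∨ e.2 = p) → ¬ (min s t ≤ sl e ∧ sl e ≤ max s t)) :
    rk P s p ≤ a ↔ rk P t p ≤ a := by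
  constructor
  · intro h1
    by_contra h2
    obtain ⟨e, a1, a2, a3⟩ := exc hP hp h1 (not_le.mp h2)
    exact h e a1 a2 a3
  · intro h1
    by_contra h2
    obtain ⟨e, a1, a2, a3⟩ := exc hP hp h1 (not_le.mp h2)
    rw [min_comm, max_comm] at a3
    exact h e a1 a2 a3

theorem tk_before {P : Finset Pt} (hP : Gen P) {a : ℕ} {e : Ed} (he : e ∈ edges P a) {g : ℝ}
    (hg : g < sl e) (h : ∀ f ∈ edges P a, ¬ (g ≤ sl f ∧ sl f < sl e)) :
    rk P g e.1 ≤ a ∧ ¬ rk P g e.2 ≤ a := by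
  obtain ⟨a1, a2⟩ := mem_filter.mp he
  obtain ⟨a3, a4, a5⟩ := mem_prs.mp a1
  have n1 : e.1 ≠ e.2 := fun c => by rw [c] at a5; exact lt_irrefl _ a5
  have b1 := (tk_near hP a3 a4 n1 (fv_sl a5)).filter_mono (nhdsWithin_le_nhds (s := Set.Iio (sl e)))
  obtain ⟨t, t1, t2, t3⟩ := (b1.and (Ioo_mem_nhdsLT hg)).exists
  obtain ⟨t4, t5⟩ := t1 ((fv_lt_iff a5 t).mpr t3)
  have key : ∀ f ∈ edges P a, ¬ (min g t ≤ sl f ∧ sl f ≤ max g t) := by
    intro f hf d
    rw [min_eq_left t2.le, max_eq_right t2.le] at d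
    exact h f hf ⟨d.1, lt_of_le_of_lt d.2 t3⟩
  unfold lev at a2
  rw [tk_same hP a3 fun f hf _ => key f hf, tk_same hP a4 fun f hf _ => key f hf]
  omega

theorem tk_after {P : Finset Pt} (hP : Gen P) {a : ℕ} {e : Ed} (he : e ∈ edges P a) {g : ℝ}
    (hg : sl e < g) (h : ∀ f ∈ edges P a, ¬ (sl e < sl f ∧ sl f ≤ g)) :
    rk P g e.2 ≤ a ∧ ¬ rk P g e.1 ≤ a := by
  obtain ⟨a1, a2⟩ := mem_filter.mp he
  obtain ⟨a3, a4, a5⟩ := mem_prs.mp a1
  have n1 : e.2 ≠ e.1 := fun c => by rw [c] at a5; exact lt_irrefl _ a5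
  have b1 := (tk_near hP a4 a3 n1 (fv_sl a5).symm).filter_mono
    (nhdsWithin_le_nhds (s := Set.Ioi (sl e)))
  obtain ⟨t, t1, t2, t3⟩ := (b1.and (Ioo_mem_nhdsGT hg)).exists
  obtain ⟨t4, t5⟩ := t1 ((fv_gt_iff a5 t).mpr t2)
  have key : ∀ f ∈ edges P a, ¬ (min g t ≤ sl f ∧ sl f ≤ max g t) := by
    intro f hf d
    rw [min_eq_right t3.le, max_eq_left t3.le] at d
    exact h f hf ⟨lt_of_lt_of_le t2 d.1, d.2⟩
  rw [rk_right a1, a2] at t4 t5
  rw [tk_same hP a3 fun f hf _ => key f hf, tk_same hP a4 fun f hf _ => key f hf]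
  omega

theorem tk_level {P : Finset Pt} (hP : Gen P) (a : ℕ) :
    ∃ (lab : Finset Pt) (pos : Pt → ℝ → Pt) (ch : Ed → Pt), lab ⊆ P ∧
      (∀ c ∈ lab, ∀ θ, pos c θ ∈ P) ∧
      (∀ c ∈ lab, ∀ c' ∈ lab, ∀ θ, pos c θ = pos c' θ → c = c') ∧
      (∀ e ∈ edges P a, ch e ∈ lab) ∧ (∀ e ∈ edges P a, pos (ch e) (sl e) = e.1) ∧
      (∀ e ∈ edges P a, ∀ θ, sl e < θ →
        (∀ e' ∈ edges P a, ch e' = ch e → ¬ (sl e < sl e' ∧ sl e' < θ)) → pos (ch e) θ = e.2) ∧
      ∀ c ∈ lab, ∀ θ θ', θ ≤ θ' →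
        (∀ e ∈ edges P a, ch e = c → ¬ (θ ≤ sl e ∧ sl e < θ')) → pos c θ = pos c θ' := by
  choose g hg1 hg2 using tk_gap (edges P a)
  obtain ⟨lab, pos, ch, ⟨θ0, h1⟩, h2, h3⟩ := tk_abs (E := edges P a)
    (fun e he e' he' => sl_inj hP he he') (fun θ => P.filter fun p => rk P (g θ) p ≤ a)
    (fun θ θ' h1 h2 => filter_congr fun p hp => tk_same hP hp fun f hf _ d => by
      have b1 : sl f < θ' := lt_of_le_of_lt d.2 (max_lt (lt_of_lt_of_le (hg1 θ) h1) (hg1 θ'))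
      rcases lt_or_ge (sl f) θ with c | c
      · rcases min_le_iff.mp d.1 with c' | c'
        · exact hg2 θ f hf ⟨c', c⟩
        · exact hg2 θ' f hf ⟨c', b1⟩
      · exact h2 f hf ⟨c, b1⟩)
    (fun e he θ h1 h2 => by
      obtain ⟨a3, a4, a5⟩ := mem_prs.mp (mem_filter.mp he).1
      have b0 : sl e < g θ := by
        by_contra c
        exact hg2 θ e he ⟨not_lt.mp c, h1⟩
      obtain ⟨b1, b2⟩ := tk_after hP he b0 fun f hf d =>
        h2 f hf ⟨d.1, lt_of_le_of_lt d.2 (hg1 θ)⟩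
      ext p
      rw [mem_insert, mem_erase, mem_filter, mem_filter]
      by_cases c2 : p = e.2
      · rw [c2]
        exact ⟨fun _ => Or.inl rfl, fun _ => ⟨a4, b1⟩⟩
      by_cases c1 : p = e.1
      · rw [c1] at c2 ⊢
        exact ⟨fun d => absurd d.2 b2, fun d => d.elim (fun d => absurd d c2) fun d => absurd rfl d.1⟩
      have key : p ∈ P → (rk P (g θ) p ≤ a ↔ rk P (g (sl e)) p ≤ a) := by
        intro hp
        refine tk_same hP hp fun f hf d1 d => ?_
        have b3 : g (sl e) ≤ g θ := le_of_lt ((hg1 _).trans b0)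
        rw [min_eq_right b3, max_eq_left b3] at d
        rcases lt_trichotomy (sl f) (sl e) with c | c | c
        · exact hg2 _ f hf ⟨d.1, c⟩
        · rw [sl_inj hP hf he c] at d1
          exact d1.elim (fun d => c1 d.symm) fun d => c2 d.symm
        · exact h2 f hf ⟨c, lt_of_le_of_lt d.2 (hg1 θ)⟩
      constructor
      · rintro ⟨d1, d2⟩
        exact Or.inr ⟨c1, d1, (key d1).mp d2⟩
      · rintro (d | ⟨-, d1, d2⟩)
        · exact absurd d c2
        · exact ⟨d1, (key d1).mpr d2⟩)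
    (fun e he => by
      obtain ⟨a3, a4, a5⟩ := mem_prs.mp (mem_filter.mp he).1
      obtain ⟨b1, b2⟩ := tk_before hP he (hg1 _) (hg2 _)
      exact ⟨mem_filter.mpr ⟨a3, b1⟩, fun d => b2 (mem_filter.mp d).2⟩)
  refine ⟨lab, pos, ch, ?_, fun c hc θ => (mem_filter.mp (h2 c hc θ)).1, h3⟩
  rw [h1]
  exact filter_subset _ _

theorem exists_tok {P : Finset Pt} (hP : Gen P) : Nonempty (Tok P) := by
  choose lab pos ch h using tk_level hP
  exact ⟨⟨lab, pos, ch, fun a => (h a).1, fun a => (h a).2.1, fun a => (h a).2.2.1,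
    fun a => (h a).2.2.2.1, fun a => (h a).2.2.2.2.1, fun a => (h a).2.2.2.2.2.1,
    fun a => (h a).2.2.2.2.2.2⟩⟩

end Vale.Agent.P065.U
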