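import Vale.Agent.P065.U.Core
import Vale.Agent.P065.U.Level
import Vale.Agent.P065.U.Reduce

/-!
P065/U: the upper bounds with a power saving.
-/

namespace Vale.Agent.P065.U

open Finset

theorem upper : ∃ ε C : ℝ, 0 < ε ∧
    (∀ P : Finset (ℝ × ℝ), NoThreeCollinear P →
      (halvingCount P : ℝ) ≤ C * (P.card : ℝ) ^ (4 / 3 - ε)) ∧
    (∀ (P : Finset (ℝ × ℝ)) (k : ℕ), NoThreeCollinear P → 1 ≤ k → k < P.card →
      (kSetCount P k : ℝ) ≤ C * (P.card : ℝ) * (k : ℝ) ^ (1 / 3 - ε)) := by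
  obtain ⟨ε, C, h0, h1, hC, h⟩ := edges_le
  obtain ⟨C', hC', h'⟩ := level_le h0 h1 hC h
  refine ⟨ε, C + 2 * C' + 2, h0, fun P hP => ?_, fun P k hP hk hn => ?_⟩
  · obtain ⟨P', hg, hc, hh, -⟩ := exists_gen P hP
    have a1 : (halvingCount P' : ℝ) ≤ (edges P' ((P'.card - 2) / 2)).card := by
      exact_mod_cast halving_le hg
    have a2 := h P' ((P'.card - 2) / 2) hg
    have a3 : (0 : ℝ) ≤ (P.card : ℝ) ^ (4 / 3 - ε) := by positivity
    rw [← hh]
    rw [hc] at a2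
    rw [hc] at a1
    nlinarith
  · obtain ⟨P', hg, hc, -, hh⟩ := exists_gen P hP
    have a1 : (kSetCount P' k : ℝ) ≤
        (edges P' (k - 1)).card + (edges (refl P') (k - 1)).card + 2 := by
      exact_mod_cast kset_le hg hk
    have a2 := h' P' (k - 1) hg
    have a3 := h' (refl P') (k - 1) hg.refl
    have e1 : ((k - 1 : ℕ) : ℝ) + 1 = k := by
      rw [Nat.cast_sub hk]; simp
    rw [refl_card] at a3
    rw [e1, hc] at a2 a3
    have b1 : (1 : ℝ) ≤ (k : ℝ) ^ (1 / 3 - ε) :=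
      Real.one_le_rpow (by exact_mod_cast hk) (by linarith)
    have b2 : (1 : ℝ) ≤ (P.card : ℝ) := by
      have : 1 ≤ P.card := by omega
      exact_mod_cast this
    have b3 : (1 : ℝ) ≤ (P.card : ℝ) * (k : ℝ) ^ (1 / 3 - ε) := by nlinarith
    rw [← hh k]
    have b4 : (C + 2 * C' + 2) * (P.card : ℝ) * (k : ℝ) ^ (1 / 3 - ε) =
        C * ((P.card : ℝ) * (k : ℝ) ^ (1 / 3 - ε)) +
          2 * (C' * (P.card : ℝ) * (k : ℝ) ^ (1 / 3 - ε)) +
          2 * ((P.card : ℝ) * (k : ℝ) ^ (1 / 3 - ε)) := by ring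
    rw [b4]
    nlinarith

end Vale.Agent.P065.U
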