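import Vale.Agent.P065.U.Tame
import Vale.Agent.P065.U.Cmp

/-!
P065/U task Useful: a finer scale S supplies many well-crossed coarse edges.

C = 2^j, Ka = 6K². K1 = Ka^c1 (`tame_most`), η = 1/Ka^c2 (`cmp_most` with Z = P, miss = 0), ζ a small
power with 4ζ/η ≤ 1/Ka^c3 (`small`). S = 2^jS with d/(2K^c4) ≤ S ≤ d/K^c4, so S ≥ K1 C.
J = K1 sz jS, t = ζ² n²/(512 S⁴), y = η n/(4 K K1 S² C).
XR: the coarse edges that are not good number ≤ ζ n²/S²: by `crossing` on this set Bad, either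
|Bad| < 16 n or |Bad|³ ≤ 512 n² cr ≤ 512 n² |Bad| t.
Call e ∈ F fine if e.1 is Tame K1 and Cmp at scale jS in v = wi jS (sl e) and fewer than η sz/2 of the
links (e.1, b), and fewer than η sz/2 of the links (a, e.1), of window v are in Bad (`link_mem`).
Pairs (p,v) failing the last condition number ≤ 4ζ n S/η, so ≤ 3 n d/Ka edges are not fine. If
rdeg j u p ≥ d/(K C) and at least half of these edges are fine, they lie in ≥ S/(2 K K1 C) windows v
below u, each giving η sz/2 good coarse edges on each side. Otherwise count: ≤ 6 K n C/Ka pairs.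
Trim: Σ_e (WX count + (2J+1) xc) ≤ 3(2J+1) n² ≤ 9 J n² (`budget_all`, `xc_sum`, `lv_card`).
-/

namespace Vale.Agent.P065.U

open Finset Classical

theorem use_fib {α β : Type} [DecidableEq β] (W : Finset α) (f : α → β) (V : Finset β) {h : ℝ}
    (hV : ∀ p ∈ V, h ≤ ((W.filter fun e => f e = p).card : ℝ)) : V.card * h ≤ W.card := by
  rw [← nsmul_eq_mul]
  refine (card_nsmul_le_sum V _ h hV).trans ?_
  rw [← Nat.cast_sum, sum_card_fiberwise_eq_card_filter]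
  exact Nat.cast_le.2 (card_filter_le _ _)

theorem use_num {K M : ℝ} (hK : 2 ≤ K) (hM : K ^ 5 ≤ M) : 32 ≤ M ∧ 9 * 2 ^ 13 * M ^ 5 * K ≤ M ^ 10 ∧
    24 * K * M ^ 13 ≤ M ^ 20 ∧ 64 * M ^ 2 ≤ M ^ 10 ∧ 2 * M ≤ M ^ 10 ∧ 6 * K ^ 2 ≤ K ^ 5 := by
  have h1 : 32 ≤ M := le_trans (by norm_num) ((pow_le_pow_left₀ zero_le_two hK 5).trans hM)
  have h2 : K ≤ M := (le_self_pow₀ (by linarith) (by norm_num)).trans hM
  have h3 : ∀ i : ℕ, (32 : ℝ) ^ i ≤ M ^ i := fun i => pow_le_pow_left₀ (by norm_num) h1 i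
  have h4 : ∀ (a : ℝ) (i k l : ℕ), a ≤ 32 ^ i → i + k ≤ l → a * M ^ k ≤ M ^ l := fun a i k l p q =>
    (mul_le_mul_of_nonneg_right (p.trans (h3 i)) (by positivity)).trans
      ((pow_add M i k).symm.trans_le (pow_le_pow_right₀ (by linarith) q))
  have h5 := h4 (9 * 2 ^ 13) 4 6 10 (by norm_num) le_rfl
  have h6 := h4 24 1 14 20 (by norm_num) (by norm_num)
  have h7 := h4 2 1 1 10 (by norm_num) (by norm_num)
  have h8 := mul_le_mul_of_nonneg_left h2 (show 0 ≤ M ^ 5 by positivity)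
  have h9 := mul_le_mul_of_nonneg_left h2 (show 0 ≤ M ^ 13 by positivity)
  have h10 := mul_le_mul_of_nonneg_left (pow_le_pow_left₀ zero_le_two hK 3) (sq_nonneg K)
  have h11 := sq_nonneg K
  exact ⟨h1, by linarith, by linarith, h4 64 2 2 10 (by norm_num) (by norm_num), by linarith,
    by linarith⟩

namespace Cfg
variable (X : Cfg)

theorem use_cnt (G : Finset Ed) (f : Ed → Pt) (j : ℕ) (h : ℝ) :
    (∑ u ∈ range (16 ^ j), ((X.P.filter fun p =>
      h ≤ (((X.win G j u).filter fun e => f e = p).card : ℝ)).card : ℝ)) * h ≤ G.card := by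
  rw [← X.sum_win G j, Nat.cast_sum, sum_mul]
  exact sum_le_sum fun u _ => use_fib _ f _ fun p hp => (mem_filter.1 hp).2

theorem use_bad {J t B : ℝ} (h1 : 16 * X.n ≤ B) (h2 : 512 * X.n ^ 2 * t ≤ B ^ 2) :
    ((X.co J \ X.gco J t).card : ℝ) ≤ B := by
  have hn : 0 ≤ X.n := Nat.cast_nonneg _
  have h3 : X.co J \ X.gco J t ⊆ prs X.P := sdiff_subset.trans (X.co_sub J)
  have h4 : (cr (X.co J \ X.gco J t) (X.co J \ X.gco J t) : ℝ) ≤
      (X.co J \ X.gco J t).card * t := by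
    rw [cr, card_filter, sum_product, Nat.cast_sum, ← nsmul_eq_mul]
    refine sum_le_card_nsmul _ _ _ fun e he => ?_
    rw [← card_filter]
    obtain ⟨p1, p2⟩ := mem_sdiff.1 he
    exact (Nat.cast_le.2 (card_le_card (filter_subset_filter _ sdiff_subset))).trans
      (not_le.1 fun h => p2 (mem_filter.2 ⟨p1, h⟩)).le
  generalize X.co J \ X.gco J t = G at *
  by_contra h5
  have h6 : B < G.card := not_le.1 h5
  have h7 : 16 * X.P.card ≤ G.card := by 
    have h : 16 * (X.P.card : ℝ) ≤ G.card := h1.trans h6.le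
    exact_mod_cast h
  have h8 : (G.card : ℝ) ^ 3 ≤ 512 * X.n * X.n * cr G G := by
    have := crossing X.P X.gen G h3 X.P X.P (fun e he => (mem_prs.1 (h3 he)).1)
      (fun e he => (mem_prs.1 (h3 he)).2.1) h7 h7
    unfold n
    exact_mod_cast this
  have h9 := mul_le_mul_of_nonneg_left h4 (show 0 ≤ 512 * X.n * X.n by positivity)
  have h10 := mul_le_mul_of_nonneg_left h2 (Nat.cast_nonneg (α := ℝ) G.card)
  have h11 := mul_lt_mul_of_pos_left (pow_lt_pow_left₀ h6 (by linarith) two_ne_zero)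
    (show (0 : ℝ) < G.card by linarith)
  linarith

theorem use_trim {J : ℝ} (hJ : 1 ≤ J) (t : ℝ) :
    ((X.F.filter fun e => ¬ X.TrimC J t e).card : ℝ) * t ≤ 9 * J * X.n ^ 2 := by
  have h1 : ((∑ e ∈ X.F, ((X.co J).filter fun e' => WX e e').card : ℕ) : ℝ) ≤
      (2 * J + 1) * X.n ^ 2 := by
    have h := budget_all X.gen X.T {X.k} (X.lv J)
    rw [← edges_eq, wcr, card_filter, sum_product, card_singleton, one_mul] at h
    simp only [← card_filter] at h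
    refine (Nat.cast_le.2 h).trans ?_
    rw [Nat.cast_mul, Nat.cast_pow]
    exact mul_le_mul_of_nonneg_right (X.lv_card (by linarith)) (by positivity)
  have h2 : ((∑ e ∈ X.F, xc X.P e.1 e.2 : ℕ) : ℝ) ≤ 2 * X.n ^ 2 := by
    have h : ∑ e ∈ edges X.P X.k, xc X.P e.1 e.2 ≤ 2 * X.P.card ^ 2 := Tok.xc_sum X.gen _
    unfold n
    exact_mod_cast h
  have h3 := mul_le_mul_of_nonneg_left h2 (show 0 ≤ 2 * J + 1 by linarith)
  have h4 := mul_le_mul_of_nonneg_right hJ (sq_nonneg X.n)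
  rw [Nat.cast_sum] at h1
  rw [Nat.cast_sum, mul_sum] at h3
  rw [← nsmul_eq_mul]
  refine (card_nsmul_le_sum _ _ t fun e he => not_lt.1 (mem_filter.1 he).2).trans
    ((sum_le_sum_of_subset_of_nonneg (filter_subset _ _) fun e _ _ => by positivity).trans ?_)
  rw [sum_add_distrib]
  linarith

theorem use_link {j v : ℕ} (hv : v < 16 ^ j) {J t y h : ℝ} {p : Pt} (hp : p ∈ X.P)
    (hs : X.Stay j v J p) (hc : X.Cmp j v X.P y p) (hy : 2 * h ≤ y)
    (h1 : (((X.win (X.co J \ X.gco J t) j v).filter fun e => e.1 = p).card : ℝ) < h)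
    (h2 : (((X.win (X.co J \ X.gco J t) j v).filter fun e => e.2 = p).card : ℝ) < h) :
    X.Useful J t h j v p := by
  have key : ∀ (f : Ed → Pt) (g : Pt → Ed) (Z : Finset Pt), Function.Injective g →
      (∀ z ∈ Z, g z ∈ X.win (X.co J) j v ∧ f (g z) = p) →
      (Z.card : ℝ) ≤ ((X.win (X.gco J t) j v).filter fun e => f e = p).card +
        ((X.win (X.co J \ X.gco J t) j v).filter fun e => f e = p).card := fun f g Z q1 q2 => by
    rw [← Nat.cast_add, Nat.cast_le]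
    refine (card_le_card_of_injOn g (fun z hz => ?_) q1.injOn).trans (card_union_le _ _)
    obtain ⟨q3, q4⟩ := q2 z hz
    obtain ⟨q5, q6⟩ := mem_filter.1 q3
    rw [mem_coe, mem_union]
    by_cases q : g z ∈ X.gco J t
    · exact Or.inl (mem_filter.2 ⟨mem_filter.2 ⟨q, q6⟩, q4⟩)
    · exact Or.inr (mem_filter.2 ⟨mem_filter.2 ⟨mem_sdiff.2 ⟨q5, q⟩, q6⟩, q4⟩)
  have h3 := hc.2.trans (key Prod.fst (fun z => (p, z)) _ (Prod.mk_right_injective p) fun z hz =>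
    ⟨X.link_mem hv hp (mem_filter.1 hz).1 (mem_filter.1 hz).2 (Or.inl hs), rfl⟩)
  have h4 := hc.1.trans (key Prod.snd (fun z => (z, p)) _ (Prod.mk_left_injective p) fun z hz =>
    ⟨X.link_mem hv (mem_filter.1 hz).1 hp (mem_filter.1 hz).2 (Or.inr hs), rfl⟩)
  exact ⟨by linarith, by linarith⟩

theorem use_up (G A : Finset Ed) (f : Ed → Pt) {j j' u : ℕ} (hj : j' ≤ j) {p : Pt} {h r : ℝ}
    (h0 : 0 ≤ h) (r0 : 0 ≤ r) (h1 : ∀ e ∈ A, X.wi j' (sl e) = u)
    (h2 : ∀ e ∈ A, h ≤ (((X.win G j (X.wi j (sl e))).filter fun e => f e = p).card : ℝ))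
    (h3 : ∀ e ∈ A, ((X.win A j (X.wi j (sl e))).card : ℝ) ≤ r) :
    A.card * h ≤ r * ((X.win G j' u).filter fun e => f e = p).card := by
  have h4 : (A.card : ℝ) ≤ (A.image fun e => X.wi j (sl e)).card * r := by
    rw [card_eq_sum_card_image (fun e => X.wi j (sl e)) A, Nat.cast_sum, ← nsmul_eq_mul]
    refine sum_le_card_nsmul _ _ _ fun v hv => ?_
    obtain ⟨e, he, rfl⟩ := mem_image.1 hv
    exact h3 e he
  have h5 := use_fib ((X.win G j' u).filter fun e => f e = p) (fun e => X.wi j (sl e))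
    (A.image fun e => X.wi j (sl e)) (h := h) fun v hv => by
      obtain ⟨e, he, rfl⟩ := mem_image.1 hv
      refine (h2 e he).trans (Nat.cast_le.2 (card_le_card fun g hg => ?_))
      obtain ⟨q1, q2⟩ := mem_filter.1 hg
      refine mem_filter.2 ⟨mem_filter.2 ⟨?_, q2⟩, (mem_filter.1 q1).2⟩
      rw [← h1 e he, X.wi_anc hj]
      exact X.win_anc _ hj _ q1
  have h6 := mul_le_mul_of_nonneg_right h4 h0
  have h7 := mul_le_mul_of_nonneg_left h5 r0
  linarith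

/-- the counting step, for an abstract set `N` of exceptional fine edges -/
theorem use_fin (N : Finset Ed) {j j' : ℕ} (hj : j' ≤ j) {J t h r a y : ℝ} (h0 : 0 ≤ h)
    (r0 : 0 < r) (hy : y * r ≤ a * h)
    (hN : ∀ e ∈ X.F, e ∉ N → X.Useful J t h j (X.wi j (sl e)) e.1 ∧
      (X.rdeg j (X.wi j (sl e)) e.1 : ℝ) ≤ r) {u : ℕ} {p : Pt} (h1 : 2 * a ≤ X.rdeg j' u p)
    (h2 : (((X.win N j' u).filter fun e => e.1 = p).card : ℝ) < a) : X.Useful J t y j' u p := by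
  obtain ⟨A, hA⟩ : ∃ A, A = ((X.win X.F j' u).filter fun e => e.1 = p) \ N := ⟨_, rfl⟩
  have h3 : ∀ e ∈ A, ((e ∈ X.F ∧ X.wi j' (sl e) = u) ∧ e.1 = p) ∧ e ∉ N := fun e he => by
    simpa only [hA, mem_sdiff, mem_filter, win] using he
  have h4 : X.rdeg j' u p ≤ A.card + ((X.win N j' u).filter fun e => e.1 = p).card := by
    refine (card_le_card fun e he => ?_).trans (card_union_le _ _)
    by_cases q : e ∈ N
    · exact mem_union_right _ (mem_filter.2 ⟨mem_filter.2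
        ⟨q, (mem_filter.1 (mem_filter.1 he).1).2⟩, (mem_filter.1 he).2⟩)
    · exact mem_union_left _ (hA ▸ mem_sdiff.2 ⟨he, q⟩)
  have h5 : y * r ≤ A.card * h := hy.trans (mul_le_mul_of_nonneg_right (by
    have : (X.rdeg j' u p : ℝ) ≤ A.card + ((X.win N j' u).filter fun e => e.1 = p).card := by
      exact_mod_cast h4
    linarith) h0)
  have h6 : ∀ e ∈ A, ((X.win A j (X.wi j (sl e))).card : ℝ) ≤ r := fun e he =>
    le_trans (Nat.cast_le.2 (card_le_card fun g hg => by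
      obtain ⟨q1, q2⟩ := mem_filter.1 hg
      exact mem_filter.2 ⟨mem_filter.2 ⟨(h3 g q1).1.1.1, q2⟩,
        (h3 g q1).1.2.trans (h3 e he).1.2.symm⟩)) (hN e (h3 e he).1.1.1 (h3 e he).2).2
  rw [mul_comm y] at h5
  exact ⟨le_of_mul_le_mul_left (h5.trans (X.use_up _ A Prod.fst hj h0 r0.le
      (fun e he => (h3 e he).1.1.2)
      (fun e he => (h3 e he).1.2 ▸ (hN e (h3 e he).1.1.1 (h3 e he).2).1.1) h6)) r0,
    le_of_mul_le_mul_left (h5.trans (X.use_up _ A Prod.snd hj h0 r0.le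
      (fun e he => (h3 e he).1.1.2)
      (fun e he => (h3 e he).1.2 ▸ (hN e (h3 e he).1.1.1 (h3 e he).2).1.2) h6)) r0⟩

end Cfg

/-- the exceptional fine edges -/
theorem use_exc : ∃ m : ℕ, 1 ≤ m ∧ ∀ (X : Cfg) (K : ℝ) (j : ℕ) (M σ t : ℝ), X.Big K → K ^ m ≤ M →
    X.d = σ * 2 ^ j → 64 * M ^ 2 ≤ σ → t = σ ^ 6 * (2 ^ j) ^ 2 / (2 ^ 13 * M ^ 4) →
    ∃ N : Finset Ed, (N.card : ℝ) ≤ 3 * (X.n * X.d / K) ∧ ∀ e ∈ X.F, e ∉ N →
      X.Useful (M * σ ^ 3) t (σ ^ 3 / (2 * M)) j (X.wi j (sl e)) e.1 ∧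
        (X.rdeg j (X.wi j (sl e)) e.1 : ℝ) ≤ M * σ := by
  obtain ⟨c1, H1⟩ := Cfg.tame_most
  obtain ⟨c2, H2⟩ := Cfg.cmp_most
  obtain ⟨c3, H3⟩ := Cfg.small
  refine ⟨c1 + c2 + c3 + 1, by omega, fun X K j M σ t hB hM hd hσ ht => ?_⟩
  have hK := hB.1
  have k0 : ∀ c ≤ c1 + c2 + c3 + 1, K ^ c ≤ M := fun c h =>
    (pow_le_pow_right₀ (by linarith) h).trans hM
  have m1 : 1 ≤ M := by simpa using k0 0 (Nat.zero_le _)
  have s1 : M ≤ σ := by nlinarith
  have s2 : 1 ≤ σ := m1.trans s1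
  have S1 : (1 : ℝ) ≤ 2 ^ j := one_le_pow₀ one_le_two
  have k1 : ∀ c ≤ c1 + c2 + c3 + 1, 2 ^ j * K ^ c ≤ X.d := fun c h => by
    rw [hd, mul_comm σ]
    exact mul_le_mul_of_nonneg_left ((k0 c h).trans s1) (by positivity)
  have hσ' : X.d / 2 ^ j = σ := by rw [hd, mul_div_cancel_right₀ _ (by positivity)]
  have hsz : X.sz j = σ ^ 3 := by rw [X.sz_eq, hσ']
  have hn : X.n = σ ^ 3 * (2 ^ j) ^ 3 := by rw [X.n_eq, hd, mul_pow]
  have hbad := X.use_bad (J := M * σ ^ 3) (t := t) (B := σ ^ 6 * (2 ^ j) ^ 4 / (4 * M ^ 2))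
    (by
      rw [hn, le_div_iff₀ (by positivity)]
      have h1 : 64 * M ^ 2 ≤ σ ^ 3 * 2 ^ j := hσ.trans ((le_self_pow₀ s2 three_ne_zero).trans
        (le_mul_of_one_le_right (by positivity) S1))
      have h2 := mul_le_mul_of_nonneg_left h1 (show 0 ≤ σ ^ 3 * (2 ^ j) ^ 3 by positivity)
      linarith)
    (le_of_eq (by rw [hn, ht]; field_simp; norm_num))
  obtain ⟨G, hG⟩ : ∃ G, G = X.co (M * σ ^ 3) \ X.gco (M * σ ^ 3) t := ⟨_, rfl⟩
  obtain ⟨Y, hY⟩ : ∃ Y : ℕ → Finset Pt, Y = fun v =>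
      (X.P.filter fun p => σ ^ 3 / (2 * M) ≤ (((X.win G j v).filter fun e => e.1 = p).card : ℝ)) ∪
      X.P.filter fun p => σ ^ 3 / (2 * M) ≤ (((X.win G j v).filter fun e => e.2 = p).card : ℝ) :=
    ⟨_, rfl⟩
  have a1 := H1 X K M j hB (k0 c1 (by omega)) (k1 c1 (by omega))
  have a2 := H2 X K j (fun _ => X.P) hK (k1 c2 (by omega)) fun _ => subset_rfl
  have a3 := H3 X K j Y hK (k1 c3 (by omega)) (by
    have h1 := X.use_cnt G Prod.fst j (σ ^ 3 / (2 * M))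
    have h2 := X.use_cnt G Prod.snd j (σ ^ 3 / (2 * M))
    refine le_trans (le_of_mul_le_mul_right ?_ (show 0 < σ ^ 3 / (2 * M) by positivity))
      (div_le_div_of_nonneg_left (by rw [hn]; positivity) (by positivity) (k0 c3 (by omega)))
    have h3 : 2 ^ j * X.n / M * (σ ^ 3 / (2 * M)) = 2 * (σ ^ 6 * (2 ^ j) ^ 4 / (4 * M ^ 2)) := by
      rw [hn]
      field_simp
      norm_num
    rw [← hG] at hbad
    rw [hY]
    refine (mul_le_mul_of_nonneg_right (sum_le_sum fun v _ => Nat.cast_le.2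
      (card_union_le _ _)) (by positivity)).trans ?_
    simp only [Nat.cast_add, sum_add_distrib, add_mul]
    linarith)
  have a4 : X.miss j (fun _ => X.P) = 0 := card_eq_zero.2 (filter_eq_empty_iff.2 fun e he h =>
    h (mem_prs.1 (X.F_sub he)).1)
  rw [a4, Nat.cast_zero, add_zero, hsz] at a2
  unfold Cfg.miss at a1
  refine ⟨_, (Nat.cast_le.2 ((card_union_le _ _).trans
    (Nat.add_le_add_right (card_union_le _ _) _))).trans (by
      rw [Nat.cast_add, Nat.cast_add]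
      exact (add_le_add (add_le_add a1 a2) a3).trans_eq (by ring)), fun e he h => ?_⟩
  have p1 := (mem_prs.1 (X.F_sub he)).1
  simp only [mem_union, mem_filter, he, p1, true_and, not_or, not_not] at h
  obtain ⟨⟨p2, p3⟩, p4, -⟩ := h
  have p5 := p2.reg j le_rfl
  rw [Nat.sub_self, pow_zero, Nat.div_one] at p5
  simp only [hY, mem_union, mem_filter, p1, true_and, not_or, not_le, hG] at p4
  refine ⟨X.use_link p2.lt p1 (hsz ▸ p5.stay) p3 ?_ p4.1 p4.2,
    p5.rdeg_le.trans_eq (by rw [mul_div_assoc, hσ'])⟩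
  rw [show 2 * (σ ^ 3 / (2 * M)) = σ ^ 3 / M by field_simp]
  exact div_le_div_of_nonneg_left (by positivity) (by positivity) (k0 c2 (by omega))

theorem Cfg.useful_most : ∃ c : ℕ, ∀ (X : Cfg) (K : ℝ) (j : ℕ), X.Big K → 2 ^ j * K ^ c ≤ X.d →
    ∃ J t y : ℝ, 1 ≤ J ∧ J ≤ X.sz j ∧ 0 < y ∧ (2 * J + 1) * X.d ≤ K ^ c * y * 2 ^ j ∧
      ((X.F.filter fun e => ¬ X.TrimC J t e).card : ℝ) ≤ X.n * X.d / K ∧
      ∑ u ∈ range (16 ^ j), ((X.P.filter fun p => X.d / (K * 2 ^ j) ≤ X.rdeg j u p ∧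
        ¬ X.Useful J t y j u p).card : ℝ) ≤ X.n * 2 ^ j / K := by
  obtain ⟨m, hm, H⟩ := use_exc
  refine ⟨5 * m * 20, fun X K j hB hd => ?_⟩
  have hK := hB.1
  have k1 : 1 ≤ K ^ 5 := one_le_pow₀ (by linarith)
  rw [pow_mul, pow_mul] at hd ⊢
  obtain ⟨M, hM⟩ : ∃ M, M = (K ^ 5) ^ m := ⟨_, rfl⟩
  rw [← hM] at hd ⊢
  obtain ⟨n1, n2, n3, n4, n5, n6⟩ := use_num hK (hM ▸ le_self_pow₀ k1 (by omega) : K ^ 5 ≤ M)
  have C1 : (1 : ℝ) ≤ 2 ^ j := one_le_pow₀ one_le_two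
  have m0 : 0 < M := by linarith
  have m1 : 0 < M ^ 10 := by positivity
  have m2 : 2 ^ j * M ^ 10 ≤ X.d / M ^ 10 := by
    rw [le_div_iff₀ m1, mul_assoc, ← pow_add]
    exact hd
  obtain ⟨i, i1, i2⟩ := exists_nat_pow_near (x := X.d / M ^ 10)
    ((one_le_mul_of_one_le_of_one_le C1 (by linarith)).trans m2) one_lt_two
  have S0 : (0 : ℝ) < 2 ^ i := by positivity
  obtain ⟨σ, hσ⟩ : ∃ σ, X.d = σ * 2 ^ i := ⟨X.d / 2 ^ i, (div_mul_cancel₀ _ S0.ne').symm⟩
  have s1 : M ^ 10 ≤ σ := by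
    rw [le_div_iff₀ m1, hσ, mul_comm] at i1
    exact le_of_mul_le_mul_right i1 S0
  have s2 : σ ≤ 2 * M ^ 10 := by
    rw [div_lt_iff₀ m1, hσ, pow_succ, mul_assoc, mul_comm σ] at i2
    exact (lt_of_mul_lt_mul_left i2 S0.le).le
  have s3 : 2 ^ j * M ≤ 2 ^ i := by
    have := mul_le_mul_of_nonneg_left n5 (show (0 : ℝ) ≤ 2 ^ j by positivity)
    rw [pow_succ 2 i] at i2
    linarith
  have hj : j ≤ i := (pow_le_pow_iff_right₀ one_lt_two).1
    ((le_mul_of_one_le_right (by positivity) (by linarith)).trans s3)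
  have s4 : 1 ≤ σ := by linarith
  have hn : X.n = σ ^ 3 * (2 ^ i) ^ 3 := by rw [X.n_eq, hσ, mul_pow]
  have J1 : 1 ≤ M * σ ^ 3 := one_le_mul_of_one_le_of_one_le (by linarith) (one_le_pow₀ s4)
  obtain ⟨N, N1, N2⟩ := H X (K ^ 5) i M σ _ (hB.mono (le_self_pow₀ (by linarith) (by norm_num)))
    hM.ge hσ (n4.trans s1) rfl
  have d0 := X.d_pos
  refine ⟨M * σ ^ 3, σ ^ 6 * (2 ^ i) ^ 2 / (2 ^ 13 * M ^ 4),
    X.d * σ ^ 2 / (4 * K * M ^ 2 * 2 ^ j), J1, ?_, by positivity, ?_, ?_, ?_⟩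
  · rw [X.sz_eq]
    refine le_trans ?_ (pow_le_pow_left₀ (a := M * σ) (by positivity) ?_ 3)
    · rw [mul_pow]
      exact mul_le_mul_of_nonneg_right (le_self_pow₀ (by linarith) three_ne_zero) (by positivity)
    · rw [le_div_iff₀ (by positivity), hσ]
      have := mul_le_mul_of_nonneg_left s3 (show 0 ≤ σ by linarith)
      linarith
  · rw [show M ^ 20 * (X.d * σ ^ 2 / (4 * K * M ^ 2 * 2 ^ j)) * 2 ^ j =
      M ^ 20 * σ ^ 2 / (4 * K * M ^ 2) * X.d by field_simp]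
    refine mul_le_mul_of_nonneg_right ?_ d0.le
    rw [le_div_iff₀ (by positivity)]
    have h1 := mul_le_mul_of_nonneg_left J1 (show 0 ≤ 4 * K * M ^ 2 by positivity)
    have h2 := mul_le_mul_of_nonneg_left s2 (show 0 ≤ 12 * K * M ^ 3 * σ ^ 2 by positivity)
    have h3 := mul_le_mul_of_nonneg_right n3 (sq_nonneg σ)
    linarith
  · refine le_of_mul_le_mul_right ((X.use_trim J1 _).trans ?_) (by positivity)
    rw [div_mul_div_comm, le_div_iff₀ (by positivity), hσ, hn]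
    have h1 := mul_le_mul_of_nonneg_left (n2.trans s1)
      (show 0 ≤ σ ^ 9 * ((2 : ℝ) ^ i) ^ 6 by positivity)
    linarith
  · have h1 := (X.use_cnt N Prod.fst j (X.d / (2 * K * 2 ^ j))).trans N1
    refine le_trans (sum_le_sum fun u _ => Nat.cast_le.2 (card_le_card
      (monotone_filter_right _ fun p _ hp => not_lt.1 fun h => hp.2 ?_)))
      (le_of_mul_le_mul_right (h1.trans ?_) (by positivity))
    · exact X.use_fin N hj (by positivity) (by positivity) (le_of_eq (by field_simp; norm_num)) N2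
        (le_trans (le_of_eq (by field_simp)) hp.1) h
    · rw [show X.n * 2 ^ j / K * (X.d / (2 * K * 2 ^ j)) = 3 * (X.n * X.d / (6 * K ^ 2)) by
        field_simp; ring]
      exact mul_le_mul_of_nonneg_left (div_le_div_of_nonneg_left (by rw [hn]; positivity)
        (by positivity) n6) (by norm_num)

end Vale.Agent.P065.U
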